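/-
Row 160 (S0241): combinatorics of the d-regular tree: closer neighbours, geodesics, the canonical
code of a rooted regular tree, extension of geodesics to automorphisms, cones, projections.
-/
import Mathlib

set_option autoImplicit false

namespace Crest.Agent.Lib.IsingFIID

open SimpleGraph

universe u u'

variable {V : Type u} {G : SimpleGraph V}

/-- Symmetry of the graph distance. -/
theorem dc (G : SimpleGraph V) (u v : V) : G.dist u v = G.dist v u := SimpleGraph.dist_comm

/-! ### Closer neighbours -/

/-- In a tree a vertex has at most one neighbour closer to a given root. -/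
theorem closer_unique (hT : G.IsTree) (o : V) {v a b : V} (ha : G.Adj v a) (hb : G.Adj v b)
    (da : G.dist o v = G.dist o a + 1) (db : G.dist o v = G.dist o b + 1) : a = b := by
  classical
  obtain ⟨p, hp, hpl⟩ := (hT.connected o a).exists_path_of_dist
  obtain ⟨q, hq, hql⟩ := (hT.connected o b).exists_path_of_dist
  have hvp : v ∉ p.support := by
    intro hv
    have h1 : G.dist o v ≤ (p.takeUntil v hv).length := dist_le _
    have h2 := p.length_takeUntil_le_length hv
    omega
  have hvq : v ∉ q.support := by
    intro hv
    have h1 : G.dist o v ≤ (q.takeUntil v hv).length := dist_le _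
    have h2 := q.length_takeUntil_le_length hv
    omega
  have h1 : (p.concat ha.symm).IsPath := hp.concat hvp ha.symm
  have h2 : (q.concat hb.symm).IsPath := hq.concat hvq hb.symm
  have h3 := (hT.isAcyclic.subsingleton_path o v).elim ⟨_, h1⟩ ⟨_, h2⟩
  have h4 : p.concat ha.symm = q.concat hb.symm := congrArg Subtype.val h3
  have h5 := congrArg Walk.penultimate h4
  simpa using h5

/-- A vertex other than the root has a closer neighbour. -/
theorem exists_closer (hT : G.IsTree) (o : V) {v : V} (hv : v ≠ o) :
    ∃ a, G.Adj v a ∧ G.dist o v = G.dist o a + 1 := by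
  classical
  obtain ⟨p, hp⟩ := (hT.connected o v).exists_walk_length_eq_dist
  have hnil : ¬ p.Nil := fun h => hv h.eq.symm
  refine ⟨p.penultimate, (p.adj_penultimate hnil).symm, ?_⟩
  have h1 : G.dist o p.penultimate ≤ p.dropLast.length := dist_le _
  have h2 : p.dropLast.length + 1 = p.length := by
    have := p.length_dropLast
    have h3 : 0 < p.length := by
      rcases Nat.eq_zero_or_pos p.length with h | h
      · exact absurd (Walk.length_eq_zero_iff.mp h) hnil
      · exact h
    omega
  rcases hT.dist_eq_dist_add_one_of_adj o (p.adj_penultimate hnil).symm with h | h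
  · exact h
  · omega

/-! ### Geodesics -/

/-- A non-backtracking walk `x 0, …, x r`: in a tree this is a geodesic. -/
structure IsGeod (G : SimpleGraph V) (x : ℕ → V) (r : ℕ) : Prop where
  adj : ∀ i, i < r → G.Adj (x i) (x (i + 1))
  nb : ∀ i, i + 1 < r → x (i + 2) ≠ x i

theorem IsGeod.shift {x : ℕ → V} {r : ℕ} (hx : IsGeod G x r) (k : ℕ) :
    IsGeod G (fun i => x (k + i)) (r - k) where
  adj := fun i hi => by
    have := hx.adj (k + i) (by omega)
    simpa [add_assoc] using this
  nb := fun i hi => by
    have := hx.nb (k + i) (by omega)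
    simpa [add_assoc] using this

theorem IsGeod.mono {x : ℕ → V} {r s : ℕ} (hx : IsGeod G x r) (hs : s ≤ r) : IsGeod G x s where
  adj := fun i hi => hx.adj i (by omega)
  nb := fun i hi => hx.nb i (by omega)

/-- Distance from the start of a geodesic. -/
theorem IsGeod.dist_zero (hT : G.IsTree) {x : ℕ → V} {r : ℕ} (hx : IsGeod G x r) :
    ∀ i, i ≤ r → G.dist (x 0) (x i) = i := by
  intro i
  induction i using Nat.strong_induction_on with
  | _ i ih =>
    intro hi
    match i, ih, hi with
    | 0, _, _ => simp
    | 1, _, hi =>
      have := hx.adj 0 (by omega)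
      simpa using dist_eq_one_iff_adj.mpr this
    | i + 2, ih, hi =>
      have h1 := ih (i + 1) (by omega) (by omega)
      have h0 := ih i (by omega) (by omega)
      have a1 : G.Adj (x (i + 1)) (x (i + 2)) := hx.adj (i + 1) (by omega)
      have a0 : G.Adj (x i) (x (i + 1)) := hx.adj i (by omega)
      rcases hT.dist_eq_dist_add_one_of_adj (x 0) a1 with h | h
      · exfalso
        have : x (i + 2) = x i :=
          closer_unique hT (x 0) a1 a0.symm h (by rw [h1, h0])
        exact hx.nb i (by omega) this
      · omega

/-- Distance along a geodesic. -/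
theorem IsGeod.dist_eq (hT : G.IsTree) {x : ℕ → V} {r : ℕ} (hx : IsGeod G x r) {i j : ℕ}
    (hij : i ≤ j) (hj : j ≤ r) : G.dist (x i) (x j) = j - i := by
  have := (hx.shift i).dist_zero hT (j - i) (by omega)
  simp only [add_zero] at this
  rwa [show i + (j - i) = j by omega] at this

theorem IsGeod.injOn (hT : G.IsTree) {x : ℕ → V} {r : ℕ} (hx : IsGeod G x r) {i j : ℕ}
    (hi : i ≤ r) (hj : j ≤ r) (h : x i = x j) : i = j := by
  rcases le_total i j with hij | hij
  · have := hx.dist_eq hT hij hj
    rw [h, dist_self] at this
    omega
  · have := hx.dist_eq hT hij hi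
    rw [h, dist_self] at this
    omega

/-- A geodesic from `a` to `b` exists. -/
theorem exists_geod (hT : G.IsTree) (a b : V) :
    ∃ x : ℕ → V, IsGeod G x (G.dist a b) ∧ x 0 = a ∧ x (G.dist a b) = b := by
  classical
  suffices H : ∀ n (b : V), G.dist a b = n → ∃ x : ℕ → V, IsGeod G x n ∧ x 0 = a ∧ x n = b by
    exact H _ b rfl
  intro n
  induction n with
  | zero =>
    intro b hb
    have : a = b := by
      have := (hT.connected a b)
      exact (this.dist_eq_zero_iff).mp hb
    exact ⟨fun _ => a, ⟨fun i hi => absurd hi (by omega), fun i hi => absurd hi (by omega)⟩,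
      rfl, this⟩
  | succ n ih =>
    intro b hb
    have hne : b ≠ a := by
      rintro rfl
      simp at hb
    obtain ⟨c, hc, hd⟩ := exists_closer hT a hne
    obtain ⟨x, hx, h0, hn⟩ := ih c (by omega)
    refine ⟨fun i => if i ≤ n then x i else b, ⟨?_, ?_⟩, ?_, ?_⟩
    · intro i hi
      by_cases h : i < n
      · simp only [show i ≤ n by omega, show i + 1 ≤ n by omega, if_true]
        exact hx.adj i h
      · have : i = n := by omega
        subst this
        simp only [le_refl, if_true, show ¬ (i + 1 ≤ i) by omega, if_false, hn]
        exact hc.symm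
    · intro i hi
      by_cases h : i + 2 ≤ n
      · simp only [h, show i ≤ n by omega, if_true]
        exact hx.nb i (by omega)
      · have : i + 1 = n := by omega
        subst this
        simp only [h, if_false, show i ≤ i + 1 by omega, if_true]
        intro hb'
        have h1 := hx.dist_eq hT (Nat.zero_le i) (by omega)
        rw [h0] at h1
        rw [hb'] at hd hb
        omega
    · simp [h0]
    · simp


/-! ### The canonical code of a rooted regular tree -/

/-- Valid codes: the last letter (first step from the root) is `< d`, the others `< d - 1`. -/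
def ValidCode (d : ℕ) : List ℕ → Prop
  | [] => True
  | [a] => a < d
  | a :: b :: l => a < d - 1 ∧ ValidCode d (b :: l)

/-- Code by fuel. -/
def codeAux (par : V → V) (p : V → V → ℕ) : ℕ → V → List ℕ
  | 0, _ => []
  | n + 1, v => p (par v) v :: codeAux par p n (par v)

/-- A port numbering of a finite set with a designated element numbered `0`. -/
theorem exists_port {α : Type*} [DecidableEq α] (s : Finset α) (c : α) :
    ∃ p : α → ℕ, (∀ a ∈ s, p a < s.card) ∧ Set.InjOn p s ∧ (c ∈ s → p c = 0) ∧
      (∀ n, n < s.card → ∃ a ∈ s, p a = n) := by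
  classical
  by_cases hc : c ∈ s
  · have hpos : 0 < s.card := Finset.card_pos.mpr ⟨c, hc⟩
    let e : s ≃ Fin s.card := s.equivFin
    let z : Fin s.card := ⟨0, hpos⟩
    let e' : s ≃ Fin s.card := e.trans (Equiv.swap (e ⟨c, hc⟩) z)
    refine ⟨fun a => if h : a ∈ s then (e' ⟨a, h⟩ : ℕ) else 0, ?_, ?_, ?_, ?_⟩
    · intro a ha
      simp only [ha, dif_pos]
      exact (e' ⟨a, ha⟩).2
    · intro a ha b hb hab
      have ha' : a ∈ s := ha
      have hb' : b ∈ s := hb
      simp only [ha', hb', dif_pos] at hab
      have := e'.injective (Fin.ext hab)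
      simpa using this
    · intro _
      simp [hc, e', z]
    · intro n hn
      refine ⟨(e'.symm ⟨n, hn⟩ : s), (e'.symm ⟨n, hn⟩).2, ?_⟩
      simp
  · let e : s ≃ Fin s.card := s.equivFin
    refine ⟨fun a => if h : a ∈ s then (e ⟨a, h⟩ : ℕ) else 0, ?_, ?_, ?_, ?_⟩
    · intro a ha
      simp only [ha, dif_pos]
      exact (e ⟨a, ha⟩).2
    · intro a ha b hb hab
      have ha' : a ∈ s := ha
      have hb' : b ∈ s := hb
      simp only [ha', hb', dif_pos] at hab
      have := e.injective (Fin.ext hab)
      simpa using this
    · intro h
      exact absurd h hc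
    · intro n hn
      refine ⟨(e.symm ⟨n, hn⟩ : s), (e.symm ⟨n, hn⟩).2, ?_⟩
      simp

section Code

variable [G.LocallyFinite]

open Classical in
/-- The children of `v` with respect to the root `o`. -/
noncomputable def children (G : SimpleGraph V) [G.LocallyFinite] (o v : V) : Finset V :=
  (G.neighborFinset v).filter (fun c => G.dist o c = G.dist o v + 1)

theorem mem_children {o v c : V} : c ∈ children G o v ↔ G.Adj v c ∧ G.dist o c = G.dist o v + 1 := by
  classical
  simp [children]

theorem card_children_root {d : ℕ} (hreg : G.IsRegularOfDegree d) (o : V) :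
    (children G o o).card = d := by
  classical
  have : children G o o = G.neighborFinset o := by
    ext c
    simp only [mem_children, mem_neighborFinset, dist_self, zero_add]
    constructor
    · exact fun h => h.1
    · exact fun h => ⟨h, dist_eq_one_iff_adj.mpr h⟩
  rw [this, card_neighborFinset_eq_degree, hreg o]

theorem card_children_of_ne {d : ℕ} (hT : G.IsTree) (hreg : G.IsRegularOfDegree d) {o v : V}
    (hv : v ≠ o) : (children G o v).card = d - 1 := by
  classical
  obtain ⟨a, ha, hd⟩ := exists_closer hT o hv
  have : children G o v = (G.neighborFinset v).erase a := by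
    ext c
    simp only [mem_children, Finset.mem_erase, mem_neighborFinset]
    constructor
    · rintro ⟨h1, h2⟩
      refine ⟨?_, h1⟩
      rintro rfl
      omega
    · rintro ⟨h1, h2⟩
      refine ⟨h2, ?_⟩
      rcases hT.dist_eq_dist_add_one_of_adj o h2 with h | h
      · exact absurd (closer_unique hT o h2 ha h hd) h1
      · exact h
  rw [this, Finset.card_erase_of_mem (by simpa using ha), card_neighborFinset_eq_degree, hreg v]

/-- Existence of a code of a rooted `d`-regular tree in which a given geodesic from the root
is coded by zeros. -/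
theorem exists_code {d : ℕ} (hT : G.IsTree) (hreg : G.IsRegularOfDegree d)
    {x : ℕ → V} {r : ℕ} (hx : IsGeod G x r) :
    ∃ code : V → List ℕ, Function.Injective code ∧
      (∀ v w, G.Adj v w ↔ (∃ a, code v = a :: code w) ∨ (∃ a, code w = a :: code v)) ∧
      (∀ i, i ≤ r → code (x i) = List.replicate i 0) ∧
      (∀ l, ValidCode d l ↔ ∃ v, code v = l) := by
  classical
  set o := x 0 with ho
  -- the parent
  have hpar : ∀ v : V, ∃ a : V, v ≠ o → (G.Adj v a ∧ G.dist o v = G.dist o a + 1) := by
    intro v
    by_cases hv : v = o
    · exact ⟨v, fun h => absurd hv h⟩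
    · obtain ⟨a, ha⟩ := exists_closer hT o hv
      exact ⟨a, fun _ => ha⟩
  choose par hpar using hpar
  -- the designated child
  have hnext : ∀ v : V, ∃ c : V, ∀ i, i < r → x i = v → c = x (i + 1) := by
    intro v
    by_cases h : ∃ i, i < r ∧ x i = v
    · obtain ⟨i, hi, hv⟩ := h
      refine ⟨x (i + 1), fun j hj hjv => ?_⟩
      have : i = j := hx.injOn hT (by omega) (by omega) (hv.trans hjv.symm)
      rw [this]
    · exact ⟨v, fun i hi hv => absurd ⟨i, hi, hv⟩ h⟩
  choose nxt hnxt using hnext
  -- ports
  have hport := fun v : V => exists_port (children G o v) (nxt v)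
  choose p hp1 hp2 hp3 hp4 using hport
  let code : V → List ℕ := fun v => codeAux par p (G.dist o v) v
  have code_o : code o = [] := by
    simp [code, codeAux]
  have code_ne : ∀ v, v ≠ o → code v = p (par v) v :: code (par v) := by
    intro v hv
    have h := (hpar v hv).2
    simp only [code]
    rw [h]
    rfl
  have par_child : ∀ v, v ≠ o → v ∈ children G o (par v) := by
    intro v hv
    exact mem_children.mpr ⟨(hpar v hv).1.symm, (hpar v hv).2⟩
  have code_len : ∀ v, (code v).length = G.dist o v := by
    intro v
    simp only [code]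
    generalize G.dist o v = n
    induction n generalizing v with
    | zero => simp [codeAux]
    | succ n ih => simp [codeAux, ih]
  have code_nil : ∀ v, code v = [] → v = o := by
    intro v hv
    by_contra h
    rw [code_ne v h] at hv
    simp at hv
  -- injective
  have inj : Function.Injective code := by
    intro v w hvw
    have key : ∀ n v w, G.dist o v = n → code v = code w → v = w := by
      intro n
      induction n with
      | zero =>
        intro v w hd hc
        have hv : v = o := ((hT.connected o v).dist_eq_zero_iff.mp hd).symm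
        subst hv
        rw [code_o] at hc
        exact (code_nil w hc.symm).symm
      | succ n ih =>
        intro v w hd hc
        have hv : v ≠ o := by
          rintro rfl
          simp at hd
        have hw : w ≠ o := by
          rintro rfl
          rw [code_o] at hc
          exact hv (code_nil v hc)
        rw [code_ne v hv, code_ne w hw] at hc
        have h1 := List.head_eq_of_cons_eq hc
        have h2 := List.tail_eq_of_cons_eq hc
        have h3 : par v = par w := ih _ _ (by have := (hpar v hv).2; omega) h2
        have h4 := par_child v hv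
        have h5 := par_child w hw
        rw [← h3] at h5 h1
        exact hp2 (par v) h4 h5 h1
    exact key _ v w rfl hvw
  refine ⟨code, inj, ?_, ?_, ?_⟩
  · -- adjacency
    intro v w
    constructor
    · intro h
      rcases hT.dist_eq_dist_add_one_of_adj o h with hd | hd
      · left
        have hv : v ≠ o := by
          rintro rfl
          simp at hd
        have : par v = w := closer_unique hT o (hpar v hv).1 h (hpar v hv).2 hd
        rw [code_ne v hv, this]
        exact ⟨_, rfl⟩
      · right
        have hw : w ≠ o := by
          rintro rfl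
          simp at hd
        have : par w = v := closer_unique hT o (hpar w hw).1 h.symm (hpar w hw).2 hd
        rw [code_ne w hw, this]
        exact ⟨_, rfl⟩
    · rintro (⟨a, ha⟩ | ⟨a, ha⟩)
      · have hv : v ≠ o := by
          rintro rfl
          rw [code_o] at ha
          simp at ha
        rw [code_ne v hv] at ha
        have := inj (List.tail_eq_of_cons_eq ha)
        rw [← this]
        exact (hpar v hv).1
      · have hw : w ≠ o := by
          rintro rfl
          rw [code_o] at ha
          simp at ha
        rw [code_ne w hw] at ha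
        have := inj (List.tail_eq_of_cons_eq ha)
        rw [← this]
        exact (hpar w hw).1.symm
  · -- the geodesic
    intro i
    induction i with
    | zero =>
      intro _
      simp [← ho, code_o]
    | succ i ih =>
      intro hi
      have hd := hx.dist_zero hT
      have h1 : x (i + 1) ≠ o := by
        intro h
        have := hd (i + 1) hi
        rw [h, ← ho, dist_self] at this
        omega
      have h2 : par (x (i + 1)) = x i := by
        have h3 := (hpar _ h1)
        refine closer_unique hT o h3.1 (hx.adj i (by omega)).symm h3.2 ?_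
        rw [ho, hd (i + 1) hi, hd i (by omega)]
      rw [code_ne _ h1, h2, ih (by omega), List.replicate_succ]
      congr 1
      have hn := hnxt (x i) i (by omega) rfl
      have h3 := hp3 (x i) (by
        rw [hn]
        exact mem_children.mpr ⟨hx.adj i (by omega), by
          rw [ho, hd (i + 1) hi, hd i (by omega)]⟩)
      rwa [hn] at h3
  · -- the range
    have valid_code : ∀ n v, G.dist o v = n → ValidCode d (code v) := by
      intro n
      induction n with
      | zero =>
        intro v hd
        have hv : v = o := ((hT.connected o v).dist_eq_zero_iff.mp hd).symm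
        subst hv
        rw [code_o]
        trivial
      | succ n ih =>
        intro v hd
        have hv : v ≠ o := by
          rintro rfl
          simp at hd
        have hdp := (hpar v hv).2
        have h1 := ih (par v) (by omega)
        rw [code_ne v hv]
        by_cases hpo : par v = o
        · rw [hpo, code_o]
          have h2 := par_child v hv
          rw [hpo] at h2
          have := hp1 o v h2
          rw [card_children_root hreg] at this
          exact this
        · have h2 := hp1 (par v) v (par_child v hv)
          rw [card_children_of_ne hT hreg hpo] at h2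
          rw [code_ne (par v) hpo] at h1 ⊢
          exact ⟨h2, h1⟩
    intro l
    constructor
    · intro hl
      induction l with
      | nil => exact ⟨o, code_o⟩
      | cons a l ih =>
        have hl' : ValidCode d l := by
          cases l with
          | nil => trivial
          | cons b l => exact hl.2
        obtain ⟨w, hw⟩ := ih hl'
        have ha : a < (children G o w).card := by
          by_cases hwo : w = o
          · subst hwo
            rw [card_children_root hreg]
            rw [code_o] at hw
            subst hw
            exact hl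
          · rw [card_children_of_ne hT hreg hwo]
            rw [code_ne w hwo] at hw
            subst hw
            exact hl.1
        obtain ⟨c, hc, hca⟩ := hp4 w a ha
        refine ⟨c, ?_⟩
        have hc' := mem_children.mp hc
        have hco : c ≠ o := by
          rintro rfl
          simp at hc'
        have hpc : par c = w :=
          closer_unique hT o (hpar c hco).1 hc'.1.symm (hpar c hco).2 hc'.2
        rw [code_ne c hco, hpc, hca, hw]
    · rintro ⟨v, rfl⟩
      exact valid_code _ v rfl

end Code

/-! ### Extension of geodesics to isomorphisms -/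

/-- Any two `d`-regular trees are isomorphic by an isomorphism matching two given geodesics of
the same length. -/
theorem exists_iso_of_geod {V' : Type u'} {G' : SimpleGraph V'} [G.LocallyFinite] [G'.LocallyFinite]
    {d : ℕ} (hT : G.IsTree) (hT' : G'.IsTree)
    (hreg : G.IsRegularOfDegree d) (hreg' : G'.IsRegularOfDegree d)
    {x : ℕ → V} {x' : ℕ → V'} {r : ℕ} (hx : IsGeod G x r) (hx' : IsGeod G' x' r) :
    ∃ φ : G ≃g G', ∀ i, i ≤ r → φ (x i) = x' i := by
  obtain ⟨c, ci, ca, cg, cv⟩ := exists_code hT hreg hx
  obtain ⟨c', ci', ca', cg', cv'⟩ := exists_code hT' hreg' hx'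
  have h1 : ∀ v, ∃ v', c' v' = c v := fun v => (cv' _).1 ((cv _).2 ⟨v, rfl⟩)
  have h2 : ∀ v', ∃ v, c v = c' v' := fun v' => (cv _).1 ((cv' _).2 ⟨v', rfl⟩)
  choose f hf using h1
  choose f' hf' using h2
  let e : V ≃ V' :=
    { toFun := f
      invFun := f'
      left_inv := fun v => ci (by rw [hf', hf])
      right_inv := fun v' => ci' (by rw [hf, hf']) }
  refine ⟨⟨e, ?_⟩, ?_⟩
  · intro v w
    show G'.Adj (f v) (f w) ↔ G.Adj v w
    rw [ca', ca, hf, hf]
  · intro i hi
    apply ci'
    show c' (f (x i)) = c' (x' i)
    rw [hf, cg i hi, cg' i hi]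

/-- Automorphisms act transitively on geodesics of a given length. -/
theorem exists_aut_of_geod [G.LocallyFinite] {d : ℕ} (hT : G.IsTree)
    (hreg : G.IsRegularOfDegree d) {x x' : ℕ → V} {r : ℕ} (hx : IsGeod G x r)
    (hx' : IsGeod G x' r) : ∃ φ : G ≃g G, ∀ i, i ≤ r → φ (x i) = x' i :=
  exists_iso_of_geod hT hT hreg hreg hx hx'

/-! ### Prepending a vertex to a geodesic -/

/-- Prepend a vertex. -/
def consPath (a : V) (x : ℕ → V) : ℕ → V
  | 0 => a
  | i + 1 => x i

theorem isGeod_cons {a : V} {x : ℕ → V} {r : ℕ} (hx : IsGeod G x r) (ha : G.Adj a (x 0))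
    (hb : 1 ≤ r → x 1 ≠ a) : IsGeod G (consPath a x) (r + 1) where
  adj := by
    intro i hi
    cases i with
    | zero => exact ha
    | succ i => exact hx.adj i (by omega)
  nb := by
    intro i hi
    cases i with
    | zero => exact hb (by omega)
    | succ i => exact hx.nb i (by omega)

/-- Two vertices at distances `n`, `n + 1` from adjacent vertices `b`, `a`: a geodesic `a, b, …, v`. -/
theorem exists_geod_through (hT : G.IsTree) {a b v : V} (hab : G.Adj a b) {n : ℕ}
    (h1 : G.dist b v = n) (h2 : G.dist a v = n + 1) :
    ∃ x : ℕ → V, IsGeod G x (n + 1) ∧ x 0 = a ∧ x 1 = b ∧ x (n + 1) = v := by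
  obtain ⟨y, hy, h0, hn⟩ := exists_geod hT b v
  rw [h1] at hy hn
  refine ⟨consPath a y, isGeod_cons hy (by rw [h0]; exact hab) ?_, rfl, h0, hn⟩
  intro hr h3
  have h4 := hy.dist_eq hT (i := 1) (j := n) hr le_rfl
  rw [h3, hn] at h4
  omega

/-! ### Cones -/

section Cones

variable [G.LocallyFinite]

open Classical in
/-- `cone G a b n`: for an edge `a ~ b`, the vertices at distance `n` from `b` and `n + 1` from `a`
(the sphere of radius `n` around `b` in the branch away from `a`). -/
noncomputable def cone (G : SimpleGraph V) [G.LocallyFinite] (a b : V) : ℕ → Finset V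
  | 0 => {b}
  | n + 1 => ((G.neighborFinset b).erase a).biUnion (fun c => cone G b c n)

theorem mem_cone (hT : G.IsTree) {a b : V} (hab : G.Adj a b) {n : ℕ} {v : V} :
    v ∈ cone G a b n ↔ G.dist b v = n ∧ G.dist a v = n + 1 := by
  classical
  induction n generalizing a b v with
  | zero =>
    simp only [cone, Finset.mem_singleton]
    constructor
    · rintro rfl
      simp [dist_eq_one_iff_adj.mpr hab]
    · rintro ⟨h1, -⟩
      exact ((hT.connected b v).dist_eq_zero_iff.mp h1).symm
  | succ n ih =>
    simp only [cone, Finset.mem_biUnion, Finset.mem_erase, mem_neighborFinset]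
    constructor
    · rintro ⟨c, ⟨hca, hbc⟩, hv⟩
      obtain ⟨h1, h2⟩ := (ih hbc).1 hv
      refine ⟨h2, ?_⟩
      rw [dc G a v]
      rw [dc G c v] at h1
      rw [dc G b v] at h2
      rcases hT.dist_eq_dist_add_one_of_adj v hab with h | h
      · omega
      · exfalso
        apply hca
        exact closer_unique hT v hbc hab.symm (by omega) (by omega)
    · rintro ⟨h1, h2⟩
      have hne : b ≠ v := by
        rintro rfl
        simp at h1
      obtain ⟨c, hc, hd⟩ := exists_closer hT v hne
      have hdc : G.dist c v = n := by
        rw [dc G c v]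
        rw [dc G v b] at hd
        omega
      refine ⟨c, ⟨?_, hc⟩, (ih hc).2 ⟨hdc, h1⟩⟩
      rintro rfl
      omega

theorem card_cone {d : ℕ} (hT : G.IsTree) (hreg : G.IsRegularOfDegree d) {a b : V}
    (hab : G.Adj a b) (n : ℕ) : (cone G a b n).card = (d - 1) ^ n := by
  classical
  induction n generalizing a b with
  | zero => simp [cone]
  | succ n ih =>
    simp only [cone]
    rw [Finset.card_biUnion]
    · have h1 : ∀ c ∈ (G.neighborFinset b).erase a, (cone G b c n).card = (d - 1) ^ n := by
        intro c hc
        have : G.Adj b c := by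
          simpa using (Finset.mem_erase.mp hc).2
        exact ih this
      rw [Finset.sum_congr rfl h1, Finset.sum_const, Finset.card_erase_of_mem (by simpa using hab.symm),
        card_neighborFinset_eq_degree, hreg b, smul_eq_mul, pow_succ, mul_comm]
    · intro c hc c' hc' hne
      have h1 : G.Adj b c := by simpa using (Finset.mem_erase.mp hc).2
      have h2 : G.Adj b c' := by simpa using (Finset.mem_erase.mp hc').2
      rw [Function.onFun, Finset.disjoint_left]
      intro v hv hv'
      obtain ⟨h3, h4⟩ := (mem_cone hT h1).1 hv
      obtain ⟨h5, h6⟩ := (mem_cone hT h2).1 hv'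
      apply hne
      refine closer_unique hT v h1 h2 ?_ ?_
      · rw [dc G v b, dc G v c]
        omega
      · rw [dc G v b, dc G v c']
        omega

/-- The two sides of an edge. -/
theorem mem_cone_or (hT : G.IsTree) {a b : V} (hab : G.Adj a b) (v : V) :
    v ∈ cone G a b (G.dist b v) ∨ v ∈ cone G b a (G.dist a v) := by
  rcases hT.dist_eq_dist_add_one_of_adj v hab with h | h
  · left
    rw [dc G v a, dc G v b] at h
    exact (mem_cone hT hab).2 ⟨rfl, h⟩
  · right
    rw [dc G v a, dc G v b] at h
    exact (mem_cone hT hab.symm).2 ⟨rfl, h⟩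

theorem cone_disjoint_level (hT : G.IsTree) {a b : V} (hab : G.Adj a b) {m n : ℕ} (hmn : m ≠ n) :
    Disjoint (cone G a b m) (cone G a b n) := by
  rw [Finset.disjoint_left]
  intro v h1 h2
  have := ((mem_cone hT hab).1 h1).1
  have := ((mem_cone hT hab).1 h2).1
  omega

theorem cone_disjoint_side (hT : G.IsTree) {a b : V} (hab : G.Adj a b) (m n : ℕ) :
    Disjoint (cone G a b m) (cone G b a n) := by
  rw [Finset.disjoint_left]
  intro v h1 h2
  have h3 := (mem_cone hT hab).1 h1
  have h4 := (mem_cone hT hab.symm).1 h2
  omega

/-- Automorphisms fixing an edge act transitively on each cone of that edge. -/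
theorem exists_aut_of_mem_cone {d : ℕ} (hT : G.IsTree) (hreg : G.IsRegularOfDegree d) {a b : V}
    (hab : G.Adj a b) {n : ℕ} {v v' : V} (hv : v ∈ cone G a b n) (hv' : v' ∈ cone G a b n) :
    ∃ φ : G ≃g G, φ a = a ∧ φ b = b ∧ φ v = v' := by
  obtain ⟨h1, h2⟩ := (mem_cone hT hab).1 hv
  obtain ⟨h3, h4⟩ := (mem_cone hT hab).1 hv'
  obtain ⟨x, hx, x0, x1, xn⟩ := exists_geod_through hT hab h1 h2
  obtain ⟨x', hx', x0', x1', xn'⟩ := exists_geod_through hT hab h3 h4
  obtain ⟨φ, hφ⟩ := exists_aut_of_geod hT hreg hx hx'
  refine ⟨φ, ?_, ?_, ?_⟩
  · have := hφ 0 (by omega)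
    rwa [x0, x0'] at this
  · have := hφ 1 (by omega)
    rwa [x1, x1'] at this
  · have := hφ (n + 1) le_rfl
    rwa [xn, xn'] at this

/-- Automorphisms act transitively on pairs at a given distance. -/
theorem exists_aut_of_dist {d : ℕ} (hT : G.IsTree) (hreg : G.IsRegularOfDegree d) {a b a' b' : V}
    (h : G.dist a b = G.dist a' b') : ∃ φ : G ≃g G, φ a = a' ∧ φ b = b' := by
  obtain ⟨x, hx, x0, xn⟩ := exists_geod hT a b
  obtain ⟨x', hx', x0', xn'⟩ := exists_geod hT a' b'
  rw [← h] at hx' xn'
  obtain ⟨φ, hφ⟩ := exists_aut_of_geod hT hreg hx hx'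
  refine ⟨φ, ?_, ?_⟩
  · have := hφ 0 (by omega)
    rwa [x0, x0'] at this
  · have := hφ _ le_rfl
    rwa [xn, xn'] at this

/-- Automorphisms act transitively on directed edges. -/
theorem exists_aut_of_adj {d : ℕ} (hT : G.IsTree) (hreg : G.IsRegularOfDegree d) {a b a' b' : V}
    (h : G.Adj a b) (h' : G.Adj a' b') : ∃ φ : G ≃g G, φ a = a' ∧ φ b = b' :=
  exists_aut_of_dist hT hreg (by rw [dist_eq_one_iff_adj.mpr h, dist_eq_one_iff_adj.mpr h'])

end Cones

/-! ### Balls -/

section Balls

variable [G.LocallyFinite]

open Classical in
/-- The closed ball of radius `h` around `z`, as a finite set. -/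
noncomputable def ball (G : SimpleGraph V) [G.LocallyFinite] (z : V) (h : ℕ) : Finset V :=
  insert z ((G.neighborFinset z).biUnion fun c => (Finset.range h).biUnion fun t => cone G z c t)

theorem mem_ball (hT : G.IsTree) {z v : V} {h : ℕ} : v ∈ ball G z h ↔ G.dist z v ≤ h := by
  classical
  simp only [ball, Finset.mem_insert, Finset.mem_biUnion, mem_neighborFinset, Finset.mem_range]
  constructor
  · rintro (rfl | ⟨c, hc, t, ht, hv⟩)
    · simp
    · have := ((mem_cone hT hc).1 hv).2
      omega
  · intro hd
    by_cases hv : v = z
    · exact Or.inl hv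
    · right
      obtain ⟨c, hc, hdc⟩ := exists_closer hT v (Ne.symm hv)
      refine ⟨c, hc, G.dist c v, ?_, (mem_cone hT hc).2 ⟨rfl, ?_⟩⟩
      · rw [dc G c v]
        rw [dc G v z] at hdc
        omega
      · rw [dc G c v, dc G z v]
        exact hdc

theorem card_ball_le {d : ℕ} (hT : G.IsTree) (hreg : G.IsRegularOfDegree d) (hd : 3 ≤ d) (z : V)
    (h : ℕ) : (ball G z h).card ≤ (d + 1) * (d - 1) ^ h := by
  classical
  have hgeom : ∀ h : ℕ, ∑ t ∈ Finset.range h, (d - 1) ^ t ≤ (d - 1) ^ h := by
    intro h
    induction h with
    | zero => simp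
    | succ h ih =>
      rw [Finset.sum_range_succ, pow_succ]
      have : 2 ≤ d - 1 := by omega
      nlinarith [Nat.zero_le ((d - 1) ^ h)]
  have h1 : ((G.neighborFinset z).biUnion fun c =>
      (Finset.range h).biUnion fun t => cone G z c t).card ≤ d * (d - 1) ^ h := by
    refine (Finset.card_biUnion_le).trans ?_
    have : ∀ c ∈ G.neighborFinset z,
        ((Finset.range h).biUnion fun t => cone G z c t).card ≤ (d - 1) ^ h := by
      intro c hc
      have hc' : G.Adj z c := by simpa using hc
      refine (Finset.card_biUnion_le).trans ?_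
      simp_rw [card_cone hT hreg hc']
      exact hgeom h
    refine (Finset.sum_le_sum this).trans ?_
    simp [card_neighborFinset_eq_degree, hreg z]
  have h2 : (ball G z h).card ≤ d * (d - 1) ^ h + 1 :=
    (Finset.card_insert_le _ _).trans (by omega)
  have h3 : 1 ≤ (d - 1) ^ h := Nat.one_le_pow _ _ (by omega)
  calc (ball G z h).card ≤ d * (d - 1) ^ h + 1 := h2
    _ ≤ d * (d - 1) ^ h + (d - 1) ^ h := by omega
    _ = (d + 1) * (d - 1) ^ h := by ring

end Balls

/-! ### Projection onto a geodesic -/

/-- The projection of a vertex onto a geodesic: distances to the geodesic are V-shaped. -/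
theorem exists_proj (hT : G.IsTree) {x : ℕ → V} {r : ℕ} (hx : IsGeod G x r) (v : V) :
    ∃ w, w ≤ r ∧ (∀ i, i ≤ w → G.dist v (x i) = G.dist v (x w) + (w - i)) ∧
      (∀ i, w ≤ i → i ≤ r → G.dist v (x i) = G.dist v (x w) + (i - w)) := by
  induction r with
  | zero =>
    refine ⟨0, le_rfl, ?_, ?_⟩
    · intro i hi
      have : i = 0 := by omega
      subst this
      simp
    · intro i h1 h2
      have : i = 0 := by omega
      subst this
      simp
  | succ r ih =>
    obtain ⟨w, hw, h1, h2⟩ := ih (hx.mono (by omega))
    have hadj : G.Adj (x r) (x (r + 1)) := hx.adj r (by omega)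
    by_cases hup : G.dist v (x (r + 1)) = G.dist v (x r) + 1
    · refine ⟨w, by omega, h1, ?_⟩
      intro i h3 h4
      by_cases hi : i = r + 1
      · subst hi
        rw [hup, h2 r hw le_rfl]
        omega
      · exact h2 i h3 (by omega)
    · have hdown : G.dist v (x r) = G.dist v (x (r + 1)) + 1 := by
        rcases hT.dist_eq_dist_add_one_of_adj v hadj with h | h
        · exact h
        · exact absurd h hup
      have hwr : w = r := by
        by_contra hne
        have hwlt : w < r := by omega
        have ha : G.Adj (x (r - 1)) (x r) := by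
          have := hx.adj (r - 1) (by omega)
          rwa [show r - 1 + 1 = r by omega] at this
        have h3 := h2 r hw le_rfl
        have h4 := h2 (r - 1) (by omega) (by omega)
        have h5 : G.dist v (x r) = G.dist v (x (r - 1)) + 1 := by omega
        have h6 := closer_unique hT v hadj ha.symm hdown h5
        have h7 := hx.nb (r - 1) (by omega)
        rw [show r - 1 + 2 = r + 1 by omega] at h7
        exact h7 h6
      subst hwr
      refine ⟨w + 1, le_rfl, ?_, ?_⟩
      · intro i hi
        by_cases hi' : i = w + 1
        · subst hi'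
          simp
        · rw [h1 i (by omega), hdown]
          omega
      · intro i h3 h4
        have : i = w + 1 := by omega
        subst this
        simp

/-- Projection to cone, interior/start positions. -/
theorem mem_cone_of_proj [G.LocallyFinite] (hT : G.IsTree) {x : ℕ → V} {r : ℕ} (hx : IsGeod G x r)
    {v : V} {w : ℕ} (hw : w < r)
    (h2 : ∀ i, w ≤ i → i ≤ r → G.dist v (x i) = G.dist v (x w) + (i - w)) :
    v ∈ cone G (x (w + 1)) (x w) (G.dist v (x w)) := by
  have hadj := hx.adj w hw
  refine (mem_cone hT hadj.symm).2 ⟨dc G _ _, ?_⟩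
  have := h2 (w + 1) (by omega) (by omega)
  rw [dc G (x (w + 1)) v]
  omega

/-- Projection to cone, end position. -/
theorem mem_cone_of_proj_end [G.LocallyFinite] (hT : G.IsTree) {x : ℕ → V} {r : ℕ}
    (hx : IsGeod G x (r + 1)) {v : V}
    (h1 : ∀ i, i ≤ r + 1 → G.dist v (x i) = G.dist v (x (r + 1)) + (r + 1 - i)) :
    v ∈ cone G (x r) (x (r + 1)) (G.dist v (x (r + 1))) := by
  have hadj := hx.adj r (by omega)
  refine (mem_cone hT hadj).2 ⟨dc G _ _, ?_⟩
  have := h1 r (by omega)
  rw [dc G (x r) v]
  omega

end Crest.Agent.Lib.IsingFIID
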