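/-
Row 160 (S0241): free Ising on the d-regular tree is a factor of iid up to tanh β = (d-1)^{-1/2}.
Definitions only (no sorry, no lemmas).  See BLUEPRINT.md.
-/
import Mathlib
import Crest.Prelude.Def_Labels
import Crest.Prelude.Def_TreeIsing
import Crest.Agent.Lib.IsingFIID.TreeAut

set_option autoImplicit false

namespace Crest.Agent.Lib.IsingFIID

open MeasureTheory Filter Topology Set

/-- Labels. -/
abbrev Lab := unitInterval

/-- i.i.d. uniform labels. -/
noncomputable abbrev lam (I : Type*) : Measure (I → Lab) := Crest.ProbabilityR.Labels.labelMeasure I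

open SimpleGraph

variable {V : Type*} [DecidableEq V]

/-! ### Gibbs measures on a finite window.  `A ⊆ W` is the set of up spins. -/

/-- Spin of `v` in the pattern `A`. -/
def sp (A : Finset V) (v : V) : ℝ := if v ∈ A then 1 else -1

/-- Free Ising weight of the pattern `A ⊆ W` (sums to `1` over `A ⊆ W` if `W` induces a tree):
the statement's `isingWeight`. -/
noncomputable def bw (G : SimpleGraph V) (θ : ℝ) (W A : Finset V) : ℝ :=
  Crest.ProbabilityR.TreeIsing.isingWeight G θ W (fun v => decide (v ∈ A))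

/-- Field factor of the pattern `A`. -/
noncomputable def gExp (h : V → ℝ) (W A : Finset V) : ℝ := Real.exp (∑ v ∈ W, h v * sp A v)

/-- Partition function with fields `h`. -/
noncomputable def gZ (G : SimpleGraph V) (θ : ℝ) (W : Finset V) (h : V → ℝ) : ℝ :=
  ∑ A ∈ W.powerset, bw G θ W A * gExp h W A

/-- Gibbs average of `f` on patterns with fields `h`. -/
noncomputable def gAvg (G : SimpleGraph V) (θ : ℝ) (W : Finset V) (h : V → ℝ)
    (f : Finset V → ℝ) : ℝ :=
  (∑ A ∈ W.powerset, bw G θ W A * gExp h W A * f A) / gZ G θ W h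

/-- Gibbs mean of the spin at `v`. -/
noncomputable def gm (G : SimpleGraph V) (θ : ℝ) (W : Finset V) (h : V → ℝ) (v : V) : ℝ :=
  gAvg G θ W h (fun A => sp A v)

/-- Gibbs covariance of the spins at `u,v`. -/
noncomputable def gcov (G : SimpleGraph V) (θ : ℝ) (W : Finset V) (h : V → ℝ) (u v : V) : ℝ :=
  gAvg G θ W h (fun A => sp A u * sp A v) - gm G θ W h u * gm G θ W h v

/-! ### Real functions of the cavity calculus -/

/-- Cavity message at `y` towards `x` from the two vertex means of the edge: the edge law is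
`∝ (1+θ s s')(1+μ s)(1+ν s')`, `m_x = (μ+θν)/(1+θμν)`, `m_y = (ν+θμ)/(1+θμν)`; with
`a = m_x-θ m_y`, `b = m_y-θ m_x`, `c = θ a b/(1-θ²)²` one has
`ν = b/(1-θ²) · 2/(1+√(1-4c))`. -/
noncomputable def nuOf (θ mx my : ℝ) : ℝ :=
  (my - θ * mx) / (1 - θ ^ 2) *
    (2 / (1 + Real.sqrt (1 - 4 * (θ * ((mx - θ * my) * (my - θ * mx)) / (1 - θ ^ 2) ^ 2))))

/-- Attenuation factor as a function of the cavity message `ν`. -/
noncomputable def uFun (θ ν : ℝ) : ℝ := (1 - ν ^ 2) / (1 - θ ^ 2 * ν ^ 2)

/-- `u` as a function of the two vertex means. -/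
noncomputable def uOf (θ mx my : ℝ) : ℝ := uFun θ (nuOf θ mx my)

/-- The slope `Cov(s_x,s_y)/Var(s_x) = θ u` as a function of the two vertex means. -/
noncomputable def slopeOf (θ mx my : ℝ) : ℝ := θ * uOf θ mx my

/-- `a = -log u`, as a function of the two vertex means. -/
noncomputable def aOf (θ mx my : ℝ) : ℝ := - Real.log (uOf θ mx my)

/-- Covariance formula along a path `x 0, ..., x r`, given vertex means `m`. -/
noncomputable def pathCov (θ : ℝ) (m : V → ℝ) (x : ℕ → V) (r : ℕ) : ℝ :=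
  (1 - m (x 0) ^ 2) * ∏ i ∈ Finset.range r, slopeOf θ (m (x i)) (m (x (i + 1)))

/-! ### The channel.  A ring of strength `κ` at a vertex with current mean `m` and uniform noise
`u`: with `w = 2u-1`, `ψ = psiQ (κ m) w` has density `(1+κ m ψ)/2` on `[-1,1]` and `x = κ ψ` is
applied as a tilt `(1 + x s)`: field increment `artanh x`. -/

/-- Channel strength at time `τ`. -/
noncomputable def kap (ε τ : ℝ) : ℝ := ε * min (Real.sqrt τ) 1

/-- Quantile: solves `ψ + (a/2)(ψ²-1) = w`. -/
noncomputable def psiQ (a w : ℝ) : ℝ := (2 * w + a) / (1 + Real.sqrt (1 + 2 * a * w + a ^ 2))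

/-- Tilt of a driven ring. -/
noncomputable def xQ (κ m u : ℝ) : ℝ := κ * psiQ (κ * m) (2 * u - 1)

/-- Martingale increment coefficient `Γ = x/(1+x m)`; `∫₀¹ Γ du = 0`. -/
noncomputable def gamQ (κ m u : ℝ) : ℝ := xQ κ m u / (1 + xQ κ m u * m)

/-! ### Labels: `ω = (t,U)`.  Vertex `v` rings in round `n` iff `t(v,n) < 1/2`, at time
`n + 2 t(v,n)`, with noise `U(v,n)`. -/

/-- The label space. -/
abbrev Om (V : Type*) := (V × ℕ → Lab) × (V × ℕ → Lab)

/-- Its law. -/
noncomputable abbrev PP (V : Type*) : Measure (Om V) := (lam (V × ℕ)).prod (lam (V × ℕ))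

/-- Automorphism action on labels: `(act g ω)(v,n) = ω(g v,n)`. -/
def act (g : V → V) (ω : Om V) : Om V :=
  (fun i => ω.1 (g i.1, i.2), fun i => ω.2 (g i.1, i.2))

/-- Ring time of `(v,n)` (meaningful if it rings). -/
noncomputable def ringT (ω : Om V) (v : V) (n : ℕ) : ℝ := n + 2 * (ω.1 (v, n) : ℝ)

/-- `(v,n)` rings strictly before `τ`. -/
def before (ω : Om V) (v : V) (n : ℕ) (τ : ℝ) : Prop :=
  (ω.1 (v, n) : ℝ) < 1 / 2 ∧ ringT ω v n < τ

open Classical in
/-- The driven fields with fuel `k`. Each ring sees the fields strictly before it, so ties are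
harmless and the definition is exactly equivariant. -/
noncomputable def fieldF (G : SimpleGraph V) (θ : ℝ) (κ : ℝ → ℝ) (W : Finset V) (ω : Om V) :
    ℕ → ℝ → V → ℝ
  | 0, _, _ => 0
  | k + 1, τ, v =>
    if v ∈ W then
      ∑ n ∈ Finset.range ⌈τ⌉₊,
        if before ω v n τ then
          Real.artanh (xQ (κ (ringT ω v n))
            (gm G θ W (fieldF G θ κ W ω k (ringT ω v n)) v) (ω.2 (v, n) : ℝ))
        else 0
    else 0

/-- The driven fields on the window `W` at time `τ`, strength function `κ`. -/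
noncomputable def field (G : SimpleGraph V) (θ : ℝ) (κ : ℝ → ℝ) (W : Finset V) (ω : Om V) (τ : ℝ) :
    V → ℝ :=
  fieldF G θ κ W ω (W.card * ⌈τ⌉₊) τ

/-- The posterior mean in the window `W` at time `τ`. -/
noncomputable def mW (G : SimpleGraph V) (θ : ℝ) (κ : ℝ → ℝ) (W : Finset V) (ω : Om V) (τ : ℝ)
    (v : V) : ℝ :=
  gm G θ W (field G θ κ W ω τ) v

/-- One ring applied to a window system. -/
noncomputable def stepW (G : SimpleGraph V) (θ κ : ℝ) (W : Finset V) (z : V) (u : ℝ) (h : V → ℝ) :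
    V → ℝ :=
  if z ∈ W then Function.update h z (h z + Real.artanh (xQ κ (gm G θ W h z) u)) else h

open Classical in
/-- Undriven reference fields: same rings, tilts `κ(2U-1)`. -/
noncomputable def field0 (κ : ℝ → ℝ) (ω : Om V) (τ : ℝ) (v : V) : ℝ :=
  ∑ n ∈ Finset.range ⌈τ⌉₊,
    if before ω v n τ then Real.artanh (κ (ringT ω v n) * (2 * (ω.2 (v, n) : ℝ) - 1)) else 0

open Classical in
/-- The likelihood of a spin `s` at `v` up to time `τ`. -/
noncomputable def likV (κ : ℝ → ℝ) (ω : Om V) (τ : ℝ) (v : V) (s : ℝ) : ℝ :=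
  ∏ n ∈ Finset.range ⌈τ⌉₊,
    if before ω v n τ then 1 + κ (ringT ω v n) * (2 * (ω.2 (v, n) : ℝ) - 1) * s else 1

/-- The density of the driven labels relative to the reference labels on the window `W`. -/
noncomputable def lik (G : SimpleGraph V) (θ : ℝ) (κ : ℝ → ℝ) (W : Finset V) (ω : Om V) (τ : ℝ) : ℝ :=
  ∑ A ∈ W.powerset, bw G θ W A * ∏ v ∈ W, likV κ ω τ v (sp A v)

/-! ### Balls and the infinite-volume mean -/

/-- The infinite-volume posterior mean (a genuine a.e. limit when `θ² (d-1) < 1`). Exactly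
equivariant, jointly measurable. -/
noncomputable def mInf (G : SimpleGraph V) [G.LocallyFinite] (θ : ℝ) (κ : ℝ → ℝ) (ω : Om V) (τ : ℝ)
    (v : V) : ℝ :=
  limsup (fun N => mW G θ κ (ball G v N) ω τ v) atTop

/-- The infinite-volume slope product: `W n` on the directed edge `p → x`: average over descending
paths `x = b₀, b₁, …, b_n`, of `∏ u²` (`n+1` factors); `m` is the family of vertex means. -/
noncomputable def wTree (G : SimpleGraph V) [G.LocallyFinite] (θ : ℝ) (D : ℕ) (m : V → ℝ) :
    ℕ → V → V → ℝ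
  | 0, p, x => uOf θ (m p) (m x) ^ 2
  | n + 1, p, x =>
    uOf θ (m p) (m x) ^ 2 *
      ((1 / (D : ℝ)) * ∑ c ∈ (G.neighborFinset x).erase p, wTree G θ D m n x c)

/-- Cavity recursion on the graph with fields `h`: message from `x` towards `p`, depth `N`. -/
noncomputable def nuV (G : SimpleGraph V) [G.LocallyFinite] (θ : ℝ) (h : V → ℝ) :
    ℕ → V → V → ℝ
  | 0, x, _ => Real.tanh (h x)
  | N + 1, x, p =>
    Real.tanh (h x + ∑ c ∈ (G.neighborFinset x).erase p, Real.artanh (θ * nuV G θ h N c x))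

/-! ### The static model on the `D`-ary tree (truth gauge) -/

/-- Nodes of the `D`-ary tree: the children of `w` are `c :: w`. -/
abbrev Word (D : ℕ) := List (Fin D)

/-- Law of the edge sign: `P(ζ = 1) = (1+θ)/2`. -/
noncomputable def zetaLaw (θ : ℝ) : Measure Bool :=
  ENNReal.ofReal ((1 + θ) / 2) • Measure.dirac true +
    ENNReal.ofReal ((1 - θ) / 2) • Measure.dirac false

/-- Sign of a boolean. -/
def sgn (b : Bool) : ℝ := if b then 1 else -1

/-- The iid recursion: own fields `own`, edge signs `ζ`. -/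
noncomputable def nuT {D : ℕ} (θ : ℝ) (own : Word D → ℝ) (ζ : Word D → Bool) :
    ℕ → Word D → ℝ
  | 0, w => Real.tanh (own w)
  | N + 1, w =>
    Real.tanh (own w + ∑ c : Fin D, sgn (ζ (c :: w)) * Real.artanh (θ * nuT θ own ζ N (c :: w)))

/-- `W n` in the static model: depth budget `N`, at the node `w`. -/
noncomputable def wT {D : ℕ} (θ : ℝ) (own : Word D → ℝ) (ζ : Word D → Bool) :
    ℕ → ℕ → Word D → ℝ
  | 0, N, w => uFun θ (nuT θ own ζ N w) ^ 2
  | n + 1, N, w =>
    uFun θ (nuT θ own ζ N w) ^ 2 *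
      ((1 / (D : ℝ)) * ∑ c : Fin D, wT θ own ζ n (N - 1) (c :: w))

/-! ### Geodesics to a vertex, infinite-volume covariances -/

open Classical in
/-- A geodesic from `v` to `y` (chosen; unique up to length `dist v y` in a tree). -/
noncomputable def geoTo (G : SimpleGraph V) (v y : V) : ℕ → V :=
  if h : ∃ x : ℕ → V, IsGeod G x (G.dist v y) ∧ x 0 = v ∧ x (G.dist v y) = y then h.choose
  else fun _ => v

open Classical in
/-- Sphere of radius `r`. -/
noncomputable def sphere (G : SimpleGraph V) [G.LocallyFinite] (v : V) (r : ℕ) : Finset V :=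
  (ball G v r).filter fun y => G.dist v y = r

/-- Infinite-volume covariance of the spins at `v,y` (formula along the geodesic). -/
noncomputable def covI (G : SimpleGraph V) [G.LocallyFinite] (θ : ℝ) (κ : ℝ → ℝ) (ω : Om V) (τ : ℝ)
    (v y : V) : ℝ :=
  pathCov θ (fun u => mInf G θ κ ω τ u) (geoTo G v y) (G.dist v y)

/-- The pointwise majorant of the one-ring increment of the squared difference of the two systems
`θ,θ'` at `v`, for a ring at `y`: `(c Γ - c' Γ')² ≤ 8 κ² (c-c')² + K κ⁴ c'² (m_y-m'_y)²`. The constant `K`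
comes from `|Γ(m)-Γ(m')| ≤ C κ²|m-m'|`. -/
noncomputable def Xp (K : ℝ) (G : SimpleGraph V) [G.LocallyFinite] (θ θ' : ℝ) (κ : ℝ → ℝ) (ω : Om V)
    (τ : ℝ) (v y : V) : ℝ :=
  8 * κ τ ^ 2 * (covI G θ κ ω τ v y - covI G θ' κ ω τ v y) ^ 2 +
    K * κ τ ^ 4 * covI G θ' κ ω τ v y ^ 2 * (mInf G θ κ ω τ y - mInf G θ' κ ω τ y) ^ 2

/-- The window-side fields `field0` cut to the window. -/
noncomputable def field0W (κ : ℝ → ℝ) (W : Finset V) (ω : Om V) (τ : ℝ) (v : V) : ℝ :=
  if v ∈ W then field0 κ ω τ v else 0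

/-- Law of the own field in the truth gauge at time `τ`: single-vertex labels, tilted by the
likelihood of the spin `+1`. -/
noncomputable def ownLaw (κ : ℝ → ℝ) (τ : ℝ) : Measure ℝ :=
  ((PP Unit).withDensity fun ω => ENNReal.ofReal (likV κ ω τ () 1)).map fun ω => field0 κ ω τ ()

/-- Node labels of the static model: own field and edge sign. -/
noncomputable def QQ (D : ℕ) (Λ : Measure ℝ) (θ : ℝ) : Measure (Word D → ℝ × Bool) :=
  Measure.infinitePi fun _ => Λ.prod (zetaLaw θ)

/-- Half ball: the part of the ball of radius `N` around `x` in the branch of `x` away from `p`. -/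
noncomputable def halfBall (G : SimpleGraph V) [G.LocallyFinite] (p x : V) (N : ℕ) : Finset V :=
  (Finset.range (N + 1)).biUnion fun n => cone G p x n

/-- `L^P` norm for real `P ≥ 1`. -/
noncomputable def lpN {Ω : Type*} [MeasurableSpace Ω] (μ : Measure Ω) (f : Ω → ℝ) (P : ℝ) : ℝ :=
  (∫ x, |f x| ^ P ∂μ) ^ (1 / P)

end Crest.Agent.Lib.IsingFIID
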