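/-
Row 160 (S0241): standing hypotheses and named quantities used in the statements of the tasks.
No proofs here.
-/
import Crest.Agent.Lib.IsingFIID.Defs

set_option autoImplicit false

namespace Crest.Agent.Lib.IsingFIID

open MeasureTheory Filter Topology Set SimpleGraph
open scoped ENNReal

variable {V : Type*} [DecidableEq V]

/-- Standing assumptions: the `d`-regular tree, `d ≥ 3`. -/
structure Tree (G : SimpleGraph V) [G.LocallyFinite] (d : ℕ) : Prop where
  hd : 3 ≤ d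
  tree : G.IsTree
  reg : G.IsRegularOfDegree d

/-- Windows: finite subtrees. -/
def IsWin (G : SimpleGraph V) (W : Finset V) : Prop := (G.induce (W : Set V)).Connected

/-- Admissible strength functions. -/
structure IsStrength (κ : ℝ → ℝ) : Prop where
  meas : Measurable κ
  nonneg : ∀ τ, 0 ≤ κ τ
  le : ∀ τ, κ τ ≤ 1 / 2

/-- Own fields of a static label. -/
def ownOf {D : ℕ} (ξ : Word D → ℝ × Bool) : Word D → ℝ := fun w => (ξ w).1

/-- Edge signs of a static label. -/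
def zetaOf {D : ℕ} (ξ : Word D → ℝ × Bool) : Word D → Bool := fun w => (ξ w).2

/-- Second moment of the root message at depth `N` in the static model. -/
noncomputable def qT (D : ℕ) (Λ : Measure ℝ) (θ : ℝ) (N : ℕ) : ℝ :=
  ∫ ξ, nuT θ (ownOf ξ) (zetaOf ξ) N [] ^ 2 ∂(QQ D Λ θ)

/-- Second moment of the infinite-volume cavity message `x → p`. -/
noncomputable def qInf (G : SimpleGraph V) [G.LocallyFinite] (θ : ℝ) (κ : ℝ → ℝ) (τ : ℝ) (x p : V) : ℝ :=
  ∫ ω, nuOf θ (mInf G θ κ ω τ p) (mInf G θ κ ω τ x) ^ 2 ∂(PP V)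

/-- Standing range of `θ` near the critical point: `1/2 ≤ θ² (d-1) < 1`. -/
def ThetaRange (d : ℕ) (θ : ℝ) : Prop :=
  0 ≤ θ ∧ θ ^ 2 * ((d : ℝ) - 1) < 1 ∧ 1 ≤ 2 * (θ ^ 2 * ((d : ℝ) - 1))

/-- The row sum of squared covariances. -/
noncomputable def rowSum (G : SimpleGraph V) [G.LocallyFinite] (θ : ℝ) (κ : ℝ → ℝ) (ω : Om V) (τ : ℝ)
    (v : V) : ℝ :=
  ∑' r, ∑ y ∈ sphere G v r, covI G θ κ ω τ v y ^ 2

/-- The two-system path functional of the main term, on the directed edge `a → b`. -/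
noncomputable def fPair (G : SimpleGraph V) [G.LocallyFinite] (θ θ' : ℝ) (κ : ℝ → ℝ) (ω : Om V) (τ : ℝ)
    (a b : V) : ℝ :=
  aOf θ (mInf G θ κ ω τ a) (mInf G θ κ ω τ b) - aOf θ' (mInf G θ' κ ω τ a) (mInf G θ' κ ω τ b)

/-- The difference of the two solutions. -/
noncomputable def Sd (G : SimpleGraph V) [G.LocallyFinite] (θ θ' : ℝ) (κ : ℝ → ℝ) (τ : ℝ) (v : V) : ℝ :=
  ∫ ω, (mInf G θ κ ω τ v - mInf G θ' κ ω τ v) ^ 2 ∂(PP V)

end Crest.Agent.Lib.IsingFIID
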