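/-
Yudovich / Osgood lemma in integral form (abstract real analysis, no a.e. derivative):
if `S ≥ 0`, `b, e ≥ 0` and `S t ≤ ∫₀ᵗ (b S^(1-1/p) + e)` on `[0,T]`, then
`S T ≤ (E^(1/p) + (1/p) ∫₀ᵀ b)^p`, `E = ∫₀ᵀ e`.
-/
import Mathlib

set_option autoImplicit false

open MeasureTheory Set intervalIntegral Filter Topology

namespace Crest.Agent.Lib.IsingFIID

/-- Bernoulli-type concavity step for `x ↦ x^a`, `0 ≤ a ≤ 1`. -/
theorem rpow_sub_rpow_le_yud {a x y : ℝ} (ha0 : 0 ≤ a) (ha1 : a ≤ 1) (hx : 0 < x) (hxy : x ≤ y) :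
    y ^ a - x ^ a ≤ a * x ^ (a - 1) * (y - x) := by
  have hy : 0 < y := lt_of_lt_of_le hx hxy
  have h1 : (1 + (y - x) / x) ^ a ≤ 1 + a * ((y - x) / x) :=
    rpow_one_add_le_one_add_mul_self (by
      have : 0 ≤ (y - x) / x := div_nonneg (by linarith) hx.le
      linarith) ha0 ha1
  have h2 : 1 + (y - x) / x = y / x := by field_simp; ring
  rw [h2] at h1
  have h3 : y ^ a = x ^ a * (y / x) ^ a := by
    rw [Real.div_rpow hy.le hx.le]
    have : x ^ a ≠ 0 := (Real.rpow_pos_of_pos hx a).ne'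
    field_simp
  have hxa : 0 < x ^ a := Real.rpow_pos_of_pos hx a
  have h4 : x ^ (a - 1) = x ^ a / x := by
    rw [Real.rpow_sub hx, Real.rpow_one]
  rw [h3, h4]
  have : x ^ a * (y / x) ^ a ≤ x ^ a * (1 + a * ((y - x) / x)) :=
    mul_le_mul_of_nonneg_left h1 hxa.le
  have h5 : x ^ a * (1 + a * ((y - x) / x)) = x ^ a + a * (x ^ a / x) * (y - x) := by
    field_simp
  linarith

variable {T p : ℝ} {S b e : ℝ → ℝ}

/-- Core estimate with the regularisation `δ` and slack `η`. -/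
theorem yudovich_aux (hT : 0 ≤ T) (hp : 1 ≤ p)
    (hb0 : ∀ u ∈ Icc 0 T, 0 ≤ b u) (he0 : ∀ u ∈ Icc 0 T, 0 ≤ e u)
    (hS0 : ∀ u ∈ Icc 0 T, 0 ≤ S u)
    (hbS : IntervalIntegrable (fun u => b u * S u ^ (1 - 1 / p)) volume 0 T)
    (hb : IntervalIntegrable b volume 0 T)
    (he : IntervalIntegrable e volume 0 T)
    (hle : ∀ t ∈ Icc 0 T, S t ≤ ∫ u in (0:ℝ)..t, (b u * S u ^ (1 - 1 / p) + e u))
    {δ η : ℝ} (hδ : 0 < δ) (hη : 0 < η) :
    S T ≤ ((δ + ∫ u in (0:ℝ)..T, e u) ^ (1 / p)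
      + (1 / p) * (1 + η) * ∫ u in (0:ℝ)..T, b u) ^ p := by
  classical
  have hp0 : 0 < p := by linarith
  set a : ℝ := 1 / p with ha
  have ha0 : 0 ≤ a := by positivity
  have ha1 : a ≤ 1 := by rw [ha, div_le_one hp0]; exact hp
  have haθ : 0 ≤ 1 - a := by linarith
  set h : ℝ → ℝ := fun u => b u * S u ^ (1 - a) with hh
  have hh0 : ∀ u ∈ Icc 0 T, 0 ≤ h u := fun u hu =>
    mul_nonneg (hb0 u hu) (Real.rpow_nonneg (hS0 u hu) _)
  set E : ℝ := ∫ u in (0:ℝ)..T, e u with hE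
  have hE0 : 0 ≤ E := intervalIntegral.integral_nonneg hT he0
  set I : ℝ → ℝ := fun t => ∫ u in (0:ℝ)..t, h u with hI
  set R : ℝ → ℝ := fun t => δ + E + I t with hR
  -- sub-interval integrability
  have sub : ∀ {f : ℝ → ℝ}, IntervalIntegrable f volume 0 T → ∀ s ∈ Icc 0 T, ∀ t ∈ Icc 0 T,
      IntervalIntegrable f volume s t := by
    intro f hf s hs t ht
    refine hf.mono_set ?_
    rw [uIcc_of_le hT]
    exact uIcc_subset_Icc hs ht
  have h0T : (0:ℝ) ∈ Icc 0 T := ⟨le_rfl, hT⟩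
  have hIsub : ∀ s ∈ Icc 0 T, ∀ t ∈ Icc 0 T, I t - I s = ∫ u in s..t, h u := by
    intro s hs t ht
    exact intervalIntegral.integral_interval_sub_left (sub hbS 0 h0T t ht) (sub hbS 0 h0T s hs)
  -- `I` is nonnegative and monotone
  have hIle : ∀ s ∈ Icc 0 T, ∀ t ∈ Icc 0 T, s ≤ t → I s ≤ I t := by
    intro s hs t ht hst
    have := hIsub s hs t ht
    have h2 : 0 ≤ ∫ u in s..t, h u :=
      intervalIntegral.integral_nonneg hst (fun u hu => hh0 u ⟨hs.1.trans hu.1, hu.2.trans ht.2⟩)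
    linarith
  have hI0 : I 0 = 0 := by simp [hI]
  have hRδ : ∀ t ∈ Icc 0 T, δ ≤ R t := by
    intro t ht
    have : 0 ≤ I t := by simpa [hI0] using hIle 0 h0T t ht ht.1
    simp only [hR]; linarith
  have hRpos : ∀ t ∈ Icc 0 T, 0 < R t := fun t ht => lt_of_lt_of_le hδ (hRδ t ht)
  have hRmono : ∀ s ∈ Icc 0 T, ∀ t ∈ Icc 0 T, s ≤ t → R s ≤ R t := by
    intro s hs t ht hst
    have := hIle s hs t ht hst
    simp only [hR]; linarith
  -- `S ≤ R`
  have hSR : ∀ t ∈ Icc 0 T, S t ≤ R t := by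
    intro t ht
    have h1 := hle t ht
    have h2 : (∫ u in (0:ℝ)..t, (b u * S u ^ (1 - 1 / p) + e u)) = I t + ∫ u in (0:ℝ)..t, e u := by
      rw [intervalIntegral.integral_add (sub hbS 0 h0T t ht) (sub he 0 h0T t ht)]
    have h3 : (∫ u in (0:ℝ)..t, e u) ≤ E := by
      have h4 : (∫ u in (0:ℝ)..t, e u) + ∫ u in t..T, e u = E :=
        intervalIntegral.integral_add_adjacent_intervals (sub he 0 h0T t ht) (sub he t ht T ⟨hT, le_rfl⟩)
      have h5 : 0 ≤ ∫ u in t..T, e u :=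
        intervalIntegral.integral_nonneg ht.2 (fun u hu => he0 u ⟨ht.1.trans hu.1, hu.2⟩)
      linarith
    simp only [hR]
    rw [h2] at h1
    linarith
  -- increment bound
  have hinc : ∀ s ∈ Icc 0 T, ∀ t ∈ Icc 0 T, s ≤ t →
      R t - R s ≤ (∫ u in s..t, b u) * (R t) ^ (1 - a) := by
    intro s hs t ht hst
    have h1 : R t - R s = ∫ u in s..t, h u := by
      have := hIsub s hs t ht
      simp only [hR]; linarith
    rw [h1, ← intervalIntegral.integral_mul_const]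
    refine intervalIntegral.integral_mono_on hst (sub hbS s hs t ht)
      ((sub hb s hs t ht).mul_const _) ?_
    intro u hu
    have hu' : u ∈ Icc 0 T := ⟨hs.1.trans hu.1, hu.2.trans ht.2⟩
    refine mul_le_mul_of_nonneg_left ?_ (hb0 u hu')
    exact Real.rpow_le_rpow (hS0 u hu') ((hSR u hu').trans (hRmono u hu' t ht hu.2)) haθ
  -- continuity of `R` and uniform continuity
  have hRcont : ContinuousOn R (Icc 0 T) := by
    have h1 : ContinuousOn I (uIcc 0 T) :=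
      intervalIntegral.continuousOn_primitive_interval
        ((intervalIntegrable_iff_integrableOn_Icc_of_le hT).1 hbS |>.mono_set (by
          rw [uIcc_of_le hT]))
    rw [uIcc_of_le hT] at h1
    exact continuousOn_const.add h1
  have hRunif : UniformContinuousOn R (Icc 0 T) :=
    isCompact_Icc.uniformContinuousOn_of_continuous hRcont
  obtain ⟨ω, hω, hωR⟩ := Metric.uniformContinuousOn_iff.1 hRunif (δ * η) (mul_pos hδ hη)
  -- choose the mesh
  obtain ⟨N, hN⟩ := exists_nat_gt (T / ω)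
  have hNpos : 0 < (N:ℝ) + 1 := by positivity
  set m : ℕ := N + 1 with hm
  have hmpos : (0:ℝ) < m := by simp [hm]; positivity
  set τ : ℕ → ℝ := fun k => (k:ℝ) * (T / m) with hτ
  have hstep : T / m < ω := by
    rw [div_lt_iff₀ hmpos]
    have h1 : T < ω * N := by
      rwa [div_lt_iff₀' hω] at hN
    have h2 : ω * (N:ℝ) ≤ ω * m := by
      apply mul_le_mul_of_nonneg_left _ hω.le
      simp [hm]
    linarith
  have hstep0 : 0 ≤ T / m := div_nonneg hT hmpos.le
  have hτmem : ∀ k : ℕ, k ≤ m → τ k ∈ Icc 0 T := by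
    intro k hk
    refine ⟨mul_nonneg (Nat.cast_nonneg _) hstep0, ?_⟩
    have hk' : (k:ℝ) ≤ m := by exact_mod_cast hk
    calc τ k = (k:ℝ) * (T / m) := rfl
      _ ≤ (m:ℝ) * (T / m) := mul_le_mul_of_nonneg_right hk' hstep0
      _ = T := by field_simp
  -- telescoping induction
  set B : ℝ → ℝ := fun t => ∫ u in (0:ℝ)..t, b u with hB
  have hind : ∀ k : ℕ, k ≤ m →
      (R (τ k)) ^ a - (R 0) ^ a ≤ a * (1 + η) * B (τ k) := by
    intro k
    induction k with
    | zero =>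
      intro _
      have h0 : τ 0 = 0 := by simp [hτ]
      simp [h0, hB]
    | succ k ih =>
      intro hk
      have hk' : k ≤ m := by omega
      have hs := hτmem k hk'
      have ht := hτmem (k + 1) hk
      have hst : τ k ≤ τ (k + 1) := by
        simp only [hτ]; push_cast
        nlinarith [hstep0]
      have hdist : dist (τ k) (τ (k + 1)) < ω := by
        rw [Real.dist_eq, abs_sub_comm, abs_of_nonneg (by linarith)]
        simp only [hτ]; push_cast
        have : ((k:ℝ) + 1) * (T / m) - (k:ℝ) * (T / m) = T / m := by ring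
        rw [this]; exact hstep
      have hclose := hωR _ hs _ ht hdist
      rw [Real.dist_eq, abs_sub_comm] at hclose
      have hRk := hRpos _ hs
      have hRk1 := hRpos _ ht
      have hmono := hRmono _ hs _ ht hst
      have hdiff : R (τ (k + 1)) - R (τ k) < δ * η := by
        have := (abs_lt.1 hclose).2
        linarith
      have hratio : R (τ (k + 1)) ≤ (1 + η) * R (τ k) := by
        have : δ * η ≤ R (τ k) * η := mul_le_mul_of_nonneg_right (hRδ _ hs) hη.le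
        nlinarith
      have hconc := rpow_sub_rpow_le_yud ha0 ha1 hRk hmono
      have hincr := hinc _ hs _ ht hst
      set Bk : ℝ := ∫ u in τ k..τ (k + 1), b u with hBk
      have hBk0 : 0 ≤ Bk := intervalIntegral.integral_nonneg hst
        (fun u hu => hb0 u ⟨hs.1.trans hu.1, hu.2.trans ht.2⟩)
      have hBadd : B (τ (k + 1)) = B (τ k) + Bk := by
        simp only [hB, hBk]
        exact (intervalIntegral.integral_add_adjacent_intervals (sub hb 0 h0T _ hs) (sub hb _ hs _ ht)).symm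
      -- main step
      have hmain : (R (τ (k + 1))) ^ a - (R (τ k)) ^ a ≤ a * (1 + η) * Bk := by
        have h1 : (R (τ (k + 1))) ^ (1 - a) ≤ (1 + η) * (R (τ k)) ^ (1 - a) := by
          have h2 : (R (τ (k + 1))) ^ (1 - a) ≤ ((1 + η) * R (τ k)) ^ (1 - a) :=
            Real.rpow_le_rpow hRk1.le hratio haθ
          rw [Real.mul_rpow (by linarith) hRk.le] at h2
          have h3 : (1 + η) ^ (1 - a) ≤ 1 + η := by
            calc (1 + η) ^ (1 - a) ≤ (1 + η) ^ (1:ℝ) :=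
                  Real.rpow_le_rpow_of_exponent_le (by linarith) (by linarith)
              _ = 1 + η := Real.rpow_one _
          calc _ ≤ (1 + η) ^ (1 - a) * (R (τ k)) ^ (1 - a) := h2
            _ ≤ _ := mul_le_mul_of_nonneg_right h3 (Real.rpow_nonneg hRk.le _)
        have h4 : (R (τ k)) ^ (a - 1) * (R (τ k)) ^ (1 - a) = 1 := by
          rw [← Real.rpow_add hRk]; simp
        have hx1 : 0 ≤ (R (τ k)) ^ (a - 1) := Real.rpow_nonneg hRk.le _
        calc (R (τ (k + 1))) ^ a - (R (τ k)) ^ a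
            ≤ a * (R (τ k)) ^ (a - 1) * (R (τ (k + 1)) - R (τ k)) := hconc
          _ ≤ a * (R (τ k)) ^ (a - 1) * (Bk * (R (τ (k + 1))) ^ (1 - a)) :=
              mul_le_mul_of_nonneg_left hincr (mul_nonneg ha0 hx1)
          _ ≤ a * (R (τ k)) ^ (a - 1) * (Bk * ((1 + η) * (R (τ k)) ^ (1 - a))) := by
              apply mul_le_mul_of_nonneg_left _ (mul_nonneg ha0 hx1)
              exact mul_le_mul_of_nonneg_left h1 hBk0
          _ = a * (1 + η) * Bk * ((R (τ k)) ^ (a - 1) * (R (τ k)) ^ (1 - a)) := by ring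
          _ = a * (1 + η) * Bk := by rw [h4, mul_one]
      have := ih hk'
      rw [hBadd]
      nlinarith
  have hτm : τ m = T := by
    simp only [hτ]; field_simp
  have hfinal := hind m le_rfl
  rw [hτm] at hfinal
  have hR0 : R 0 = δ + E := by simp [hR, hI0]
  rw [hR0] at hfinal
  have hRT := hRpos T ⟨hT, le_rfl⟩
  have hSTR := hSR T ⟨hT, le_rfl⟩
  have hST0 := hS0 T ⟨hT, le_rfl⟩
  have hapow : ((R T) ^ a) ^ p = R T := by
    rw [← Real.rpow_mul hRT.le, ha, one_div, inv_mul_cancel₀ hp0.ne', Real.rpow_one]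
  have hBT : B T = ∫ u in (0:ℝ)..T, b u := rfl
  have hle2 : (R T) ^ a ≤ (δ + E) ^ a + a * (1 + η) * B T := by linarith
  calc S T ≤ R T := hSTR
    _ = ((R T) ^ a) ^ p := hapow.symm
    _ ≤ ((δ + E) ^ a + a * (1 + η) * B T) ^ p :=
        Real.rpow_le_rpow (Real.rpow_nonneg hRT.le _) hle2 hp0.le

/-- **Yudovich lemma in integral form.** -/
theorem yudovich_integral (hT : 0 ≤ T) (hp : 1 ≤ p)
    (hb0 : ∀ u ∈ Icc 0 T, 0 ≤ b u) (he0 : ∀ u ∈ Icc 0 T, 0 ≤ e u)
    (hS0 : ∀ u ∈ Icc 0 T, 0 ≤ S u)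
    (hbS : IntervalIntegrable (fun u => b u * S u ^ (1 - 1 / p)) volume 0 T)
    (hb : IntervalIntegrable b volume 0 T)
    (he : IntervalIntegrable e volume 0 T)
    (hle : ∀ t ∈ Icc 0 T, S t ≤ ∫ u in (0:ℝ)..t, (b u * S u ^ (1 - 1 / p) + e u)) :
    S T ≤ ((∫ u in (0:ℝ)..T, e u) ^ (1 / p) + (1 / p) * ∫ u in (0:ℝ)..T, b u) ^ p := by
  have hp0 : 0 < p := by linarith
  set E := ∫ u in (0:ℝ)..T, e u with hE
  have hE0 : 0 ≤ E := intervalIntegral.integral_nonneg hT he0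
  set BT := ∫ u in (0:ℝ)..T, b u with hBT
  -- limit along `δ = η = 1/(n+1)`
  have hlim : Tendsto (fun n : ℕ => ((1 / ((n:ℝ) + 1) + E) ^ (1 / p)
      + (1 / p) * (1 + 1 / ((n:ℝ) + 1)) * BT) ^ p) atTop
      (𝓝 ((E ^ (1 / p) + (1 / p) * BT) ^ p)) := by
    have h0 : Tendsto (fun n : ℕ => 1 / ((n:ℝ) + 1)) atTop (𝓝 0) :=
      tendsto_one_div_add_atTop_nhds_zero_nat
    have h1 : Tendsto (fun n : ℕ => 1 / ((n:ℝ) + 1) + E) atTop (𝓝 (0 + E)) := h0.add_const E
    rw [zero_add] at h1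
    have h2 : Tendsto (fun n : ℕ => (1 / ((n:ℝ) + 1) + E) ^ (1 / p)) atTop (𝓝 (E ^ (1 / p))) :=
      h1.rpow_const (Or.inr (by positivity))
    have h3 : Tendsto (fun n : ℕ => (1 / p) * (1 + 1 / ((n:ℝ) + 1)) * BT) atTop
        (𝓝 ((1 / p) * (1 + 0) * BT)) :=
      ((h0.const_add 1).const_mul (1 / p)).mul_const BT
    simp only [add_zero, mul_one] at h3
    exact (h2.add h3).rpow_const (Or.inr hp0.le)
  refine ge_of_tendsto' hlim (fun n => ?_)
  exact yudovich_aux hT hp hb0 he0 hS0 hbS hb he hle (by positivity) (by positivity)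

/-- Yudovich in the form used by `critical_cauchy`: `S` monotone, natural exponent. -/
theorem yudovich {S b e : ℝ → ℝ} {T : ℝ} {p : ℕ} (hp : 2 ≤ p) (hT : 0 ≤ T)
    (hSm : MonotoneOn S (Icc 0 T)) (hS0 : ∀ t ∈ Icc 0 T, 0 ≤ S t)
    (hb : IntervalIntegrable b volume 0 T) (hb0 : ∀ t, 0 ≤ b t)
    (he : IntervalIntegrable e volume 0 T) (he0 : ∀ t, 0 ≤ e t)
    (hS : ∀ t ∈ Icc 0 T, S t ≤ ∫ s in (0 : ℝ)..t, (b s * S s ^ (1 - 1 / (p : ℝ)) + e s)) :
    S T ≤ ((∫ s in (0 : ℝ)..T, e s) ^ (1 / (p : ℝ)) + (1 / (p : ℝ)) * ∫ s in (0 : ℝ)..T, b s) ^ p := by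
  have hp1 : (1:ℝ) ≤ (p:ℝ) := by
    have : (2:ℝ) ≤ (p:ℝ) := by exact_mod_cast hp
    linarith
  have hp0 : (0:ℝ) < (p:ℝ) := by linarith
  have hθ : 0 ≤ 1 - 1 / (p:ℝ) := by
    have : 1 / (p:ℝ) ≤ 1 := by rw [div_le_one hp0]; exact hp1
    linarith
  -- integrability of `b * S^θ`
  have hbS : IntervalIntegrable (fun u => b u * S u ^ (1 - 1 / (p:ℝ))) volume 0 T := by
    rw [intervalIntegrable_iff_integrableOn_Ioc_of_le hT]
    have hbI : IntegrableOn b (Ioc 0 T) := (intervalIntegrable_iff_integrableOn_Ioc_of_le hT).1 hb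
    have hmono : MonotoneOn (fun u => S u ^ (1 - 1 / (p:ℝ))) (Icc 0 T) := by
      intro x hx y hy hxy
      exact Real.rpow_le_rpow (hS0 x hx) (hSm hx hy hxy) hθ
    have hmeas : AEMeasurable (fun u => S u ^ (1 - 1 / (p:ℝ))) (volume.restrict (Icc (0:ℝ) T)) :=
      aemeasurable_restrict_of_monotoneOn measurableSet_Icc hmono
    have hmeas' : AEStronglyMeasurable (fun u => S u ^ (1 - 1 / (p:ℝ))) (volume.restrict (Ioc (0:ℝ) T)) :=
      (hmeas.mono_measure (Measure.restrict_mono Ioc_subset_Icc_self le_rfl)).aestronglyMeasurable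
    have hbdd : ∀ᵐ u ∂(volume.restrict (Ioc (0:ℝ) T)), ‖S u ^ (1 - 1 / (p:ℝ))‖ ≤ S T ^ (1 - 1 / (p:ℝ)) := by
      refine (ae_restrict_iff' measurableSet_Ioc).2 (Eventually.of_forall fun u hu => ?_)
      have hu' : u ∈ Icc 0 T := Ioc_subset_Icc_self hu
      rw [Real.norm_of_nonneg (Real.rpow_nonneg (hS0 u hu') _)]
      exact hmono hu' ⟨hT, le_rfl⟩ hu.2
    exact (hbI.integrable.mul_bdd (c := S T ^ (1 - 1 / (p:ℝ))) hmeas' hbdd)
  have key := yudovich_integral (p := (p:ℝ)) (S := S) (b := b) (e := e) hT hp1 (fun t _ => hb0 t)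
    (fun t _ => he0 t) hS0 hbS hb he hS
  simpa only [Real.rpow_natCast] using key

end Crest.Agent.Lib.IsingFIID
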