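/-
Row 160 (S0241), Task CC: closure of the critical case by the Yudovich lemma (BLUEPRINT §8).
`tendsto_zero_of_yudovich` is abstract real analysis; `critical_cauchy_core` is the statement
`critical_cauchy` with its inputs (`pair_increment`, `pair_mono`, `mInf_zero`, `main_ineq`) as hypotheses.
-/
import Crest.Agent.Lib.IsingFIID.Yudovich
import Crest.Agent.Lib.IsingFIID.Basic

set_option autoImplicit false

namespace Crest.Agent.Lib.IsingFIID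

open MeasureTheory Filter Topology Set SimpleGraph

/-- Abstract closure: a family of nondecreasing functions vanishing at `0`, with
`S_i' ≤ Y_i ≤ b_p S_i^{1-1/p} + e_i`, where `(1/p) ∫ b_p → 0` and `∫ e_i → 0`, tends to `0` at time `T`. -/
theorem tendsto_zero_of_yudovich {ι : Type*} {l : Filter ι} {T : ℝ} (hT : 0 ≤ T)
    (S Y e : ι → ℝ → ℝ) (b : ℕ → ℝ → ℝ)
    (hSm : ∀ i, MonotoneOn (S i) (Icc 0 T)) (hS0 : ∀ i, S i 0 = 0)
    (hinc : ∀ i, ∀ t ∈ Icc 0 T, S i t - S i 0 ≤ ∫ s in (0 : ℝ)..t, Y i s)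
    (hY0 : ∀ i s, 0 ≤ Y i s)
    (hb : ∀ p, IntervalIntegrable (b p) volume 0 T) (hb0 : ∀ p t, 0 ≤ b p t)
    (hJ : Tendsto (fun p : ℕ => (1 / (p : ℝ)) * ∫ t in (0 : ℝ)..T, b p t) atTop (𝓝 0))
    (he : ∀ i, IntervalIntegrable (e i) volume 0 T) (he0 : ∀ i t, 0 ≤ e i t)
    (hE : Tendsto (fun i => ∫ t in (0 : ℝ)..T, e i t) l (𝓝 0))
    (hY : ∀ i, ∀ t ∈ Ioc 0 T, ∀ p : ℕ, 2 ≤ p →
      Y i t ≤ b p t * S i t ^ (1 - 1 / (p : ℝ)) + e i t) :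
    Tendsto (fun i => S i T) l (𝓝 0) := by
  have hpos : ∀ i, ∀ t ∈ Icc 0 T, 0 ≤ S i t := by
    intro i t ht
    have := hSm i (left_mem_Icc.2 hT) ht ht.1
    rwa [hS0] at this
  -- the Yudovich bound
  have hbound : ∀ i (p : ℕ), 2 ≤ p →
      S i T ≤ ((∫ s in (0 : ℝ)..T, e i s) ^ (1 / (p : ℝ)) +
        (1 / (p : ℝ)) * ∫ s in (0 : ℝ)..T, b p s) ^ p := by
    intro i p hp
    have hp1 : (1 : ℝ) ≤ (p : ℝ) := by
      have : (2 : ℝ) ≤ (p : ℝ) := by exact_mod_cast hp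
      linarith
    have hp0 : (0 : ℝ) < (p : ℝ) := by linarith
    have hθ : 0 ≤ 1 - 1 / (p : ℝ) := by
      have : 1 / (p : ℝ) ≤ 1 := by rw [div_le_one hp0]; exact hp1
      linarith
    refine yudovich hp hT (hSm i) (hpos i) (hb p) (hb0 p) (he i) (he0 i) ?_
    intro t ht
    -- integrability of the right side on `[0,t]`
    have hsub : Ioc 0 t ⊆ Ioc 0 T := Ioc_subset_Ioc_right ht.2
    have hbI : IntegrableOn (b p) (Ioc 0 T) :=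
      (intervalIntegrable_iff_integrableOn_Ioc_of_le hT).1 (hb p)
    have heI : IntegrableOn (e i) (Ioc 0 T) :=
      (intervalIntegrable_iff_integrableOn_Ioc_of_le hT).1 (he i)
    have hmono : MonotoneOn (fun u => S i u ^ (1 - 1 / (p : ℝ))) (Icc 0 T) := by
      intro x hx y hy hxy
      exact Real.rpow_le_rpow (hpos i x hx) (hSm i hx hy hxy) hθ
    have hmeas : AEMeasurable (fun u => S i u ^ (1 - 1 / (p : ℝ))) (volume.restrict (Icc (0 : ℝ) T)) :=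
      aemeasurable_restrict_of_monotoneOn measurableSet_Icc hmono
    have hmeas' : AEStronglyMeasurable (fun u => S i u ^ (1 - 1 / (p : ℝ)))
        (volume.restrict (Ioc (0 : ℝ) T)) :=
      (hmeas.mono_measure (Measure.restrict_mono Ioc_subset_Icc_self le_rfl)).aestronglyMeasurable
    have hbdd : ∀ᵐ u ∂(volume.restrict (Ioc (0 : ℝ) T)),
        ‖S i u ^ (1 - 1 / (p : ℝ))‖ ≤ S i T ^ (1 - 1 / (p : ℝ)) := by
      refine (ae_restrict_iff' measurableSet_Ioc).2 (Eventually.of_forall fun u hu => ?_)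
      have hu' : u ∈ Icc 0 T := Ioc_subset_Icc_self hu
      rw [Real.norm_of_nonneg (Real.rpow_nonneg (hpos i u hu') _)]
      exact hmono hu' ⟨hT, le_rfl⟩ hu.2
    have hbS : IntegrableOn (fun u => b p u * S i u ^ (1 - 1 / (p : ℝ))) (Ioc 0 T) :=
      hbI.integrable.mul_bdd (c := S i T ^ (1 - 1 / (p : ℝ))) hmeas' hbdd
    have hR : IntegrableOn (fun u => b p u * S i u ^ (1 - 1 / (p : ℝ)) + e i u) (Ioc 0 t) :=
      (hbS.mono_set hsub).add (heI.mono_set hsub)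
    have h1 := hinc i t ht
    rw [hS0, sub_zero] at h1
    refine h1.trans ?_
    rw [intervalIntegral.integral_of_le ht.1, intervalIntegral.integral_of_le ht.1]
    refine integral_mono_of_nonneg (Eventually.of_forall (hY0 i)) hR ?_
    refine (ae_restrict_iff' measurableSet_Ioc).2 (Eventually.of_forall fun u hu => ?_)
    exact hY i u ⟨hu.1, hu.2.trans ht.2⟩ p hp
  -- the `ε`-argument
  rw [Metric.tendsto_nhds]
  intro δ hδ
  -- choose `p`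
  have hp2 : ∀ᶠ p : ℕ in atTop, 2 ≤ p := eventually_ge_atTop 2
  have hpJ : ∀ᶠ p : ℕ in atTop, (1 / (p : ℝ)) * ∫ t in (0 : ℝ)..T, b p t < 1 / 4 :=
    hJ.eventually (gt_mem_nhds (by norm_num))
  have hpow : ∀ᶠ p : ℕ in atTop, ((1 : ℝ) / 2) ^ p < δ :=
    (tendsto_pow_atTop_nhds_zero_of_lt_one (by norm_num) (by norm_num)).eventually (gt_mem_nhds hδ)
  obtain ⟨p, hp, hpJ', hpow'⟩ := (hp2.and (hpJ.and hpow)).exists
  have hpp : (0 : ℝ) < 1 / (p : ℝ) := by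
    have : (2 : ℝ) ≤ (p : ℝ) := by exact_mod_cast hp
    positivity
  have hEp : Tendsto (fun i => (∫ t in (0 : ℝ)..T, e i t) ^ (1 / (p : ℝ))) l (𝓝 0) := by
    have := hE.rpow_const (p := 1 / (p : ℝ)) (Or.inr hpp.le)
    rwa [Real.zero_rpow hpp.ne'] at this
  filter_upwards [hEp.eventually (gt_mem_nhds (show (0 : ℝ) < 1 / 4 by norm_num))] with i hi
  have hSpos := hpos i T ⟨hT, le_rfl⟩
  rw [Real.dist_eq, sub_zero, abs_of_nonneg hSpos]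
  have hb' := hbound i p hp
  have hE0 : 0 ≤ ∫ t in (0 : ℝ)..T, e i t := intervalIntegral.integral_nonneg hT (fun t _ => he0 i t)
  have hbI0 : 0 ≤ ∫ t in (0 : ℝ)..T, b p t := intervalIntegral.integral_nonneg hT (fun t _ => hb0 p t)
  have hbase0 : 0 ≤ (∫ s in (0 : ℝ)..T, e i s) ^ (1 / (p : ℝ)) +
      (1 / (p : ℝ)) * ∫ s in (0 : ℝ)..T, b p s :=
    add_nonneg (Real.rpow_nonneg hE0 _) (mul_nonneg hpp.le hbI0)
  have hbase : (∫ s in (0 : ℝ)..T, e i s) ^ (1 / (p : ℝ)) +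
      (1 / (p : ℝ)) * ∫ s in (0 : ℝ)..T, b p s ≤ 1 / 2 := by linarith
  calc S i T ≤ _ := hb'
    _ ≤ (1 / 2 : ℝ) ^ p := pow_le_pow_left₀ hbase0 hbase p
    _ < δ := hpow'

variable {V : Type*} [DecidableEq V] {G : SimpleGraph V} [G.LocallyFinite] {d : ℕ}

/-- `Xp` is nonnegative when `K ≥ 0`. -/
theorem Xp_nonneg {K : ℝ} (hK : 0 ≤ K) (θ θ' : ℝ) (κ : ℝ → ℝ) (ω : Om V) (τ : ℝ) (v y : V) :
    0 ≤ Xp K G θ θ' κ ω τ v y := by
  unfold Xp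
  positivity

/-- `critical_cauchy` from its inputs (stated for the given `K`). -/
theorem critical_cauchy_core {K : ℝ} (hK : 0 ≤ K) {ε τ₁ : ℝ} (hτ₁ : 1 ≤ τ₁) {θs : ℕ → ℝ} {v : V}
    (hinc : ∀ j k, ∀ t ∈ Icc 0 τ₁,
      (∫ ω, (mInf G (θs j) (kap ε) ω t v - mInf G (θs k) (kap ε) ω t v) ^ 2 ∂(PP V)) -
        ∫ ω, (mInf G (θs j) (kap ε) ω 0 v - mInf G (θs k) (kap ε) ω 0 v) ^ 2 ∂(PP V) ≤
      ∫ τ in (0 : ℝ)..t, ∑' r, ∑ y ∈ sphere G v r, ∫ ω, Xp K G (θs j) (θs k) (kap ε) ω τ v y ∂(PP V))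
    (hmono : ∀ j k, ∀ t₁ t₂, 0 ≤ t₁ → t₁ ≤ t₂ →
      ∫ ω, (mInf G (θs j) (kap ε) ω t₁ v - mInf G (θs k) (kap ε) ω t₁ v) ^ 2 ∂(PP V) ≤
        ∫ ω, (mInf G (θs j) (kap ε) ω t₂ v - mInf G (θs k) (kap ε) ω t₂ v) ^ 2 ∂(PP V))
    (hzero : ∀ j ω, mInf G (θs j) (kap ε) ω 0 v = 0)
    (hmain : ∃ (b : ℕ → ℝ → ℝ) (e : ℕ → ℕ → ℝ → ℝ),
      (∀ p, IntervalIntegrable (b p) volume 0 τ₁) ∧ (∀ p τ, 0 ≤ b p τ) ∧
      Tendsto (fun p : ℕ => (1 / (p : ℝ)) * ∫ τ in (0 : ℝ)..τ₁, b p τ) atTop (𝓝 0) ∧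
      (∀ j k, IntervalIntegrable (e j k) volume 0 τ₁) ∧ (∀ j k τ, 0 ≤ e j k τ) ∧
      Tendsto (fun jk : ℕ × ℕ => ∫ τ in (0 : ℝ)..τ₁, e jk.1 jk.2 τ) (atTop ×ˢ atTop) (𝓝 0) ∧
      ∀ j k, ∀ τ ∈ Ioc 0 τ₁, ∀ p : ℕ, 2 ≤ p →
        ∑' r, ∑ y ∈ sphere G v r, ∫ ω, Xp K G (θs j) (θs k) (kap ε) ω τ v y ∂(PP V) ≤
          b p τ * Sd G (θs j) (θs k) (kap ε) τ v ^ (1 - 1 / (p : ℝ)) + e j k τ) :
    Tendsto (fun jk : ℕ × ℕ => Sd G (θs jk.1) (θs jk.2) (kap ε) τ₁ v) (atTop ×ˢ atTop) (𝓝 0) := by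
  obtain ⟨b, e, hb, hb0, hJ, he, he0, hE, hY⟩ := hmain
  have hT : (0 : ℝ) ≤ τ₁ := by linarith
  have hS00 : ∀ j k, Sd G (θs j) (θs k) (kap ε) 0 v = 0 := by
    intro j k
    unfold Sd
    simp [hzero]
  refine tendsto_zero_of_yudovich (ι := ℕ × ℕ) hT
    (fun jk t => Sd G (θs jk.1) (θs jk.2) (kap ε) t v)
    (fun jk τ => ∑' r, ∑ y ∈ sphere G v r, ∫ ω, Xp K G (θs jk.1) (θs jk.2) (kap ε) ω τ v y ∂(PP V))
    (fun jk => e jk.1 jk.2) b ?_ ?_ ?_ ?_ hb hb0 hJ (fun jk => he jk.1 jk.2)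
    (fun jk => he0 jk.1 jk.2) hE ?_
  · intro jk x hx y _ hxy
    exact hmono jk.1 jk.2 x y hx.1 hxy
  · intro jk
    exact hS00 jk.1 jk.2
  · intro jk t ht
    exact hinc jk.1 jk.2 t ht
  · intro jk s
    refine tsum_nonneg fun r => Finset.sum_nonneg fun y _ => integral_nonneg fun ω => ?_
    exact Xp_nonneg hK _ _ _ _ _ _ _
  · intro jk t ht p hp
    exact hY jk.1 jk.2 t ht p hp

end Crest.Agent.Lib.IsingFIID
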