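/-
Task GI, part 1: general facts on the Gibbs measures of `Defs.lean` on an arbitrary finite set.
-/
import Crest.Agent.Lib.IsingFIID.Basic

set_option autoImplicit false
set_option linter.unusedSectionVars false
set_option linter.unusedVariables false

namespace Crest.Agent.Lib.IsingFIID

open MeasureTheory Filter Topology Set SimpleGraph

variable {V : Type*} [DecidableEq V] {G : SimpleGraph V}

@[simp] lemma sp_mem {A : Finset V} {v : V} (h : v ∈ A) : sp A v = 1 := by simp [sp, h]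
@[simp] lemma sp_not_mem {A : Finset V} {v : V} (h : v ∉ A) : sp A v = -1 := by simp [sp, h]

lemma spA_mul_self (A : Finset V) (v : V) : sp A v * sp A v = 1 := by
  by_cases h : v ∈ A <;> simp [h]

lemma sp_sq (A : Finset V) (v : V) : sp A v ^ 2 = 1 := by rw [sq, spA_mul_self]

lemma abs_sp (A : Finset V) (v : V) : |sp A v| = 1 := by
  by_cases h : v ∈ A <;> simp [h]

open Classical in
/-- Expanded form of the weight. -/
lemma bw_def (θ : ℝ) (W A : Finset V) :
    bw G θ W A = (1 / 2) * ∏ e ∈ W.sym2 with e ∈ G.edgeSet,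
      (if (Sym2.map (fun v => decide (v ∈ A)) e).IsDiag then (1 + θ) / 2 else (1 - θ) / 2) := by
  unfold bw Crest.ProbabilityR.TreeIsing.isingWeight
  congr 2

theorem bw_pos {W A : Finset V} {θ : ℝ} (h0 : 0 ≤ θ) (h1 : θ < 1) : 0 < bw G θ W A := by
  rw [bw_def]
  refine mul_pos (by norm_num) (Finset.prod_pos fun e _ => ?_)
  split_ifs <;> linarith

lemma gExp_pos (h : V → ℝ) (W A : Finset V) : 0 < gExp h W A := Real.exp_pos _

theorem gZ_pos {W : Finset V} {θ : ℝ} (h0 : 0 ≤ θ) (h1 : θ < 1) (h : V → ℝ) :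
    0 < gZ G θ W h :=
  Finset.sum_pos (fun A _ => mul_pos (bw_pos h0 h1) (gExp_pos h W A))
    ⟨∅, Finset.empty_mem_powerset W⟩

section avg

variable {W : Finset V} {θ : ℝ} {h : V → ℝ}

lemma gAvg_const (h0 : 0 ≤ θ) (h1 : θ < 1) (h : V → ℝ) (c : ℝ) :
    gAvg G θ W h (fun _ => c) = c := by
  unfold gAvg
  have hZ := (gZ_pos (G := G) (W := W) h0 h1 h).ne'
  rw [← Finset.sum_mul]
  change gZ G θ W h * c / gZ G θ W h = c
  field_simp

lemma gAvg_add (f g : Finset V → ℝ) :
    gAvg G θ W h (fun A => f A + g A) = gAvg G θ W h f + gAvg G θ W h g := by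
  unfold gAvg
  rw [← add_div, ← Finset.sum_add_distrib]
  congr 1
  exact Finset.sum_congr rfl fun A _ => by ring

lemma gAvg_sub (f g : Finset V → ℝ) :
    gAvg G θ W h (fun A => f A - g A) = gAvg G θ W h f - gAvg G θ W h g := by
  unfold gAvg
  rw [← sub_div, ← Finset.sum_sub_distrib]
  congr 1
  exact Finset.sum_congr rfl fun A _ => by ring

lemma gAvg_smul (c : ℝ) (f : Finset V → ℝ) :
    gAvg G θ W h (fun A => c * f A) = c * gAvg G θ W h f := by
  unfold gAvg
  rw [← mul_div_assoc, Finset.mul_sum]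
  congr 1
  exact Finset.sum_congr rfl fun A _ => by ring

lemma abs_gAvg_le (h0 : 0 ≤ θ) (h1 : θ < 1) {f : Finset V → ℝ} {C : ℝ}
    (hf : ∀ A ∈ W.powerset, |f A| ≤ C) : |gAvg G θ W h f| ≤ C := by
  have hZ := gZ_pos (G := G) (W := W) h0 h1 h
  unfold gAvg
  rw [abs_div, abs_of_pos hZ, div_le_iff₀ hZ]
  calc |∑ A ∈ W.powerset, bw G θ W A * gExp h W A * f A|
      ≤ ∑ A ∈ W.powerset, |bw G θ W A * gExp h W A * f A| := Finset.abs_sum_le_sum_abs _ _
    _ ≤ ∑ A ∈ W.powerset, C * (bw G θ W A * gExp h W A) := Finset.sum_le_sum fun A hA => by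
        rw [abs_mul, abs_of_pos (mul_pos (bw_pos h0 h1) (gExp_pos h W A)), mul_comm]
        exact mul_le_mul_of_nonneg_right (hf A hA) (mul_pos (bw_pos h0 h1) (gExp_pos h W A)).le
    _ = C * gZ G θ W h := by unfold gZ; rw [Finset.mul_sum]

end avg

theorem abs_gm_le {W : Finset V} {θ : ℝ} (h0 : 0 ≤ θ) (h1 : θ < 1) (h : V → ℝ) (v : V) :
    |gm G θ W h v| ≤ 1 :=
  abs_gAvg_le h0 h1 fun A _ => (abs_sp A v).le

lemma gm_sq_le {W : Finset V} {θ : ℝ} (h0 : 0 ≤ θ) (h1 : θ < 1) (h : V → ℝ) (v : V) :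
    gm G θ W h v ^ 2 ≤ 1 := by
  have := abs_gm_le (G := G) (W := W) h0 h1 h v
  rw [← sq_abs]
  nlinarith [abs_nonneg (gm G θ W h v)]

lemma gcov_self {W : Finset V} {θ : ℝ} (h0 : 0 ≤ θ) (h1 : θ < 1) (h : V → ℝ) (v : V) :
    gcov G θ W h v v = 1 - gm G θ W h v ^ 2 := by
  unfold gcov
  simp only [spA_mul_self]
  rw [gAvg_const h0 h1]; ring

lemma gcov_comm {W : Finset V} {θ : ℝ} (h : V → ℝ) (u v : V) :
    gcov G θ W h u v = gcov G θ W h v u := by
  unfold gcov
  simp only [mul_comm (sp _ u)]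
  rw [mul_comm (gm G θ W h u)]

lemma abs_E_sub_mul_le {E m n : ℝ} (hm : -1 ≤ m ∧ m ≤ 1) (hn : -1 ≤ n ∧ n ≤ 1)
    (k1 : E ≤ 1 - m + n) (k2 : E ≤ 1 + m - n) (k3 : m + n - 1 ≤ E) (k4 : - m - n - 1 ≤ E) :
    |E - m * n| ≤ 1 := by
  obtain ⟨hm1, hm2⟩ := hm
  obtain ⟨hn1, hn2⟩ := hn
  rw [abs_le]
  rcases le_total 0 m with h1 | h1 <;> rcases le_total 0 n with h2 | h2
  · constructor <;> nlinarith [mul_nonneg h1 h2, mul_nonneg h1 (by linarith : 0 ≤ 1 - n)]
  · constructor <;> nlinarith [mul_nonneg h1 (by linarith : 0 ≤ -n),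
      mul_nonneg h1 (by linarith : 0 ≤ 1 + n)]
  · constructor <;> nlinarith [mul_nonneg (by linarith : 0 ≤ -m) h2,
      mul_nonneg (by linarith : 0 ≤ -m) (by linarith : 0 ≤ 1 - n),
      mul_nonneg (by linarith : 0 ≤ 1 + m) h2]
  · constructor <;> nlinarith [mul_nonneg (by linarith : 0 ≤ -m) (by linarith : 0 ≤ -n),
      mul_nonneg (by linarith : 0 ≤ -m) (by linarith : 0 ≤ 1 + n)]

theorem abs_gcov_le {W : Finset V} {θ : ℝ} (h0 : 0 ≤ θ) (h1 : θ < 1) (h : V → ℝ) (u v : V) :
    |gcov G θ W h u v| ≤ 1 := by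
  have hu := abs_le.mp (abs_gm_le (G := G) (W := W) h0 h1 h u)
  have hv := abs_le.mp (abs_gm_le (G := G) (W := W) h0 h1 h v)
  -- `E (1 - s s') ≥ ± (m - m')`, `E (1 + s s') ≥ ± (m + m')`
  have key : ∀ (a b : ℝ) , (∀ A ∈ W.powerset, a * sp A u + b * sp A v ≤
      1 + a * b * sp A u * sp A v) → a * gm G θ W h u + b * gm G θ W h v ≤
        1 + a * b * gAvg G θ W h (fun A => sp A u * sp A v) := by
    intro a b hA
    have hZ := gZ_pos (G := G) (W := W) h0 h1 h
    have e : 1 + a * b * gAvg G θ W h (fun A => sp A u * sp A v) -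
        (a * gm G θ W h u + b * gm G θ W h v) =
        gAvg G θ W h (fun A => (1 + a * b * (sp A u * sp A v)) - (a * sp A u + b * sp A v)) := by
      rw [gAvg_sub, gAvg_add, gAvg_add, gAvg_smul, gAvg_smul, gAvg_smul, gAvg_const h0 h1]
      unfold gm
      ring
    have hnn : 0 ≤ gAvg G θ W h
        (fun A => (1 + a * b * (sp A u * sp A v)) - (a * sp A u + b * sp A v)) := by
      unfold gAvg
      refine div_nonneg (Finset.sum_nonneg fun A hA' => ?_) hZ.le
      refine mul_nonneg (mul_pos (bw_pos h0 h1) (gExp_pos h W A)).le ?_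
      have := hA A hA'
      nlinarith
    linarith
  have h1' : ∀ A ∈ W.powerset, (1 : ℝ) * sp A u + (-1) * sp A v ≤
      1 + 1 * (-1) * sp A u * sp A v := by
    intro A _
    by_cases hu' : u ∈ A <;> by_cases hv' : v ∈ A <;> simp [hu', hv'] <;> norm_num
  have h2' : ∀ A ∈ W.powerset, (-1 : ℝ) * sp A u + (1) * sp A v ≤
      1 + (-1) * 1 * sp A u * sp A v := by
    intro A _
    by_cases hu' : u ∈ A <;> by_cases hv' : v ∈ A <;> simp [hu', hv'] <;> norm_num
  have h3' : ∀ A ∈ W.powerset, (1 : ℝ) * sp A u + (1) * sp A v ≤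
      1 + 1 * 1 * sp A u * sp A v := by
    intro A _
    by_cases hu' : u ∈ A <;> by_cases hv' : v ∈ A <;> simp [hu', hv'] <;> norm_num
  have h4' : ∀ A ∈ W.powerset, (-1 : ℝ) * sp A u + (-1) * sp A v ≤
      1 + (-1) * (-1) * sp A u * sp A v := by
    intro A _
    by_cases hu' : u ∈ A <;> by_cases hv' : v ∈ A <;> simp [hu', hv'] <;> norm_num
  have k1 := key 1 (-1) h1'
  have k2 := key (-1) 1 h2'
  have k3 := key 1 1 h3'
  have k4 := key (-1) (-1) h4'
  unfold gcov
  exact abs_E_sub_mul_le hu hv (by linarith) (by linarith) (by linarith) (by linarith)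

/-- Only the fields on `W` matter. -/
theorem gm_congr {W : Finset V} {θ : ℝ} {h h' : V → ℝ} (hh : ∀ v ∈ W, h v = h' v) (v : V) :
    gm G θ W h v = gm G θ W h' v := by
  have e : ∀ A, gExp h W A = gExp h' W A := fun A => by
    unfold gExp
    congr 1
    exact Finset.sum_congr rfl fun v hv => by rw [hh v hv]
  unfold gm gAvg gZ
  simp only [e]

lemma gAvg_congr {W : Finset V} {θ : ℝ} {h h' : V → ℝ} (hh : ∀ v ∈ W, h v = h' v)
    (f : Finset V → ℝ) : gAvg G θ W h f = gAvg G θ W h' f := by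
  have e : ∀ A, gExp h W A = gExp h' W A := fun A => by
    unfold gExp
    congr 1
    exact Finset.sum_congr rfl fun v hv => by rw [hh v hv]
  unfold gAvg gZ
  simp only [e]

/-- `exp (y s) = cosh y (1 + tanh y s)` for a spin `s`. -/
lemma exp_mul_spin (y : ℝ) {s : ℝ} (hs : s = 1 ∨ s = -1) :
    Real.exp (y * s) = Real.cosh y * (1 + Real.tanh y * s) := by
  have hc := (Real.cosh_pos y).ne'
  rw [Real.tanh_eq_sinh_div_cosh]
  have : Real.cosh y * (1 + Real.sinh y / Real.cosh y * s) = Real.cosh y + Real.sinh y * s := by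
    field_simp
  rw [this]
  rcases hs with rfl | rfl
  · simp [Real.cosh_add_sinh]
  · have := Real.cosh_sub_sinh y
    simp only [mul_neg, mul_one]
    rw [← sub_eq_add_neg, this]

lemma sp_eq_or (A : Finset V) (v : V) : sp A v = 1 ∨ sp A v = -1 := by
  by_cases h : v ∈ A <;> simp [h]

/-- The tilt of a pattern. -/
lemma gExp_update (h : V → ℝ) {W A : Finset V} {z : V} (hz : z ∈ W) (y : ℝ) :
    gExp (Function.update h z (h z + y)) W A =
      gExp h W A * (Real.cosh y * (1 + Real.tanh y * sp A z)) := by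
  unfold gExp
  rw [← exp_mul_spin y (sp_eq_or A z), ← Real.exp_add]
  congr 1
  rw [← Finset.add_sum_erase W _ hz, ← Finset.add_sum_erase W (fun v => h v * sp A v) hz]
  simp only [Function.update_self]
  have : ∑ x ∈ W.erase z, Function.update h z (h z + y) x * sp A x =
      ∑ x ∈ W.erase z, h x * sp A x :=
    Finset.sum_congr rfl fun v hv => by
      rw [Function.update_of_ne (Finset.ne_of_mem_erase hv)]
  rw [this]; ring

lemma sum_eq_gZ_mul {W : Finset V} {θ : ℝ} (h0 : 0 ≤ θ) (h1 : θ < 1) (h : V → ℝ)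
    (f : Finset V → ℝ) :
    ∑ A ∈ W.powerset, bw G θ W A * gExp h W A * f A = gZ G θ W h * gAvg G θ W h f := by
  have hZ := (gZ_pos (G := G) (W := W) h0 h1 h).ne'
  unfold gAvg
  field_simp

/-- Tilted sums. -/
lemma sum_update {W : Finset V} {θ : ℝ} (h0 : 0 ≤ θ) (h1 : θ < 1) (h : V → ℝ) {z : V}
    (hz : z ∈ W) (y : ℝ) (f : Finset V → ℝ) :
    ∑ A ∈ W.powerset, bw G θ W A * gExp (Function.update h z (h z + y)) W A * f A =
      Real.cosh y * gZ G θ W h *
        (gAvg G θ W h f + Real.tanh y * gAvg G θ W h (fun A => sp A z * f A)) := by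
  simp only [gExp_update h hz y]
  have e : ∀ A, bw G θ W A * (gExp h W A * (Real.cosh y * (1 + Real.tanh y * sp A z))) * f A =
      Real.cosh y * (bw G θ W A * gExp h W A * f A) +
        Real.cosh y * Real.tanh y * (bw G θ W A * gExp h W A * (sp A z * f A)) := fun A => by ring
  simp only [e]
  rw [Finset.sum_add_distrib, ← Finset.mul_sum, ← Finset.mul_sum, sum_eq_gZ_mul h0 h1,
    sum_eq_gZ_mul h0 h1]
  ring

/-- Tilting the Gibbs average. -/
lemma gAvg_update {W : Finset V} {θ : ℝ} (h0 : 0 ≤ θ) (h1 : θ < 1) (h : V → ℝ) {z : V}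
    (hz : z ∈ W) (y : ℝ) (hD : 1 + Real.tanh y * gm G θ W h z ≠ 0) (f : Finset V → ℝ) :
    gAvg G θ W (Function.update h z (h z + y)) f =
      (gAvg G θ W h f + Real.tanh y * gAvg G θ W h (fun A => sp A z * f A)) /
        (1 + Real.tanh y * gm G θ W h z) := by
  have hZ := (gZ_pos (G := G) (W := W) h0 h1 h).ne'
  have hc := (Real.cosh_pos y).ne'
  have e1 : gZ G θ W (Function.update h z (h z + y)) =
      Real.cosh y * gZ G θ W h * (1 + Real.tanh y * gm G θ W h z) := by
    have := sum_update (G := G) h0 h1 h hz y (fun _ => 1)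
    simp only [mul_one] at this
    rw [gAvg_const h0 h1] at this
    exact this
  have e2 := sum_update (G := G) h0 h1 h hz y f
  show (∑ A ∈ W.powerset, bw G θ W A * gExp (Function.update h z (h z + y)) W A * f A) /
    gZ G θ W (Function.update h z (h z + y)) = _
  rw [e1, e2, mul_div_mul_left _ _ (mul_ne_zero hc hZ)]

/-- The update: a tilt `x` at `z` moves the means by `Cov · x/(1+x m_z)`. -/
theorem gm_update {W : Finset V} {θ : ℝ} (h0 : 0 ≤ θ) (h1 : θ < 1) (h : V → ℝ) {z : V} (hz : z ∈ W)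
    {x : ℝ} (hx : |x| < 1) (v : V) :
    gm G θ W (Function.update h z (h z + Real.artanh x)) v =
      gm G θ W h v + gcov G θ W h v z * (x / (1 + x * gm G θ W h z)) := by
  have ht : Real.tanh (Real.artanh x) = x := Real.tanh_artanh (abs_lt.mp hx)
  have hm := abs_gm_le (G := G) (W := W) h0 h1 h z
  have hpos : 0 < 1 + x * gm G θ W h z := by
    have h3 : |x * gm G θ W h z| < 1 := by
      rw [abs_mul]
      exact lt_of_le_of_lt (mul_le_of_le_one_right (abs_nonneg x) hm) hx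
    linarith [(abs_lt.mp h3).1]
  unfold gm at hm hpos ⊢
  rw [gAvg_update h0 h1 h hz _ (by rw [ht]; exact hpos.ne'), ht]
  unfold gcov gm
  have e : (fun A => sp A z * sp A v) = (fun A => sp A v * sp A z) := by
    funext A; ring
  rw [e]
  generalize gAvg G θ W h (fun A => sp A z) = mz at hpos ⊢
  generalize gAvg G θ W h (fun A => sp A v) = mv
  generalize gAvg G θ W h (fun A => sp A v * sp A z) = c
  field_simp
  ring

end Crest.Agent.Lib.IsingFIID
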