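/-
Task GI, part 2: growth of windows, free marginals, for all `θ`.
-/
import Crest.Agent.Lib.IsingFIID.GibbsBasic

set_option autoImplicit false
set_option linter.unusedSectionVars false
set_option linter.unusedVariables false

namespace Crest.Agent.Lib.IsingFIID

open MeasureTheory Filter Topology Set SimpleGraph

variable {V : Type*} [DecidableEq V] {G : SimpleGraph V}

lemma isWin_singleton (u : V) : IsWin G {u} := by
  unfold IsWin
  refine (SimpleGraph.connected_iff _).mpr ⟨?_, ⟨⟨u, by simp⟩⟩⟩
  rintro ⟨a, ha⟩ ⟨b, hb⟩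
  have ha' : a = u := by simpa using ha
  have hb' : b = u := by simpa using hb
  subst ha'; subst hb'
  exact SimpleGraph.Reachable.refl _

lemma IsWin.nonempty {W : Finset V} (hW : IsWin G W) : W.Nonempty := by
  obtain ⟨⟨a, ha⟩⟩ := (show (G.induce (W : Set V)).Connected from hW).nonempty
  exact ⟨a, ha⟩

/-- Reachability inside a window, mapped to a graph into which the window embeds. -/
lemma IsWin.reachable_of_hom {W : Finset V} (hW : IsWin G W) {H : SimpleGraph V}
    (hH : ∀ a ∈ W, ∀ b ∈ W, G.Adj a b → H.Adj a b) {a b : V} (ha : a ∈ W) (hb : b ∈ W) :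
    H.Reachable a b := by
  let f : G.induce (W : Set V) →g H :=
    { toFun := fun z => z.1
      map_rel' := fun {z z'} hz => hH _ z.2 _ z'.2 hz }
  exact ((show (G.induce (W : Set V)).Connected from hW).preconnected ⟨a, ha⟩ ⟨b, hb⟩).map f

lemma isWin_insert {W : Finset V} (hW : IsWin G W) {x c : V} (hx : x ∈ W) (hxc : G.Adj x c) :
    IsWin G (insert c W) := by
  unfold IsWin
  have hall : ∀ z : ((insert c W : Finset V) : Set V),
      (G.induce ((insert c W : Finset V) : Set V)).Reachable ⟨x, by simp [hx]⟩ z := by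
    rintro ⟨z, hz⟩
    let f : G.induce (W : Set V) →g G.induce ((insert c W : Finset V) : Set V) :=
      { toFun := fun a => ⟨a.1, by simp [a.2]⟩
        map_rel' := fun {a b} hab => hab }
    by_cases hzW : z ∈ W
    · exact ((show (G.induce (W : Set V)).Connected from hW).preconnected ⟨x, hx⟩ ⟨z, hzW⟩).map f
    · have hz' : z = c := by
        have : z ∈ insert c W := hz
        simpa [hzW] using this
      subst hz'
      exact SimpleGraph.Adj.reachable hxc
  refine (SimpleGraph.connected_iff _).mpr ⟨fun a b => (hall a).symm.trans (hall b), ⟨⟨x, by simp [hx]⟩⟩⟩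

/-- A proper nonempty part of a window has a boundary edge inside the window. -/
lemma exists_boundary {W W' : Finset V} (hW : IsWin G W) (hs : W' ⊆ W) (hne : W'.Nonempty)
    (hW' : W' ≠ W) : ∃ c ∈ W, c ∉ W' ∧ ∃ x ∈ W', G.Adj x c := by
  by_contra hno
  push Not at hno
  obtain ⟨u, hu⟩ := hne
  obtain ⟨w, hw, hwW'⟩ : ∃ w ∈ W, w ∉ W' := by
    by_contra h
    push Not at h
    exact hW' (Finset.Subset.antisymm hs h)
  have hr := (show (G.induce (W : Set V)).Connected from hW).preconnected ⟨u, hs hu⟩ ⟨w, hw⟩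
  obtain ⟨p⟩ := hr
  have key : ∀ (a b : (W : Set V)) (q : (G.induce (W : Set V)).Walk a b), a.1 ∈ W' → b.1 ∈ W' := by
    intro a b q
    induction q with
    | nil => exact id
    | cons hadj _ ih =>
      intro ha
      refine ih ?_
      by_contra hb
      exact hno _ (Subtype.property _) hb _ ha hadj
  exact hwW' (key _ _ p hu)

/-- Growth induction on windows. -/
theorem win_induction {W₀ W : Finset V} (h0 : IsWin G W₀) (hW : IsWin G W) (hs : W₀ ⊆ W)
    (P : Finset V → Prop) (base : P W₀)
    (step : ∀ W' c x, IsWin G W' → W₀ ⊆ W' → W' ⊆ W → c ∈ W → c ∉ W' → x ∈ W' → G.Adj x c →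
      P W' → P (insert c W')) : P W := by
  have key : ∀ (n : ℕ) (W' : Finset V), (W \ W').card = n → IsWin G W' → W₀ ⊆ W' → W' ⊆ W →
      P W' → P W := by
    intro n
    induction n with
    | zero =>
      intro W' hn _ _ hW'W hP
      have : W ⊆ W' := Finset.sdiff_eq_empty_iff_subset.mp (Finset.card_eq_zero.mp hn)
      have e : W' = W := Finset.Subset.antisymm hW'W this
      rwa [e] at hP
    | succ n ih =>
      intro W' hn hWin h0W hW'W hP
      have hne : W' ≠ W := by
        rintro rfl
        simp at hn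
      obtain ⟨c, hc, hcW', x, hx, hxc⟩ := exists_boundary hW hW'W hWin.nonempty hne
      refine ih (insert c W') ?_ (isWin_insert hWin hx hxc) ?_ ?_
        (step W' c x hWin h0W hW'W hc hcW' hx hxc hP)
      · have : W \ insert c W' = (W \ W').erase c := by
          ext k
          simp only [Finset.mem_sdiff, Finset.mem_insert, Finset.mem_erase]
          tauto
        rw [this, Finset.card_erase_of_mem (Finset.mem_sdiff.mpr ⟨hc, hcW'⟩), hn]
        rfl
      · exact h0W.trans (Finset.subset_insert _ _)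
      · exact Finset.insert_subset hc hW'W
  exact key _ W₀ rfl h0 (Finset.Subset.refl _) hs base

/-- A new vertex attached to a window has a unique neighbour in it. -/
lemma adj_unique (hT : G.IsAcyclic) {W : Finset V} (hW : IsWin G W) {x c : V} (hx : x ∈ W)
    (hc : c ∉ W) (hxc : G.Adj x c) : ∀ a ∈ W, G.Adj a c → a = x := by
  intro a ha hac
  by_contra hne
  have hbr := SimpleGraph.isAcyclic_iff_forall_adj_isBridge.mp hT hxc
  apply hbr
  have h1 : (G.deleteEdges {s(x, c)}).Reachable x a := by
    refine hW.reachable_of_hom (fun p hp q hq hpq => ?_) hx ha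
    rw [SimpleGraph.deleteEdges_adj]
    refine ⟨hpq, ?_⟩
    simp only [Set.mem_singleton_iff]
    intro he
    rcases Sym2.eq_iff.mp he with ⟨_, h2⟩ | ⟨h1, _⟩
    · exact hc (h2 ▸ hq)
    · exact hc (h1 ▸ hp)
  refine h1.trans (SimpleGraph.Adj.reachable ?_)
  rw [SimpleGraph.deleteEdges_adj]
  refine ⟨hac, ?_⟩
  simp only [Set.mem_singleton_iff]
  intro he
  rcases Sym2.eq_iff.mp he with ⟨h1, _⟩ | ⟨h1, h2⟩
  · exact hne h1
  · exact hxc.ne h2.symm

/-- Distance to a new vertex. -/
lemma dist_insert (hT : G.IsTree) {W : Finset V} (hW : IsWin G W) {u x c : V} (hu : u ∈ W)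
    (hx : x ∈ W) (hc : c ∉ W) (hxc : G.Adj x c) : G.dist u c = G.dist u x + 1 := by
  classical
  rcases hT.dist_eq_dist_add_one_of_adj u hxc with h | h
  · exfalso
    obtain ⟨p, hp⟩ := (hT.connected u c).exists_walk_length_eq_dist
    have hbr := SimpleGraph.isAcyclic_iff_forall_adj_isBridge.mp hT.isAcyclic hxc
    have h1 : (G.deleteEdges {s(x, c)}).Reachable x u := by
      refine hW.reachable_of_hom (fun p hp q hq hpq => ?_) hx hu
      rw [SimpleGraph.deleteEdges_adj]
      refine ⟨hpq, ?_⟩
      simp only [Set.mem_singleton_iff]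
      intro he
      rcases Sym2.eq_iff.mp he with ⟨_, h2⟩ | ⟨h1, _⟩
      · exact hc (h2 ▸ hq)
      · exact hc (h1 ▸ hp)
    by_cases he : s(x, c) ∈ p.edges
    · have hxp : x ∈ p.support := SimpleGraph.Walk.fst_mem_support_of_mem_edges p he
      have h2 : G.dist u x ≤ (p.takeUntil x hxp).length := SimpleGraph.dist_le _
      have h3 := p.length_takeUntil_le_length hxp
      omega
    · apply hbr
      refine h1.trans ?_
      exact SimpleGraph.reachable_deleteEdges_iff_exists_walk.mpr ⟨p, he⟩
  · exact h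

/-- The free weight depends only on the pattern inside the window. -/
lemma bw_congr {θ : ℝ} {W A A' : Finset V} (h : ∀ v ∈ W, v ∈ A ↔ v ∈ A') :
    bw G θ W A = bw G θ W A' := by
  classical
  rw [bw_def, bw_def]
  congr 1
  refine Finset.prod_congr rfl fun e he => ?_
  induction e using Sym2.ind with
  | _ a b =>
    have hm := (Finset.mem_filter.mp he).1
    rw [Finset.mk_mem_sym2_iff] at hm
    simp only [Sym2.map_mk, Sym2.mk_isDiag_iff, decide_eq_decide, h a hm.1, h b hm.2]

/-- The free weight after adding a vertex. -/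
lemma bw_insert (hT : G.IsAcyclic) {W : Finset V} (hW : IsWin G W) {x c : V} (hx : x ∈ W)
    (hc : c ∉ W) (hxc : G.Adj x c) {θ : ℝ} (A : Finset V) :
    bw G θ (insert c W) A = bw G θ W A * ((1 + θ * sp A x * sp A c) / 2) := by
  classical
  have huniq := adj_unique hT hW hx hc hxc
  have he : (insert c W).sym2.filter (· ∈ G.edgeSet) =
      insert s(x, c) (W.sym2.filter (· ∈ G.edgeSet)) := by
    ext e
    induction e using Sym2.ind with
    | _ a b =>
      simp only [Finset.mem_filter, Finset.mk_mem_sym2_iff, Finset.mem_insert,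
        SimpleGraph.mem_edgeSet]
      constructor
      · rintro ⟨⟨ha | ha, hb | hb⟩, hab⟩
        · subst ha; subst hb; exact absurd hab (G.irrefl)
        · subst ha
          left
          rw [huniq b hb hab.symm]; exact Sym2.eq_swap
        · subst hb
          left
          rw [huniq a ha hab]
        · exact Or.inr ⟨⟨ha, hb⟩, hab⟩
      · rintro (h | ⟨⟨ha, hb⟩, hab⟩)
        · rcases Sym2.eq_iff.mp h with ⟨rfl, rfl⟩ | ⟨rfl, rfl⟩
          · exact ⟨⟨Or.inr hx, Or.inl rfl⟩, hxc⟩
          · exact ⟨⟨Or.inl rfl, Or.inr hx⟩, hxc.symm⟩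
        · exact ⟨⟨Or.inr ha, Or.inr hb⟩, hab⟩
  have hnot : s(x, c) ∉ W.sym2.filter (· ∈ G.edgeSet) := by
    rw [Finset.mem_filter, Finset.mk_mem_sym2_iff]
    exact fun h => hc h.1.2
  rw [bw_def, bw_def, he, Finset.prod_insert hnot]
  simp only [Sym2.map_mk, Sym2.mk_isDiag_iff, decide_eq_decide]
  by_cases hxA : x ∈ A <;> by_cases hcA : c ∈ A <;> simp [hxA, hcA] <;> ring

/-- Integrating out a new vertex. -/
lemma sum_bw_insert (hT : G.IsAcyclic) {W : Finset V} (hW : IsWin G W) {x c : V} (hx : x ∈ W)
    (hc : c ∉ W) (hxc : G.Adj x c) {θ : ℝ} (F : Finset V → ℝ)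
    (hF : ∀ A ⊆ W, F (insert c A) = F A) :
    ∑ A ∈ (insert c W).powerset, bw G θ (insert c W) A * F A =
      ∑ A ∈ W.powerset, bw G θ W A * F A := by
  rw [Finset.sum_powerset_insert hc, ← Finset.sum_add_distrib]
  refine Finset.sum_congr rfl fun A hA => ?_
  have hAW := Finset.mem_powerset.mp hA
  have hcA : c ∉ A := fun h => hc (hAW h)
  have hxc' : x ≠ c := hxc.ne
  rw [bw_insert hT hW hx hc hxc, bw_insert hT hW hx hc hxc, hF A hAW,
    bw_congr (A := insert c A) (A' := A) (fun v hv => by
      have : v ≠ c := fun h => hc (h ▸ hv)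
      simp [this])]
  have e1 : sp (insert c A) x = sp A x := by
    unfold sp; simp [hxc']
  have e2 : sp (insert c A) c = 1 := by simp
  have e3 : sp A c = -1 := by simp [hcA]
  rw [e1, e2, e3]
  ring

/-- Integrating out a new vertex against its spin. -/
lemma sum_bw_insert_sp (hT : G.IsAcyclic) {W : Finset V} (hW : IsWin G W) {x c : V} (hx : x ∈ W)
    (hc : c ∉ W) (hxc : G.Adj x c) {θ : ℝ} (F : Finset V → ℝ)
    (hF : ∀ A ⊆ W, F (insert c A) = F A) :
    ∑ A ∈ (insert c W).powerset, bw G θ (insert c W) A * (F A * sp A c) =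
      θ * ∑ A ∈ W.powerset, bw G θ W A * (F A * sp A x) := by
  rw [Finset.sum_powerset_insert hc, ← Finset.sum_add_distrib, Finset.mul_sum]
  refine Finset.sum_congr rfl fun A hA => ?_
  have hAW := Finset.mem_powerset.mp hA
  have hcA : c ∉ A := fun h => hc (hAW h)
  have hxc' : x ≠ c := hxc.ne
  rw [bw_insert hT hW hx hc hxc, bw_insert hT hW hx hc hxc, hF A hAW,
    bw_congr (A := insert c A) (A' := A) (fun v hv => by
      have : v ≠ c := fun h => hc (h ▸ hv)
      simp [this])]
  have e1 : sp (insert c A) x = sp A x := by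
    unfold sp; simp [hxc']
  have e2 : sp (insert c A) c = 1 := by simp
  have e3 : sp A c = -1 := by simp [hcA]
  rw [e1, e2, e3]
  ring

/-- The free weight on a single vertex. -/
lemma bw_singleton (θ : ℝ) (u : V) (A : Finset V) : bw G θ {u} A = 1 / 2 := by
  classical
  rw [bw_def]
  have : ({u} : Finset V).sym2.filter (· ∈ G.edgeSet) = ∅ := by
    rw [Finset.eq_empty_iff_forall_notMem]
    intro e
    induction e using Sym2.ind with
    | _ a b =>
      simp only [Finset.mem_filter, Finset.mk_mem_sym2_iff, Finset.mem_singleton,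
        SimpleGraph.mem_edgeSet]
      rintro ⟨⟨rfl, rfl⟩, hab⟩
      exact G.irrefl hab
  rw [this]
  simp

lemma sum_powerset_singleton (u : V) (f : Finset V → ℝ) :
    ∑ A ∈ ({u} : Finset V).powerset, f A = f ∅ + f {u} := by
  have : ({u} : Finset V) = insert u ∅ := by simp
  rw [this, Finset.sum_powerset_insert (by simp)]
  simp

/-- Normalisation of the free weight. -/
theorem sum_bw (hT : G.IsTree) {W : Finset V} (hW : IsWin G W) {θ : ℝ} :
    ∑ A ∈ W.powerset, bw G θ W A = 1 := by
  obtain ⟨u, hu⟩ := hW.nonempty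
  refine win_induction (isWin_singleton u) hW (by simpa using hu)
    (fun W => ∑ A ∈ W.powerset, bw G θ W A = 1) ?_ ?_
  · rw [sum_powerset_singleton, bw_singleton, bw_singleton]; norm_num
  · intro W' c x hW' _ _ _ hc hx hxc ih
    have := sum_bw_insert hT.isAcyclic hW' hx hc hxc (θ := θ) (fun _ => 1) (fun _ _ => rfl)
    simp only [mul_one] at this
    rw [this, ih]

/-- Marginal consistency of the free weights: `W₀ ⊆ W` subtrees. -/
theorem sum_bw_marginal (hT : G.IsTree) {W₀ W : Finset V} (h0 : IsWin G W₀) (hW : IsWin G W)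
    (hs : W₀ ⊆ W) {θ : ℝ} (A₀ : Finset V) (hA₀ : A₀ ⊆ W₀) :
    ∑ A ∈ W.powerset.filter (fun A => A ∩ W₀ = A₀), bw G θ W A = bw G θ W₀ A₀ := by
  refine win_induction h0 hW hs
    (fun W => ∑ A ∈ W.powerset.filter (fun A => A ∩ W₀ = A₀), bw G θ W A = bw G θ W₀ A₀) ?_ ?_
  · rw [Finset.sum_filter]
    rw [Finset.sum_eq_single A₀]
    · rw [if_pos (Finset.inter_eq_left.mpr hA₀)]
    · intro A hA hne
      rw [if_neg]
      intro h
      apply hne
      rw [← h]
      exact (Finset.inter_eq_left.mpr (Finset.mem_powerset.mp hA)).symm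
    · intro h
      exact absurd (Finset.mem_powerset.mpr hA₀) h
  · intro W' c x hW' h0W' _ _ hc hx hxc ih
    have hc0 : c ∉ W₀ := fun h => hc (h0W' h)
    have := sum_bw_insert hT.isAcyclic hW' hx hc hxc (θ := θ)
      (fun A => if A ∩ W₀ = A₀ then 1 else 0) (fun A _ => by
        rw [Finset.insert_inter_of_notMem hc0])
    simp only [mul_ite, mul_one, mul_zero] at this
    rw [Finset.sum_filter, this, ← Finset.sum_filter, ih]

/-- Free two-point function. -/
theorem sum_bw_sp_sp (hT : G.IsTree) {W : Finset V} (hW : IsWin G W) {θ : ℝ} {u v : V}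
    (hu : u ∈ W) (hv : v ∈ W) :
    ∑ A ∈ W.powerset, bw G θ W A * (sp A u * sp A v) = θ ^ G.dist u v := by
  have key : ∀ v ∈ W, ∑ A ∈ W.powerset, bw G θ W A * (sp A u * sp A v) = θ ^ G.dist u v := by
    refine win_induction (isWin_singleton u) hW (by simpa using hu)
      (fun W => ∀ v ∈ W, ∑ A ∈ W.powerset, bw G θ W A * (sp A u * sp A v) = θ ^ G.dist u v) ?_ ?_
    · intro v hv
      have hv' : v = u := by simpa using hv
      subst hv'
      simp only [spA_mul_self, SimpleGraph.dist_self, pow_zero]
      rw [sum_powerset_singleton, bw_singleton, bw_singleton]; norm_num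
    · intro W' c x hW' hu' _ _ hc hx hxc ih v hv
      have huW' : u ∈ W' := hu' (by simp)
      have huc : u ≠ c := fun h => hc (h ▸ huW')
      by_cases hvc : v = c
      · subst hvc
        have := sum_bw_insert_sp hT.isAcyclic hW' hx hc hxc (θ := θ) (fun A => sp A u) (fun A _ => by
          unfold sp; simp [huc])
        rw [this, ih x hx, dist_insert hT hW' huW' hx hc hxc, pow_succ]
        ring
      · have hvW' : v ∈ W' := by
          have := Finset.mem_insert.mp hv
          tauto
        have := sum_bw_insert hT.isAcyclic hW' hx hc hxc (θ := θ) (fun A => sp A u * sp A v)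
          (fun A _ => by
            unfold sp; simp [huc, hvc])
        rw [this, ih v hvW']
  exact key v hv

end Crest.Agent.Lib.IsingFIID
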