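/-
Task CH: the channel, in the variables of `Defs.lean`.
-/
import Crest.Agent.Lib.IsingFIID.Basic

set_option autoImplicit false
set_option linter.unusedSectionVars false
set_option linter.unusedVariables false

namespace Crest.Agent.Lib.IsingFIID

open MeasureTheory Set

/-- The radius `R = √(1 + 2 a w + a²)`. -/
noncomputable def psiR (a w : ℝ) : ℝ := Real.sqrt (1 + 2 * a * w + a ^ 2)

lemma psiQ_eq_R (a w : ℝ) : psiQ a w = (2 * w + a) / (1 + psiR a w) := rfl

section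
variable {a w : ℝ}

lemma rad_ge (ha : |a| ≤ 1 / 2) (hw : |w| ≤ 1) : 1 / 4 ≤ 1 + 2 * a * w + a ^ 2 := by
  have h1 : |a * w| ≤ |a| := by
    rw [abs_mul]; exact mul_le_of_le_one_right (abs_nonneg _) hw
  have h2 := (abs_le.mp h1).1
  have h3 := abs_le.mp ha
  have h4 : a ^ 2 = |a| ^ 2 := (sq_abs a).symm
  rw [h4]
  nlinarith [abs_nonneg a]

lemma psiR_ge (ha : |a| ≤ 1 / 2) (hw : |w| ≤ 1) : 1 / 2 ≤ psiR a w := by
  unfold psiR
  apply Real.le_sqrt_of_sq_le
  have := rad_ge ha hw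
  nlinarith

lemma psiR_le (ha : |a| ≤ 1 / 2) (hw : |w| ≤ 1) : psiR a w ≤ 2 := by
  unfold psiR
  apply Real.sqrt_le_iff.mpr
  refine ⟨by norm_num, ?_⟩
  have h1 : |a * w| ≤ |a| := by
    rw [abs_mul]; exact mul_le_of_le_one_right (abs_nonneg _) hw
  have h2 := (abs_le.mp h1).2
  have h3 := abs_le.mp ha
  have h4 : a ^ 2 = |a| ^ 2 := (sq_abs a).symm
  rw [h4]
  nlinarith [abs_nonneg a]

lemma psiR_sq (ha : |a| ≤ 1 / 2) (hw : |w| ≤ 1) : psiR a w ^ 2 = 1 + 2 * a * w + a ^ 2 := by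
  unfold psiR
  exact Real.sq_sqrt (by linarith [rad_ge ha hw])

/-- `1 + a ψ = R`. -/
lemma one_add_a_psiQ (ha : |a| ≤ 1 / 2) (hw : |w| ≤ 1) : 1 + a * psiQ a w = psiR a w := by
  have hR := psiR_ge ha hw
  have hs := psiR_sq ha hw
  rw [psiQ_eq_R]
  have h1 : 1 + psiR a w ≠ 0 := by linarith
  field_simp
  nlinarith

/-- `ψ` solves the quadratic. -/
theorem psiQ_eq (ha : |a| ≤ 1 / 2) (hw : |w| ≤ 1) :
    psiQ a w + a / 2 * (psiQ a w ^ 2 - 1) = w := by
  have h1 := one_add_a_psiQ ha hw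
  have hR := psiR_ge ha hw
  have h3 : psiQ a w * (1 + psiR a w) = 2 * w + a := by
    rw [psiQ_eq_R]; field_simp
  rw [← h1] at h3
  nlinarith

lemma hasDerivAt_psiQ (ha : |a| ≤ 1 / 2) (hw : |w| ≤ 1) :
    HasDerivAt (psiQ a) (1 / psiR a w) w := by
  have hR := psiR_ge ha hw
  have hs := psiR_sq ha hw
  have hr := rad_ge ha hw
  have d1 : HasDerivAt (fun v => 1 + 2 * a * v + a ^ 2) (2 * a) w := by
    have := (((hasDerivAt_id w).const_mul (2 * a)).const_add 1).add_const (a ^ 2)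
    simpa using this
  have d2 : HasDerivAt (psiR a) (2 * a / (2 * psiR a w)) w :=
    d1.sqrt (by linarith)
  have d3 : HasDerivAt (fun v => 2 * v + a) 2 w := by
    have := ((hasDerivAt_id w).const_mul (2 : ℝ)).add_const a
    simpa using this
  have d4 : HasDerivAt (fun v => 1 + psiR a v) (2 * a / (2 * psiR a w)) w := d2.const_add 1
  have hne : 1 + psiR a w ≠ 0 := by linarith
  have hne2 : psiR a w ≠ 0 := by linarith
  have d5 := d3.div d4 hne
  have e : (2 * (1 + psiR a w) - (2 * w + a) * (2 * a / (2 * psiR a w))) / (1 + psiR a w) ^ 2 =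
      1 / psiR a w := by
    field_simp
    linear_combination hs
  rw [e] at d5
  exact d5

lemma psiQ_one (ha : |a| ≤ 1 / 2) : psiQ a 1 = 1 := by
  have h2 := abs_le.mp ha
  have h3 : 0 < 1 + a := by linarith
  have : psiR a 1 = 1 + a := by
    unfold psiR
    rw [show 1 + 2 * a * 1 + a ^ 2 = (1 + a) ^ 2 by ring]
    exact Real.sqrt_sq h3.le
  rw [psiQ_eq_R, this]
  have h4 : 1 + (1 + a) ≠ 0 := by linarith
  field_simp
  ring

lemma psiQ_neg_one (ha : |a| ≤ 1 / 2) : psiQ a (-1) = -1 := by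
  have h2 := abs_le.mp ha
  have h3 : 0 < 1 - a := by linarith
  have : psiR a (-1) = 1 - a := by
    unfold psiR
    rw [show 1 + 2 * a * (-1) + a ^ 2 = (1 - a) ^ 2 by ring]
    exact Real.sqrt_sq h3.le
  rw [psiQ_eq_R, this]
  have h4 : 1 + (1 - a) ≠ 0 := by linarith
  field_simp
  ring

lemma psiQ_continuousOn (ha : |a| ≤ 1 / 2) : ContinuousOn (psiQ a) (Icc (-1) 1) := fun w hw =>
  (hasDerivAt_psiQ ha (abs_le.mpr hw)).continuousAt.continuousWithinAt

lemma psiQ_strictMonoOn (ha : |a| ≤ 1 / 2) : StrictMonoOn (psiQ a) (Icc (-1) 1) := by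
  apply strictMonoOn_of_deriv_pos (convex_Icc _ _) (psiQ_continuousOn ha)
  intro w hw
  rw [interior_Icc] at hw
  have hw' : |w| ≤ 1 := abs_le.mpr ⟨hw.1.le, hw.2.le⟩
  rw [(hasDerivAt_psiQ ha hw').deriv]
  have := psiR_ge ha hw'
  positivity

theorem abs_psiQ_le (ha : |a| ≤ 1 / 2) (hw : |w| ≤ 1) : |psiQ a w| ≤ 1 := by
  have hmono := psiQ_strictMonoOn ha
  have hw2 := abs_le.mp hw
  have hwm : w ∈ Icc (-1 : ℝ) 1 := ⟨hw2.1, hw2.2⟩
  rw [abs_le]
  constructor
  · have := hmono.monotoneOn (left_mem_Icc.mpr (by norm_num)) hwm hw2.1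
    rwa [psiQ_neg_one ha] at this
  · have := hmono.monotoneOn hwm (right_mem_Icc.mpr (by norm_num)) hw2.2
    rwa [psiQ_one ha] at this

lemma psiQ_image (ha : |a| ≤ 1 / 2) : psiQ a '' Icc (-1) 1 = Icc (-1) 1 := by
  have hc := psiQ_continuousOn ha
  apply Subset.antisymm
  · rintro _ ⟨w, hw, rfl⟩
    exact abs_le.mp (abs_psiQ_le ha (abs_le.mpr hw))
  · have := intermediate_value_Icc (a := (-1 : ℝ)) (b := 1) (by norm_num) hc
    rwa [psiQ_neg_one ha, psiQ_one ha] at this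

end

/-- From the label law to the Lebesgue integral on `[0,1]`. -/
lemma lintegral_lab {g : ℝ → ENNReal} :
    ∫⁻ u : Lab, g (u : ℝ) = ∫⁻ x in Icc (0 : ℝ) 1, g x := by
  rw [← lintegral_subtype_comap measurableSet_Icc]
  rfl

lemma integral_lab {g : ℝ → ℝ} : ∫ u : Lab, g (u : ℝ) = ∫ x in (0 : ℝ)..1, g x := by
  have h := (unitInterval.measurePreserving_coe).integral_comp
    unitInterval.measurableEmbedding_coe g
  rw [h, intervalIntegral.integral_of_le zero_le_one]
  exact integral_Icc_eq_integral_Ioc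

/-- Change of variables: `ψ` has density `(1 + a ψ)/2` on `[-1,1]`. -/
theorem lintegral_psiQ {a : ℝ} (ha : |a| ≤ 1 / 2) {g : ℝ → ENNReal} (hg : Measurable g) :
    ∫⁻ u : Lab, g (psiQ a (2 * (u : ℝ) - 1)) =
      ∫⁻ u : Lab, g (2 * (u : ℝ) - 1) * ENNReal.ofReal (1 + a * (2 * (u : ℝ) - 1)) := by
  rw [lintegral_lab (g := fun x => g (psiQ a (2 * x - 1))),
    lintegral_lab (g := fun x => g (2 * x - 1) * ENNReal.ofReal (1 + a * (2 * x - 1)))]
  -- the substitution `v = (1 + ψ(a,2u-1))/2`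
  let f : ℝ → ℝ := fun u => (1 + psiQ a (2 * u - 1)) / 2
  have hw : ∀ u ∈ Icc (0 : ℝ) 1, |2 * u - 1| ≤ 1 := fun u hu => by
    rw [abs_le]; constructor <;> linarith [hu.1, hu.2]
  have hd : ∀ u ∈ Icc (0 : ℝ) 1, HasDerivWithinAt f (1 / psiR a (2 * u - 1)) (Icc 0 1) u := by
    intro u hu
    have h1 := hasDerivAt_psiQ ha (hw u hu)
    have h2 : HasDerivAt (fun u : ℝ => 2 * u - 1) 2 u := by
      have := ((hasDerivAt_id u).const_mul (2 : ℝ)).sub_const 1
      simpa using this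
    have h3 := (h1.comp u h2).const_add 1
    have h4 := h3.div_const 2
    have e : (1 / psiR a (2 * u - 1) * 2) / 2 = 1 / psiR a (2 * u - 1) := by field_simp
    rw [e] at h4
    exact h4.hasDerivWithinAt
  have hinj : InjOn f (Icc 0 1) := by
    intro u hu v hv h
    have h1 : psiQ a (2 * u - 1) = psiQ a (2 * v - 1) := by
      simp only [f] at h; linarith
    have h2 := (psiQ_strictMonoOn ha).injOn (abs_le.mp (hw u hu)) (abs_le.mp (hw v hv)) h1
    linarith
  have himg : f '' Icc 0 1 = Icc 0 1 := by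
    have hc : ContinuousOn f (Icc 0 1) := fun u hu => (hd u hu).continuousWithinAt
    apply Subset.antisymm
    · rintro _ ⟨u, hu, rfl⟩
      have := abs_le.mp (abs_psiQ_le ha (hw u hu))
      constructor <;> simp only [f] <;> linarith [this.1, this.2]
    · have h := intermediate_value_Icc (a := (0 : ℝ)) (b := 1) zero_le_one hc
      have e0 : f 0 = 0 := by
        simp only [f]; norm_num; rw [psiQ_neg_one ha]; norm_num
      have e1 : f 1 = 1 := by
        simp only [f]; norm_num; rw [psiQ_one ha]; norm_num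
      rwa [e0, e1] at h
  have key := lintegral_image_eq_lintegral_abs_deriv_mul (s := Icc (0 : ℝ) 1) measurableSet_Icc hd
    hinj (fun x => g (2 * x - 1) * ENNReal.ofReal (1 + a * (2 * x - 1)))
  rw [himg] at key
  rw [key]
  refine setLIntegral_congr_fun measurableSet_Icc fun u hu => ?_
  have hR := psiR_ge ha (hw u hu)
  have hR0 : 0 < psiR a (2 * u - 1) := by linarith
  have e1 : 2 * f u - 1 = psiQ a (2 * u - 1) := by simp only [f]; ring
  simp only [e1]
  rw [one_add_a_psiQ ha (hw u hu), abs_of_pos (by positivity : 0 < 1 / psiR a (2 * u - 1)),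
    mul_left_comm, ← ENNReal.ofReal_mul (by positivity)]
  have : 1 / psiR a (2 * u - 1) * psiR a (2 * u - 1) = 1 := by field_simp
  rw [this]
  simp

section
variable {κ m u : ℝ}

lemma abs_kapm_le (h0 : 0 ≤ κ) (h1 : κ ≤ 1 / 2) (hm : |m| ≤ 1) : |κ * m| ≤ 1 / 2 := by
  rw [abs_mul, abs_of_nonneg h0]
  calc κ * |m| ≤ 1 / 2 * 1 := mul_le_mul h1 hm (abs_nonneg _) (by norm_num)
    _ = 1 / 2 := by norm_num

lemma abs_w_le (hu : u ∈ Icc (0 : ℝ) 1) : |2 * u - 1| ≤ 1 := by
  rw [abs_le]; constructor <;> linarith [hu.1, hu.2]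

theorem abs_xQ_le (h0 : 0 ≤ κ) (h1 : κ ≤ 1 / 2) (hm : |m| ≤ 1) (hu : u ∈ Icc (0 : ℝ) 1) :
    |xQ κ m u| ≤ κ := by
  unfold xQ
  rw [abs_mul, abs_of_nonneg h0]
  exact mul_le_of_le_one_right h0 (abs_psiQ_le (abs_kapm_le h0 h1 hm) (abs_w_le hu))

/-- `1 + x m = R`. -/
lemma one_add_xQ_mul (h0 : 0 ≤ κ) (h1 : κ ≤ 1 / 2) (hm : |m| ≤ 1) (hu : u ∈ Icc (0 : ℝ) 1) :
    1 + xQ κ m u * m = psiR (κ * m) (2 * u - 1) := by
  have := one_add_a_psiQ (abs_kapm_le h0 h1 hm) (abs_w_le hu)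
  unfold xQ
  rw [← this]; ring

lemma gamQ_eq (h0 : 0 ≤ κ) (h1 : κ ≤ 1 / 2) (hm : |m| ≤ 1) (hu : u ∈ Icc (0 : ℝ) 1) :
    gamQ κ m u = κ * (psiQ (κ * m) (2 * u - 1) / psiR (κ * m) (2 * u - 1)) := by
  unfold gamQ
  rw [one_add_xQ_mul h0 h1 hm hu]
  unfold xQ
  ring

theorem abs_gamQ_le (h0 : 0 ≤ κ) (h1 : κ ≤ 1 / 2) (hm : |m| ≤ 1) (hu : u ∈ Icc (0 : ℝ) 1) :
    |gamQ κ m u| ≤ 2 * κ := by
  have ha := abs_kapm_le h0 h1 hm
  have hw := abs_w_le hu
  have hR := psiR_ge ha hw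
  rw [gamQ_eq h0 h1 hm hu, abs_mul, abs_of_nonneg h0, abs_div, mul_comm 2 κ]
  refine mul_le_mul_of_nonneg_left ?_ h0
  rw [abs_of_pos (by linarith : 0 < psiR (κ * m) (2 * u - 1)),
    div_le_iff₀ (by linarith)]
  have := abs_psiQ_le ha hw
  linarith

/-- Mean zero of the martingale increment. -/
theorem integral_gamQ (h0 : 0 ≤ κ) (h1 : κ ≤ 1 / 2) (hm : |m| ≤ 1) :
    ∫ u : Lab, gamQ κ m (u : ℝ) = 0 := by
  rw [integral_lab (g := fun u => gamQ κ m u)]
  have ha := abs_kapm_le h0 h1 hm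
  set a := κ * m with hadef
  -- antiderivative `κ ψ² / 4`
  have hder : ∀ x ∈ uIcc (0 : ℝ) 1, HasDerivAt (fun u => κ * psiQ a (2 * u - 1) ^ 2 / 4)
      (gamQ κ m x) x := by
    intro x hx
    rw [uIcc_of_le zero_le_one] at hx
    have hw := abs_w_le hx
    have h2 : HasDerivAt (fun u : ℝ => 2 * u - 1) 2 x := by
      have := ((hasDerivAt_id x).const_mul (2 : ℝ)).sub_const 1
      simpa using this
    have h3' := (hasDerivAt_psiQ ha hw).comp x h2
    have h3 : HasDerivAt (fun u => psiQ a (2 * u - 1)) (1 / psiR a (2 * x - 1) * 2) x := h3'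
    have h4 := ((h3.fun_pow 2).const_mul κ).div_const 4
    rw [gamQ_eq h0 h1 hm hx]
    have hR := psiR_ge ha hw
    have hRne : psiR a (2 * x - 1) ≠ 0 := by linarith
    have e : κ * (psiQ a (2 * x - 1) / psiR a (2 * x - 1)) =
        κ * (((2 : ℕ) : ℝ) * psiQ a (2 * x - 1) ^ (2 - 1) * (1 / psiR a (2 * x - 1) * 2)) / 4 := by
      norm_num
      field_simp
      ring
    rw [e]
    exact h4
  have hcont : ContinuousOn (fun x => gamQ κ m x) (uIcc (0 : ℝ) 1) := by
    rw [uIcc_of_le zero_le_one]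
    intro x hx
    have hw := abs_w_le hx
    have ha' := ha
    -- continuity of the explicit formula on the interval
    have e : EqOn (fun x => gamQ κ m x)
        (fun x => κ * (psiQ a (2 * x - 1) / psiR a (2 * x - 1))) (Icc 0 1) :=
      fun y hy => gamQ_eq h0 h1 hm hy
    refine ContinuousWithinAt.congr ?_ (fun y hy => e hy) (e hx)
    have hψ : ContinuousWithinAt (fun x => psiQ a (2 * x - 1)) (Icc 0 1) x := by
      have h2 : HasDerivAt (fun u : ℝ => 2 * u - 1) 2 x := by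
        have := ((hasDerivAt_id x).const_mul (2 : ℝ)).sub_const 1
        simpa using this
      exact ((hasDerivAt_psiQ ha hw).comp x h2).continuousAt.continuousWithinAt
    have hRc : ContinuousWithinAt (fun x => psiR a (2 * x - 1)) (Icc 0 1) x := by
      unfold psiR
      exact Continuous.continuousWithinAt (by fun_prop)
    have hne : psiR a (2 * x - 1) ≠ 0 := by
      have := psiR_ge ha hw; linarith
    exact continuousWithinAt_const.mul (hψ.div hRc hne)
  rw [intervalIntegral.integral_eq_sub_of_hasDerivAt hder hcont.intervalIntegrable]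
  have e1 : psiQ a (2 * 1 - 1) = 1 := by
    rw [show (2 * 1 - 1 : ℝ) = 1 by norm_num]; exact psiQ_one ha
  have e0 : psiQ a (2 * 0 - 1) = -1 := by
    rw [show (2 * 0 - 1 : ℝ) = -1 by norm_num]; exact psiQ_neg_one ha
  rw [e1, e0]; ring

end

/-- Lipschitz in the mean, second order in `κ`. -/
theorem exists_gamQ_lip : ∃ C : ℝ, 0 < C ∧ ∀ κ m m' u : ℝ, 0 ≤ κ → κ ≤ 1 / 2 → |m| ≤ 1 → |m'| ≤ 1 →
    u ∈ Icc (0 : ℝ) 1 → |gamQ κ m u - gamQ κ m' u| ≤ C * κ ^ 2 * |m - m'| := by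
  refine ⟨100, by norm_num, fun κ m m' u h0 h1 hm hm' hu => ?_⟩
  have ha := abs_kapm_le h0 h1 hm
  have ha' := abs_kapm_le h0 h1 hm'
  have hw := abs_w_le hu
  rw [gamQ_eq h0 h1 hm hu, gamQ_eq h0 h1 hm' hu]
  set a := κ * m with hadef
  set b := κ * m' with hbdef
  set w := 2 * u - 1 with hwdef
  -- Lipschitz estimate of `ψ/R` in `a`
  have hR := psiR_ge ha hw
  have hR' := psiR_ge ha' hw
  have hRu := psiR_le ha hw
  have hRu' := psiR_le ha' hw
  have hs := psiR_sq ha hw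
  have hs' := psiR_sq ha' hw
  have habs : |a - b| = κ * |m - m'| := by
    rw [hadef, hbdef, ← mul_sub, abs_mul, abs_of_nonneg h0]
  have hAa := abs_le.mp ha
  have hAb := abs_le.mp ha'
  have hAw := abs_le.mp hw
  -- R is Lipschitz
  have hRL : |psiR a w - psiR b w| ≤ 3 * |a - b| := by
    have e : (psiR a w - psiR b w) * (psiR a w + psiR b w) = (a - b) * (2 * w + a + b) := by
      have : (psiR a w - psiR b w) * (psiR a w + psiR b w) = psiR a w ^ 2 - psiR b w ^ 2 := by ring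
      rw [this, hs, hs']; ring
    have h3 : |2 * w + a + b| ≤ 3 := by
      rw [abs_le]; constructor <;> linarith [hAa.1, hAa.2, hAb.1, hAb.2, hAw.1, hAw.2]
    have h4 : 1 ≤ psiR a w + psiR b w := by linarith
    have h5 : |psiR a w - psiR b w| * 1 ≤ |psiR a w - psiR b w| * (psiR a w + psiR b w) :=
      mul_le_mul_of_nonneg_left h4 (abs_nonneg _)
    have h6 : |psiR a w - psiR b w| * (psiR a w + psiR b w) = |a - b| * |2 * w + a + b| := by
      rw [← abs_of_pos (by linarith : 0 < psiR a w + psiR b w), ← abs_mul, e, abs_mul]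
    have h7 : |a - b| * |2 * w + a + b| ≤ |a - b| * 3 :=
      mul_le_mul_of_nonneg_left h3 (abs_nonneg _)
    linarith
  -- the quotient
  have hq : psiQ a w / psiR a w - psiQ b w / psiR b w =
      ((2 * w + a) * ((1 + psiR b w) * psiR b w) - (2 * w + b) * ((1 + psiR a w) * psiR a w)) /
        (((1 + psiR a w) * psiR a w) * ((1 + psiR b w) * psiR b w)) := by
    rw [psiQ_eq_R, psiQ_eq_R]
    have h1a : 1 + psiR a w ≠ 0 := by linarith
    have h1b : 1 + psiR b w ≠ 0 := by linarith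
    have h2a : psiR a w ≠ 0 := by linarith
    have h2b : psiR b w ≠ 0 := by linarith
    field_simp
  have hden : 9 / 16 ≤ ((1 + psiR a w) * psiR a w) * ((1 + psiR b w) * psiR b w) := by
    have h1 : 3 / 4 ≤ (1 + psiR a w) * psiR a w := by nlinarith
    have h2 : 3 / 4 ≤ (1 + psiR b w) * psiR b w := by nlinarith
    nlinarith
  have hnum : |(2 * w + a) * ((1 + psiR b w) * psiR b w) - (2 * w + b) * ((1 + psiR a w) * psiR a w)| ≤
      50 * |a - b| := by
    have e : (2 * w + a) * ((1 + psiR b w) * psiR b w) - (2 * w + b) * ((1 + psiR a w) * psiR a w) =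
        (a - b) * ((1 + psiR b w) * psiR b w) -
          (2 * w + b) * ((psiR a w - psiR b w) * (1 + psiR a w + psiR b w)) := by ring
    rw [e]
    have h1 : |(a - b) * ((1 + psiR b w) * psiR b w)| ≤ |a - b| * 6 := by
      rw [abs_mul]
      refine mul_le_mul_of_nonneg_left ?_ (abs_nonneg _)
      rw [abs_of_pos (by nlinarith)]
      nlinarith
    have h2 : |(2 * w + b) * ((psiR a w - psiR b w) * (1 + psiR a w + psiR b w))| ≤
        (5 / 2) * ((3 * |a - b|) * 5) := by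
      rw [abs_mul, abs_mul]
      have h3 : |2 * w + b| ≤ 5 / 2 := by
        rw [abs_le]; constructor <;> linarith [hAb.1, hAb.2, hAw.1, hAw.2]
      have h4 : |1 + psiR a w + psiR b w| ≤ 5 := by
        rw [abs_of_pos (by linarith)]; linarith
      exact mul_le_mul h3 (mul_le_mul hRL h4 (abs_nonneg _) (by positivity))
        (by positivity) (by norm_num)
    calc _ ≤ _ := abs_sub _ _
      _ ≤ |a - b| * 6 + (5 / 2) * ((3 * |a - b|) * 5) := add_le_add h1 h2
      _ ≤ 50 * |a - b| := by nlinarith [abs_nonneg (a - b)]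
  have hQ : |psiQ a w / psiR a w - psiQ b w / psiR b w| ≤ 100 * |a - b| := by
    rw [hq, abs_div, abs_of_pos (by linarith : 0 < ((1 + psiR a w) * psiR a w) * ((1 + psiR b w) * psiR b w)),
      div_le_iff₀ (by linarith)]
    calc _ ≤ 50 * |a - b| := hnum
      _ ≤ 100 * |a - b| * (9 / 16) := by linarith [abs_nonneg (a - b)]
      _ ≤ _ := mul_le_mul_of_nonneg_left hden (by positivity)
  rw [← mul_sub, abs_mul, abs_of_nonneg h0]
  calc κ * |psiQ a w / psiR a w - psiQ b w / psiR b w| ≤ κ * (100 * |a - b|) :=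
        mul_le_mul_of_nonneg_left hQ h0
    _ = 100 * κ ^ 2 * |m - m'| := by rw [habs]; ring

theorem measurable_xQ : Measurable fun p : ℝ × ℝ × ℝ => xQ p.1 p.2.1 p.2.2 := by
  unfold xQ psiQ
  fun_prop

theorem isStrength_kap {ε : ℝ} (h0 : 0 ≤ ε) (h1 : ε ≤ 1 / 2) : IsStrength (kap ε) where
  meas := by
    unfold kap
    fun_prop
  nonneg := fun τ => mul_nonneg h0 (le_min (Real.sqrt_nonneg _) zero_le_one)
  le := fun τ => by
    unfold kap
    calc ε * min (Real.sqrt τ) 1 ≤ ε * 1 := mul_le_mul_of_nonneg_left (min_le_right _ _) h0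
      _ ≤ 1 / 2 := by linarith

end Crest.Agent.Lib.IsingFIID
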