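/-
Row 160 (S0241): equivariance of the Gibbs means under automorphisms of the graph (moved from StrictBasic,
helper15, so that `field_act` can use it).
-/
import Crest.Agent.Lib.IsingFIID.Basic

set_option autoImplicit false
set_option linter.unusedSectionVars false

namespace Crest.Agent.Lib.IsingFIID

open MeasureTheory Filter Topology Set SimpleGraph
open scoped ENNReal

variable {V : Type*} [DecidableEq V] {G : SimpleGraph V}

/-! ### Equivariance of the Gibbs means -/

theorem sp_map (g : V ≃ V) (A : Finset V) (v : V) : sp (A.map g.toEmbedding) (g v) = sp A v := by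
  simp [sp]

theorem isingWeight_map (g : G ≃g G) (S : Finset V) (η : V → Bool) {θ : ℝ} :
    Crest.ProbabilityR.TreeIsing.isingWeight G θ (S.map g.toEquiv.toEmbedding) η =
      Crest.ProbabilityR.TreeIsing.isingWeight G θ S (η ∘ g) := by
  classical
  unfold Crest.ProbabilityR.TreeIsing.isingWeight
  congr 1
  -- reindex the product over edges by `Sym2.map g`
  symm
  refine Finset.prod_bij (fun e _ => Sym2.map g e) ?_ ?_ ?_ ?_
  · intro e he
    simp only [Finset.mem_filter, Finset.mem_sym2_iff] at he ⊢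
    refine ⟨?_, ?_⟩
    · intro a ha
      obtain ⟨b, hb, rfl⟩ := Sym2.mem_map.1 ha
      exact Finset.mem_map_of_mem _ (he.1 b hb)
    · induction e using Sym2.ind with
      | _ a b =>
        simp only [Sym2.map_mk, SimpleGraph.mem_edgeSet] at he ⊢
        exact g.map_rel_iff.2 he.2
  · intro e _ e' _ h
    exact Sym2.map.injective g.injective h
  · intro e he
    simp only [Finset.mem_filter, Finset.mem_sym2_iff] at he
    refine ⟨Sym2.map g.symm e, ?_, ?_⟩
    · simp only [Finset.mem_filter, Finset.mem_sym2_iff]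
      refine ⟨?_, ?_⟩
      · intro a ha
        obtain ⟨b, hb, rfl⟩ := Sym2.mem_map.1 ha
        obtain ⟨c, hc, rfl⟩ := Finset.mem_map.1 (he.1 b hb)
        simpa using hc
      · have h2 := he.2
        induction e using Sym2.ind with
        | _ a b =>
          simp only [Sym2.map_mk, SimpleGraph.mem_edgeSet] at h2 ⊢
          exact g.symm.map_rel_iff.2 h2
    · rw [Sym2.map_map]
      simp
  · intro e _
    rw [Sym2.map_map]

theorem bw_map (g : G ≃g G) (W A : Finset V) {θ : ℝ} :
    bw G θ (W.map g.toEquiv.toEmbedding) (A.map g.toEquiv.toEmbedding) = bw G θ W A := by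
  unfold bw
  rw [isingWeight_map]
  congr 1
  funext v
  simp only [Function.comp_apply]
  exact decide_eq_decide.2 (Finset.mem_map' g.toEquiv.toEmbedding)

theorem gExp_map (g : V ≃ V) (h : V → ℝ) (W A : Finset V) :
    gExp h (W.map g.toEmbedding) (A.map g.toEmbedding) = gExp (h ∘ g) W A := by
  unfold gExp
  rw [Finset.sum_map]
  simp only [Equiv.coe_toEmbedding, Function.comp, sp_map]

theorem powerset_map_eq (g : V ≃ V) (W : Finset V) :
    (W.map g.toEmbedding).powerset =
      W.powerset.map ⟨Finset.map g.toEmbedding, Finset.map_injective _⟩ := by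
  ext B
  simp only [Finset.mem_powerset, Finset.mem_map, Function.Embedding.coeFn_mk, Finset.subset_map_iff]
  constructor
  · rintro ⟨A, hA, rfl⟩
    exact ⟨A, hA, rfl⟩
  · rintro ⟨A, hA, rfl⟩
    exact ⟨A, hA, rfl⟩

theorem gZ_map (g : G ≃g G) (W : Finset V) (h : V → ℝ) {θ : ℝ} :
    gZ G θ (W.map g.toEquiv.toEmbedding) h = gZ G θ W (h ∘ g) := by
  unfold gZ
  rw [powerset_map_eq, Finset.sum_map]
  refine Finset.sum_congr rfl fun A _ => ?_
  simp only [Function.Embedding.coeFn_mk]
  rw [bw_map, gExp_map]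
  rfl

theorem gAvg_map (g : G ≃g G) (W : Finset V) (h : V → ℝ) (f : Finset V → ℝ) {θ : ℝ} :
    gAvg G θ (W.map g.toEquiv.toEmbedding) h f =
      gAvg G θ W (h ∘ g) (fun A => f (A.map g.toEquiv.toEmbedding)) := by
  unfold gAvg
  rw [gZ_map, powerset_map_eq, Finset.sum_map]
  congr 1
  refine Finset.sum_congr rfl fun A _ => ?_
  simp only [Function.Embedding.coeFn_mk]
  rw [bw_map, gExp_map]
  rfl

theorem gm_map (g : G ≃g G) (W : Finset V) (h : V → ℝ) (v : V) {θ : ℝ} :
    gm G θ (W.map g.toEquiv.toEmbedding) h (g v) = gm G θ W (h ∘ g) v := by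
  unfold gm
  rw [gAvg_map]
  congr 1
  funext A
  exact sp_map g.toEquiv A v

theorem gcov_map (g : G ≃g G) (W : Finset V) (h : V → ℝ) (u v : V) {θ : ℝ} :
    gcov G θ (W.map g.toEquiv.toEmbedding) h (g u) (g v) = gcov G θ W (h ∘ g) u v := by
  unfold gcov
  rw [gm_map, gm_map, gAvg_map]
  congr 2
  funext A
  rw [show sp (A.map g.toEquiv.toEmbedding) (g u) = sp A u from sp_map g.toEquiv A u,
    show sp (A.map g.toEquiv.toEmbedding) (g v) = sp A v from sp_map g.toEquiv A v]

end Crest.Agent.Lib.IsingFIID
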