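/-
Row 160 (S0241), task RI, elementary part: the recursion for the driven fields (`field_rec`), joint
measurability, the own-field bound, dependence on the strength, frozen systems, equivariance.
-/
import Crest.Agent.Lib.IsingFIID.ChannelQ
import Crest.Agent.Lib.IsingFIID.GibbsBasic
import Crest.Agent.Lib.IsingFIID.GibbsMap

set_option autoImplicit false
set_option linter.unusedSectionVars false
set_option linter.unusedVariables false

namespace Crest.Agent.Lib.IsingFIID

open MeasureTheory Filter Topology Set SimpleGraph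
open scoped ENNReal

variable {V : Type*} [DecidableEq V] {G : SimpleGraph V}

/-! ### Elementary facts on rings -/

lemma before_ringT_lt {ω : Om V} {v : V} {n : ℕ} {τ : ℝ} (h : before ω v n τ) : ringT ω v n < τ := h.2

lemma nat_le_ringT (ω : Om V) (v : V) (n : ℕ) : (n : ℝ) ≤ ringT ω v n := by
  have := (ω.1 (v, n)).2.1
  unfold ringT; linarith

lemma ringT_nonneg (ω : Om V) (v : V) (n : ℕ) : 0 ≤ ringT ω v n :=
  le_trans (Nat.cast_nonneg n) (nat_le_ringT ω v n)

lemma before_lt_ceil {ω : Om V} {v : V} {n : ℕ} {τ : ℝ} (h : before ω v n τ) : n < ⌈τ⌉₊ :=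
  Nat.lt_ceil.2 (lt_of_le_of_lt (nat_le_ringT ω v n) h.2)

lemma before_mono {ω : Om V} {v : V} {n : ℕ} {τ τ' : ℝ} (h : before ω v n τ) (hτ : τ ≤ τ') :
    before ω v n τ' := ⟨h.1, lt_of_lt_of_le h.2 hτ⟩

open Classical in
lemma sum_before_range (ω : Om V) (v : V) (τ : ℝ) (f : ℕ → ℝ) {M : ℕ} (hM : ⌈τ⌉₊ ≤ M) :
    (∑ n ∈ Finset.range ⌈τ⌉₊, if before ω v n τ then f n else 0) =
      ∑ n ∈ Finset.range M, if before ω v n τ then f n else 0 := by
  refine Finset.sum_subset (Finset.range_subset_range.2 hM) ?_
  intro n _ hn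
  rw [if_neg]
  intro hb
  exact hn (Finset.mem_range.2 (before_lt_ceil hb))

open Classical in
/-- The rings of the window before `τ`. -/
noncomputable def ringsB (W : Finset V) (t : V × ℕ → Lab) (τ : ℝ) : Finset (V × ℕ) :=
  (W ×ˢ Finset.range ⌈τ⌉₊).filter fun i => before (t, t) i.1 i.2 τ

lemma mem_ringsB {W : Finset V} {t U : V × ℕ → Lab} {τ : ℝ} {v : V} {n : ℕ} :
    (v, n) ∈ ringsB W t τ ↔ v ∈ W ∧ before (t, U) v n τ := by
  classical
  simp only [ringsB, Finset.mem_filter, Finset.mem_product, Finset.mem_range]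
  constructor
  · rintro ⟨⟨h1, _⟩, h2⟩
    exact ⟨h1, h2⟩
  · rintro ⟨h1, h2⟩
    exact ⟨⟨h1, before_lt_ceil h2⟩, h2⟩

lemma card_ringsB_le (W : Finset V) (t : V × ℕ → Lab) (τ : ℝ) :
    (ringsB W t τ).card ≤ W.card * ⌈τ⌉₊ := by
  classical
  unfold ringsB
  refine (Finset.card_filter_le _ _).trans ?_
  rw [Finset.card_product, Finset.card_range]

lemma ringsB_lt_ringsB {W : Finset V} {t : V × ℕ → Lab} {τ : ℝ} {v : V} {n : ℕ}
    (hv : v ∈ W) (hb : before ((t, t) : Om V) v n τ) :
    (ringsB W t (ringT ((t, t) : Om V) v n)).card < (ringsB W t τ).card := by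
  refine Finset.card_lt_card (Finset.ssubset_iff_of_subset ?_ |>.2 ⟨(v, n), ?_, ?_⟩)
  · rintro ⟨u, m⟩ hi
    have h := (mem_ringsB (U := t)).1 hi
    exact (mem_ringsB (U := t)).2 ⟨h.1, before_mono h.2 hb.2.le⟩
  · exact (mem_ringsB (U := t)).2 ⟨hv, hb⟩
  · intro hi
    have h := (mem_ringsB (U := t)).1 hi
    exact lt_irrefl _ h.2.2

/-! ### Stabilisation of the fuel -/

lemma fieldF_stable {θ : ℝ} {κ : ℝ → ℝ} {W : Finset V} (ω : Om V) :
    ∀ (N : ℕ) (τ : ℝ), (ringsB W ω.1 τ).card ≤ N → ∀ k k' : ℕ, N ≤ k → N ≤ k' →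
      fieldF G θ κ W ω k τ = fieldF G θ κ W ω k' τ := by
  classical
  have hbb : ∀ (v : V) (n : ℕ) (τ : ℝ), before ω v n τ ↔ before ((ω.1, ω.1) : Om V) v n τ :=
    fun _ _ _ => Iff.rfl
  have hT : ∀ (v : V) (n : ℕ), ringT ω v n = ringT ((ω.1, ω.1) : Om V) v n := fun _ _ => rfl
  intro N
  induction N with
  | zero =>
    intro τ hc k k' _ _
    have hno : ∀ v ∈ W, ∀ n, ¬ before ω v n τ := by
      intro v hv n hb
      have : (v, n) ∈ ringsB W ω.1 τ := (mem_ringsB (U := ω.1)).2 ⟨hv, hb⟩
      have h0 := Finset.card_eq_zero.1 (Nat.le_zero.1 hc)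
      rw [h0] at this
      simp at this
    have hz : ∀ j, fieldF G θ κ W ω j τ = 0 := by
      intro j
      funext v
      cases j with
      | zero => rfl
      | succ j =>
        simp only [fieldF]
        by_cases hv : v ∈ W
        · rw [if_pos hv]
          refine Finset.sum_eq_zero fun n _ => ?_
          rw [if_neg (hno v hv n)]
        · rw [if_neg hv]
          rfl
    rw [hz, hz]
  | succ N ih =>
    intro τ hc k k' hk hk'
    obtain ⟨j, rfl⟩ : ∃ j, k = j + 1 := ⟨k - 1, by omega⟩
    obtain ⟨j', rfl⟩ : ∃ j, k' = j + 1 := ⟨k' - 1, by omega⟩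
    funext v
    simp only [fieldF]
    by_cases hv : v ∈ W
    · rw [if_pos hv, if_pos hv]
      refine Finset.sum_congr rfl fun n _ => ?_
      by_cases hb : before ω v n τ
      · rw [if_pos hb, if_pos hb]
        have hlt := ringsB_lt_ringsB (t := ω.1) hv ((hbb v n τ).1 hb)
        have hcT : (ringsB W ω.1 (ringT ω v n)).card ≤ N := by
          rw [hT]
          omega
        rw [ih _ hcT j j' (by omega) (by omega)]
      · rw [if_neg hb, if_neg hb]
    · rw [if_neg hv, if_neg hv]

/-- The recurrence. -/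
theorem field_rec {θ : ℝ} {κ : ℝ → ℝ} {W : Finset V} (ω : Om V) (τ : ℝ) (v : V) :
    field G θ κ W ω τ v =
      if v ∈ W then
        ∑ n ∈ Finset.range ⌈τ⌉₊,
          haveI := Classical.propDecidable (before ω v n τ)
          if before ω v n τ then
            Real.artanh (xQ (κ (ringT ω v n))
              (gm G θ W (field G θ κ W ω (ringT ω v n)) v) (ω.2 (v, n) : ℝ))
          else 0
      else 0 := by
  classical
  set K := W.card * ⌈τ⌉₊ with hK
  have hK' : (ringsB W ω.1 τ).card ≤ K := card_ringsB_le W ω.1 τ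
  have h1 : field G θ κ W ω τ = fieldF G θ κ W ω (K + 1) τ :=
    fieldF_stable ω K τ hK' K (K + 1) le_rfl (Nat.le_succ K)
  rw [h1]
  simp only [fieldF]
  by_cases hv : v ∈ W
  · rw [if_pos hv, if_pos hv]
    refine Finset.sum_congr rfl fun n _ => ?_
    by_cases hb : before ω v n τ
    · rw [if_pos hb, if_pos hb]
      set T := ringT ω v n with hT
      have hsub : (ringsB W ω.1 T).card ≤ K := by
        refine le_trans (Finset.card_le_card ?_) hK'
        rintro ⟨u, m⟩ hi
        have h := (mem_ringsB (U := ω.1)).1 hi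
        exact (mem_ringsB (U := ω.1)).2 ⟨h.1, before_mono h.2 hb.2.le⟩
      have h2 : fieldF G θ κ W ω K T = field G θ κ W ω T :=
        fieldF_stable ω _ T le_rfl K _ hsub (card_ringsB_le W ω.1 T)
      rw [h2]
    · rw [if_neg hb, if_neg hb]
  · rw [if_neg hv, if_neg hv]

/-! ### Measurability -/

lemma measurable_coe_fst (i : V × ℕ) : Measurable fun ω : Om V => (ω.1 i : ℝ) :=
  measurable_subtype_coe.comp ((measurable_pi_apply i).comp measurable_fst)

lemma measurable_coe_snd (i : V × ℕ) : Measurable fun ω : Om V => (ω.2 i : ℝ) :=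
  measurable_subtype_coe.comp ((measurable_pi_apply i).comp measurable_snd)

lemma measurable_ringT (v : V) (n : ℕ) : Measurable fun ω : Om V => ringT ω v n := by
  unfold ringT
  exact measurable_const.add (measurable_const.mul (measurable_coe_fst _))

lemma measurableSet_before (v : V) (n : ℕ) (τ : ℝ) : MeasurableSet {ω : Om V | before ω v n τ} := by
  have h1 : MeasurableSet {ω : Om V | (ω.1 (v, n) : ℝ) < 1 / 2} :=
    measurableSet_lt (measurable_coe_fst _) measurable_const
  have h2 : MeasurableSet {ω : Om V | ringT ω v n < τ} :=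
    measurableSet_lt (measurable_ringT v n) measurable_const
  exact h1.inter h2

lemma measurableSet_before_joint (v : V) (n : ℕ) :
    MeasurableSet {p : ℝ × Om V | before p.2 v n p.1} := by
  have h1 : MeasurableSet {p : ℝ × Om V | (p.2.1 (v, n) : ℝ) < 1 / 2} :=
    measurableSet_lt ((measurable_coe_fst _).comp measurable_snd) measurable_const
  have h2 : MeasurableSet {p : ℝ × Om V | ringT p.2 v n < p.1} :=
    measurableSet_lt ((measurable_ringT v n).comp measurable_snd) measurable_fst
  exact h1.inter h2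

lemma measurable_artanhL : Measurable Real.artanh := by
  unfold Real.artanh
  exact Real.measurable_log.comp (Real.continuous_sqrt.measurable.comp
    ((measurable_const.add measurable_id).div (measurable_const.sub measurable_id)))

lemma measurable_gExp (W A : Finset V) : Measurable fun h : V → ℝ => gExp h W A := by
  unfold gExp
  refine Real.measurable_exp.comp ?_
  exact Finset.measurable_sum _ fun v _ => (measurable_pi_apply v).mul measurable_const

lemma measurable_gm {θ : ℝ} (W : Finset V) (v : V) : Measurable fun h : V → ℝ => gm G θ W h v := by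
  unfold gm gAvg gZ
  refine Measurable.div ?_ ?_
  · exact Finset.measurable_sum _ fun A _ => (measurable_const.mul (measurable_gExp W A)).mul measurable_const
  · exact Finset.measurable_sum _ fun A _ => measurable_const.mul (measurable_gExp W A)

/-- Fixed fuel. -/
lemma measurable_fieldF {θ : ℝ} {κ : ℝ → ℝ} (hκ : Measurable κ) (W : Finset V) (k : ℕ) (v : V) :
    Measurable fun p : ℝ × Om V => fieldF G θ κ W p.2 k p.1 v := by
  classical
  induction k generalizing v with
  | zero => exact measurable_const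
  | succ k ih =>
    simp only [fieldF]
    by_cases hv : v ∈ W
    · simp only [if_pos hv]
      -- the number of rounds is `⌈τ⌉₊`: split on it
      have hterm : ∀ n, Measurable fun p : ℝ × Om V =>
          if before p.2 v n p.1 then
            Real.artanh (xQ (κ (ringT p.2 v n))
              (gm G θ W (fieldF G θ κ W p.2 k (ringT p.2 v n)) v) (p.2.2 (v, n) : ℝ))
          else 0 := by
        intro n
        have hT : Measurable fun p : ℝ × Om V => ringT p.2 v n :=
          (measurable_ringT v n).comp measurable_snd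
        have hh : Measurable fun p : ℝ × Om V => fieldF G θ κ W p.2 k (ringT p.2 v n) := by
          rw [measurable_pi_iff]
          intro u
          have h1 : Measurable fun p : ℝ × Om V => ((ringT p.2 v n, p.2) : ℝ × Om V) :=
            hT.prodMk measurable_snd
          exact (ih u).comp h1
        have hm : Measurable fun p : ℝ × Om V =>
            ((κ (ringT p.2 v n), gm G θ W (fieldF G θ κ W p.2 k (ringT p.2 v n)) v,
              (p.2.2 (v, n) : ℝ)) : ℝ × ℝ × ℝ) :=
          (hκ.comp hT).prodMk (((measurable_gm W v).comp hh).prodMk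
            ((measurable_coe_snd _).comp measurable_snd))
        exact Measurable.ite (measurableSet_before_joint v n)
          (measurable_artanhL.comp (measurable_xQ.comp hm)) measurable_const
      have hall : Measurable fun q : ℕ × (ℝ × Om V) => ∑ n ∈ Finset.range q.1,
          if before q.2.2 v n q.2.1 then
            Real.artanh (xQ (κ (ringT q.2.2 v n))
              (gm G θ W (fieldF G θ κ W q.2.2 k (ringT q.2.2 v n)) v) (q.2.2.2 (v, n) : ℝ))
          else 0 := by
        refine measurable_from_prod_countable_right fun M => ?_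
        exact Finset.measurable_sum (Finset.range M) fun n _ => hterm n
      have hc : Measurable fun p : ℝ × Om V => ((⌈p.1⌉₊, p) : ℕ × (ℝ × Om V)) :=
        (Nat.measurable_ceil.comp measurable_fst).prodMk measurable_id
      exact hall.comp hc
    · simp only [if_neg hv]
      exact measurable_const

theorem measurable_field {θ : ℝ} {κ : ℝ → ℝ} (hκ : Measurable κ) {W : Finset V} (v : V) :
    Measurable fun p : ℝ × Om V => field G θ κ W p.2 p.1 v := by
  have hall : Measurable fun q : ℕ × (ℝ × Om V) => fieldF G θ κ W q.2.2 (W.card * q.1) q.2.1 v :=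
    measurable_from_prod_countable_right fun M => measurable_fieldF hκ W (W.card * M) v
  have hc : Measurable fun p : ℝ × Om V => ((⌈p.1⌉₊, p) : ℕ × (ℝ × Om V)) :=
    (Nat.measurable_ceil.comp measurable_fst).prodMk measurable_id
  exact hall.comp hc

theorem measurable_mW {θ : ℝ} {κ : ℝ → ℝ} (hκ : Measurable κ) {W : Finset V} (v : V) :
    Measurable fun p : ℝ × Om V => mW G θ κ W p.2 p.1 v := by
  have h : Measurable fun p : ℝ × Om V => field G θ κ W p.2 p.1 := by
    rw [measurable_pi_iff]
    exact fun u => measurable_field hκ u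
  exact (measurable_gm W v).comp h

/-! ### The own-field bound -/

lemma abs_artanh_le {x ε : ℝ} (hx : |x| ≤ ε) (hε : ε < 1) : |Real.artanh x| ≤ Real.artanh ε := by
  have hx' := abs_le.1 hx
  have hε0 : 0 ≤ ε := (abs_nonneg x).trans hx
  have h1 : Real.artanh x ≤ Real.artanh ε :=
    Real.artanh_le_artanh (by linarith) hε hx'.2
  have h2 : Real.artanh (-ε) ≤ Real.artanh x :=
    Real.artanh_le_artanh (by linarith) (by linarith) hx'.1
  have h3 : Real.artanh (-ε) = - Real.artanh ε := by
    unfold Real.artanh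
    have e1 : (1 + -ε) / (1 - -ε) = ((1 + ε) / (1 - ε))⁻¹ := by
      rw [inv_div]
      ring_nf
    rw [e1, Real.sqrt_inv, Real.log_inv]
  rw [abs_le]
  constructor <;> linarith

/-- Own-field bound: at most `⌈τ⌉₊` rings of strength `≤ ε`. -/
theorem abs_field_le {θ ε : ℝ} {κ : ℝ → ℝ} (hθ0 : 0 ≤ θ) (hθ1 : θ < 1) (hκ : IsStrength κ)
    (hκε : ∀ τ, κ τ ≤ ε) (hε : ε ≤ 1 / 2) {W : Finset V} (ω : Om V) (τ : ℝ) (v : V) :
    |field G θ κ W ω τ v| ≤ ⌈τ⌉₊ * Real.artanh ε := by
  classical
  have hε0 : 0 ≤ ε := (hκ.nonneg 0).trans (hκε 0)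
  have hart : 0 ≤ Real.artanh ε := Real.artanh_nonneg hε0
  rw [field_rec]
  by_cases hv : v ∈ W
  · rw [if_pos hv]
    calc |∑ n ∈ Finset.range ⌈τ⌉₊, if before ω v n τ then
          Real.artanh (xQ (κ (ringT ω v n))
            (gm G θ W (field G θ κ W ω (ringT ω v n)) v) (ω.2 (v, n) : ℝ)) else 0|
        ≤ ∑ n ∈ Finset.range ⌈τ⌉₊, Real.artanh ε := by
          refine (Finset.abs_sum_le_sum_abs _ _).trans (Finset.sum_le_sum fun n _ => ?_)
          by_cases hb : before ω v n τ
          · rw [if_pos hb]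
            refine abs_artanh_le ?_ (by linarith)
            refine (abs_xQ_le (hκ.nonneg _) (hκ.le _) (abs_gm_le hθ0 hθ1 _ _) (ω.2 (v, n)).2).trans (hκε _)
          · rw [if_neg hb, abs_zero]
            exact hart
      _ = ⌈τ⌉₊ * Real.artanh ε := by
          rw [Finset.sum_const, Finset.card_range, nsmul_eq_mul]
  · rw [if_neg hv, abs_zero]
    exact mul_nonneg (Nat.cast_nonneg _) hart

/-! ### Dependence on the strength -/

/-- Fields before `τ` depend only on the strength before `τ`. -/
theorem field_congr_strength {θ τ₀ : ℝ} {κ κ' : ℝ → ℝ} (hκκ' : ∀ s, 0 ≤ s → s < τ₀ → κ s = κ' s)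
    {W : Finset V} (ω : Om V) {τ : ℝ} (hτ : τ ≤ τ₀) :
    field G θ κ W ω τ = field G θ κ' W ω τ := by
  classical
  have key : ∀ (k : ℕ) (τ : ℝ), τ ≤ τ₀ → fieldF G θ κ W ω k τ = fieldF G θ κ' W ω k τ := by
    intro k
    induction k with
    | zero => intro τ _; rfl
    | succ k ih =>
      intro τ hτ
      funext v
      simp only [fieldF]
      by_cases hv : v ∈ W
      · rw [if_pos hv, if_pos hv]
        refine Finset.sum_congr rfl fun n _ => ?_
        by_cases hb : before ω v n τ
        · rw [if_pos hb, if_pos hb]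
          have hlt : ringT ω v n < τ₀ := lt_of_lt_of_le hb.2 hτ
          rw [hκκ' _ (ringT_nonneg ω v n) hlt, ih _ hlt.le]
        · rw [if_neg hb, if_neg hb]
      · rw [if_neg hv, if_neg hv]
  exact key _ τ hτ

/-- The frozen system. -/
theorem field_frozen {θ : ℝ} {κ κ' : ℝ → ℝ} {τ₀ : ℝ} (hκκ' : ∀ s, 0 ≤ s → s < τ₀ → κ s = κ' s)
    (h0 : ∀ s, τ₀ ≤ s → κ' s = 0) {W : Finset V} (ω : Om V) {τ : ℝ} (hτ : τ₀ ≤ τ) :
    field G θ κ' W ω τ = field G θ κ W ω τ₀ := by
  classical
  funext v
  rw [field_rec ω τ v, field_rec ω τ₀ v]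
  by_cases hv : v ∈ W
  · rw [if_pos hv, if_pos hv]
    have hce : ⌈τ₀⌉₊ ≤ ⌈τ⌉₊ := Nat.ceil_le_ceil hτ
    change (∑ n ∈ Finset.range ⌈τ⌉₊, if before ω v n τ then _ else 0) =
      ∑ n ∈ Finset.range ⌈τ₀⌉₊, if before ω v n τ₀ then _ else 0
    rw [sum_before_range ω v τ₀ _ hce]
    refine Finset.sum_congr rfl fun n _ => ?_
    by_cases hb : before ω v n τ₀
    · have hb' := before_mono hb hτ
      rw [if_pos hb, if_pos hb']
      have hlt : ringT ω v n < τ₀ := hb.2
      rw [← hκκ' _ (ringT_nonneg ω v n) hlt,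
        field_congr_strength (κ := κ) (κ' := κ') hκκ' ω hlt.le]
    · rw [if_neg hb]
      by_cases hb' : before ω v n τ
      · rw [if_pos hb']
        have hge : τ₀ ≤ ringT ω v n := by
          by_contra h
          exact hb ⟨hb'.1, not_le.1 h⟩
        rw [h0 _ hge]
        simp [xQ, Real.artanh_zero]
      · rw [if_neg hb']
  · rw [if_neg hv, if_neg hv]

/-! ### Equivariance -/

/-- Exact equivariance of the window system. -/
theorem field_act {θ : ℝ} {κ : ℝ → ℝ} {W : Finset V} (g : G ≃g G) (ω : Om V) (τ : ℝ) (v : V) :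
    field G θ κ W (act g ω) τ v = field G θ κ (W.map g.toEquiv.toEmbedding) ω τ (g v) := by
  classical
  set W' := W.map g.toEquiv.toEmbedding with hW'
  have hmem : ∀ u, g u ∈ W' ↔ u ∈ W := by
    intro u
    simp only [hW', Finset.mem_map]
    constructor
    · rintro ⟨a, ha, hg⟩
      have : a = u := g.injective hg
      exact this ▸ ha
    · intro hu
      exact ⟨u, hu, rfl⟩
  have hcard : W'.card = W.card := Finset.card_map _
  have hb : ∀ (u : V) (n : ℕ) (τ : ℝ), before (act g ω) u n τ ↔ before ω (g u) n τ :=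
    fun _ _ _ => Iff.rfl
  have hT : ∀ (u : V) (n : ℕ), ringT (act g ω) u n = ringT ω (g u) n := fun _ _ => rfl
  have key : ∀ (k : ℕ) (τ : ℝ) (u : V),
      fieldF G θ κ W (act g ω) k τ u = fieldF G θ κ W' ω k τ (g u) := by
    intro k
    induction k with
    | zero => intro _ _; rfl
    | succ k ih =>
      intro τ u
      simp only [fieldF]
      by_cases hu : u ∈ W
      · rw [if_pos hu, if_pos ((hmem u).2 hu)]
        refine Finset.sum_congr rfl fun n _ => ?_
        by_cases hbb : before (act g ω) u n τ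
        · rw [if_pos hbb, if_pos ((hb u n τ).1 hbb)]
          have hfun : fieldF G θ κ W (act g ω) k (ringT (act g ω) u n) =
              fieldF G θ κ W' ω k (ringT ω (g u) n) ∘ g := by
            funext w
            rw [hT]
            exact ih _ w
          rw [hfun, hT, hW', gm_map]
          rfl
        · rw [if_neg hbb, if_neg (fun h => hbb ((hb u n τ).2 h))]
      · rw [if_neg hu, if_neg (fun h => hu ((hmem u).1 h))]
  unfold field
  rw [key, hcard]

end Crest.Agent.Lib.IsingFIID
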