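/-
Row 160 (S0241), task LA: the planted formula `lintegral_field_eq`: the driven fields have density
`lik` with respect to the undriven reference fields; consistency `lintegral_field_sub`.
See BLUEPRINT.md §2.
-/
import Crest.Agent.Lib.IsingFIID.RingsBasic
import Crest.Agent.Lib.IsingFIID.GibbsGrow
import Crest.Agent.Lib.SRF.Innov

set_option autoImplicit false
set_option linter.unusedSectionVars false
set_option linter.unusedVariables false

namespace Crest.Agent.Lib.IsingFIID

open MeasureTheory Filter Topology Set SimpleGraph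
open scoped ENNReal

variable {V : Type*} [DecidableEq V] {G : SimpleGraph V}

instance lam_isProb' (I : Type*) : IsProbabilityMeasure (lam I) := Crest.Agent.Lib.SRF.lam_isProb I

instance PP_isProb' (V : Type*) : IsProbabilityMeasure (PP V) := by
  unfold PP; infer_instance

/-- The fields depend only on the noises of the rings before `τ`. -/
lemma fieldF_congr_U {θ : ℝ} {κ : ℝ → ℝ} {W : Finset V} {t : V × ℕ → Lab} {U U' : V × ℕ → Lab} :
    ∀ (k : ℕ) (τ : ℝ), (∀ v ∈ W, ∀ n, before (t, U) v n τ → U (v, n) = U' (v, n)) →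
      fieldF G θ κ W (t, U) k τ = fieldF G θ κ W (t, U') k τ := by
  intro k
  induction k with
  | zero => intro τ _; funext v; rfl
  | succ k ih =>
    intro τ hU
    funext v
    simp only [fieldF]
    by_cases hv : v ∈ W
    · simp only [hv, if_true]
      refine Finset.sum_congr rfl fun n _ => ?_
      by_cases hb : before (t, U) v n τ
      · have hb' : before (t, U') v n τ := hb
        rw [if_pos hb, if_pos hb']
        have hT : ringT (t, U) v n = ringT (t, U') v n := rfl
        rw [hT, hU v hv n hb]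
        have hsub := ih (ringT (t, U') v n) (fun v' hv' n' hb2 =>
          hU v' hv' n' (before_mono hb2 (le_of_lt hb.2)))
        rw [hsub]
      · have hb' : ¬ before (t, U') v n τ := hb
        rw [if_neg hb, if_neg hb']
    · simp [hv]

lemma field_congr_U {θ : ℝ} {κ : ℝ → ℝ} {W : Finset V} {t : V × ℕ → Lab} {U U' : V × ℕ → Lab}
    {τ : ℝ} (hU : ∀ v ∈ W, ∀ n, before (t, U) v n τ → U (v, n) = U' (v, n)) :
    field G θ κ W (t, U) τ = field G θ κ W (t, U') τ :=
  fieldF_congr_U _ τ hU

/-- No two rings of the window at the same time. -/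
def NoTies (W : Finset V) (t : V × ℕ → Lab) : Prop :=
  ∀ v ∈ W, ∀ v' ∈ W, ∀ n n' : ℕ, (t (v, n) : ℝ) < 1 / 2 → (t (v', n') : ℝ) < 1 / 2 →
    (n : ℝ) + 2 * (t (v, n) : ℝ) = n' + 2 * (t (v', n') : ℝ) → (v, n) = (v', n')

/-- One step: removing the last ring. -/
theorem field_step {θ : ℝ} {κ : ℝ → ℝ} {W : Finset V} {t U : V × ℕ → Lab} {τ : ℝ} {z : V} {n : ℕ}
    (hz : z ∈ W) (hρ : before (t, U) z n τ)
    (hlast : ∀ v ∈ W, ∀ m, before (t, U) v m τ → (v, m) ≠ (z, n) →
      before (t, U) v m (ringT (t, U) z n)) :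
    field G θ κ W (t, U) τ =
      stepW G θ (κ (ringT (t, U) z n)) W z (U (z, n) : ℝ) (field G θ κ W (t, U) (ringT (t, U) z n)) := by
  classical
  set ω : Om V := (t, U) with hω
  set T := ringT ω z n with hT
  have hTτ : T < τ := hρ.2
  have hce : ⌈T⌉₊ ≤ ⌈τ⌉₊ := Nat.ceil_le_ceil hTτ.le
  have hnotb : ¬ before ω z n T := fun h => lt_irrefl _ h.2
  funext v
  unfold stepW
  rw [if_pos hz]
  by_cases hvz : v = z
  · subst hvz
    rw [Function.update_self]
    rw [field_rec ω τ v, field_rec ω T v, if_pos hz, if_pos hz]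
    set f : ℕ → ℝ := fun m => Real.artanh (xQ (κ (ringT ω v m))
        (gm G θ W (field G θ κ W ω (ringT ω v m)) v) (ω.2 (v, m) : ℝ)) with hf
    have e1 : (∑ m ∈ Finset.range ⌈T⌉₊, if before ω v m T then f m else 0) =
        ∑ m ∈ Finset.range ⌈τ⌉₊, if before ω v m T then f m else 0 :=
      sum_before_range ω v T f hce
    change (∑ m ∈ Finset.range ⌈τ⌉₊, if before ω v m τ then f m else 0) =
      (∑ m ∈ Finset.range ⌈T⌉₊, if before ω v m T then f m else 0) + _
    rw [e1]
    have e2 : ∀ m ∈ Finset.range ⌈τ⌉₊, (if before ω v m τ then f m else 0) =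
        (if before ω v m T then f m else 0) + (if m = n then f m else 0) := by
      intro m _
      by_cases hmn : m = n
      · subst hmn
        rw [if_pos hρ, if_neg hnotb, if_pos rfl, zero_add]
      · rw [if_neg hmn, add_zero]
        by_cases hb : before ω v m τ
        · rw [if_pos hb, if_pos (hlast v hz m hb (fun h => hmn (Prod.ext_iff.1 h).2))]
        · rw [if_neg hb, if_neg (fun h => hb (before_mono h hTτ.le))]
    rw [Finset.sum_congr rfl e2, Finset.sum_add_distrib, Finset.sum_ite_eq']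
    rw [if_pos (Finset.mem_range.2 (before_lt_ceil hρ))]
  · rw [Function.update_of_ne hvz]
    by_cases hv : v ∈ W
    · rw [field_rec ω τ v, field_rec ω T v, if_pos hv, if_pos hv]
      set f : ℕ → ℝ := fun m => Real.artanh (xQ (κ (ringT ω v m))
        (gm G θ W (field G θ κ W ω (ringT ω v m)) v) (ω.2 (v, m) : ℝ)) with hf
      change (∑ m ∈ Finset.range ⌈τ⌉₊, if before ω v m τ then f m else 0) =
        (∑ m ∈ Finset.range ⌈T⌉₊, if before ω v m T then f m else 0)
      rw [sum_before_range ω v T f hce]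
      refine Finset.sum_congr rfl fun m _ => ?_
      by_cases hb : before ω v m τ
      · rw [if_pos hb, if_pos (hlast v hv m hb (fun h => hvz (Prod.ext_iff.1 h).1))]
      · rw [if_neg hb, if_neg (fun h => hb (before_mono h hTτ.le))]
    · rw [field_rec ω τ v, field_rec ω T v, if_neg hv, if_neg hv]

/-- Fields vanish when no ring has occurred. -/
theorem field_eq_zero {θ : ℝ} {κ : ℝ → ℝ} {W : Finset V} {ω : Om V} {τ : ℝ}
    (h : ∀ v ∈ W, ∀ n, ¬ before ω v n τ) : field G θ κ W ω τ = 0 := by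
  classical
  funext v
  rw [field_rec ω τ v]
  by_cases hv : v ∈ W
  · rw [if_pos hv]
    refine Finset.sum_eq_zero fun n _ => ?_
    rw [if_neg (h v hv n)]
  · rw [if_neg hv]; rfl

/-! ### The reference fields and the likelihood: step formulas -/

/-- The strength-noise product of a ring. -/
noncomputable def xR (κ : ℝ → ℝ) (ω : Om V) (v : V) (n : ℕ) : ℝ :=
  κ (ringT ω v n) * (2 * (ω.2 (v, n) : ℝ) - 1)

lemma abs_two_mul_sub_one_le (u : Lab) : |2 * (u : ℝ) - 1| ≤ 1 := by
  have h0 := u.2.1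
  have h1 := u.2.2
  rw [abs_le]; constructor <;> linarith

lemma abs_xR_le {κ : ℝ → ℝ} (hκ : IsStrength κ) (ω : Om V) (v : V) (n : ℕ) :
    |xR κ ω v n| ≤ 1 / 2 := by
  unfold xR
  rw [abs_mul, abs_of_nonneg (hκ.nonneg _)]
  calc κ (ringT ω v n) * |2 * (ω.2 (v, n) : ℝ) - 1|
      ≤ (1 / 2) * 1 := mul_le_mul (hκ.le _) (abs_two_mul_sub_one_le _) (abs_nonneg _) (by norm_num)
    _ = 1 / 2 := by norm_num

lemma field0_eq_sum (κ : ℝ → ℝ) (ω : Om V) (τ : ℝ) (v : V) :
    field0 κ ω τ v = ∑ n ∈ Finset.range ⌈τ⌉₊,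
      haveI := Classical.propDecidable (before ω v n τ)
      if before ω v n τ then Real.artanh (xR κ ω v n) else 0 := rfl

lemma likV_eq_prod (κ : ℝ → ℝ) (ω : Om V) (τ : ℝ) (v : V) (s : ℝ) :
    likV κ ω τ v s = ∏ n ∈ Finset.range ⌈τ⌉₊,
      haveI := Classical.propDecidable (before ω v n τ)
      if before ω v n τ then 1 + xR κ ω v n * s else 1 := rfl

open Classical in
lemma prod_before_range (ω : Om V) (v : V) (τ : ℝ) (f : ℕ → ℝ) {M : ℕ} (hM : ⌈τ⌉₊ ≤ M) :
    (∏ n ∈ Finset.range ⌈τ⌉₊, if before ω v n τ then f n else 1) =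
      ∏ n ∈ Finset.range M, if before ω v n τ then f n else 1 := by
  refine Finset.prod_subset (Finset.range_subset_range.2 hM) ?_
  intro n _ hn
  rw [if_neg]
  intro hb
  exact hn (Finset.mem_range.2 (before_lt_ceil hb))

/-- Step of the reference field. -/
lemma field0_step {κ : ℝ → ℝ} {W : Finset V} {ω : Om V} {τ T : ℝ} {z : V} {n : ℕ}
    (hρ : before ω z n τ) (hT : T = ringT ω z n)
    (hlast : ∀ v ∈ W, ∀ m, before ω v m τ → (v, m) ≠ (z, n) → before ω v m T) {v : V} (hv : v ∈ W) :
    field0 κ ω τ v = field0 κ ω T v + if v = z then Real.artanh (xR κ ω z n) else 0 := by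
  classical
  have hTτ : T < τ := hT ▸ hρ.2
  have hce : ⌈T⌉₊ ≤ ⌈τ⌉₊ := Nat.ceil_le_ceil hTτ.le
  have hnotb : ¬ before ω z n T := fun h => lt_irrefl _ (lt_of_lt_of_eq h.2 hT)
  rw [field0_eq_sum, field0_eq_sum]
  change (∑ m ∈ Finset.range ⌈τ⌉₊, if before ω v m τ then Real.artanh (xR κ ω v m) else 0) =
    (∑ m ∈ Finset.range ⌈T⌉₊, if before ω v m T then Real.artanh (xR κ ω v m) else 0) + _
  rw [sum_before_range ω v T _ hce]
  by_cases hvz : v = z
  · subst hvz
    rw [if_pos rfl]
    have e2 : ∀ m ∈ Finset.range ⌈τ⌉₊, (if before ω v m τ then Real.artanh (xR κ ω v m) else 0) =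
        (if before ω v m T then Real.artanh (xR κ ω v m) else 0) +
          (if m = n then Real.artanh (xR κ ω v m) else 0) := by
      intro m _
      by_cases hmn : m = n
      · subst hmn
        rw [if_pos hρ, if_neg hnotb, if_pos rfl, zero_add]
      · rw [if_neg hmn, add_zero]
        by_cases hb : before ω v m τ
        · rw [if_pos hb, if_pos (hlast v hv m hb (fun h => hmn (Prod.ext_iff.1 h).2))]
        · rw [if_neg hb, if_neg (fun h => hb (before_mono h hTτ.le))]
    rw [Finset.sum_congr rfl e2, Finset.sum_add_distrib, Finset.sum_ite_eq']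
    rw [if_pos (Finset.mem_range.2 (before_lt_ceil hρ))]
  · rw [if_neg hvz, add_zero]
    refine Finset.sum_congr rfl fun m _ => ?_
    by_cases hb : before ω v m τ
    · rw [if_pos hb, if_pos (hlast v hv m hb (fun h => hvz (Prod.ext_iff.1 h).1))]
    · rw [if_neg hb, if_neg (fun h => hb (before_mono h hTτ.le))]

/-- Step of the likelihood of one vertex. -/
lemma likV_step {κ : ℝ → ℝ} {W : Finset V} {ω : Om V} {τ T : ℝ} {z : V} {n : ℕ}
    (hρ : before ω z n τ) (hT : T = ringT ω z n)
    (hlast : ∀ v ∈ W, ∀ m, before ω v m τ → (v, m) ≠ (z, n) → before ω v m T) {v : V} (hv : v ∈ W)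
    (s : ℝ) :
    likV κ ω τ v s = likV κ ω T v s * if v = z then 1 + xR κ ω z n * s else 1 := by
  classical
  have hTτ : T < τ := hT ▸ hρ.2
  have hce : ⌈T⌉₊ ≤ ⌈τ⌉₊ := Nat.ceil_le_ceil hTτ.le
  have hnotb : ¬ before ω z n T := fun h => lt_irrefl _ (lt_of_lt_of_eq h.2 hT)
  rw [likV_eq_prod, likV_eq_prod]
  change (∏ m ∈ Finset.range ⌈τ⌉₊, if before ω v m τ then 1 + xR κ ω v m * s else 1) =
    (∏ m ∈ Finset.range ⌈T⌉₊, if before ω v m T then 1 + xR κ ω v m * s else 1) * _
  rw [prod_before_range ω v T _ hce]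
  by_cases hvz : v = z
  · subst hvz
    rw [if_pos rfl]
    have e2 : ∀ m ∈ Finset.range ⌈τ⌉₊, (if before ω v m τ then 1 + xR κ ω v m * s else 1) =
        (if before ω v m T then 1 + xR κ ω v m * s else 1) *
          (if m = n then 1 + xR κ ω v m * s else 1) := by
      intro m _
      by_cases hmn : m = n
      · subst hmn
        rw [if_pos hρ, if_neg hnotb, if_pos rfl, one_mul]
      · rw [if_neg hmn, mul_one]
        by_cases hb : before ω v m τ
        · rw [if_pos hb, if_pos (hlast v hv m hb (fun h => hmn (Prod.ext_iff.1 h).2))]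
        · rw [if_neg hb, if_neg (fun h => hb (before_mono h hTτ.le))]
    rw [Finset.prod_congr rfl e2, Finset.prod_mul_distrib, Finset.prod_ite_eq']
    rw [if_pos (Finset.mem_range.2 (before_lt_ceil hρ))]
  · rw [if_neg hvz, mul_one]
    refine Finset.prod_congr rfl fun m _ => ?_
    by_cases hb : before ω v m τ
    · rw [if_pos hb, if_pos (hlast v hv m hb (fun h => hvz (Prod.ext_iff.1 h).1))]
    · rw [if_neg hb, if_neg (fun h => hb (before_mono h hTτ.le))]

lemma field0_congr_U {κ : ℝ → ℝ} {t U U' : V × ℕ → Lab} {τ : ℝ} {v : V}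
    (hU : ∀ n, before (t, U) v n τ → U (v, n) = U' (v, n)) :
    field0 κ (t, U) τ v = field0 κ (t, U') τ v := by
  classical
  rw [field0_eq_sum, field0_eq_sum]
  refine Finset.sum_congr rfl fun n _ => ?_
  by_cases hb : before (t, U) v n τ
  · have hb' : before (t, U') v n τ := hb
    rw [if_pos hb, if_pos hb']
    simp only [xR, ringT, hU n hb]
  · have hb' : ¬ before (t, U') v n τ := hb
    rw [if_neg hb, if_neg hb']

lemma likV_congr_U {κ : ℝ → ℝ} {t U U' : V × ℕ → Lab} {τ : ℝ} {v : V} {s : ℝ}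
    (hU : ∀ n, before (t, U) v n τ → U (v, n) = U' (v, n)) :
    likV κ (t, U) τ v s = likV κ (t, U') τ v s := by
  classical
  rw [likV_eq_prod, likV_eq_prod]
  refine Finset.prod_congr rfl fun n _ => ?_
  by_cases hb : before (t, U) v n τ
  · have hb' : before (t, U') v n τ := hb
    rw [if_pos hb, if_pos hb']
    simp only [xR, ringT, hU n hb]
  · have hb' : ¬ before (t, U') v n τ := hb
    rw [if_neg hb, if_neg hb']

/-! ### Gibbs means of the reference fields and the likelihood -/

lemma exp_artanh_mul {x s : ℝ} (hx : |x| < 1) (hs : s = 1 ∨ s = -1) :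
    Real.exp (Real.artanh x * s) = (1 + x * s) * (Real.sqrt (1 - x ^ 2))⁻¹ := by
  have hx' : x ∈ Ioo (-1 : ℝ) 1 := abs_lt.1 hx
  have hc := Real.cosh_artanh hx'
  have hsh := Real.sinh_artanh hx'
  rcases hs with rfl | rfl
  · rw [mul_one, ← Real.cosh_add_sinh, hc, hsh]
    ring
  · rw [mul_neg_one, ← Real.cosh_sub_sinh, hc, hsh]
    ring

/-- Positive constants relating the field exponential to the likelihood. -/
noncomputable def cV (κ : ℝ → ℝ) (ω : Om V) (τ : ℝ) (v : V) : ℝ :=
  ∏ n ∈ Finset.range ⌈τ⌉₊,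
    haveI := Classical.propDecidable (before ω v n τ)
    if before ω v n τ then (Real.sqrt (1 - xR κ ω v n ^ 2))⁻¹ else 1

lemma abs_xR_lt {κ : ℝ → ℝ} (hκ : IsStrength κ) (ω : Om V) (v : V) (n : ℕ) : |xR κ ω v n| < 1 :=
  lt_of_le_of_lt (abs_xR_le hκ ω v n) (by norm_num)

lemma one_sub_xR_sq_pos {κ : ℝ → ℝ} (hκ : IsStrength κ) (ω : Om V) (v : V) (n : ℕ) :
    0 < 1 - xR κ ω v n ^ 2 := by
  have := abs_xR_lt hκ ω v n
  have h2 : xR κ ω v n ^ 2 < 1 := by
    rw [← sq_abs]; exact pow_lt_one₀ (abs_nonneg _) this (by norm_num)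
  linarith

lemma cV_pos {κ : ℝ → ℝ} (hκ : IsStrength κ) (ω : Om V) (τ : ℝ) (v : V) : 0 < cV κ ω τ v := by
  classical
  unfold cV
  refine Finset.prod_pos fun n _ => ?_
  split_ifs
  · exact inv_pos.2 (Real.sqrt_pos.2 (one_sub_xR_sq_pos hκ ω v n))
  · exact one_pos

lemma exp_field0_mul {κ : ℝ → ℝ} (hκ : IsStrength κ) (ω : Om V) (τ : ℝ) (v : V) {s : ℝ}
    (hs : s = 1 ∨ s = -1) :
    Real.exp (field0 κ ω τ v * s) = cV κ ω τ v * likV κ ω τ v s := by
  classical
  rw [field0_eq_sum, likV_eq_prod, cV, Finset.sum_mul, Real.exp_sum, ← Finset.prod_mul_distrib]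
  refine Finset.prod_congr rfl fun n _ => ?_
  by_cases hb : before ω v n τ
  · simp only [if_pos hb]
    rw [exp_artanh_mul (abs_xR_lt hκ ω v n) hs]
    ring
  · simp only [if_neg hb]
    simp

lemma likV_pos {κ : ℝ → ℝ} (hκ : IsStrength κ) (ω : Om V) (τ : ℝ) (v : V) {s : ℝ}
    (hs : s = 1 ∨ s = -1) : 0 < likV κ ω τ v s := by
  classical
  rw [likV_eq_prod]
  refine Finset.prod_pos fun n _ => ?_
  change 0 < if before ω v n τ then 1 + xR κ ω v n * s else 1
  split_ifs
  · have h := abs_xR_le hκ ω v n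
    have h' := abs_le.1 h
    rcases hs with rfl | rfl
    · linarith
    · linarith
  · exact one_pos

/-- Weight of a pattern in the likelihood. -/
noncomputable def lW (κ : ℝ → ℝ) (W : Finset V) (ω : Om V) (τ : ℝ) (A : Finset V) : ℝ :=
  ∏ v ∈ W, likV κ ω τ v (sp A v)

lemma lW_pos {κ : ℝ → ℝ} (hκ : IsStrength κ) (W : Finset V) (ω : Om V) (τ : ℝ) (A : Finset V) :
    0 < lW κ W ω τ A :=
  Finset.prod_pos fun v _ => likV_pos hκ ω τ v (sp_eq_or A v)

lemma lik_eq_sum (κ : ℝ → ℝ) (W : Finset V) (ω : Om V) (τ : ℝ) (θ : ℝ) :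
    lik G θ κ W ω τ = ∑ A ∈ W.powerset, bw G θ W A * lW κ W ω τ A := rfl

lemma lik_pos {κ : ℝ → ℝ} (hκ : IsStrength κ) {θ : ℝ} (h0 : 0 ≤ θ) (h1 : θ < 1) (W : Finset V)
    (ω : Om V) (τ : ℝ) : 0 < lik G θ κ W ω τ := by
  rw [lik_eq_sum]
  exact Finset.sum_pos (fun A _ => mul_pos (bw_pos h0 h1) (lW_pos hκ W ω τ A))
    ⟨∅, Finset.empty_mem_powerset W⟩

lemma gExp_field0W {κ : ℝ → ℝ} (hκ : IsStrength κ) (W : Finset V) (ω : Om V) (τ : ℝ) (A : Finset V) :
    gExp (field0W κ W ω τ) W A = (∏ v ∈ W, cV κ ω τ v) * lW κ W ω τ A := by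
  unfold gExp lW
  rw [Real.exp_sum, ← Finset.prod_mul_distrib]
  refine Finset.prod_congr rfl fun v hv => ?_
  have : field0W κ W ω τ v = field0 κ ω τ v := by simp [field0W, hv]
  rw [this, exp_field0_mul hκ ω τ v (sp_eq_or A v)]

/-- The Gibbs mean of the reference fields is the posterior mean under the likelihood. -/
lemma gm_field0W_mul_lik {κ : ℝ → ℝ} (hκ : IsStrength κ) {θ : ℝ} (h0 : 0 ≤ θ) (h1 : θ < 1)
    (W : Finset V) (ω : Om V) (τ : ℝ) (z : V) :
    gm G θ W (field0W κ W ω τ) z * lik G θ κ W ω τ =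
      ∑ A ∈ W.powerset, bw G θ W A * lW κ W ω τ A * sp A z := by
  have hC : 0 < ∏ v ∈ W, cV κ ω τ v := Finset.prod_pos fun v _ => cV_pos hκ ω τ v
  set C := ∏ v ∈ W, cV κ ω τ v
  have hlik := lik_pos (G := G) hκ h0 h1 W ω τ
  unfold gm gAvg gZ
  simp only [gExp_field0W hκ]
  have e1 : ∑ A ∈ W.powerset, bw G θ W A * (C * lW κ W ω τ A) = C * lik G θ κ W ω τ := by
    rw [lik_eq_sum, Finset.mul_sum]
    exact Finset.sum_congr rfl fun A _ => by ring
  have e2 : ∑ A ∈ W.powerset, bw G θ W A * (C * lW κ W ω τ A) * sp A z =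
      C * ∑ A ∈ W.powerset, bw G θ W A * lW κ W ω τ A * sp A z := by
    rw [Finset.mul_sum]
    exact Finset.sum_congr rfl fun A _ => by ring
  rw [e1, e2]
  field_simp

/-- Step of the likelihood. -/
lemma lik_step {κ : ℝ → ℝ} (hκ : IsStrength κ) {θ : ℝ} (h0 : 0 ≤ θ) (h1 : θ < 1) {W : Finset V}
    {ω : Om V} {τ T : ℝ} {z : V} {n : ℕ} (hz : z ∈ W) (hρ : before ω z n τ) (hT : T = ringT ω z n)
    (hlast : ∀ v ∈ W, ∀ m, before ω v m τ → (v, m) ≠ (z, n) → before ω v m T) :
    lik G θ κ W ω τ = lik G θ κ W ω T *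
      (1 + xR κ ω z n * gm G θ W (field0W κ W ω T) z) := by
  have hA : ∀ A : Finset V, lW κ W ω τ A = lW κ W ω T A * (1 + xR κ ω z n * sp A z) := by
    intro A
    unfold lW
    rw [Finset.prod_congr rfl (fun v hv => likV_step (κ := κ) hρ hT hlast hv (sp A v)),
      Finset.prod_mul_distrib, Finset.prod_ite_eq' W z, if_pos hz]
  have e := gm_field0W_mul_lik (G := G) hκ h0 h1 W ω T z
  rw [mul_add, mul_one, mul_left_comm, mul_comm (lik G θ κ W ω T), mul_comm (gm _ _ _ _ _) (lik _ _ _ _ _ _)]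
  rw [mul_comm (lik G θ κ W ω T) (gm _ _ _ _ _), e]
  rw [lik_eq_sum, lik_eq_sum, Finset.mul_sum, ← Finset.sum_add_distrib]
  refine Finset.sum_congr rfl fun A _ => ?_
  rw [hA A]
  ring

/-! ### Measurability -/

lemma measurable_xR {κ : ℝ → ℝ} (hκ : Measurable κ) (v : V) (n : ℕ) :
    Measurable fun ω : Om V => xR κ ω v n := by
  unfold xR
  exact (hκ.comp (measurable_ringT v n)).mul
    ((measurable_const.mul (measurable_coe_snd _)).sub measurable_const)

lemma measurable_field0 {κ : ℝ → ℝ} (hκ : Measurable κ) (τ : ℝ) (v : V) :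
    Measurable fun ω : Om V => field0 κ ω τ v := by
  classical
  simp only [field0_eq_sum]
  refine Finset.measurable_sum _ fun n _ => ?_
  exact Measurable.ite (measurableSet_before v n τ) (measurable_artanhL.comp (measurable_xR hκ v n))
    measurable_const

lemma measurable_field0W {κ : ℝ → ℝ} (hκ : Measurable κ) (W : Finset V) (τ : ℝ) :
    Measurable fun ω : Om V => field0W κ W ω τ := by
  rw [measurable_pi_iff]
  intro v
  unfold field0W
  by_cases hv : v ∈ W
  · simpa [hv] using measurable_field0 hκ τ v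
  · simp [hv]

lemma measurable_likV {κ : ℝ → ℝ} (hκ : Measurable κ) (τ : ℝ) (v : V) (s : ℝ) :
    Measurable fun ω : Om V => likV κ ω τ v s := by
  classical
  simp only [likV_eq_prod]
  refine Finset.measurable_prod _ fun n _ => ?_
  exact Measurable.ite (measurableSet_before v n τ)
    (measurable_const.add ((measurable_xR hκ v n).mul measurable_const)) measurable_const

lemma measurable_lik {θ : ℝ} {κ : ℝ → ℝ} (hκ : Measurable κ) (W : Finset V) (τ : ℝ) :
    Measurable fun ω : Om V => lik G θ κ W ω τ := by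
  unfold lik
  refine Finset.measurable_sum _ fun A _ => measurable_const.mul ?_
  exact Finset.measurable_prod _ fun v _ => measurable_likV hκ τ v _

lemma measurable_stepW {θ κ₀ : ℝ} (W : Finset V) (z : V) :
    Measurable fun p : (V → ℝ) × Lab => stepW G θ κ₀ W z (p.2 : ℝ) p.1 := by
  unfold stepW
  by_cases hz : z ∈ W
  · simp only [hz, if_true]
    rw [measurable_pi_iff]
    intro v
    by_cases hv : v = z
    · subst hv
      simp only [Function.update_self]
      refine ((measurable_pi_apply v).comp measurable_fst).add (measurable_artanhL.comp ?_)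
      have h1 : Measurable fun p : (V → ℝ) × Lab => ((κ₀, gm G θ W p.1 v, (p.2 : ℝ)) : ℝ × ℝ × ℝ) :=
        measurable_const.prodMk (((measurable_gm W v).comp measurable_fst).prodMk
          (measurable_subtype_coe.comp measurable_snd))
      exact measurable_xQ.comp h1
    · simp only [Function.update_of_ne hv]
      exact (measurable_pi_apply v).comp measurable_fst
  · simp only [hz, if_false]
    exact measurable_fst

/-! ### The fixed-`t` induction -/

lemma measurable_U_field {θ : ℝ} {κ : ℝ → ℝ} (hκ : Measurable κ) (W : Finset V) (t : V × ℕ → Lab)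
    (τ : ℝ) : Measurable fun U : V × ℕ → Lab => field G θ κ W (t, U) τ := by
  rw [measurable_pi_iff]
  intro v
  have h1 : Measurable fun U : V × ℕ → Lab => ((τ, (t, U)) : ℝ × Om V) :=
    measurable_const.prodMk (measurable_const.prodMk measurable_id)
  exact (measurable_field hκ v).comp h1

lemma measurable_pair_snd (t : V × ℕ → Lab) : Measurable fun U : V × ℕ → Lab => ((t, U) : Om V) :=
  measurable_const.prodMk measurable_id

/-- The channel in integrated form. -/
lemma lintegral_stepW {κ₀ θ : ℝ} (h0κ : 0 ≤ κ₀) (h1κ : κ₀ ≤ 1 / 2) (hθ0 : 0 ≤ θ) (hθ1 : θ < 1)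
    {W : Finset V} {z : V} (hz : z ∈ W) {Ψ : (V → ℝ) → ℝ≥0∞} (hΨ : Measurable Ψ) (h : V → ℝ) :
    ∫⁻ s : Lab, Ψ (stepW G θ κ₀ W z (s : ℝ) h) =
      ∫⁻ s : Lab, Ψ (Function.update h z (h z + Real.artanh (κ₀ * (2 * (s : ℝ) - 1)))) *
        ENNReal.ofReal (1 + κ₀ * (2 * (s : ℝ) - 1) * gm G θ W h z) := by
  set m := gm G θ W h z with hm
  have hm1 : |m| ≤ 1 := abs_gm_le hθ0 hθ1 h z
  have ha : |κ₀ * m| ≤ 1 / 2 := by
    rw [abs_mul, abs_of_nonneg h0κ]
    calc κ₀ * |m| ≤ (1 / 2) * 1 := mul_le_mul h1κ hm1 (abs_nonneg _) (by norm_num)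
      _ = 1 / 2 := by norm_num
  set g : ℝ → ℝ≥0∞ := fun x => Ψ (Function.update h z (h z + Real.artanh (κ₀ * x))) with hg
  have hgm : Measurable g := by
    refine hΨ.comp ?_
    rw [measurable_pi_iff]
    intro v
    by_cases hv : v = z
    · subst hv
      simp only [Function.update_self]
      exact measurable_const.add (measurable_artanhL.comp (measurable_const.mul measurable_id))
    · simp only [Function.update_of_ne hv]
      exact measurable_const
  have key := lintegral_psiQ ha hgm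
  have e1 : ∀ s : Lab, Ψ (stepW G θ κ₀ W z (s : ℝ) h) = g (psiQ (κ₀ * m) (2 * (s : ℝ) - 1)) := by
    intro s
    simp only [stepW, hz, if_true, hg, xQ, hm]
  simp only [e1]
  rw [key]
  refine lintegral_congr fun s => ?_
  simp only [hg]
  congr 2
  ring

/-- **The planted formula for fixed `t`.** -/
theorem lintegral_U_eq (hT : G.IsTree) {W : Finset V} (hW : IsWin G W) {θ : ℝ} {κ : ℝ → ℝ}
    (hθ0 : 0 ≤ θ) (hθ1 : θ < 1) (hκ : IsStrength κ) {t : V × ℕ → Lab} (hnt : NoTies W t) :
    ∀ (k : ℕ) (τ : ℝ) (Ψ : (V → ℝ) → ℝ≥0∞), Measurable Ψ → (ringsB W t τ).card = k →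
      ∫⁻ U, Ψ (field G θ κ W (t, U) τ) ∂(lam (V × ℕ)) =
        ∫⁻ U, Ψ (field0W κ W (t, U) τ) * ENNReal.ofReal (lik G θ κ W (t, U) τ) ∂(lam (V × ℕ)) := by
  classical
  intro k
  induction k with
  | zero =>
    intro τ Ψ hΨ hk
    have hempty : ringsB W t τ = ∅ := Finset.card_eq_zero.1 hk
    have hno : ∀ U : V × ℕ → Lab, ∀ v ∈ W, ∀ n, ¬ before (t, U) v n τ := by
      intro U v hv n hb
      have : (v, n) ∈ ringsB W t τ := mem_ringsB.2 ⟨hv, hb⟩
      rw [hempty] at this
      simp at this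
    refine lintegral_congr fun U => ?_
    have h1 : field G θ κ W (t, U) τ = 0 := field_eq_zero (hno U)
    have h2 : field0W κ W (t, U) τ = 0 := by
      funext v
      unfold field0W
      by_cases hv : v ∈ W
      · rw [if_pos hv, field0_eq_sum]
        refine Finset.sum_eq_zero fun n _ => ?_
        rw [if_neg (hno U v hv n)]
      · rw [if_neg hv]; rfl
    have h3 : lik G θ κ W (t, U) τ = 1 := by
      rw [lik_eq_sum, ← sum_bw hT hW (θ := θ)]
      refine Finset.sum_congr rfl fun A _ => ?_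
      have : lW κ W (t, U) τ A = 1 := by
        unfold lW
        refine Finset.prod_eq_one fun v hv => ?_
        rw [likV_eq_prod]
        refine Finset.prod_eq_one fun n _ => ?_
        rw [if_neg (hno U v hv n)]
      rw [this, mul_one]
    rw [h1, h2, h3]
    simp
  | succ k ih =>
    intro τ Ψ hΨ hk
    have hne : (ringsB W t τ).Nonempty := by
      rw [← Finset.card_pos, hk]; omega
    -- the last ring
    obtain ⟨⟨z, n⟩, hρmem, hmax⟩ := Finset.exists_max_image (ringsB W t τ)
      (fun i => ringT ((t, t) : Om V) i.1 i.2) hne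
    have hρ0 := (mem_ringsB (U := t)).1 hρmem
    have hzW : z ∈ W := hρ0.1
    set T : ℝ := ringT ((t, t) : Om V) z n with hTdef
    have hTU : ∀ U : V × ℕ → Lab, ringT ((t, U) : Om V) z n = T := fun U => rfl
    have hρU : ∀ U : V × ℕ → Lab, before (t, U) z n τ := fun U => hρ0.2
    have hlastU : ∀ U : V × ℕ → Lab, ∀ v ∈ W, ∀ m, before (t, U) v m τ → (v, m) ≠ (z, n) →
        before (t, U) v m T := by
      intro U v hv m hb hne
      refine ⟨hb.1, ?_⟩
      have h1 : ringT ((t, U) : Om V) v m ≤ T :=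
        hmax (v, m) ((mem_ringsB (U := U)).2 ⟨hv, hb⟩)
      refine lt_of_le_of_ne h1 ?_
      intro h2
      exact hne (hnt v hv z hzW m n hb.1 hρ0.2.1 h2)
    have hcard : (ringsB W t T).card = k := by
      have hset : ringsB W t T = (ringsB W t τ).erase (z, n) := by
        ext ⟨v, m⟩
        rw [Finset.mem_erase, mem_ringsB (U := t), mem_ringsB (U := t)]
        constructor
        · rintro ⟨hv, hb⟩
          refine ⟨?_, hv, before_mono hb (le_of_lt hρ0.2.2)⟩
          rintro h
          have h' := Prod.ext_iff.1 h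
          simp only at h'
          rw [h'.1, h'.2] at hb
          exact lt_irrefl _ hb.2
        · rintro ⟨hne, hv, hb⟩
          exact ⟨hv, hlastU t v hv m hb hne⟩
      rw [hset, Finset.card_erase_of_mem hρmem, hk]
      rfl
    -- κ at the ring
    set κ₀ := κ T with hκ₀
    have h0κ : 0 ≤ κ₀ := hκ.nonneg _
    have h1κ : κ₀ ≤ 1 / 2 := hκ.le _
    -- the integrated functional
    set Ψ' : (V → ℝ) → ℝ≥0∞ := fun h => ∫⁻ s : Lab, Ψ (stepW G θ κ₀ W z (s : ℝ) h) with hΨ'
    have hΨ'm : Measurable Ψ' :=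
      Measurable.lintegral_prod_right' (f := fun p : (V → ℝ) × Lab => Ψ (stepW G θ κ₀ W z (p.2 : ℝ) p.1))
        (hΨ.comp (measurable_stepW W z))
    -- left-hand side
    have hL : ∫⁻ U, Ψ (field G θ κ W (t, U) τ) ∂(lam (V × ℕ)) =
        ∫⁻ U, Ψ' (field G θ κ W (t, U) T) ∂(lam (V × ℕ)) := by
      rw [Crest.Agent.Lib.SRF.lintegral_resample (z, n)
        (Φ := fun U => Ψ (field G θ κ W (t, U) τ)) (hΨ.comp (measurable_U_field hκ.meas W t τ))]
      refine lintegral_congr fun U => ?_
      refine lintegral_congr fun s => ?_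
      have hstep := field_step (G := G) (θ := θ) (κ := κ) hzW (hρU (Function.update U (z, n) s))
        (hlastU (Function.update U (z, n) s))
      rw [hstep, hTU]
      have hc : field G θ κ W (t, Function.update U (z, n) s) T = field G θ κ W (t, U) T := by
        refine field_congr_U fun v _ m hb => ?_
        rw [Function.update_of_ne]
        rintro h
        have h' := Prod.ext_iff.1 h
        simp only at h'
        rw [h'.1, h'.2] at hb
        exact lt_irrefl _ hb.2
      rw [hc, Function.update_self]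
    rw [hL, ih T Ψ' hΨ'm hcard]
    -- right-hand side
    have hmeasR : Measurable fun U : V × ℕ → Lab =>
        Ψ (field0W κ W (t, U) τ) * ENNReal.ofReal (lik G θ κ W (t, U) τ) :=
      (hΨ.comp ((measurable_field0W hκ.meas W τ).comp (measurable_pair_snd t))).mul
        (ENNReal.measurable_ofReal.comp ((measurable_lik hκ.meas W τ).comp (measurable_pair_snd t)))
    rw [Crest.Agent.Lib.SRF.lintegral_resample (z, n) hmeasR]
    refine lintegral_congr fun U => ?_
    -- Set up the reference data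
    set h₀ := field0W κ W (t, U) T with hh₀
    set L₀ := lik G θ κ W (t, U) T with hL₀
    have hL₀pos : 0 < L₀ := lik_pos hκ hθ0 hθ1 W _ _
    have hm₀ : |gm G θ W h₀ z| ≤ 1 := abs_gm_le hθ0 hθ1 _ _
    have hchan := lintegral_stepW (G := G) h0κ h1κ hθ0 hθ1 hzW hΨ h₀
    simp only [hΨ']
    rw [hchan, ← lintegral_mul_const' _ _ ENNReal.ofReal_ne_top]
    refine lintegral_congr fun s => ?_
    set U' := Function.update U (z, n) s with hU'
    have hnotb : ∀ v m, before ((t, U) : Om V) v m T → (v, m) ≠ (z, n) := by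
      rintro v m hb h
      have h' := Prod.ext_iff.1 h
      simp only at h'
      rw [h'.1, h'.2] at hb
      exact lt_irrefl _ hb.2
    have hUU' : ∀ v m, before ((t, U) : Om V) v m T → U (v, m) = U' (v, m) := by
      intro v m hb
      rw [hU', Function.update_of_ne (hnotb v m hb)]
    have hxR : xR κ ((t, U') : Om V) z n = κ₀ * (2 * (s : ℝ) - 1) := by
      simp only [xR, hU', Function.update_self]
      rfl
    -- reference field after the ring
    have hf0 : field0W κ W (t, U') τ = Function.update h₀ z (h₀ z + Real.artanh (κ₀ * (2 * (s : ℝ) - 1))) := by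
      funext v
      by_cases hv : v ∈ W
      · have hstep := field0_step (κ := κ) (W := W) (hρU U') (hTU U').symm (hlastU U') hv
        have hc : field0 κ ((t, U') : Om V) T v = field0 κ ((t, U) : Om V) T v :=
          (field0_congr_U (fun m hb => hUU' v m hb)).symm
        have h1 : field0W κ W (t, U') τ v = field0 κ ((t, U') : Om V) τ v := by simp [field0W, hv]
        have h2 : h₀ v = field0 κ ((t, U) : Om V) T v := by simp [hh₀, field0W, hv]
        rw [h1, hstep, hc, hxR]
        by_cases hvz : v = z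
        · subst hvz
          rw [if_pos rfl, Function.update_self, h2]
        · rw [if_neg hvz, Function.update_of_ne hvz, h2, add_zero]
      · have hvz : v ≠ z := fun h => hv (h ▸ hzW)
        rw [Function.update_of_ne hvz]
        simp [field0W, hv, hh₀]
    -- likelihood after the ring
    have hlik : lik G θ κ W (t, U') τ = L₀ * (1 + κ₀ * (2 * (s : ℝ) - 1) * gm G θ W h₀ z) := by
      have hstep := lik_step (G := G) (κ := κ) (θ := θ) hκ hθ0 hθ1 (W := W) hzW (hρU U') (hTU U').symm (hlastU U')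
      rw [hstep, hxR]
      have hlikc : lik G θ κ W (t, U') T = L₀ := by
        rw [hL₀, lik_eq_sum, lik_eq_sum]
        refine Finset.sum_congr rfl fun A _ => ?_
        congr 1
        unfold lW
        refine Finset.prod_congr rfl fun v _ => ?_
        exact (likV_congr_U (fun m hb => hUU' v m hb)).symm
      have hf0c : field0W κ W (t, U') T = h₀ := by
        funext v
        simp only [hh₀, field0W]
        by_cases hv : v ∈ W
        · rw [if_pos hv, if_pos hv]
          exact (field0_congr_U (fun m hb => hUU' v m hb)).symm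
        · rw [if_neg hv, if_neg hv]
      rw [hlikc, hf0c]
    rw [hf0, hlik, mul_assoc]
    congr 1
    have hnonneg : 0 ≤ 1 + κ₀ * (2 * (s : ℝ) - 1) * gm G θ W h₀ z := by
      have h1 : |κ₀ * (2 * (s : ℝ) - 1) * gm G θ W h₀ z| ≤ 1 / 2 := by
        rw [abs_mul, abs_mul, abs_of_nonneg h0κ]
        calc κ₀ * |2 * (s : ℝ) - 1| * |gm G θ W h₀ z| ≤ (1 / 2) * 1 * 1 := by
              gcongr
              · exact abs_two_mul_sub_one_le s
          _ = 1 / 2 := by norm_num
      have := (abs_le.1 h1).1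
      linarith
    rw [ENNReal.ofReal_mul hL₀pos.le, mul_comm]

end Crest.Agent.Lib.IsingFIID
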