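/-
Row 160 (S0241), task LA, part 2: `lintegral_field_eq`, integrating out tilts, the planted measure on
sub-windows, `lintegral_field_sub`.  See BLUEPRINT.md §2.
-/
import Crest.Agent.Lib.IsingFIID.Law

set_option autoImplicit false
set_option linter.unusedSectionVars false
set_option linter.unusedVariables false

namespace Crest.Agent.Lib.IsingFIID

open MeasureTheory Filter Topology Set SimpleGraph
open scoped ENNReal

variable {V : Type*} [DecidableEq V] {G : SimpleGraph V}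

/-! ### No ties, almost surely -/

lemma ae_ne_of_ne {I : Type*} [DecidableEq I] {i j : I} (hij : i ≠ j) (a b : ℝ) :
    ∀ᵐ t ∂(lam I), a + 2 * (t i : ℝ) ≠ b + 2 * (t j : ℝ) := by
  have hm : MeasurableSet {t : I → Lab | a + 2 * (t i : ℝ) = b + 2 * (t j : ℝ)} := by
    refine measurableSet_eq_fun ?_ ?_
    · exact measurable_const.add (measurable_const.mul (measurable_subtype_coe.comp (measurable_pi_apply i)))
    · exact measurable_const.add (measurable_const.mul (measurable_subtype_coe.comp (measurable_pi_apply j)))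
  rw [ae_iff]
  simp only [ne_eq, not_not]
  rw [← lintegral_indicator_one hm,
    Crest.Agent.Lib.SRF.lintegral_resample i ((measurable_one (α := ℝ≥0∞)).indicator hm)]
  have hz : ∀ w : I → Lab, ∫⁻ s : Lab, ({t : I → Lab | a + 2 * (t i : ℝ) = b + 2 * (t j : ℝ)}.indicator 1
      (Function.update w i s) : ℝ≥0∞) = 0 := by
    intro w
    have hS : {s : Lab | a + 2 * ((Function.update w i s) i : ℝ) = b + 2 * ((Function.update w i s) j : ℝ)}
        ⊆ {s : Lab | (s : ℝ) = (b + 2 * (w j : ℝ) - a) / 2} := by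
      intro s hs
      simp only [mem_ofPred_eq, Function.update_self, Function.update_of_ne (Ne.symm hij)] at hs ⊢
      linarith
    have hsub : {s : Lab | (s : ℝ) = (b + 2 * (w j : ℝ) - a) / 2}.Subsingleton := by
      intro x hx y hy
      exact Subtype.ext (hx.trans hy.symm)
    have hnull : (volume : Measure Lab) {s : Lab | (s : ℝ) = (b + 2 * (w j : ℝ) - a) / 2} = 0 :=
      hsub.measure_zero _
    refine (lintegral_eq_zero_iff' ?_).2 ?_
    · refine Measurable.aemeasurable ?_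
      exact ((measurable_one (α := ℝ≥0∞)).indicator hm).comp
        ((Crest.Agent.Lib.SRF.measurable_update_pair i).comp (measurable_const.prodMk measurable_id))
    · refine (ae_iff.2 ?_)
      refine measure_mono_null ?_ hnull
      intro s hs
      simp only [mem_ofPred_eq] at hs
      by_contra hne
      apply hs
      rw [indicator_of_notMem]
      · rfl
      · intro hmem
        exact hne (hS hmem)
  simp [hz]

lemma ae_noTies (W : Finset V) : ∀ᵐ t ∂(lam (V × ℕ)), NoTies W t := by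
  have h : ∀ v ∈ W, ∀ v' ∈ W, ∀ n n' : ℕ, ∀ᵐ t ∂(lam (V × ℕ)), (t (v, n) : ℝ) < 1 / 2 →
      (t (v', n') : ℝ) < 1 / 2 → (n : ℝ) + 2 * (t (v, n) : ℝ) = n' + 2 * (t (v', n') : ℝ) →
        (v, n) = (v', n') := by
    intro v _ v' _ n n'
    by_cases hij : (v, n) = (v', n')
    · exact Eventually.of_forall fun _ _ _ _ => hij
    · filter_upwards [ae_ne_of_ne hij (n : ℝ) (n' : ℝ)] with t ht _ _ h
      exact absurd h ht
  unfold NoTies
  rw [eventually_all_finset]
  intro v hv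
  rw [eventually_all_finset]
  intro v' hv'
  rw [ae_all_iff]
  intro n
  rw [ae_all_iff]
  intro n'
  exact h v hv v' hv' n n'

/-- **The planted formula.** -/
theorem lintegral_field_eq (hT : G.IsTree) {W : Finset V} (hW : IsWin G W) {θ : ℝ} {κ : ℝ → ℝ}
    (hθ0 : 0 ≤ θ) (hθ1 : θ < 1) (hκ : IsStrength κ) (τ : ℝ) {Ψ : (V → ℝ) → ℝ≥0∞} (hΨ : Measurable Ψ) :
    ∫⁻ ω, Ψ (field G θ κ W ω τ) ∂(PP V) =
      ∫⁻ ω, Ψ (field0W κ W ω τ) * ENNReal.ofReal (lik G θ κ W ω τ) ∂(PP V) := by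
  have hm1 : Measurable fun ω : Om V => field G θ κ W ω τ := by
    rw [measurable_pi_iff]
    intro v
    exact (measurable_field hκ.meas v).comp (measurable_const.prodMk measurable_id)
  have hm2 : Measurable fun ω : Om V => Ψ (field0W κ W ω τ) * ENNReal.ofReal (lik G θ κ W ω τ) :=
    (hΨ.comp (measurable_field0W hκ.meas W τ)).mul
      (ENNReal.measurable_ofReal.comp (measurable_lik hκ.meas W τ))
  rw [PP, lintegral_prod (fun ω : Om V => Ψ (field G θ κ W ω τ)) (hΨ.comp hm1).aemeasurable,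
    lintegral_prod _ hm2.aemeasurable]
  refine lintegral_congr_ae ?_
  filter_upwards [ae_noTies W] with t ht
  exact lintegral_U_eq hT hW hθ0 hθ1 hκ ht _ τ Ψ hΨ rfl

/-! ### Integrating out tilts -/

lemma lintegral_ofReal_tilt {a : ℝ} (ha : |a| ≤ 1 / 2) :
    ∫⁻ s : Lab, ENNReal.ofReal (1 + a * (2 * (s : ℝ) - 1)) = 1 := by
  have := lintegral_psiQ (a := a) ha (g := fun _ => 1) measurable_const
  simp only [one_mul, lintegral_const, measure_univ, mul_one] at this
  exact this.symm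

/-- Independent tilts integrate to one. -/
lemma lintegral_tilt {I : Type*} [DecidableEq I] (S : Finset I) (a : I → ℝ)
    (ha : ∀ i ∈ S, |a i| ≤ 1 / 2) {F : (I → Lab) → ℝ≥0∞} (hF : Measurable F)
    (hdep : ∀ U, ∀ i ∈ S, ∀ s, F (Function.update U i s) = F U) :
    ∫⁻ U, F U * ∏ i ∈ S, ENNReal.ofReal (1 + a i * (2 * (U i : ℝ) - 1)) ∂(lam I) =
      ∫⁻ U, F U ∂(lam I) := by
  classical
  induction S using Finset.induction_on with
  | empty => simp
  | insert i₀ S hi₀ ih =>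
    have ha' : ∀ i ∈ S, |a i| ≤ 1 / 2 := fun i hi => ha i (Finset.mem_insert_of_mem hi)
    have hdep' : ∀ U, ∀ i ∈ S, ∀ s, F (Function.update U i s) = F U :=
      fun U i hi s => hdep U i (Finset.mem_insert_of_mem hi) s
    rw [← ih ha' hdep']
    have hm : Measurable fun U : I → Lab =>
        F U * ∏ i ∈ insert i₀ S, ENNReal.ofReal (1 + a i * (2 * (U i : ℝ) - 1)) := by
      refine hF.mul (Finset.measurable_prod _ fun i _ => ENNReal.measurable_ofReal.comp ?_)
      exact measurable_const.add (measurable_const.mul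
        ((measurable_const.mul (measurable_subtype_coe.comp (measurable_pi_apply i))).sub measurable_const))
    rw [Crest.Agent.Lib.SRF.lintegral_resample i₀ hm]
    refine lintegral_congr fun U => ?_
    have e : ∀ s : Lab, (F (Function.update U i₀ s) * ∏ i ∈ insert i₀ S,
          ENNReal.ofReal (1 + a i * (2 * ((Function.update U i₀ s) i : ℝ) - 1))) =
        (F U * ∏ i ∈ S, ENNReal.ofReal (1 + a i * (2 * (U i : ℝ) - 1))) *
          ENNReal.ofReal (1 + a i₀ * (2 * (s : ℝ) - 1)) := by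
      intro s
      rw [Finset.prod_insert hi₀, hdep U i₀ (Finset.mem_insert_self _ _) s, Function.update_self]
      have : ∏ i ∈ S, ENNReal.ofReal (1 + a i * (2 * ((Function.update U i₀ s) i : ℝ) - 1)) =
          ∏ i ∈ S, ENNReal.ofReal (1 + a i * (2 * (U i : ℝ) - 1)) := by
        refine Finset.prod_congr rfl fun i hi => ?_
        have hne : i ≠ i₀ := fun h => hi₀ (h ▸ hi)
        rw [Function.update_of_ne hne]
      rw [this]
      ring
    simp only [e]
    have hms : Measurable fun s : Lab => ENNReal.ofReal (1 + a i₀ * (2 * (s : ℝ) - 1)) :=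
      ENNReal.measurable_ofReal.comp (measurable_const.add (measurable_const.mul
        ((measurable_const.mul measurable_subtype_coe).sub measurable_const)))
    rw [lintegral_const_mul _ hms, lintegral_ofReal_tilt (ha i₀ (Finset.mem_insert_self _ _)), mul_one]

/-! ### Sub-windows -/

/-- `sp` depends only on the trace on a sub-window. -/
lemma sp_inter (A W₀ : Finset V) {v : V} (hv : v ∈ W₀) : sp (A ∩ W₀) v = sp A v := by
  simp [sp, Finset.mem_inter, hv]

lemma lW_inter (κ : ℝ → ℝ) (A W₀ : Finset V) (ω : Om V) (τ : ℝ) :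
    lW κ W₀ ω τ (A ∩ W₀) = lW κ W₀ ω τ A := by
  unfold lW
  exact Finset.prod_congr rfl fun v hv => by rw [sp_inter A W₀ hv]

lemma lW_congr_U {κ : ℝ → ℝ} {W A : Finset V} {t U U' : V × ℕ → Lab} {τ : ℝ}
    (hU : ∀ v ∈ W, ∀ n, U (v, n) = U' (v, n)) : lW κ W (t, U) τ A = lW κ W (t, U') τ A := by
  unfold lW
  exact Finset.prod_congr rfl fun v hv => likV_congr_U fun n _ => hU v hv n

open Classical in
/-- The likelihood of the vertices of `S` as a product over the rings of `S`. -/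
lemma lW_eq_prod_rings (κ : ℝ → ℝ) (S A : Finset V) (t U : V × ℕ → Lab) (τ : ℝ) :
    lW κ S (t, U) τ A = ∏ i ∈ ringsB S t τ,
      (1 + (κ (ringT ((t, U) : Om V) i.1 i.2) * sp A i.1) * (2 * (U i : ℝ) - 1)) := by
  unfold lW ringsB
  rw [Finset.prod_filter, Finset.prod_product]
  refine Finset.prod_congr rfl fun v hv => ?_
  rw [likV_eq_prod]
  refine Finset.prod_congr rfl fun n hn => ?_
  have hiff : before ((t, U) : Om V) v n τ ↔ before ((t, t) : Om V) v n τ := Iff.rfl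
  by_cases hb : before ((t, U) : Om V) v n τ
  · rw [if_pos hb, if_pos (hiff.1 hb)]
    simp only [xR]
    ring
  · rw [if_neg hb, if_neg (fun h => hb (hiff.2 h))]

/-- Integrating out the rings of `W ∖ W₀`. -/
lemma lintegral_lW_sub {κ : ℝ → ℝ} (hκ : IsStrength κ) {W₀ W : Finset V} (hs : W₀ ⊆ W) (τ : ℝ)
    (t : V × ℕ → Lab) (A : Finset V) {F : (V × ℕ → Lab) → ℝ≥0∞} (hF : Measurable F)
    (hdep : ∀ U U' : V × ℕ → Lab, (∀ v ∈ W₀, ∀ n, U (v, n) = U' (v, n)) → F U = F U') :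
    ∫⁻ U, F U * ENNReal.ofReal (lW κ W (t, U) τ A) ∂(lam (V × ℕ)) =
      ∫⁻ U, F U * ENNReal.ofReal (lW κ W₀ (t, U) τ A) ∂(lam (V × ℕ)) := by
  classical
  set S : Finset (V × ℕ) := ringsB (W \ W₀) t τ with hS
  have hSout : ∀ i ∈ S, i.1 ∉ W₀ := by
    rintro ⟨v, n⟩ hi
    have := ((mem_ringsB (U := t)).1 hi).1
    exact (Finset.mem_sdiff.1 this).2
  set a : V × ℕ → ℝ := fun i => κ ((i.2 : ℝ) + 2 * (t i : ℝ)) * sp A i.1 with ha
  have hadm : ∀ i ∈ S, |a i| ≤ 1 / 2 := by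
    intro i _
    simp only [ha, abs_mul]
    have h1 : |sp A i.1| = 1 := by
      rcases sp_eq_or A i.1 with h | h <;> simp [h]
    rw [h1, mul_one, abs_of_nonneg (hκ.nonneg _)]
    exact hκ.le _
  have hsplit : ∀ U, ENNReal.ofReal (lW κ W (t, U) τ A) =
      ENNReal.ofReal (lW κ W₀ (t, U) τ A) *
        ∏ i ∈ S, ENNReal.ofReal (1 + a i * (2 * (U i : ℝ) - 1)) := by
    intro U
    have e1 : lW κ W (t, U) τ A = lW κ W₀ (t, U) τ A * lW κ (W \ W₀) (t, U) τ A := by
      unfold lW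
      rw [mul_comm, Finset.prod_sdiff hs]
    rw [e1, ENNReal.ofReal_mul (lW_pos hκ _ _ _ _).le, lW_eq_prod_rings κ (W \ W₀) A t U τ]
    congr 1
    rw [ENNReal.ofReal_prod_of_nonneg]
    · rfl
    · intro i hi
      have h := hadm i hi
      have h2 := abs_two_mul_sub_one_le (U i)
      have h3 : |a i * (2 * (U i : ℝ) - 1)| ≤ 1 / 2 := by
        rw [abs_mul]
        calc |a i| * |2 * (U i : ℝ) - 1| ≤ (1 / 2) * 1 := by gcongr
          _ = 1 / 2 := by norm_num
      have h4 := (abs_le.1 h3).1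
      change 0 ≤ 1 + κ ((i.2 : ℝ) + 2 * (t i : ℝ)) * sp A i.1 * (2 * (U i : ℝ) - 1)
      simp only [ha] at h4
      linarith
  simp only [hsplit, ← mul_assoc]
  refine lintegral_tilt S a hadm ?_ ?_
  · exact hF.mul (ENNReal.measurable_ofReal.comp (Finset.measurable_prod _ fun v _ =>
      (measurable_likV hκ.meas τ v _).comp (measurable_pair_snd t)))
  · intro U i hi s
    have h1 : ∀ v ∈ W₀, ∀ n, Function.update U i s (v, n) = U (v, n) := by
      intro v hv n
      rw [Function.update_of_ne]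
      intro h
      exact hSout i hi (h ▸ hv)
    rw [hdep _ _ h1, lW_congr_U (κ := κ) (t := t) (τ := τ) (A := A) h1]

/-- Total mass of a pattern. -/
lemma lintegral_lW {κ : ℝ → ℝ} (hκ : IsStrength κ) (W : Finset V) (τ : ℝ) (t : V × ℕ → Lab)
    (A : Finset V) : ∫⁻ U, ENNReal.ofReal (lW κ W (t, U) τ A) ∂(lam (V × ℕ)) = 1 := by
  have := lintegral_lW_sub hκ (Finset.empty_subset W) τ t A (F := fun _ => 1) measurable_const
    (fun _ _ _ => rfl)
  simpa [lW] using this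

/-! ### The planted expectation -/

/-- Expectation under the planted measure `P(A, dω) = bw(A) lW(A,ω) dPP`. -/
noncomputable def EP (G : SimpleGraph V) (θ : ℝ) (κ : ℝ → ℝ) (W : Finset V) (τ : ℝ)
    (f : Finset V → Om V → ℝ≥0∞) : ℝ≥0∞ :=
  ∑ A ∈ W.powerset, ENNReal.ofReal (bw G θ W A) * ∫⁻ ω, f A ω * ENNReal.ofReal (lW κ W ω τ A) ∂(PP V)

lemma measurable_lW {κ : ℝ → ℝ} (hκ : Measurable κ) (W : Finset V) (τ : ℝ) (A : Finset V) :
    Measurable fun ω : Om V => lW κ W ω τ A :=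
  Finset.measurable_prod _ fun v _ => measurable_likV hκ τ v _

/-- The planted expectation as an integral of the pointwise sum. -/
lemma EP_eq_lintegral {θ : ℝ} {κ : ℝ → ℝ} (hκ : IsStrength κ) (W : Finset V) (τ : ℝ)
    {f : Finset V → Om V → ℝ≥0∞} (hf : ∀ A, Measurable (f A)) :
    EP G θ κ W τ f = ∫⁻ ω, ∑ A ∈ W.powerset, ENNReal.ofReal (bw G θ W A) *
      (f A ω * ENNReal.ofReal (lW κ W ω τ A)) ∂(PP V) := by
  unfold EP
  have hm : ∀ A, Measurable fun ω : Om V => f A ω * ENNReal.ofReal (lW κ W ω τ A) := fun A =>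
    (hf A).mul (ENNReal.measurable_ofReal.comp (measurable_lW hκ.meas W τ A))
  rw [lintegral_finsetSum _ fun A _ => (hm A).const_mul _]
  refine Finset.sum_congr rfl fun A _ => ?_
  rw [lintegral_const_mul _ (hm A)]

/-- `φ` times the likelihood: functions of `ω` alone. -/
lemma lintegral_mul_lik {θ : ℝ} {κ : ℝ → ℝ} (hκ : IsStrength κ) (h0 : 0 ≤ θ) (h1 : θ < 1)
    (W : Finset V) (τ : ℝ) {φ : Om V → ℝ≥0∞} (hφ : Measurable φ) :
    ∫⁻ ω, φ ω * ENNReal.ofReal (lik G θ κ W ω τ) ∂(PP V) = EP G θ κ W τ (fun _ ω => φ ω) := by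
  rw [EP_eq_lintegral hκ W τ (fun _ => hφ)]
  refine lintegral_congr fun ω => ?_
  rw [lik_eq_sum, ENNReal.ofReal_sum_of_nonneg
    (fun A _ => (mul_pos (bw_pos h0 h1) (lW_pos hκ W ω τ A)).le), Finset.mul_sum]
  refine Finset.sum_congr rfl fun A _ => ?_
  rw [ENNReal.ofReal_mul (bw_pos h0 h1).le]
  ring

lemma lintegral_PP {F : Om V → ℝ≥0∞} (hF : Measurable F) :
    ∫⁻ ω, F ω ∂(PP V) = ∫⁻ t, ∫⁻ U, F (t, U) ∂(lam (V × ℕ)) ∂(lam (V × ℕ)) :=
  lintegral_prod F hF.aemeasurable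

/-- **Sub-windows of the planted measure.** -/
theorem planted_sub (hT : G.IsTree) {W₀ W : Finset V} (h0W : IsWin G W₀) (hW : IsWin G W)
    (hs : W₀ ⊆ W) {θ : ℝ} {κ : ℝ → ℝ} (hθ0 : 0 ≤ θ) (hθ1 : θ < 1) (hκ : IsStrength κ) (τ : ℝ)
    {f : Finset V → Om V → ℝ≥0∞} (hf : ∀ A, Measurable (f A))
    (hfA : ∀ A ω, f (A ∩ W₀) ω = f A ω)
    (hfU : ∀ A t (U U' : V × ℕ → Lab), (∀ v ∈ W₀, ∀ n, U (v, n) = U' (v, n)) →
      f A (t, U) = f A (t, U')) :
    EP G θ κ W τ f = EP G θ κ W₀ τ f := by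
  classical
  unfold EP
  set g : Finset V → ℝ≥0∞ := fun A₀ => ∫⁻ ω, f A₀ ω * ENNReal.ofReal (lW κ W₀ ω τ A₀) ∂(PP V) with hg
  have step1 : ∀ A, ∫⁻ ω, f A ω * ENNReal.ofReal (lW κ W ω τ A) ∂(PP V) = g (A ∩ W₀) := by
    intro A
    have hm1 : Measurable fun ω : Om V => f A ω * ENNReal.ofReal (lW κ W ω τ A) :=
      (hf A).mul (ENNReal.measurable_ofReal.comp (measurable_lW hκ.meas W τ A))
    have hm2 : Measurable fun ω : Om V => f A ω * ENNReal.ofReal (lW κ W₀ ω τ A) :=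
      (hf A).mul (ENNReal.measurable_ofReal.comp (measurable_lW hκ.meas W₀ τ A))
    have e : ∫⁻ ω, f A ω * ENNReal.ofReal (lW κ W ω τ A) ∂(PP V) =
        ∫⁻ ω, f A ω * ENNReal.ofReal (lW κ W₀ ω τ A) ∂(PP V) := by
      rw [lintegral_PP hm1, lintegral_PP hm2]
      refine lintegral_congr fun t => ?_
      exact lintegral_lW_sub hκ hs τ t A ((hf A).comp (measurable_pair_snd t)) (hfU A t)
    rw [e]
    simp only [hg, hfA, lW_inter]
  simp only [step1]
  have hmaps : ∀ A ∈ W.powerset, A ∩ W₀ ∈ W₀.powerset := fun A _ =>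
    Finset.mem_powerset.2 Finset.inter_subset_right
  rw [← Finset.sum_fiberwise_of_maps_to hmaps]
  refine Finset.sum_congr rfl fun A₀ hA₀ => ?_
  have e1 : ∀ A ∈ W.powerset.filter (fun A => A ∩ W₀ = A₀),
      ENNReal.ofReal (bw G θ W A) * g (A ∩ W₀) = ENNReal.ofReal (bw G θ W A) * g A₀ := by
    intro A hA
    rw [(Finset.mem_filter.1 hA).2]
  rw [Finset.sum_congr rfl e1, ← Finset.sum_mul, ← ENNReal.ofReal_sum_of_nonneg
    (fun A _ => (bw_pos hθ0 hθ1).le), sum_bw_marginal hT h0W hW hs A₀ (Finset.mem_powerset.1 hA₀)]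

/-- **Consistency.** -/
theorem lintegral_field_sub (hT : G.IsTree) {W₀ W : Finset V} (h0W : IsWin G W₀) (hW : IsWin G W)
    (hs : W₀ ⊆ W) {θ : ℝ} {κ : ℝ → ℝ} (hθ0 : 0 ≤ θ) (hθ1 : θ < 1) (hκ : IsStrength κ) (τ : ℝ)
    {Ψ : (V → ℝ) → ℝ≥0∞} (hΨ : Measurable Ψ) (hdep : ∀ h h' : V → ℝ, (∀ v ∈ W₀, h v = h' v) → Ψ h = Ψ h') :
    ∫⁻ ω, Ψ (field G θ κ W ω τ) ∂(PP V) = ∫⁻ ω, Ψ (field G θ κ W₀ ω τ) ∂(PP V) := by
  have hm : Measurable fun ω : Om V => Ψ (field0W κ W₀ ω τ) := hΨ.comp (measurable_field0W hκ.meas W₀ τ)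
  have e : ∀ ω : Om V, Ψ (field0W κ W ω τ) = Ψ (field0W κ W₀ ω τ) := by
    intro ω
    refine hdep _ _ fun v hv => ?_
    simp [field0W, hv, hs hv]
  rw [lintegral_field_eq hT hW hθ0 hθ1 hκ τ hΨ, lintegral_field_eq hT h0W hθ0 hθ1 hκ τ hΨ]
  simp only [e]
  rw [lintegral_mul_lik hκ hθ0 hθ1 W τ hm, lintegral_mul_lik hκ hθ0 hθ1 W₀ τ hm]
  refine planted_sub hT h0W hW hs hθ0 hθ1 hκ τ (fun _ => hm) (fun _ _ => rfl) ?_
  intro _ t U U' hU
  refine congrArg Ψ ?_
  funext v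
  simp only [field0W]
  by_cases hv : v ∈ W₀
  · rw [if_pos hv, if_pos hv]
    exact field0_congr_U fun n _ => hU v hv n
  · rw [if_neg hv, if_neg hv]

end Crest.Agent.Lib.IsingFIID
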