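/-
Row 160 (S0241), task LA, part 3: own-site information `exists_own_bound`.  See BLUEPRINT.md §2.
Under the planted measure `E(1-m_v²) ≤ E(s_v - tanh h_v)²`, which only sees the rings of `v` and the
(fair) marginal spin of `v`; the result is `≤ E √(L₊L₋)`, a product over independent rounds.
-/
import Crest.Agent.Lib.IsingFIID.Planted

set_option autoImplicit false
set_option linter.unusedSectionVars false
set_option linter.unusedVariables false

namespace Crest.Agent.Lib.IsingFIID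

open MeasureTheory Filter Topology Set SimpleGraph
open scoped ENNReal

variable {V : Type*} [DecidableEq V] {G : SimpleGraph V}

/-! ### The singleton window -/

/-- The planted expectation on a singleton window. -/
lemma EP_singleton {θ : ℝ} {κ : ℝ → ℝ} (v : V) (τ : ℝ) (f : Finset V → Om V → ℝ≥0∞) :
    EP G θ κ {v} τ f =
      (1 / 2 : ℝ≥0∞) * ∫⁻ ω, f ∅ ω * ENNReal.ofReal (likV κ ω τ v (-1)) ∂(PP V) +
      (1 / 2 : ℝ≥0∞) * ∫⁻ ω, f {v} ω * ENNReal.ofReal (likV κ ω τ v 1) ∂(PP V) := by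
  classical
  unfold EP
  have hv : ({v} : Finset V) = insert v ∅ := rfl
  rw [hv, Finset.sum_powerset_insert (Finset.notMem_empty v)]
  simp only [Finset.powerset_empty, Finset.sum_singleton]
  have e1 : ∀ A : Finset V, bw G θ (insert v ∅) A = 1 / 2 := fun A => bw_singleton θ v A
  have e2 : ENNReal.ofReal (1 / 2 : ℝ) = 1 / 2 := by
    rw [ENNReal.ofReal_div_of_pos (by norm_num)]
    simp
  rw [e1, e1, e2]
  have l1 : ∀ ω : Om V, lW κ (insert v ∅) ω τ ∅ = likV κ ω τ v (-1) := by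
    intro ω
    simp [lW, sp]
  have l2 : ∀ ω : Om V, lW κ (insert v ∅) ω τ (insert v ∅) = likV κ ω τ v 1 := by
    intro ω
    simp [lW, sp]
  simp only [l1, l2]

/-! ### Pointwise identities -/

/-- Second moment around `c` of the posterior. -/
lemma sum_bw_lW_sub_sq {κ : ℝ → ℝ} (hκ : IsStrength κ) {θ : ℝ} (h0 : 0 ≤ θ) (h1 : θ < 1) (W : Finset V)
    (ω : Om V) (τ : ℝ) (v : V) (c : ℝ) :
    ∑ A ∈ W.powerset, bw G θ W A * ((sp A v - c) ^ 2 * lW κ W ω τ A) =
      lik G θ κ W ω τ * (1 - 2 * gm G θ W (field0W κ W ω τ) v * c + c ^ 2) := by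
  have e := gm_field0W_mul_lik (G := G) hκ h0 h1 W ω τ v
  have e1 : ∀ A ∈ W.powerset, bw G θ W A * ((sp A v - c) ^ 2 * lW κ W ω τ A) =
      (1 + c ^ 2) * (bw G θ W A * lW κ W ω τ A) - 2 * c * (bw G θ W A * lW κ W ω τ A * sp A v) := by
    intro A _
    have := sp_sq A v
    have e2 : (sp A v - c) ^ 2 = 1 + c ^ 2 - 2 * c * sp A v := by
      rw [sub_sq, this]; ring
    rw [e2]; ring
  rw [Finset.sum_congr rfl e1, Finset.sum_sub_distrib, ← Finset.mul_sum, ← Finset.mul_sum, ← e,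
    ← lik_eq_sum]
  ring

/-- The own-site inequality at the level of the planted expectation: any predictor `c` of `s_v` does
at most as well as the posterior mean. -/
theorem ofReal_integral_le_EP (hT : G.IsTree) {W : Finset V} (hW : IsWin G W) {θ : ℝ} {κ : ℝ → ℝ}
    (h0 : 0 ≤ θ) (h1 : θ < 1) (hκ : IsStrength κ) (τ : ℝ) (v : V) {c : Om V → ℝ} (hc : Measurable c) :
    ENNReal.ofReal (∫ ω, (1 - mW G θ κ W ω τ v ^ 2) ∂(PP V)) ≤
      EP G θ κ W τ (fun A ω => ENNReal.ofReal ((sp A v - c ω) ^ 2)) := by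
  have hΨ : Measurable fun h : V → ℝ => ENNReal.ofReal (1 - gm G θ W h v ^ 2) :=
    ENNReal.measurable_ofReal.comp (measurable_const.sub ((measurable_gm W v).pow_const 2))
  have hmf : Measurable fun ω : Om V => field G θ κ W ω τ := by
    rw [measurable_pi_iff]
    intro u
    exact (measurable_field hκ.meas u).comp (measurable_const.prodMk measurable_id)
  have hmW : Measurable fun ω : Om V => mW G θ κ W ω τ v := (measurable_gm W v).comp hmf
  have hb : ∀ ω, |mW G θ κ W ω τ v| ≤ 1 := fun ω => abs_gm_le h0 h1 _ _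
  have hnn : ∀ ω, 0 ≤ 1 - mW G θ κ W ω τ v ^ 2 := by
    intro ω
    have := hb ω
    have h2 : mW G θ κ W ω τ v ^ 2 ≤ 1 := by
      rw [← sq_abs]
      exact pow_le_one₀ (abs_nonneg _) this
    linarith
  have hint : Integrable (fun ω => 1 - mW G θ κ W ω τ v ^ 2) (PP V) := by
    refine Integrable.of_bound (measurable_const.sub (hmW.pow_const 2)).aestronglyMeasurable 1 ?_
    refine Eventually.of_forall fun ω => ?_
    have h := hnn ω
    rw [Real.norm_of_nonneg h]
    have := sq_nonneg (mW G θ κ W ω τ v)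
    linarith
  rw [ofReal_integral_eq_lintegral_ofReal hint (Eventually.of_forall hnn)]
  have e := lintegral_field_eq hT hW h0 h1 hκ τ hΨ
  simp only [mW]
  rw [e, EP_eq_lintegral hκ W τ]
  swap
  · intro A
    exact ENNReal.measurable_ofReal.comp ((measurable_const.sub hc).pow_const 2)
  refine lintegral_mono fun ω => ?_
  set m := gm G θ W (field0W κ W ω τ) v with hm
  have hlik := lik_pos (G := G) hκ h0 h1 W ω τ
  have hm1 : |m| ≤ 1 := abs_gm_le h0 h1 _ _
  have hsum := sum_bw_lW_sub_sq (G := G) hκ h0 h1 W ω τ v (c ω)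
  rw [← hm] at hsum
  have hmain : (1 - m ^ 2) * lik G θ κ W ω τ ≤
      ∑ A ∈ W.powerset, bw G θ W A * ((sp A v - c ω) ^ 2 * lW κ W ω τ A) := by
    rw [hsum]
    nlinarith [sq_nonneg (m - c ω)]
  have hnn2 : 0 ≤ 1 - m ^ 2 := by
    have h2 : m ^ 2 ≤ 1 := by
      rw [← sq_abs]
      exact pow_le_one₀ (abs_nonneg _) hm1
    linarith
  calc ENNReal.ofReal (1 - m ^ 2) * ENNReal.ofReal (lik G θ κ W ω τ)
      = ENNReal.ofReal ((1 - m ^ 2) * lik G θ κ W ω τ) := (ENNReal.ofReal_mul hnn2).symm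
    _ ≤ ENNReal.ofReal (∑ A ∈ W.powerset, bw G θ W A * ((sp A v - c ω) ^ 2 * lW κ W ω τ A)) :=
        ENNReal.ofReal_le_ofReal hmain
    _ = _ := by
        rw [ENNReal.ofReal_sum_of_nonneg]
        · refine Finset.sum_congr rfl fun A _ => ?_
          rw [ENNReal.ofReal_mul (bw_pos h0 h1).le, ENNReal.ofReal_mul (sq_nonneg _)]
        · intro A _
          exact mul_nonneg (bw_pos h0 h1).le (mul_nonneg (sq_nonneg _) (lW_pos hκ W ω τ A).le)

/-! ### The tanh predictor -/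

lemma tanh_field0 {κ : ℝ → ℝ} (hκ : IsStrength κ) (ω : Om V) (τ : ℝ) (v : V) :
    Real.tanh (field0 κ ω τ v) =
      (likV κ ω τ v 1 - likV κ ω τ v (-1)) / (likV κ ω τ v 1 + likV κ ω τ v (-1)) := by
  have h1 := exp_field0_mul hκ ω τ v (s := 1) (Or.inl rfl)
  have h2 := exp_field0_mul hκ ω τ v (s := -1) (Or.inr rfl)
  rw [mul_one] at h1
  rw [mul_neg_one] at h2
  have hc := cV_pos hκ ω τ v
  rw [Real.tanh_eq_sinh_div_cosh, Real.sinh_eq, Real.cosh_eq, h1, h2]
  have hL1 := likV_pos hκ ω τ v (s := 1) (Or.inl rfl)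
  have hL2 := likV_pos hκ ω τ v (s := -1) (Or.inr rfl)
  field_simp

/-- The harmonic mean of the two likelihoods is at most their geometric mean. -/
lemma own_pointwise {a b R : ℝ} (ha : 0 < a) (hb : 0 < b) (hR : 0 ≤ R) (hR2 : R ^ 2 = a * b) :
    (1 / 2) * (((-1) - (a - b) / (a + b)) ^ 2 * b) + (1 / 2) * ((1 - (a - b) / (a + b)) ^ 2 * a) ≤ R := by
  have hab : 0 < a + b := by linarith
  have e : (1 / 2) * (((-1) - (a - b) / (a + b)) ^ 2 * b) + (1 / 2) * ((1 - (a - b) / (a + b)) ^ 2 * a) =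
      2 * (a * b) / (a + b) := by
    field_simp
    ring
  rw [e, div_le_iff₀ hab, ← hR2]
  nlinarith [sq_nonneg (a - b), sq_nonneg (a + b - 2 * R), mul_nonneg hR hR,
    mul_nonneg hR hab.le, sq_nonneg (a + b)]

/-! ### Independent rounds -/

/-- One coordinate factors out. -/
lemma lintegral_mul_coord {I : Type*} [DecidableEq I] (i : I) {F : (I → Lab) → ℝ≥0∞} (hF : Measurable F)
    (hdep : ∀ U s, F (Function.update U i s) = F U) {g : Lab → ℝ≥0∞} (hg : Measurable g) :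
    ∫⁻ U, F U * g (U i) ∂(lam I) = (∫⁻ U, F U ∂(lam I)) * ∫⁻ s, g s := by
  have hm : Measurable fun U : I → Lab => F U * g (U i) := hF.mul (hg.comp (measurable_pi_apply i))
  rw [Crest.Agent.Lib.SRF.lintegral_resample i hm, ← lintegral_mul_const _ hF]
  refine lintegral_congr fun U => ?_
  simp only [Function.update_self, hdep]
  exact lintegral_const_mul _ hg

/-- Product over rounds of the labels at a vertex. -/
lemma lintegral_prod_rounds (v : V) (g : ℕ → Lab → Lab → ℝ≥0∞)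
    (hg : ∀ n, Measurable fun p : Lab × Lab => g n p.1 p.2) (M : ℕ) :
    ∫⁻ ω, ∏ n ∈ Finset.range M, g n (ω.1 (v, n)) (ω.2 (v, n)) ∂(PP V) =
      ∏ n ∈ Finset.range M, ∫⁻ s : Lab, ∫⁻ u : Lab, g n s u := by
  classical
  have hgc : ∀ n (i : V × ℕ), Measurable fun ω : Om V => g n (ω.1 i) (ω.2 i) := by
    intro n i
    have h : Measurable fun ω : Om V => ((ω.1 i, ω.2 i) : Lab × Lab) :=
      ((measurable_pi_apply i).comp measurable_fst).prodMk
        ((measurable_pi_apply i).comp measurable_snd)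
    exact (hg n).comp h
  induction M with
  | zero => simp
  | succ M ih =>
    simp only [Finset.prod_range_succ]
    rw [← ih]
    set i : V × ℕ := (v, M) with hi
    set F : Om V → ℝ≥0∞ := fun ω => ∏ n ∈ Finset.range M, g n (ω.1 (v, n)) (ω.2 (v, n)) with hF
    have hFm : Measurable F := Finset.measurable_prod _ fun n _ => hgc n (v, n)
    have hne : ∀ n ∈ Finset.range M, (v, n) ≠ i := by
      intro n hn h
      have := (Prod.ext_iff.1 h).2
      simp only [hi] at this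
      exact (Finset.mem_range.1 hn).ne this
    have hdepU : ∀ (t U : V × ℕ → Lab) (u : Lab), F (t, Function.update U i u) = F (t, U) := by
      intro t U u
      refine Finset.prod_congr rfl fun n hn => ?_
      simp only [Function.update_of_ne (hne n hn)]
    have hdept : ∀ (t U : V × ℕ → Lab) (s : Lab), F (Function.update t i s, U) = F (t, U) := by
      intro t U s
      refine Finset.prod_congr rfl fun n hn => ?_
      simp only [Function.update_of_ne (hne n hn)]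
    have hm1 : Measurable fun ω : Om V => F ω * g M (ω.1 i) (ω.2 i) := hFm.mul (hgc M i)
    rw [lintegral_PP hm1, lintegral_PP hFm]
    set Fb : (V × ℕ → Lab) → ℝ≥0∞ := fun t => ∫⁻ U, F (t, U) ∂(lam (V × ℕ)) with hFb
    have hFbm : Measurable Fb :=
      Measurable.lintegral_prod_right' (f := fun p : (V × ℕ → Lab) × (V × ℕ → Lab) => F p) hFm
    have hGm : Measurable fun s : Lab => ∫⁻ u : Lab, g M s u :=
      Measurable.lintegral_prod_right' (f := fun p : Lab × Lab => g M p.1 p.2) (hg M)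
    have step1 : ∀ t : V × ℕ → Lab, ∫⁻ U, F (t, U) * g M (t i) (U i) ∂(lam (V × ℕ)) =
        Fb t * ∫⁻ u : Lab, g M (t i) u := by
      intro t
      refine lintegral_mul_coord i (hFm.comp (measurable_pair_snd t)) (fun U u => hdepU t U u) ?_
      exact (hg M).comp (measurable_const.prodMk measurable_id)
    simp only [step1]
    refine lintegral_mul_coord i (g := fun s => ∫⁻ u : Lab, g M s u) hFbm ?_ hGm
    intro t s
    simp only [hFb, hdept]

/-! ### The round factor -/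

/-- Round factor of `√(L₊L₋)`. -/
noncomputable def rootR (κ : ℝ → ℝ) (τ : ℝ) (n : ℕ) (s u : Lab) : ℝ :=
  if (s : ℝ) < 1 / 2 ∧ (n : ℝ) + 2 * (s : ℝ) < τ then
    Real.sqrt (1 - (κ ((n : ℝ) + 2 * (s : ℝ)) * (2 * (u : ℝ) - 1)) ^ 2)
  else 1

lemma rootR_nonneg (κ : ℝ → ℝ) (τ : ℝ) (n : ℕ) (s u : Lab) : 0 ≤ rootR κ τ n s u := by
  unfold rootR
  split_ifs
  · exact Real.sqrt_nonneg _
  · exact zero_le_one

lemma rootR_le_one (κ : ℝ → ℝ) (τ : ℝ) (n : ℕ) (s u : Lab) : rootR κ τ n s u ≤ 1 := by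
  unfold rootR
  split_ifs
  · refine Real.sqrt_le_one.2 ?_
    have := sq_nonneg (κ ((n : ℝ) + 2 * (s : ℝ)) * (2 * (u : ℝ) - 1))
    linarith
  · exact le_rfl

lemma measurable_rootR {κ : ℝ → ℝ} (hκ : Measurable κ) (τ : ℝ) (n : ℕ) :
    Measurable fun p : Lab × Lab => rootR κ τ n p.1 p.2 := by
  unfold rootR
  have hs : Measurable fun p : Lab × Lab => (p.1 : ℝ) := measurable_subtype_coe.comp measurable_fst
  have hu : Measurable fun p : Lab × Lab => (p.2 : ℝ) := measurable_subtype_coe.comp measurable_snd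
  refine Measurable.ite ?_ ?_ measurable_const
  · exact (measurableSet_lt hs measurable_const).inter
      (measurableSet_lt (measurable_const.add (measurable_const.mul hs)) measurable_const)
  · refine Real.continuous_sqrt.measurable.comp (measurable_const.sub (Measurable.pow_const ?_ 2))
    exact (hκ.comp (measurable_const.add (measurable_const.mul hs))).mul
      ((measurable_const.mul hu).sub measurable_const)

/-- The root of the product of the two likelihoods is a product of round factors. -/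
lemma likV_mul_eq_sq {κ : ℝ → ℝ} (hκ : IsStrength κ) (ω : Om V) (τ : ℝ) (v : V) :
    likV κ ω τ v 1 * likV κ ω τ v (-1) =
      (∏ n ∈ Finset.range ⌈τ⌉₊, rootR κ τ n (ω.1 (v, n)) (ω.2 (v, n))) ^ 2 := by
  classical
  rw [likV_eq_prod, likV_eq_prod, ← Finset.prod_mul_distrib, ← Finset.prod_pow]
  refine Finset.prod_congr rfl fun n _ => ?_
  have hiff : before ω v n τ ↔ ((ω.1 (v, n) : ℝ) < 1 / 2 ∧ (n : ℝ) + 2 * (ω.1 (v, n) : ℝ) < τ) := Iff.rfl
  unfold rootR
  by_cases hb : before ω v n τ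
  · rw [if_pos hb, if_pos hb, if_pos (hiff.1 hb)]
    have hpos := one_sub_xR_sq_pos hκ ω v n
    rw [Real.sq_sqrt]
    · simp only [xR, ringT]
      ring
    · exact hpos.le
  · rw [if_neg hb, if_neg hb, if_neg (fun h => hb (hiff.2 h))]
    norm_num

lemma measurable_tanhL : Measurable Real.tanh := by
  have : Real.tanh = fun x => Real.sinh x / Real.cosh x := funext Real.tanh_eq_sinh_div_cosh
  rw [this]
  exact Real.measurable_sinh.div Real.measurable_cosh

/-- **Own-site bound for a general strength.** -/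
theorem own_bound_rounds (hT : G.IsTree) {W : Finset V} (hW : IsWin G W) {θ : ℝ} {κ : ℝ → ℝ}
    (h0 : 0 ≤ θ) (h1 : θ < 1) (hκ : IsStrength κ) (τ : ℝ) {v : V} (hv : v ∈ W) :
    ENNReal.ofReal (∫ ω, (1 - mW G θ κ W ω τ v ^ 2) ∂(PP V)) ≤
      ∏ n ∈ Finset.range ⌈τ⌉₊, ∫⁻ s : Lab, ∫⁻ u : Lab, ENNReal.ofReal (rootR κ τ n s u) := by
  classical
  set c : Om V → ℝ := fun ω => Real.tanh (field0 κ ω τ v) with hc
  have hcm : Measurable c := measurable_tanhL.comp (measurable_field0 hκ.meas τ v)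
  have hfm : ∀ A : Finset V, Measurable fun ω : Om V => ENNReal.ofReal ((sp A v - c ω) ^ 2) := fun A =>
    ENNReal.measurable_ofReal.comp ((measurable_const.sub hcm).pow_const 2)
  refine (ofReal_integral_le_EP hT hW h0 h1 hκ τ v hcm).trans ?_
  have hsub : ({v} : Finset V) ⊆ W := Finset.singleton_subset_iff.2 hv
  rw [planted_sub hT (isWin_singleton v) hW hsub h0 h1 hκ τ hfm ?_ ?_]
  rotate_left
  · intro A ω
    simp only [sp_inter A {v} (Finset.mem_singleton_self v)]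
  · intro A t U U' hU
    have : c (t, U) = c (t, U') := by
      simp only [hc]
      rw [field0_congr_U (fun n _ => hU v (Finset.mem_singleton_self v) n)]
    simp only [this]
  rw [EP_singleton]
  have hsp1 : sp (∅ : Finset V) v = -1 := by simp [sp]
  have hsp2 : sp ({v} : Finset V) v = 1 := by simp [sp]
  simp only [hsp1, hsp2]
  have hL : ∀ s : ℝ, Measurable fun ω : Om V => ENNReal.ofReal (likV κ ω τ v s) := fun s =>
    ENNReal.measurable_ofReal.comp (measurable_likV hκ.meas τ v s)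
  have hm1 : Measurable fun ω : Om V => ENNReal.ofReal ((-1 - c ω) ^ 2) * ENNReal.ofReal (likV κ ω τ v (-1)) :=
    (ENNReal.measurable_ofReal.comp ((measurable_const.sub hcm).pow_const 2)).mul (hL _)
  have hm2 : Measurable fun ω : Om V => ENNReal.ofReal ((1 - c ω) ^ 2) * ENNReal.ofReal (likV κ ω τ v 1) :=
    (ENNReal.measurable_ofReal.comp ((measurable_const.sub hcm).pow_const 2)).mul (hL _)
  rw [← lintegral_const_mul _ hm1, ← lintegral_const_mul _ hm2, ← lintegral_add_left (hm1.const_mul _)]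
  have hprod := lintegral_prod_rounds v (fun n s u => ENNReal.ofReal (rootR κ τ n s u))
    (fun n => ENNReal.measurable_ofReal.comp (measurable_rootR hκ.meas τ n)) ⌈τ⌉₊
  rw [← hprod]
  refine lintegral_mono fun ω => ?_
  set a := likV κ ω τ v 1 with ha
  set b := likV κ ω τ v (-1) with hb
  set R := ∏ n ∈ Finset.range ⌈τ⌉₊, rootR κ τ n (ω.1 (v, n)) (ω.2 (v, n)) with hR
  have hapos : 0 < a := likV_pos hκ ω τ v (Or.inl rfl)
  have hbpos : 0 < b := likV_pos hκ ω τ v (Or.inr rfl)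
  have hRnn : 0 ≤ R := Finset.prod_nonneg fun n _ => rootR_nonneg κ τ n _ _
  have hR2 : R ^ 2 = a * b := (likV_mul_eq_sq hκ ω τ v).symm
  have hpt := own_pointwise hapos hbpos hRnn hR2
  have hcω : c ω = (a - b) / (a + b) := tanh_field0 hκ ω τ v
  have hhalf : ENNReal.ofReal (1 / 2 : ℝ) = 1 / 2 := by
    rw [ENNReal.ofReal_div_of_pos (by norm_num)]
    simp
  have hRprod : ∏ n ∈ Finset.range ⌈τ⌉₊, ENNReal.ofReal (rootR κ τ n (ω.1 (v, n)) (ω.2 (v, n))) =
      ENNReal.ofReal R := by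
    rw [hR, ENNReal.ofReal_prod_of_nonneg fun n _ => rootR_nonneg κ τ n _ _]
  rw [hRprod]
  rw [← hcω] at hpt
  refine le_trans (le_of_eq ?_) (ENNReal.ofReal_le_ofReal hpt)
  have hnn1 : 0 ≤ (1 / 2 : ℝ) * ((-1 - c ω) ^ 2 * b) := by positivity
  have hnn2 : 0 ≤ (1 / 2 : ℝ) * ((1 - c ω) ^ 2 * a) := by positivity
  have e1 : ∀ x y : ℝ, ENNReal.ofReal ((1 / 2 : ℝ) * (x ^ 2 * y)) =
      1 / 2 * (ENNReal.ofReal (x ^ 2) * ENNReal.ofReal y) := by
    intro x y
    rw [ENNReal.ofReal_mul (by norm_num), ENNReal.ofReal_mul (sq_nonneg _), hhalf]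
  rw [ENNReal.ofReal_add hnn1 hnn2, e1, e1]

/-! ### Integrals over the unit interval -/

lemma integral_lab_quad (c : ℝ) : ∫ u : Lab, (1 - c * (2 * (u : ℝ) - 1) ^ 2) = 1 - c / 3 := by
  rw [integral_lab (g := fun x => 1 - c * (2 * x - 1) ^ 2)]
  have hd : ∀ x ∈ uIcc (0 : ℝ) 1, HasDerivAt (fun x : ℝ => x - c * (2 * x - 1) ^ 3 / 6)
      (1 - c * (2 * x - 1) ^ 2) x := by
    intro x _
    have h1 : HasDerivAt (fun x : ℝ => 2 * x - 1) 2 x := by
      simpa using ((hasDerivAt_id x).const_mul (2 : ℝ)).sub_const 1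
    have h2 := (h1.pow 3).const_mul c
    have h3 := (hasDerivAt_id x).sub (h2.div_const 6)
    have h5 : HasDerivAt (fun x : ℝ => x - c * (2 * x - 1) ^ 3 / 6)
        (1 - c * (((3 : ℕ) : ℝ) * (2 * x - 1) ^ (3 - 1) * 2) / 6) x := h3
    refine h5.congr_deriv ?_
    have e3 : (3 - 1 : ℕ) = 2 := rfl
    rw [e3]
    push_cast
    ring
  rw [intervalIntegral.integral_eq_sub_of_hasDerivAt hd]
  · norm_num
    ring
  · exact Continuous.intervalIntegrable (by fun_prop) _ _

lemma lintegral_lab_quad {c : ℝ} (h0 : 0 ≤ c) (h1 : c ≤ 1) :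
    ∫⁻ u : Lab, ENNReal.ofReal (1 - c * (2 * (u : ℝ) - 1) ^ 2) = ENNReal.ofReal (1 - c / 3) := by
  have hnn : ∀ u : Lab, 0 ≤ 1 - c * (2 * (u : ℝ) - 1) ^ 2 := by
    intro u
    have h2 : (2 * (u : ℝ) - 1) ^ 2 ≤ 1 := by
      rw [← sq_abs]
      exact pow_le_one₀ (abs_nonneg _) (abs_two_mul_sub_one_le u)
    nlinarith
  have hint : Integrable (fun u : Lab => 1 - c * (2 * (u : ℝ) - 1) ^ 2) := by
    refine Integrable.of_bound (Measurable.aestronglyMeasurable ?_) 1 ?_
    · exact measurable_const.sub (measurable_const.mul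
        (((measurable_const.mul measurable_subtype_coe).sub measurable_const).pow_const 2))
    · refine Eventually.of_forall fun u => ?_
      rw [Real.norm_of_nonneg (hnn u)]
      nlinarith [sq_nonneg (2 * (u : ℝ) - 1)]
  rw [← ofReal_integral_eq_lintegral_ofReal hint (Eventually.of_forall hnn), integral_lab_quad]

/-- The half of the unit interval. -/
lemma lintegral_lab_half (a : ℝ≥0∞) :
    ∫⁻ s : Lab, (if (s : ℝ) < 1 / 2 then a else 1) = a * (1 / 2) + 1 / 2 := by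
  let x : Lab := ⟨1 / 2, by norm_num, by norm_num⟩
  have hS : {s : Lab | (s : ℝ) < 1 / 2} = Iio x := rfl
  have hm : MeasurableSet {s : Lab | (s : ℝ) < 1 / 2} :=
    measurableSet_lt measurable_subtype_coe measurable_const
  have hv : (volume : Measure Lab) {s : Lab | (s : ℝ) < 1 / 2} = 1 / 2 := by
    rw [hS, unitInterval.volume_Iio]
    change ENNReal.ofReal (1 / 2 : ℝ) = 1 / 2
    rw [ENNReal.ofReal_div_of_pos (by norm_num)]
    simp
  have hvc : (volume : Measure Lab) ({s : Lab | (s : ℝ) < 1 / 2}ᶜ) = 1 / 2 := by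
    rw [prob_compl_eq_one_sub hm, hv, one_div, ENNReal.one_sub_inv_two]
  rw [← lintegral_add_compl _ hm]
  have e1 : ∫⁻ s in {s : Lab | (s : ℝ) < 1 / 2}, (if (s : ℝ) < 1 / 2 then a else 1) =
      ∫⁻ s in {s : Lab | (s : ℝ) < 1 / 2}, a := by
    refine setLIntegral_congr_fun hm fun s hs => ?_
    simp only [if_pos (show (s : ℝ) < 1 / 2 from hs)]
  have e2 : ∫⁻ s in {s : Lab | (s : ℝ) < 1 / 2}ᶜ, (if (s : ℝ) < 1 / 2 then a else 1) =
      ∫⁻ s in {s : Lab | (s : ℝ) < 1 / 2}ᶜ, 1 := by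
    refine setLIntegral_congr_fun hm.compl fun s hs => ?_
    simp only [if_neg (show ¬ (s : ℝ) < 1 / 2 from hs)]
  rw [e1, e2, setLIntegral_const, setLIntegral_const, hv, hvc, one_mul]

/-! ### Rounds at constant strength -/

lemma round_le_one (κ : ℝ → ℝ) (τ : ℝ) (n : ℕ) :
    ∫⁻ s : Lab, ∫⁻ u : Lab, ENNReal.ofReal (rootR κ τ n s u) ≤ 1 := by
  have h : ∀ s u : Lab, ENNReal.ofReal (rootR κ τ n s u) ≤ 1 := fun s u => by
    rw [ENNReal.ofReal_le_one]
    exact rootR_le_one κ τ n s u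
  calc ∫⁻ s : Lab, ∫⁻ u : Lab, ENNReal.ofReal (rootR κ τ n s u)
      ≤ ∫⁻ s : Lab, ∫⁻ u : Lab, 1 := lintegral_mono fun s => lintegral_mono fun u => h s u
    _ = 1 := by simp

lemma kap_eq_of_one_le {ε T : ℝ} (hT : 1 ≤ T) : kap ε T = ε := by
  unfold kap
  have : 1 ≤ Real.sqrt T := Real.one_le_sqrt.2 hT
  rw [min_eq_right this, mul_one]

lemma sqrt_one_sub_le {y : ℝ} (h0 : 0 ≤ y) (h1 : y ≤ 1) : Real.sqrt (1 - y) ≤ 1 - y / 2 := by
  refine Real.sqrt_le_iff.2 ⟨by linarith, ?_⟩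
  nlinarith [sq_nonneg y]

lemma round_le_good {ε τ : ℝ} (h0 : 0 < ε) (h1 : ε ≤ 1 / 2) {n : ℕ} (hn : 1 ≤ n) (hnτ : (n : ℝ) + 1 ≤ τ) :
    ∫⁻ s : Lab, ∫⁻ u : Lab, ENNReal.ofReal (rootR (kap ε) τ n s u) ≤ ENNReal.ofReal (1 - ε ^ 2 / 12) := by
  have hc0 : 0 ≤ ε ^ 2 / 2 := by positivity
  have hc1 : ε ^ 2 / 2 ≤ 1 := by nlinarith
  have hinner : ∀ s : Lab, ∫⁻ u : Lab, ENNReal.ofReal (rootR (kap ε) τ n s u) ≤
      if (s : ℝ) < 1 / 2 then ENNReal.ofReal (1 - (ε ^ 2 / 2) / 3) else 1 := by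
    intro s
    by_cases hs : (s : ℝ) < 1 / 2
    · rw [if_pos hs, ← lintegral_lab_quad hc0 hc1]
      refine lintegral_mono fun u => ENNReal.ofReal_le_ofReal ?_
      unfold rootR
      have hsn : (n : ℝ) + 2 * (s : ℝ) < τ := by linarith
      rw [if_pos ⟨hs, hsn⟩]
      have hT : (1 : ℝ) ≤ (n : ℝ) + 2 * (s : ℝ) := by
        have : (1 : ℝ) ≤ n := by exact_mod_cast hn
        have := s.2.1
        linarith
      rw [kap_eq_of_one_le hT, mul_pow]
      have h2 : (2 * (u : ℝ) - 1) ^ 2 ≤ 1 := by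
        rw [← sq_abs]
        exact pow_le_one₀ (abs_nonneg _) (abs_two_mul_sub_one_le u)
      have hy0 : 0 ≤ ε ^ 2 * (2 * (u : ℝ) - 1) ^ 2 := by positivity
      have hy1 : ε ^ 2 * (2 * (u : ℝ) - 1) ^ 2 ≤ 1 := by nlinarith [sq_nonneg (2 * (u : ℝ) - 1)]
      have := sqrt_one_sub_le hy0 hy1
      linarith
    · rw [if_neg hs]
      have : ∀ u : Lab, ENNReal.ofReal (rootR (kap ε) τ n s u) = 1 := by
        intro u
        unfold rootR
        rw [if_neg (fun h => hs h.1)]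
        simp
      simp only [this]
      simp
  refine (lintegral_mono hinner).trans ?_
  rw [lintegral_lab_half]
  refine le_of_eq ?_
  have hpos : 0 ≤ 1 - (ε ^ 2 / 2) / 3 := by linarith
  have hhalf : (1 / 2 : ℝ≥0∞) = ENNReal.ofReal (1 / 2) := by
    rw [ENNReal.ofReal_div_of_pos (by norm_num)]
    simp
  rw [hhalf, ← ENNReal.ofReal_mul hpos, ← ENNReal.ofReal_add (mul_nonneg hpos (by norm_num)) (by norm_num)]
  congr 1
  ring

/-- **Own-site information.** -/
theorem exists_own_bound {ε : ℝ} (h0 : 0 < ε) (h1 : ε ≤ 1 / 2) :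
    ∃ δ : ℝ → ℝ, Tendsto δ atTop (𝓝 0) ∧ ∀ τ, 0 ≤ δ τ ∧
      ∀ (V : Type _) [DecidableEq V] (G : SimpleGraph V) (_ : G.IsTree) (W : Finset V) (_ : IsWin G W) (θ : ℝ)
        (_ : 0 ≤ θ) (_ : θ < 1) (v : V), v ∈ W →
        ∫ ω, (1 - mW G θ (kap ε) W ω τ v ^ 2) ∂(PP V) ≤ δ τ := by
  set q : ℝ := 1 - ε ^ 2 / 12 with hq
  have hq0 : 0 ≤ q := by nlinarith
  have hq1 : q < 1 := by
    have : 0 < ε ^ 2 := by positivity
    linarith
  refine ⟨fun τ => q ^ (⌊τ⌋₊ - 1), ?_, fun τ => ⟨pow_nonneg hq0 _, ?_⟩⟩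
  · have h2 : Tendsto (fun τ : ℝ => ⌊τ⌋₊ - 1) atTop atTop :=
      (tendsto_sub_atTop_nat 1).comp tendsto_nat_floor_atTop
    exact (tendsto_pow_atTop_nhds_zero_of_lt_one hq0 hq1).comp h2
  · intro V _ G hT W hW θ hθ0 hθ1 v hv
    have hκ : IsStrength (kap ε) := isStrength_kap h0.le h1
    have hb := own_bound_rounds hT hW hθ0 hθ1 hκ τ hv
    have hsub : Finset.Ico 1 ⌊τ⌋₊ ⊆ Finset.range ⌈τ⌉₊ := by
      intro n hn
      have hn' := Finset.mem_Ico.1 hn
      refine Finset.mem_range.2 (lt_of_lt_of_le hn'.2 (Nat.floor_le_ceil τ))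
    have hle : ∏ n ∈ Finset.range ⌈τ⌉₊, ∫⁻ s : Lab, ∫⁻ u : Lab, ENNReal.ofReal (rootR (kap ε) τ n s u) ≤
        ∏ n ∈ Finset.Ico 1 ⌊τ⌋₊, ∫⁻ s : Lab, ∫⁻ u : Lab, ENNReal.ofReal (rootR (kap ε) τ n s u) :=
      Finset.prod_le_prod_of_subset_of_le_one' hsub fun n _ _ => round_le_one _ τ n
    have hle2 : ∏ n ∈ Finset.Ico 1 ⌊τ⌋₊, ∫⁻ s : Lab, ∫⁻ u : Lab, ENNReal.ofReal (rootR (kap ε) τ n s u) ≤
        ENNReal.ofReal q ^ (⌊τ⌋₊ - 1) := by
      have := Finset.prod_le_pow_card (Finset.Ico 1 ⌊τ⌋₊)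
        (fun n => ∫⁻ s : Lab, ∫⁻ u : Lab, ENNReal.ofReal (rootR (kap ε) τ n s u)) (ENNReal.ofReal q) ?_
      · simpa using this
      · intro n hn
        have hn' := Finset.mem_Ico.1 hn
        have hfl : 0 < ⌊τ⌋₊ := by omega
        have hτ0 : 0 ≤ τ := by
          have := Nat.floor_pos.1 hfl
          linarith
        have h3 : ((n + 1 : ℕ) : ℝ) ≤ τ := (Nat.le_floor_iff hτ0).1 hn'.2
        push_cast at h3
        exact round_le_good h0 h1 hn'.1 h3
    have hfinal := hb.trans (hle.trans hle2)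
    rw [← ENNReal.ofReal_pow hq0] at hfinal
    exact (ENNReal.ofReal_le_ofReal_iff (pow_nonneg hq0 _)).1 hfinal

end Crest.Agent.Lib.IsingFIID
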