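/-
Row 160 (S0241), task LA, part 4: the sign pattern of the means has nearly the Ising law
(`sign_law_approx`).  See BLUEPRINT.md §2.
-/
import Crest.Agent.Lib.IsingFIID.OwnSite

set_option autoImplicit false
set_option linter.unusedSectionVars false
set_option linter.unusedVariables false

namespace Crest.Agent.Lib.IsingFIID

open MeasureTheory Filter Topology Set SimpleGraph
open scoped ENNReal

variable {V : Type*} [DecidableEq V] {G : SimpleGraph V}

/-! ### Linearity of the planted expectation -/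

lemma EP_mono {θ : ℝ} {κ : ℝ → ℝ} {W : Finset V} {τ : ℝ} {f g : Finset V → Om V → ℝ≥0∞}
    (h : ∀ A ω, f A ω ≤ g A ω) : EP G θ κ W τ f ≤ EP G θ κ W τ g := by
  unfold EP
  refine Finset.sum_le_sum fun A _ => mul_le_mul_right ?_ _
  exact lintegral_mono fun ω => mul_le_mul_left (h A ω) _

lemma EP_add {θ : ℝ} {κ : ℝ → ℝ} {W : Finset V} {τ : ℝ} {f g : Finset V → Om V → ℝ≥0∞}
    (hκ : IsStrength κ) (hf : ∀ A, Measurable (f A)) :
    EP G θ κ W τ (fun A ω => f A ω + g A ω) = EP G θ κ W τ f + EP G θ κ W τ g := by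
  unfold EP
  rw [← Finset.sum_add_distrib]
  refine Finset.sum_congr rfl fun A _ => ?_
  rw [← mul_add, ← lintegral_add_left]
  · simp only [add_mul]
  · exact (hf A).mul (ENNReal.measurable_ofReal.comp (measurable_lW hκ.meas W τ A))

lemma EP_sum {θ : ℝ} {κ : ℝ → ℝ} {W : Finset V} {τ : ℝ} {ι : Type*} (S : Finset ι)
    {f : ι → Finset V → Om V → ℝ≥0∞} (hκ : IsStrength κ) (hf : ∀ i A, Measurable (f i A)) :
    EP G θ κ W τ (fun A ω => ∑ i ∈ S, f i A ω) = ∑ i ∈ S, EP G θ κ W τ (f i) := by
  classical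
  induction S using Finset.induction_on with
  | empty =>
    simp [EP]
  | insert i S hi ih =>
    simp only [Finset.sum_insert hi]
    rw [EP_add hκ (hf i), ih]

/-- The law of a pattern: the total mass of a function of the pattern alone. -/
lemma EP_const {θ : ℝ} {κ : ℝ → ℝ} {W : Finset V} {τ : ℝ} (hκ : IsStrength κ) (g : Finset V → ℝ≥0∞) :
    EP G θ κ W τ (fun A _ => g A) = ∑ A ∈ W.powerset, ENNReal.ofReal (bw G θ W A) * g A := by
  unfold EP
  refine Finset.sum_congr rfl fun A _ => ?_
  congr 1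
  have hm : Measurable fun ω : Om V => ENNReal.ofReal (lW κ W ω τ A) :=
    ENNReal.measurable_ofReal.comp (measurable_lW hκ.meas W τ A)
  change ∫⁻ ω, g A * ENNReal.ofReal (lW κ W ω τ A) ∂(PP V) = g A
  rw [lintegral_const_mul _ hm, lintegral_PP hm]
  simp only [lintegral_lW hκ W τ]
  simp

/-! ### The one-site error -/

/-- `E(1-m²)` in terms of the reference fields. -/
theorem ofReal_integral_one_sub_sq (hT : G.IsTree) {W : Finset V} (hW : IsWin G W) {θ : ℝ} {κ : ℝ → ℝ}
    (h0 : 0 ≤ θ) (h1 : θ < 1) (hκ : IsStrength κ) (τ : ℝ) (v : V) :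
    ENNReal.ofReal (∫ ω, (1 - mW G θ κ W ω τ v ^ 2) ∂(PP V)) =
      EP G θ κ W τ (fun A ω => ENNReal.ofReal (1 - sp A v * gm G θ W (field0W κ W ω τ) v)) := by
  have hΨ : Measurable fun h : V → ℝ => ENNReal.ofReal (1 - gm G θ W h v ^ 2) :=
    ENNReal.measurable_ofReal.comp (measurable_const.sub ((measurable_gm W v).pow_const 2))
  have hmf : Measurable fun ω : Om V => field G θ κ W ω τ := by
    rw [measurable_pi_iff]
    intro u
    exact (measurable_field hκ.meas u).comp (measurable_const.prodMk measurable_id)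
  have hmW : Measurable fun ω : Om V => mW G θ κ W ω τ v := (measurable_gm W v).comp hmf
  have hb : ∀ ω, |mW G θ κ W ω τ v| ≤ 1 := fun ω => abs_gm_le h0 h1 _ _
  have hnn : ∀ ω, 0 ≤ 1 - mW G θ κ W ω τ v ^ 2 := by
    intro ω
    have := hb ω
    have h2 : mW G θ κ W ω τ v ^ 2 ≤ 1 := by
      rw [← sq_abs]
      exact pow_le_one₀ (abs_nonneg _) this
    linarith
  have hint : Integrable (fun ω => 1 - mW G θ κ W ω τ v ^ 2) (PP V) := by
    refine Integrable.of_bound (measurable_const.sub (hmW.pow_const 2)).aestronglyMeasurable 1 ?_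
    refine Eventually.of_forall fun ω => ?_
    have h := hnn ω
    rw [Real.norm_of_nonneg h]
    have := sq_nonneg (mW G θ κ W ω τ v)
    linarith
  have hm0 : Measurable fun ω : Om V => gm G θ W (field0W κ W ω τ) v :=
    (measurable_gm W v).comp (measurable_field0W hκ.meas W τ)
  rw [ofReal_integral_eq_lintegral_ofReal hint (Eventually.of_forall hnn)]
  have e := lintegral_field_eq hT hW h0 h1 hκ τ hΨ
  simp only [mW]
  rw [e, EP_eq_lintegral hκ W τ]
  swap
  · intro A
    exact ENNReal.measurable_ofReal.comp (measurable_const.sub (measurable_const.mul hm0))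
  refine lintegral_congr fun ω => ?_
  set m := gm G θ W (field0W κ W ω τ) v with hm
  have hlik := lik_pos (G := G) hκ h0 h1 W ω τ
  have hm1 : |m| ≤ 1 := abs_gm_le h0 h1 _ _
  have hsum := gm_field0W_mul_lik (G := G) hκ h0 h1 W ω τ v
  rw [← hm] at hsum
  have hnn2 : 0 ≤ 1 - m ^ 2 := by
    have h2 : m ^ 2 ≤ 1 := by
      rw [← sq_abs]
      exact pow_le_one₀ (abs_nonneg _) hm1
    linarith
  have hsp : ∀ A : Finset V, 0 ≤ 1 - sp A v * m := by
    intro A
    have h3 := abs_le.1 hm1
    rcases sp_eq_or A v with h | h <;> rw [h] <;> linarith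
  have hmain : (1 - m ^ 2) * lik G θ κ W ω τ =
      ∑ A ∈ W.powerset, bw G θ W A * ((1 - sp A v * m) * lW κ W ω τ A) := by
    have e1 : ∀ A ∈ W.powerset, bw G θ W A * ((1 - sp A v * m) * lW κ W ω τ A) =
        bw G θ W A * lW κ W ω τ A - m * (bw G θ W A * lW κ W ω τ A * sp A v) := by
      intro A _
      ring
    rw [Finset.sum_congr rfl e1, Finset.sum_sub_distrib, ← Finset.mul_sum, ← hsum, ← lik_eq_sum]
    ring
  rw [← ENNReal.ofReal_mul hnn2, hmain, ENNReal.ofReal_sum_of_nonneg]
  · refine Finset.sum_congr rfl fun A _ => ?_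
    rw [ENNReal.ofReal_mul (bw_pos h0 h1).le, ENNReal.ofReal_mul (hsp A)]
  · intro A _
    exact mul_nonneg (bw_pos h0 h1).le (mul_nonneg (hsp A) (lW_pos hκ W ω τ A).le)

/-! ### The sign law -/

lemma measurableSet_signE {θ : ℝ} (W S : Finset V) (η : V → Bool) :
    MeasurableSet {h : V → ℝ | ∀ v ∈ S, (0 < gm G θ W h v ↔ η v = true)} := by
  have : {h : V → ℝ | ∀ v ∈ S, (0 < gm G θ W h v ↔ η v = true)} =
      ⋂ v ∈ S, {h : V → ℝ | (0 < gm G θ W h v ↔ η v = true)} := by
    ext h
    simp
  rw [this]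
  refine Finset.measurableSet_biInter S fun v _ => ?_
  by_cases hη : η v = true
  · have e : {h : V → ℝ | (0 < gm G θ W h v ↔ η v = true)} = {h : V → ℝ | 0 < gm G θ W h v} := by
      ext h
      simp [hη]
    rw [e]
    exact measurableSet_lt measurable_const (measurable_gm W v)
  · have e : {h : V → ℝ | (0 < gm G θ W h v ↔ η v = true)} = {h : V → ℝ | 0 < gm G θ W h v}ᶜ := by
      ext h
      simp [hη]
    rw [e]
    exact (measurableSet_lt measurable_const (measurable_gm W v)).compl

/-- Logic of the union bound. -/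
lemma union_bound {ι : Type*} (S : Finset ι) (a b c : ι → Prop) {i j : ℝ≥0∞} {k : ι → ℝ≥0∞}
    (hi : i ≤ 1) (hi0 : ¬ (∀ v ∈ S, (a v ↔ c v)) → i = 0)
    (hj : (∀ v ∈ S, (b v ↔ c v)) → j = 1)
    (hk : ∀ v, ¬ (a v ↔ b v) → k v = 1) : i ≤ j + ∑ v ∈ S, k v := by
  by_cases hac : ∀ v ∈ S, (a v ↔ c v)
  · by_cases hbc : ∀ v ∈ S, (b v ↔ c v)
    · rw [hj hbc]
      exact hi.trans le_self_add
    · obtain ⟨v, hv, hbv⟩ : ∃ v ∈ S, ¬ (b v ↔ c v) := by
        by_contra h
        exact hbc fun v hv => by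
          by_contra h'
          exact h ⟨v, hv, h'⟩
      have hne : ¬ (a v ↔ b v) := by
        intro h
        exact hbv (h.symm.trans (hac v hv))
      calc i ≤ 1 := hi
        _ = k v := (hk v hne).symm
        _ ≤ ∑ v ∈ S, k v := Finset.single_le_sum (f := k) (fun _ _ => zero_le) hv
        _ ≤ j + ∑ v ∈ S, k v := le_add_self
  · rw [hi0 hac]
    exact zero_le

lemma isingWeight_congr {θ : ℝ} {S : Finset V} {η η' : V → Bool} (h : ∀ v ∈ S, η v = η' v) :
    Crest.ProbabilityR.TreeIsing.isingWeight G θ S η = Crest.ProbabilityR.TreeIsing.isingWeight G θ S η' := by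
  classical
  unfold Crest.ProbabilityR.TreeIsing.isingWeight
  congr 1
  refine Finset.prod_congr rfl fun e he => ?_
  have he1 := (Finset.mem_filter.1 he).1
  induction e using Sym2.ind with
  | _ a b =>
    rw [Finset.mk_mem_sym2_iff] at he1
    simp only [Sym2.map_mk, Sym2.mk_isDiag_iff, h a he1.1, h b he1.2]

/-- **The sign pattern of the means has nearly the Ising law.** -/
theorem sign_law_approx (hT : G.IsTree) {W S : Finset V} (hW : IsWin G W) (hS : IsWin G S) (hs : S ⊆ W)
    {θ : ℝ} {κ : ℝ → ℝ} (hθ0 : 0 ≤ θ) (hθ1 : θ < 1) (hκ : IsStrength κ) (τ : ℝ) (η : V → Bool) :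
    |((PP V) {ω | ∀ v ∈ S, (0 < mW G θ κ W ω τ v ↔ η v = true)}).toReal -
        Crest.ProbabilityR.TreeIsing.isingWeight G θ S η| ≤
      ∑ v ∈ S, ∫ ω, (1 - mW G θ κ W ω τ v ^ 2) ∂(PP V) := by
  classical
  set E : Set (V → ℝ) := {h : V → ℝ | ∀ v ∈ S, (0 < gm G θ W h v ↔ η v = true)} with hE
  have hEm : MeasurableSet E := measurableSet_signE W S η
  set Ψ : (V → ℝ) → ℝ≥0∞ := fun h => if h ∈ E then 1 else 0 with hΨ
  have hΨm : Measurable Ψ := Measurable.ite hEm measurable_const measurable_const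
  have hfm : Measurable fun ω : Om V => field G θ κ W ω τ := by
    rw [measurable_pi_iff]
    intro u
    exact (measurable_field hκ.meas u).comp (measurable_const.prodMk measurable_id)
  have hf0 := measurable_field0W (V := V) hκ.meas W τ
  -- the probability as a planted expectation
  set X : ℝ≥0∞ := (PP V) {ω | ∀ v ∈ S, (0 < mW G θ κ W ω τ v ↔ η v = true)} with hX
  have hXe : X = EP G θ κ W τ (fun _ ω => Ψ (field0W κ W ω τ)) := by
    have hset : {ω : Om V | ∀ v ∈ S, (0 < mW G θ κ W ω τ v ↔ η v = true)} =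
        (fun ω => field G θ κ W ω τ) ⁻¹' E := rfl
    have hmset : MeasurableSet ((fun ω => field G θ κ W ω τ) ⁻¹' E) := hfm hEm
    have e1 : X = ∫⁻ ω, Ψ (field G θ κ W ω τ) ∂(PP V) := by
      rw [hX, hset, ← lintegral_indicator_one hmset]
      refine lintegral_congr fun ω => ?_
      simp only [Set.indicator_apply, hΨ, mem_preimage, Pi.one_apply]
    rw [e1, lintegral_field_eq hT hW hθ0 hθ1 hκ τ hΨm]
    exact lintegral_mul_lik hκ hθ0 hθ1 W τ (hΨm.comp hf0)
  -- the Ising weight as a planted expectation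
  set J : Finset V → ℝ≥0∞ := fun A => if ∀ v ∈ S, (v ∈ A ↔ η v = true) then 1 else 0 with hJ
  set Aη : Finset V := S.filter fun v => η v = true with hAη
  have hAηS : Aη ⊆ S := Finset.filter_subset _ _
  have hYe : ENNReal.ofReal (Crest.ProbabilityR.TreeIsing.isingWeight G θ S η) =
      EP G θ κ W τ (fun A _ => J A) := by
    rw [EP_const hκ]
    have hbw : Crest.ProbabilityR.TreeIsing.isingWeight G θ S η = bw G θ S Aη := by
      unfold bw
      refine isingWeight_congr fun v hv => ?_
      by_cases h : η v = true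
      · have : v ∈ Aη := Finset.mem_filter.2 ⟨hv, h⟩
        simp [this, h]
      · have : v ∉ Aη := fun hh => h (Finset.mem_filter.1 hh).2
        simp [this, h]
    rw [hbw, ← sum_bw_marginal hT hS hW hs Aη hAηS, ENNReal.ofReal_sum_of_nonneg
      (fun A _ => (bw_pos hθ0 hθ1).le), Finset.sum_filter]
    refine Finset.sum_congr rfl fun A hA => ?_
    have hiff : A ∩ S = Aη ↔ ∀ v ∈ S, (v ∈ A ↔ η v = true) := by
      constructor
      · intro h v hv
        constructor
        · intro hvA
          have : v ∈ Aη := h ▸ Finset.mem_inter.2 ⟨hvA, hv⟩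
          exact (Finset.mem_filter.1 this).2
        · intro hη
          have : v ∈ A ∩ S := h ▸ Finset.mem_filter.2 ⟨hv, hη⟩
          exact (Finset.mem_inter.1 this).1
      · intro h
        ext v
        simp only [Finset.mem_inter, hAη, Finset.mem_filter]
        constructor
        · rintro ⟨h1, h2⟩
          exact ⟨h2, (h v h2).1 h1⟩
        · rintro ⟨h1, h2⟩
          exact ⟨(h v h1).2 h2, h1⟩
    by_cases hc : A ∩ S = Aη
    · simp only [if_pos hc, hJ, if_pos (hiff.1 hc), mul_one]
    · have hc' : ¬ ∀ v ∈ S, (v ∈ A ↔ η v = true) := fun h => hc (hiff.2 h)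
      simp only [if_neg hc, hJ, if_neg hc', mul_zero]
  -- the error terms
  set B : V → Finset V → Om V → ℝ≥0∞ := fun v A ω =>
    if (0 < gm G θ W (field0W κ W ω τ) v ↔ v ∈ A) then 0 else 1 with hB
  have hBm : ∀ v A, Measurable (B v A) := by
    intro v A
    refine Measurable.ite ?_ measurable_const measurable_const
    by_cases hv : v ∈ A
    · simp only [hv, iff_true]
      exact measurableSet_lt measurable_const ((measurable_gm W v).comp hf0)
    · simp only [hv, iff_false]
      exact (measurableSet_lt measurable_const ((measurable_gm W v).comp hf0)).compl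
  have hBle : ∀ v, EP G θ κ W τ (B v) ≤ ENNReal.ofReal (∫ ω, (1 - mW G θ κ W ω τ v ^ 2) ∂(PP V)) := by
    intro v
    rw [ofReal_integral_one_sub_sq hT hW hθ0 hθ1 hκ τ v]
    refine EP_mono fun A ω => ?_
    simp only [hB]
    set m := gm G θ W (field0W κ W ω τ) v with hm
    have hm1 := abs_le.1 (abs_gm_le (G := G) hθ0 hθ1 (field0W κ W ω τ) v (W := W))
    rw [← hm] at hm1
    by_cases hc : (0 < m ↔ v ∈ A)
    · rw [if_pos hc]
      exact zero_le
    · rw [if_neg hc, ENNReal.one_le_ofReal]
      by_cases hvA : v ∈ A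
      · have hm0 : ¬ 0 < m := fun h => hc ⟨fun _ => hvA, fun _ => h⟩
        have : sp A v = 1 := by simp [sp, hvA]
        rw [this]
        linarith
      · have hm0 : 0 < m := by
          by_contra h
          exact hc ⟨fun h' => absurd h' h, fun h' => absurd h' hvA⟩
        have : sp A v = -1 := by simp [sp, hvA]
        rw [this]
        linarith
  -- the two inequalities
  set Sr : ℝ := ∑ v ∈ S, ∫ ω, (1 - mW G θ κ W ω τ v ^ 2) ∂(PP V) with hSr
  have hrnn : ∀ v, 0 ≤ ∫ ω, (1 - mW G θ κ W ω τ v ^ 2) ∂(PP V) := by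
    intro v
    refine integral_nonneg fun ω => ?_
    have := abs_gm_le (G := G) hθ0 hθ1 (field G θ κ W ω τ) v (W := W)
    have h2 : mW G θ κ W ω τ v ^ 2 ≤ 1 := by
      rw [← sq_abs]
      exact pow_le_one₀ (abs_nonneg _) this
    simp only [Pi.zero_apply]
    linarith
  have hS_nn : 0 ≤ Sr := Finset.sum_nonneg fun v _ => hrnn v
  have hS_e : ∑ v ∈ S, EP G θ κ W τ (B v) ≤ ENNReal.ofReal Sr := by
    rw [hSr, ENNReal.ofReal_sum_of_nonneg fun v _ => hrnn v]
    exact Finset.sum_le_sum fun v _ => hBle v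
  have hI_le : X ≤ EP G θ κ W τ (fun A _ => J A) + ∑ v ∈ S, EP G θ κ W τ (B v) := by
    have hJm : ∀ A, Measurable fun _ : Om V => J A := fun A => measurable_const
    rw [← EP_sum S hκ hBm, ← EP_add hκ hJm, hXe]
    refine EP_mono fun A ω => ?_
    refine union_bound S (fun v => 0 < gm G θ W (field0W κ W ω τ) v) (fun v => v ∈ A)
      (fun v => η v = true) ?_ ?_ ?_ ?_
    · simp only [hΨ]
      split_ifs <;> simp
    · intro h
      simp only [hΨ]
      exact if_neg h
    · intro h
      simp only [hJ]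
      exact if_pos h
    · intro v h
      simp only [hB]
      exact if_neg h
  have hJ_le : EP G θ κ W τ (fun A _ => J A) ≤ X + ∑ v ∈ S, EP G θ κ W τ (B v) := by
    have hΨ0m : ∀ A : Finset V, Measurable fun ω : Om V => Ψ (field0W κ W ω τ) := fun A => hΨm.comp hf0
    rw [← EP_sum S hκ hBm, hXe, ← EP_add hκ hΨ0m]
    refine EP_mono fun A ω => ?_
    refine union_bound S (fun v => v ∈ A) (fun v => 0 < gm G θ W (field0W κ W ω τ) v)
      (fun v => η v = true) ?_ ?_ ?_ ?_
    · simp only [hJ]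
      split_ifs <;> simp
    · intro h
      simp only [hJ]
      exact if_neg h
    · intro h
      simp only [hΨ]
      exact if_pos h
    · intro v h
      simp only [hB]
      exact if_neg fun h' => h h'.symm
  -- conclusion
  have hXfin : X ≠ ⊤ := measure_ne_top _ _
  have hbwnn : 0 ≤ Crest.ProbabilityR.TreeIsing.isingWeight G θ S η := by
    have hbw : Crest.ProbabilityR.TreeIsing.isingWeight G θ S η = bw G θ S Aη := by
      unfold bw
      refine isingWeight_congr fun v hv => ?_
      by_cases h : η v = true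
      · have : v ∈ Aη := Finset.mem_filter.2 ⟨hv, h⟩
        simp [this, h]
      · have : v ∉ Aη := fun hh => h (Finset.mem_filter.1 hh).2
        simp [this, h]
    rw [hbw]
    exact (bw_pos hθ0 hθ1).le
  rw [← hYe] at hI_le hJ_le
  have h1 : X.toReal ≤ Crest.ProbabilityR.TreeIsing.isingWeight G θ S η + Sr := by
    refine ENNReal.toReal_le_of_le_ofReal (add_nonneg hbwnn hS_nn) ?_
    rw [ENNReal.ofReal_add hbwnn hS_nn]
    exact hI_le.trans (by gcongr)
  have h2 : Crest.ProbabilityR.TreeIsing.isingWeight G θ S η ≤ X.toReal + Sr := by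
    rw [← ENNReal.ofReal_le_ofReal_iff (add_nonneg ENNReal.toReal_nonneg hS_nn),
      ENNReal.ofReal_add ENNReal.toReal_nonneg hS_nn, ENNReal.ofReal_toReal hXfin]
    exact hJ_le.trans (by gcongr)
  rw [abs_le]
  constructor <;> linarith

end Crest.Agent.Lib.IsingFIID
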