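/-
Row 160 (S0241): Task F.  Abstract final step: exactly equivariant measurable fields of the labels,
fast Cauchy in `L²`, asymptotically `±1`, with nearly the right sign law, give the factor.
-/
import Crest.Agent.Lib.IsingFIID.Basic

set_option autoImplicit false

namespace Crest.Agent.Lib.IsingFIID

open MeasureTheory Filter Topology Set SimpleGraph
open scoped ENNReal

instance final_isProb_lam (I : Type*) : IsProbabilityMeasure (lam I) := by
  unfold lam Crest.ProbabilityR.Labels.labelMeasure; infer_instance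

instance final_isProb_PP (V : Type*) : IsProbabilityMeasure (PP V) := by
  unfold PP; infer_instance

section Split

variable {V : Type*}

/-- Join the two families of a label into one family indexed by `V × Bool × ℕ`. -/
def joinOm (p : Om V) : V × Bool × ℕ → Lab
  | (v, false, n) => p.1 (v, n)
  | (v, true, n) => p.2 (v, n)

/-- The inverse split. -/
def splitOm (y : V × Bool × ℕ → Lab) : Om V :=
  (fun i => y (i.1, false, i.2), fun i => y (i.1, true, i.2))

lemma splitOm_joinOm (p : Om V) : splitOm (joinOm p) = p := rfl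

lemma measurable_joinOm : Measurable (joinOm (V := V)) := by
  refine measurable_pi_iff.mpr ?_
  rintro ⟨v, _ | _, n⟩
  · exact (measurable_pi_apply (v, n)).comp measurable_fst
  · exact (measurable_pi_apply (v, n)).comp measurable_snd

lemma measurable_splitOm : Measurable (splitOm (V := V)) :=
  Measurable.prodMk (measurable_pi_iff.mpr fun _ => measurable_pi_apply _)
    (measurable_pi_iff.mpr fun _ => measurable_pi_apply _)

lemma map_joinOm : (PP V).map joinOm = lam (V × Bool × ℕ) := by
  refine Measure.eq_infinitePi _ fun s t ht => ?_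
  classical
  have hi₁ : Set.InjOn (fun p : V × ℕ => ((p.1, false, p.2) : V × Bool × ℕ))
      ((fun p : V × ℕ => ((p.1, false, p.2) : V × Bool × ℕ)) ⁻¹' (s : Set (V × Bool × ℕ))) := by
    rintro ⟨a, i⟩ _ ⟨b, j⟩ _ h
    simp only [Prod.mk.injEq, true_and] at h
    rw [h.1, h.2]
  have hi₂ : Set.InjOn (fun p : V × ℕ => ((p.1, true, p.2) : V × Bool × ℕ))
      ((fun p : V × ℕ => ((p.1, true, p.2) : V × Bool × ℕ)) ⁻¹' (s : Set (V × Bool × ℕ))) := by
    rintro ⟨a, i⟩ _ ⟨b, j⟩ _ h
    simp only [Prod.mk.injEq, true_and] at h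
    rw [h.1, h.2]
  let s₁ : Finset (V × ℕ) := s.preimage _ hi₁
  let s₂ : Finset (V × ℕ) := s.preimage _ hi₂
  have hset : joinOm ⁻¹' ((s : Set (V × Bool × ℕ)).pi t) =
      ((s₁ : Set (V × ℕ)).pi (fun p => t (p.1, false, p.2))) ×ˢ
        ((s₂ : Set (V × ℕ)).pi (fun p => t (p.1, true, p.2))) := by
    ext ⟨u, w⟩
    simp only [mem_preimage, Set.mem_pi, Finset.mem_coe, Set.mem_prod]
    constructor
    · intro h
      exact ⟨fun p hp => h _ (by simpa [s₁] using hp), fun p hp => h _ (by simpa [s₂] using hp)⟩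
    · rintro ⟨h1, h2⟩ ⟨v, _ | _, n⟩ hi
      · exact h1 (v, n) (by simpa [s₁] using hi)
      · exact h2 (v, n) (by simpa [s₂] using hi)
  rw [Measure.map_apply measurable_joinOm (MeasurableSet.pi s.countable_toSet fun i _ => ht i),
    hset, Measure.prod_prod]
  unfold lam Crest.ProbabilityR.Labels.labelMeasure
  rw [Measure.infinitePi_pi _ (fun p _ => ht _), Measure.infinitePi_pi _ (fun p _ => ht _)]
  have e₁ := Finset.prod_preimage' (fun p : V × ℕ => ((p.1, false, p.2) : V × Bool × ℕ)) s hi₁
    (fun i => (volume : Measure Lab) (t i))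
  have e₂ := Finset.prod_preimage' (fun p : V × ℕ => ((p.1, true, p.2) : V × Bool × ℕ)) s hi₂
    (fun i => (volume : Measure Lab) (t i))
  rw [e₁, e₂]
  rw [← Finset.prod_filter_mul_prod_filter_not s
    (fun i => i ∈ Set.range (fun p : V × ℕ => ((p.1, false, p.2) : V × Bool × ℕ)))]
  congr 2
  ext ⟨v, b, n⟩
  cases b <;> simp

lemma map_splitOm : (lam (V × Bool × ℕ)).map splitOm = PP V := by
  rw [← map_joinOm, Measure.map_map measurable_splitOm measurable_joinOm]
  have : splitOm ∘ joinOm = (id : Om V → Om V) := rfl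
  rw [this, Measure.map_id]

/-- The labels `ω` computed from one label per vertex. -/
def fromLab (s : Lab → Bool × ℕ → Lab) (x : V → Lab) : Om V :=
  splitOm (fun i => s (x i.1) i.2)

lemma measurable_fromLab {s : Lab → Bool × ℕ → Lab} (hs : Measurable s) :
    Measurable (fromLab (V := V) s) := by
  refine measurable_splitOm.comp (measurable_pi_iff.mpr fun i => ?_)
  exact (measurable_pi_apply i.2).comp (hs.comp (measurable_pi_apply i.1))

lemma map_fromLab {s : Lab → Bool × ℕ → Lab} (hs : Measurable s)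
    (hmap : (volume : Measure Lab).map s = lam (Bool × ℕ)) :
    (lam V).map (fromLab s) = PP V := by
  have h1 : (lam V).map (fun x g => s (x g)) = Measure.infinitePi (fun _ : V => lam (Bool × ℕ)) := by
    have := Measure.infinitePi_map_pi (μ := fun _ : V => (volume : Measure Lab)) (f := fun _ => s)
      (fun _ => hs)
    simp only [hmap] at this
    exact this
  have h2 : (Measure.infinitePi (fun _ : V => lam (Bool × ℕ))).map
      (MeasurableEquiv.curry V (Bool × ℕ) Lab).symm = lam (V × Bool × ℕ) :=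
    Measure.infinitePi_map_curry_symm (fun _ _ => (volume : Measure Lab))
  have hm1 : Measurable (fun (x : V → Lab) g => s (x g)) :=
    measurable_pi_iff.mpr fun g => hs.comp (measurable_pi_apply g)
  have h3 : fromLab (V := V) s = (splitOm ∘ (MeasurableEquiv.curry V (Bool × ℕ) Lab).symm) ∘
      (fun (x : V → Lab) g => s (x g)) := rfl
  rw [h3, ← Measure.map_map (measurable_splitOm.comp (MeasurableEquiv.measurable _)) hm1, h1,
    ← Measure.map_map measurable_splitOm (MeasurableEquiv.measurable _), h2, map_splitOm]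

lemma fromLab_comp (s : Lab → Bool × ℕ → Lab) (x : V → Lab) (g : V → V) :
    fromLab s (x ∘ g) = act g (fromLab s x) := rfl

end Split

section Conv

variable {Ω : Type*} [MeasurableSpace Ω] {μ : Measure Ω} [IsProbabilityMeasure μ]

/-- First moment by second moment on a probability space. -/
lemma integral_abs_le_sqrt {a : Ω → ℝ} (hm : Measurable a) {C : ℝ} (hb : ∀ ω, |a ω| ≤ C) :
    ∫ ω, |a ω| ∂μ ≤ Real.sqrt (∫ ω, a ω ^ 2 ∂μ) := by
  have hC : 0 ≤ C := (abs_nonneg _).trans (hb (Classical.choice (nonempty_of_isProbabilityMeasure μ)))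
  have hi1 : Integrable (fun ω => |a ω|) μ :=
    Integrable.of_bound hm.abs.aestronglyMeasurable C
      (Eventually.of_forall fun ω => by simpa using hb ω)
  have hi2 : Integrable (fun ω => a ω ^ 2) μ :=
    Integrable.of_bound (hm.pow_const 2).aestronglyMeasurable (C ^ 2)
      (Eventually.of_forall fun ω => by
        rw [Real.norm_eq_abs, abs_pow]
        exact pow_le_pow_left₀ (abs_nonneg _) (hb ω) 2)
  set c := ∫ ω, |a ω| ∂μ with hc
  have hc0 : 0 ≤ c := integral_nonneg fun _ => abs_nonneg _
  apply Real.le_sqrt_of_sq_le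
  have h0 : 0 ≤ ∫ ω, (|a ω| - c) ^ 2 ∂μ := integral_nonneg fun _ => sq_nonneg _
  have h1 : ∫ ω, (|a ω| - c) ^ 2 ∂μ = ∫ ω, a ω ^ 2 ∂μ - c ^ 2 := by
    have e : ∀ ω, (|a ω| - c) ^ 2 = a ω ^ 2 - 2 * c * |a ω| + c ^ 2 := fun ω => by
      rw [sub_sq, sq_abs]; ring
    simp_rw [e]
    have e2 : ∫ ω, (a ω ^ 2 - 2 * c * |a ω| + c ^ 2) ∂μ =
        ∫ ω, (a ω ^ 2 - 2 * c * |a ω|) ∂μ + ∫ _ω, c ^ 2 ∂μ :=
      integral_add (hi2.sub (hi1.const_mul _)) (integrable_const _)
    have e3 : ∫ ω, (a ω ^ 2 - 2 * c * |a ω|) ∂μ = ∫ ω, a ω ^ 2 ∂μ - ∫ ω, 2 * c * |a ω| ∂μ :=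
      integral_sub hi2 (hi1.const_mul _)
    rw [e2, e3, integral_const_mul, ← hc]
    simp
    ring
  linarith

/-- Fast Cauchy in `L²` implies a.e. convergence. -/
lemma ae_exists_tendsto_of_fast {f : ℕ → Ω → ℝ} (hm : ∀ j, Measurable (f j))
    (hb : ∀ j ω, |f j ω| ≤ 1)
    (hfast : Summable fun j => Real.sqrt (∫ ω, (f (j + 1) ω - f j ω) ^ 2 ∂μ)) :
    ∀ᵐ ω ∂μ, ∃ l, Tendsto (fun j => f j ω) atTop (𝓝 l) := by
  set a : ℕ → Ω → ℝ := fun j ω => |f (j + 1) ω - f j ω| with ha
  have ham : ∀ j, Measurable (a j) := fun j => ((hm (j + 1)).sub (hm j)).abs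
  have hab : ∀ j ω, |f (j + 1) ω - f j ω| ≤ 2 := fun j ω => by
    have h1 := abs_le.mp (hb (j + 1) ω)
    have h2 := abs_le.mp (hb j ω)
    rw [abs_le]; constructor <;> linarith
  have hle : ∀ j, ∫ ω, a j ω ∂μ ≤ Real.sqrt (∫ ω, (f (j + 1) ω - f j ω) ^ 2 ∂μ) := fun j =>
    integral_abs_le_sqrt ((hm (j + 1)).sub (hm j)) (hab j)
  have hlin : ∀ j, ∫⁻ ω, ENNReal.ofReal (a j ω) ∂μ = ENNReal.ofReal (∫ ω, a j ω ∂μ) := fun j => by
    rw [ofReal_integral_eq_lintegral_ofReal]
    · exact Integrable.of_bound (ham j).aestronglyMeasurable 2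
        (Eventually.of_forall fun ω => by simpa [ha] using hab j ω)
    · exact Eventually.of_forall fun ω => abs_nonneg _
  have hsum : ∫⁻ ω, ∑' j, ENNReal.ofReal (a j ω) ∂μ ≠ ∞ := by
    rw [lintegral_tsum fun j => (ham j).ennreal_ofReal.aemeasurable]
    simp_rw [hlin]
    have : ∑' j, ENNReal.ofReal (∫ ω, a j ω ∂μ) ≤
        ∑' j, ENNReal.ofReal (Real.sqrt (∫ ω, (f (j + 1) ω - f j ω) ^ 2 ∂μ)) :=
      ENNReal.tsum_le_tsum fun j => ENNReal.ofReal_le_ofReal (hle j)
    refine ne_top_of_le_ne_top ?_ this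
    rw [← ENNReal.ofReal_tsum_of_nonneg (fun _ => Real.sqrt_nonneg _) hfast]
    exact ENNReal.ofReal_ne_top
  have hae := ae_lt_top' (Measurable.tsum fun j => (ham j).ennreal_ofReal).aemeasurable hsum
  filter_upwards [hae] with ω hω
  have hs : Summable fun j => a j ω := by
    have h0 : ∀ j, a j ω = (ENNReal.ofReal (a j ω)).toReal := fun j =>
      (ENNReal.toReal_ofReal (abs_nonneg _)).symm
    have := ENNReal.summable_toReal hω.ne
    exact this.congr fun j => (h0 j).symm
  have hc : CauchySeq fun j => f j ω := by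
    refine cauchySeq_of_summable_dist ?_
    refine hs.congr fun j => ?_
    rw [Real.dist_eq, abs_sub_comm]
  exact cauchySeq_tendsto_of_complete hc

end Conv

/-- Measurability of a sign pattern event. -/
lemma measurableSet_sign {V Ω : Type*} [MeasurableSpace Ω] {g : Ω → V → ℝ}
    (hg : ∀ v, Measurable fun ω => g ω v) (S : Finset V) (η : V → Bool) :
    MeasurableSet {ω | ∀ v ∈ S, (0 < g ω v ↔ η v = true)} := by
  have : {ω | ∀ v ∈ S, (0 < g ω v ↔ η v = true)} =
      ⋂ v ∈ S, {ω | (0 < g ω v ↔ η v = true)} := by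
    ext ω; simp
  rw [this]
  refine Finset.measurableSet_biInter _ fun v _ => ?_
  by_cases hη : η v = true
  · have e : {ω | (0 < g ω v ↔ η v = true)} = {ω | 0 < g ω v} := by
      ext ω; simp [hη]
    rw [e]
    exact measurableSet_lt measurable_const (hg v)
  · have e : {ω | (0 < g ω v ↔ η v = true)} = {ω | 0 < g ω v}ᶜ := by
      ext ω; simp [hη]
    rw [e]
    exact (measurableSet_lt measurable_const (hg v)).compl

variable {V : Type*} [DecidableEq V] {G : SimpleGraph V} [G.LocallyFinite]

open Classical in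
/-- Abstract final step: a sequence of exactly equivariant measurable fields, fast Cauchy in `L²`,
asymptotically `±1`, with nearly the right sign law, gives the factor. -/
theorem factor_of_fields (f : ℕ → Om V → V → ℝ)
    (hm : ∀ j v, Measurable fun ω => f j ω v) (hb : ∀ j ω v, |f j ω v| ≤ 1)
    (heq : ∀ (g : G ≃g G) j ω v, f j (act g ω) v = f j ω (g v))
    (hfast : ∀ v, Summable fun j => Real.sqrt (∫ ω, (f (j + 1) ω v - f j ω v) ^ 2 ∂(PP V)))
    (hone : ∀ v, Tendsto (fun j => ∫ ω, (1 - f j ω v ^ 2) ∂(PP V)) atTop (𝓝 0))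
    (θ : ℝ) (hlaw : ∀ (S : Finset V) (η : V → Bool), IsWin G S →
      Tendsto (fun j => ((PP V) {ω | ∀ v ∈ S, (0 < f j ω v ↔ η v = true)}).toReal) atTop
        (𝓝 (Crest.ProbabilityR.TreeIsing.isingWeight G θ S η))) :
    ∃ Φ : (V → unitInterval) → (V → Bool),
      Measurable Φ ∧
      (∀ (g : G ≃g G) (x : V → unitInterval), Φ (x ∘ ⇑g) = Φ x ∘ ⇑g) ∧
      ∀ (S : Finset V) (η : V → Bool), (G.induce (S : Set V)).Connected →
        (Crest.ProbabilityR.Labels.labelMeasure V).map Φ {σ | ∀ v ∈ S, σ v = η v} =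
          ENNReal.ofReal (Crest.ProbabilityR.TreeIsing.isingWeight G θ S η) := by
  -- the limit field
  set F : Om V → V → ℝ := fun ω v => limsup (fun j => f j ω v) atTop with hF
  have hFm : ∀ v, Measurable fun ω => F ω v := fun v =>
    Measurable.limsup fun j => hm j v
  have hbdd : ∀ ω v, IsBoundedUnder (· ≤ ·) atTop (fun j => f j ω v) := fun ω v =>
    ⟨1, by
      simp only [eventually_map]
      exact Eventually.of_forall fun j => (abs_le.mp (hb j ω v)).2⟩
  have hbdd' : ∀ ω v, IsBoundedUnder (· ≥ ·) atTop (fun j => f j ω v) := fun ω v =>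
    ⟨-1, by
      simp only [eventually_map]
      exact Eventually.of_forall fun j => (abs_le.mp (hb j ω v)).1⟩
  -- a.e. convergence to `F`
  have hconv : ∀ v, ∀ᵐ ω ∂(PP V), Tendsto (fun j => f j ω v) atTop (𝓝 (F ω v)) := fun v => by
    filter_upwards [ae_exists_tendsto_of_fast (μ := PP V) (f := fun j ω => f j ω v)
      (fun j => hm j v) (fun j ω => hb j ω v) (hfast v)] with ω ⟨l, hl⟩
    have : F ω v = l := hl.limsup_eq
    rw [this]; exact hl
  have hFb : ∀ ω v, |F ω v| ≤ 1 := fun ω v => by
    rw [abs_le]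
    constructor
    · refine le_limsup_of_frequently_le (Frequently.of_forall fun j => (abs_le.mp (hb j ω v)).1) ?_
      exact hbdd ω v
    · refine limsup_le_of_le (hbdd' ω v).isCoboundedUnder_le ?_
      exact Eventually.of_forall fun j => (abs_le.mp (hb j ω v)).2
  -- the limit is a.e. `±1`
  have hsq : ∀ v, ∀ᵐ ω ∂(PP V), F ω v ^ 2 = 1 := fun v => by
    have hlim : Tendsto (fun j => ∫ ω, (1 - f j ω v ^ 2) ∂(PP V)) atTop
        (𝓝 (∫ ω, (1 - F ω v ^ 2) ∂(PP V))) := by
      refine tendsto_integral_of_dominated_convergence (fun _ => 2) ?_ (integrable_const _) ?_ ?_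
      · exact fun j => (measurable_const.sub ((hm j v).pow_const 2)).aestronglyMeasurable
      · refine fun j => Eventually.of_forall fun ω => ?_
        have h := hb j ω v
        have h2 : f j ω v ^ 2 ≤ 1 := (sq_le_one_iff_abs_le_one _).mpr h
        rw [Real.norm_eq_abs, abs_le]
        constructor <;> nlinarith [sq_nonneg (f j ω v)]
      · filter_upwards [hconv v] with ω hω
        exact tendsto_const_nhds.sub (hω.pow 2)
    have h0 : ∫ ω, (1 - F ω v ^ 2) ∂(PP V) = 0 := tendsto_nhds_unique hlim (hone v)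
    have hnn : 0 ≤ᵐ[PP V] fun ω => 1 - F ω v ^ 2 := Eventually.of_forall fun ω => by
      have := (sq_le_one_iff_abs_le_one _).mpr (hFb ω v)
      simpa using this
    have hint : Integrable (fun ω => 1 - F ω v ^ 2) (PP V) :=
      Integrable.of_bound (measurable_const.sub ((hFm v).pow_const 2)).aestronglyMeasurable 2
        (Eventually.of_forall fun ω => by
          have := (sq_le_one_iff_abs_le_one _).mpr (hFb ω v)
          rw [Real.norm_eq_abs, abs_le]
          constructor <;> nlinarith [sq_nonneg (F ω v)])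
    have := (integral_eq_zero_iff_of_nonneg_ae hnn hint).mp h0
    filter_upwards [this] with ω hω
    simp only [Pi.zero_apply] at hω
    linarith
  -- the limit law of the sign pattern
  have hE : ∀ (S : Finset V) (η : V → Bool), IsWin G S →
      ((PP V) {ω | ∀ v ∈ S, (0 < F ω v ↔ η v = true)}).toReal =
        Crest.ProbabilityR.TreeIsing.isingWeight G θ S η := by
    intro S η hS
    have hmeasj : ∀ j, MeasurableSet {ω | ∀ v ∈ S, (0 < f j ω v ↔ η v = true)} := fun j =>
      measurableSet_sign (hm j) S η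
    have hmeasF : MeasurableSet {ω | ∀ v ∈ S, (0 < F ω v ↔ η v = true)} :=
      measurableSet_sign hFm S η
    have hall : ∀ᵐ ω ∂(PP V), ∀ v ∈ S, Tendsto (fun j => f j ω v) atTop (𝓝 (F ω v)) ∧
        F ω v ^ 2 = 1 := by
      refine (Filter.eventually_all_finset S).mpr fun v _ => ?_
      exact (hconv v).and (hsq v)
    have hlim : Tendsto (fun j => (PP V) {ω | ∀ v ∈ S, (0 < f j ω v ↔ η v = true)}) atTop
        (𝓝 ((PP V) {ω | ∀ v ∈ S, (0 < F ω v ↔ η v = true)})) := by
      refine tendsto_measure_of_ae_tendsto_indicator_of_isFiniteMeasure atTop hmeasF hmeasj ?_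
      filter_upwards [hall] with ω hω
      -- each coordinate eventually has the right sign
      have hev : ∀ v ∈ S, ∀ᶠ j in atTop, (0 < f j ω v ↔ 0 < F ω v) := fun v hv => by
        obtain ⟨hlim, h2⟩ := hω v hv
        have hne : F ω v ≠ 0 := by
          intro h; rw [h] at h2; norm_num at h2
        rcases lt_or_gt_of_ne hne with hneg | hpos
        · filter_upwards [hlim.eventually (gt_mem_nhds hneg)] with j hj
          constructor
          · intro h; linarith
          · intro h; linarith
        · filter_upwards [hlim.eventually (lt_mem_nhds hpos)] with j hj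
          exact ⟨fun _ => hpos, fun _ => hj⟩
      have hev' : ∀ᶠ j in atTop, ∀ v ∈ S, (0 < f j ω v ↔ 0 < F ω v) :=
        (Filter.eventually_all_finset S).mpr hev
      filter_upwards [hev'] with j hj
      refine ⟨fun h v hv => ?_, fun h v hv => ?_⟩
      · rw [← hj v hv]; exact h v hv
      · rw [hj v hv]; exact h v hv
    have hreal := (ENNReal.tendsto_toReal (measure_ne_top _ _)).comp hlim
    exact tendsto_nhds_unique hreal (hlaw S η hS)
  -- the factor
  obtain ⟨s, hs, hsmap⟩ : ∃ s : Lab → Bool × ℕ → Lab, Measurable s ∧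
      (volume : Measure Lab).map s = lam (Bool × ℕ) := (lam (Bool × ℕ)).exists_measurable_map_eq
  refine ⟨fun x v => decide (0 < F (fromLab s x) v), ?_, ?_, ?_⟩
  · refine measurable_pi_iff.mpr fun v => ?_
    have h1 : Measurable fun x : V → Lab => F (fromLab s x) v := (hFm v).comp (measurable_fromLab hs)
    have h2 : MeasurableSet {x : V → Lab | 0 < F (fromLab s x) v} :=
      measurableSet_lt measurable_const h1
    refine measurable_to_bool ?_
    convert h2 using 1
    ext x
    simp
  · intro g x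
    funext v
    have : F (fromLab s (x ∘ ⇑g)) v = F (fromLab s x) (g v) := by
      simp only [hF]
      rw [fromLab_comp]
      congr 1
      funext j
      exact heq g j _ v
    simp only [Function.comp_apply, this]
  · intro S η hS
    have hcyl : MeasurableSet {σ : V → Bool | ∀ v ∈ S, σ v = η v} := by
      have : {σ : V → Bool | ∀ v ∈ S, σ v = η v} = ⋂ v ∈ S, {σ | σ v = η v} := by
        ext σ; simp
      rw [this]
      refine Finset.measurableSet_biInter _ fun v _ => ?_
      exact measurableSet_eq_fun (measurable_pi_apply v) measurable_const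
    have hΦm : Measurable fun (x : V → Lab) (v : V) => decide (0 < F (fromLab s x) v) := by
      refine measurable_pi_iff.mpr fun v => ?_
      have h1 : Measurable fun x : V → Lab => F (fromLab s x) v :=
        (hFm v).comp (measurable_fromLab hs)
      have h2 : MeasurableSet {x : V → Lab | 0 < F (fromLab s x) v} :=
        measurableSet_lt measurable_const h1
      refine measurable_to_bool ?_
      convert h2 using 1
      ext x
      simp
    rw [Measure.map_apply hΦm hcyl]
    have hset : (fun (x : V → Lab) (v : V) => decide (0 < F (fromLab s x) v)) ⁻¹'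
        {σ | ∀ v ∈ S, σ v = η v} =
        fromLab s ⁻¹' {ω | ∀ v ∈ S, (0 < F ω v ↔ η v = true)} := by
      ext x
      simp only [mem_preimage, Set.mem_ofPred_eq]
      refine forall₂_congr fun v _ => ?_
      cases hη : η v <;> simp
    have hmeasF : MeasurableSet {ω : Om V | ∀ v ∈ S, (0 < F ω v ↔ η v = true)} :=
      measurableSet_sign hFm S η
    rw [hset, ← Measure.map_apply (measurable_fromLab hs) hmeasF]
    change ((lam V).map (fromLab s)) _ = _
    rw [map_fromLab hs hsmap, ← hE S η hS, ENNReal.ofReal_toReal (measure_ne_top _ _)]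

end Crest.Agent.Lib.IsingFIID
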