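/-
Row 160 (S0241): the Hoeffding decomposition of bounded measurable functions of finitely many
coordinates of an i.i.d. family, through the "integrate out all coordinates outside `A`" operators.
-/
import Mathlib

set_option autoImplicit false
set_option linter.unusedSectionVars false

namespace Crest.Agent.Lib.IsingFIID

open MeasureTheory

universe u w

variable {V : Type u} {X : Type w} [MeasurableSpace X]

/-- The product measure. -/
noncomputable abbrev prodM (V : Type u) (ν : Measure X) [IsProbabilityMeasure ν] :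
    Measure (V → X) := Measure.infinitePi (fun _ : V => ν)

open Classical in
/-- Take the coordinates in `A` from `x`, the others from `y`. -/
noncomputable def lmerge (A : Finset V) (x y : V → X) : V → X :=
  fun v => if v ∈ A then x v else y v

theorem lmerge_apply_mem {A : Finset V} {x y : V → X} {v : V} (h : v ∈ A) : lmerge A x y v = x v := by
  simp [lmerge, h]

theorem lmerge_apply_not_mem {A : Finset V} {x y : V → X} {v : V} (h : v ∉ A) :
    lmerge A x y v = y v := by
  simp [lmerge, h]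

theorem measurable_lmerge (A : Finset V) :
    Measurable (fun p : (V → X) × (V → X) => lmerge A p.1 p.2) := by
  refine measurable_pi_iff.2 fun v => ?_
  by_cases h : v ∈ A
  · simp only [lmerge_apply_mem h]
    exact (measurable_pi_apply v).comp measurable_fst
  · simp only [lmerge_apply_not_mem h]
    exact (measurable_pi_apply v).comp measurable_snd

section Prob

variable (ν : Measure X) [IsProbabilityMeasure ν]

theorem map_lmerge (A : Finset V) :
    ((prodM V ν).prod (prodM V ν)).map (fun p => lmerge A p.1 p.2) = prodM V ν := by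
  classical
  refine Measure.eq_infinitePi _ fun s t ht => ?_
  rw [Measure.map_apply (measurable_lmerge A) (MeasurableSet.pi s.countable_toSet (fun i _ => ht i))]
  have : (fun p : (V → X) × (V → X) => lmerge A p.1 p.2) ⁻¹' (Set.pi s t)
      = (Set.pi (↑(s ∩ A)) t) ×ˢ (Set.pi (↑(s \ A)) t) := by
    ext p
    simp only [Set.mem_preimage, Set.mem_pi, Finset.mem_coe, Set.mem_prod, Finset.mem_inter,
      Finset.mem_sdiff]
    constructor
    · intro h
      refine ⟨fun i hi => ?_, fun i hi => ?_⟩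
      · have := h i hi.1
        rwa [lmerge_apply_mem hi.2] at this
      · have := h i hi.1
        rwa [lmerge_apply_not_mem hi.2] at this
    · rintro ⟨h1, h2⟩ i hi
      by_cases hA : i ∈ A
      · rw [lmerge_apply_mem hA]
        exact h1 i ⟨hi, hA⟩
      · rw [lmerge_apply_not_mem hA]
        exact h2 i ⟨hi, hA⟩
  rw [this, Measure.prod_prod, Measure.infinitePi_pi _ (fun i _ => ht i),
    Measure.infinitePi_pi _ (fun i _ => ht i), Finset.prod_inter_mul_prod_sdiff]

/-- Bounded measurable functions. -/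
structure BM {α : Type*} [MeasurableSpace α] (f : α → ℝ) : Prop where
  meas : Measurable f
  bdd : ∃ C, ∀ x, |f x| ≤ C

namespace BM

variable {α : Type*} [MeasurableSpace α] {f g : α → ℝ}

theorem integrable (hf : BM f) (μ : Measure α) [IsFiniteMeasure μ] : Integrable f μ := by
  obtain ⟨C, hC⟩ := hf.bdd
  exact Integrable.of_bound hf.meas.aestronglyMeasurable C
    (Filter.Eventually.of_forall fun x => by simpa using hC x)

theorem const (c : ℝ) : BM (fun _ : α => c) := ⟨measurable_const, ⟨|c|, fun _ => le_rfl⟩⟩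

theorem add (hf : BM f) (hg : BM g) : BM (fun x => f x + g x) := by
  obtain ⟨C, hC⟩ := hf.bdd
  obtain ⟨D, hD⟩ := hg.bdd
  exact ⟨hf.meas.add hg.meas, ⟨C + D, fun x => (abs_add_le _ _).trans (add_le_add (hC x) (hD x))⟩⟩

theorem mul (hf : BM f) (hg : BM g) : BM (fun x => f x * g x) := by
  obtain ⟨C, hC⟩ := hf.bdd
  obtain ⟨D, hD⟩ := hg.bdd
  refine ⟨hf.meas.mul hg.meas, ⟨C * D, fun x => ?_⟩⟩
  rw [abs_mul]
  exact mul_le_mul (hC x) (hD x) (abs_nonneg _) ((abs_nonneg _).trans (hC x))

theorem neg (hf : BM f) : BM (fun x => - f x) := by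
  obtain ⟨C, hC⟩ := hf.bdd
  exact ⟨hf.meas.neg, ⟨C, fun x => by simpa using hC x⟩⟩

theorem sub (hf : BM f) (hg : BM g) : BM (fun x => f x - g x) := by
  simpa [sub_eq_add_neg] using hf.add hg.neg

theorem finset_sum {ι : Type*} (s : Finset ι) {f : ι → α → ℝ} (hf : ∀ i ∈ s, BM (f i)) :
    BM (fun x => ∑ i ∈ s, f i x) := by
  classical
  induction s using Finset.induction_on with
  | empty => simpa using BM.const (α := α) 0
  | insert a s ha ih =>
    simp only [Finset.sum_insert ha]
    exact (hf a (Finset.mem_insert_self _ _)).add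
      (ih fun i hi => hf i (Finset.mem_insert_of_mem hi))

theorem comp {β : Type*} [MeasurableSpace β] (hf : BM f) {φ : β → α} (hφ : Measurable φ) :
    BM (fun x => f (φ x)) := by
  obtain ⟨C, hC⟩ := hf.bdd
  exact ⟨hf.meas.comp hφ, ⟨C, fun x => hC _⟩⟩

end BM

/-- Integrate over `y` of `F (lmerge B x y)`, double integral form. -/
theorem integral_lmerge {F : (V → X) → ℝ} (hF : BM F) (B : Finset V) :
    ∫ y, ∫ z, F (lmerge B y z) ∂(prodM V ν) ∂(prodM V ν) = ∫ w, F w ∂(prodM V ν) := by
  have h1 : Integrable (fun p : (V → X) × (V → X) => F (lmerge B p.1 p.2))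
      ((prodM V ν).prod (prodM V ν)) :=
    (hF.comp (measurable_lmerge B)).integrable _
  rw [← integral_prod _ h1]
  conv_rhs => rw [← map_lmerge ν B]
  rw [integral_map (measurable_lmerge B).aemeasurable hF.meas.aestronglyMeasurable]

/-- Integrate out the coordinates outside `A`. -/
noncomputable def Eo (A : Finset V) (f : (V → X) → ℝ) (x : V → X) : ℝ :=
  ∫ y, f (lmerge A x y) ∂(prodM V ν)

theorem Eo_BM {f : (V → X) → ℝ} (hf : BM f) (A : Finset V) : BM (Eo ν A f) := by
  obtain ⟨C, hC⟩ := hf.bdd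
  refine ⟨?_, ⟨C, fun x => ?_⟩⟩
  · have h : Measurable (fun p : (V → X) × (V → X) => f (lmerge A p.1 p.2)) :=
      hf.meas.comp (measurable_lmerge A)
    exact (h.stronglyMeasurable.integral_prod_right' (ν := prodM V ν)).measurable
  · have := norm_integral_le_of_norm_le_const (μ := prodM V ν) (f := fun y => f (lmerge A x y))
      (C := C) (Filter.Eventually.of_forall fun y => by simpa using hC _)
    unfold Eo
    simpa using this

theorem Eo_dep (A : Finset V) (f : (V → X) → ℝ) {x x' : V → X} (h : ∀ v ∈ A, x v = x' v) :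
    Eo ν A f x = Eo ν A f x' := by
  unfold Eo
  congr 1
  ext y
  congr 1
  ext v
  by_cases hv : v ∈ A
  · rw [lmerge_apply_mem hv, lmerge_apply_mem hv, h v hv]
  · rw [lmerge_apply_not_mem hv, lmerge_apply_not_mem hv]

theorem lmerge_lmerge [DecidableEq V] (A B : Finset V) (x y z : V → X) :
    lmerge B (lmerge A x y) z = lmerge (A ∩ B) x (lmerge B y z) := by
  ext v
  by_cases hB : v ∈ B
  · by_cases hA : v ∈ A
    · rw [lmerge_apply_mem hB, lmerge_apply_mem hA, lmerge_apply_mem (Finset.mem_inter.2 ⟨hA, hB⟩)]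
    · rw [lmerge_apply_mem hB, lmerge_apply_not_mem hA,
        lmerge_apply_not_mem (fun h => hA (Finset.mem_inter.1 h).1), lmerge_apply_mem hB]
  · rw [lmerge_apply_not_mem hB, lmerge_apply_not_mem (fun h => hB (Finset.mem_inter.1 h).2),
      lmerge_apply_not_mem hB]

theorem Eo_Eo [DecidableEq V] {f : (V → X) → ℝ} (hf : BM f) (A B : Finset V) (x : V → X) :
    Eo ν A (Eo ν B f) x = Eo ν (A ∩ B) f x := by
  unfold Eo
  simp_rw [lmerge_lmerge]
  exact integral_lmerge ν (F := fun w => f (lmerge (A ∩ B) x w))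
    (hf.comp ((measurable_lmerge (A ∩ B)).comp (measurable_prodMk_left))) B

theorem integral_Eo {f : (V → X) → ℝ} (hf : BM f) (A : Finset V) :
    ∫ x, Eo ν A f x ∂(prodM V ν) = ∫ x, f x ∂(prodM V ν) :=
  integral_lmerge ν hf A

/-- A function of the coordinates in `B` can be paired with `Eo B ψ` instead of `ψ`. -/
theorem integral_mul_Eo {φ ψ : (V → X) → ℝ} (hφ : BM φ) (hψ : BM ψ) {B : Finset V}
    (hdep : ∀ x x', (∀ v ∈ B, x v = x' v) → φ x = φ x') :
    ∫ x, φ x * ψ x ∂(prodM V ν) = ∫ x, φ x * Eo ν B ψ x ∂(prodM V ν) := by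
  rw [← integral_lmerge ν (hφ.mul hψ) B]
  congr 1
  ext x
  unfold Eo
  rw [← integral_const_mul]
  congr 1
  ext y
  rw [hdep (lmerge B x y) x (fun v hv => lmerge_apply_mem hv)]

/-- The Hoeffding component. -/
noncomputable def Hf (A : Finset V) (f : (V → X) → ℝ) (x : V → X) : ℝ :=
  ∑ B ∈ A.powerset, (-1 : ℝ) ^ (A.card + B.card) * Eo ν B f x

theorem Hf_BM {f : (V → X) → ℝ} (hf : BM f) (A : Finset V) : BM (Hf ν A f) :=
  BM.finset_sum _ fun B _ => (BM.const _).mul (Eo_BM ν hf B)

theorem Hf_dep (A : Finset V) (f : (V → X) → ℝ) {x x' : V → X} (h : ∀ v ∈ A, x v = x' v) :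
    Hf ν A f x = Hf ν A f x' := by
  unfold Hf
  refine Finset.sum_congr rfl fun B hB => ?_
  rw [Eo_dep ν B f fun v hv => h v (Finset.mem_powerset.1 hB hv)]

/-- Sign-reversing pairing on a powerset. -/
theorem sum_sign_eq_zero [DecidableEq V] {A : Finset V} {i : V} (hi : i ∈ A) (F : Finset V → ℝ)
    (hF : ∀ B, i ∉ B → F (insert i B) = F B) :
    ∑ B ∈ A.powerset, (-1 : ℝ) ^ (A.card + B.card) * F B = 0 := by
  have h0 : i ∉ A.erase i := Finset.notMem_erase i A
  have h1 : A = insert i (A.erase i) := (Finset.insert_erase hi).symm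
  generalize A.erase i = A' at h0 h1
  subst h1
  rw [Finset.sum_powerset_insert h0, ← Finset.sum_add_distrib]
  refine Finset.sum_eq_zero fun B hB => ?_
  have hiB : i ∉ B := fun h => h0 (Finset.mem_powerset.1 hB h)
  rw [hF B hiB, Finset.card_insert_of_notMem hiB, ← add_assoc, pow_succ]
  ring

/-- `Hf A f` is orthogonal to functions not depending on a coordinate of `A`. -/
theorem integral_Hf_mul_eq_zero [DecidableEq V] {f G : (V → X) → ℝ} (hf : BM f) (hG : BM G)
    {A D : Finset V} {i : V} (hiA : i ∈ A) (hiD : i ∉ D)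
    (hdep : ∀ x x', (∀ v ∈ D, x v = x' v) → G x = G x') :
    ∫ x, Hf ν A f x * G x ∂(prodM V ν) = 0 := by
  have h1 : ∀ B : Finset V, ∫ x, Eo ν B f x * G x ∂(prodM V ν)
      = ∫ x, G x * Eo ν (D ∩ B) f x ∂(prodM V ν) := by
    intro B
    have h2 : ∫ x, Eo ν B f x * G x ∂(prodM V ν) = ∫ x, G x * Eo ν B f x ∂(prodM V ν) := by
      simp_rw [mul_comm]
    rw [h2, integral_mul_Eo ν hG (Eo_BM ν hf B) hdep]
    simp_rw [Eo_Eo ν hf]
  have h3 : ∫ x, Hf ν A f x * G x ∂(prodM V ν)
      = ∑ B ∈ A.powerset, (-1 : ℝ) ^ (A.card + B.card) * ∫ x, Eo ν B f x * G x ∂(prodM V ν) := by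
    simp only [Hf, Finset.sum_mul]
    rw [integral_finsetSum]
    · refine Finset.sum_congr rfl fun B _ => ?_
      rw [← integral_const_mul]
      simp_rw [mul_assoc]
    · intro B _
      exact (((BM.const _).mul (Eo_BM ν hf B)).mul hG).integrable _
  rw [h3]
  simp_rw [h1]
  refine sum_sign_eq_zero hiA _ fun B hB => ?_
  rw [Finset.inter_insert_of_notMem hiD]

/-- Orthogonality of Hoeffding components. -/
theorem integral_Hf_mul_Hf [DecidableEq V] {f g : (V → X) → ℝ} (hf : BM f) (hg : BM g)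
    {A A' : Finset V} (hne : A ≠ A') :
    ∫ x, Hf ν A f x * Hf ν A' g x ∂(prodM V ν) = 0 := by
  by_cases h : A ⊆ A'
  · have h' : ¬ A' ⊆ A := fun h2 => hne (Finset.Subset.antisymm h h2)
    obtain ⟨i, hi, hi'⟩ := Finset.not_subset.1 h'
    have := integral_Hf_mul_eq_zero ν hg (Hf_BM ν hf A) hi hi' (fun x x' hxx => Hf_dep ν A f hxx)
    simpa [mul_comm] using this
  · obtain ⟨i, hi, hi'⟩ := Finset.not_subset.1 h
    exact integral_Hf_mul_eq_zero ν hf (Hf_BM ν hg A') hi hi' (fun x x' hxx => Hf_dep ν A' g hxx)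

/-- Möbius inversion on a powerset. -/
theorem mobius_sum [DecidableEq V] (F : Finset V) (h : Finset V → ℝ) :
    ∑ A ∈ F.powerset, ∑ B ∈ A.powerset, (-1 : ℝ) ^ (A.card + B.card) * h B = h F := by
  induction F using Finset.induction_on generalizing h with
  | empty => simp
  | insert i F hi ih =>
    rw [Finset.sum_powerset_insert hi]
    have h1 : ∀ A ∈ F.powerset, ∑ B ∈ (insert i A).powerset, (-1 : ℝ) ^ ((insert i A).card + B.card) * h B
        = - ∑ B ∈ A.powerset, (-1 : ℝ) ^ (A.card + B.card) * h B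
          + ∑ B ∈ A.powerset, (-1 : ℝ) ^ (A.card + B.card) * h (insert i B) := by
      intro A hA
      have hiA : i ∉ A := fun h => hi (Finset.mem_powerset.1 hA h)
      rw [Finset.sum_powerset_insert hiA, Finset.card_insert_of_notMem hiA, ← Finset.sum_neg_distrib]
      congr 1
      · refine Finset.sum_congr rfl fun B _ => ?_
        rw [show A.card + 1 + B.card = A.card + B.card + 1 by ring, pow_succ]
        ring
      · refine Finset.sum_congr rfl fun B hB => ?_
        have hiB : i ∉ B := fun h => hiA (Finset.mem_powerset.1 hB h)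
        rw [Finset.card_insert_of_notMem hiB,
          show A.card + 1 + (B.card + 1) = A.card + B.card + 2 by ring, pow_add]
        simp
    rw [Finset.sum_congr rfl h1, Finset.sum_add_distrib, Finset.sum_neg_distrib, ih h,
      ih (fun B => h (insert i B))]
    ring

theorem Eo_of_dep {f : (V → X) → ℝ} {F : Finset V}
    (hdep : ∀ x x', (∀ v ∈ F, x v = x' v) → f x = f x') (x : V → X) : Eo ν F f x = f x := by
  unfold Eo
  have : ∀ y, f (lmerge F x y) = f x := fun y => hdep _ _ fun v hv => lmerge_apply_mem hv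
  simp [this]

/-- Completeness of the Hoeffding decomposition. -/
theorem sum_Hf_eq [DecidableEq V] {f : (V → X) → ℝ} {F : Finset V}
    (hdep : ∀ x x', (∀ v ∈ F, x v = x' v) → f x = f x') (x : V → X) :
    ∑ A ∈ F.powerset, Hf ν A f x = f x := by
  unfold Hf
  rw [mobius_sum F (fun B => Eo ν B f x), Eo_of_dep ν hdep]

theorem Hf_empty (f : (V → X) → ℝ) (x : V → X) : Hf ν ∅ f x = ∫ y, f y ∂(prodM V ν) := by
  have : ∀ y : V → X, lmerge ∅ x y = y := by
    intro y
    ext v
    simp [lmerge]
  simp [Hf, Eo, this]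

/-- Components outside the support vanish. -/
theorem Hf_eq_zero_of_not_subset [DecidableEq V] {f : (V → X) → ℝ} {F A : Finset V}
    (hdep : ∀ x x', (∀ v ∈ F, x v = x' v) → f x = f x') (hA : ¬ A ⊆ F) (x : V → X) :
    Hf ν A f x = 0 := by
  obtain ⟨i, hi, hi'⟩ := Finset.not_subset.1 hA
  refine sum_sign_eq_zero hi _ fun B hB => ?_
  unfold Eo
  congr 1
  ext y
  refine hdep _ _ fun v hv => ?_
  by_cases hvB : v ∈ B
  · rw [lmerge_apply_mem (Finset.mem_insert_of_mem hvB), lmerge_apply_mem hvB]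
  · have hvi : v ≠ i := fun h => hi' (h ▸ hv)
    have : v ∉ insert i B := by
      simp [hvi, hvB]
    rw [lmerge_apply_not_mem this, lmerge_apply_not_mem hvB]

/-- Covariance as a sum over Hoeffding components. -/
theorem cov_eq_sum [DecidableEq V] {f g : (V → X) → ℝ} (hf : BM f) (hg : BM g) {U : Finset V}
    (hdf : ∀ x x', (∀ v ∈ U, x v = x' v) → f x = f x')
    (hdg : ∀ x x', (∀ v ∈ U, x v = x' v) → g x = g x') :
    ∫ x, (f x - ∫ y, f y ∂(prodM V ν)) * (g x - ∫ y, g y ∂(prodM V ν)) ∂(prodM V ν)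
      = ∑ A ∈ U.powerset.erase ∅, ∫ x, Hf ν A f x * Hf ν A g x ∂(prodM V ν) := by
  set m := ∫ y, f y ∂(prodM V ν) with hm
  set m' := ∫ y, g y ∂(prodM V ν) with hm'
  -- the expansions
  have hfx : ∀ x, f x - m = ∑ A ∈ U.powerset.erase ∅, Hf ν A f x := by
    intro x
    rw [← sum_Hf_eq ν hdf x, ← Finset.add_sum_erase _ _ (Finset.empty_mem_powerset U), Hf_empty]
    ring
  have hgx : ∀ x, g x - m' = ∑ A ∈ U.powerset.erase ∅, Hf ν A g x := by
    intro x
    rw [← sum_Hf_eq ν hdg x, ← Finset.add_sum_erase _ _ (Finset.empty_mem_powerset U), Hf_empty]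
    ring
  simp_rw [hfx, hgx, Finset.sum_mul_sum]
  rw [integral_finsetSum]
  · refine Finset.sum_congr rfl fun A _ => ?_
    rw [integral_finsetSum]
    · rw [Finset.sum_eq_single A]
      · intro B _ hB
        exact integral_Hf_mul_Hf ν hf hg (Ne.symm hB)
      · intro h
        exact absurd ‹_› h
    · intro B _
      exact ((Hf_BM ν hf A).mul (Hf_BM ν hg B)).integrable _
  · intro A _
    exact (BM.finset_sum _ fun B _ => (Hf_BM ν hf A).mul (Hf_BM ν hg B)).integrable _

/-! ### Transport by a bijection of the index set -/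

theorem map_comp_equiv (σ : V ≃ V) :
    (prodM V ν).map (fun x => x ∘ σ) = prodM V ν := by
  classical
  have hm : Measurable (fun x : V → X => x ∘ σ) :=
    measurable_pi_iff.2 fun v => measurable_pi_apply (σ v)
  refine Measure.eq_infinitePi _ fun s t ht => ?_
  rw [Measure.map_apply hm (MeasurableSet.pi s.countable_toSet (fun i _ => ht i))]
  have : (fun x : V → X => x ∘ σ) ⁻¹' (Set.pi s t)
      = Set.pi (↑(s.map σ.toEmbedding)) (fun j => t (σ.symm j)) := by
    ext x
    simp only [Set.mem_preimage, Set.mem_pi, Finset.mem_coe,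
      Function.comp, Finset.mem_map, Equiv.coe_toEmbedding]
    constructor
    · rintro h j ⟨i, hi, rfl⟩
      simpa using h i hi
    · intro h i hi
      simpa using h (σ i) ⟨i, hi, rfl⟩
  rw [this, Measure.infinitePi_pi _ (fun i _ => ht _), Finset.prod_map]
  simp

theorem measurePreserving_comp_equiv (σ : V ≃ V) :
    MeasurePreserving (fun x : V → X => x ∘ σ) (prodM V ν) (prodM V ν) :=
  ⟨measurable_pi_iff.2 fun v => measurable_pi_apply (σ v), map_comp_equiv ν σ⟩

theorem lmerge_map_comp (σ : V ≃ V) (A : Finset V) (x y : V → X) :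
    lmerge (A.map σ.toEmbedding) x y ∘ σ = lmerge A (x ∘ σ) (y ∘ σ) := by
  ext v
  by_cases hv : v ∈ A
  · have : σ v ∈ A.map σ.toEmbedding := Finset.mem_map_of_mem _ hv
    simp [lmerge_apply_mem this, lmerge_apply_mem hv]
  · have : σ v ∉ A.map σ.toEmbedding := by
      simpa using hv
    simp [lmerge_apply_not_mem this, lmerge_apply_not_mem hv]

theorem Eo_map_comp {f : (V → X) → ℝ} (hf : BM f) (σ : V ≃ V) (A : Finset V) (x : V → X) :
    Eo ν (A.map σ.toEmbedding) (fun z => f (z ∘ σ)) x = Eo ν A f (x ∘ σ) := by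
  unfold Eo
  simp_rw [lmerge_map_comp]
  have hF : BM (fun w => f (lmerge A (x ∘ σ) w)) :=
    hf.comp ((measurable_lmerge A).comp (measurable_prodMk_left))
  have h1 := integral_map (μ := prodM V ν) (φ := fun x : V → X => x ∘ σ)
    (f := fun w => f (lmerge A (x ∘ σ) w))
    (measurable_pi_iff.2 fun v => measurable_pi_apply (σ v)).aemeasurable
    (by rw [map_comp_equiv ν σ]; exact hF.meas.aestronglyMeasurable)
  rw [map_comp_equiv ν σ] at h1
  exact h1.symm

theorem Hf_map_comp [DecidableEq V] {f : (V → X) → ℝ} (hf : BM f) (σ : V ≃ V) (A : Finset V)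
    (x : V → X) :
    Hf ν (A.map σ.toEmbedding) (fun z => f (z ∘ σ)) x = Hf ν A f (x ∘ σ) := by
  unfold Hf
  have hps : (A.map σ.toEmbedding).powerset
      = A.powerset.map ⟨Finset.map σ.toEmbedding, Finset.map_injective _⟩ := by
    ext B
    simp only [Finset.mem_powerset, Finset.mem_map, Function.Embedding.coeFn_mk,
      Finset.subset_map_iff]
    constructor
    · rintro ⟨u, hu, rfl⟩
      exact ⟨u, hu, rfl⟩
    · rintro ⟨u, hu, rfl⟩
      exact ⟨u, hu, rfl⟩
  rw [hps, Finset.sum_map]
  refine Finset.sum_congr rfl fun B _ => ?_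
  simp only [Finset.card_map, Function.Embedding.coeFn_mk]
  rw [Eo_map_comp ν hf]

/-- Integrate out coordinates: a.e. equal functions have a.e. equal `Eo`. -/
theorem Eo_congr_ae {f g : (V → X) → ℝ} (hfg : f =ᵐ[prodM V ν] g) (A : Finset V) :
    Eo ν A f =ᵐ[prodM V ν] Eo ν A g := by
  have h1 : ∀ᵐ p ∂((prodM V ν).prod (prodM V ν)), f (lmerge A p.1 p.2) = g (lmerge A p.1 p.2) := by
    have hmp : MeasurePreserving (fun p : (V → X) × (V → X) => lmerge A p.1 p.2)
        ((prodM V ν).prod (prodM V ν)) (prodM V ν) := ⟨measurable_lmerge A, map_lmerge ν A⟩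
    exact hmp.quasiMeasurePreserving.ae hfg
  have h2 := Measure.ae_ae_of_ae_prod h1
  filter_upwards [h2] with x hx
  exact integral_congr_ae hx

theorem Hf_congr_ae {f g : (V → X) → ℝ} (hfg : f =ᵐ[prodM V ν] g) (A : Finset V) :
    Hf ν A f =ᵐ[prodM V ν] Hf ν A g := by
  have h : ∀ B ∈ A.powerset, Eo ν B f =ᵐ[prodM V ν] Eo ν B g := fun B _ => Eo_congr_ae ν hfg B
  have h2 : ∀ᵐ x ∂(prodM V ν), ∀ B ∈ A.powerset, Eo ν B f x = Eo ν B g x :=
    (Finset.eventually_all _).2 h
  filter_upwards [h2] with x hx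
  unfold Hf
  exact Finset.sum_congr rfl fun B hB => by rw [hx B hB]

/-- The energy of a component is transported. -/
theorem integral_sq_Hf_map [DecidableEq V] {f f' : (V → X) → ℝ} (hf : BM f) (σ : V ≃ V)
    (hff' : f' =ᵐ[prodM V ν] fun z => f (z ∘ σ)) (A : Finset V) :
    ∫ x, Hf ν (A.map σ.toEmbedding) f' x ^ 2 ∂(prodM V ν) = ∫ x, Hf ν A f x ^ 2 ∂(prodM V ν) := by
  have h1 : (fun x => Hf ν (A.map σ.toEmbedding) f' x ^ 2) =ᵐ[prodM V ν]
      fun x => Hf ν A f (x ∘ σ) ^ 2 := by
    filter_upwards [Hf_congr_ae ν hff' (A.map σ.toEmbedding)] with x hx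
    rw [hx, Hf_map_comp ν hf]
  rw [integral_congr_ae h1]
  have hsq : BM (fun x => Hf ν A f x ^ 2) := by
    have := (Hf_BM ν hf A).mul (Hf_BM ν hf A)
    simpa [sq] using this
  have h2 := integral_map (μ := prodM V ν) (φ := fun x : V → X => x ∘ σ)
    (f := fun x => Hf ν A f x ^ 2)
    (measurable_pi_iff.2 fun v => measurable_pi_apply (σ v)).aemeasurable
    (by rw [map_comp_equiv ν σ]; exact hsq.meas.aestronglyMeasurable)
  rw [map_comp_equiv ν σ] at h2
  exact h2.symm

/-- Cauchy-Schwarz for bounded measurable functions. -/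
theorem abs_integral_mul_le {f g : (V → X) → ℝ} (hf : BM f) (hg : BM g) :
    |∫ x, f x * g x ∂(prodM V ν)|
      ≤ Real.sqrt (∫ x, f x ^ 2 ∂(prodM V ν)) * Real.sqrt (∫ x, g x ^ 2 ∂(prodM V ν)) := by
  have hff : Integrable (fun x => f x ^ 2) (prodM V ν) := by
    have := ((hf.mul hf).integrable (prodM V ν))
    simpa [sq] using this
  have hgg : Integrable (fun x => g x ^ 2) (prodM V ν) := by
    have := ((hg.mul hg).integrable (prodM V ν))
    simpa [sq] using this
  have hfg : Integrable (fun x => f x * g x) (prodM V ν) := (hf.mul hg).integrable _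
  set A := ∫ x, f x ^ 2 ∂(prodM V ν) with hA
  set B := ∫ x, g x ^ 2 ∂(prodM V ν) with hB
  set C := ∫ x, f x * g x ∂(prodM V ν) with hC
  have hA0 : 0 ≤ A := integral_nonneg fun x => sq_nonneg _
  have hB0 : 0 ≤ B := integral_nonneg fun x => sq_nonneg _
  have key : ∀ t : ℝ, 0 ≤ A + 2 * t * C + t ^ 2 * B := by
    intro t
    have h : A + 2 * t * C + t ^ 2 * B = ∫ x, (f x + t * g x) ^ 2 ∂(prodM V ν) := by
      have h1 : ∀ x, (f x + t * g x) ^ 2 = f x ^ 2 + (2 * t) * (f x * g x) + t ^ 2 * g x ^ 2 := by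
        intro x; ring
      simp_rw [h1]
      have i1 : Integrable (fun x => f x ^ 2 + 2 * t * (f x * g x)) (prodM V ν) :=
        hff.add (hfg.const_mul _)
      have i2 : Integrable (fun x => t ^ 2 * g x ^ 2) (prodM V ν) := hgg.const_mul _
      rw [integral_add i1 i2, integral_add hff (hfg.const_mul _), integral_const_mul,
        integral_const_mul]
    rw [h]
    exact integral_nonneg fun x => sq_nonneg _
  have hC2 : C ^ 2 ≤ A * B := by
    by_cases hB' : B = 0
    · -- then `C = 0`
      have h0 : C = 0 := by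
        by_contra hne
        have := key (-(A + 1) / (2 * C))
        rw [hB'] at this
        have h3 : 2 * (-(A + 1) / (2 * C)) * C = -(A + 1) := by
          field_simp
        nlinarith
      rw [h0, hB']
      simp
    · have hBpos : 0 < B := lt_of_le_of_ne hB0 (Ne.symm hB')
      have := key (-C / B)
      have h3 : A + 2 * (-C / B) * C + (-C / B) ^ 2 * B = A - C ^ 2 / B := by
        field_simp
        ring
      rw [h3] at this
      have h4 : C ^ 2 / B ≤ A := by linarith
      rw [div_le_iff₀ hBpos] at h4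
      exact h4
  calc |C| = Real.sqrt (C ^ 2) := (Real.sqrt_sq_eq_abs C).symm
    _ ≤ Real.sqrt (A * B) := Real.sqrt_le_sqrt hC2
    _ = Real.sqrt A * Real.sqrt B := Real.sqrt_mul hA0 B

end Prob

end Crest.Agent.Lib.IsingFIID
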