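/-
Row 160 (S0241): the Haagerup-type summation on the regular tree: two functions radial around two
edges at distance `l` have inner product at most `(l + 2) q ^ (l - 1)` times the product of norms,
`q = (d - 1) ^ (-1/2)`.
-/
import Crest.Agent.Lib.IsingFIID.TreeAut

set_option autoImplicit false
set_option linter.unusedSectionVars false

namespace Crest.Agent.Lib.IsingFIID

open SimpleGraph

universe u

variable {V : Type u} {G : SimpleGraph V}

/-- A sum of a function of a "height" with a bound on the fibre sizes. -/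
theorem sum_height_le {S : Finset V} (h : V → ℕ) (C φ : ℕ → ℝ) (hφ : ∀ n, 0 ≤ φ n)
    (hC : ∀ n, (((S.filter fun v => h v = n).card : ℕ) : ℝ) ≤ C n) (T : ℕ)
    (hT : ∀ v ∈ S, h v < T) :
    ∑ v ∈ S, φ (h v) ≤ ∑ n ∈ Finset.range T, C n * φ n := by
  classical
  have h1 : ∑ v ∈ S, φ (h v) = ∑ n ∈ Finset.range T, ∑ v ∈ S.filter (fun v => h v = n), φ (h v) :=
    (Finset.sum_fiberwise_of_maps_to (fun v hv => Finset.mem_range.2 (hT v hv)) _).symm
  rw [h1]
  refine Finset.sum_le_sum fun n _ => ?_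
  have h2 : ∑ v ∈ S.filter (fun v => h v = n), φ (h v)
      = ((S.filter fun v => h v = n).card : ℝ) * φ n := by
    rw [Finset.sum_congr rfl (g := fun _ => φ n)]
    · simp
    · intro v hv
      rw [(Finset.mem_filter.1 hv).2]
  rw [h2]
  exact mul_le_mul_of_nonneg_right (hC n) (hφ n)

/-- Sector estimate. -/
theorem sector_le {S : Finset V} (h : V → ℕ) (b b' : V → ℝ) (hb : ∀ v, 0 ≤ b v)
    (hb' : ∀ v, 0 ≤ b' v) {D q : ℝ} (hq : 0 ≤ q) (hDq : D * q ^ 2 = 1)
    (hcard : ∀ n, (((S.filter fun v => h v = n).card : ℕ) : ℝ) ≤ D ^ n)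
    {α β : ℕ} {E E' : ℕ → ℝ} (hE : ∀ n, 0 ≤ E n) (hE' : ∀ n, 0 ≤ E' n)
    (hbE : ∀ v ∈ S, b v ^ 2 ≤ (q ^ (α + h v)) ^ 2 * E (α + h v))
    (hbE' : ∀ v ∈ S, b' v ^ 2 ≤ (q ^ (β + h v)) ^ 2 * E' (β + h v))
    {B B' : ℝ} (hB : ∀ T, ∑ t ∈ Finset.range T, E t ≤ B) (hB' : ∀ T, ∑ t ∈ Finset.range T, E' t ≤ B') :
    ∑ v ∈ S, b v * b' v ≤ q ^ (α + β) * (Real.sqrt B * Real.sqrt B') := by
  classical
  obtain ⟨T, hT⟩ : ∃ T, ∀ v ∈ S, h v < T := by
    refine ⟨(S.sup h) + 1, fun v hv => ?_⟩
    have : h v ≤ S.sup h := Finset.le_sup hv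
    omega
  set φ : ℕ → ℝ := fun n =>
    q ^ (α + β) * (q ^ n) ^ 2 * (Real.sqrt (E (α + n)) * Real.sqrt (E' (β + n))) with hφdef
  have hφ : ∀ n, 0 ≤ φ n := fun n => by positivity
  have h1 : ∀ v ∈ S, b v * b' v ≤ φ (h v) := by
    intro v hv
    have h2 : b v ≤ q ^ (α + h v) * Real.sqrt (E (α + h v)) := by
      have h3 := hbE v hv
      have h4 : (q ^ (α + h v) * Real.sqrt (E (α + h v))) ^ 2
          = (q ^ (α + h v)) ^ 2 * E (α + h v) := by
        rw [mul_pow, Real.sq_sqrt (hE _)]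
      rw [← h4] at h3
      exact abs_le_of_sq_le_sq' h3 (by positivity) |>.2
    have h2' : b' v ≤ q ^ (β + h v) * Real.sqrt (E' (β + h v)) := by
      have h3 := hbE' v hv
      have h4 : (q ^ (β + h v) * Real.sqrt (E' (β + h v))) ^ 2
          = (q ^ (β + h v)) ^ 2 * E' (β + h v) := by
        rw [mul_pow, Real.sq_sqrt (hE' _)]
      rw [← h4] at h3
      exact abs_le_of_sq_le_sq' h3 (by positivity) |>.2
    calc b v * b' v ≤ (q ^ (α + h v) * Real.sqrt (E (α + h v)))
          * (q ^ (β + h v) * Real.sqrt (E' (β + h v))) :=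
          mul_le_mul h2 h2' (hb' v) (by positivity)
      _ = φ (h v) := by
          simp only [hφdef, pow_add]
          ring
  have h2 : ∑ v ∈ S, φ (h v) ≤ ∑ n ∈ Finset.range T, D ^ n * φ n :=
    sum_height_le h (fun n => D ^ n) φ hφ hcard T hT
  have h3 : ∀ n, D ^ n * φ n
      = q ^ (α + β) * (Real.sqrt (E (α + n)) * Real.sqrt (E' (β + n))) := by
    intro n
    have : D ^ n * (q ^ n) ^ 2 = 1 := by
      rw [← pow_mul, mul_comm n 2, pow_mul, ← mul_pow, hDq, one_pow]
    simp only [hφdef]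
    calc D ^ n * (q ^ (α + β) * (q ^ n) ^ 2 * (Real.sqrt (E (α + n)) * Real.sqrt (E' (β + n))))
        = (D ^ n * (q ^ n) ^ 2) * (q ^ (α + β) * (Real.sqrt (E (α + n)) * Real.sqrt (E' (β + n)))) := by
          ring
      _ = _ := by rw [this, one_mul]
  have h4 : ∑ n ∈ Finset.range T, (Real.sqrt (E (α + n)) * Real.sqrt (E' (β + n)))
      ≤ Real.sqrt (∑ n ∈ Finset.range T, Real.sqrt (E (α + n)) ^ 2)
        * Real.sqrt (∑ n ∈ Finset.range T, Real.sqrt (E' (β + n)) ^ 2) :=
    Real.sum_mul_le_sqrt_mul_sqrt _ _ _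
  have shift : ∀ (F : ℕ → ℝ) (hF : ∀ n, 0 ≤ F n) (γ : ℕ),
      ∑ n ∈ Finset.range T, F (γ + n) ≤ ∑ n ∈ Finset.range (γ + T), F n := by
    intro F hF γ
    rw [Finset.sum_range_add]
    have := Finset.sum_nonneg (s := Finset.range γ) (f := F) (fun n _ => hF n)
    linarith
  have h5 : ∑ n ∈ Finset.range T, Real.sqrt (E (α + n)) ^ 2 ≤ B := by
    simp_rw [Real.sq_sqrt (hE _)]
    exact (shift E hE α).trans (hB _)
  have h6 : ∑ n ∈ Finset.range T, Real.sqrt (E' (β + n)) ^ 2 ≤ B' := by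
    simp_rw [Real.sq_sqrt (hE' _)]
    exact (shift E' hE' β).trans (hB' _)
  calc ∑ v ∈ S, b v * b' v ≤ ∑ v ∈ S, φ (h v) := Finset.sum_le_sum h1
    _ ≤ ∑ n ∈ Finset.range T, D ^ n * φ n := h2
    _ = q ^ (α + β) * ∑ n ∈ Finset.range T, (Real.sqrt (E (α + n)) * Real.sqrt (E' (β + n))) := by
        rw [Finset.mul_sum]
        exact Finset.sum_congr rfl fun n _ => h3 n
    _ ≤ q ^ (α + β) * (Real.sqrt B * Real.sqrt B') := by
        refine mul_le_mul_of_nonneg_left ?_ (by positivity)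
        refine h4.trans ?_
        exact mul_le_mul (Real.sqrt_le_sqrt h5) (Real.sqrt_le_sqrt h6) (Real.sqrt_nonneg _)
          (Real.sqrt_nonneg _)

section Radial

variable [G.LocallyFinite]

/-- Radial bound on a cone: each value squared is the normalized cone energy. -/
theorem sq_le_of_radial {d : ℕ} (hT : G.IsTree) (hreg : G.IsRegularOfDegree d) {a c : V}
    (hac : G.Adj a c) (b : V → ℝ) {n : ℕ}
    (hrad : ∀ u ∈ cone G a c n, ∀ u' ∈ cone G a c n, b u = b u') {q : ℝ}
    (hDq : ((d - 1 : ℕ) : ℝ) * q ^ 2 = 1) {v : V} (hv : v ∈ cone G a c n) :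
    b v ^ 2 = (q ^ n) ^ 2 * ∑ u ∈ cone G a c n, b u ^ 2 := by
  have h1 : ∑ u ∈ cone G a c n, b u ^ 2 = ((d - 1 : ℕ) : ℝ) ^ n * b v ^ 2 := by
    rw [Finset.sum_congr rfl (g := fun _ => b v ^ 2) (fun u hu => by rw [hrad u hu v hv]),
      Finset.sum_const, card_cone hT hreg hac, nsmul_eq_mul]
    push_cast
    ring
  rw [h1]
  have h2 : ((d - 1 : ℕ) : ℝ) ^ n * (q ^ n) ^ 2 = 1 := by
    rw [← pow_mul, mul_comm n 2, pow_mul, ← mul_pow, hDq, one_pow]
  calc b v ^ 2 = (((d - 1 : ℕ) : ℝ) ^ n * (q ^ n) ^ 2) * b v ^ 2 := by rw [h2, one_mul]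
    _ = _ := by ring

/-- The energy in the cones of an edge is at most the total energy. -/
theorem sum_cone_energy_le (hT : G.IsTree) {a c : V} (hac : G.Adj a c) (b : V → ℝ) {S : Finset V}
    (hS : ∀ v, v ∉ S → b v = 0) (T : ℕ) :
    ∑ t ∈ Finset.range T, ∑ u ∈ cone G a c t, b u ^ 2 ≤ ∑ u ∈ S, b u ^ 2 := by
  classical
  have hd : ∀ t₁ ∈ (Finset.range T : Set ℕ), ∀ t₂ ∈ (Finset.range T : Set ℕ), t₁ ≠ t₂ →
      Disjoint (cone G a c t₁) (cone G a c t₂) := fun t₁ _ t₂ _ h => cone_disjoint_level hT hac h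
  rw [← Finset.sum_biUnion hd]
  set C := (Finset.range T).biUnion fun t => cone G a c t with hC
  have h1 : ∑ u ∈ C, b u ^ 2 = ∑ u ∈ C ∩ S, b u ^ 2 := by
    refine (Finset.sum_subset Finset.inter_subset_left ?_).symm
    intro v _ hv
    have : v ∉ S := fun h => hv (Finset.mem_inter.2 ⟨‹_›, h⟩)
    rw [hS v this]
    simp
  rw [h1]
  exact Finset.sum_le_sum_of_subset_of_nonneg Finset.inter_subset_right
    (fun _ _ _ => sq_nonneg _)

/-- Total energy in both sides. -/
theorem sum_two_sides_le (hT : G.IsTree) {a c : V} (hac : G.Adj a c) (b : V → ℝ) {S : Finset V}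
    (hS : ∀ v, v ∉ S → b v = 0) (T : ℕ) :
    ∑ t ∈ Finset.range T, (∑ u ∈ cone G a c t, b u ^ 2 + ∑ u ∈ cone G c a t, b u ^ 2)
      ≤ ∑ u ∈ S, b u ^ 2 := by
  classical
  rw [Finset.sum_add_distrib]
  have hd : Disjoint ((Finset.range T).biUnion fun t => cone G a c t)
      ((Finset.range T).biUnion fun t => cone G c a t) := by
    rw [Finset.disjoint_biUnion_left]
    intro i _
    rw [Finset.disjoint_biUnion_right]
    intro j _
    exact cone_disjoint_side hT hac i j
  have h1 := Finset.sum_biUnion (s := Finset.range T) (t := fun t => cone G a c t) (f := fun u => b u ^ 2)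
    (fun t₁ _ t₂ _ h => cone_disjoint_level hT hac h)
  have h2 := Finset.sum_biUnion (s := Finset.range T) (t := fun t => cone G c a t) (f := fun u => b u ^ 2)
    (fun t₁ _ t₂ _ h => cone_disjoint_level hT hac.symm h)
  rw [← h1, ← h2, ← Finset.sum_union hd]
  set C := ((Finset.range T).biUnion fun t => cone G a c t) ∪
    ((Finset.range T).biUnion fun t => cone G c a t) with hC
  have h3 : ∑ u ∈ C, b u ^ 2 = ∑ u ∈ C ∩ S, b u ^ 2 := by
    refine (Finset.sum_subset Finset.inter_subset_left ?_).symm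
    intro v _ hv
    have : v ∉ S := fun h => hv (Finset.mem_inter.2 ⟨‹_›, h⟩)
    rw [hS v this]
    simp
  rw [h3]
  exact Finset.sum_le_sum_of_subset_of_nonneg Finset.inter_subset_right
    (fun _ _ _ => sq_nonneg _)

/-- Radial around an edge `(a, c)`. -/
def RadialAt (G : SimpleGraph V) [G.LocallyFinite] (a c : V) (b : V → ℝ) : Prop :=
  ∀ n, (∀ u ∈ cone G a c n, ∀ u' ∈ cone G a c n, b u = b u') ∧
    (∀ u ∈ cone G c a n, ∀ u' ∈ cone G c a n, b u = b u')

/-- The Haagerup-type inequality: functions radial around two edges of a geodesic. -/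
theorem tree_sum_le {d : ℕ} (hT : G.IsTree) (hreg : G.IsRegularOfDegree d)
    {x : ℕ → V} {l : ℕ} (hx : IsGeod G x (l + 1)) (hl : 1 ≤ l)
    (b b' : V → ℝ) (hb : ∀ v, 0 ≤ b v) (hb' : ∀ v, 0 ≤ b' v)
    (hrad : RadialAt G (x 0) (x 1) b) (hrad' : RadialAt G (x l) (x (l + 1)) b')
    {S₁ S₂ : Finset V} (hS₁ : ∀ v, v ∉ S₁ → b v = 0) (hS₂ : ∀ v, v ∉ S₂ → b' v = 0)
    {q : ℝ} (hq : 0 ≤ q) (hq1 : q ≤ 1) (hDq : ((d - 1 : ℕ) : ℝ) * q ^ 2 = 1) (S : Finset V) :
    ∑ v ∈ S, b v * b' v
      ≤ ((l : ℝ) + 2) * q ^ (l - 1) *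
        (Real.sqrt (∑ u ∈ S₁, b u ^ 2) * Real.sqrt (∑ u ∈ S₂, b' u ^ 2)) := by
  classical
  set B := ∑ u ∈ S₁, b u ^ 2 with hBdef
  set B' := ∑ u ∈ S₂, b' u ^ 2 with hB'def
  -- projections
  have hproj := fun v => exists_proj hT hx v
  choose w hw hw1 hw2 using hproj
  set h : V → ℕ := fun v => G.dist v (x (w v)) with hh
  have ha01 : G.Adj (x 0) (x 1) := hx.adj 0 (by omega)
  have hall : G.Adj (x l) (x (l + 1)) := hx.adj l (by omega)
  -- the split
  have hsplit : ∑ v ∈ S, b v * b' v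
      = ∑ i ∈ Finset.range (l + 2), ∑ v ∈ S.filter (fun v => w v = i), b v * b' v :=
    (Finset.sum_fiberwise_of_maps_to (fun v _ => Finset.mem_range.2 (by have := hw v; omega)) _).symm
  -- fibre sizes
  have hcard : ∀ i, i ≤ l + 1 → ∀ n,
      ((((S.filter (fun v => w v = i)).filter fun v => h v = n).card : ℕ) : ℝ)
        ≤ ((d - 1 : ℕ) : ℝ) ^ n := by
    intro i hi n
    by_cases hil : i < l + 1
    · have hsub : ((S.filter (fun v => w v = i)).filter fun v => h v = n)
          ⊆ cone G (x (i + 1)) (x i) n := by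
        intro v hv
        simp only [Finset.mem_filter] at hv
        obtain ⟨⟨-, h1⟩, h2⟩ := hv
        subst h1
        have := mem_cone_of_proj hT hx (hw := hil) (h2 := hw2 v)
        rw [← h2]
        exact this
      have := Finset.card_le_card hsub
      rw [card_cone hT hreg (hx.adj i hil).symm] at this
      exact_mod_cast this
    · have hi' : i = l + 1 := by omega
      subst hi'
      have hsub : ((S.filter (fun v => w v = l + 1)).filter fun v => h v = n)
          ⊆ cone G (x l) (x (l + 1)) n := by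
        intro v hv
        simp only [Finset.mem_filter] at hv
        obtain ⟨⟨-, h1⟩, h2⟩ := hv
        have := mem_cone_of_proj_end hT hx (v := v) (by
          intro i hi
          have := hw1 v i (by omega)
          rw [h1] at this
          exact this)
        have h3 : G.dist v (x (l + 1)) = n := by
          have : h v = G.dist v (x (w v)) := rfl
          rw [h1] at this
          omega
        rw [← h3]
        exact this
      have := Finset.card_le_card hsub
      rw [card_cone hT hreg hall] at this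
      exact_mod_cast this
  -- energies
  have hEp : ∀ T, ∑ t ∈ Finset.range T, ∑ u ∈ cone G (x 0) (x 1) t, b u ^ 2 ≤ B :=
    fun T => sum_cone_energy_le hT ha01 b hS₁ T
  have hEm : ∀ T, ∑ t ∈ Finset.range T, ∑ u ∈ cone G (x 1) (x 0) t, b u ^ 2 ≤ B :=
    fun T => sum_cone_energy_le hT ha01.symm b hS₁ T
  have hEp' : ∀ T, ∑ t ∈ Finset.range T, ∑ u ∈ cone G (x l) (x (l + 1)) t, b' u ^ 2 ≤ B' :=
    fun T => sum_cone_energy_le hT hall b' hS₂ T
  have hEm' : ∀ T, ∑ t ∈ Finset.range T, ∑ u ∈ cone G (x (l + 1)) (x l) t, b' u ^ 2 ≤ B' :=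
    fun T => sum_cone_energy_le hT hall.symm b' hS₂ T
  -- membership in the cones
  have h01 : ∀ v, w v = 0 → v ∈ cone G (x 1) (x 0) (h v) := by
    intro v hv
    refine (mem_cone hT ha01.symm).2 ⟨?_, ?_⟩
    · simp only [hh, hv]
      exact dc G _ _
    · have := hw2 v 1 (by omega) (by omega)
      rw [hv] at this
      simp only [hh, hv]
      rw [dc G (x 1) v, this]
  have h0p : ∀ v, 1 ≤ w v → v ∈ cone G (x 0) (x 1) (w v - 1 + h v) := by
    intro v hv
    refine (mem_cone hT ha01).2 ⟨?_, ?_⟩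
    · have := hw1 v 1 hv
      rw [dc G (x 1) v, this]
      simp only [hh]
      omega
    · have := hw1 v 0 (by omega)
      rw [dc G (x 0) v, this]
      simp only [hh]
      omega
  have hl1 : ∀ v, w v ≤ l → v ∈ cone G (x (l + 1)) (x l) (l - w v + h v) := by
    intro v hv
    refine (mem_cone hT hall.symm).2 ⟨?_, ?_⟩
    · have := hw2 v l hv (by omega)
      rw [dc G (x l) v, this]
      simp only [hh]
      omega
    · have := hw2 v (l + 1) (by omega) (by omega)
      rw [dc G (x (l + 1)) v, this]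
      simp only [hh]
      omega
  have hlp : ∀ v, w v = l + 1 → v ∈ cone G (x l) (x (l + 1)) (h v) := by
    intro v hv
    refine (mem_cone hT hall).2 ⟨?_, ?_⟩
    · simp only [hh, hv]
      exact dc G _ _
    · have := hw1 v l (by omega)
      rw [hv] at this
      simp only [hh, hv]
      rw [dc G (x l) v, this]
      congr 1
      omega
  -- the three kinds of fibres
  have hsq : ∀ {a c : V} {bb : V → ℝ} (_ : G.Adj a c) (_ : ∀ n,
      (∀ u ∈ cone G a c n, ∀ u' ∈ cone G a c n, bb u = bb u')) {n : ℕ} {v : V},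
      v ∈ cone G a c n → bb v ^ 2 = (q ^ n) ^ 2 * ∑ u ∈ cone G a c n, bb u ^ 2 := by
    intro a c bb hac hr n v hv
    exact sq_le_of_radial hT hreg hac bb (hr n) hDq hv
  have hfib0 : ∑ v ∈ S.filter (fun v => w v = 0), b v * b' v
      ≤ q ^ (0 + l) * (Real.sqrt B * Real.sqrt B') := by
    refine sector_le (α := 0) (β := l) h b b' hb hb' hq hDq (hcard 0 (by omega))
      (E := fun t => ∑ u ∈ cone G (x 1) (x 0) t, b u ^ 2)
      (E' := fun t => ∑ u ∈ cone G (x (l + 1)) (x l) t, b' u ^ 2)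
      (fun n => Finset.sum_nonneg fun _ _ => sq_nonneg _)
      (fun n => Finset.sum_nonneg fun _ _ => sq_nonneg _) ?_ ?_ hEm hEm'
    · intro v hv
      have hv0 := (Finset.mem_filter.1 hv).2
      rw [zero_add]
      exact (hsq ha01.symm (fun n => (hrad n).2) (h01 v hv0)).le
    · intro v hv
      have hv0 := (Finset.mem_filter.1 hv).2
      have := hl1 v (by omega)
      rw [hv0, Nat.sub_zero] at this
      exact (hsq hall.symm (fun n => (hrad' n).2) this).le
  have hfibl : ∑ v ∈ S.filter (fun v => w v = l + 1), b v * b' v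
      ≤ q ^ (l + 0) * (Real.sqrt B * Real.sqrt B') := by
    refine sector_le (α := l) (β := 0) h b b' hb hb' hq hDq (hcard (l + 1) (by omega))
      (E := fun t => ∑ u ∈ cone G (x 0) (x 1) t, b u ^ 2)
      (E' := fun t => ∑ u ∈ cone G (x l) (x (l + 1)) t, b' u ^ 2)
      (fun n => Finset.sum_nonneg fun _ _ => sq_nonneg _)
      (fun n => Finset.sum_nonneg fun _ _ => sq_nonneg _) ?_ ?_ hEp hEp'
    · intro v hv
      have hv0 := (Finset.mem_filter.1 hv).2
      have := h0p v (by omega)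
      rw [hv0, Nat.add_sub_cancel] at this
      exact (hsq ha01 (fun n => (hrad n).1) this).le
    · intro v hv
      have hv0 := (Finset.mem_filter.1 hv).2
      rw [zero_add]
      exact (hsq hall (fun n => (hrad' n).1) (hlp v hv0)).le
  have hfibm : ∀ i, 1 ≤ i → i ≤ l → ∑ v ∈ S.filter (fun v => w v = i), b v * b' v
      ≤ q ^ ((i - 1) + (l - i)) * (Real.sqrt B * Real.sqrt B') := by
    intro i hi1 hil
    refine sector_le (α := i - 1) (β := l - i) h b b' hb hb' hq hDq (hcard i (by omega))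
      (E := fun t => ∑ u ∈ cone G (x 0) (x 1) t, b u ^ 2)
      (E' := fun t => ∑ u ∈ cone G (x (l + 1)) (x l) t, b' u ^ 2)
      (fun n => Finset.sum_nonneg fun _ _ => sq_nonneg _)
      (fun n => Finset.sum_nonneg fun _ _ => sq_nonneg _) ?_ ?_ hEp hEm'
    · intro v hv
      have hv0 := (Finset.mem_filter.1 hv).2
      have := h0p v (by omega)
      rw [hv0] at this
      exact (hsq ha01 (fun n => (hrad n).1) this).le
    · intro v hv
      have hv0 := (Finset.mem_filter.1 hv).2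
      have := hl1 v (by omega)
      rw [hv0] at this
      exact (hsq hall.symm (fun n => (hrad' n).2) this).le
  -- all fibres have the same bound
  set Q := q ^ (l - 1) * (Real.sqrt B * Real.sqrt B') with hQ
  have hQ0 : 0 ≤ Q := by positivity
  have hpow : q ^ l ≤ q ^ (l - 1) := pow_le_pow_of_le_one hq hq1 (by omega)
  have hfib : ∀ i ∈ Finset.range (l + 2), ∑ v ∈ S.filter (fun v => w v = i), b v * b' v ≤ Q := by
    intro i hi
    have hi' : i < l + 2 := Finset.mem_range.1 hi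
    have hnn : 0 ≤ Real.sqrt B * Real.sqrt B' := by positivity
    by_cases h0 : i = 0
    · subst h0
      refine hfib0.trans ?_
      rw [zero_add]
      exact mul_le_mul_of_nonneg_right hpow hnn
    · by_cases h1 : i = l + 1
      · subst h1
        refine hfibl.trans ?_
        rw [add_zero]
        exact mul_le_mul_of_nonneg_right hpow hnn
      · refine (hfibm i (by omega) (by omega)).trans ?_
        rw [show i - 1 + (l - i) = l - 1 by omega]
  rw [hsplit]
  refine (Finset.sum_le_sum hfib).trans ?_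
  simp only [Finset.sum_const, Finset.card_range, nsmul_eq_mul]
  push_cast
  rw [hQ]
  apply le_of_eq
  ring

end Radial

end Crest.Agent.Lib.IsingFIID
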