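/-
Row 160 (S0241): the Backhausz-Szegedy-Virag correlation decay in elementary form:
for an equivariant family of local bounded functions of i.i.d. labels indexed by directed edges
of the `d`-regular tree, the variance of a path sum is linear in the length of the path.
-/
import Crest.Agent.Lib.IsingFIID.Hoeffding
import Crest.Agent.Lib.IsingFIID.TreeSum

set_option autoImplicit false
set_option linter.unusedSectionVars false

namespace Crest.Agent.Lib.IsingFIID

open MeasureTheory SimpleGraph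

universe u w

variable {V : Type u} {X : Type w} [MeasurableSpace X] (ν : Measure X) [IsProbabilityMeasure ν]

/-- Energy of a Hoeffding component. -/
noncomputable def aSq (A : Finset V) (f : (V → X) → ℝ) : ℝ := ∫ x, Hf ν A f x ^ 2 ∂(prodM V ν)

/-- Energy of `f` at a vertex: share `1 / |A|` of each component containing the vertex. -/
noncomputable def bSq [DecidableEq V] (F : Finset V) (f : (V → X) → ℝ) (v : V) : ℝ :=
  ∑ A ∈ (F.powerset.erase ∅).filter (fun A => v ∈ A), aSq ν A f / (A.card : ℝ)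

theorem aSq_nonneg (A : Finset V) (f : (V → X) → ℝ) : 0 ≤ aSq ν A f :=
  integral_nonneg fun _ => sq_nonneg _

theorem bSq_nonneg [DecidableEq V] (F : Finset V) (f : (V → X) → ℝ) (v : V) : 0 ≤ bSq ν F f v :=
  Finset.sum_nonneg fun A _ => div_nonneg (aSq_nonneg ν A f) (Nat.cast_nonneg _)

theorem bSq_eq_zero_of_not_mem [DecidableEq V] {F : Finset V} (f : (V → X) → ℝ) {v : V} (hv : v ∉ F) :
    bSq ν F f v = 0 := by
  unfold bSq
  refine Finset.sum_eq_zero_iff_of_nonneg
    (fun A _ => div_nonneg (aSq_nonneg ν A f) (Nat.cast_nonneg _)) |>.2 ?_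
  intro A hA
  exfalso
  obtain ⟨h1, h2⟩ := Finset.mem_filter.1 hA
  exact hv (Finset.mem_powerset.1 (Finset.mem_of_mem_erase h1) h2)

theorem aSq_eq_zero_of_not_subset [DecidableEq V] {f : (V → X) → ℝ} {F A : Finset V}
    (hdep : ∀ x x', (∀ v ∈ F, x v = x' v) → f x = f x') (hA : ¬ A ⊆ F) : aSq ν A f = 0 := by
  unfold aSq
  simp [Hf_eq_zero_of_not_subset ν hdep hA]

/-- The vertex energy does not depend on the support set. -/
theorem bSq_eq_of_subset [DecidableEq V] {f : (V → X) → ℝ} {F U : Finset V} (hFU : F ⊆ U)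
    (hdep : ∀ x x', (∀ v ∈ F, x v = x' v) → f x = f x') (v : V) :
    bSq ν U f v = bSq ν F f v := by
  unfold bSq
  symm
  refine Finset.sum_subset ?_ ?_
  · intro A hA
    obtain ⟨h1, h2⟩ := Finset.mem_filter.1 hA
    obtain ⟨h3, h4⟩ := Finset.mem_erase.1 h1
    exact Finset.mem_filter.2 ⟨Finset.mem_erase.2 ⟨h3, Finset.mem_powerset.2
      ((Finset.mem_powerset.1 h4).trans hFU)⟩, h2⟩
  · intro A hA hA'
    obtain ⟨h1, h2⟩ := Finset.mem_filter.1 hA
    obtain ⟨h3, h4⟩ := Finset.mem_erase.1 h1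
    have h5 : ¬ A ⊆ F := by
      intro h
      exact hA' (Finset.mem_filter.2 ⟨Finset.mem_erase.2 ⟨h3, Finset.mem_powerset.2 h⟩, h2⟩)
    rw [aSq_eq_zero_of_not_subset ν hdep h5, zero_div]

/-- Variance as the sum of component energies. -/
theorem var_eq_sum_aSq [DecidableEq V] {f : (V → X) → ℝ} (hf : BM f) {F : Finset V}
    (hdep : ∀ x x', (∀ v ∈ F, x v = x' v) → f x = f x') :
    ∫ x, (f x - ∫ y, f y ∂(prodM V ν)) ^ 2 ∂(prodM V ν) = ∑ A ∈ F.powerset.erase ∅, aSq ν A f := by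
  have := cov_eq_sum ν hf hf hdep hdep
  simp only [← sq] at this
  exact this

/-- Summing the vertex energies gives the variance. -/
theorem sum_bSq [DecidableEq V] {f : (V → X) → ℝ} (hf : BM f) {F : Finset V}
    (hdep : ∀ x x', (∀ v ∈ F, x v = x' v) → f x = f x') :
    ∑ v ∈ F, bSq ν F f v = ∫ x, (f x - ∫ y, f y ∂(prodM V ν)) ^ 2 ∂(prodM V ν) := by
  rw [var_eq_sum_aSq ν hf hdep]
  unfold bSq
  simp_rw [Finset.sum_filter]
  rw [Finset.sum_comm]
  refine Finset.sum_congr rfl fun A hA => ?_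
  obtain ⟨h3, h4⟩ := Finset.mem_erase.1 hA
  have h5 := Finset.mem_powerset.1 h4
  rw [← Finset.sum_filter, Finset.filter_mem_eq_inter, Finset.inter_eq_right.2 h5]
  simp only [Finset.sum_const, nsmul_eq_mul]
  have : (A.card : ℝ) ≠ 0 := by
    simpa [Finset.card_eq_zero] using h3
  field_simp

/-- The covariance is bounded through vertex energies. -/
theorem cov_le_sum_b [DecidableEq V] {f g : (V → X) → ℝ} (hf : BM f) (hg : BM g) {F F' : Finset V}
    (hdf : ∀ x x', (∀ v ∈ F, x v = x' v) → f x = f x')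
    (hdg : ∀ x x', (∀ v ∈ F', x v = x' v) → g x = g x') :
    |∫ x, (f x - ∫ y, f y ∂(prodM V ν)) * (g x - ∫ y, g y ∂(prodM V ν)) ∂(prodM V ν)|
      ≤ ∑ v ∈ F ∪ F', Real.sqrt (bSq ν F f v) * Real.sqrt (bSq ν F' g v) := by
  set U := F ∪ F' with hU
  have hdf' : ∀ x x', (∀ v ∈ U, x v = x' v) → f x = f x' := fun x x' h =>
    hdf x x' fun v hv => h v (Finset.mem_union_left _ hv)
  have hdg' : ∀ x x', (∀ v ∈ U, x v = x' v) → g x = g x' := fun x x' h =>
    hdg x x' fun v hv => h v (Finset.mem_union_right _ hv)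
  rw [cov_eq_sum ν hf hg hdf' hdg']
  set 𝔸 := U.powerset.erase ∅ with h𝔸
  have h1 : ∀ A ∈ 𝔸, |∫ x, Hf ν A f x * Hf ν A g x ∂(prodM V ν)|
      ≤ Real.sqrt (aSq ν A f) * Real.sqrt (aSq ν A g) := fun A _ =>
    abs_integral_mul_le ν (Hf_BM ν hf A) (Hf_BM ν hg A)
  have h2 : ∀ A ∈ 𝔸, Real.sqrt (aSq ν A f) * Real.sqrt (aSq ν A g)
      = ∑ v ∈ U, if v ∈ A then
        (Real.sqrt (aSq ν A f / (A.card : ℝ))) * (Real.sqrt (aSq ν A g / (A.card : ℝ))) else 0 := by
    intro A hA
    obtain ⟨h3, h4⟩ := Finset.mem_erase.1 hA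
    have h5 := Finset.mem_powerset.1 h4
    rw [← Finset.sum_filter, Finset.filter_mem_eq_inter, Finset.inter_eq_right.2 h5]
    simp only [Finset.sum_const, nsmul_eq_mul]
    have hc : (0 : ℝ) < (A.card : ℝ) := by
      have : 0 < A.card := Finset.card_pos.2 (Finset.nonempty_iff_ne_empty.2 h3)
      exact_mod_cast this
    rw [Real.sqrt_div (aSq_nonneg ν A f), Real.sqrt_div (aSq_nonneg ν A g)]
    have hs : Real.sqrt (A.card : ℝ) * Real.sqrt (A.card : ℝ) = A.card := Real.mul_self_sqrt hc.le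
    have hs0 : Real.sqrt (A.card : ℝ) ≠ 0 := (Real.sqrt_pos.2 hc).ne'
    field_simp
    rw [Real.sq_sqrt hc.le]
  calc |∑ A ∈ 𝔸, ∫ x, Hf ν A f x * Hf ν A g x ∂(prodM V ν)|
      ≤ ∑ A ∈ 𝔸, |∫ x, Hf ν A f x * Hf ν A g x ∂(prodM V ν)| := Finset.abs_sum_le_sum_abs _ _
    _ ≤ ∑ A ∈ 𝔸, Real.sqrt (aSq ν A f) * Real.sqrt (aSq ν A g) := Finset.sum_le_sum h1
    _ = ∑ A ∈ 𝔸, ∑ v ∈ U, if v ∈ A then
        (Real.sqrt (aSq ν A f / (A.card : ℝ))) * (Real.sqrt (aSq ν A g / (A.card : ℝ))) else 0 :=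
        Finset.sum_congr rfl h2
    _ = ∑ v ∈ U, ∑ A ∈ 𝔸.filter (fun A => v ∈ A),
        (Real.sqrt (aSq ν A f / (A.card : ℝ))) * (Real.sqrt (aSq ν A g / (A.card : ℝ))) := by
        rw [Finset.sum_comm]
        exact Finset.sum_congr rfl fun v _ => (Finset.sum_filter _ _).symm
    _ ≤ ∑ v ∈ U, Real.sqrt (bSq ν U f v) * Real.sqrt (bSq ν U g v) := by
        refine Finset.sum_le_sum fun v _ => ?_
        refine (Real.sum_mul_le_sqrt_mul_sqrt _ _ _).trans ?_
        have h6 : ∀ h : (V → X) → ℝ, ∑ A ∈ 𝔸.filter (fun A => v ∈ A),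
            Real.sqrt (aSq ν A h / (A.card : ℝ)) ^ 2 = bSq ν U h v := by
          intro h
          unfold bSq
          refine Finset.sum_congr rfl fun A _ => ?_
          exact Real.sq_sqrt (div_nonneg (aSq_nonneg ν A h) (Nat.cast_nonneg _))
        rw [h6 f, h6 g]
    _ = ∑ v ∈ U, Real.sqrt (bSq ν F f v) * Real.sqrt (bSq ν F' g v) := by
        refine Finset.sum_congr rfl fun v _ => ?_
        rw [bSq_eq_of_subset ν Finset.subset_union_left hdf,
          bSq_eq_of_subset ν Finset.subset_union_right hdg]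

/-- Invariance of the vertex energy. -/
theorem bSq_map_eq [DecidableEq V] {f : (V → X) → ℝ} (hf : BM f) {F : Finset V} (σ : V ≃ V)
    (hF : F.map σ.toEmbedding = F) (hff : f =ᵐ[prodM V ν] fun z => f (z ∘ σ)) (v : V) :
    bSq ν F f (σ v) = bSq ν F f v := by
  unfold bSq
  symm
  refine Finset.sum_bij (fun A _ => A.map σ.toEmbedding) ?_ ?_ ?_ ?_
  · intro A hA
    obtain ⟨h1, h2⟩ := Finset.mem_filter.1 hA
    obtain ⟨h3, h4⟩ := Finset.mem_erase.1 h1
    refine Finset.mem_filter.2 ⟨Finset.mem_erase.2 ⟨?_, Finset.mem_powerset.2 ?_⟩, ?_⟩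
    · simpa using h3
    · rw [← hF]
      exact Finset.map_subset_map.2 (Finset.mem_powerset.1 h4)
    · exact Finset.mem_map_of_mem _ h2
  · intro A _ B _ h
    exact Finset.map_injective _ h
  · intro B hB
    obtain ⟨h1, h2⟩ := Finset.mem_filter.1 hB
    obtain ⟨h3, h4⟩ := Finset.mem_erase.1 h1
    have h5 := Finset.mem_powerset.1 h4
    rw [← hF] at h5
    obtain ⟨A, hA, rfl⟩ := Finset.subset_map_iff.1 h5
    refine ⟨A, ?_, rfl⟩
    refine Finset.mem_filter.2 ⟨Finset.mem_erase.2 ⟨?_, Finset.mem_powerset.2 hA⟩, ?_⟩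
    · rintro rfl
      simp at h3
    · simpa using h2
  · intro A _
    unfold aSq
    rw [integral_sq_Hf_map ν hf σ hff A]
    simp

/-! ### Automorphisms and the energy on the tree -/

section Tree

variable {G : SimpleGraph V}

/-- Isomorphisms preserve the distance (connected case). -/
theorem iso_dist_eq (hT : G.IsTree) (φ : G ≃g G) (u v : V) : G.dist (φ u) (φ v) = G.dist u v := by
  have key : ∀ (ψ : G ≃g G) (u v : V), G.dist (ψ u) (ψ v) ≤ G.dist u v := by
    intro ψ u v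
    obtain ⟨p, hp⟩ := (hT.connected u v).exists_walk_length_eq_dist
    rw [← hp, ← Walk.length_map ψ.toHom p]
    exact dist_le _
  refine le_antisymm (key φ u v) ?_
  have := key φ.symm (φ u) (φ v)
  simpa using this

variable [G.LocallyFinite]

/-- The image of a ball. -/
theorem ball_map (hT : G.IsTree) (φ : G ≃g G) (a : V) (R : ℕ) :
    (ball G a R).map φ.toEquiv.toEmbedding = ball G (φ a) R := by
  ext v
  simp only [Finset.mem_map, mem_ball hT]
  constructor
  · rintro ⟨u, hu, rfl⟩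
    show G.dist (φ a) (φ u) ≤ R
    rwa [iso_dist_eq hT]
  · intro h
    refine ⟨φ.symm v, ?_, ?_⟩
    · have h2 := iso_dist_eq hT φ a (φ.symm v)
      rw [show φ (φ.symm v) = v from φ.apply_symm_apply v] at h2
      omega
    · exact φ.apply_symm_apply v

/-- The vertex energy of a local equivariant family is radial around its edge. -/
theorem radialAt_sqrt_bSq [DecidableEq V] {d : ℕ} (hT : G.IsTree) (hreg : G.IsRegularOfDegree d)
    (f : V → V → (V → X) → ℝ) (R : ℕ)
    (hBM : ∀ a b, G.Adj a b → BM (f a b))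
    (hequiv : ∀ (g : G ≃g G) (a b : V), G.Adj a b →
      f (g a) (g b) =ᵐ[prodM V ν] fun x => f a b (x ∘ g))
    {a c : V} (hac : G.Adj a c) :
    RadialAt G a c (fun v => Real.sqrt (bSq ν (ball G a R) (f a c) v)) := by
  have key : ∀ φ : G ≃g G, φ a = a → φ c = c → ∀ v,
      bSq ν (ball G a R) (f a c) (φ v) = bSq ν (ball G a R) (f a c) v := by
    intro φ h1 h2 v
    refine bSq_map_eq ν (hBM a c hac) (σ := φ.toEquiv) ?_ ?_ v
    · have := ball_map hT φ a R
      rwa [h1] at this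
    · have := hequiv φ a c hac
      rwa [h1, h2] at this
  intro n
  constructor
  · intro u hu u' hu'
    obtain ⟨φ, h1, h2, h3⟩ := exists_aut_of_mem_cone hT hreg hac hu hu'
    show Real.sqrt _ = Real.sqrt _
    rw [← h3, key φ h1 h2]
  · intro u hu u' hu'
    obtain ⟨φ, h1, h2, h3⟩ := exists_aut_of_mem_cone hT hreg hac.symm hu hu'
    show Real.sqrt _ = Real.sqrt _
    rw [← h3, key φ h2 h1]

/-- Correlation decay between two edges of a geodesic. -/
theorem cov_edge_le {d : ℕ} (hT : G.IsTree) (hreg : G.IsRegularOfDegree d)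
    (f : V → V → (V → X) → ℝ) (R : ℕ)
    (hBM : ∀ a b, G.Adj a b → BM (f a b))
    (hloc : ∀ a b, G.Adj a b → ∀ x x' : V → X, (∀ v ∈ ball G a R, x v = x' v) → f a b x = f a b x')
    (hequiv : ∀ (g : G ≃g G) (a b : V), G.Adj a b →
      f (g a) (g b) =ᵐ[prodM V ν] fun x => f a b (x ∘ g))
    {x : ℕ → V} {l : ℕ} (hx : IsGeod G x (l + 1)) (hl : 1 ≤ l)
    {q : ℝ} (hq : 0 ≤ q) (hq1 : q ≤ 1) (hDq : ((d - 1 : ℕ) : ℝ) * q ^ 2 = 1) :
    |∫ ω, (f (x 0) (x 1) ω - ∫ y, f (x 0) (x 1) y ∂(prodM V ν)) *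
        (f (x l) (x (l + 1)) ω - ∫ y, f (x l) (x (l + 1)) y ∂(prodM V ν)) ∂(prodM V ν)|
      ≤ ((l : ℝ) + 2) * q ^ (l - 1) *
        (Real.sqrt (∫ ω, (f (x 0) (x 1) ω - ∫ y, f (x 0) (x 1) y ∂(prodM V ν)) ^ 2 ∂(prodM V ν)) *
         Real.sqrt (∫ ω, (f (x l) (x (l + 1)) ω - ∫ y, f (x l) (x (l + 1)) y ∂(prodM V ν)) ^ 2
            ∂(prodM V ν))) := by
  classical
  have ha0 : G.Adj (x 0) (x 1) := hx.adj 0 (by omega)
  have hal : G.Adj (x l) (x (l + 1)) := hx.adj l (by omega)
  set F₀ := ball G (x 0) R with hF₀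
  set F₁ := ball G (x l) R with hF₁
  have h1 := cov_le_sum_b ν (hBM _ _ ha0) (hBM _ _ hal) (hloc _ _ ha0) (hloc _ _ hal)
  refine h1.trans ?_
  have h2 := tree_sum_le hT hreg hx hl
    (fun v => Real.sqrt (bSq ν F₀ (f (x 0) (x 1)) v))
    (fun v => Real.sqrt (bSq ν F₁ (f (x l) (x (l + 1))) v))
    (fun _ => Real.sqrt_nonneg _) (fun _ => Real.sqrt_nonneg _)
    (radialAt_sqrt_bSq ν hT hreg f R hBM hequiv ha0)
    (radialAt_sqrt_bSq ν hT hreg f R hBM hequiv hal)
    (S₁ := F₀) (S₂ := F₁)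
    (fun v hv => by rw [bSq_eq_zero_of_not_mem ν _ hv, Real.sqrt_zero])
    (fun v hv => by rw [bSq_eq_zero_of_not_mem ν _ hv, Real.sqrt_zero])
    hq hq1 hDq (F₀ ∪ F₁)
  refine h2.trans (le_of_eq ?_)
  congr 2
  · rw [← sum_bSq ν (hBM _ _ ha0) (hloc _ _ ha0)]
    congr 1
    exact Finset.sum_congr rfl fun v _ => Real.sq_sqrt (bSq_nonneg ν _ _ _)
  · rw [← sum_bSq ν (hBM _ _ hal) (hloc _ _ hal)]
    congr 1
    exact Finset.sum_congr rfl fun v _ => Real.sq_sqrt (bSq_nonneg ν _ _ _)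

/-- Transport of integrals along an automorphism. -/
theorem integral_comp_aut (g : G ≃g G) {F : (V → X) → ℝ} (hF : BM F) :
    ∫ ω, F (ω ∘ g) ∂(prodM V ν) = ∫ ω, F ω ∂(prodM V ν) := by
  have h2 := integral_map (μ := prodM V ν) (φ := fun x : V → X => x ∘ g.toEquiv)
    (f := F) (measurable_pi_iff.2 fun v => measurable_pi_apply (g.toEquiv v)).aemeasurable
    (by rw [map_comp_equiv ν g.toEquiv]; exact hF.meas.aestronglyMeasurable)
  rw [map_comp_equiv ν g.toEquiv] at h2
  exact h2.symm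

/-- The mean is the same on all directed edges. -/
theorem mean_eq {d : ℕ} (hT : G.IsTree) (hreg : G.IsRegularOfDegree d)
    (f : V → V → (V → X) → ℝ)
    (hBM : ∀ a b, G.Adj a b → BM (f a b))
    (hequiv : ∀ (g : G ≃g G) (a b : V), G.Adj a b →
      f (g a) (g b) =ᵐ[prodM V ν] fun x => f a b (x ∘ g))
    {a b a' b' : V} (h : G.Adj a b) (h' : G.Adj a' b') :
    ∫ ω, f a' b' ω ∂(prodM V ν) = ∫ ω, f a b ω ∂(prodM V ν) := by
  obtain ⟨g, h1, h2⟩ := exists_aut_of_adj hT hreg h h'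
  have := hequiv g a b h
  rw [h1, h2] at this
  rw [integral_congr_ae this]
  exact integral_comp_aut ν g (hBM a b h)

/-- The variance is the same on all directed edges. -/
theorem var_eq {d : ℕ} (hT : G.IsTree) (hreg : G.IsRegularOfDegree d)
    (f : V → V → (V → X) → ℝ)
    (hBM : ∀ a b, G.Adj a b → BM (f a b))
    (hequiv : ∀ (g : G ≃g G) (a b : V), G.Adj a b →
      f (g a) (g b) =ᵐ[prodM V ν] fun x => f a b (x ∘ g))
    {a b a' b' : V} (h : G.Adj a b) (h' : G.Adj a' b') (m : ℝ) :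
    ∫ ω, (f a' b' ω - m) ^ 2 ∂(prodM V ν) = ∫ ω, (f a b ω - m) ^ 2 ∂(prodM V ν) := by
  obtain ⟨g, h1, h2⟩ := exists_aut_of_adj hT hreg h h'
  have := hequiv g a b h
  rw [h1, h2] at this
  have h3 : (fun ω => (f a' b' ω - m) ^ 2) =ᵐ[prodM V ν] fun ω => (f a b (ω ∘ g) - m) ^ 2 := by
    filter_upwards [this] with ω hω
    rw [hω]
  rw [integral_congr_ae h3]
  have hsq : BM (fun ω => (f a b ω - m) ^ 2) := by
    have h4 := (hBM a b h).sub (BM.const m)
    simpa [sq] using h4.mul h4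
  exact integral_comp_aut ν g hsq

/-- The weights. -/
noncomputable def bsvKap (l : ℕ) : ℝ := if l = 0 then 1 else ((l : ℝ) + 2) * (5 / 7 : ℝ) ^ (l - 1)

theorem sum_bsvKap_le (n : ℕ) : ∑ i ∈ Finset.range n, bsvKap (i + 1) ≤ 77 / 4 := by
  have key : ∀ n : ℕ, ∑ i ∈ Finset.range n, bsvKap (i + 1)
      = 77 / 4 - (5 / 7 : ℝ) ^ n * (7 / 2 * n + 77 / 4) := by
    intro n
    induction n with
    | zero => simp
    | succ n ih =>
      rw [Finset.sum_range_succ, ih]
      simp only [bsvKap, Nat.add_eq_zero_iff, one_ne_zero, and_false, if_false, Nat.add_sub_cancel]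
      push_cast
      rw [pow_succ]
      ring
  rw [key]
  have : 0 ≤ (5 / 7 : ℝ) ^ n * (7 / 2 * n + 77 / 4) := by positivity
  linarith

theorem bsvKap_nonneg (l : ℕ) : 0 ≤ bsvKap l := by
  unfold bsvKap
  split_ifs <;> positivity

/-- The double sum of the weights. -/
theorem sum_sum_kap_le (r : ℕ) :
    ∑ i ∈ Finset.range r, ∑ j ∈ Finset.range r, bsvKap (max i j - min i j) ≤ 40 * r := by
  induction r with
  | zero => simp
  | succ r ih =>
    have h1 : ∀ i, i ∈ Finset.range r → ∑ j ∈ Finset.range (r + 1), bsvKap (max i j - min i j)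
        = ∑ j ∈ Finset.range r, bsvKap (max i j - min i j) + bsvKap (r - i) := by
      intro i hi
      have hi' := Finset.mem_range.1 hi
      rw [Finset.sum_range_succ, max_eq_right hi'.le, min_eq_left hi'.le]
    have h2 : ∑ j ∈ Finset.range (r + 1), bsvKap (max r j - min r j)
        = ∑ j ∈ Finset.range r, bsvKap (r - j) + 1 := by
      rw [Finset.sum_range_succ]
      congr 1
      · refine Finset.sum_congr rfl fun j hj => ?_
        have hj' := Finset.mem_range.1 hj
        rw [max_eq_left hj'.le, min_eq_right hj'.le]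
      · simp [bsvKap]
    have h3 : ∑ j ∈ Finset.range r, bsvKap (r - j) ≤ 77 / 4 := by
      have := Finset.sum_range_reflect (fun j => bsvKap (j + 1)) r
      have h4 : ∑ j ∈ Finset.range r, bsvKap (r - 1 - j + 1) = ∑ j ∈ Finset.range r, bsvKap (r - j) := by
        refine Finset.sum_congr rfl fun j hj => ?_
        have hj' := Finset.mem_range.1 hj
        congr 1
        omega
      rw [← h4, this]
      exact sum_bsvKap_le r
    rw [Finset.sum_range_succ, Finset.sum_congr rfl h1, Finset.sum_add_distrib, h2]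
    push_cast
    have h5 : ∑ i ∈ Finset.range r, bsvKap (r - i) ≤ 77 / 4 := h3
    linarith

/-- **Variance of path sums.** For an equivariant family of local bounded measurable functions of
i.i.d. labels, indexed by the directed edges of the `d`-regular tree (`d ≥ 3`), the second moment
of the centered sum along a geodesic is at most `40 r` times the variance. -/
theorem bsv_path_sum {d : ℕ} (hT : G.IsTree) (hreg : G.IsRegularOfDegree d) (hd : 3 ≤ d)
    (f : V → V → (V → X) → ℝ) (R : ℕ)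
    (hBM : ∀ a b, G.Adj a b → BM (f a b))
    (hloc : ∀ a b, G.Adj a b → ∀ x x' : V → X, (∀ v ∈ ball G a R, x v = x' v) → f a b x = f a b x')
    (hequiv : ∀ (g : G ≃g G) (a b : V), G.Adj a b →
      f (g a) (g b) =ᵐ[prodM V ν] fun x => f a b (x ∘ g))
    {x : ℕ → V} {r : ℕ} (hx : IsGeod G x r) {a₀ b₀ : V} (hab : G.Adj a₀ b₀) :
    ∫ ω, (∑ i ∈ Finset.range r, (f (x i) (x (i + 1)) ω - ∫ y, f a₀ b₀ y ∂(prodM V ν))) ^ 2
        ∂(prodM V ν)
      ≤ 40 * r * ∫ ω, (f a₀ b₀ ω - ∫ y, f a₀ b₀ y ∂(prodM V ν)) ^ 2 ∂(prodM V ν) := by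
  classical
  set m := ∫ y, f a₀ b₀ y ∂(prodM V ν) with hm
  set W := ∫ ω, (f a₀ b₀ ω - m) ^ 2 ∂(prodM V ν) with hW
  have hW0 : 0 ≤ W := integral_nonneg fun _ => sq_nonneg _
  have hadj : ∀ i, i < r → G.Adj (x i) (x (i + 1)) := hx.adj
  have hmean : ∀ i, i < r → ∫ y, f (x i) (x (i + 1)) y ∂(prodM V ν) = m := fun i hi =>
    mean_eq ν hT hreg f hBM hequiv hab (hadj i hi)
  have hvar : ∀ i, i < r → ∫ ω, (f (x i) (x (i + 1)) ω - m) ^ 2 ∂(prodM V ν) = W := fun i hi =>
    var_eq ν hT hreg f hBM hequiv hab (hadj i hi) m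
  -- q
  have hD : (2 : ℝ) ≤ ((d - 1 : ℕ) : ℝ) := by
    have : 2 ≤ d - 1 := by omega
    exact_mod_cast this
  set D : ℝ := ((d - 1 : ℕ) : ℝ) with hDdef
  set q : ℝ := (Real.sqrt D)⁻¹ with hq
  have hq0 : 0 ≤ q := by positivity
  have hsD : Real.sqrt D ^ 2 = D := Real.sq_sqrt (by linarith)
  have hsDpos : 0 < Real.sqrt D := Real.sqrt_pos.2 (by linarith)
  have hqsq : q ^ 2 = D⁻¹ := by
    rw [hq, inv_pow, hsD]
  have hDq : D * q ^ 2 = 1 := by
    rw [hqsq]
    exact mul_inv_cancel₀ (by linarith)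
  have hq57 : q ≤ 5 / 7 := by
    have : q ^ 2 ≤ (5 / 7 : ℝ) ^ 2 := by
      rw [hqsq]
      have : D⁻¹ ≤ (2 : ℝ)⁻¹ := inv_anti₀ (by norm_num) hD
      norm_num at this ⊢
      linarith
    exact abs_le_of_sq_le_sq' this (by norm_num) |>.2
  have hq1 : q ≤ 1 := by linarith
  -- covariances
  have hcov : ∀ i j, i < r → j < r → i ≤ j →
      |∫ ω, (f (x i) (x (i + 1)) ω - m) * (f (x j) (x (j + 1)) ω - m) ∂(prodM V ν)|
        ≤ bsvKap (j - i) * W := by
    intro i j hi hj hij
    by_cases h0 : j = i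
    · subst h0
      simp only [Nat.sub_self, bsvKap, if_true, one_mul]
      simp_rw [← sq]
      rw [hvar j hj, abs_of_nonneg hW0]
    · have hyx : IsGeod G (fun k => x (i + k)) (j - i + 1) := by
        have := (hx.mono (show j + 1 ≤ r by omega)).shift i
        rwa [show j + 1 - i = j - i + 1 by omega] at this
      have hc := cov_edge_le ν hT hreg f R hBM hloc hequiv hyx (l := j - i) (by omega) hq0 hq1 hDq
      simp only [add_zero] at hc
      rw [show i + (j - i) = j by omega, show i + (j - i + 1) = j + 1 by omega, show i + 1 = i + 1 from rfl] at hc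
      rw [hmean i hi, hmean j hj, hvar i hi, hvar j hj, Real.mul_self_sqrt hW0] at hc
      refine hc.trans ?_
      simp only [bsvKap, show j - i ≠ 0 by omega, if_false]
      refine mul_le_mul_of_nonneg_right ?_ hW0
      refine mul_le_mul_of_nonneg_left ?_ (by positivity)
      exact pow_le_pow_left₀ hq0 hq57 _
  have hcov' : ∀ i j, i < r → j < r →
      ∫ ω, (f (x i) (x (i + 1)) ω - m) * (f (x j) (x (j + 1)) ω - m) ∂(prodM V ν)
        ≤ bsvKap (max i j - min i j) * W := by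
    intro i j hi hj
    rcases le_total i j with hij | hij
    · rw [max_eq_right hij, min_eq_left hij]
      exact (le_abs_self _).trans (hcov i j hi hj hij)
    · rw [max_eq_left hij, min_eq_right hij]
      have := hcov j i hj hi hij
      simp_rw [mul_comm (f (x i) (x (i + 1)) _ - m)]
      exact (le_abs_self _).trans this
  -- integrate the expansion
  have hbm : ∀ i, i < r → BM (fun ω => f (x i) (x (i + 1)) ω - m) := fun i hi =>
    (hBM _ _ (hadj i hi)).sub (BM.const m)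
  have hexp : ∀ ω : V → X, (∑ i ∈ Finset.range r, (f (x i) (x (i + 1)) ω - m)) ^ 2
      = ∑ i ∈ Finset.range r, ∑ j ∈ Finset.range r,
        (f (x i) (x (i + 1)) ω - m) * (f (x j) (x (j + 1)) ω - m) := by
    intro ω
    rw [sq, Finset.sum_mul_sum]
  simp_rw [hexp]
  rw [integral_finsetSum]
  · have h1 : ∑ i ∈ Finset.range r, ∫ ω, ∑ j ∈ Finset.range r,
        (f (x i) (x (i + 1)) ω - m) * (f (x j) (x (j + 1)) ω - m) ∂(prodM V ν)
        ≤ ∑ i ∈ Finset.range r, ∑ j ∈ Finset.range r, bsvKap (max i j - min i j) * W := by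
      refine Finset.sum_le_sum fun i hi => ?_
      have hi' := Finset.mem_range.1 hi
      rw [integral_finsetSum]
      · refine Finset.sum_le_sum fun j hj => ?_
        exact hcov' i j hi' (Finset.mem_range.1 hj)
      · intro j hj
        exact ((hbm i hi').mul (hbm j (Finset.mem_range.1 hj))).integrable _
    refine h1.trans ?_
    simp_rw [← Finset.sum_mul]
    exact mul_le_mul_of_nonneg_right (sum_sum_kap_le r) hW0
  · intro i hi
    have hi' := Finset.mem_range.1 hi
    exact (BM.finset_sum _ fun j hj =>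
      (hbm i hi').mul (hbm j (Finset.mem_range.1 hj))).integrable _

end Tree

end Crest.Agent.Lib.IsingFIID
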