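/-
Row 160 (S0241), Task SC, elementary part: invariance of the label law, equivariance of the
window means under automorphisms, boundedness, time zero, measurability of `mInf`.
-/
import Crest.Agent.Lib.IsingFIID.Core
import Crest.Agent.Lib.IsingFIID.BSV
import Crest.Agent.Lib.IsingFIID.GibbsMap

set_option autoImplicit false
set_option linter.unusedSectionVars false

namespace Crest.Agent.Lib.IsingFIID

open MeasureTheory Filter Topology Set SimpleGraph
open scoped ENNReal

variable {V : Type*} [DecidableEq V] {G : SimpleGraph V} [G.LocallyFinite] {d : ℕ}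

/-! ### The label law is invariant -/

/-- `act g` preserves the law of the labels. -/
theorem map_act (g : G ≃g G) : (PP V).map (act g) = PP V := by
  classical
  let σ : V × ℕ ≃ V × ℕ := Equiv.prodCongr g.toEquiv (Equiv.refl ℕ)
  have hσ : (lam (V × ℕ)).map (fun x => x ∘ σ) = lam (V × ℕ) := map_comp_equiv _ σ
  have hm : Measurable (fun x : V × ℕ → Lab => x ∘ σ) :=
    measurable_pi_iff.2 fun v => measurable_pi_apply (σ v)
  have hact : (act g : Om V → Om V) = Prod.map (fun x => x ∘ σ) (fun x => x ∘ σ) := by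
    funext ω
    rfl
  have : IsProbabilityMeasure (lam (V × ℕ)) := by
    unfold lam Crest.ProbabilityR.Labels.labelMeasure
    infer_instance
  rw [hact, PP, ← Measure.map_prod_map _ _ hm hm, hσ]

theorem measurable_act (g : V → V) : Measurable (act g : Om V → Om V) := by
  refine Measurable.prodMk ?_ ?_
  · exact measurable_pi_iff.2 fun i => (measurable_pi_apply (g i.1, i.2)).comp measurable_fst
  · exact measurable_pi_iff.2 fun i => (measurable_pi_apply (g i.1, i.2)).comp measurable_snd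

/-- Transport of integrals along `act g`. -/
theorem integral_act (g : G ≃g G) {f : Om V → ℝ} (hf : AEStronglyMeasurable f (PP V)) :
    ∫ ω, f (act g ω) ∂(PP V) = ∫ ω, f ω ∂(PP V) := by
  have h := integral_map (μ := PP V) (measurable_act g).aemeasurable (f := f)
    (by rw [map_act g]; exact hf)
  rw [map_act g] at h
  exact h.symm

/-- Strict equivariance of the window mean. -/
theorem mW_act (g : G ≃g G) (W : Finset V) (ω : Om V) (τ : ℝ) (v : V) {θ : ℝ} {κ : ℝ → ℝ} :
    mW G θ κ W (act g ω) τ v = mW G θ κ (W.map g.toEquiv.toEmbedding) ω τ (g v) := by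
  unfold mW
  rw [gm_map]
  congr 1
  funext u
  exact field_act g ω τ u

/-- Strict equivariance. -/
theorem mInf_act (hT : G.IsTree) {θ : ℝ} {κ : ℝ → ℝ} (g : G ≃g G) (ω : Om V) (τ : ℝ) (v : V) :
    mInf G θ κ (act g ω) τ v = mInf G θ κ ω τ (g v) := by
  unfold mInf
  congr 1
  funext N
  rw [mW_act, ball_map hT]

/-! ### Boundedness -/

theorem abs_limsup_le {a : ℕ → ℝ} {t : ℝ} (h : ∀ N, |a N| ≤ t) : |limsup a atTop| ≤ t := by
  have hbdd : IsBoundedUnder (· ≤ ·) atTop a :=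
    isBoundedUnder_of ⟨t, fun N => (abs_le.1 (h N)).2⟩
  have hbdd' : IsBoundedUnder (· ≥ ·) atTop a :=
    isBoundedUnder_of ⟨-t, fun N => (abs_le.1 (h N)).1⟩
  refine abs_le.2 ⟨?_, ?_⟩
  · exact le_limsup_of_frequently_le (Frequently.of_forall fun N => (abs_le.1 (h N)).1) hbdd
  · exact limsup_le_of_le hbdd'.isCoboundedUnder_le (Eventually.of_forall fun N => (abs_le.1 (h N)).2)

theorem abs_mW_le {θ : ℝ} {κ : ℝ → ℝ} (h0 : 0 ≤ θ) (h1 : θ < 1) (W : Finset V) (ω : Om V) (τ : ℝ) (v : V) :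
    |mW G θ κ W ω τ v| ≤ 1 := abs_gm_le h0 h1 _ _

theorem abs_mInf_le (hG : Tree G d) {θ : ℝ} {κ : ℝ → ℝ} (h0 : 0 ≤ θ) (h1 : θ < 1) (ω : Om V) (τ : ℝ) (v : V) :
    |mInf G θ κ ω τ v| ≤ 1 := abs_limsup_le fun _ => abs_mW_le h0 h1 _ _ _ _

/-! ### Time zero -/

theorem field_eq_zero_of_nonpos {θ : ℝ} {κ : ℝ → ℝ} {W : Finset V} (ω : Om V) {τ : ℝ} (hτ : τ ≤ 0) :
    field G θ κ W ω τ = 0 := by
  funext v
  rw [field_rec]
  have : ⌈τ⌉₊ = 0 := Nat.ceil_eq_zero.2 hτ
  simp [this]

theorem sp_sdiff {W A : Finset V} {v : V} (hv : v ∈ W) : sp (W \ A) v = - sp A v := by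
  unfold sp
  by_cases h : v ∈ A <;> simp [h, hv]

theorem bw_sdiff (W : Finset V) {A : Finset V} {θ : ℝ} : bw G θ W (W \ A) = bw G θ W A := by
  classical
  unfold bw Crest.ProbabilityR.TreeIsing.isingWeight
  congr 1
  refine Finset.prod_congr rfl fun e he => ?_
  simp only [Finset.mem_filter, Finset.mem_sym2_iff] at he
  induction e using Sym2.ind with
  | _ a b =>
    have ha : a ∈ W := he.1 a (by simp)
    have hb : b ∈ W := he.1 b (by simp)
    simp only [Sym2.map_mk, Sym2.mk_isDiag_iff]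
    by_cases h1 : a ∈ A <;> by_cases h2 : b ∈ A <;> simp [h1, h2, ha, hb]

/-- Zero field, zero mean. -/
theorem gm_zero {W : Finset V} {v : V} (hv : v ∈ W) {θ : ℝ} : gm G θ W 0 v = 0 := by
  classical
  unfold gm gAvg
  have key : ∑ A ∈ W.powerset, bw G θ W A * gExp 0 W A * sp A v = 0 := by
    have hinv := Finset.sum_involution (s := W.powerset)
      (f := fun A => bw G θ W A * gExp 0 W A * sp A v) (g := fun A _ => W \ A)
      ?_ ?_ ?_ ?_
    · exact hinv
    · intro A _
      have : gExp (0 : V → ℝ) W A = 1 := by simp [gExp]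
      have h2 : gExp (0 : V → ℝ) W (W \ A) = 1 := by simp [gExp]
      simp only [this, h2, bw_sdiff, sp_sdiff hv]
      ring
    · intro A hA hne hAeq
      -- `W \ A = A` is impossible since `v ∈ W`
      have : sp (W \ A) v = - sp A v := sp_sdiff hv
      rw [hAeq] at this
      have h3 : sp A v ≠ 0 := by
        unfold sp
        split_ifs <;> norm_num
      exact h3 (by linarith)
    · intro A hA
      exact Finset.mem_powerset.2 Finset.sdiff_subset
    · intro A hA
      exact Finset.sdiff_sdiff_eq_self (Finset.mem_powerset.1 hA)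
  rw [key, zero_div]

theorem mW_eq_zero_of_nonpos {θ : ℝ} {κ : ℝ → ℝ} {W : Finset V} (ω : Om V) {τ : ℝ} (hτ : τ ≤ 0) {v : V}
    (hv : v ∈ W) : mW G θ κ W ω τ v = 0 := by
  unfold mW
  rw [field_eq_zero_of_nonpos ω hτ]
  exact gm_zero hv

theorem mem_ball_self (hT : G.IsTree) (v : V) (N : ℕ) : v ∈ ball G v N := by
  rw [mem_ball hT]
  simp

theorem mInf_eq_zero_of_nonpos (hG : Tree G d) {θ : ℝ} {κ : ℝ → ℝ} (ω : Om V) {τ : ℝ} (hτ : τ ≤ 0) (v : V) :
    mInf G θ κ ω τ v = 0 := by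
  unfold mInf
  have : (fun N => mW G θ κ (ball G v N) ω τ v) = fun _ => 0 := by
    funext N
    exact mW_eq_zero_of_nonpos ω hτ (mem_ball_self hG.tree v N)
  rw [this]
  simp

/-- Balls are windows. -/
theorem isWin_ball (hT : G.IsTree) (v : V) (N : ℕ) : IsWin G (ball G v N) := by
  classical
  unfold IsWin
  have hv : v ∈ (ball G v N : Set V) := mem_ball_self hT v N
  have : Nonempty ((ball G v N : Finset V) : Set V) := ⟨⟨v, hv⟩⟩
  have key : ∀ n, ∀ u : V, ∀ hu : u ∈ (ball G v N : Set V), G.dist v u = n →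
      (G.induce (ball G v N : Set V)).Reachable ⟨v, hv⟩ ⟨u, hu⟩ := by
    intro n
    induction n with
    | zero =>
      intro u hu h0
      have : v = u := (hT.connected v u).dist_eq_zero_iff.1 h0
      subst this
      exact Reachable.refl _
    | succ n ih =>
      intro u hu hn
      have hne : u ≠ v := by
        rintro rfl
        simp at hn
      obtain ⟨a, ha, hda⟩ := exists_closer hT v hne
      have huN : G.dist v u ≤ N := (mem_ball hT).1 hu
      have haN : a ∈ (ball G v N : Set V) := (mem_ball hT).2 (by omega)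
      refine (ih a haN (by omega)).trans (Adj.reachable ?_)
      exact ha.symm
  refine ⟨?_⟩
  intro a b
  have ha := key _ a.1 a.2 rfl
  have hb := key _ b.1 b.2 rfl
  exact ha.symm.trans hb

/-- No rings at time `0`, zero mean. -/
theorem mInf_zero (hG : Tree G d) {θ : ℝ} {κ : ℝ → ℝ} (h0 : 0 ≤ θ) (h1 : θ < 1) (ω : Om V) (v : V) :
    mInf G θ κ ω 0 v = 0 := mInf_eq_zero_of_nonpos hG ω le_rfl v

/-! ### Measurability of `mInf` -/

theorem measurable_mInf {θ : ℝ} {κ : ℝ → ℝ} (hκ : Measurable κ) (v : V) :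
    Measurable fun p : ℝ × Om V => mInf G θ κ p.2 p.1 v := by
  unfold mInf
  exact Measurable.limsup fun N => measurable_mW hκ v

/-! ### Deterministic bound -/

theorem sc_tanh_le_tanh {a b : ℝ} (h : a ≤ b) : Real.tanh a ≤ Real.tanh b := by
  rw [← Real.artanh_le_artanh_iff ⟨Real.neg_one_lt_tanh a, Real.tanh_lt_one a⟩
    ⟨Real.neg_one_lt_tanh b, Real.tanh_lt_one b⟩, Real.artanh_tanh, Real.artanh_tanh]
  exact h

/-- Deterministic bound, uniform in `θ ≤ θm`. -/
theorem exists_abs_mInf_le (hG : Tree G d) {θm ε τ₁ : ℝ} (h0 : 0 ≤ θm) (h1 : θm < 1) (hε : 0 ≤ ε)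
    (hε1 : ε ≤ 1 / 2) : ∃ t : ℝ, 0 ≤ t ∧ t < 1 ∧ ∀ θ, 0 ≤ θ → θ ≤ θm → ∀ ω τ v, τ ≤ τ₁ →
      |mInf G θ (kap ε) ω τ v| ≤ t := by
  have hs : IsStrength (kap ε) := isStrength_kap hε hε1
  have hκε : ∀ τ, kap ε τ ≤ ε := by
    intro τ
    unfold kap
    have : min (Real.sqrt τ) 1 ≤ 1 := min_le_right _ _
    nlinarith
  have hε2 : |ε| < 1 := by rw [abs_of_nonneg hε]; linarith
  have hat0 : 0 ≤ Real.artanh ε := Real.artanh_nonneg hε
  have hatm : 0 ≤ Real.artanh θm := Real.artanh_nonneg h0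
  set B : ℝ := (⌈τ₁⌉₊ : ℝ) * Real.artanh ε + d * Real.artanh θm with hB
  have hB0 : 0 ≤ B := by positivity
  refine ⟨Real.tanh B, (by simpa using sc_tanh_le_tanh hB0), Real.tanh_lt_one B, ?_⟩
  intro θ hθ0 hθm ω τ v hτ
  refine abs_limsup_le fun N => ?_
  have hθ1 : θ < 1 := lt_of_le_of_lt hθm h1
  have hfield : ∀ u ∈ ball G v N, |field G θ (kap ε) (ball G v N) ω τ u| ≤ (⌈τ₁⌉₊ : ℝ) * Real.artanh ε := by
    intro u _
    refine (abs_field_le hθ0 hθ1 hs hκε hε1 _ _ _).trans ?_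
    have : (⌈τ⌉₊ : ℝ) ≤ ⌈τ₁⌉₊ := by exact_mod_cast Nat.ceil_mono hτ
    exact mul_le_mul_of_nonneg_right this hat0
  have hwin : IsWin G (ball G v N) := isWin_ball hG.tree v N
  refine (abs_gm_le_tanh hG hwin hθ0 hθ1 _ hfield (mem_ball_self hG.tree v N)).trans ?_
  refine sc_tanh_le_tanh ?_
  have : Real.artanh θ ≤ Real.artanh θm := Real.artanh_le_artanh (by linarith) h1 hθm
  have hd : (0 : ℝ) ≤ d := by positivity
  rw [hB]
  gcongr

end Crest.Agent.Lib.IsingFIID
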