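/-
Row 160 (S0241), Task SC: one ring, path estimates, counting of spheres. Design independent of `L2_window`;
usable for the infinite-volume increments.
-/
import Crest.Agent.Lib.IsingFIID.StrictBasic

set_option autoImplicit false
set_option linter.unusedSectionVars false

namespace Crest.Agent.Lib.IsingFIID

open MeasureTheory Filter Topology Set SimpleGraph
open scoped ENNReal

variable {V : Type*} [DecidableEq V] {G : SimpleGraph V} [G.LocallyFinite] {d : ℕ}

/-! ### Measurability in the fields -/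

theorem sc_measurable_gExp (W A : Finset V) : Measurable fun h : V → ℝ => gExp h W A := by
  unfold gExp
  refine Real.measurable_exp.comp ?_
  exact Finset.measurable_sum _ fun v _ => (measurable_pi_apply v).mul_const _

theorem sc_measurable_gZ (θ : ℝ) (W : Finset V) : Measurable fun h : V → ℝ => gZ G θ W h := by
  unfold gZ
  exact Finset.measurable_sum _ fun A _ => (sc_measurable_gExp W A).const_mul _

theorem sc_measurable_gAvg (θ : ℝ) (W : Finset V) (f : Finset V → ℝ) :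
    Measurable fun h : V → ℝ => gAvg G θ W h f := by
  unfold gAvg
  refine Measurable.div ?_ (sc_measurable_gZ θ W)
  exact Finset.measurable_sum _ fun A _ => ((sc_measurable_gExp W A).const_mul _).mul_const _

theorem sc_measurable_gm (θ : ℝ) (W : Finset V) (v : V) : Measurable fun h : V → ℝ => gm G θ W h v :=
  sc_measurable_gAvg θ W _

theorem sc_measurable_gcov (θ : ℝ) (W : Finset V) (u v : V) :
    Measurable fun h : V → ℝ => gcov G θ W h u v := by
  unfold gcov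
  exact (sc_measurable_gAvg θ W _).sub ((sc_measurable_gm θ W u).mul (sc_measurable_gm θ W v))

/-- The coefficient of a ring of `z` in the window `W`: covariance, or zero when `z` is outside. -/
noncomputable def cW (G : SimpleGraph V) (θ : ℝ) (W : Finset V) (h : V → ℝ) (v z : V) : ℝ :=
  if z ∈ W then gcov G θ W h v z else 0

theorem sc_measurable_cW (θ : ℝ) (W : Finset V) (v z : V) :
    Measurable fun h : V → ℝ => cW G θ W h v z := by
  unfold cW
  by_cases hz : z ∈ W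
  · simp only [hz, if_true]
    exact sc_measurable_gcov θ W v z
  · simp only [hz, if_false]
    exact measurable_const

theorem abs_cW_le {θ : ℝ} (h0 : 0 ≤ θ) (h1 : θ < 1) (W : Finset V) (h : V → ℝ) (v z : V) :
    |cW G θ W h v z| ≤ 1 := by
  unfold cW
  split_ifs
  · exact abs_gcov_le h0 h1 _ _ _
  · simp

/-! ### One ring -/

theorem gm_stepW {θ κ : ℝ} (h0 : 0 ≤ θ) (h1 : θ < 1) (hκ0 : 0 ≤ κ) (hκ1 : κ ≤ 1 / 2) (W : Finset V)
    (h : V → ℝ) (z v : V) {u : ℝ} (hu : u ∈ Icc (0 : ℝ) 1) :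
    gm G θ W (stepW G θ κ W z u h) v =
      gm G θ W h v + cW G θ W h v z * gamQ κ (gm G θ W h z) u := by
  unfold stepW cW
  by_cases hz : z ∈ W
  · simp only [hz, if_true]
    have hx : |xQ κ (gm G θ W h z) u| < 1 :=
      lt_of_le_of_lt (abs_xQ_le hκ0 hκ1 (abs_gm_le h0 h1 h z) hu) (by linarith)
    rw [gm_update h0 h1 h hz hx]
    rfl
  · simp [hz]

theorem lab_mem_Icc (u : Lab) : (u : ℝ) ∈ Icc (0 : ℝ) 1 := u.2

theorem measurable_gamQ_lab (κ m : ℝ) : Measurable fun u : Lab => gamQ κ m (u : ℝ) := by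
  have hx : Measurable fun u : Lab => xQ κ m (u : ℝ) :=
    measurable_xQ.comp (measurable_const.prodMk (measurable_const.prodMk measurable_subtype_coe))
  unfold gamQ
  exact hx.div (measurable_const.add (hx.mul_const _))

theorem integrable_gamQ_lab {κ m : ℝ} (h0 : 0 ≤ κ) (h1 : κ ≤ 1 / 2) (hm : |m| ≤ 1) :
    Integrable (fun u : Lab => gamQ κ m (u : ℝ)) :=
  Integrable.of_bound (measurable_gamQ_lab κ m).aestronglyMeasurable (2 * κ)
    (Eventually.of_forall fun u => by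
      rw [Real.norm_eq_abs]
      exact abs_gamQ_le h0 h1 hm (lab_mem_Icc u))

/-- The one-ring pair inequality, at any two states, for two windows and two parameters. -/
theorem exists_one_ring : ∃ K : ℝ, 0 < K ∧ ∀ (θ θ' κ : ℝ) (W W' : Finset V) (z v : V) (h h' : V → ℝ),
    0 ≤ θ → θ < 1 → 0 ≤ θ' → θ' < 1 → 0 ≤ κ → κ ≤ 1 / 2 →
    (∫ u : Lab, (gm G θ W (stepW G θ κ W z (u : ℝ) h) v - gm G θ' W' (stepW G θ' κ W' z (u : ℝ) h') v) ^ 2) -
        (gm G θ W h v - gm G θ' W' h' v) ^ 2 ≤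
      8 * κ ^ 2 * (cW G θ W h v z - cW G θ' W' h' v z) ^ 2 +
        K * κ ^ 4 * cW G θ' W' h' v z ^ 2 * (gm G θ W h z - gm G θ' W' h' z) ^ 2 := by
  obtain ⟨C, hC, hlip⟩ := exists_gamQ_lip
  refine ⟨2 * C ^ 2, by positivity, ?_⟩
  intro θ θ' κ W W' z v h h' h0 h1 h0' h1' hκ0 hκ1
  set a := gm G θ W h v - gm G θ' W' h' v with ha
  set c := cW G θ W h v z with hc
  set c' := cW G θ' W' h' v z with hc'
  set mz := gm G θ W h z with hmz
  set mz' := gm G θ' W' h' z with hmz'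
  have hmzb : |mz| ≤ 1 := abs_gm_le h0 h1 h z
  have hmzb' : |mz'| ≤ 1 := abs_gm_le h0' h1' h' z
  have hg := integrable_gamQ_lab hκ0 hκ1 hmzb
  have hg' := integrable_gamQ_lab hκ0 hκ1 hmzb'
  -- the integrand
  have hval : ∀ u : Lab,
      (gm G θ W (stepW G θ κ W z (u : ℝ) h) v - gm G θ' W' (stepW G θ' κ W' z (u : ℝ) h') v) ^ 2 =
        a ^ 2 + 2 * a * (c * gamQ κ mz (u : ℝ) - c' * gamQ κ mz' (u : ℝ)) +
          (c * gamQ κ mz (u : ℝ) - c' * gamQ κ mz' (u : ℝ)) ^ 2 := by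
    intro u
    rw [gm_stepW h0 h1 hκ0 hκ1 W h z v (lab_mem_Icc u), gm_stepW h0' h1' hκ0 hκ1 W' h' z v (lab_mem_Icc u)]
    simp only [ha, hc, hc', hmz, hmz']
    ring
  set B : ℝ := 8 * κ ^ 2 * (c - c') ^ 2 + 2 * C ^ 2 * κ ^ 4 * c' ^ 2 * (mz - mz') ^ 2 with hB
  have hpt : ∀ u : Lab, (c * gamQ κ mz (u : ℝ) - c' * gamQ κ mz' (u : ℝ)) ^ 2 ≤ B := by
    intro u
    have h1g : |gamQ κ mz (u : ℝ)| ≤ 2 * κ := abs_gamQ_le hκ0 hκ1 hmzb (lab_mem_Icc u)
    have h2g : |gamQ κ mz (u : ℝ) - gamQ κ mz' (u : ℝ)| ≤ C * κ ^ 2 * |mz - mz'| :=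
      hlip κ mz mz' u hκ0 hκ1 hmzb hmzb' (lab_mem_Icc u)
    set g := gamQ κ mz (u : ℝ)
    set g' := gamQ κ mz' (u : ℝ)
    have e1 : (c * g - c' * g') = (c - c') * g + c' * (g - g') := by ring
    have e2 : g ^ 2 ≤ (2 * κ) ^ 2 := by
      rw [← sq_abs g]
      exact pow_le_pow_left₀ (abs_nonneg _) h1g 2
    have e3 : (g - g') ^ 2 ≤ (C * κ ^ 2 * |mz - mz'|) ^ 2 := by
      rw [← sq_abs (g - g')]
      exact pow_le_pow_left₀ (abs_nonneg _) h2g 2
    rw [e1, hB]
    have e4 : ((c - c') * g + c' * (g - g')) ^ 2 ≤ 2 * ((c - c') * g) ^ 2 + 2 * (c' * (g - g')) ^ 2 := by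
      nlinarith [sq_nonneg ((c - c') * g - c' * (g - g'))]
    have e5 : ((c - c') * g) ^ 2 ≤ (c - c') ^ 2 * (2 * κ) ^ 2 := by
      rw [mul_pow]
      exact mul_le_mul_of_nonneg_left e2 (sq_nonneg _)
    have e6 : (c' * (g - g')) ^ 2 ≤ c' ^ 2 * (C * κ ^ 2 * |mz - mz'|) ^ 2 := by
      rw [mul_pow]
      exact mul_le_mul_of_nonneg_left e3 (sq_nonneg _)
    have e7 : (C * κ ^ 2 * |mz - mz'|) ^ 2 = C ^ 2 * κ ^ 4 * (mz - mz') ^ 2 := by
      rw [mul_pow, mul_pow, sq_abs]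
      ring
    rw [e7] at e6
    nlinarith
  have hint2 : Integrable (fun u : Lab => (c * gamQ κ mz (u : ℝ) - c' * gamQ κ mz' (u : ℝ)) ^ 2) := by
    refine Integrable.of_bound ?_ B ?_
    · exact (((measurable_gamQ_lab κ mz).const_mul c).sub
        ((measurable_gamQ_lab κ mz').const_mul c')).pow_const 2 |>.aestronglyMeasurable
    · refine Eventually.of_forall fun u => ?_
      rw [Real.norm_eq_abs, abs_of_nonneg (sq_nonneg _)]
      exact hpt u
  have hint1 : Integrable (fun u : Lab => 2 * a * (c * gamQ κ mz (u : ℝ) - c' * gamQ κ mz' (u : ℝ))) :=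
    ((hg.const_mul c).sub (hg'.const_mul c')).const_mul _
  simp_rw [hval]
  have hint3 : Integrable (fun u : Lab => a ^ 2 + 2 * a * (c * gamQ κ mz (u : ℝ) - c' * gamQ κ mz' (u : ℝ))) :=
    (integrable_const _).add hint1
  rw [integral_add hint3 hint2, integral_add (integrable_const _) hint1]
  have hz1 : ∫ u : Lab, 2 * a * (c * gamQ κ mz (u : ℝ) - c' * gamQ κ mz' (u : ℝ)) = 0 := by
    rw [integral_const_mul, integral_sub (hg.const_mul c) (hg'.const_mul c'), integral_const_mul,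
      integral_const_mul, integral_gamQ hκ0 hκ1 hmzb, integral_gamQ hκ0 hκ1 hmzb']
    ring
  have hz2 : ∫ u : Lab, (c * gamQ κ mz (u : ℝ) - c' * gamQ κ mz' (u : ℝ)) ^ 2 ≤ B := by
    calc _ ≤ ∫ _u : Lab, B := integral_mono hint2 (integrable_const _) hpt
      _ = B := by simp
  rw [hz1]
  have hv1 : (volume : Measure Lab).real univ = 1 := by simp
  simp only [integral_const, hv1, smul_eq_mul, one_mul]
  linarith

/-! ### Products -/

theorem abs_prod_sub_prod_le {ι : Type*} (s : Finset ι) (f g : ι → ℝ)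
    (hf : ∀ i ∈ s, 0 ≤ f i ∧ f i ≤ 1) (hg : ∀ i ∈ s, 0 ≤ g i ∧ g i ≤ 1) :
    |∏ i ∈ s, f i - ∏ i ∈ s, g i| ≤ ∑ i ∈ s, |f i - g i| := by
  classical
  induction s using Finset.induction_on with
  | empty => simp
  | insert a s ha ih =>
    rw [Finset.prod_insert ha, Finset.prod_insert ha, Finset.sum_insert ha]
    have ih' := ih (fun i hi => hf i (Finset.mem_insert_of_mem hi))
      (fun i hi => hg i (Finset.mem_insert_of_mem hi))
    have h1 := hf a (Finset.mem_insert_self _ _)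
    have h2 := hg a (Finset.mem_insert_self _ _)
    have hp0 : 0 ≤ ∏ i ∈ s, g i := Finset.prod_nonneg fun i hi => (hg i (Finset.mem_insert_of_mem hi)).1
    have hp1 : ∏ i ∈ s, g i ≤ 1 :=
      Finset.prod_le_one (fun i hi => (hg i (Finset.mem_insert_of_mem hi)).1)
        (fun i hi => (hg i (Finset.mem_insert_of_mem hi)).2)
    have e : f a * ∏ i ∈ s, f i - g a * ∏ i ∈ s, g i =
        f a * (∏ i ∈ s, f i - ∏ i ∈ s, g i) + (f a - g a) * ∏ i ∈ s, g i := by ring
    rw [e]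
    refine (abs_add_le _ _).trans ?_
    rw [abs_mul, abs_mul, abs_of_nonneg h1.1, abs_of_nonneg hp0]
    have t1 : f a * |∏ i ∈ s, f i - ∏ i ∈ s, g i| ≤ |∏ i ∈ s, f i - ∏ i ∈ s, g i| :=
      mul_le_of_le_one_left (abs_nonneg _) h1.2
    have t2 : |f a - g a| * ∏ i ∈ s, g i ≤ |f a - g a| := mul_le_of_le_one_right (abs_nonneg _) hp1
    linarith

/-! ### The path covariance -/

theorem sc_pathCov_eq (θ : ℝ) (m : V → ℝ) (x : ℕ → V) (r : ℕ) :
    pathCov θ m x r = (1 - m (x 0) ^ 2) * (θ ^ r * ∏ i ∈ Finset.range r, uOf θ (m (x i)) (m (x (i + 1)))) := by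
  unfold pathCov slopeOf
  rw [Finset.prod_mul_distrib]
  simp

/-- The bounds of the path covariance, for a fixed `θ ≤ θm`, `L` the Bethe constant. -/
theorem abs_pathCov_le {L θ θm : ℝ}
    (hL : ∀ θ θ' a b a' b' : ℝ, 0 ≤ θ → θ ≤ θm → 0 ≤ θ' → θ' ≤ θm →
      |a| ≤ 1 → |b| ≤ 1 → |a'| ≤ 1 → |b'| ≤ 1 →
        |nuOf θ a b| ≤ 1 ∧
        |nuOf θ a b| ≤ L * (|a| + |b|) ∧
        |nuOf θ a b - nuOf θ' a' b'| ≤ L * (|a - a'| + |b - b'| + |θ - θ'|) ∧
        0 ≤ uOf θ a b ∧ uOf θ a b ≤ 1 ∧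
        |uOf θ a b - uOf θ' a' b'| ≤ L * (|a - a'| + |b - b'| + |θ - θ'|))
    (h0 : 0 ≤ θ) (hm : θ ≤ θm) {m : V → ℝ} (hmb : ∀ u, |m u| ≤ 1) (x : ℕ → V) (r : ℕ) :
    |pathCov θ m x r| ≤ θ ^ r := by
  rw [sc_pathCov_eq, abs_mul, abs_mul, abs_of_nonneg (pow_nonneg h0 r)]
  have hu : ∀ i ∈ Finset.range r, 0 ≤ uOf θ (m (x i)) (m (x (i + 1))) ∧ uOf θ (m (x i)) (m (x (i + 1))) ≤ 1 := by
    intro i _
    have := hL θ θ _ _ _ _ h0 hm h0 hm (hmb (x i)) (hmb (x (i + 1))) (hmb (x i)) (hmb (x (i + 1)))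
    exact ⟨this.2.2.2.1, this.2.2.2.2.1⟩
  have hp0 : 0 ≤ ∏ i ∈ Finset.range r, uOf θ (m (x i)) (m (x (i + 1))) := Finset.prod_nonneg fun i hi => (hu i hi).1
  have hp1 : ∏ i ∈ Finset.range r, uOf θ (m (x i)) (m (x (i + 1))) ≤ 1 :=
    Finset.prod_le_one (fun i hi => (hu i hi).1) (fun i hi => (hu i hi).2)
  rw [abs_of_nonneg hp0]
  have hK : |1 - m (x 0) ^ 2| ≤ 1 := by
    have h1 : m (x 0) ^ 2 ≤ 1 := by
      have := hmb (x 0)
      rw [← sq_abs]
      exact pow_le_one₀ (abs_nonneg _) this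
    rw [abs_of_nonneg (by linarith)]
    nlinarith [sq_nonneg (m (x 0))]
  calc |1 - m (x 0) ^ 2| * (θ ^ r * ∏ i ∈ Finset.range r, uOf θ (m (x i)) (m (x (i + 1))))
      ≤ 1 * (θ ^ r * 1) := by
        gcongr
    _ = θ ^ r := by ring

/-- Lipschitz estimate of the path covariance at the same `θ`. -/
theorem abs_pathCov_sub_le {L θ θm : ℝ}
    (hL : ∀ θ θ' a b a' b' : ℝ, 0 ≤ θ → θ ≤ θm → 0 ≤ θ' → θ' ≤ θm →
      |a| ≤ 1 → |b| ≤ 1 → |a'| ≤ 1 → |b'| ≤ 1 →
        |nuOf θ a b| ≤ 1 ∧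
        |nuOf θ a b| ≤ L * (|a| + |b|) ∧
        |nuOf θ a b - nuOf θ' a' b'| ≤ L * (|a - a'| + |b - b'| + |θ - θ'|) ∧
        0 ≤ uOf θ a b ∧ uOf θ a b ≤ 1 ∧
        |uOf θ a b - uOf θ' a' b'| ≤ L * (|a - a'| + |b - b'| + |θ - θ'|))
    (hL0 : 0 ≤ L) (h0 : 0 ≤ θ) (hm : θ ≤ θm) {m m' : V → ℝ} (hmb : ∀ u, |m u| ≤ 1) (hmb' : ∀ u, |m' u| ≤ 1)
    (x : ℕ → V) (r : ℕ) :
    |pathCov θ m x r - pathCov θ m' x r| ≤
      θ ^ r * ((2 + 2 * L) * ∑ i ∈ Finset.range (r + 1), |m (x i) - m' (x i)|) := by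
  rw [sc_pathCov_eq, sc_pathCov_eq]
  set P := ∏ i ∈ Finset.range r, uOf θ (m (x i)) (m (x (i + 1))) with hP
  set P' := ∏ i ∈ Finset.range r, uOf θ (m' (x i)) (m' (x (i + 1))) with hP'
  set K := 1 - m (x 0) ^ 2 with hK
  set K' := 1 - m' (x 0) ^ 2 with hK'
  have hu : ∀ i ∈ Finset.range r, 0 ≤ uOf θ (m (x i)) (m (x (i + 1))) ∧ uOf θ (m (x i)) (m (x (i + 1))) ≤ 1 := by
    intro i _
    have := hL θ θ _ _ _ _ h0 hm h0 hm (hmb (x i)) (hmb (x (i + 1))) (hmb (x i)) (hmb (x (i + 1)))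
    exact ⟨this.2.2.2.1, this.2.2.2.2.1⟩
  have hu' : ∀ i ∈ Finset.range r, 0 ≤ uOf θ (m' (x i)) (m' (x (i + 1))) ∧ uOf θ (m' (x i)) (m' (x (i + 1))) ≤ 1 := by
    intro i _
    have := hL θ θ _ _ _ _ h0 hm h0 hm (hmb' (x i)) (hmb' (x (i + 1))) (hmb' (x i)) (hmb' (x (i + 1)))
    exact ⟨this.2.2.2.1, this.2.2.2.2.1⟩
  have hPP : |P - P'| ≤ ∑ i ∈ Finset.range r, |uOf θ (m (x i)) (m (x (i + 1))) - uOf θ (m' (x i)) (m' (x (i + 1)))| :=
    abs_prod_sub_prod_le _ _ _ hu hu'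
  set T := ∑ i ∈ Finset.range (r + 1), |m (x i) - m' (x i)| with hT
  have hT0 : 0 ≤ T := Finset.sum_nonneg fun i _ => abs_nonneg _
  have hsum1 : ∑ i ∈ Finset.range r, |m (x i) - m' (x i)| ≤ T := by
    rw [hT, Finset.sum_range_succ]
    linarith [abs_nonneg (m (x r) - m' (x r))]
  have hsum2 : ∑ i ∈ Finset.range r, |m (x (i + 1)) - m' (x (i + 1))| ≤ T := by
    rw [hT, Finset.sum_range_succ']
    linarith [abs_nonneg (m (x 0) - m' (x 0))]
  have hsum0 : |m (x 0) - m' (x 0)| ≤ T := by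
    rw [hT, Finset.sum_range_succ']
    have : 0 ≤ ∑ i ∈ Finset.range r, |m (x (i + 1)) - m' (x (i + 1))| :=
      Finset.sum_nonneg fun i _ => abs_nonneg _
    linarith
  have hPb : |P - P'| ≤ 2 * L * T := by
    refine hPP.trans ?_
    calc ∑ i ∈ Finset.range r, |uOf θ (m (x i)) (m (x (i + 1))) - uOf θ (m' (x i)) (m' (x (i + 1)))|
        ≤ ∑ i ∈ Finset.range r, L * (|m (x i) - m' (x i)| + |m (x (i + 1)) - m' (x (i + 1))|) := by
          refine Finset.sum_le_sum fun i _ => ?_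
          have := (hL θ θ _ _ _ _ h0 hm h0 hm (hmb (x i)) (hmb (x (i + 1))) (hmb' (x i))
            (hmb' (x (i + 1)))).2.2.2.2.2
          simpa using this
      _ = L * (∑ i ∈ Finset.range r, |m (x i) - m' (x i)| +
            ∑ i ∈ Finset.range r, |m (x (i + 1)) - m' (x (i + 1))|) := by
          rw [← Finset.sum_add_distrib, Finset.mul_sum]
      _ ≤ L * (T + T) := by gcongr
      _ = 2 * L * T := by ring
  have hPnn : 0 ≤ P := Finset.prod_nonneg fun i hi => (hu i hi).1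
  have hP1 : P ≤ 1 := Finset.prod_le_one (fun i hi => (hu i hi).1) (fun i hi => (hu i hi).2)
  have hKK : |K - K'| ≤ 2 * |m (x 0) - m' (x 0)| := by
    have e : K - K' = -((m (x 0) + m' (x 0)) * (m (x 0) - m' (x 0))) := by
      rw [hK, hK']; ring
    rw [e, abs_neg, abs_mul]
    have : |m (x 0) + m' (x 0)| ≤ 2 := by
      have h1 := hmb (x 0)
      have h2 := hmb' (x 0)
      calc _ ≤ |m (x 0)| + |m' (x 0)| := abs_add_le _ _
        _ ≤ 2 := by linarith
    exact mul_le_mul_of_nonneg_right this (abs_nonneg _)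
  have hK'b : |K'| ≤ 1 := by
    have h1 : m' (x 0) ^ 2 ≤ 1 := by
      have := hmb' (x 0)
      rw [← sq_abs]
      exact pow_le_one₀ (abs_nonneg _) this
    rw [hK', abs_of_nonneg (by linarith)]
    nlinarith [sq_nonneg (m' (x 0))]
  have e : K * (θ ^ r * P) - K' * (θ ^ r * P') = θ ^ r * ((K - K') * P + K' * (P - P')) := by ring
  rw [e, abs_mul, abs_of_nonneg (pow_nonneg h0 r)]
  refine mul_le_mul_of_nonneg_left ?_ (pow_nonneg h0 r)
  refine (abs_add_le _ _).trans ?_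
  rw [abs_mul, abs_mul, abs_of_nonneg hPnn]
  have t1 : |K - K'| * P ≤ 2 * T := by
    calc |K - K'| * P ≤ |K - K'| * 1 := by gcongr
      _ ≤ 2 * |m (x 0) - m' (x 0)| := by linarith
      _ ≤ 2 * T := by linarith
  have t2 : |K'| * |P - P'| ≤ 2 * L * T := by
    calc |K'| * |P - P'| ≤ 1 * |P - P'| := by gcongr
      _ ≤ 2 * L * T := by linarith
  nlinarith

/-! ### Counting -/

open Classical in
theorem card_sphere_le (hG : Tree G d) (v : V) (r : ℕ) :
    ((sphere G v r).card : ℝ) ≤ 2 * ((d : ℝ) - 1) ^ r := by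
  have hT := hG.tree
  have hd3 := hG.hd
  have hreg := hG.reg
  have hd1 : (2 : ℝ) ≤ (d : ℝ) - 1 := by
    have : (3 : ℝ) ≤ d := by exact_mod_cast hd3
    linarith
  match r with
  | 0 =>
    have : sphere G v 0 ⊆ {v} := by
      intro y hy
      simp only [sphere, Finset.mem_filter] at hy
      simp only [Finset.mem_singleton]
      exact ((hT.connected v y).dist_eq_zero_iff.1 hy.2).symm
    have h2 := Finset.card_le_card this
    simp only [Finset.card_singleton] at h2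
    have : ((sphere G v 0).card : ℝ) ≤ 1 := by exact_mod_cast h2
    simp only [pow_zero]
    linarith
  | n + 1 =>
    have hsub : sphere G v (n + 1) ⊆ (G.neighborFinset v).biUnion fun c => cone G v c n := by
      intro y hy
      simp only [sphere, Finset.mem_filter] at hy
      have hdist := hy.2
      obtain ⟨x, hx, h0, hn⟩ := exists_geod hT v y
      rw [hdist] at hx hn
      have hadj : G.Adj v (x 1) := by
        have := hx.adj 0 (by omega)
        rw [h0] at this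
        simpa using this
      refine Finset.mem_biUnion.2 ⟨x 1, by simpa using hadj, ?_⟩
      rw [mem_cone hT hadj]
      refine ⟨?_, hdist⟩
      have := hx.dist_eq hT (i := 1) (j := n + 1) (by omega) le_rfl
      rw [hn] at this
      simpa using this
    have hc : ((G.neighborFinset v).biUnion fun c => cone G v c n).card ≤ d * (d - 1) ^ n := by
      refine Finset.card_biUnion_le.trans ?_
      have : ∀ c ∈ G.neighborFinset v, (cone G v c n).card = (d - 1) ^ n := by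
        intro c hc
        exact card_cone hT hreg (by simpa using hc) n
      rw [Finset.sum_congr rfl this, Finset.sum_const, smul_eq_mul, card_neighborFinset_eq_degree, hreg.degree_eq]
    have h3 := (Finset.card_le_card hsub).trans hc
    have h4 : ((sphere G v (n + 1)).card : ℝ) ≤ (d : ℝ) * ((d : ℝ) - 1) ^ n := by
      have : ((d - 1 : ℕ) : ℝ) = (d : ℝ) - 1 := by
        rw [Nat.cast_sub (by omega)]
        simp
      have h5 : ((sphere G v (n + 1)).card : ℝ) ≤ ((d * (d - 1) ^ n : ℕ) : ℝ) := by exact_mod_cast h3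
      rw [Nat.cast_mul, Nat.cast_pow, this] at h5
      exact h5
    refine h4.trans ?_
    have hd2 : (d : ℝ) ≤ 2 * ((d : ℝ) - 1) := by linarith
    calc (d : ℝ) * ((d : ℝ) - 1) ^ n ≤ 2 * ((d : ℝ) - 1) * ((d : ℝ) - 1) ^ n := by
          gcongr
      _ = 2 * ((d : ℝ) - 1) ^ (n + 1) := by ring

open Classical in
theorem mem_sphere (hT : G.IsTree) {v y : V} {r : ℕ} : y ∈ sphere G v r ↔ G.dist v y = r := by
  simp only [sphere, Finset.mem_filter, mem_ball hT]
  constructor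
  · exact fun h => h.2
  · exact fun h => ⟨h.le, h⟩

/-- Sum of a nonnegative function of the distance over a finite set. -/
theorem sum_dist_le (hG : Tree G d) (s : Finset V) (v : V) {f : ℕ → ℝ} (hf : ∀ r, 0 ≤ f r)
    (hs : Summable fun r => 2 * ((d : ℝ) - 1) ^ r * f r) :
    ∑ z ∈ s, f (G.dist v z) ≤ ∑' r, 2 * ((d : ℝ) - 1) ^ r * f r := by
  classical
  have hT := hG.tree
  have h1 : ∑ z ∈ s, f (G.dist v z) =
      ∑ r ∈ s.image (G.dist v), ∑ z ∈ s with G.dist v z = r, f (G.dist v z) :=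
    (Finset.sum_fiberwise_of_maps_to (fun z hz => Finset.mem_image_of_mem _ hz) _).symm
  rw [h1]
  have hd1 : (0 : ℝ) ≤ (d : ℝ) - 1 := by
    have : (3 : ℝ) ≤ d := by exact_mod_cast hG.hd
    linarith
  refine le_trans (Finset.sum_le_sum ?_) (hs.sum_le_tsum _ ?_)
  · intro r _
    have h2 : ∑ z ∈ s with G.dist v z = r, f (G.dist v z) = ((s.filter fun z => G.dist v z = r).card : ℝ) * f r := by
      rw [Finset.sum_congr rfl (fun z hz => by rw [(Finset.mem_filter.1 hz).2]), Finset.sum_const, nsmul_eq_mul]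
    rw [h2]
    refine mul_le_mul_of_nonneg_right ?_ (hf r)
    have hsub : (s.filter fun z => G.dist v z = r) ⊆ sphere G v r := by
      intro z hz
      exact (mem_sphere hT).2 (Finset.mem_filter.1 hz).2
    have h3 : ((s.filter fun z => G.dist v z = r).card : ℝ) ≤ (sphere G v r).card := by
      exact_mod_cast Finset.card_le_card hsub
    exact h3.trans (card_sphere_le hG v r)
  · intro r _
    have : 0 ≤ ((d : ℝ) - 1) ^ r := pow_nonneg hd1 r
    have := hf r
    positivity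

/-! ### Geodesics in windows -/

/-- The walk along a geodesic. -/
theorem IsGeod.exists_path (hT : G.IsTree) {x : ℕ → V} {r : ℕ} (hx : IsGeod G x r) :
    ∃ p : G.Walk (x 0) (x r), p.IsPath ∧ p.length = r ∧ ∀ i, i ≤ r → x i ∈ p.support := by
  induction r with
  | zero => exact ⟨Walk.nil, Walk.IsPath.nil, rfl, fun i hi => by
      have : i = 0 := by omega
      subst this
      simp⟩
  | succ r ih =>
    obtain ⟨p, hp, hlen, hs⟩ := ih (hx.mono (Nat.le_succ r))
    have hadj : G.Adj (x r) (x (r + 1)) := hx.adj r (by omega)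
    have hnot : x (r + 1) ∉ p.support := by
      intro hmem
      have h3 : G.dist (x 0) (x (r + 1)) ≤ (p.takeUntil _ hmem).length := dist_le _
      have h4 := p.length_takeUntil_le_length hmem
      have h5 : G.dist (x 0) (x (r + 1)) = r + 1 := hx.dist_eq hT (Nat.zero_le _) le_rfl
      omega
    refine ⟨p.concat hadj, hp.concat hnot hadj, by simp [hlen], ?_⟩
    intro i hi
    rw [Walk.support_concat, List.mem_append]
    by_cases h : i ≤ r
    · exact Or.inl (hs i h)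
    · have : i = r + 1 := by omega
      subst this
      exact Or.inr (List.mem_singleton.2 rfl)

/-- Windows contain the geodesics between their points. -/
theorem IsGeod.mem_of_isWin (hT : G.IsTree) {W : Finset V} (hW : IsWin G W) {x : ℕ → V} {r : ℕ}
    (hx : IsGeod G x r) (h0 : x 0 ∈ W) (hr : x r ∈ W) {i : ℕ} (hi : i ≤ r) : x i ∈ W := by
  classical
  obtain ⟨p, hp, _, hs⟩ := hx.exists_path hT
  obtain ⟨q⟩ := hW.preconnected ⟨x 0, h0⟩ ⟨x r, hr⟩
  let q' : G.Walk (x 0) (x r) := q.map (SimpleGraph.Embedding.induce (W : Set V)).toHom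
  have hq'sup : ∀ y ∈ q'.support, y ∈ W := by
    intro y hy
    have hq : q'.support = q.support.map (SimpleGraph.Embedding.induce (W : Set V)).toHom :=
      Walk.support_map _ _
    rw [hq] at hy
    obtain ⟨a, _, rfl⟩ := List.mem_map.1 hy
    exact a.2
  have hbp : q'.bypass.IsPath := Walk.bypass_isPath _
  have heq : p = q'.bypass :=
    congrArg Subtype.val ((hT.isAcyclic.subsingleton_path _ _).elim ⟨p, hp⟩ ⟨_, hbp⟩)
  have hmem := hs i hi
  rw [heq] at hmem
  exact hq'sup _ (Walk.support_bypass_subset_support _ hmem)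

end Crest.Agent.Lib.IsingFIID
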