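/-
Row 160 (S0241), Task SC: the window estimate `L2_window`, `θ² (d-1) < 1`.
-/
import Crest.Agent.Lib.IsingFIID.StrictRing

set_option autoImplicit false
set_option linter.unusedSectionVars false

namespace Crest.Agent.Lib.IsingFIID

open MeasureTheory Filter Topology Set SimpleGraph
open scoped ENNReal

variable {V : Type*} [DecidableEq V] {G : SimpleGraph V} [G.LocallyFinite] {d : ℕ}

instance sc_isProb_lam (I : Type*) : IsProbabilityMeasure (lam I) := by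
  unfold lam Crest.ProbabilityR.Labels.labelMeasure
  infer_instance

instance sc_isProb_PP (V : Type*) : IsProbabilityMeasure (PP V) := by
  unfold PP
  infer_instance

/-- Second moment of the difference of the means of two windows. -/
noncomputable def Sq (G : SimpleGraph V) (θ : ℝ) (κ : ℝ → ℝ) (W W' : Finset V) (τ : ℝ) (u : V) : ℝ :=
  ∫ ω, (mW G θ κ W ω τ u - mW G θ κ W' ω τ u) ^ 2 ∂(PP V)

/-- The majorant of the one-ring increment. -/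
noncomputable def XW (K : ℝ) (G : SimpleGraph V) (θ : ℝ) (κ : ℝ → ℝ) (W W' : Finset V) (v z : V) (τ : ℝ)
    (s : (V → ℝ) × (V → ℝ)) : ℝ :=
  8 * κ τ ^ 2 * (cW G θ W s.1 v z - cW G θ W' s.2 v z) ^ 2 +
    K * κ τ ^ 4 * cW G θ W' s.2 v z ^ 2 * (gm G θ W s.1 z - gm G θ W' s.2 z) ^ 2

theorem measurable_fieldPi {θ : ℝ} {κ : ℝ → ℝ} (hκ : Measurable κ) (W : Finset V) :
    Measurable fun p : ℝ × Om V => field G θ κ W p.2 p.1 :=
  measurable_pi_iff.2 fun v => measurable_field hκ v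

theorem measurable_XW {K θ : ℝ} {κ : ℝ → ℝ} (hκ : Measurable κ) (W W' : Finset V) (v z : V) :
    Measurable fun p : ℝ × (V → ℝ) × (V → ℝ) => XW K G θ κ W W' v z p.1 p.2 := by
  unfold XW
  have h1 : Measurable fun p : ℝ × (V → ℝ) × (V → ℝ) => cW G θ W p.2.1 v z :=
    (sc_measurable_cW θ W v z).comp (measurable_fst.comp measurable_snd)
  have h2 : Measurable fun p : ℝ × (V → ℝ) × (V → ℝ) => cW G θ W' p.2.2 v z :=
    (sc_measurable_cW θ W' v z).comp (measurable_snd.comp measurable_snd)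
  have h3 : Measurable fun p : ℝ × (V → ℝ) × (V → ℝ) => gm G θ W p.2.1 z :=
    (sc_measurable_gm θ W z).comp (measurable_fst.comp measurable_snd)
  have h4 : Measurable fun p : ℝ × (V → ℝ) × (V → ℝ) => gm G θ W' p.2.2 z :=
    (sc_measurable_gm θ W' z).comp (measurable_snd.comp measurable_snd)
  have h5 : Measurable fun p : ℝ × (V → ℝ) × (V → ℝ) => κ p.1 := hκ.comp measurable_fst
  exact (((measurable_const.mul (h5.pow_const 2)).mul ((h1.sub h2).pow_const 2))).add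
    ((((measurable_const.mul (h5.pow_const 4)).mul (h2.pow_const 2))).mul ((h3.sub h4).pow_const 2))

theorem XW_nonneg {K θ : ℝ} {κ : ℝ → ℝ} (hK : 0 ≤ K) (W W' : Finset V) (v z : V) (τ : ℝ)
    (s : (V → ℝ) × (V → ℝ)) : 0 ≤ XW K G θ κ W W' v z τ s := by
  unfold XW
  positivity

theorem XW_le {K θ : ℝ} {κ : ℝ → ℝ} (hK : 0 ≤ K) (h0 : 0 ≤ θ) (h1 : θ < 1) (hκ : IsStrength κ)
    (W W' : Finset V) (v z : V) (τ : ℝ) (s : (V → ℝ) × (V → ℝ)) :
    XW K G θ κ W W' v z τ s ≤ 8 + K := by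
  unfold XW
  have hk0 := hκ.nonneg τ
  have hk1 := hκ.le τ
  have a1 : |cW G θ W s.1 v z| ≤ 1 := abs_cW_le h0 h1 _ _ _ _
  have a2 : |cW G θ W' s.2 v z| ≤ 1 := abs_cW_le h0 h1 _ _ _ _
  have a3 : |gm G θ W s.1 z| ≤ 1 := abs_gm_le h0 h1 _ _
  have a4 : |gm G θ W' s.2 z| ≤ 1 := abs_gm_le h0 h1 _ _
  have b1 : (cW G θ W s.1 v z - cW G θ W' s.2 v z) ^ 2 ≤ 4 := by
    rw [← sq_abs]
    have : |cW G θ W s.1 v z - cW G θ W' s.2 v z| ≤ 2 := (abs_sub _ _).trans (by linarith)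
    nlinarith [abs_nonneg (cW G θ W s.1 v z - cW G θ W' s.2 v z)]
  have b2 : (gm G θ W s.1 z - gm G θ W' s.2 z) ^ 2 ≤ 4 := by
    rw [← sq_abs]
    have : |gm G θ W s.1 z - gm G θ W' s.2 z| ≤ 2 := (abs_sub _ _).trans (by linarith)
    nlinarith [abs_nonneg (gm G θ W s.1 z - gm G θ W' s.2 z)]
  have b3 : cW G θ W' s.2 v z ^ 2 ≤ 1 := by
    rw [← sq_abs]
    exact pow_le_one₀ (abs_nonneg _) a2
  have k2 : κ τ ^ 2 ≤ 1 / 4 := by nlinarith
  have k4 : κ τ ^ 4 ≤ 1 / 16 := by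
    have : κ τ ^ 4 = (κ τ ^ 2) ^ 2 := by ring
    rw [this]
    nlinarith [sq_nonneg (κ τ)]
  have t1 : 8 * κ τ ^ 2 * (cW G θ W s.1 v z - cW G θ W' s.2 v z) ^ 2 ≤ 8 * (1 / 4) * 4 := by
    gcongr
  have t2 : K * κ τ ^ 4 * cW G θ W' s.2 v z ^ 2 * (gm G θ W s.1 z - gm G θ W' s.2 z) ^ 2 ≤
      K * (1 / 16) * 1 * 4 := by
    gcongr
  linarith

theorem sc_measurable_mW_at {θ : ℝ} (τ : ℝ) {κ : ℝ → ℝ} (hκ : Measurable κ) (W : Finset V) (u : V) :
    Measurable fun ω : Om V => mW G θ κ W ω τ u := by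
  have h := measurable_mW (G := G) (θ := θ) (W := W) hκ u
  have h2 : Measurable fun ω : Om V => ((τ, ω) : ℝ × Om V) := measurable_const.prodMk measurable_id
  have h3 := h.comp h2
  exact h3

theorem measurable_Δ {θ τ : ℝ} {κ : ℝ → ℝ} (hκ : Measurable κ) (W W' : Finset V) (u : V) :
    Measurable fun ω : Om V => (mW G θ κ W ω τ u - mW G θ κ W' ω τ u) ^ 2 :=
  ((sc_measurable_mW_at τ hκ W u).sub (sc_measurable_mW_at τ hκ W' u)).pow_const 2

theorem Δ_le {θ τ : ℝ} {κ : ℝ → ℝ} (h0 : 0 ≤ θ) (h1 : θ < 1) (W W' : Finset V) (u : V) (ω : Om V) :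
    (mW G θ κ W ω τ u - mW G θ κ W' ω τ u) ^ 2 ≤ 4 := by
  have a3 := abs_mW_le (G := G) (κ := κ) h0 h1 W ω τ u
  have a4 := abs_mW_le (G := G) (κ := κ) h0 h1 W' ω τ u
  rw [← sq_abs]
  have : |mW G θ κ W ω τ u - mW G θ κ W' ω τ u| ≤ 2 := (abs_sub _ _).trans (by linarith)
  nlinarith [abs_nonneg (mW G θ κ W ω τ u - mW G θ κ W' ω τ u)]

theorem integrable_Δ {θ τ : ℝ} {κ : ℝ → ℝ} (hκ : Measurable κ) (h0 : 0 ≤ θ) (h1 : θ < 1) (W W' : Finset V)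
    (u : V) : Integrable (fun ω : Om V => (mW G θ κ W ω τ u - mW G θ κ W' ω τ u) ^ 2) (PP V) :=
  Integrable.of_bound (measurable_Δ hκ W W' u).aestronglyMeasurable 4
    (Eventually.of_forall fun ω => by
      rw [Real.norm_eq_abs, abs_of_nonneg (sq_nonneg _)]
      exact Δ_le h0 h1 W W' u ω)

theorem Sq_nonneg {θ τ : ℝ} {κ : ℝ → ℝ} (W W' : Finset V) (u : V) : 0 ≤ Sq G θ κ W W' τ u :=
  integral_nonneg fun _ => sq_nonneg _

theorem Sq_le {θ τ : ℝ} {κ : ℝ → ℝ} (h0 : 0 ≤ θ) (h1 : θ < 1) (hκ : Measurable κ) (W W' : Finset V) (u : V) :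
    Sq G θ κ W W' τ u ≤ 4 := by
  unfold Sq
  calc _ ≤ ∫ _ω : Om V, (4 : ℝ) ∂(PP V) := integral_mono (integrable_Δ hκ h0 h1 W W' u) (integrable_const _)
        fun ω => Δ_le h0 h1 W W' u ω
    _ = 4 := by simp

/-- `Y`: mean of the majorant at time `τ`. -/
noncomputable def YW (K : ℝ) (G : SimpleGraph V) (θ : ℝ) (κ : ℝ → ℝ) (W W' : Finset V) (v z : V) (τ : ℝ) : ℝ :=
  ∫ ω, XW K G θ κ W W' v z τ (field G θ κ W ω τ, field G θ κ W' ω τ) ∂(PP V)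

theorem measurable_XW_field {K θ : ℝ} {κ : ℝ → ℝ} (hκ : Measurable κ) (W W' : Finset V) (v z : V) :
    Measurable fun p : ℝ × Om V => XW K G θ κ W W' v z p.1 (field G θ κ W p.2 p.1, field G θ κ W' p.2 p.1) := by
  have h1 := measurable_XW (K := K) (G := G) (θ := θ) hκ W W' v z
  have h2 : Measurable fun p : ℝ × Om V =>
      ((p.1, field G θ κ W p.2 p.1, field G θ κ W' p.2 p.1) : ℝ × (V → ℝ) × (V → ℝ)) :=
    measurable_fst.prodMk ((measurable_fieldPi hκ W).prodMk (measurable_fieldPi hκ W'))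
  have h3 := h1.comp h2
  exact h3

theorem integrable_XW_field {K θ τ : ℝ} {κ : ℝ → ℝ} (hK : 0 ≤ K) (h0 : 0 ≤ θ) (h1 : θ < 1) (hκ : IsStrength κ)
    (W W' : Finset V) (v z : V) :
    Integrable (fun ω => XW K G θ κ W W' v z τ (field G θ κ W ω τ, field G θ κ W' ω τ)) (PP V) :=
  Integrable.of_bound
    (by
      have h := measurable_XW_field (K := K) (G := G) (θ := θ) hκ.meas W W' v z
      have h2 : Measurable fun ω : Om V => ((τ, ω) : ℝ × Om V) := measurable_const.prodMk measurable_id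
      have h3 := h.comp h2
      exact h3.aestronglyMeasurable)
    (8 + K) (Eventually.of_forall fun ω => by
      rw [Real.norm_eq_abs, abs_of_nonneg (XW_nonneg hK _ _ _ _ _ _)]
      exact XW_le hK h0 h1 hκ _ _ _ _ _ _)

theorem measurable_YW {K θ : ℝ} {κ : ℝ → ℝ} (hκ : Measurable κ) (W W' : Finset V) (v z : V) :
    Measurable (YW K G θ κ W W' v z) := by
  unfold YW
  exact (((measurable_XW_field hκ W W' v z).stronglyMeasurable).integral_prod_right'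
    (ν := PP V)).measurable

theorem YW_nonneg {K θ τ : ℝ} {κ : ℝ → ℝ} (hK : 0 ≤ K) (W W' : Finset V) (v z : V) :
    0 ≤ YW K G θ κ W W' v z τ := integral_nonneg fun _ => XW_nonneg hK _ _ _ _ _ _

theorem YW_le {K θ τ : ℝ} {κ : ℝ → ℝ} (hK : 0 ≤ K) (h0 : 0 ≤ θ) (h1 : θ < 1) (hκ : IsStrength κ)
    (W W' : Finset V) (v z : V) : YW K G θ κ W W' v z τ ≤ 8 + K := by
  unfold YW
  calc _ ≤ ∫ _ω : Om V, (8 + K : ℝ) ∂(PP V) :=
        integral_mono (integrable_XW_field hK h0 h1 hκ W W' v z) (integrable_const _)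
          fun ω => XW_le hK h0 h1 hκ _ _ _ _ _ _
    _ = 8 + K := by simp

theorem intervalIntegrable_YW {K θ : ℝ} {κ : ℝ → ℝ} (hK : 0 ≤ K) (h0 : 0 ≤ θ) (h1 : θ < 1) (hκ : IsStrength κ)
    (W W' : Finset V) (v z : V) (a b : ℝ) : IntervalIntegrable (YW K G θ κ W W' v z) volume a b := by
  rw [intervalIntegrable_iff]
  refine Measure.integrableOn_of_bounded (M := 8 + K) (by simp) (measurable_YW hκ.meas W W' v z).aestronglyMeasurable ?_
  refine Eventually.of_forall fun τ => ?_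
  rw [Real.norm_eq_abs, abs_of_nonneg (YW_nonneg hK _ _ _ _)]
  exact YW_le hK h0 h1 hκ _ _ _ _

/-- Ring inequality for the difference of two windows, starting from time zero. -/
theorem Sq_le_sum_YW {K θ t : ℝ} {κ : ℝ → ℝ} (hK : 0 < K)
    (hone : ∀ (θ θ' κ : ℝ) (W W' : Finset V) (z v : V) (h h' : V → ℝ),
      0 ≤ θ → θ < 1 → 0 ≤ θ' → θ' < 1 → 0 ≤ κ → κ ≤ 1 / 2 →
      (∫ u : Lab, (gm G θ W (stepW G θ κ W z (u : ℝ) h) v - gm G θ' W' (stepW G θ' κ W' z (u : ℝ) h') v) ^ 2) -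
          (gm G θ W h v - gm G θ' W' h' v) ^ 2 ≤
        8 * κ ^ 2 * (cW G θ W h v z - cW G θ' W' h' v z) ^ 2 +
          K * κ ^ 4 * cW G θ' W' h' v z ^ 2 * (gm G θ W h z - gm G θ' W' h' z) ^ 2)
    (h0 : 0 ≤ θ) (h1 : θ < 1) (hκ : IsStrength κ) {W W' : Finset V} {v : V} (hvW : v ∈ W) (hvW' : v ∈ W')
    (ht : 0 ≤ t) :
    Sq G θ κ W W' t v ≤ ∑ z ∈ W ∪ W', ∫ τ in (0 : ℝ)..t, YW K G θ κ W W' v z τ := by
  have hF : Measurable fun s : (V → ℝ) × (V → ℝ) => (gm G θ W s.1 v - gm G θ W' s.2 v) ^ 2 :=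
    (((sc_measurable_gm θ W v).comp measurable_fst).sub ((sc_measurable_gm θ W' v).comp measurable_snd)).pow_const 2
  have hFb : ∃ C, ∀ s : (V → ℝ) × (V → ℝ), |(gm G θ W s.1 v - gm G θ W' s.2 v) ^ 2| ≤ C := by
    refine ⟨4, fun s => ?_⟩
    rw [abs_of_nonneg (sq_nonneg _), ← sq_abs]
    have a3 : |gm G θ W s.1 v| ≤ 1 := abs_gm_le h0 h1 _ _
    have a4 : |gm G θ W' s.2 v| ≤ 1 := abs_gm_le h0 h1 _ _
    have : |gm G θ W s.1 v - gm G θ W' s.2 v| ≤ 2 := (abs_sub _ _).trans (by linarith)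
    nlinarith [abs_nonneg (gm G θ W s.1 v - gm G θ W' s.2 v)]
  have key := ring_increment_le (G := G) (θ := θ) (θ' := θ) (κ := κ) (κ' := κ) h0 h1 h0 h1 hκ hκ (W := W) (W' := W')
    (fun s => (gm G θ W s.1 v - gm G θ W' s.2 v) ^ 2) hF hFb
    (fun z τ s => XW K G θ κ W W' v z τ s) (fun z => measurable_XW hκ.meas W W' v z)
    ⟨8 + K, fun z τ s => ⟨XW_nonneg hK.le _ _ _ _ _ _, XW_le hK.le h0 h1 hκ _ _ _ _ _ _⟩⟩
    (τ₁ := 0) (τ₂ := t) le_rfl ht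
    (fun z _ τ _ s => hone θ θ (κ τ) W W' z v s.1 s.2 h0 h1 h0 h1 (hκ.nonneg τ) (hκ.le τ))
  have hz : ∀ ω : Om V, (gm G θ W (field G θ κ W ω 0) v - gm G θ W' (field G θ κ W' ω 0) v) ^ 2 = 0 := by
    intro ω
    have e1 : gm G θ W (field G θ κ W ω 0) v = 0 := mW_eq_zero_of_nonpos ω le_rfl hvW
    have e2 : gm G θ W' (field G θ κ W' ω 0) v = 0 := mW_eq_zero_of_nonpos ω le_rfl hvW'
    rw [e1, e2]
    simp
  simp only [hz, integral_zero, sub_zero] at key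
  exact key

/-! ### The majorant along a path -/

/-- The Bethe constant hypothesis, abbreviated. -/
def BetheBd (L θm : ℝ) : Prop :=
  ∀ θ θ' a b a' b' : ℝ, 0 ≤ θ → θ ≤ θm → 0 ≤ θ' → θ' ≤ θm →
      |a| ≤ 1 → |b| ≤ 1 → |a'| ≤ 1 → |b'| ≤ 1 →
        |nuOf θ a b| ≤ 1 ∧
        |nuOf θ a b| ≤ L * (|a| + |b|) ∧
        |nuOf θ a b - nuOf θ' a' b'| ≤ L * (|a - a'| + |b - b'| + |θ - θ'|) ∧
        0 ≤ uOf θ a b ∧ uOf θ a b ≤ 1 ∧
        |uOf θ a b - uOf θ' a' b'| ≤ L * (|a - a'| + |b - b'| + |θ - θ'|)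

theorem XW_le_path {K L θ : ℝ} {κ : ℝ → ℝ} (hL : BetheBd L θ) (hL0 : 0 ≤ L) (hK : 0 ≤ K) (hT : G.IsTree)
    {W W' : Finset V} (hW : IsWin G W) (hW' : IsWin G W') (hWW' : W ⊆ W') (h0 : 0 ≤ θ) (h1 : θ < 1)
    (hκ : IsStrength κ) {x : ℕ → V} {r : ℕ} (hx : IsGeod G x r) (hx0 : x 0 ∈ W) (hxr : x r ∈ W) (τ : ℝ)
    (h h' : V → ℝ) :
    XW K G θ κ W W' (x 0) (x r) τ (h, h') ≤
      (2 * (2 + 2 * L) ^ 2 + K) * (θ ^ (2 * r) * ((r : ℝ) + 1) *
        ∑ i ∈ Finset.range (r + 1), (gm G θ W h (x i) - gm G θ W' h' (x i)) ^ 2) := by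
  have hinW : ∀ i, i ≤ r → x i ∈ W := fun i hi => hx.mem_of_isWin hT hW hx0 hxr hi
  have hinW' : ∀ i, i ≤ r → x i ∈ W' := fun i hi => hWW' (hinW i hi)
  have hc : cW G θ W h (x 0) (x r) = pathCov θ (gm G θ W h) x r := by
    unfold cW
    rw [if_pos hxr]
    exact gcov_eq_pathCov hT hW h0 h1 h hx hinW
  have hc' : cW G θ W' h' (x 0) (x r) = pathCov θ (gm G θ W' h') x r := by
    unfold cW
    rw [if_pos (hWW' hxr)]
    exact gcov_eq_pathCov hT hW' h0 h1 h' hx hinW'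
  unfold XW
  simp only
  rw [hc, hc']
  set m := gm G θ W h with hm
  set m' := gm G θ W' h' with hm'
  have hmb : ∀ u, |m u| ≤ 1 := fun u => abs_gm_le h0 h1 h u
  have hmb' : ∀ u, |m' u| ≤ 1 := fun u => abs_gm_le h0 h1 h' u
  have hdiff := abs_pathCov_sub_le (θm := θ) hL hL0 h0 le_rfl hmb hmb' x r
  have hbd := abs_pathCov_le (θm := θ) hL h0 le_rfl hmb' x r
  set c := pathCov θ m x r
  set c' := pathCov θ m' x r
  set S := ∑ i ∈ Finset.range (r + 1), (m (x i) - m' (x i)) ^ 2 with hS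
  set T := ∑ i ∈ Finset.range (r + 1), |m (x i) - m' (x i)| with hTT
  have hS0 : 0 ≤ S := Finset.sum_nonneg fun _ _ => sq_nonneg _
  have hT2 : T ^ 2 ≤ ((r : ℝ) + 1) * S := by
    have := sq_sum_le_card_mul_sum_sq (s := Finset.range (r + 1)) (f := fun i => |m (x i) - m' (x i)|)
    simp only [Finset.card_range, sq_abs] at this
    push_cast at this
    exact this
  have hθ2 : (θ ^ r) ^ 2 = θ ^ (2 * r) := by
    rw [← pow_mul, mul_comm]
  have hd2 : (c - c') ^ 2 ≤ θ ^ (2 * r) * (2 + 2 * L) ^ 2 * (((r : ℝ) + 1) * S) := by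
    have h1 : (c - c') ^ 2 ≤ (θ ^ r * ((2 + 2 * L) * T)) ^ 2 := by
      rw [← sq_abs (c - c')]
      exact pow_le_pow_left₀ (abs_nonneg _) hdiff 2
    have h2 : (θ ^ r * ((2 + 2 * L) * T)) ^ 2 = θ ^ (2 * r) * (2 + 2 * L) ^ 2 * T ^ 2 := by
      rw [mul_pow, mul_pow, hθ2]
      ring
    rw [h2] at h1
    refine h1.trans ?_
    have : 0 ≤ θ ^ (2 * r) * (2 + 2 * L) ^ 2 := by positivity
    exact mul_le_mul_of_nonneg_left hT2 this
  have hc'2 : c' ^ 2 ≤ θ ^ (2 * r) := by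
    rw [← hθ2, ← sq_abs c']
    exact pow_le_pow_left₀ (abs_nonneg _) hbd 2
  have hlast : (m (x r) - m' (x r)) ^ 2 ≤ S := by
    rw [hS, Finset.sum_range_succ]
    have : 0 ≤ ∑ i ∈ Finset.range r, (m (x i) - m' (x i)) ^ 2 := Finset.sum_nonneg fun _ _ => sq_nonneg _
    linarith
  have hk0 := hκ.nonneg τ
  have hk1 := hκ.le τ
  have k2 : κ τ ^ 2 ≤ 1 / 4 := by nlinarith
  have k4 : κ τ ^ 4 ≤ 1 := by
    have : κ τ ^ 4 = (κ τ ^ 2) ^ 2 := by ring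
    rw [this]
    nlinarith [sq_nonneg (κ τ)]
  have hθp : 0 ≤ θ ^ (2 * r) := by positivity
  have hr1 : (1 : ℝ) ≤ (r : ℝ) + 1 := by
    have : (0 : ℝ) ≤ r := Nat.cast_nonneg r
    linarith
  have t1 : 8 * κ τ ^ 2 * (c - c') ^ 2 ≤ 2 * (θ ^ (2 * r) * (2 + 2 * L) ^ 2 * (((r : ℝ) + 1) * S)) := by
    have : 8 * κ τ ^ 2 ≤ 2 := by linarith
    exact mul_le_mul this hd2 (sq_nonneg _) (by norm_num)
  have t2 : K * κ τ ^ 4 * c' ^ 2 * (m (x r) - m' (x r)) ^ 2 ≤ K * θ ^ (2 * r) * (((r : ℝ) + 1) * S) := by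
    have e1 : K * κ τ ^ 4 ≤ K := mul_le_of_le_one_right hK k4
    have e2 : K * κ τ ^ 4 * c' ^ 2 ≤ K * θ ^ (2 * r) :=
      mul_le_mul e1 hc'2 (sq_nonneg _) hK
    have e3 : (m (x r) - m' (x r)) ^ 2 ≤ ((r : ℝ) + 1) * S := by
      nlinarith
    exact mul_le_mul e2 e3 (sq_nonneg _) (by positivity)
  calc _ ≤ 2 * (θ ^ (2 * r) * (2 + 2 * L) ^ 2 * (((r : ℝ) + 1) * S)) +
        K * θ ^ (2 * r) * (((r : ℝ) + 1) * S) := add_le_add t1 t2
    _ = _ := by ring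

theorem XW_le_out {K L θ : ℝ} {κ : ℝ → ℝ} (hL : BetheBd L θ) (hK : 0 ≤ K) (hT : G.IsTree)
    {W W' : Finset V} (hW' : IsWin G W') (h0 : 0 ≤ θ) (h1 : θ < 1)
    (hκ : IsStrength κ) {x : ℕ → V} {r : ℕ} (hx : IsGeod G x r) (hx0 : x 0 ∈ W') (hxr : x r ∈ W')
    (hz : x r ∉ W) (τ : ℝ) (h h' : V → ℝ) :
    XW K G θ κ W W' (x 0) (x r) τ (h, h') ≤ (2 + K) * θ ^ (2 * r) := by
  have hinW' : ∀ i, i ≤ r → x i ∈ W' := fun i hi => hx.mem_of_isWin hT hW' hx0 hxr hi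
  have hc : cW G θ W h (x 0) (x r) = 0 := by
    unfold cW
    rw [if_neg hz]
  have hc' : cW G θ W' h' (x 0) (x r) = pathCov θ (gm G θ W' h') x r := by
    unfold cW
    rw [if_pos hxr]
    exact gcov_eq_pathCov hT hW' h0 h1 h' hx hinW'
  unfold XW
  simp only
  rw [hc, hc']
  have hbd := abs_pathCov_le (θm := θ) hL h0 le_rfl (fun u => abs_gm_le (G := G) (W := W') h0 h1 h' u) x r
  set c' := pathCov θ (gm G θ W' h') x r
  have hθ2 : (θ ^ r) ^ 2 = θ ^ (2 * r) := by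
    rw [← pow_mul, mul_comm]
  have hc'2 : c' ^ 2 ≤ θ ^ (2 * r) := by
    rw [← hθ2, ← sq_abs c']
    exact pow_le_pow_left₀ (abs_nonneg _) hbd 2
  have hk0 := hκ.nonneg τ
  have hk1 := hκ.le τ
  have k2 : κ τ ^ 2 ≤ 1 / 4 := by nlinarith
  have k4 : κ τ ^ 4 ≤ 1 / 16 := by
    have : κ τ ^ 4 = (κ τ ^ 2) ^ 2 := by ring
    rw [this]
    nlinarith [sq_nonneg (κ τ)]
  have hθp : 0 ≤ θ ^ (2 * r) := by positivity
  have hΔ : (gm G θ W h (x r) - gm G θ W' h' (x r)) ^ 2 ≤ 4 := by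
    rw [← sq_abs]
    have a3 : |gm G θ W h (x r)| ≤ 1 := abs_gm_le h0 h1 _ _
    have a4 : |gm G θ W' h' (x r)| ≤ 1 := abs_gm_le h0 h1 _ _
    have : |gm G θ W h (x r) - gm G θ W' h' (x r)| ≤ 2 := (abs_sub _ _).trans (by linarith)
    nlinarith [abs_nonneg (gm G θ W h (x r) - gm G θ W' h' (x r))]
  have t1 : 8 * κ τ ^ 2 * (0 - c') ^ 2 ≤ 2 * θ ^ (2 * r) := by
    have : 8 * κ τ ^ 2 ≤ 2 := by linarith
    rw [zero_sub, neg_sq]
    exact mul_le_mul this hc'2 (sq_nonneg _) (by norm_num)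
  have t2 : K * κ τ ^ 4 * c' ^ 2 * (gm G θ W h (x r) - gm G θ W' h' (x r)) ^ 2 ≤ K * θ ^ (2 * r) := by
    have e1 : K * κ τ ^ 4 ≤ K * (1 / 16) := mul_le_mul_of_nonneg_left k4 hK
    have e2 : K * κ τ ^ 4 * c' ^ 2 ≤ K * (1 / 16) * θ ^ (2 * r) :=
      mul_le_mul e1 hc'2 (sq_nonneg _) (by positivity)
    have e3 := mul_le_mul e2 hΔ (sq_nonneg _) (by positivity)
    nlinarith
  nlinarith

/-- Mean of the majorant along a path in `W`. -/
theorem YW_le_path {K L θ τ : ℝ} {κ : ℝ → ℝ} (hL : BetheBd L θ) (hL0 : 0 ≤ L) (hK : 0 ≤ K) (hT : G.IsTree)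
    {W W' : Finset V} (hW : IsWin G W) (hW' : IsWin G W') (hWW' : W ⊆ W') (h0 : 0 ≤ θ) (h1 : θ < 1)
    (hκ : IsStrength κ) {x : ℕ → V} {r : ℕ} (hx : IsGeod G x r) (hx0 : x 0 ∈ W) (hxr : x r ∈ W) :
    YW K G θ κ W W' (x 0) (x r) τ ≤
      (2 * (2 + 2 * L) ^ 2 + K) * (θ ^ (2 * r) * ((r : ℝ) + 1) *
        ∑ i ∈ Finset.range (r + 1), Sq G θ κ W W' τ (x i)) := by
  unfold YW
  have hint : Integrable (fun ω : Om V => (2 * (2 + 2 * L) ^ 2 + K) * (θ ^ (2 * r) * ((r : ℝ) + 1) *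
      ∑ i ∈ Finset.range (r + 1), (mW G θ κ W ω τ (x i) - mW G θ κ W' ω τ (x i)) ^ 2)) (PP V) :=
    ((integrable_finsetSum _ fun i _ => integrable_Δ hκ.meas h0 h1 W W' (x i)).const_mul _).const_mul _
  calc _ ≤ ∫ ω, (2 * (2 + 2 * L) ^ 2 + K) * (θ ^ (2 * r) * ((r : ℝ) + 1) *
        ∑ i ∈ Finset.range (r + 1), (mW G θ κ W ω τ (x i) - mW G θ κ W' ω τ (x i)) ^ 2) ∂(PP V) :=
        integral_mono (integrable_XW_field hK h0 h1 hκ W W' _ _) hint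
          fun ω => XW_le_path hL hL0 hK hT hW hW' hWW' h0 h1 hκ hx hx0 hxr τ _ _
    _ = _ := by
        rw [integral_const_mul, integral_const_mul, integral_finsetSum _
          fun i _ => integrable_Δ hκ.meas h0 h1 W W' (x i)]
        rfl

theorem YW_le_out {K L θ τ : ℝ} {κ : ℝ → ℝ} (hL : BetheBd L θ) (hK : 0 ≤ K) (hT : G.IsTree)
    {W W' : Finset V} (hW' : IsWin G W') (h0 : 0 ≤ θ) (h1 : θ < 1)
    (hκ : IsStrength κ) {x : ℕ → V} {r : ℕ} (hx : IsGeod G x r) (hx0 : x 0 ∈ W') (hxr : x r ∈ W')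
    (hz : x r ∉ W) :
    YW K G θ κ W W' (x 0) (x r) τ ≤ (2 + K) * θ ^ (2 * r) := by
  unfold YW
  calc _ ≤ ∫ _ω : Om V, ((2 + K) * θ ^ (2 * r) : ℝ) ∂(PP V) :=
        integral_mono (integrable_XW_field hK h0 h1 hκ W W' _ _) (integrable_const _)
          fun ω => XW_le_out hL hK hT hW' h0 h1 hκ hx hx0 hxr hz τ _ _
    _ = _ := by simp

/-! ### The weights -/

/-- Weight of a ring at distance `r`. -/
noncomputable def gWt (θ γ : ℝ) (r : ℕ) : ℝ := θ ^ (2 * r) * ((r : ℝ) + 1) ^ 2 * γ⁻¹ ^ r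

theorem gWt_nonneg {θ γ : ℝ} (h0 : 0 ≤ θ) (hγ : 0 < γ) (r : ℕ) : 0 ≤ gWt θ γ r := by
  unfold gWt
  positivity

theorem pow_le_pow_mul_inv {γ : ℝ} (hγ0 : 0 < γ) (hγ1 : γ < 1) {N i r : ℕ} (hi : i ≤ r) :
    γ ^ (N - i) ≤ γ ^ N * γ⁻¹ ^ r := by
  have hg : 1 ≤ γ⁻¹ := (one_le_inv₀ hγ0).2 hγ1.le
  set j := min i N with hj
  have h1 : N - i = N - j := by omega
  have hjN : j ≤ N := min_le_right _ _
  have hjr : j ≤ r := (min_le_left _ _).trans hi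
  rw [h1]
  have e : γ ^ (N - j) = γ ^ N * γ⁻¹ ^ j := by
    have : γ ^ N = γ ^ (N - j) * γ ^ j := by
      rw [← pow_add]
      congr 1
      omega
    rw [this, mul_assoc, ← mul_pow, mul_inv_cancel₀ hγ0.ne', one_pow, mul_one]
  rw [e]
  exact mul_le_mul_of_nonneg_left (pow_le_pow_right₀ hg hjr) (by positivity)

theorem ball_sub_of_geod (hT : G.IsTree) {x : ℕ → V} {r N : ℕ} {W : Finset V} (hx : IsGeod G x r)
    (hb : ball G (x 0) N ⊆ W) (hxW : ∀ i, i ≤ r → x i ∈ W) {i : ℕ} (hi : i ≤ r) :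
    ball G (x i) (N - i) ⊆ W := by
  intro y hy
  rw [mem_ball hT] at hy
  by_cases hiN : i ≤ N
  · refine hb ((mem_ball hT).2 ?_)
    have h1 := hT.connected.dist_triangle (u := x 0) (v := x i) (w := y)
    have h2 := hx.dist_eq hT (Nat.zero_le i) hi
    omega
  · have h0 : G.dist (x i) y = 0 := by omega
    have : x i = y := (hT.connected _ _).dist_eq_zero_iff.1 h0
    rw [← this]
    exact hxW i hi

/-- One ring at `z`, under the hypothesis `P`, in terms of the weight. -/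
theorem YW_le_gWt {K L θ τ γ Φ E : ℝ} {κ : ℝ → ℝ} (hL : BetheBd L θ) (hL0 : 0 ≤ L) (hK : 0 ≤ K) (hT : G.IsTree)
    {W W' : Finset V} (hW : IsWin G W) (hW' : IsWin G W') (hWW' : W ⊆ W') (h0 : 0 ≤ θ) (h1 : θ < 1)
    (hκ : IsStrength κ) (hγ0 : 0 < γ) (hγ1 : γ < 1) (hΦ : 0 ≤ Φ) (hE : 0 ≤ E)
    (hP : ∀ (u : V) (n : ℕ), ball G u n ⊆ W → Sq G θ κ W W' τ u ≤ Φ * (γ ^ n * E))
    {v z : V} {N : ℕ} (hb : ball G v N ⊆ W) (hz : z ∈ W') :
    YW K G θ κ W W' v z τ ≤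
      gWt θ γ (G.dist v z) * (γ ^ N * ((2 * (2 + 2 * L) ^ 2 + K) * Φ * E + (2 + K))) := by
  obtain ⟨x, hx, hx0, hxr⟩ := exists_geod hT v z
  generalize hr : G.dist v z = r at hx hxr ⊢
  have hv : v ∈ W := hb (mem_ball_self hT v N)
  have hvW' : v ∈ W' := hWW' hv
  have hg1 : 1 ≤ γ⁻¹ := (one_le_inv₀ hγ0).2 hγ1.le
  have hr1 : (1 : ℝ) ≤ (r : ℝ) + 1 := by
    have : (0 : ℝ) ≤ r := Nat.cast_nonneg r
    linarith
  have hγN : 0 ≤ γ ^ N := by positivity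
  have hgW := gWt_nonneg (θ := θ) h0 hγ0 r
  subst hx0
  subst hxr
  by_cases hzW : x r ∈ W
  · -- inside
    have hxW : ∀ i, i ≤ r → x i ∈ W := fun i hi => hx.mem_of_isWin hT hW hv hzW hi
    have h2 := YW_le_path (τ := τ) (K := K) hL hL0 hK hT hW hW' hWW' h0 h1 hκ hx hv hzW
    refine h2.trans ?_
    have hsum : ∑ i ∈ Finset.range (r + 1), Sq G θ κ W W' τ (x i) ≤
        ((r : ℝ) + 1) * (Φ * (γ ^ N * γ⁻¹ ^ r * E)) := by
      have : ∀ i ∈ Finset.range (r + 1), Sq G θ κ W W' τ (x i) ≤ Φ * (γ ^ N * γ⁻¹ ^ r * E) := by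
        intro i hi
        have hi' : i ≤ r := by
          have := Finset.mem_range.1 hi
          omega
        refine (hP (x i) (N - i) (ball_sub_of_geod hT hx hb hxW hi')).trans ?_
        refine mul_le_mul_of_nonneg_left ?_ hΦ
        exact mul_le_mul_of_nonneg_right (pow_le_pow_mul_inv hγ0 hγ1 hi') hE
      refine (Finset.sum_le_sum this).trans ?_
      simp
    set A := 2 * (2 + 2 * L) ^ 2 + K with hA
    have hA0 : 0 ≤ A := by positivity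
    have hθp : 0 ≤ θ ^ (2 * r) := by positivity
    calc A * (θ ^ (2 * r) * ((r : ℝ) + 1) * ∑ i ∈ Finset.range (r + 1), Sq G θ κ W W' τ (x i))
        ≤ A * (θ ^ (2 * r) * ((r : ℝ) + 1) * (((r : ℝ) + 1) * (Φ * (γ ^ N * γ⁻¹ ^ r * E)))) := by
          gcongr
      _ = gWt θ γ r * (γ ^ N * (A * Φ * E)) := by
          unfold gWt
          ring
      _ ≤ gWt θ γ r * (γ ^ N * (A * Φ * E + (2 + K))) := by
          gcongr
          linarith
  · -- outside the small window: `r > N`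
    have hzN : N < r := by
      by_contra hcon
      exact hzW (hb ((mem_ball hT).2 (by omega)))
    have h2 := YW_le_out (τ := τ) (K := K) hL hK hT hW' h0 h1 hκ hx hvW' hz hzW
    refine h2.trans ?_
    have hw : 1 ≤ ((r : ℝ) + 1) ^ 2 * (γ⁻¹ ^ r * γ ^ N) := by
      have h3 : 1 ≤ ((r : ℝ) + 1) ^ 2 := by nlinarith
      have h4 : 1 ≤ γ⁻¹ ^ r * γ ^ N := by
        have : γ ^ (N - N) ≤ γ ^ N * γ⁻¹ ^ r := pow_le_pow_mul_inv hγ0 hγ1 hzN.le
        simp only [Nat.sub_self, pow_zero] at this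
        linarith
      nlinarith
    have hK2 : 0 ≤ 2 + K := by linarith
    have hθp : 0 ≤ θ ^ (2 * r) := by positivity
    have hAE : 0 ≤ (2 * (2 + 2 * L) ^ 2 + K) * Φ * E := by positivity
    calc (2 + K) * θ ^ (2 * r) ≤ (2 + K) * θ ^ (2 * r) * (((r : ℝ) + 1) ^ 2 * (γ⁻¹ ^ r * γ ^ N)) :=
          le_mul_of_one_le_right (by positivity) hw
      _ = gWt θ γ r * (γ ^ N * (2 + K)) := by
          unfold gWt
          ring
      _ ≤ _ := mul_le_mul_of_nonneg_left (mul_le_mul_of_nonneg_left (by linarith) hγN) hgW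

/-! ### Summability of the weights -/

theorem sc_summable_sq_geom {ρ : ℝ} (h0 : 0 ≤ ρ) (h1 : ρ < 1) : Summable fun r : ℕ => ((r : ℝ) + 1) ^ 2 * ρ ^ r := by
  have hn : ‖ρ‖ < 1 := by
    rw [Real.norm_eq_abs, abs_of_nonneg h0]
    exact h1
  have h2 := summable_pow_mul_geometric_of_norm_lt_one 2 hn
  have h3 := summable_pow_mul_geometric_of_norm_lt_one 1 hn
  have h4 := summable_geometric_of_lt_one h0 h1
  have := (h2.add (h3.mul_left 2)).add h4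
  refine this.congr fun r => ?_
  simp only [pow_one]
  ring

theorem gWt_summable {θ γ D : ℝ} (h0 : 0 ≤ θ) (hD : 0 ≤ D) (hγ : 0 < γ) (hρ : θ ^ 2 * D < γ) :
    Summable fun r : ℕ => 2 * D ^ r * gWt θ γ r := by
  set ρ := θ ^ 2 * D * γ⁻¹ with hρdef
  have hρ0 : 0 ≤ ρ := by positivity
  have hρ1 : ρ < 1 := by
    rw [hρdef, ← div_eq_mul_inv, div_lt_one hγ]
    exact hρ
  have := (sc_summable_sq_geom hρ0 hρ1).mul_left 2
  refine this.congr fun r => ?_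
  unfold gWt
  rw [hρdef, mul_pow, mul_pow, ← pow_mul]
  ring

/-! ### The Gronwall step -/

/-- Sum over the rings. -/
theorem sum_YW_le {K L θ τ γ Φ E : ℝ} {κ : ℝ → ℝ} (hL : BetheBd L θ) (hL0 : 0 ≤ L) (hK : 0 ≤ K)
    (hG : Tree G d) {W W' : Finset V} (hW : IsWin G W) (hW' : IsWin G W') (hWW' : W ⊆ W')
    (h0 : 0 ≤ θ) (h1 : θ < 1) (hκ : IsStrength κ) (hγ0 : 0 < γ) (hγ1 : γ < 1) (hρ : θ ^ 2 * ((d : ℝ) - 1) < γ)
    (hΦ : 0 ≤ Φ) (hE : 0 ≤ E)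
    (hP : ∀ (u : V) (n : ℕ), ball G u n ⊆ W → Sq G θ κ W W' τ u ≤ Φ * (γ ^ n * E))
    {v : V} {N : ℕ} (hb : ball G v N ⊆ W) :
    ∑ z ∈ W ∪ W', YW K G θ κ W W' v z τ ≤
      (∑' r, 2 * ((d : ℝ) - 1) ^ r * gWt θ γ r) *
        (γ ^ N * ((2 * (2 + 2 * L) ^ 2 + K) * Φ * E + (2 + K))) := by
  have hU : W ∪ W' = W' := Finset.union_eq_right.2 hWW'
  rw [hU]
  have hd1 : (0 : ℝ) ≤ (d : ℝ) - 1 := by
    have : (3 : ℝ) ≤ d := by exact_mod_cast hG.hd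
    linarith
  have h3 : ∀ z ∈ W', YW K G θ κ W W' v z τ ≤
      gWt θ γ (G.dist v z) * (γ ^ N * ((2 * (2 + 2 * L) ^ 2 + K) * Φ * E + (2 + K))) := fun z hz =>
    YW_le_gWt hL hL0 hK hG.tree hW hW' hWW' h0 h1 hκ hγ0 hγ1 hΦ hE hP hb hz
  refine (Finset.sum_le_sum h3).trans ?_
  rw [← Finset.sum_mul]
  refine mul_le_mul_of_nonneg_right ?_ (by positivity)
  exact sum_dist_le hG W' v (fun r => gWt_nonneg h0 hγ0 r) (gWt_summable h0 hd1 hγ0 hρ)

theorem integral_exp_mul_le {C : ℝ} {s : ℝ} :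
    ∫ τ in (0 : ℝ)..s, C * Real.exp (2 * C * τ) = Real.exp (2 * C * s) / 2 - 1 / 2 := by
  have hd : ∀ τ ∈ Set.uIcc (0 : ℝ) s, HasDerivAt (fun τ => Real.exp (2 * C * τ) / 2) (C * Real.exp (2 * C * τ)) τ := by
    intro τ _
    have h1 : HasDerivAt (fun τ : ℝ => 2 * C * τ) (2 * C) τ := by
      simpa using (hasDerivAt_id τ).const_mul (2 * C)
    have h2 := (Real.hasDerivAt_exp (2 * C * τ)).comp τ h1
    have h3 : HasDerivAt (fun τ => Real.exp (2 * C * τ) / 2) (Real.exp (2 * C * τ) * (2 * C) / 2) τ :=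
      h2.div_const 2
    have e : C * Real.exp (2 * C * τ) = Real.exp (2 * C * τ) * (2 * C) / 2 := by ring
    rw [e]
    exact h3
  have hint : IntervalIntegrable (fun τ => C * Real.exp (2 * C * τ)) volume 0 s :=
    Continuous.intervalIntegrable (by fun_prop) _ _
  rw [intervalIntegral.integral_eq_sub_of_hasDerivAt hd hint]
  simp

/-- The contraction step: from the bound with `Φ` to the bound with `Φ/2 + C' T`. -/
theorem step_P {K L θ γ Φ T : ℝ} {κ : ℝ → ℝ} (hK : 0 < K)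
    (hone : ∀ (θ θ' κ : ℝ) (W W' : Finset V) (z v : V) (h h' : V → ℝ),
      0 ≤ θ → θ < 1 → 0 ≤ θ' → θ' < 1 → 0 ≤ κ → κ ≤ 1 / 2 →
      (∫ u : Lab, (gm G θ W (stepW G θ κ W z (u : ℝ) h) v - gm G θ' W' (stepW G θ' κ W' z (u : ℝ) h') v) ^ 2) -
          (gm G θ W h v - gm G θ' W' h' v) ^ 2 ≤
        8 * κ ^ 2 * (cW G θ W h v z - cW G θ' W' h' v z) ^ 2 +
          K * κ ^ 4 * cW G θ' W' h' v z ^ 2 * (gm G θ W h z - gm G θ' W' h' z) ^ 2)
    (hL : BetheBd L θ) (hL0 : 0 ≤ L) (hG : Tree G d) {W W' : Finset V} (hW : IsWin G W) (hW' : IsWin G W')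
    (hWW' : W ⊆ W') (h0 : 0 ≤ θ) (h1 : θ < 1) (hκ : IsStrength κ) (hγ0 : 0 < γ) (hγ1 : γ < 1)
    (hρ : θ ^ 2 * ((d : ℝ) - 1) < γ) (hΦ : 0 ≤ Φ) (hT0 : 0 ≤ T)
    (C₀ A A' : ℝ) (hC₀ : C₀ = ∑' r, 2 * ((d : ℝ) - 1) ^ r * gWt θ γ r)
    (hA : A = 2 * (2 + 2 * L) ^ 2 + K) (hA' : A' = 2 + K)
    (hP : ∀ (u : V) (n : ℕ), ball G u n ⊆ W → ∀ s ∈ Icc (0 : ℝ) T,
      Sq G θ κ W W' s u ≤ Φ * (γ ^ n * Real.exp (2 * (C₀ * A) * s))) :
    ∀ (u : V) (n : ℕ), ball G u n ⊆ W → ∀ s ∈ Icc (0 : ℝ) T,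
      Sq G θ κ W W' s u ≤ (Φ / 2 + C₀ * A' * T) * (γ ^ n * Real.exp (2 * (C₀ * A) * s)) := by
  intro u n hb s hs
  have hd1 : (0 : ℝ) ≤ (d : ℝ) - 1 := by
    have : (3 : ℝ) ≤ d := by exact_mod_cast hG.hd
    linarith
  have hC₀0 : 0 ≤ C₀ := by
    rw [hC₀]
    exact tsum_nonneg fun r => mul_nonneg (mul_nonneg (by norm_num) (pow_nonneg hd1 r)) (gWt_nonneg h0 hγ0 r)
  have hA0 : 0 ≤ A := by
    rw [hA]
    positivity
  have hA'0 : 0 ≤ A' := by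
    rw [hA']
    linarith
  have hu : u ∈ W := hb (mem_ball_self hG.tree u n)
  have hs0 := hs.1
  have hring := Sq_le_sum_YW (t := s) hK hone h0 h1 hκ hu (hWW' hu) hs0
  rw [← intervalIntegral.integral_finsetSum
    (fun z _ => intervalIntegrable_YW hK.le h0 h1 hκ W W' u z 0 s)] at hring
  set C := C₀ * A with hC
  have hC0 : 0 ≤ C := mul_nonneg hC₀0 hA0
  have hbound : ∀ τ ∈ Icc (0 : ℝ) s, ∑ z ∈ W ∪ W', YW K G θ κ W W' u z τ ≤
      γ ^ n * (Φ * (C * Real.exp (2 * C * τ)) + C₀ * A') := by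
    intro τ hτ
    have hτT : τ ∈ Icc (0 : ℝ) T := ⟨hτ.1, hτ.2.trans hs.2⟩
    have hP' : ∀ (u : V) (n : ℕ), ball G u n ⊆ W →
        Sq G θ κ W W' τ u ≤ Φ * (γ ^ n * Real.exp (2 * C * τ)) := fun u n hb => hP u n hb τ hτT
    have := sum_YW_le hL hL0 hK.le hG hW hW' hWW' h0 h1 hκ hγ0 hγ1 hρ hΦ (Real.exp_nonneg _) hP' hb
    refine this.trans (le_of_eq ?_)
    rw [← hC₀, ← hA, ← hA', hC]
    ring
  have hint1 : IntervalIntegrable (fun τ => ∑ z ∈ W ∪ W', YW K G θ κ W W' u z τ) volume 0 s := by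
    have := IntervalIntegrable.sum (s := W ∪ W') (μ := volume) (a := 0) (b := s)
      (f := fun z => YW K G θ κ W W' u z) (fun z _ => intervalIntegrable_YW hK.le h0 h1 hκ W W' u z 0 s)
    have e : (fun τ => ∑ z ∈ W ∪ W', YW K G θ κ W W' u z τ) = ∑ z ∈ W ∪ W', YW K G θ κ W W' u z := by
      funext τ
      simp
    rw [e]
    exact this
  have hint2 : IntervalIntegrable (fun τ => γ ^ n * (Φ * (C * Real.exp (2 * C * τ)) + C₀ * A')) volume 0 s :=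
    Continuous.intervalIntegrable (by fun_prop) _ _
  have hmono := intervalIntegral.integral_mono_on hs0 hint1 hint2 hbound
  have hval : ∫ τ in (0 : ℝ)..s, γ ^ n * (Φ * (C * Real.exp (2 * C * τ)) + C₀ * A') =
      γ ^ n * (Φ * (Real.exp (2 * C * s) / 2 - 1 / 2) + C₀ * A' * s) := by
    rw [intervalIntegral.integral_const_mul, intervalIntegral.integral_add,
      intervalIntegral.integral_const_mul, integral_exp_mul_le, intervalIntegral.integral_const]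
    · simp only [sub_zero, smul_eq_mul]
      ring
    · exact Continuous.intervalIntegrable (by fun_prop) _ _
    · exact Continuous.intervalIntegrable (by fun_prop) _ _
  rw [hval] at hmono
  refine hring.trans (hmono.trans ?_)
  have hexp : 1 ≤ Real.exp (2 * C * s) := Real.one_le_exp (by positivity)
  have hγn : 0 ≤ γ ^ n := by positivity
  have e1 : Φ * (Real.exp (2 * C * s) / 2 - 1 / 2) ≤ Φ / 2 * Real.exp (2 * C * s) := by
    nlinarith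
  have e2 : C₀ * A' * s ≤ C₀ * A' * T * Real.exp (2 * C * s) := by
    have hc : 0 ≤ C₀ * A' := mul_nonneg hC₀0 hA'0
    have : C₀ * A' * s ≤ C₀ * A' * T := mul_le_mul_of_nonneg_left hs.2 hc
    have h2 : 0 ≤ C₀ * A' * T := mul_nonneg hc hT0
    nlinarith
  calc γ ^ n * (Φ * (Real.exp (2 * C * s) / 2 - 1 / 2) + C₀ * A' * s)
      ≤ γ ^ n * (Φ / 2 * Real.exp (2 * C * s) + C₀ * A' * T * Real.exp (2 * C * s)) := by
        gcongr
    _ = (Φ / 2 + C₀ * A' * T) * (γ ^ n * Real.exp (2 * C * s)) := by ring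

/-! ### Balls contain long geodesics -/

theorem exists_dist_eq (hG : Tree G d) (u : V) (N : ℕ) : ∃ y, G.dist u y = N := by
  classical
  have hT := hG.tree
  match N with
  | 0 => exact ⟨u, by simp⟩
  | n + 1 =>
    have hne : (G.neighborFinset u).Nonempty := by
      rw [← Finset.card_pos, card_neighborFinset_eq_degree, hG.reg.degree_eq]
      have := hG.hd
      omega
    obtain ⟨c, hc⟩ := hne
    have hadj : G.Adj u c := by simpa using hc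
    have hcard := card_cone hT hG.reg hadj n
    have hpos : 0 < (cone G u c n).card := by
      rw [hcard]
      have := hG.hd
      exact pow_pos (by omega) n
    obtain ⟨y, hy⟩ := Finset.card_pos.1 hpos
    exact ⟨y, ((mem_cone hT hadj).1 hy).2⟩

theorem le_card_of_ball_sub (hG : Tree G d) {W : Finset V} {u : V} {N : ℕ} (hb : ball G u N ⊆ W) :
    N ≤ W.card := by
  classical
  have hT := hG.tree
  obtain ⟨y, hy⟩ := exists_dist_eq hG u N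
  obtain ⟨x, hx, hx0, hxr⟩ := exists_geod hT u y
  rw [hy] at hx hxr
  have hinj : Set.InjOn x (Finset.range (N + 1) : Set ℕ) := by
    intro i hi j hj hij
    have hi' : i ≤ N := by
      have := Finset.mem_range.1 hi
      omega
    have hj' : j ≤ N := by
      have := Finset.mem_range.1 hj
      omega
    exact hx.injOn hT hi' hj' hij
  have hsub : (Finset.range (N + 1)).image x ⊆ W := by
    intro v hv
    obtain ⟨i, hi, rfl⟩ := Finset.mem_image.1 hv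
    refine hb ((mem_ball hT).2 ?_)
    have hi' : i ≤ N := by
      have := Finset.mem_range.1 hi
      omega
    have := hx.dist_eq hT (Nat.zero_le i) hi'
    rw [hx0] at this
    omega
  have := Finset.card_le_card hsub
  rw [Finset.card_image_of_injOn hinj, Finset.card_range] at this
  omega

/-! ### The window estimate -/

theorem L2_window (hG : Tree G d) {θ τ₁ : ℝ} {κ : ℝ → ℝ} (hθ0 : 0 ≤ θ) (hθ : θ ^ 2 * ((d : ℝ) - 1) < 1)
    (hκ : IsStrength κ) : ∃ B γ : ℝ, 0 ≤ B ∧ 0 < γ ∧ γ < 1 ∧ ∀ W W' : Finset V, IsWin G W → IsWin G W' → W ⊆ W' →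
      ∀ (v : V) (N : ℕ), ball G v N ⊆ W → ∀ τ ∈ Icc 0 τ₁,
        ∫ ω, (mW G θ κ W ω τ v - mW G θ κ W' ω τ v) ^ 2 ∂(PP V) ≤ B * γ ^ N := by
  have hd3 : (3 : ℝ) ≤ d := by exact_mod_cast hG.hd
  have hd1 : (0 : ℝ) ≤ (d : ℝ) - 1 := by linarith
  have hθ1 : θ < 1 := by
    have : θ ^ 2 * 2 ≤ θ ^ 2 * ((d : ℝ) - 1) := mul_le_mul_of_nonneg_left (by linarith) (sq_nonneg θ)
    nlinarith
  obtain ⟨K, hK, hone⟩ := exists_one_ring (V := V) (G := G)
  obtain ⟨L, hL0, hL⟩ := exists_bethe_bounds hθ0 hθ1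
  set η := θ ^ 2 * ((d : ℝ) - 1) with hη
  have hη0 : 0 ≤ η := by positivity
  set γ := (1 + η) / 2 with hγ
  have hγ0 : 0 < γ := by positivity
  have hγ1 : γ < 1 := by rw [hγ]; linarith
  have hρ : η < γ := by rw [hγ]; linarith
  set C₀ : ℝ := ∑' r, 2 * ((d : ℝ) - 1) ^ r * gWt θ γ r with hC₀
  set A : ℝ := 2 * (2 + 2 * L) ^ 2 + K with hA
  set A' : ℝ := 2 + K with hA'
  have hC₀0 : 0 ≤ C₀ :=
    tsum_nonneg fun r => mul_nonneg (mul_nonneg (by norm_num) (pow_nonneg hd1 r)) (gWt_nonneg hθ0 hγ0 r)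
  have hA0 : 0 ≤ A := by positivity
  have hA'0 : 0 ≤ A' := by positivity
  set T := max τ₁ 0 with hT
  have hT0 : 0 ≤ T := le_max_right _ _
  set C := C₀ * A with hC
  have hC0 : 0 ≤ C := mul_nonneg hC₀0 hA0
  refine ⟨2 * (C₀ * A' * T) * Real.exp (2 * C * T), γ, by positivity, hγ0, hγ1, ?_⟩
  intro W W' hW hW' hWW' v N hb τ hτ
  have hτT : τ ∈ Icc (0 : ℝ) T := ⟨hτ.1, hτ.2.trans (le_max_left _ _)⟩
  -- The sequence of bounds.
  set Φ₀ : ℝ := 4 * γ⁻¹ ^ W.card with hΦ₀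
  have hΦ₀0 : 0 ≤ Φ₀ := by positivity
  have hstart : ∀ (u : V) (n : ℕ), ball G u n ⊆ W → ∀ s ∈ Icc (0 : ℝ) T,
      Sq G θ κ W W' s u ≤ Φ₀ * (γ ^ n * Real.exp (2 * C * s)) := by
    intro u n hbu s hs
    refine (Sq_le hθ0 hθ1 hκ.meas W W' u).trans ?_
    have hn := le_card_of_ball_sub hG hbu
    have h1 : γ ^ W.card ≤ γ ^ n := pow_le_pow_of_le_one hγ0.le hγ1.le hn
    have h2 : 1 ≤ Real.exp (2 * C * s) := Real.one_le_exp (by have := hs.1; positivity)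
    have h3 : 1 ≤ γ⁻¹ ^ W.card * γ ^ n := by
      have : γ⁻¹ ^ W.card * γ ^ W.card = 1 := by
        rw [← mul_pow, inv_mul_cancel₀ hγ0.ne', one_pow]
      calc 1 = γ⁻¹ ^ W.card * γ ^ W.card := this.symm
        _ ≤ _ := mul_le_mul_of_nonneg_left h1 (by positivity)
    have h4 : 1 ≤ γ⁻¹ ^ W.card * γ ^ n * Real.exp (2 * C * s) := by nlinarith
    calc (4 : ℝ) ≤ 4 * (γ⁻¹ ^ W.card * γ ^ n * Real.exp (2 * C * s)) := by linarith
      _ = _ := by rw [hΦ₀]; ring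
  have hseq : ∀ k : ℕ, ∀ (u : V) (n : ℕ), ball G u n ⊆ W → ∀ s ∈ Icc (0 : ℝ) T,
      Sq G θ κ W W' s u ≤ (2 * (C₀ * A' * T) + Φ₀ / 2 ^ k) * (γ ^ n * Real.exp (2 * C * s)) := by
    intro k
    induction k with
    | zero =>
      intro u n hbu s hs
      refine (hstart u n hbu s hs).trans ?_
      have : 0 ≤ γ ^ n * Real.exp (2 * C * s) := by positivity
      have h2 : 0 ≤ C₀ * A' * T := by positivity
      refine mul_le_mul_of_nonneg_right ?_ this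
      simp only [pow_zero, div_one]
      linarith
    | succ k ih =>
      have hΦ0 : 0 ≤ 2 * (C₀ * A' * T) + Φ₀ / 2 ^ k := by positivity
      have := step_P hK hone hL hL0.le hG hW hW' hWW' hθ0 hθ1 hκ hγ0 hγ1 hρ hΦ0 hT0 C₀ A A' hC₀ hA hA' ih
      intro u n hbu s hs
      refine (this u n hbu s hs).trans (le_of_eq ?_)
      congr 1
      rw [pow_succ]
      field_simp
      ring
  -- Pass to the limit.
  have hlim : Tendsto (fun k : ℕ => (2 * (C₀ * A' * T) + Φ₀ / 2 ^ k) * (γ ^ N * Real.exp (2 * C * τ))) atTop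
      (𝓝 ((2 * (C₀ * A' * T) + 0) * (γ ^ N * Real.exp (2 * C * τ)))) := by
    refine Tendsto.mul_const _ (Tendsto.const_add _ ?_)
    have : Tendsto (fun k : ℕ => Φ₀ * (1 / 2 : ℝ) ^ k) atTop (𝓝 (Φ₀ * 0)) :=
      (tendsto_pow_atTop_nhds_zero_of_lt_one (by norm_num) (by norm_num)).const_mul _
    rw [mul_zero] at this
    refine this.congr fun k => ?_
    rw [one_div, inv_pow]
    rfl
  have hle : Sq G θ κ W W' τ v ≤ (2 * (C₀ * A' * T) + 0) * (γ ^ N * Real.exp (2 * C * τ)) :=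
    ge_of_tendsto' hlim fun k => hseq k v N hb τ hτT
  refine hle.trans ?_
  have hexp : Real.exp (2 * C * τ) ≤ Real.exp (2 * C * T) :=
    Real.exp_le_exp.2 (mul_le_mul_of_nonneg_left hτT.2 (by positivity))
  have hγN : 0 ≤ γ ^ N := by positivity
  have hc : 0 ≤ 2 * (C₀ * A' * T) := by positivity
  calc (2 * (C₀ * A' * T) + 0) * (γ ^ N * Real.exp (2 * C * τ))
      ≤ (2 * (C₀ * A' * T) + 0) * (γ ^ N * Real.exp (2 * C * T)) := by gcongr
    _ = 2 * (C₀ * A' * T) * Real.exp (2 * C * T) * γ ^ N := by ring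

end Crest.Agent.Lib.IsingFIID
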