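/-
Row 160 (S0241), Task SC: the infinite-volume limit in the strict case: `ae_tendsto_mInf`, `mInf_L2`.
-/
import Crest.Agent.Lib.IsingFIID.StrictWindow
import Crest.Agent.Lib.IsingFIID.Final

set_option autoImplicit false
set_option linter.unusedSectionVars false

namespace Crest.Agent.Lib.IsingFIID

open MeasureTheory Filter Topology Set SimpleGraph
open scoped ENNReal

variable {V : Type*} [DecidableEq V] {G : SimpleGraph V} [G.LocallyFinite] {d : ℕ}

theorem sc_ball_mono (hT : G.IsTree) (v : V) {m n : ℕ} (h : m ≤ n) : ball G v m ⊆ ball G v n := by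
  intro u hu
  rw [mem_ball hT] at hu ⊢
  omega

theorem sc_theta_lt_one (hG : Tree G d) {θ : ℝ} (hθ0 : 0 ≤ θ) (hθ : θ ^ 2 * ((d : ℝ) - 1) < 1) : θ < 1 := by
  have hd3 : (3 : ℝ) ≤ d := by exact_mod_cast hG.hd
  have : θ ^ 2 * 2 ≤ θ ^ 2 * ((d : ℝ) - 1) := mul_le_mul_of_nonneg_left (by linarith) (sq_nonneg θ)
  nlinarith

/-- The union of two windows with a common point is a window. -/
theorem isWin_union {W W' : Finset V} (hW : IsWin G W) (hW' : IsWin G W') {v : V} (hv : v ∈ W) (hv' : v ∈ W') :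
    IsWin G (W ∪ W') := by
  classical
  unfold IsWin at *
  have hmem : v ∈ ((W ∪ W' : Finset V) : Set V) := by simp [hv]
  have hle1 : ∀ a : ((W : Finset V) : Set V), (a.1 ∈ ((W ∪ W' : Finset V) : Set V)) := fun a => by
    have : a.1 ∈ W := a.2
    exact Finset.mem_coe.2 (Finset.mem_union_left _ this)
  have hle2 : ∀ a : ((W' : Finset V) : Set V), (a.1 ∈ ((W ∪ W' : Finset V) : Set V)) := fun a => by
    have : a.1 ∈ W' := a.2
    exact Finset.mem_coe.2 (Finset.mem_union_right _ this)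
  -- every point reaches `v`
  have hreach1 : ∀ a : ((W : Finset V) : Set V),
      (G.induce ((W ∪ W' : Finset V) : Set V)).Reachable ⟨a.1, hle1 a⟩ ⟨v, hmem⟩ := by
    intro a
    obtain ⟨p⟩ := hW.preconnected a ⟨v, hv⟩
    let f : G.induce ((W : Finset V) : Set V) →g G.induce ((W ∪ W' : Finset V) : Set V) :=
      { toFun := fun x => ⟨x.1, hle1 x⟩, map_rel' := fun h => h }
    exact ⟨p.map f⟩
  have hreach2 : ∀ a : ((W' : Finset V) : Set V),
      (G.induce ((W ∪ W' : Finset V) : Set V)).Reachable ⟨a.1, hle2 a⟩ ⟨v, hmem⟩ := by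
    intro a
    obtain ⟨p⟩ := hW'.preconnected a ⟨v, hv'⟩
    let f : G.induce ((W' : Finset V) : Set V) →g G.induce ((W ∪ W' : Finset V) : Set V) :=
      { toFun := fun x => ⟨x.1, hle2 x⟩, map_rel' := fun h => h }
    exact ⟨p.map f⟩
  have hall : ∀ a : ((W ∪ W' : Finset V) : Set V),
      (G.induce ((W ∪ W' : Finset V) : Set V)).Reachable a ⟨v, hmem⟩ := by
    rintro ⟨a, ha⟩
    have ha' : a ∈ W ∪ W' := ha
    rcases Finset.mem_union.1 ha' with h | h
    · exact hreach1 ⟨a, h⟩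
    · exact hreach2 ⟨a, h⟩
  have : Nonempty ((W ∪ W' : Finset V) : Set V) := ⟨⟨v, hmem⟩⟩
  exact ⟨fun a b => (hall a).trans (hall b).symm⟩

theorem ae_tendsto_mInf (hG : Tree G d) {θ : ℝ} {κ : ℝ → ℝ} (hθ0 : 0 ≤ θ) (hθ : θ ^ 2 * ((d : ℝ) - 1) < 1)
    (hκ : IsStrength κ) (τ : ℝ) (v : V) :
    ∀ᵐ ω ∂(PP V), Tendsto (fun N => mW G θ κ (ball G v N) ω τ v) atTop (𝓝 (mInf G θ κ ω τ v)) := by
  have hT := hG.tree
  have hθ1 := sc_theta_lt_one hG hθ0 hθ
  by_cases hτ : τ < 0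
  · refine Eventually.of_forall fun ω => ?_
    rw [mInf_eq_zero_of_nonpos hG ω hτ.le v]
    have : (fun N => mW G θ κ (ball G v N) ω τ v) = fun _ => 0 := by
      funext N
      exact mW_eq_zero_of_nonpos ω hτ.le (mem_ball_self hT v N)
    rw [this]
    exact tendsto_const_nhds
  have hτ0 : 0 ≤ τ := not_lt.1 hτ
  obtain ⟨B, γ, hB, hγ0, hγ1, hL⟩ := L2_window (τ₁ := τ) hG hθ0 hθ hκ
  set f : ℕ → Om V → ℝ := fun j ω => mW G θ κ (ball G v j) ω τ v with hf
  have hm : ∀ j, Measurable (f j) := fun j => sc_measurable_mW_at τ hκ.meas _ v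
  have hb : ∀ j ω, |f j ω| ≤ 1 := fun j ω => abs_mW_le hθ0 hθ1 _ _ _ _
  have hle : ∀ j, ∫ ω, (f (j + 1) ω - f j ω) ^ 2 ∂(PP V) ≤ B * γ ^ j := by
    intro j
    have h := hL (ball G v j) (ball G v (j + 1)) (isWin_ball hT v j) (isWin_ball hT v (j + 1))
      (sc_ball_mono hT v (Nat.le_succ j)) v j subset_rfl τ ⟨hτ0, le_rfl⟩
    refine le_trans (le_of_eq ?_) h
    refine integral_congr_ae (Eventually.of_forall fun ω => ?_)
    simp only [hf]
    ring
  have hfast : Summable fun j => Real.sqrt (∫ ω, (f (j + 1) ω - f j ω) ^ 2 ∂(PP V)) := by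
    have hs : Summable fun j : ℕ => Real.sqrt B * Real.sqrt γ ^ j :=
      (summable_geometric_of_lt_one (Real.sqrt_nonneg _) ((Real.sqrt_lt' one_pos).2 (by simpa using hγ1))).mul_left _
    refine Summable.of_nonneg_of_le (fun _ => Real.sqrt_nonneg _) (fun j => ?_) hs
    calc Real.sqrt (∫ ω, (f (j + 1) ω - f j ω) ^ 2 ∂(PP V)) ≤ Real.sqrt (B * γ ^ j) := Real.sqrt_le_sqrt (hle j)
      _ = Real.sqrt B * Real.sqrt γ ^ j := by
          have e : γ ^ j = (Real.sqrt γ ^ j) ^ 2 := by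
            rw [← pow_mul, mul_comm, pow_mul, Real.sq_sqrt hγ0.le]
          rw [Real.sqrt_mul hB, e, Real.sqrt_sq (by positivity)]
  have h := ae_exists_tendsto_of_fast (μ := PP V) hm hb hfast
  filter_upwards [h] with ω hω
  obtain ⟨l, hl⟩ := hω
  have : mInf G θ κ ω τ v = l := hl.limsup_eq
  rw [this]
  exact hl

theorem mInf_L2 (hG : Tree G d) {θ τ₁ : ℝ} {κ : ℝ → ℝ} (hθ0 : 0 ≤ θ) (hθ : θ ^ 2 * ((d : ℝ) - 1) < 1)
    (hκ : IsStrength κ) : ∃ B γ : ℝ, 0 ≤ B ∧ 0 < γ ∧ γ < 1 ∧ ∀ W : Finset V, IsWin G W →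
      ∀ (v : V) (N : ℕ), ball G v N ⊆ W → ∀ τ ∈ Icc 0 τ₁,
        ∫ ω, (mW G θ κ W ω τ v - mInf G θ κ ω τ v) ^ 2 ∂(PP V) ≤ B * γ ^ N := by
  have hT := hG.tree
  have hθ1 := sc_theta_lt_one hG hθ0 hθ
  obtain ⟨B, γ, hB, hγ0, hγ1, hL⟩ := L2_window (τ₁ := τ₁) hG hθ0 hθ hκ
  refine ⟨2 * B, γ, by positivity, hγ0, hγ1, ?_⟩
  intro W hW v N hb τ hτ
  have hvW : v ∈ W := hb (mem_ball_self hT v N)
  -- compare through the union
  have hcomp : ∀ n : ℕ, ∫ ω, (mW G θ κ W ω τ v - mW G θ κ (ball G v n) ω τ v) ^ 2 ∂(PP V) ≤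
      2 * (B * γ ^ N) + 2 * (B * γ ^ n) := by
    intro n
    set U := W ∪ ball G v n with hU
    have hUwin : IsWin G U := isWin_union hW (isWin_ball hT v n) hvW (mem_ball_self hT v n)
    have h1 := hL W U hW hUwin Finset.subset_union_left v N hb τ hτ
    have h2 := hL (ball G v n) U (isWin_ball hT v n) hUwin Finset.subset_union_right v n subset_rfl τ hτ
    have hi1 := integrable_Δ (G := G) (θ := θ) (τ := τ) hκ.meas hθ0 hθ1 W U v
    have hi2 := integrable_Δ (G := G) (θ := θ) (τ := τ) hκ.meas hθ0 hθ1 (ball G v n) U v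
    have hi3 := integrable_Δ (G := G) (θ := θ) (τ := τ) hκ.meas hθ0 hθ1 W (ball G v n) v
    calc _ ≤ ∫ ω, (2 * (mW G θ κ W ω τ v - mW G θ κ U ω τ v) ^ 2 +
            2 * (mW G θ κ (ball G v n) ω τ v - mW G θ κ U ω τ v) ^ 2) ∂(PP V) := by
          refine integral_mono hi3 ((hi1.const_mul 2).add (hi2.const_mul 2)) fun ω => ?_
          simp only
          nlinarith [sq_nonneg ((mW G θ κ W ω τ v - mW G θ κ U ω τ v) +
            (mW G θ κ (ball G v n) ω τ v - mW G θ κ U ω τ v))]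
      _ = 2 * ∫ ω, (mW G θ κ W ω τ v - mW G θ κ U ω τ v) ^ 2 ∂(PP V) +
            2 * ∫ ω, (mW G θ κ (ball G v n) ω τ v - mW G θ κ U ω τ v) ^ 2 ∂(PP V) := by
          rw [integral_add (hi1.const_mul 2) (hi2.const_mul 2), integral_const_mul, integral_const_mul]
      _ ≤ _ := by linarith
  -- dominated convergence
  have hae := ae_tendsto_mInf hG hθ0 hθ hκ τ v
  have hlim : Tendsto (fun n => ∫ ω, (mW G θ κ W ω τ v - mW G θ κ (ball G v n) ω τ v) ^ 2 ∂(PP V)) atTop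
      (𝓝 (∫ ω, (mW G θ κ W ω τ v - mInf G θ κ ω τ v) ^ 2 ∂(PP V))) := by
    refine tendsto_integral_of_dominated_convergence (fun _ => (4 : ℝ))
      (fun n => (measurable_Δ hκ.meas W _ v).aestronglyMeasurable) (integrable_const _) ?_ ?_
    · intro n
      refine Eventually.of_forall fun ω => ?_
      rw [Real.norm_eq_abs, abs_of_nonneg (sq_nonneg _)]
      exact Δ_le hθ0 hθ1 W _ v ω
    · filter_upwards [hae] with ω hω
      exact (tendsto_const_nhds.sub hω).pow 2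
  have hrhs : Tendsto (fun n : ℕ => 2 * (B * γ ^ N) + 2 * (B * γ ^ n)) atTop (𝓝 (2 * (B * γ ^ N) + 2 * (B * 0))) :=
    tendsto_const_nhds.add (((tendsto_pow_atTop_nhds_zero_of_lt_one hγ0.le hγ1).const_mul B).const_mul 2)
  have := le_of_tendsto_of_tendsto' hlim hrhs hcomp
  simpa [mul_assoc] using this

end Crest.Agent.Lib.IsingFIID
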