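/-
Row 160 (S0241), Task ID: the increment inequalities in infinite volume (window inequality +
dominated convergence): `pair_increment`, `pair_mono`, `moment_increment`, `moment_mono`, `mInf_time`,
`exists_own_bound_mInf`, `sign_law_mInf`.
-/
import Crest.Agent.Lib.IsingFIID.StrictBasic
import Crest.Agent.Lib.IsingFIID.Strict
import Crest.Agent.Lib.IsingFIID.SignLaw

set_option autoImplicit false
set_option linter.unusedSectionVars false
set_option linter.unusedVariables false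

namespace Crest.Agent.Lib.IsingFIID

open MeasureTheory Filter Topology Set SimpleGraph
open scoped ENNReal

variable {V : Type*} [DecidableEq V] {G : SimpleGraph V} [G.LocallyFinite] {d : ℕ}

/-! Helper lemmas in their own namespace (the final statements are re-exported below). -/
namespace Incr

/-! ### Measurability of the Gibbs means in the fields -/

theorem measurable_gAvg_fields {θ : ℝ} {W : Finset V} (f : Finset V → ℝ) :
    Measurable fun h : V → ℝ => gAvg G θ W h f := by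
  unfold gAvg gZ gExp
  refine Measurable.div ?_ ?_
  · refine Finset.measurable_sum _ fun A _ => ?_
    refine Measurable.mul (Measurable.mul measurable_const ?_) measurable_const
    refine Real.measurable_exp.comp (Finset.measurable_sum _ fun v _ => ?_)
    exact (measurable_pi_apply v).mul measurable_const
  · refine Finset.measurable_sum _ fun A _ => ?_
    refine Measurable.mul measurable_const ?_
    refine Real.measurable_exp.comp (Finset.measurable_sum _ fun v _ => ?_)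
    exact (measurable_pi_apply v).mul measurable_const

theorem measurable_gm_fields {θ : ℝ} {W : Finset V} (v : V) :
    Measurable fun h : V → ℝ => gm G θ W h v :=
  measurable_gAvg_fields _

theorem measurable_gcov_fields {θ : ℝ} {W : Finset V} (u v : V) :
    Measurable fun h : V → ℝ => gcov G θ W h u v := by
  unfold gcov
  exact (measurable_gAvg_fields _).sub ((measurable_gAvg_fields _).mul (measurable_gAvg_fields _))

/-! ### One ring on the means -/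

/-- The effect of a ring on the means. -/
theorem gm_stepW {θ κ u : ℝ} (h0 : 0 ≤ θ) (h1 : θ < 1) (hκ0 : 0 ≤ κ) (hκ1 : κ ≤ 1 / 2)
    {W : Finset V} {z : V} (hz : z ∈ W) (hu : u ∈ Icc (0 : ℝ) 1) (h : V → ℝ) (v : V) :
    gm G θ W (stepW G θ κ W z u h) v =
      gm G θ W h v + gcov G θ W h v z * gamQ κ (gm G θ W h z) u := by
  have hm : |gm G θ W h z| ≤ 1 := abs_gm_le h0 h1 h z
  have hx : |xQ κ (gm G θ W h z) u| < 1 :=
    lt_of_le_of_lt (abs_xQ_le hκ0 hκ1 hm hu) (by linarith)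
  unfold stepW
  rw [if_pos hz, gm_update h0 h1 h hz hx v]
  rfl

theorem measurable_gamQ_u {κ m : ℝ} : Measurable fun u : ℝ => gamQ κ m u := by
  have h : Measurable fun u : ℝ => xQ κ m u :=
    measurable_xQ.comp (measurable_const.prodMk (measurable_const.prodMk measurable_id))
  unfold gamQ
  exact h.div (measurable_const.add (h.mul measurable_const))

/-- `Lab` has total mass one. -/
instance : IsProbabilityMeasure (volume : Measure Lab) := inferInstance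

theorem integrable_gamQ {κ m : ℝ} (h0 : 0 ≤ κ) (h1 : κ ≤ 1 / 2) (hm : |m| ≤ 1) :
    Integrable (fun u : Lab => gamQ κ m (u : ℝ)) := by
  refine Integrable.of_bound (C := 2 * κ)
    (measurable_gamQ_u.comp measurable_subtype_coe).aestronglyMeasurable ?_
  refine Eventually.of_forall fun u => ?_
  rw [Real.norm_eq_abs]
  exact abs_gamQ_le h0 h1 hm u.2

/-! ### One-ring inequalities -/

/-- Squaring a mean-zero perturbation. -/
theorem integral_add_sq_of_integral_eq_zero {f : Lab → ℝ} (hf : Measurable f) {C : ℝ}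
    (hC : ∀ u, |f u| ≤ C) (h0 : ∫ u, f u = 0) (A : ℝ) :
    ∫ u, (A + f u) ^ 2 = A ^ 2 + ∫ u, f u ^ 2 := by
  have hint : Integrable f := Integrable.of_bound hf.aestronglyMeasurable C
    (Eventually.of_forall fun u => by rw [Real.norm_eq_abs]; exact hC u)
  have hint2 : Integrable fun u => f u ^ 2 := by
    refine Integrable.of_bound (hf.pow_const 2).aestronglyMeasurable (C ^ 2)
      (Eventually.of_forall fun u => ?_)
    rw [Real.norm_eq_abs, abs_pow]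
    exact pow_le_pow_left₀ (abs_nonneg _) (hC u) 2
  have h1 : ∀ u, (A + f u) ^ 2 = A ^ 2 + (2 * A * f u + f u ^ 2) := fun u => by ring
  simp_rw [h1]
  have hI : Integrable (fun u => 2 * A * f u + f u ^ 2) := (hint.const_mul (2 * A)).add hint2
  have e1 : ∫ u, (A ^ 2 + (2 * A * f u + f u ^ 2)) = (∫ _u : Lab, A ^ 2) + ∫ u, (2 * A * f u + f u ^ 2) :=
    integral_add (integrable_const _) hI
  have e2 : ∫ u, (2 * A * f u + f u ^ 2) = (∫ u, 2 * A * f u) + ∫ u, f u ^ 2 :=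
    integral_add (hint.const_mul _) hint2
  rw [e1, e2, integral_const_mul, h0]
  simp

/-- The one-ring inequality for the squared difference. -/
theorem one_ring_pair {C : ℝ}
    (hC : ∀ κ m m' u : ℝ, 0 ≤ κ → κ ≤ 1 / 2 → |m| ≤ 1 → |m'| ≤ 1 → u ∈ Icc (0 : ℝ) 1 →
      |gamQ κ m u - gamQ κ m' u| ≤ C * κ ^ 2 * |m - m'|)
    {κ A c c' a a' : ℝ} (h0 : 0 ≤ κ) (h1 : κ ≤ 1 / 2) (ha : |a| ≤ 1) (ha' : |a'| ≤ 1) :
    (∫ u : Lab, (A + (c * gamQ κ a (u : ℝ) - c' * gamQ κ a' (u : ℝ))) ^ 2) - A ^ 2 ≤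
        8 * κ ^ 2 * (c - c') ^ 2 + 2 * C ^ 2 * κ ^ 4 * c' ^ 2 * (a - a') ^ 2 ∧
      A ^ 2 ≤ ∫ u : Lab, (A + (c * gamQ κ a (u : ℝ) - c' * gamQ κ a' (u : ℝ))) ^ 2 := by
  set f : Lab → ℝ := fun u => c * gamQ κ a (u : ℝ) - c' * gamQ κ a' (u : ℝ) with hfdef
  have hm : Measurable f :=
    ((measurable_gamQ_u.comp measurable_subtype_coe).const_mul c).sub
      ((measurable_gamQ_u.comp measurable_subtype_coe).const_mul c')
  have hb : ∀ u, |f u| ≤ |c| * (2 * κ) + |c'| * (2 * κ) := by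
    intro u
    have h2 := abs_gamQ_le h0 h1 ha u.2
    have h3 := abs_gamQ_le h0 h1 ha' u.2
    calc |f u| ≤ |c * gamQ κ a (u : ℝ)| + |c' * gamQ κ a' (u : ℝ)| := abs_sub _ _
      _ ≤ |c| * (2 * κ) + |c'| * (2 * κ) := by
        rw [abs_mul, abs_mul]
        gcongr
  have hz : ∫ u, f u = 0 := by
    simp only [hfdef]
    rw [integral_sub ((integrable_gamQ h0 h1 ha).const_mul c)
      ((integrable_gamQ h0 h1 ha').const_mul c'), integral_const_mul, integral_const_mul,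
      integral_gamQ h0 h1 ha, integral_gamQ h0 h1 ha']
    simp
  have key := integral_add_sq_of_integral_eq_zero hm hb hz A
  have hint2 : Integrable fun u => f u ^ 2 := by
    refine Integrable.of_bound (hm.pow_const 2).aestronglyMeasurable ((|c| * (2 * κ) + |c'| * (2 * κ)) ^ 2)
      (Eventually.of_forall fun u => ?_)
    rw [Real.norm_eq_abs, abs_pow]
    exact pow_le_pow_left₀ (abs_nonneg _) (hb u) 2
  constructor
  · rw [key]
    have hbd : ∀ u, f u ^ 2 ≤ 8 * κ ^ 2 * (c - c') ^ 2 + 2 * C ^ 2 * κ ^ 4 * c' ^ 2 * (a - a') ^ 2 := by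
      intro u
      have h2 := abs_gamQ_le h0 h1 ha u.2
      have h3 := hC κ a a' u h0 h1 ha ha' u.2
      have h4 : gamQ κ a (u : ℝ) ^ 2 ≤ (2 * κ) ^ 2 := by
        rw [← sq_abs]
        exact pow_le_pow_left₀ (abs_nonneg _) h2 2
      have h5 : (gamQ κ a (u : ℝ) - gamQ κ a' (u : ℝ)) ^ 2 ≤ (C * κ ^ 2 * |a - a'|) ^ 2 := by
        rw [← sq_abs]
        exact pow_le_pow_left₀ (abs_nonneg _) h3 2
      have h6 : f u = (c - c') * gamQ κ a (u : ℝ) + c' * (gamQ κ a (u : ℝ) - gamQ κ a' (u : ℝ)) := by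
        simp only [hfdef]; ring
      have h7 : (C * κ ^ 2 * |a - a'|) ^ 2 = C ^ 2 * κ ^ 4 * (a - a') ^ 2 := by
        rw [mul_pow, mul_pow, sq_abs]; ring
      rw [h6]
      rw [h7] at h5
      have h8 : ((c - c') * gamQ κ a (u : ℝ) + c' * (gamQ κ a (u : ℝ) - gamQ κ a' (u : ℝ))) ^ 2 ≤
          2 * ((c - c') * gamQ κ a (u : ℝ)) ^ 2 + 2 * (c' * (gamQ κ a (u : ℝ) - gamQ κ a' (u : ℝ))) ^ 2 := by
        nlinarith [sq_nonneg ((c - c') * gamQ κ a (u : ℝ) - c' * (gamQ κ a (u : ℝ) - gamQ κ a' (u : ℝ)))]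
      have h9 : ((c - c') * gamQ κ a (u : ℝ)) ^ 2 ≤ (c - c') ^ 2 * (2 * κ) ^ 2 := by
        rw [mul_pow]; exact mul_le_mul_of_nonneg_left h4 (sq_nonneg _)
      have h10 : (c' * (gamQ κ a (u : ℝ) - gamQ κ a' (u : ℝ))) ^ 2 ≤ c' ^ 2 * (C ^ 2 * κ ^ 4 * (a - a') ^ 2) := by
        rw [mul_pow]; exact mul_le_mul_of_nonneg_left h5 (sq_nonneg _)
      nlinarith
    have hle := integral_mono_of_nonneg (μ := (volume : Measure Lab)) (f := fun u => f u ^ 2)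
      (g := fun _ => 8 * κ ^ 2 * (c - c') ^ 2 + 2 * C ^ 2 * κ ^ 4 * c' ^ 2 * (a - a') ^ 2)
      (Eventually.of_forall fun u => sq_nonneg _) (integrable_const _) (Eventually.of_forall hbd)
    simp only [integral_const, probReal_univ, one_smul] at hle
    linarith
  · rw [key]
    have : 0 ≤ ∫ u, f u ^ 2 := integral_nonneg fun u => sq_nonneg _
    linarith

theorem sq_sub_le_four {a b : ℝ} (ha : |a| ≤ 1) (hb : |b| ≤ 1) : (a - b) ^ 2 ≤ 4 := by
  have h1 : |a - b| ≤ 2 := (abs_sub _ _).trans (by linarith)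
  have h2 : (a - b) ^ 2 = |a - b| ^ 2 := (sq_abs _).symm
  rw [h2]
  nlinarith [abs_nonneg (a - b)]

theorem sq_le_one_of_abs {a : ℝ} (ha : |a| ≤ 1) : a ^ 2 ≤ 1 := by
  rw [← sq_abs]
  nlinarith [abs_nonneg a]

/-- Boundedness of the pair majorant. -/
theorem X_bounds {K κ c c' a a' : ℝ} (hK : 0 ≤ K) (h0 : 0 ≤ κ) (h1 : κ ≤ 1 / 2) (hc : |c| ≤ 1)
    (hc' : |c'| ≤ 1) (ha : |a| ≤ 1) (ha' : |a'| ≤ 1) :
    0 ≤ 8 * κ ^ 2 * (c - c') ^ 2 + K * κ ^ 4 * c' ^ 2 * (a - a') ^ 2 ∧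
      8 * κ ^ 2 * (c - c') ^ 2 + K * κ ^ 4 * c' ^ 2 * (a - a') ^ 2 ≤ 8 + K := by
  have h2 : κ ^ 2 ≤ 1 / 4 := by nlinarith
  have h4 : κ ^ 4 ≤ 1 / 16 := by nlinarith [sq_nonneg κ]
  have h5 := sq_sub_le_four hc hc'
  have h6 := sq_sub_le_four ha ha'
  have h7 := sq_le_one_of_abs hc'
  have hκ2 : 0 ≤ κ ^ 2 := sq_nonneg _
  have hκ4 : 0 ≤ κ ^ 4 := by positivity
  constructor
  · positivity
  · have t1 : 8 * κ ^ 2 * (c - c') ^ 2 ≤ 8 * (1 / 4) * 4 := by gcongr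
    have t2 : K * κ ^ 4 * c' ^ 2 * (a - a') ^ 2 ≤ K * (1 / 16) * 1 * 4 := by gcongr
    nlinarith

/-! ### Window inequalities -/

/-- The majorant on the window. -/
noncomputable def XW (K : ℝ) (G : SimpleGraph V) (θ θ' : ℝ) (W : Finset V) (κ : ℝ → ℝ) (v z : V) (τ : ℝ)
    (s : (V → ℝ) × (V → ℝ)) : ℝ :=
  8 * κ τ ^ 2 * (gcov G θ W s.1 v z - gcov G θ' W s.2 v z) ^ 2 +
    K * κ τ ^ 4 * gcov G θ' W s.2 v z ^ 2 * (gm G θ W s.1 z - gm G θ' W s.2 z) ^ 2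

theorem measurable_XW {K θ θ' : ℝ} {W : Finset V} {κ : ℝ → ℝ} (hκ : Measurable κ) (v z : V) :
    Measurable fun p : ℝ × (V → ℝ) × (V → ℝ) => XW K G θ θ' W κ v z p.1 p.2 := by
  have hk : Measurable fun p : ℝ × (V → ℝ) × (V → ℝ) => κ p.1 := hκ.comp measurable_fst
  have h1 : ∀ (t : ℝ) (a b : V), Measurable fun p : ℝ × (V → ℝ) × (V → ℝ) => gcov G t W p.2.1 a b :=
    fun t a b => (measurable_gcov_fields a b).comp (measurable_fst.comp measurable_snd)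
  have h2 : ∀ (t : ℝ) (a b : V), Measurable fun p : ℝ × (V → ℝ) × (V → ℝ) => gcov G t W p.2.2 a b :=
    fun t a b => (measurable_gcov_fields a b).comp (measurable_snd.comp measurable_snd)
  have h3 : ∀ (t : ℝ) (a : V), Measurable fun p : ℝ × (V → ℝ) × (V → ℝ) => gm G t W p.2.1 a :=
    fun t a => (measurable_gm_fields a).comp (measurable_fst.comp measurable_snd)
  have h4 : ∀ (t : ℝ) (a : V), Measurable fun p : ℝ × (V → ℝ) × (V → ℝ) => gm G t W p.2.2 a :=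
    fun t a => (measurable_gm_fields a).comp (measurable_snd.comp measurable_snd)
  unfold XW
  exact (((measurable_const.mul (hk.pow_const 2)).mul (((h1 _ _ _).sub (h2 _ _ _)).pow_const 2))).add
    (((measurable_const.mul (hk.pow_const 4)).mul ((h2 _ _ _).pow_const 2)).mul
      (((h3 _ _).sub (h4 _ _)).pow_const 2))

theorem XW_bounds {K θ θ' : ℝ} (hK : 0 ≤ K) (h0 : 0 ≤ θ) (h1 : θ < 1) (h0' : 0 ≤ θ') (h1' : θ' < 1)
    {W : Finset V} {κ : ℝ → ℝ} (hκ : IsStrength κ) (v z : V) (τ : ℝ) (s : (V → ℝ) × (V → ℝ)) :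
    0 ≤ XW K G θ θ' W κ v z τ s ∧ XW K G θ θ' W κ v z τ s ≤ 8 + K :=
  X_bounds hK (hκ.nonneg τ) (hκ.le τ) (abs_gcov_le h0 h1 _ _ _) (abs_gcov_le h0' h1' _ _ _)
    (abs_gm_le h0 h1 _ _) (abs_gm_le h0' h1' _ _)

/-- The squared difference of the means is a bounded measurable function of the fields. -/
theorem measurable_pairF {θ θ' : ℝ} {W : Finset V} (v : V) :
    Measurable fun s : (V → ℝ) × (V → ℝ) => (gm G θ W s.1 v - gm G θ' W s.2 v) ^ 2 :=
  (((measurable_gm_fields v).comp measurable_fst).sub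
    ((measurable_gm_fields v).comp measurable_snd)).pow_const 2

/-- Means after one ring in both systems. -/
theorem pairF_step {θ θ' κ : ℝ} (h0 : 0 ≤ θ) (h1 : θ < 1) (h0' : 0 ≤ θ') (h1' : θ' < 1)
    (hκ0 : 0 ≤ κ) (hκ1 : κ ≤ 1 / 2) {W : Finset V} {z : V} (hz : z ∈ W) (v : V) (s : (V → ℝ) × (V → ℝ))
    (u : Lab) :
    (gm G θ W (stepW G θ κ W z (u : ℝ) s.1) v - gm G θ' W (stepW G θ' κ W z (u : ℝ) s.2) v) ^ 2 =
      ((gm G θ W s.1 v - gm G θ' W s.2 v) +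
        (gcov G θ W s.1 v z * gamQ κ (gm G θ W s.1 z) (u : ℝ) -
          gcov G θ' W s.2 v z * gamQ κ (gm G θ' W s.2 z) (u : ℝ))) ^ 2 := by
  rw [gm_stepW h0 h1 hκ0 hκ1 hz u.2, gm_stepW h0' h1' hκ0 hκ1 hz u.2]
  ring

/-- The window inequality for the pair. -/
theorem window_pair {C : ℝ}
    (hC : ∀ κ m m' u : ℝ, 0 ≤ κ → κ ≤ 1 / 2 → |m| ≤ 1 → |m'| ≤ 1 → u ∈ Icc (0 : ℝ) 1 →
      |gamQ κ m u - gamQ κ m' u| ≤ C * κ ^ 2 * |m - m'|)
    {θ θ' : ℝ} (h0 : 0 ≤ θ) (h1 : θ < 1) (h0' : 0 ≤ θ') (h1' : θ' < 1) {κ : ℝ → ℝ} (hκ : IsStrength κ)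
    {W : Finset V} {τ₁ τ₂ : ℝ} (h01 : 0 ≤ τ₁) (h12 : τ₁ ≤ τ₂) (v : V) :
    (∫ ω, (mW G θ κ W ω τ₂ v - mW G θ' κ W ω τ₂ v) ^ 2 ∂(PP V)) -
        ∫ ω, (mW G θ κ W ω τ₁ v - mW G θ' κ W ω τ₁ v) ^ 2 ∂(PP V) ≤
      ∑ z ∈ W, ∫ τ in τ₁..τ₂, ∫ ω, XW (2 * C ^ 2) G θ θ' W κ v z τ
        (field G θ κ W ω τ, field G θ' κ W ω τ) ∂(PP V) := by
  have hK : (0 : ℝ) ≤ 2 * C ^ 2 := by positivity
  have := ring_increment_le (G := G) (θ := θ) (θ' := θ') (κ := κ) (κ' := κ) h0 h1 h0' h1' hκ hκ (W := W) (W' := W)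
    (fun s => (gm G θ W s.1 v - gm G θ' W s.2 v) ^ 2) (measurable_pairF v)
    ⟨4, fun s => by
      rw [abs_of_nonneg (sq_nonneg _)]
      exact sq_sub_le_four (abs_gm_le h0 h1 _ _) (abs_gm_le h0' h1' _ _)⟩
    (fun z τ s => XW (2 * C ^ 2) G θ θ' W κ v z τ s) (fun z => measurable_XW hκ.meas v z)
    ⟨8 + 2 * C ^ 2, fun z τ s => XW_bounds hK h0 h1 h0' h1' hκ v z τ s⟩ h01 h12 ?_
  · simpa [mW, Finset.union_self] using this
  · intro z hz τ _ s
    rw [Finset.union_self] at hz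
    simp only []
    simp_rw [pairF_step h0 h1 h0' h1' (hκ.nonneg τ) (hκ.le τ) hz v s]
    exact (one_ring_pair hC (hκ.nonneg τ) (hκ.le τ) (abs_gm_le h0 h1 _ _) (abs_gm_le h0' h1' _ _)).1

/-- Monotonicity in the window. -/
theorem window_pair_mono {θ θ' : ℝ} (h0 : 0 ≤ θ) (h1 : θ < 1) (h0' : 0 ≤ θ') (h1' : θ' < 1) {κ : ℝ → ℝ}
    (hκ : IsStrength κ) {W : Finset V} {τ₁ τ₂ : ℝ} (h01 : 0 ≤ τ₁) (h12 : τ₁ ≤ τ₂) (v : V) :
    ∫ ω, (mW G θ κ W ω τ₁ v - mW G θ' κ W ω τ₁ v) ^ 2 ∂(PP V) ≤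
      ∫ ω, (mW G θ κ W ω τ₂ v - mW G θ' κ W ω τ₂ v) ^ 2 ∂(PP V) := by
  obtain ⟨C, _, hC⟩ := exists_gamQ_lip
  have := ring_increment_le (G := G) (θ := θ) (θ' := θ') (κ := κ) (κ' := κ) h0 h1 h0' h1' hκ hκ (W := W) (W' := W)
    (fun s => -(gm G θ W s.1 v - gm G θ' W s.2 v) ^ 2) (measurable_pairF v).neg
    ⟨4, fun s => by
      rw [abs_neg, abs_of_nonneg (sq_nonneg _)]
      exact sq_sub_le_four (abs_gm_le h0 h1 _ _) (abs_gm_le h0' h1' _ _)⟩
    (fun _ _ _ => 0) (fun z => measurable_const) ⟨0, fun _ _ _ => ⟨le_rfl, le_rfl⟩⟩ h01 h12 ?_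
  · simp only [integral_neg, integral_zero, intervalIntegral.integral_zero, Finset.sum_const_zero] at this
    simp only [mW]
    linarith
  · intro z hz τ _ s
    rw [Finset.union_self] at hz
    simp only []
    simp_rw [pairF_step h0 h1 h0' h1' (hκ.nonneg τ) (hκ.le τ) hz v s]
    rw [integral_neg]
    have := (one_ring_pair hC (A := gm G θ W s.1 v - gm G θ' W s.2 v) (c := gcov G θ W s.1 v z)
      (c' := gcov G θ' W s.2 v z) (a := gm G θ W s.1 z) (a' := gm G θ' W s.2 z) (hκ.nonneg τ) (hκ.le τ)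
      (abs_gm_le h0 h1 s.1 z) (abs_gm_le h0' h1' s.2 z)).2
    linarith

/-! ### One ring for the moments -/

/-- Second order Taylor bound for powers. -/
theorem abs_pow_add_sub_le (x h M : ℝ) (hx : |x| ≤ M) (hxh : |x + h| ≤ M) (n : ℕ) :
    |(x + h) ^ (n + 2) - x ^ (n + 2) - (n + 2) * x ^ (n + 1) * h| ≤
      ((n + 2) * (n + 1) / 2) * M ^ n * h ^ 2 := by
  have hM : 0 ≤ M := (abs_nonneg _).trans hx
  induction n with
  | zero =>
    have : (x + h) ^ (0 + 2) - x ^ (0 + 2) - ((0 : ℕ) + 2) * x ^ (0 + 1) * h = h ^ 2 := by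
      push_cast; ring
    rw [this, abs_of_nonneg (sq_nonneg h)]
    norm_num
  | succ n ih =>
    have e : (x + h) ^ (n + 1 + 2) - x ^ (n + 1 + 2) - (((n + 1 : ℕ) : ℝ) + 2) * x ^ (n + 1 + 1) * h =
        (x + h) * ((x + h) ^ (n + 2) - x ^ (n + 2) - (n + 2) * x ^ (n + 1) * h) +
          (n + 2) * x ^ (n + 1) * h ^ 2 := by
      push_cast; ring
    rw [e]
    have h1 : |(x + h) * ((x + h) ^ (n + 2) - x ^ (n + 2) - (n + 2) * x ^ (n + 1) * h)| ≤
        M * (((n + 2) * (n + 1) / 2) * M ^ n * h ^ 2) := by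
      rw [abs_mul]
      exact mul_le_mul hxh ih (abs_nonneg _) hM
    have h2 : |(n + 2 : ℝ) * x ^ (n + 1) * h ^ 2| ≤ (n + 2) * M ^ (n + 1) * h ^ 2 := by
      rw [abs_mul, abs_mul, abs_of_nonneg (sq_nonneg h), abs_of_nonneg (by positivity : (0 : ℝ) ≤ n + 2),
        abs_pow]
      gcongr
    calc _ ≤ _ := abs_add_le _ _
      _ ≤ M * (((n + 2) * (n + 1) / 2) * M ^ n * h ^ 2) + (n + 2) * M ^ (n + 1) * h ^ 2 := add_le_add h1 h2
      _ = _ := by push_cast; ring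

/-- The Taylor bound for even powers, in the shape of the moment inequality. -/
theorem pow_two_mul_add_le (x h : ℝ) (p : ℕ) (hp : 1 ≤ p) :
    (x + h) ^ (2 * p) ≤ x ^ (2 * p) + (2 * p) * x ^ (2 * p - 1) * h +
      6 * p ^ 2 * (x ^ 2 + p * h ^ 2) ^ (p - 1) * h ^ 2 := by
  obtain ⟨q, rfl⟩ : ∃ q, p = q + 1 := ⟨p - 1, by omega⟩
  set M := |x| + |h| with hM
  have hx : |x| ≤ M := by rw [hM]; linarith [abs_nonneg h]
  have hxh : |x + h| ≤ M := abs_add_le _ _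
  have key := abs_pow_add_sub_le x h M hx hxh (2 * q)
  have e1 : 2 * (q + 1) = 2 * q + 2 := by ring
  have e2 : 2 * q + 2 - 1 = 2 * q + 1 := by omega
  have e3 : q + 1 - 1 = q := by omega
  rw [e1, e2, e3]
  have hle := (abs_le.1 key).2
  have hP : (0 : ℝ) < (q + 1 : ℕ) := by positivity
  -- `M² ≤ (1+1/p)(x²+p h²)`
  have hM2 : M ^ 2 ≤ (1 + 1 / ((q + 1 : ℕ) : ℝ)) * (x ^ 2 + ((q + 1 : ℕ) : ℝ) * h ^ 2) := by
    have e : (1 + 1 / ((q + 1 : ℕ) : ℝ)) * (x ^ 2 + ((q + 1 : ℕ) : ℝ) * h ^ 2) =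
        x ^ 2 + x ^ 2 / ((q + 1 : ℕ) : ℝ) + ((q + 1 : ℕ) : ℝ) * h ^ 2 + h ^ 2 := by
      field_simp
      ring
    rw [e, hM]
    have h1 : 2 * |x| * |h| ≤ x ^ 2 / ((q + 1 : ℕ) : ℝ) + ((q + 1 : ℕ) : ℝ) * h ^ 2 := by
      have : 0 ≤ (|x| / ((q + 1 : ℕ) : ℝ) - |h|) ^ 2 * ((q + 1 : ℕ) : ℝ) := by positivity
      have e' : (|x| / ((q + 1 : ℕ) : ℝ) - |h|) ^ 2 * ((q + 1 : ℕ) : ℝ) =
          x ^ 2 / ((q + 1 : ℕ) : ℝ) + ((q + 1 : ℕ) : ℝ) * h ^ 2 - 2 * |x| * |h| := by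
        rw [← sq_abs x, ← sq_abs h]
        field_simp
        ring
      linarith
    nlinarith [sq_abs x, sq_abs h]
  have hexp : (1 + 1 / ((q + 1 : ℕ) : ℝ)) ^ q ≤ 3 := by
    have h1 : 1 + 1 / ((q + 1 : ℕ) : ℝ) ≤ Real.exp (1 / ((q + 1 : ℕ) : ℝ)) := by
      have := Real.add_one_le_exp (1 / ((q + 1 : ℕ) : ℝ))
      linarith
    have h2 : (1 + 1 / ((q + 1 : ℕ) : ℝ)) ^ q ≤ Real.exp (1 / ((q + 1 : ℕ) : ℝ)) ^ q :=
      pow_le_pow_left₀ (by positivity) h1 q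
    have h3 : Real.exp (1 / ((q + 1 : ℕ) : ℝ)) ^ q = Real.exp (q * (1 / ((q + 1 : ℕ) : ℝ))) := by
      rw [← Real.exp_nat_mul]
    have h4 : (q : ℝ) * (1 / ((q + 1 : ℕ) : ℝ)) ≤ 1 := by
      push_cast
      rw [mul_one_div, div_le_one (by positivity)]
      linarith
    have h5 : Real.exp ((q : ℝ) * (1 / ((q + 1 : ℕ) : ℝ))) ≤ Real.exp 1 := Real.exp_le_exp.2 h4
    have h6 := Real.exp_one_lt_d9
    rw [h3] at h2
    linarith
  have hMq : M ^ (2 * q) ≤ 3 * (x ^ 2 + ((q + 1 : ℕ) : ℝ) * h ^ 2) ^ q := by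
    rw [pow_mul]
    calc (M ^ 2) ^ q ≤ ((1 + 1 / ((q + 1 : ℕ) : ℝ)) * (x ^ 2 + ((q + 1 : ℕ) : ℝ) * h ^ 2)) ^ q :=
          pow_le_pow_left₀ (sq_nonneg _) hM2 q
      _ = (1 + 1 / ((q + 1 : ℕ) : ℝ)) ^ q * (x ^ 2 + ((q + 1 : ℕ) : ℝ) * h ^ 2) ^ q := mul_pow _ _ _
      _ ≤ 3 * (x ^ 2 + ((q + 1 : ℕ) : ℝ) * h ^ 2) ^ q := by
        gcongr
  have hcoef : (((2 * q : ℕ) : ℝ) + 2) * (((2 * q : ℕ) : ℝ) + 1) / 2 * M ^ (2 * q) * h ^ 2 ≤
      6 * ((q + 1 : ℕ) : ℝ) ^ 2 * (x ^ 2 + ((q + 1 : ℕ) : ℝ) * h ^ 2) ^ q * h ^ 2 := by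
    have hc : (((2 * q : ℕ) : ℝ) + 2) * (((2 * q : ℕ) : ℝ) + 1) / 2 ≤ 2 * ((q + 1 : ℕ) : ℝ) ^ 2 := by
      have hq0 : (0 : ℝ) ≤ q := by positivity
      push_cast; nlinarith
    have hnn : 0 ≤ (x ^ 2 + ((q + 1 : ℕ) : ℝ) * h ^ 2) ^ q := by positivity
    calc _ ≤ 2 * ((q + 1 : ℕ) : ℝ) ^ 2 * (3 * (x ^ 2 + ((q + 1 : ℕ) : ℝ) * h ^ 2) ^ q) * h ^ 2 := by
          gcongr
      _ = _ := by ring
  have e4 : ((2 * ((q + 1 : ℕ) : ℝ))) = ((2 * q : ℕ) : ℝ) + 2 := by push_cast; ring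
  rw [e4]
  linarith

theorem measurable_pow_gm {θ : ℝ} {W : Finset V} (v : V) (n : ℕ) :
    Measurable fun s : (V → ℝ) × (V → ℝ) => gm G θ W s.1 v ^ n :=
  ((measurable_gm_fields v).comp measurable_fst).pow_const n

/-- The one-ring inequality for the moments. -/
theorem one_ring_moment {κ x c a : ℝ} (h0 : 0 ≤ κ) (h1 : κ ≤ 1 / 2) (ha : |a| ≤ 1) (hc : |c| ≤ 1)
    {p : ℕ} (hp : 1 ≤ p) :
    (∫ u : Lab, (x + c * gamQ κ a (u : ℝ)) ^ (2 * p)) - x ^ (2 * p) ≤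
        24 * p ^ 2 * κ ^ 2 * (x ^ 2 + 24 * p * κ ^ 2) ^ (p - 1) * c ^ 2 := by
  set f : Lab → ℝ := fun u => c * gamQ κ a (u : ℝ) with hfdef
  have hm : Measurable f := (measurable_gamQ_u.comp measurable_subtype_coe).const_mul c
  have hfb : ∀ u, f u ^ 2 ≤ 4 * κ ^ 2 * c ^ 2 := by
    intro u
    have h2 := abs_gamQ_le h0 h1 ha u.2
    have h4 : gamQ κ a (u : ℝ) ^ 2 ≤ (2 * κ) ^ 2 := by
      rw [← sq_abs]
      exact pow_le_pow_left₀ (abs_nonneg _) h2 2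
    simp only [hfdef, mul_pow]
    nlinarith [sq_nonneg c]
  have hfi : Integrable f := (integrable_gamQ h0 h1 ha).const_mul c
  have hz : ∫ u, f u = 0 := by
    simp only [hfdef]
    rw [integral_const_mul, integral_gamQ h0 h1 ha, mul_zero]
  have hc2 : c ^ 2 ≤ 1 := sq_le_one_of_abs hc
  have hbd : ∀ u, (x + f u) ^ (2 * p) ≤ x ^ (2 * p) + (2 * p) * x ^ (2 * p - 1) * f u +
      24 * p ^ 2 * κ ^ 2 * (x ^ 2 + 24 * p * κ ^ 2) ^ (p - 1) * c ^ 2 := by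
    intro u
    have h3 := pow_two_mul_add_le x (f u) p hp
    have hP : (0 : ℝ) ≤ p := by positivity
    have h5 : x ^ 2 + (p : ℝ) * f u ^ 2 ≤ x ^ 2 + 24 * p * κ ^ 2 := by
      have := hfb u
      have h6 : f u ^ 2 ≤ 24 * κ ^ 2 := by nlinarith [sq_nonneg κ]
      nlinarith
    have h7 : (x ^ 2 + (p : ℝ) * f u ^ 2) ^ (p - 1) ≤ (x ^ 2 + 24 * p * κ ^ 2) ^ (p - 1) :=
      pow_le_pow_left₀ (by positivity) h5 _
    have h8 : 6 * (p : ℝ) ^ 2 * (x ^ 2 + (p : ℝ) * f u ^ 2) ^ (p - 1) * f u ^ 2 ≤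
        6 * (p : ℝ) ^ 2 * (x ^ 2 + 24 * p * κ ^ 2) ^ (p - 1) * (4 * κ ^ 2 * c ^ 2) := by
      gcongr
      exact hfb u
    nlinarith
  have hint : Integrable fun u => (x + f u) ^ (2 * p) := by
    have hb : ∀ u, |x + f u| ≤ |x| + (|c| * (2 * κ)) := fun u => by
      refine (abs_add_le _ _).trans ?_
      simp only [hfdef, abs_mul]
      gcongr
      exact abs_gamQ_le h0 h1 ha u.2
    refine Integrable.of_bound (((measurable_const.add hm).pow_const _).aestronglyMeasurable)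
      ((|x| + (|c| * (2 * κ))) ^ (2 * p)) (Eventually.of_forall fun u => ?_)
    rw [Real.norm_eq_abs, abs_pow]
    exact pow_le_pow_left₀ (abs_nonneg _) (hb u) _
  have hrhs : Integrable fun u => x ^ (2 * p) + (2 * p) * x ^ (2 * p - 1) * f u +
      24 * p ^ 2 * κ ^ 2 * (x ^ 2 + 24 * p * κ ^ 2) ^ (p - 1) * c ^ 2 :=
    ((integrable_const _).add (hfi.const_mul _)).add (integrable_const _)
  have hle := integral_mono hint hrhs hbd
  have hval : ∫ u, (x ^ (2 * p) + (2 * p) * x ^ (2 * p - 1) * f u +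
      24 * p ^ 2 * κ ^ 2 * (x ^ 2 + 24 * p * κ ^ 2) ^ (p - 1) * c ^ 2) =
      x ^ (2 * p) + 24 * p ^ 2 * κ ^ 2 * (x ^ 2 + 24 * p * κ ^ 2) ^ (p - 1) * c ^ 2 := by
    have e1 : ∫ u, (x ^ (2 * p) + (2 * p) * x ^ (2 * p - 1) * f u +
        24 * p ^ 2 * κ ^ 2 * (x ^ 2 + 24 * p * κ ^ 2) ^ (p - 1) * c ^ 2) =
        (∫ u, (x ^ (2 * p) + (2 * p) * x ^ (2 * p - 1) * f u)) +
          ∫ _u : Lab, 24 * p ^ 2 * κ ^ 2 * (x ^ 2 + 24 * p * κ ^ 2) ^ (p - 1) * c ^ 2 :=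
      integral_add ((integrable_const _).add (hfi.const_mul _)) (integrable_const _)
    have e2 : ∫ u, (x ^ (2 * p) + (2 * p) * x ^ (2 * p - 1) * f u) =
        (∫ _u : Lab, x ^ (2 * p)) + ∫ u, (2 * p) * x ^ (2 * p - 1) * f u :=
      integral_add (integrable_const _) (hfi.const_mul _)
    rw [e1, e2, integral_const_mul, hz]
    simp
  rw [hval] at hle
  linarith

/-- Jensen for one ring. -/
theorem one_ring_moment_mono {κ x c a : ℝ} (h0 : 0 ≤ κ) (h1 : κ ≤ 1 / 2) (ha : |a| ≤ 1) (p : ℕ) :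
    x ^ (2 * p) ≤ ∫ u : Lab, (x + c * gamQ κ a (u : ℝ)) ^ (2 * p) := by
  set f : Lab → ℝ := fun u => x + c * gamQ κ a (u : ℝ) with hfdef
  have hm : Measurable f := measurable_const.add ((measurable_gamQ_u.comp measurable_subtype_coe).const_mul c)
  have hfi : Integrable f := (integrable_const _).add ((integrable_gamQ h0 h1 ha).const_mul c)
  have hz : ∫ u, f u = x := by
    simp only [hfdef]
    have e : ∫ u : Lab, (x + c * gamQ κ a (u : ℝ)) = (∫ _u : Lab, x) + ∫ u : Lab, c * gamQ κ a (u : ℝ) :=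
      integral_add (integrable_const _) ((integrable_gamQ h0 h1 ha).const_mul c)
    rw [e, integral_const_mul, integral_gamQ h0 h1 ha]
    simp
  have hint : Integrable fun u => f u ^ (2 * p) := by
    have hb : ∀ u, |f u| ≤ |x| + (|c| * (2 * κ)) := fun u => by
      refine (abs_add_le _ _).trans ?_
      simp only [abs_mul]
      gcongr
      exact abs_gamQ_le h0 h1 ha u.2
    refine Integrable.of_bound ((hm.pow_const _).aestronglyMeasurable)
      ((|x| + (|c| * (2 * κ))) ^ (2 * p)) (Eventually.of_forall fun u => ?_)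
    rw [Real.norm_eq_abs, abs_pow]
    exact pow_le_pow_left₀ (abs_nonneg _) (hb u) _
  have hconv : ConvexOn ℝ Set.univ fun y : ℝ => y ^ (2 * p) := (even_two_mul p).convexOn_pow
  have := hconv.map_integral_le (μ := (volume : Measure Lab)) (f := f) (continuous_pow _).continuousOn isClosed_univ
    (Eventually.of_forall fun _ => mem_univ _) hfi hint
  rw [hz] at this
  exact this

/-- The moment majorant on the window. -/
noncomputable def XM (p : ℕ) (G : SimpleGraph V) (θ : ℝ) (W : Finset V) (κ : ℝ → ℝ) (v z : V) (τ : ℝ)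
    (s : (V → ℝ) × (V → ℝ)) : ℝ :=
  24 * p ^ 2 * κ τ ^ 2 * (gm G θ W s.1 v ^ 2 + 24 * p * κ τ ^ 2) ^ (p - 1) * gcov G θ W s.1 v z ^ 2

theorem measurable_XM {p : ℕ} {θ : ℝ} {W : Finset V} {κ : ℝ → ℝ} (hκ : Measurable κ) (v z : V) :
    Measurable fun q : ℝ × (V → ℝ) × (V → ℝ) => XM p G θ W κ v z q.1 q.2 := by
  have hk : Measurable fun q : ℝ × (V → ℝ) × (V → ℝ) => κ q.1 := hκ.comp measurable_fst
  have h1 : ∀ (a b : V), Measurable fun q : ℝ × (V → ℝ) × (V → ℝ) => gcov G θ W q.2.1 a b :=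
    fun a b => (measurable_gcov_fields a b).comp (measurable_fst.comp measurable_snd)
  have h3 : ∀ (a : V), Measurable fun q : ℝ × (V → ℝ) × (V → ℝ) => gm G θ W q.2.1 a :=
    fun a => (measurable_gm_fields a).comp (measurable_fst.comp measurable_snd)
  unfold XM
  exact ((measurable_const.mul (hk.pow_const 2)).mul
    ((((h3 _).pow_const 2).add (measurable_const.mul (hk.pow_const 2))).pow_const _)).mul
      ((h1 _ _).pow_const 2)

theorem XM_bounds {p : ℕ} {θ : ℝ} (h0 : 0 ≤ θ) (h1 : θ < 1) {W : Finset V} {κ : ℝ → ℝ} (hκ : IsStrength κ)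
    (v z : V) (τ : ℝ) (s : (V → ℝ) × (V → ℝ)) :
    0 ≤ XM p G θ W κ v z τ s ∧
      XM p G θ W κ v z τ s ≤ 24 * p ^ 2 * (1 / 4) * (1 + 24 * p * (1 / 4)) ^ (p - 1) * 1 := by
  have hκ2 : κ τ ^ 2 ≤ 1 / 4 := by nlinarith [hκ.nonneg τ, hκ.le τ]
  have hm : gm G θ W s.1 v ^ 2 ≤ 1 := sq_le_one_of_abs (abs_gm_le h0 h1 _ _)
  have hc : gcov G θ W s.1 v z ^ 2 ≤ 1 := sq_le_one_of_abs (abs_gcov_le h0 h1 _ _ _)
  unfold XM
  constructor
  · positivity
  · gcongr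

/-- The window inequality for the moments. -/
theorem window_moment {θ : ℝ} (h0 : 0 ≤ θ) (h1 : θ < 1) {κ : ℝ → ℝ} (hκ : IsStrength κ) {W : Finset V}
    {τ₁ τ₂ : ℝ} (h01 : 0 ≤ τ₁) (h12 : τ₁ ≤ τ₂) (v : V) {p : ℕ} (hp : 1 ≤ p) :
    (∫ ω, mW G θ κ W ω τ₂ v ^ (2 * p) ∂(PP V)) - ∫ ω, mW G θ κ W ω τ₁ v ^ (2 * p) ∂(PP V) ≤
      ∑ z ∈ W, ∫ τ in τ₁..τ₂, ∫ ω, XM p G θ W κ v z τ
        (field G θ κ W ω τ, field G θ κ W ω τ) ∂(PP V) := by
  have := ring_increment_le (G := G) (θ := θ) (θ' := θ) (κ := κ) (κ' := κ) h0 h1 h0 h1 hκ hκ (W := W) (W' := W)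
    (fun s => gm G θ W s.1 v ^ (2 * p)) (measurable_pow_gm v _)
    ⟨1, fun s => by
      rw [abs_pow]
      exact pow_le_one₀ (abs_nonneg _) (abs_gm_le h0 h1 _ _)⟩
    (fun z τ s => XM p G θ W κ v z τ s) (fun z => measurable_XM hκ.meas v z)
    ⟨_, fun z τ s => XM_bounds h0 h1 hκ v z τ s⟩ h01 h12 ?_
  · simpa [mW, Finset.union_self] using this
  · intro z hz τ _ s
    rw [Finset.union_self] at hz
    simp only []
    simp_rw [gm_stepW h0 h1 (hκ.nonneg τ) (hκ.le τ) hz (Subtype.prop _) s.1 v]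
    exact one_ring_moment (hκ.nonneg τ) (hκ.le τ) (abs_gm_le h0 h1 _ _) (abs_gcov_le h0 h1 _ _ _) hp

/-- Moments increase in time, on the window. -/
theorem window_moment_mono {θ : ℝ} (h0 : 0 ≤ θ) (h1 : θ < 1) {κ : ℝ → ℝ} (hκ : IsStrength κ) {W : Finset V}
    {τ₁ τ₂ : ℝ} (h01 : 0 ≤ τ₁) (h12 : τ₁ ≤ τ₂) (v : V) (p : ℕ) :
    ∫ ω, mW G θ κ W ω τ₁ v ^ (2 * p) ∂(PP V) ≤ ∫ ω, mW G θ κ W ω τ₂ v ^ (2 * p) ∂(PP V) := by
  have := ring_increment_le (G := G) (θ := θ) (θ' := θ) (κ := κ) (κ' := κ) h0 h1 h0 h1 hκ hκ (W := W) (W' := W)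
    (fun s => -gm G θ W s.1 v ^ (2 * p)) (measurable_pow_gm v _).neg
    ⟨1, fun s => by
      rw [abs_neg, abs_pow]
      exact pow_le_one₀ (abs_nonneg _) (abs_gm_le h0 h1 _ _)⟩
    (fun _ _ _ => 0) (fun z => measurable_const) ⟨0, fun _ _ _ => ⟨le_rfl, le_rfl⟩⟩ h01 h12 ?_
  · simp only [integral_neg, integral_zero, intervalIntegral.integral_zero, Finset.sum_const_zero] at this
    simp only [mW]
    linarith
  · intro z hz τ _ s
    rw [Finset.union_self] at hz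
    simp only []
    simp_rw [gm_stepW h0 h1 (hκ.nonneg τ) (hκ.le τ) hz (Subtype.prop _) s.1 v]
    rw [integral_neg]
    have := one_ring_moment_mono (x := gm G θ W s.1 v) (c := gcov G θ W s.1 v z) (a := gm G θ W s.1 z)
      (hκ.nonneg τ) (hκ.le τ) (abs_gm_le h0 h1 s.1 z) p
    linarith

/-! ### The time martingale on the window -/

theorem stepW_zero {θ u : ℝ} {W : Finset V} {z : V} (h : V → ℝ) : stepW G θ 0 W z u h = h := by
  unfold stepW
  split_ifs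
  · have : xQ 0 (gm G θ W h z) u = 0 := by simp [xQ]
    rw [this, Real.artanh_zero, add_zero, Function.update_eq_self]
  · rfl

/-- The frozen strength. -/
noncomputable def frozenK (κ : ℝ → ℝ) (τ₀ : ℝ) : ℝ → ℝ := fun s => if s < τ₀ then κ s else 0

theorem isStrength_frozenK {κ : ℝ → ℝ} (hκ : IsStrength κ) (τ₀ : ℝ) : IsStrength (frozenK κ τ₀) where
  meas := Measurable.ite measurableSet_Iio hκ.meas measurable_const
  nonneg s := by
    unfold frozenK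
    split_ifs
    · exact hκ.nonneg s
    · exact le_rfl
  le s := by
    unfold frozenK
    split_ifs
    · exact hκ.le s
    · norm_num

theorem measurable_timeF {θ : ℝ} {W : Finset V} (v : V) :
    Measurable fun s : (V → ℝ) × (V → ℝ) => (gm G θ W s.1 v - gm G θ W s.2 v) * gm G θ W s.2 v :=
  (((measurable_gm_fields v).comp measurable_fst).sub ((measurable_gm_fields v).comp measurable_snd)).mul
    ((measurable_gm_fields v).comp measurable_snd)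

theorem measurable_mW_om {θ τ : ℝ} {κ : ℝ → ℝ} (hκ : Measurable κ) {W : Finset V} (v : V) :
    Measurable fun ω : Om V => mW G θ κ W ω τ v := by
  have h := measurable_mW (G := G) (θ := θ) (κ := κ) hκ (W := W) v
  have h2 : Measurable fun ω : Om V => ((τ, ω) : ℝ × Om V) := measurable_const.prodMk measurable_id
  have h3 := h.comp h2
  exact h3

theorem abs_mW_le {θ τ : ℝ} {κ : ℝ → ℝ} (h0 : 0 ≤ θ) (h1 : θ < 1) {W : Finset V} (ω : Om V) (v : V) :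
    |mW G θ κ W ω τ v| ≤ 1 := abs_gm_le h0 h1 _ _

instance instProbLam (I : Type*) : IsProbabilityMeasure (lam I) := by
  unfold lam Crest.ProbabilityR.Labels.labelMeasure; infer_instance

instance instProbPP (V : Type*) : IsProbabilityMeasure (PP V) := by
  unfold PP; infer_instance

/-- Bounded measurable functions are integrable on `PP`. -/
theorem integrable_of_bdd {f : Om V → ℝ} (hf : Measurable f) {C : ℝ} (hb : ∀ ω, |f ω| ≤ C) :
    Integrable f (PP V) :=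
  Integrable.of_bound hf.aestronglyMeasurable C
    (Eventually.of_forall fun ω => by rw [Real.norm_eq_abs]; exact hb ω)

/-- The time martingale on the window. -/
theorem window_time {θ : ℝ} (h0 : 0 ≤ θ) (h1 : θ < 1) {κ : ℝ → ℝ} (hκ : IsStrength κ) {W : Finset V}
    {τ₁ τ₂ : ℝ} (h01 : 0 ≤ τ₁) (h12 : τ₁ ≤ τ₂) (v : V) :
    ∫ ω, (mW G θ κ W ω τ₂ v - mW G θ κ W ω τ₁ v) ^ 2 ∂(PP V) ≤
      ∫ ω, (1 - mW G θ κ W ω τ₁ v ^ 2) ∂(PP V) := by
  set κ' := frozenK κ τ₁ with hκ'def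
  have hκ' : IsStrength κ' := isStrength_frozenK hκ τ₁
  have hκκ' : ∀ s, 0 ≤ s → s < τ₁ → κ s = κ' s := fun s _ hs => by simp [hκ'def, frozenK, hs]
  have h00 : ∀ s, τ₁ ≤ s → κ' s = 0 := fun s hs => by simp [hκ'def, frozenK, not_lt.2 hs]
  have hstep : ∀ (c : ℝ), ∀ z ∈ W ∪ W, ∀ τ ∈ Icc τ₁ τ₂, ∀ s : (V → ℝ) × (V → ℝ),
      (∫ u : Lab, (c * ((gm G θ W (stepW G θ (κ τ) W z (u : ℝ) s.1) v -
          gm G θ W (stepW G θ (κ' τ) W z (u : ℝ) s.2) v) *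
            gm G θ W (stepW G θ (κ' τ) W z (u : ℝ) s.2) v))) -
        c * ((gm G θ W s.1 v - gm G θ W s.2 v) * gm G θ W s.2 v) ≤ 0 := by
    intro c z hz τ hτ s
    rw [Finset.union_self] at hz
    rw [h00 τ hτ.1]
    simp_rw [stepW_zero, gm_stepW h0 h1 (hκ.nonneg τ) (hκ.le τ) hz (Subtype.prop _) s.1 v]
    have hi := integrable_gamQ (κ := κ τ) (m := gm G θ W s.1 z) (hκ.nonneg τ) (hκ.le τ) (abs_gm_le h0 h1 _ _)
    have e : ∀ u : Lab, c * ((gm G θ W s.1 v + gcov G θ W s.1 v z * gamQ (κ τ) (gm G θ W s.1 z) (u : ℝ) -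
          gm G θ W s.2 v) * gm G θ W s.2 v) =
        c * ((gm G θ W s.1 v - gm G θ W s.2 v) * gm G θ W s.2 v) +
          (c * gcov G θ W s.1 v z * gm G θ W s.2 v) * gamQ (κ τ) (gm G θ W s.1 z) (u : ℝ) := fun u => by ring
    simp_rw [e]
    have e2 : ∫ u : Lab, (c * ((gm G θ W s.1 v - gm G θ W s.2 v) * gm G θ W s.2 v) +
          (c * gcov G θ W s.1 v z * gm G θ W s.2 v) * gamQ (κ τ) (gm G θ W s.1 z) (u : ℝ)) =
        (∫ _u : Lab, c * ((gm G θ W s.1 v - gm G θ W s.2 v) * gm G θ W s.2 v)) +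
          ∫ u : Lab, (c * gcov G θ W s.1 v z * gm G θ W s.2 v) * gamQ (κ τ) (gm G θ W s.1 z) (u : ℝ) :=
      integral_add (integrable_const _) (hi.const_mul _)
    have e3 : ∫ u : Lab, (c * gcov G θ W s.1 v z * gm G θ W s.2 v) * gamQ (κ τ) (gm G θ W s.1 z) (u : ℝ) = 0 := by
      rw [integral_const_mul, integral_gamQ (hκ.nonneg τ) (hκ.le τ) (abs_gm_le h0 h1 _ _), mul_zero]
    rw [e2, e3, integral_const]
    simp
  have hFb : ∀ s : (V → ℝ) × (V → ℝ), |(gm G θ W s.1 v - gm G θ W s.2 v) * gm G θ W s.2 v| ≤ 2 := by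
    intro s
    rw [abs_mul]
    have h2 : |gm G θ W s.1 v - gm G θ W s.2 v| ≤ 2 :=
      (abs_sub _ _).trans (by linarith [abs_gm_le (G := G) (W := W) h0 h1 s.1 v, abs_gm_le (G := G) (W := W) h0 h1 s.2 v])
    have h3 := abs_gm_le (G := G) (W := W) h0 h1 s.2 v
    nlinarith [abs_nonneg (gm G θ W s.1 v - gm G θ W s.2 v), abs_nonneg (gm G θ W s.2 v)]
  -- the two inequalities
  have h1' := ring_increment_le (G := G) (θ := θ) (θ' := θ) (κ := κ) (κ' := κ') h0 h1 h0 h1 hκ hκ' (W := W) (W' := W)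
    (fun s => (1 : ℝ) * ((gm G θ W s.1 v - gm G θ W s.2 v) * gm G θ W s.2 v))
    ((measurable_timeF v).const_mul 1)
    ⟨2, fun s => by rw [one_mul]; exact hFb s⟩
    (fun _ _ _ => 0) (fun z => measurable_const) ⟨0, fun _ _ _ => ⟨le_rfl, le_rfl⟩⟩ h01 h12
    (fun z hz τ hτ s => hstep 1 z hz τ hτ s)
  have h2' := ring_increment_le (G := G) (θ := θ) (θ' := θ) (κ := κ) (κ' := κ') h0 h1 h0 h1 hκ hκ' (W := W) (W' := W)
    (fun s => (-1 : ℝ) * ((gm G θ W s.1 v - gm G θ W s.2 v) * gm G θ W s.2 v))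
    ((measurable_timeF v).const_mul (-1))
    ⟨2, fun s => by rw [neg_one_mul, abs_neg]; exact hFb s⟩
    (fun _ _ _ => 0) (fun z => measurable_const) ⟨0, fun _ _ _ => ⟨le_rfl, le_rfl⟩⟩ h01 h12
    (fun z hz τ hτ s => hstep (-1) z hz τ hτ s)
  simp only [integral_zero, intervalIntegral.integral_zero, Finset.sum_const_zero, one_mul, neg_one_mul,
    integral_neg] at h1' h2'
  -- identify the frozen fields
  have hf1 : ∀ ω, field G θ κ' W ω τ₁ = field G θ κ W ω τ₁ := fun ω =>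
    (field_congr_strength hκκ' ω le_rfl).symm
  have hf2 : ∀ ω, field G θ κ' W ω τ₂ = field G θ κ W ω τ₁ := fun ω =>
    field_frozen hκκ' h00 ω h12
  simp_rw [hf1, hf2, sub_self, zero_mul, integral_zero] at h1' h2'
  have hzero : ∫ ω, (mW G θ κ W ω τ₂ v - mW G θ κ W ω τ₁ v) * mW G θ κ W ω τ₁ v ∂(PP V) = 0 := by
    simp only [mW]
    linarith
  -- the square
  have hm1 : Measurable fun ω : Om V => mW G θ κ W ω τ₁ v := measurable_mW_om hκ.meas v
  have hm2 : Measurable fun ω : Om V => mW G θ κ W ω τ₂ v := measurable_mW_om hκ.meas v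
  have hb1 : ∀ ω : Om V, |mW G θ κ W ω τ₁ v| ≤ 1 := fun ω => abs_mW_le h0 h1 ω v
  have hb2 : ∀ ω : Om V, |mW G θ κ W ω τ₂ v| ≤ 1 := fun ω => abs_mW_le h0 h1 ω v
  have hi1 : Integrable (fun ω : Om V => (mW G θ κ W ω τ₂ v - mW G θ κ W ω τ₁ v) ^ 2) (PP V) :=
    integrable_of_bdd ((hm2.sub hm1).pow_const 2) (C := 4) fun ω => by
      rw [abs_of_nonneg (sq_nonneg _)]
      exact sq_sub_le_four (hb2 ω) (hb1 ω)
  have hi2 : Integrable (fun ω : Om V => 1 - mW G θ κ W ω τ₁ v ^ 2) (PP V) :=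
    integrable_of_bdd (measurable_const.sub (hm1.pow_const 2)) (C := 1) fun ω => by
      have h3 := sq_le_one_of_abs (hb1 ω)
      rw [abs_of_nonneg (by linarith)]
      linarith [sq_nonneg (mW G θ κ W ω τ₁ v)]
  have hi3 : Integrable (fun ω : Om V => (mW G θ κ W ω τ₂ v - mW G θ κ W ω τ₁ v) * mW G θ κ W ω τ₁ v) (PP V) :=
    integrable_of_bdd ((hm2.sub hm1).mul hm1) (C := 2) fun ω => by
      rw [abs_mul]
      have h2 : |mW G θ κ W ω τ₂ v - mW G θ κ W ω τ₁ v| ≤ 2 :=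
        (abs_sub _ _).trans (by linarith [hb1 ω, hb2 ω])
      nlinarith [abs_nonneg (mW G θ κ W ω τ₂ v - mW G θ κ W ω τ₁ v), abs_nonneg (mW G θ κ W ω τ₁ v), hb1 ω]
  have hle : ∫ ω, (mW G θ κ W ω τ₂ v - mW G θ κ W ω τ₁ v) ^ 2 ∂(PP V) ≤
      ∫ ω, ((1 - mW G θ κ W ω τ₁ v ^ 2) -
        2 * ((mW G θ κ W ω τ₂ v - mW G θ κ W ω τ₁ v) * mW G θ κ W ω τ₁ v)) ∂(PP V) := by
    refine integral_mono hi1 (hi2.sub (hi3.const_mul 2)) fun ω => ?_
    have h3 := sq_le_one_of_abs (hb2 ω)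
    simp only []
    nlinarith
  rw [integral_sub hi2 (hi3.const_mul 2), integral_const_mul, hzero, mul_zero, sub_zero] at hle
  exact hle

/-! ### Balls, spheres, geodesics -/

theorem geoTo_spec (hT : G.IsTree) (v y : V) :
    IsGeod G (geoTo G v y) (G.dist v y) ∧ geoTo G v y 0 = v ∧ geoTo G v y (G.dist v y) = y := by
  classical
  have h := exists_geod hT v y
  unfold geoTo
  rw [dif_pos h]
  exact h.choose_spec

theorem dist_geoTo_le (hT : G.IsTree) (v y : V) {i : ℕ} (hi : i ≤ G.dist v y) :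
    G.dist v (geoTo G v y i) = i := by
  obtain ⟨hg, h0, _⟩ := geoTo_spec hT v y
  have := hg.dist_eq hT (Nat.zero_le i) hi
  rwa [h0, Nat.sub_zero] at this

theorem isWin_ball (hT : G.IsTree) (v : V) (N : ℕ) : IsWin G (ball G v N) := by
  classical
  have hv : v ∈ ball G v N := (mem_ball hT).2 (by simp)
  have key : ∀ (u : V) (hu : u ∈ ball G v N),
      (G.induce (ball G v N : Set V)).Reachable ⟨v, hv⟩ ⟨u, hu⟩ := by
    intro u hu
    obtain ⟨hg, h0, h1⟩ := geoTo_spec hT v u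
    have hdu : G.dist v u ≤ N := (mem_ball hT).1 hu
    have hin : ∀ i, i ≤ G.dist v u → geoTo G v u i ∈ ball G v N := fun i hi =>
      (mem_ball hT).2 (by rw [dist_geoTo_le hT v u hi]; omega)
    have step : ∀ i (hi : i ≤ G.dist v u),
        (G.induce (ball G v N : Set V)).Reachable ⟨v, hv⟩ ⟨geoTo G v u i, hin i hi⟩ := by
      intro i
      induction i with
      | zero =>
        intro hi
        have : (⟨v, hv⟩ : (ball G v N : Set V)) = ⟨geoTo G v u 0, hin 0 hi⟩ := Subtype.ext h0.symm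
        rw [this]
      | succ i ih =>
        intro hi
        refine (ih (by omega)).trans (SimpleGraph.Adj.reachable ?_)
        exact hg.adj i (by omega)
    have := step _ le_rfl
    have e : (⟨geoTo G v u (G.dist v u), hin _ le_rfl⟩ : (ball G v N : Set V)) = ⟨u, hu⟩ := Subtype.ext h1
    rwa [e] at this
  have : Nonempty (ball G v N : Set V) := ⟨⟨v, hv⟩⟩
  exact ⟨fun a b => (key a a.2).symm.trans (key b b.2)⟩

theorem ball_subset_ball (hT : G.IsTree) {v u : V} {N k : ℕ} (h : G.dist v u + k ≤ N) :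
    ball G u k ⊆ ball G v N := by
  intro z hz
  have h1 := (mem_ball hT).1 hz
  refine (mem_ball hT).2 ?_
  have := hT.connected.dist_triangle (u := v) (v := u) (w := z)
  omega

theorem mem_sphere_iff (hT : G.IsTree) {v y : V} {r : ℕ} : y ∈ sphere G v r ↔ G.dist v y = r := by
  classical
  unfold sphere
  rw [Finset.mem_filter, mem_ball hT]
  constructor
  · exact fun h => h.2
  · exact fun h => ⟨h.le, h⟩

theorem sum_ball_eq_sum_sphere (hT : G.IsTree) (v : V) (f : V → ℝ) (N : ℕ) :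
    ∑ z ∈ ball G v N, f z = ∑ r ∈ Finset.range (N + 1), ∑ y ∈ sphere G v r, f y := by
  classical
  have h : ∀ z ∈ ball G v N, G.dist v z ∈ Finset.range (N + 1) := fun z hz =>
    Finset.mem_range.2 (Nat.lt_succ_of_le ((mem_ball hT).1 hz))
  rw [← Finset.sum_fiberwise_of_maps_to h]
  refine Finset.sum_congr rfl fun r hr => ?_
  refine Finset.sum_congr ?_ fun _ _ => rfl
  ext y
  rw [Finset.mem_filter, mem_sphere_iff hT, mem_ball hT]
  have := Finset.mem_range.1 hr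
  constructor
  · exact fun h => h.2
  · exact fun h => ⟨by omega, h⟩

theorem card_sphere_le (hG : Tree G d) (v : V) (r : ℕ) :
    ((sphere G v r).card : ℝ) ≤ (d + 1) * ((d : ℝ) - 1) ^ r := by
  classical
  have h1 : (sphere G v r).card ≤ (ball G v r).card := Finset.card_filter_le _ _
  have h2 := card_ball_le hG.tree hG.reg hG.hd v r
  have hd1 : 1 ≤ d := by have := hG.hd; omega
  have h3 : ((sphere G v r).card : ℝ) ≤ ((d + 1) * (d - 1) ^ r : ℕ) := by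
    exact_mod_cast h1.trans h2
  refine h3.trans (le_of_eq ?_)
  push_cast [Nat.cast_sub hd1]
  ring

/-- The geometric weight over spheres. -/
theorem summable_card_sphere (hG : Tree G d) (v : V) {t : ℝ} (h0 : 0 ≤ t) (ht : t ^ 2 * ((d : ℝ) - 1) < 1) (B : ℝ) :
    Summable fun r : ℕ => ((sphere G v r).card : ℝ) * (B * t ^ (2 * r)) := by
  have hd1 : (1 : ℝ) ≤ d := by
    have := hG.hd
    exact_mod_cast (by omega : 1 ≤ d)
  have hq0 : 0 ≤ t ^ 2 * ((d : ℝ) - 1) := mul_nonneg (sq_nonneg _) (by linarith)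
  have hs : Summable fun r : ℕ => ((d : ℝ) + 1) * |B| * (t ^ 2 * ((d : ℝ) - 1)) ^ r :=
    (summable_geometric_of_lt_one hq0 ht).mul_left _
  refine Summable.of_norm_bounded hs fun r => ?_
  have h1 := card_sphere_le hG v r
  rw [Real.norm_eq_abs, abs_mul, abs_mul, abs_of_nonneg (Nat.cast_nonneg _),
    abs_of_nonneg (by positivity : 0 ≤ t ^ (2 * r))]
  calc ((sphere G v r).card : ℝ) * (|B| * t ^ (2 * r))
      ≤ ((d + 1) * ((d : ℝ) - 1) ^ r) * (|B| * t ^ (2 * r)) := by gcongr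
    _ = ((d : ℝ) + 1) * |B| * (t ^ 2 * ((d : ℝ) - 1)) ^ r := by
      rw [mul_pow, pow_mul]; ring

/-- Tannery over spheres. -/
theorem tendsto_sum_ball (hT : G.IsTree) (v : V) {a : ℕ → V → ℝ} {A : V → ℝ} {b : ℕ → ℝ}
    (hb0 : ∀ r, 0 ≤ b r) (hs : Summable fun r => ((sphere G v r).card : ℝ) * b r)
    (ha : ∀ N r y, r ≤ N → y ∈ sphere G v r → |a N y| ≤ b r)
    (hlim : ∀ r y, y ∈ sphere G v r → Tendsto (fun N => a N y) atTop (𝓝 (A y))) :
    Tendsto (fun N => ∑ z ∈ ball G v N, a N z) atTop (𝓝 (∑' r, ∑ y ∈ sphere G v r, A y)) := by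
  classical
  set g : ℕ → ℕ → ℝ := fun N r => if r ≤ N then ∑ y ∈ sphere G v r, a N y else 0 with hg
  have e : ∀ N, ∑ z ∈ ball G v N, a N z = ∑' r, g N r := by
    intro N
    rw [sum_ball_eq_sum_sphere hT, tsum_eq_sum (s := Finset.range (N + 1))]
    · refine Finset.sum_congr rfl fun r hr => ?_
      simp only [hg, if_pos (Nat.lt_succ_iff.1 (Finset.mem_range.1 hr))]
    · intro r hr
      have : ¬ r ≤ N := fun h => hr (Finset.mem_range.2 (Nat.lt_succ_of_le h))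
      simp only [hg, if_neg this]
  simp_rw [e]
  refine tendsto_tsum_of_dominated_convergence hs (fun r => ?_) (Eventually.of_forall fun N r => ?_)
  · have hl : Tendsto (fun N => ∑ y ∈ sphere G v r, a N y) atTop (𝓝 (∑ y ∈ sphere G v r, A y)) :=
      tendsto_finsetSum _ fun y hy => hlim r y hy
    refine hl.congr' ?_
    filter_upwards [eventually_ge_atTop r] with N hN
    simp only [hg, if_pos hN]
  · simp only [hg]
    split_ifs with hr
    · rw [Real.norm_eq_abs]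
      calc |∑ y ∈ sphere G v r, a N y| ≤ ∑ y ∈ sphere G v r, |a N y| := Finset.abs_sum_le_sum_abs _ _
        _ ≤ ∑ _y ∈ sphere G v r, b r := Finset.sum_le_sum fun y hy => ha N r y hr hy
        _ = ((sphere G v r).card : ℝ) * b r := by rw [Finset.sum_const, nsmul_eq_mul]
    · rw [norm_zero]
      exact mul_nonneg (Nat.cast_nonneg _) (hb0 r)

/-! ### The path product -/

theorem theta_lt_one (hG : Tree G d) {θ : ℝ} (h0 : 0 ≤ θ) (hθ : θ ^ 2 * ((d : ℝ) - 1) < 1) : θ < 1 := by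
  have hd : (3 : ℝ) ≤ d := by exact_mod_cast hG.hd
  nlinarith [sq_nonneg θ]

theorem abs_slopeOf_le {θ a b : ℝ} (h0 : 0 ≤ θ) (h1 : θ < 1) (ha : |a| ≤ 1) (hb : |b| ≤ 1) :
    |slopeOf θ a b| ≤ θ := by
  obtain ⟨L, _, hL⟩ := exists_bethe_bounds h0 h1
  obtain ⟨_, _, _, hu0, hu1, _⟩ := hL θ θ a b a b h0 le_rfl h0 le_rfl ha hb ha hb
  unfold slopeOf
  rw [abs_mul, abs_of_nonneg h0, abs_of_nonneg hu0]
  nlinarith

theorem abs_pathCov_le {θ : ℝ} (h0 : 0 ≤ θ) (h1 : θ < 1) {m : V → ℝ} {x : ℕ → V} {r : ℕ}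
    (hm : ∀ i, i ≤ r → |m (x i)| ≤ 1) : |pathCov θ m x r| ≤ θ ^ r := by
  unfold pathCov
  rw [abs_mul, Finset.abs_prod]
  have h2 : |1 - m (x 0) ^ 2| ≤ 1 := by
    have := sq_le_one_of_abs (hm 0 (Nat.zero_le _))
    rw [abs_of_nonneg (by linarith)]
    linarith [sq_nonneg (m (x 0))]
  have h3 : ∏ i ∈ Finset.range r, |slopeOf θ (m (x i)) (m (x (i + 1)))| ≤ ∏ _i ∈ Finset.range r, θ :=
    Finset.prod_le_prod (fun i _ => abs_nonneg _) fun i hi =>
      abs_slopeOf_le h0 h1 (hm i (by have := Finset.mem_range.1 hi; omega))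
        (hm (i + 1) (by have := Finset.mem_range.1 hi; omega))
  rw [Finset.prod_const, Finset.card_range] at h3
  calc _ ≤ 1 * θ ^ r := mul_le_mul h2 h3 (Finset.prod_nonneg fun _ _ => abs_nonneg _) zero_le_one
    _ = θ ^ r := one_mul _

/-- Continuity of the slope at bounded means. -/
theorem tendsto_slopeOf {θ : ℝ} (h0 : 0 ≤ θ) (h1 : θ < 1) {a b : ℕ → ℝ} {a' b' : ℝ}
    (ha : Tendsto a atTop (𝓝 a')) (hb : Tendsto b atTop (𝓝 b')) (hab : ∀ N, |a N| ≤ 1 ∧ |b N| ≤ 1)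
    (ha' : |a'| ≤ 1) (hb' : |b'| ≤ 1) :
    Tendsto (fun N => slopeOf θ (a N) (b N)) atTop (𝓝 (slopeOf θ a' b')) := by
  obtain ⟨L, _, hL⟩ := exists_bethe_bounds h0 h1
  have hu : Tendsto (fun N => uOf θ (a N) (b N)) atTop (𝓝 (uOf θ a' b')) := by
    rw [tendsto_iff_norm_sub_tendsto_zero]
    have hlim : Tendsto (fun N => L * (|a N - a'| + |b N - b'| + |θ - θ|)) atTop (𝓝 (L * (0 + 0 + |θ - θ|))) := by
      refine Tendsto.const_mul _ (Tendsto.add (Tendsto.add ?_ ?_) tendsto_const_nhds)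
      · simpa using (ha.sub_const a').abs
      · simpa using (hb.sub_const b').abs
    have hz : L * (0 + 0 + |θ - θ|) = 0 := by simp
    rw [hz] at hlim
    refine squeeze_zero (fun N => norm_nonneg _) (fun N => ?_) hlim
    rw [Real.norm_eq_abs]
    exact (hL θ θ (a N) (b N) a' b' h0 le_rfl h0 le_rfl (hab N).1 (hab N).2 ha' hb').2.2.2.2.2
  unfold slopeOf
  exact hu.const_mul θ

theorem tendsto_pathCov {θ : ℝ} (h0 : 0 ≤ θ) (h1 : θ < 1) {m : ℕ → V → ℝ} {m' : V → ℝ} {x : ℕ → V} {r : ℕ}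
    (hl : ∀ i, Tendsto (fun N => m N (x i)) atTop (𝓝 (m' (x i))))
    (hb : ∀ N i, |m N (x i)| ≤ 1) (hb' : ∀ i, |m' (x i)| ≤ 1) :
    Tendsto (fun N => pathCov θ (m N) x r) atTop (𝓝 (pathCov θ m' x r)) := by
  unfold pathCov
  refine Tendsto.mul (tendsto_const_nhds.sub ((hl 0).pow 2)) (tendsto_finsetProd _ fun i _ => ?_)
  exact tendsto_slopeOf h0 h1 (hl i) (hl (i + 1)) (fun N => ⟨hb N i, hb N (i + 1)⟩) (hb' i) (hb' (i + 1))

/-- The covariance on a ball is the path product and is small. -/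
theorem gcov_ball_eq (hT : G.IsTree) {θ : ℝ} (h0 : 0 ≤ θ) (h1 : θ < 1) (h : V → ℝ) {v y : V} {N : ℕ}
    (hy : G.dist v y ≤ N) :
    gcov G θ (ball G v N) h v y = pathCov θ (gm G θ (ball G v N) h) (geoTo G v y) (G.dist v y) := by
  obtain ⟨hg, hg0, hg1⟩ := geoTo_spec hT v y
  have := gcov_eq_pathCov hT (isWin_ball hT v N) h0 h1 h hg
    (fun i hi => (mem_ball hT).2 (by rw [dist_geoTo_le hT v y hi]; omega))
  rwa [hg0, hg1] at this

theorem abs_gcov_ball_le (hT : G.IsTree) {θ : ℝ} (h0 : 0 ≤ θ) (h1 : θ < 1) (h : V → ℝ) {v y : V} {N : ℕ}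
    (hy : G.dist v y ≤ N) : |gcov G θ (ball G v N) h v y| ≤ θ ^ G.dist v y := by
  rw [gcov_ball_eq hT h0 h1 h hy]
  exact abs_pathCov_le h0 h1 fun i _ => abs_gm_le h0 h1 _ _

/-! ### Limits along balls -/

theorem mW_of_nonpos {θ : ℝ} {κ : ℝ → ℝ} {W : Finset V} (ω : Om V) {τ : ℝ} (hτ : τ ≤ 0) (v : V) :
    mW G θ κ W ω τ v = mW G θ κ W ω 0 v := by
  have h : ∀ τ' : ℝ, τ' ≤ 0 → field G θ κ W ω τ' = 0 := by
    intro τ' h'
    unfold field
    rw [Nat.ceil_eq_zero.2 h', mul_zero]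
    rfl
  unfold mW
  rw [h τ hτ, h 0 le_rfl]

theorem mInf_of_nonpos {θ : ℝ} {κ : ℝ → ℝ} (ω : Om V) {τ : ℝ} (hτ : τ ≤ 0) (v : V) :
    mInf G θ κ ω τ v = mInf G θ κ ω 0 v := by
  unfold mInf
  simp_rw [mW_of_nonpos ω hτ]

theorem measurable_mInf_om {θ τ : ℝ} {κ : ℝ → ℝ} (hκ : Measurable κ) (v : V) :
    Measurable fun ω : Om V => mInf G θ κ ω τ v := by
  have h := measurable_mInf (G := G) (θ := θ) (κ := κ) hκ v
  have h2 : Measurable fun ω : Om V => ((τ, ω) : ℝ × Om V) := measurable_const.prodMk measurable_id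
  have h3 := h.comp h2
  exact h3

/-- Window means on balls around `v` converge a.e. to the limit, at every vertex. -/
theorem ae_tendsto_ball (hG : Tree G d) {θ : ℝ} {κ : ℝ → ℝ} (hθ0 : 0 ≤ θ) (hθ : θ ^ 2 * ((d : ℝ) - 1) < 1)
    (hκ : IsStrength κ) (τ : ℝ) (v u : V) :
    ∀ᵐ ω ∂(PP V), Tendsto (fun N => mW G θ κ (ball G v N) ω τ u) atTop (𝓝 (mInf G θ κ ω τ u)) := by
  wlog hτ : 0 ≤ τ generalizing τ
  · have h := this 0 le_rfl
    have hτ' : τ ≤ 0 := by linarith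
    filter_upwards [h] with ω hω
    simp_rw [mW_of_nonpos ω hτ', mInf_of_nonpos ω hτ' u]
    exact hω
  have hθ1 := theta_lt_one hG hθ0 hθ
  obtain ⟨B, γ, hB, hγ0, hγ1, hL⟩ := mInf_L2 hG (τ₁ := τ) hθ0 hθ hκ
  set r := G.dist v u with hr
  set f : ℕ → Om V → ℝ := fun k ω => (mW G θ κ (ball G v (r + k)) ω τ u - mInf G θ κ ω τ u) ^ 2 with hf
  have hfm : ∀ k, Measurable (f k) := fun k =>
    ((measurable_mW_om hκ.meas u).sub (measurable_mInf_om hκ.meas u)).pow_const 2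
  have hfb : ∀ k ω, |f k ω| ≤ 4 := fun k ω => by
    rw [abs_of_nonneg (sq_nonneg _)]
    exact sq_sub_le_four (abs_mW_le hθ0 hθ1 ω u) (abs_mInf_le hG hθ0 hθ1 ω τ u)
  have hfi : ∀ k, Integrable (f k) (PP V) := fun k => integrable_of_bdd (hfm k) (hfb k)
  have hbound : ∀ k, ∫ ω, f k ω ∂(PP V) ≤ B * γ ^ k := fun k =>
    hL _ (isWin_ball hG.tree v (r + k)) u k (ball_subset_ball hG.tree (by omega)) τ ⟨hτ, le_rfl⟩
  have hlin : ∀ k, ∫⁻ ω, ENNReal.ofReal (f k ω) ∂(PP V) ≤ ENNReal.ofReal (B * γ ^ k) := fun k => by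
    rw [← ofReal_integral_eq_lintegral_ofReal (hfi k) (Eventually.of_forall fun ω => sq_nonneg _)]
    exact ENNReal.ofReal_le_ofReal (hbound k)
  have hsum : Summable fun k : ℕ => B * γ ^ k :=
    (summable_geometric_of_lt_one hγ0.le hγ1).mul_left B
  have htot : ∫⁻ ω, ∑' k, ENNReal.ofReal (f k ω) ∂(PP V) ≠ ∞ := by
    rw [lintegral_tsum fun k => (hfm k).ennreal_ofReal.aemeasurable]
    refine ne_top_of_le_ne_top ?_ (ENNReal.tsum_le_tsum hlin)
    exact hsum.tsum_ofReal_ne_top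
  have hmeas : AEMeasurable (fun ω => ∑' k, ENNReal.ofReal (f k ω)) (PP V) :=
    (Measurable.tsum fun k => (hfm k).ennreal_ofReal).aemeasurable
  filter_upwards [ae_lt_top' hmeas htot] with ω hω
  have h0 : Tendsto (fun k => ENNReal.ofReal (f k ω)) atTop (𝓝 0) :=
    ENNReal.tendsto_atTop_zero_of_tsum_ne_top hω.ne
  have h1 : Tendsto (fun k => f k ω) atTop (𝓝 0) := by
    have := (ENNReal.tendsto_toReal (by simp : (0 : ℝ≥0∞) ≠ ∞)).comp h0
    simp only [ENNReal.toReal_zero] at this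
    refine this.congr fun k => ?_
    simp only [Function.comp_apply]
    exact ENNReal.toReal_ofReal (sq_nonneg _)
  have h2 : Tendsto (fun k => mW G θ κ (ball G v (k + r)) ω τ u - mInf G θ κ ω τ u) atTop (𝓝 0) := by
    have h3 : Tendsto (fun k => |mW G θ κ (ball G v (r + k)) ω τ u - mInf G θ κ ω τ u|) atTop (𝓝 0) := by
      have := h1.sqrt
      simp only [Real.sqrt_zero] at this
      refine this.congr fun k => ?_
      simp only [hf]
      exact Real.sqrt_sq_eq_abs _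
    have h4 := (tendsto_zero_iff_abs_tendsto_zero _).2 h3
    simpa [Nat.add_comm] using h4
  have h5 : Tendsto (fun k => mW G θ κ (ball G v (k + r)) ω τ u) atTop (𝓝 (mInf G θ κ ω τ u)) := by
    simpa using h2.add_const (mInf G θ κ ω τ u)
  exact (tendsto_add_atTop_iff_nat r).1 h5

/-- The covariances on balls converge a.e. to the formula along the geodesic. -/
theorem ae_tendsto_gcov (hG : Tree G d) {θ : ℝ} {κ : ℝ → ℝ} (hθ0 : 0 ≤ θ) (hθ : θ ^ 2 * ((d : ℝ) - 1) < 1)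
    (hκ : IsStrength κ) (τ : ℝ) (v y : V) :
    ∀ᵐ ω ∂(PP V), Tendsto (fun N => gcov G θ (ball G v N) (field G θ κ (ball G v N) ω τ) v y) atTop
      (𝓝 (covI G θ κ ω τ v y)) := by
  have hθ1 := theta_lt_one hG hθ0 hθ
  have hae : ∀ᵐ ω ∂(PP V), ∀ i : ℕ, Tendsto (fun N => mW G θ κ (ball G v N) ω τ (geoTo G v y i)) atTop
      (𝓝 (mInf G θ κ ω τ (geoTo G v y i))) :=
    ae_all_iff.2 fun i => ae_tendsto_ball hG hθ0 hθ hκ τ v _
  filter_upwards [hae] with ω hω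
  have h1 := tendsto_pathCov (θ := θ) (m := fun N u => mW G θ κ (ball G v N) ω τ u)
    (m' := fun u => mInf G θ κ ω τ u) (x := geoTo G v y) (r := G.dist v y) hθ0 hθ1 hω
    (fun N i => abs_mW_le hθ0 hθ1 ω _) (fun i => abs_mInf_le hG hθ0 hθ1 ω τ _)
  refine h1.congr' ?_
  filter_upwards [eventually_ge_atTop (G.dist v y)] with N hN
  exact (gcov_ball_eq hG.tree hθ0 hθ1 _ hN).symm

/-! ### Dominated convergence, measurability in time -/

theorem tendsto_integral_of_ae_bdd {F : ℕ → Om V → ℝ} {f : Om V → ℝ} (hm : ∀ N, Measurable (F N)) {C : ℝ}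
    (hb : ∀ N ω, |F N ω| ≤ C) (hl : ∀ᵐ ω ∂(PP V), Tendsto (fun N => F N ω) atTop (𝓝 (f ω))) :
    Tendsto (fun N => ∫ ω, F N ω ∂(PP V)) atTop (𝓝 (∫ ω, f ω ∂(PP V))) :=
  tendsto_integral_of_dominated_convergence (fun _ => C) (fun N => (hm N).aestronglyMeasurable)
    (integrable_const C) (fun N => Eventually.of_forall fun ω => by rw [Real.norm_eq_abs]; exact hb N ω) hl

theorem intervalIntegrable_of_bdd {f : ℝ → ℝ} (hf : Measurable f) {C : ℝ} (hb : ∀ τ, |f τ| ≤ C) (a b : ℝ) :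
    IntervalIntegrable f volume a b := by
  rw [intervalIntegrable_iff]
  exact Measure.integrableOn_of_bounded (M := C) (by simp) hf.aestronglyMeasurable
    (Eventually.of_forall fun τ => by rw [Real.norm_eq_abs]; exact hb τ)

theorem measurable_fields_joint {θ θ' : ℝ} {κ κ' : ℝ → ℝ} (hκ : Measurable κ) (hκ' : Measurable κ')
    {W W' : Finset V} :
    Measurable fun p : ℝ × Om V => (p.1, field G θ κ W p.2 p.1, field G θ' κ' W' p.2 p.1) :=
  measurable_fst.prodMk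
    ((measurable_pi_iff.2 fun v => measurable_field hκ v).prodMk
      (measurable_pi_iff.2 fun v => measurable_field hκ' v))

theorem measurable_integral_fields {θ θ' : ℝ} {κ κ' : ℝ → ℝ} (hκ : Measurable κ) (hκ' : Measurable κ')
    {W W' : Finset V} {Φ : ℝ × (V → ℝ) × (V → ℝ) → ℝ} (hΦ : Measurable Φ) :
    Measurable fun τ : ℝ => ∫ ω, Φ (τ, field G θ κ W ω τ, field G θ' κ' W' ω τ) ∂(PP V) := by
  have hj : Measurable fun p : ℝ × Om V => Φ (p.1, field G θ κ W p.2 p.1, field G θ' κ' W' p.2 p.1) :=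
    hΦ.comp (measurable_fields_joint hκ hκ')
  have h2 : StronglyMeasurable (Function.uncurry fun (τ : ℝ) (ω : Om V) =>
      Φ (τ, field G θ κ W ω τ, field G θ' κ' W' ω τ)) := hj.stronglyMeasurable
  have := (h2.integral_prod_right (ν := PP V)).measurable
  exact this

theorem measurable_fields_om {θ θ' τ : ℝ} {κ κ' : ℝ → ℝ} (hκ : Measurable κ) (hκ' : Measurable κ')
    {W W' : Finset V} {Φ : ℝ × (V → ℝ) × (V → ℝ) → ℝ} (hΦ : Measurable Φ) :
    Measurable fun ω : Om V => Φ (τ, field G θ κ W ω τ, field G θ' κ' W' ω τ) := by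
  have hj : Measurable fun p : ℝ × Om V => Φ (p.1, field G θ κ W p.2 p.1, field G θ' κ' W' p.2 p.1) :=
    hΦ.comp (measurable_fields_joint hκ hκ')
  have h2 : Measurable fun ω : Om V => ((τ, ω) : ℝ × Om V) := measurable_const.prodMk measurable_id
  have h3 := hj.comp h2
  exact h3

/-! ### The pair inequality in infinite volume -/

theorem XW_ball_bound (hT : G.IsTree) {K θ θ' t : ℝ} (hK : 0 ≤ K) (h0 : 0 ≤ θ) (h1 : θ < 1) (h0' : 0 ≤ θ')
    (h1' : θ' < 1) (ht : θ ≤ t) (ht' : θ' ≤ t) {κ : ℝ → ℝ} (hκ : IsStrength κ) {v y : V} {N : ℕ}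
    (hy : G.dist v y ≤ N) (τ : ℝ) (s : (V → ℝ) × (V → ℝ)) :
    |XW K G θ θ' (ball G v N) κ v y τ s| ≤ (8 + K) * t ^ (2 * G.dist v y) := by
  obtain ⟨hnn, _⟩ := XW_bounds (G := G) (W := ball G v N) hK h0 h1 h0' h1' hκ v y τ s
  rw [abs_of_nonneg hnn]
  set r := G.dist v y with hr
  have ht0 : 0 ≤ t := h0.trans ht
  have hc : |gcov G θ (ball G v N) s.1 v y| ≤ t ^ r :=
    (abs_gcov_ball_le hT h0 h1 s.1 hy).trans (pow_le_pow_left₀ h0 ht _)
  have hc' : |gcov G θ' (ball G v N) s.2 v y| ≤ t ^ r :=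
    (abs_gcov_ball_le hT h0' h1' s.2 hy).trans (pow_le_pow_left₀ h0' ht' _)
  have hm := sq_sub_le_four (abs_gm_le (G := G) (W := ball G v N) h0 h1 s.1 y)
    (abs_gm_le (G := G) (W := ball G v N) h0' h1' s.2 y)
  have hκ2 : κ τ ^ 2 ≤ 1 / 4 := by nlinarith [hκ.nonneg τ, hκ.le τ]
  have hκ4 : κ τ ^ 4 ≤ 1 / 16 := by nlinarith [sq_nonneg (κ τ), hκ.nonneg τ]
  have hcc : (gcov G θ (ball G v N) s.1 v y - gcov G θ' (ball G v N) s.2 v y) ^ 2 ≤ 4 * t ^ (2 * r) := by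
    have h3 : |gcov G θ (ball G v N) s.1 v y - gcov G θ' (ball G v N) s.2 v y| ≤ 2 * t ^ r :=
      (abs_sub _ _).trans (by linarith)
    rw [← sq_abs]
    calc _ ≤ (2 * t ^ r) ^ 2 := pow_le_pow_left₀ (abs_nonneg _) h3 2
      _ = 4 * t ^ (2 * r) := by rw [mul_pow, ← pow_mul, mul_comm r 2]; norm_num
  have hcc' : gcov G θ' (ball G v N) s.2 v y ^ 2 ≤ t ^ (2 * r) := by
    rw [← sq_abs]
    calc _ ≤ (t ^ r) ^ 2 := pow_le_pow_left₀ (abs_nonneg _) hc' 2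
      _ = t ^ (2 * r) := by rw [← pow_mul, mul_comm r 2]
  have htr : 0 ≤ t ^ (2 * r) := by positivity
  unfold XW
  have t1 : 8 * κ τ ^ 2 * (gcov G θ (ball G v N) s.1 v y - gcov G θ' (ball G v N) s.2 v y) ^ 2 ≤
      8 * (1 / 4) * (4 * t ^ (2 * r)) := by gcongr
  have t2 : K * κ τ ^ 4 * gcov G θ' (ball G v N) s.2 v y ^ 2 *
      (gm G θ (ball G v N) s.1 y - gm G θ' (ball G v N) s.2 y) ^ 2 ≤
      K * (1 / 16) * t ^ (2 * r) * 4 := by gcongr
  nlinarith [mul_nonneg hK htr]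

theorem tendsto_int_XW (hG : Tree G d) {K θ θ' : ℝ} (hK : 0 ≤ K) (h0 : 0 ≤ θ) (hθ : θ ^ 2 * ((d : ℝ) - 1) < 1)
    (h0' : 0 ≤ θ') (hθ' : θ' ^ 2 * ((d : ℝ) - 1) < 1) {κ : ℝ → ℝ} (hκ : IsStrength κ) (τ : ℝ) (v y : V) :
    Tendsto (fun N => ∫ ω, XW K G θ θ' (ball G v N) κ v y τ
      (field G θ κ (ball G v N) ω τ, field G θ' κ (ball G v N) ω τ) ∂(PP V)) atTop
      (𝓝 (∫ ω, Xp K G θ θ' κ ω τ v y ∂(PP V))) := by
  have h1 := theta_lt_one hG h0 hθ
  have h1' := theta_lt_one hG h0' hθ'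
  refine tendsto_integral_of_ae_bdd (C := 8 + K) (fun N => ?_) (fun N ω => ?_) ?_
  · exact measurable_fields_om (Φ := fun q => XW K G θ θ' (ball G v N) κ v y q.1 q.2) hκ.meas hκ.meas
      (measurable_XW hκ.meas v y)
  · obtain ⟨a, b⟩ := XW_bounds (G := G) (W := ball G v N) hK h0 h1 h0' h1' hκ v y τ
      (field G θ κ (ball G v N) ω τ, field G θ' κ (ball G v N) ω τ)
    rw [abs_of_nonneg a]
    exact b
  · filter_upwards [ae_tendsto_gcov hG h0 hθ hκ τ v y, ae_tendsto_gcov hG h0' hθ' hκ τ v y,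
      ae_tendsto_ball hG h0 hθ hκ τ v y, ae_tendsto_ball hG h0' hθ' hκ τ v y] with ω h2 h3 h4 h5
    unfold XW Xp
    refine Tendsto.add ?_ ?_
    · exact tendsto_const_nhds.mul ((h2.sub h3).pow 2)
    · exact (tendsto_const_nhds.mul (h3.pow 2)).mul ((h4.sub h5).pow 2)

theorem tendsto_int_pair (hG : Tree G d) {θ θ' : ℝ} (h0 : 0 ≤ θ) (hθ : θ ^ 2 * ((d : ℝ) - 1) < 1)
    (h0' : 0 ≤ θ') (hθ' : θ' ^ 2 * ((d : ℝ) - 1) < 1) {κ : ℝ → ℝ} (hκ : IsStrength κ) (τ : ℝ) (v : V) :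
    Tendsto (fun N => ∫ ω, (mW G θ κ (ball G v N) ω τ v - mW G θ' κ (ball G v N) ω τ v) ^ 2 ∂(PP V)) atTop
      (𝓝 (∫ ω, (mInf G θ κ ω τ v - mInf G θ' κ ω τ v) ^ 2 ∂(PP V))) := by
  have h1 := theta_lt_one hG h0 hθ
  have h1' := theta_lt_one hG h0' hθ'
  refine tendsto_integral_of_ae_bdd (C := 4) (fun N => ?_) (fun N ω => ?_) ?_
  · exact ((measurable_mW_om hκ.meas v).sub (measurable_mW_om hκ.meas v)).pow_const 2
  · rw [abs_of_nonneg (sq_nonneg _)]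
    exact sq_sub_le_four (abs_mW_le h0 h1 ω v) (abs_mW_le h0' h1' ω v)
  · filter_upwards [ae_tendsto_ball hG h0 hθ hκ τ v v, ae_tendsto_ball hG h0' hθ' hκ τ v v] with ω h4 h5
    exact (h4.sub h5).pow 2

theorem pair_increment (hG : Tree G d) : ∃ K : ℝ, 0 < K ∧ ∀ {θ θ' : ℝ} {κ : ℝ → ℝ} (_ : 0 ≤ θ) (_ : 0 ≤ θ')
    (_ : θ ^ 2 * ((d : ℝ) - 1) < 1) (_ : θ' ^ 2 * ((d : ℝ) - 1) < 1) (_ : IsStrength κ) {τ₁ τ₂ : ℝ}
    (_ : 0 ≤ τ₁) (_ : τ₁ ≤ τ₂) (v : V),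
    (∫ ω, (mInf G θ κ ω τ₂ v - mInf G θ' κ ω τ₂ v) ^ 2 ∂(PP V)) -
        ∫ ω, (mInf G θ κ ω τ₁ v - mInf G θ' κ ω τ₁ v) ^ 2 ∂(PP V) ≤
      ∫ τ in τ₁..τ₂, ∑' r, ∑ y ∈ sphere G v r, ∫ ω, Xp K G θ θ' κ ω τ v y ∂(PP V) := by
  obtain ⟨C, hC0, hC⟩ := exists_gamQ_lip
  refine ⟨2 * C ^ 2, by positivity, ?_⟩
  intro θ θ' κ h0 h0' hθ hθ' hκ τ₁ τ₂ h01 h12 v
  have h1 := theta_lt_one hG h0 hθ
  have h1' := theta_lt_one hG h0' hθ'
  set K := 2 * C ^ 2 with hKdef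
  have hK : 0 ≤ K := by positivity
  have hT := hG.tree
  -- the geometric bound
  set t := max θ θ' with ht
  have ht0 : 0 ≤ t := h0.trans (le_max_left _ _)
  have htq : t ^ 2 * ((d : ℝ) - 1) < 1 := by
    rcases max_cases θ θ' with ⟨h, _⟩ | ⟨h, _⟩ <;> rw [ht, h] <;> assumption
  set b : ℕ → ℝ := fun r => (8 + K) * t ^ (2 * r) with hb
  have hb0 : ∀ r, 0 ≤ b r := fun r => by simp only [hb]; positivity
  have hs : Summable fun r => ((sphere G v r).card : ℝ) * b r := summable_card_sphere hG v ht0 htq _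
  -- integrals of the majorant
  set a : ℕ → ℝ → V → ℝ := fun N τ z => ∫ ω, XW K G θ θ' (ball G v N) κ v z τ
    (field G θ κ (ball G v N) ω τ, field G θ' κ (ball G v N) ω τ) ∂(PP V) with ha
  have hab : ∀ N τ r y, r ≤ N → y ∈ sphere G v r → |a N τ y| ≤ b r := by
    intro N τ r y hr hy
    have hdy : G.dist v y = r := (mem_sphere_iff hT).1 hy
    have hbd : ∀ ω : Om V, |XW K G θ θ' (ball G v N) κ v y τ
        (field G θ κ (ball G v N) ω τ, field G θ' κ (ball G v N) ω τ)| ≤ b r := fun ω => by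
      have := XW_ball_bound hT hK h0 h1 h0' h1' (le_max_left θ θ') (le_max_right θ θ') hκ
        (y := y) (v := v) (N := N) (by omega) τ (field G θ κ (ball G v N) ω τ, field G θ' κ (ball G v N) ω τ)
      rwa [hdy] at this
    have := norm_integral_le_of_norm_le_const (μ := PP V) (f := fun ω => XW K G θ θ' (ball G v N) κ v y τ
        (field G θ κ (ball G v N) ω τ, field G θ' κ (ball G v N) ω τ)) (C := b r)
      (Eventually.of_forall fun ω => by rw [Real.norm_eq_abs]; exact hbd ω)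
    simpa [Real.norm_eq_abs] using this
  have hmeasa : ∀ N z, Measurable fun τ => a N τ z := fun N z =>
    measurable_integral_fields (Φ := fun q => XW K G θ θ' (ball G v N) κ v z q.1 q.2) hκ.meas hκ.meas
      (measurable_XW hκ.meas v z)
  have hbda : ∀ N τ z, |a N τ z| ≤ 8 + K := by
    intro N τ z
    have := norm_integral_le_of_norm_le_const (μ := PP V) (f := fun ω => XW K G θ θ' (ball G v N) κ v z τ
        (field G θ κ (ball G v N) ω τ, field G θ' κ (ball G v N) ω τ)) (C := 8 + K)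
      (Eventually.of_forall fun ω => by
        obtain ⟨a', b'⟩ := XW_bounds (G := G) (W := ball G v N) hK h0 h1 h0' h1' hκ v z τ
          (field G θ κ (ball G v N) ω τ, field G θ' κ (ball G v N) ω τ)
        rw [Real.norm_eq_abs, abs_of_nonneg a']
        exact b')
    simpa [Real.norm_eq_abs] using this
  have hint : ∀ N z, IntervalIntegrable (fun τ => a N τ z) volume τ₁ τ₂ := fun N z =>
    intervalIntegrable_of_bdd (hmeasa N z) (fun τ => hbda N τ z) _ _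
  have hswap : ∀ N, ∑ z ∈ ball G v N, ∫ τ in τ₁..τ₂, a N τ z = ∫ τ in τ₁..τ₂, ∑ z ∈ ball G v N, a N τ z :=
    fun N => (intervalIntegral.integral_finsetSum fun z _ => hint N z).symm
  have hR : Tendsto (fun N => ∑ z ∈ ball G v N, ∫ τ in τ₁..τ₂, a N τ z) atTop
      (𝓝 (∫ τ in τ₁..τ₂, ∑' r, ∑ y ∈ sphere G v r, ∫ ω, Xp K G θ θ' κ ω τ v y ∂(PP V))) := by
    simp_rw [hswap]
    refine intervalIntegral.tendsto_integral_filter_of_dominated_convergence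
      (fun _ => ∑' r, ((sphere G v r).card : ℝ) * b r) ?_ ?_ intervalIntegrable_const ?_
    · refine Eventually.of_forall fun N => ?_
      exact (Finset.measurable_sum _ fun z _ => hmeasa N z).aestronglyMeasurable
    · refine Eventually.of_forall fun N => Eventually.of_forall fun τ _ => ?_
      rw [Real.norm_eq_abs, sum_ball_eq_sum_sphere hT]
      calc |∑ r ∈ Finset.range (N + 1), ∑ y ∈ sphere G v r, a N τ y|
          ≤ ∑ r ∈ Finset.range (N + 1), |∑ y ∈ sphere G v r, a N τ y| := Finset.abs_sum_le_sum_abs _ _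
        _ ≤ ∑ r ∈ Finset.range (N + 1), ((sphere G v r).card : ℝ) * b r := by
            refine Finset.sum_le_sum fun r hr => ?_
            calc |∑ y ∈ sphere G v r, a N τ y| ≤ ∑ y ∈ sphere G v r, |a N τ y| := Finset.abs_sum_le_sum_abs _ _
              _ ≤ ∑ _y ∈ sphere G v r, b r := Finset.sum_le_sum fun y hy =>
                  hab N τ r y (Nat.lt_succ_iff.1 (Finset.mem_range.1 hr)) hy
              _ = _ := by rw [Finset.sum_const, nsmul_eq_mul]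
        _ ≤ ∑' r, ((sphere G v r).card : ℝ) * b r :=
            hs.sum_le_tsum _ fun r _ => mul_nonneg (Nat.cast_nonneg _) (hb0 r)
    · refine Eventually.of_forall fun τ _ => ?_
      exact tendsto_sum_ball (a := fun N z => a N τ z) hT v hb0 hs (fun N r y hr hy => hab N τ r y hr hy)
        fun r y _ => tendsto_int_XW hG hK h0 hθ h0' hθ' hκ τ v y
  have hL := (tendsto_int_pair hG h0 hθ h0' hθ' hκ τ₂ v).sub (tendsto_int_pair hG h0 hθ h0' hθ' hκ τ₁ v)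
  exact le_of_tendsto_of_tendsto' hL hR fun N => window_pair hC h0 h1 h0' h1' hκ h01 h12 v

/-- `S` is nondecreasing in time. -/
theorem pair_mono (hG : Tree G d) {θ θ' : ℝ} {κ : ℝ → ℝ} (h0 : 0 ≤ θ) (h0' : 0 ≤ θ')
    (hθ : θ ^ 2 * ((d : ℝ) - 1) < 1) (hθ' : θ' ^ 2 * ((d : ℝ) - 1) < 1) (hκ : IsStrength κ) {τ₁ τ₂ : ℝ}
    (h01 : 0 ≤ τ₁) (h12 : τ₁ ≤ τ₂) (v : V) :
    ∫ ω, (mInf G θ κ ω τ₁ v - mInf G θ' κ ω τ₁ v) ^ 2 ∂(PP V) ≤
      ∫ ω, (mInf G θ κ ω τ₂ v - mInf G θ' κ ω τ₂ v) ^ 2 ∂(PP V) :=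
  le_of_tendsto_of_tendsto' (tendsto_int_pair hG h0 hθ h0' hθ' hκ τ₁ v)
    (tendsto_int_pair hG h0 hθ h0' hθ' hκ τ₂ v)
    fun _ => window_pair_mono h0 (theta_lt_one hG h0 hθ) h0' (theta_lt_one hG h0' hθ') hκ h01 h12 v

theorem tendsto_int_moment (hG : Tree G d) {θ : ℝ} (h0 : 0 ≤ θ) (hθ : θ ^ 2 * ((d : ℝ) - 1) < 1)
    {κ : ℝ → ℝ} (hκ : IsStrength κ) (τ : ℝ) (v : V) (p : ℕ) :
    Tendsto (fun N => ∫ ω, mW G θ κ (ball G v N) ω τ v ^ (2 * p) ∂(PP V)) atTop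
      (𝓝 (∫ ω, mInf G θ κ ω τ v ^ (2 * p) ∂(PP V))) := by
  have h1 := theta_lt_one hG h0 hθ
  refine tendsto_integral_of_ae_bdd (C := 1) (fun N => ?_) (fun N ω => ?_) ?_
  · exact (measurable_mW_om hκ.meas v).pow_const _
  · rw [abs_pow]
    exact pow_le_one₀ (abs_nonneg _) (abs_mW_le h0 h1 ω v)
  · filter_upwards [ae_tendsto_ball hG h0 hθ hκ τ v v] with ω h4
    exact h4.pow _

/-- Moments increase in time. -/
theorem moment_mono (hG : Tree G d) {θ : ℝ} {κ : ℝ → ℝ} (h0 : 0 ≤ θ)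
    (hθ : θ ^ 2 * ((d : ℝ) - 1) < 1) (hκ : IsStrength κ) {τ₁ τ₂ : ℝ} (h01 : 0 ≤ τ₁) (h12 : τ₁ ≤ τ₂) (v : V)
    (p : ℕ) : ∫ ω, mInf G θ κ ω τ₁ v ^ (2 * p) ∂(PP V) ≤ ∫ ω, mInf G θ κ ω τ₂ v ^ (2 * p) ∂(PP V) :=
  le_of_tendsto_of_tendsto' (tendsto_int_moment hG h0 hθ hκ τ₁ v p) (tendsto_int_moment hG h0 hθ hκ τ₂ v p)
    fun _ => window_moment_mono h0 (theta_lt_one hG h0 hθ) hκ h01 h12 v p

/-- Martingale in time. -/
theorem mInf_time (hG : Tree G d) {θ : ℝ} {κ : ℝ → ℝ} (hθ0 : 0 ≤ θ) (hθ : θ ^ 2 * ((d : ℝ) - 1) < 1)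
    (hκ : IsStrength κ) {τ₁ τ₂ : ℝ} (h01 : 0 ≤ τ₁) (h12 : τ₁ ≤ τ₂) (v : V) :
    ∫ ω, (mInf G θ κ ω τ₂ v - mInf G θ κ ω τ₁ v) ^ 2 ∂(PP V) ≤ ∫ ω, (1 - mInf G θ κ ω τ₁ v ^ 2) ∂(PP V) := by
  have h1 := theta_lt_one hG hθ0 hθ
  have hL : Tendsto (fun N => ∫ ω, (mW G θ κ (ball G v N) ω τ₂ v - mW G θ κ (ball G v N) ω τ₁ v) ^ 2 ∂(PP V)) atTop
      (𝓝 (∫ ω, (mInf G θ κ ω τ₂ v - mInf G θ κ ω τ₁ v) ^ 2 ∂(PP V))) := by
    refine tendsto_integral_of_ae_bdd (C := 4) (fun N => ?_) (fun N ω => ?_) ?_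
    · exact ((measurable_mW_om hκ.meas v).sub (measurable_mW_om hκ.meas v)).pow_const 2
    · rw [abs_of_nonneg (sq_nonneg _)]
      exact sq_sub_le_four (abs_mW_le hθ0 h1 ω v) (abs_mW_le hθ0 h1 ω v)
    · filter_upwards [ae_tendsto_ball hG hθ0 hθ hκ τ₂ v v, ae_tendsto_ball hG hθ0 hθ hκ τ₁ v v] with ω h4 h5
      exact (h4.sub h5).pow 2
  have hR : Tendsto (fun N => ∫ ω, (1 - mW G θ κ (ball G v N) ω τ₁ v ^ 2) ∂(PP V)) atTop
      (𝓝 (∫ ω, (1 - mInf G θ κ ω τ₁ v ^ 2) ∂(PP V))) := by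
    refine tendsto_integral_of_ae_bdd (C := 1) (fun N => ?_) (fun N ω => ?_) ?_
    · exact measurable_const.sub ((measurable_mW_om hκ.meas v).pow_const 2)
    · have h3 := sq_le_one_of_abs (abs_mW_le (G := G) (W := ball G v N) (κ := κ) (τ := τ₁) hθ0 h1 ω v)
      rw [abs_of_nonneg (by linarith)]
      linarith [sq_nonneg (mW G θ κ (ball G v N) ω τ₁ v)]
    · filter_upwards [ae_tendsto_ball hG hθ0 hθ hκ τ₁ v v] with ω h5
      exact tendsto_const_nhds.sub (h5.pow 2)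
  exact le_of_tendsto_of_tendsto' hL hR fun N => window_time hθ0 h1 hκ h01 h12 v

/-- Own-site bound in infinite volume, uniform in `θ`. -/
theorem exists_own_bound_mInf {ε : ℝ} (h0 : 0 < ε) (h1 : ε ≤ 1 / 2) :
    ∃ δ : ℝ → ℝ, Tendsto δ atTop (𝓝 0) ∧ ∀ τ, 0 ≤ δ τ ∧
      ∀ (V : Type _) [DecidableEq V] (G : SimpleGraph V) [G.LocallyFinite] (d : ℕ) (_ : Tree G d) (θ : ℝ)
        (_ : 0 ≤ θ) (_ : θ ^ 2 * ((d : ℝ) - 1) < 1) (v : V),
        ∫ ω, (1 - mInf G θ (kap ε) ω τ v ^ 2) ∂(PP V) ≤ δ τ := by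
  obtain ⟨δ, hδ, hδτ⟩ := exists_own_bound h0 h1
  refine ⟨δ, hδ, fun τ => ⟨(hδτ τ).1, ?_⟩⟩
  intro V _ G _ d hG θ hθ0 hθ v
  have h1' := theta_lt_one hG hθ0 hθ
  have hκ : IsStrength (kap ε) := isStrength_kap h0.le h1
  have hR : Tendsto (fun N => ∫ ω, (1 - mW G θ (kap ε) (ball G v N) ω τ v ^ 2) ∂(PP V)) atTop
      (𝓝 (∫ ω, (1 - mInf G θ (kap ε) ω τ v ^ 2) ∂(PP V))) := by
    refine tendsto_integral_of_ae_bdd (C := 1) (fun N => ?_) (fun N ω => ?_) ?_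
    · exact measurable_const.sub ((measurable_mW_om hκ.meas v).pow_const 2)
    · have h3 := sq_le_one_of_abs (abs_mW_le (G := G) (W := ball G v N) (κ := kap ε) (τ := τ) hθ0 h1' ω v)
      rw [abs_of_nonneg (by linarith)]
      linarith [sq_nonneg (mW G θ (kap ε) (ball G v N) ω τ v)]
    · filter_upwards [ae_tendsto_ball hG hθ0 hθ hκ τ v v] with ω h5
      exact tendsto_const_nhds.sub (h5.pow 2)
  refine le_of_tendsto' hR fun N => ?_
  exact (hδτ τ).2 V G hG.tree _ (isWin_ball hG.tree v N) θ hθ0 h1' v ((mem_ball hG.tree).2 (by simp))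

/-! ### The moment inequality in infinite volume -/

theorem XM_ball_bound (hT : G.IsTree) {p : ℕ} {θ : ℝ} (h0 : 0 ≤ θ) (h1 : θ < 1) {κ : ℝ → ℝ} (hκ : IsStrength κ)
    {v y : V} {N : ℕ} (hy : G.dist v y ≤ N) (τ : ℝ) (s : (V → ℝ) × (V → ℝ)) :
    |XM p G θ (ball G v N) κ v y τ s| ≤
      (24 * p ^ 2 * (1 / 4) * (1 + 24 * p * (1 / 4)) ^ (p - 1)) * θ ^ (2 * G.dist v y) := by
  obtain ⟨hnn, _⟩ := XM_bounds (G := G) (W := ball G v N) (p := p) h0 h1 hκ v y τ s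
  rw [abs_of_nonneg hnn]
  have hκ2 : κ τ ^ 2 ≤ 1 / 4 := by nlinarith [hκ.nonneg τ, hκ.le τ]
  have hm : gm G θ (ball G v N) s.1 v ^ 2 ≤ 1 := sq_le_one_of_abs (abs_gm_le h0 h1 _ _)
  have hc : gcov G θ (ball G v N) s.1 v y ^ 2 ≤ θ ^ (2 * G.dist v y) := by
    rw [← sq_abs]
    calc _ ≤ (θ ^ G.dist v y) ^ 2 := pow_le_pow_left₀ (abs_nonneg _) (abs_gcov_ball_le hT h0 h1 s.1 hy) 2
      _ = _ := by rw [← pow_mul, mul_comm]
  unfold XM
  gcongr

theorem abs_sum_ball_le (hT : G.IsTree) (v : V) {a : V → ℝ} {b : ℕ → ℝ} {N : ℕ} (hb0 : ∀ r, 0 ≤ b r)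
    (hs : Summable fun r => ((sphere G v r).card : ℝ) * b r)
    (hab : ∀ r y, r ≤ N → y ∈ sphere G v r → |a y| ≤ b r) :
    |∑ z ∈ ball G v N, a z| ≤ ∑' r, ((sphere G v r).card : ℝ) * b r := by
  rw [sum_ball_eq_sum_sphere hT]
  calc |∑ r ∈ Finset.range (N + 1), ∑ y ∈ sphere G v r, a y|
      ≤ ∑ r ∈ Finset.range (N + 1), |∑ y ∈ sphere G v r, a y| := Finset.abs_sum_le_sum_abs _ _
    _ ≤ ∑ r ∈ Finset.range (N + 1), ((sphere G v r).card : ℝ) * b r := by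
        refine Finset.sum_le_sum fun r hr => ?_
        calc |∑ y ∈ sphere G v r, a y| ≤ ∑ y ∈ sphere G v r, |a y| := Finset.abs_sum_le_sum_abs _ _
          _ ≤ ∑ _y ∈ sphere G v r, b r := Finset.sum_le_sum fun y hy =>
              hab r y (Nat.lt_succ_iff.1 (Finset.mem_range.1 hr)) hy
          _ = _ := by rw [Finset.sum_const, nsmul_eq_mul]
    _ ≤ ∑' r, ((sphere G v r).card : ℝ) * b r :=
        hs.sum_le_tsum _ fun r _ => mul_nonneg (Nat.cast_nonneg _) (hb0 r)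

theorem ae_tendsto_sum_XM (hG : Tree G d) {θ : ℝ} (h0 : 0 ≤ θ) (hθ : θ ^ 2 * ((d : ℝ) - 1) < 1) {κ : ℝ → ℝ}
    (hκ : IsStrength κ) (s : ℝ) (v : V) (p : ℕ) :
    ∀ᵐ ω ∂(PP V), Tendsto (fun N => ∑ z ∈ ball G v N, XM p G θ (ball G v N) κ v z s
        (field G θ κ (ball G v N) ω s, field G θ κ (ball G v N) ω s)) atTop
      (𝓝 (24 * p ^ 2 * κ s ^ 2 * ((mInf G θ κ ω s v ^ 2 + 24 * p * κ s ^ 2) ^ (p - 1) *
        ∑' r, ∑ y ∈ sphere G v r, covI G θ κ ω s v y ^ 2))) := by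
  have h1 := theta_lt_one hG h0 hθ
  have hT := hG.tree
  have hc : ∀ᵐ ω ∂(PP V), ∀ r : ℕ, ∀ y ∈ sphere G v r,
      Tendsto (fun N => gcov G θ (ball G v N) (field G θ κ (ball G v N) ω s) v y) atTop
        (𝓝 (covI G θ κ ω s v y)) := by
    rw [ae_all_iff]
    intro r
    exact (Filter.eventually_all_finset _).2 fun y _ => ae_tendsto_gcov hG h0 hθ hκ s v y
  filter_upwards [hc, ae_tendsto_ball hG h0 hθ hκ s v v] with ω hc hm
  set B : ℝ := 24 * p ^ 2 * (1 / 4) * (1 + 24 * p * (1 / 4)) ^ (p - 1) with hB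
  have hB0 : 0 ≤ B := by positivity
  have key := tendsto_sum_ball (a := fun N z => XM p G θ (ball G v N) κ v z s
        (field G θ κ (ball G v N) ω s, field G θ κ (ball G v N) ω s))
      (A := fun y => 24 * p ^ 2 * κ s ^ 2 * (mInf G θ κ ω s v ^ 2 + 24 * p * κ s ^ 2) ^ (p - 1) *
        covI G θ κ ω s v y ^ 2)
      (b := fun r => B * θ ^ (2 * r)) hT v (fun r => by positivity)
      (summable_card_sphere hG v h0 hθ B)
      (fun N r y hr hy => by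
        have hdy : G.dist v y = r := (mem_sphere_iff hT).1 hy
        have := XM_ball_bound (p := p) hT h0 h1 hκ (y := y) (v := v) (N := N) (by omega) s
          (field G θ κ (ball G v N) ω s, field G θ κ (ball G v N) ω s)
        rwa [hdy] at this)
      (fun r y hy => by
        unfold XM
        exact ((tendsto_const_nhds.mul ((hm.pow 2).add tendsto_const_nhds |>.pow _))).mul
          ((hc r y hy).pow 2))
  convert key using 2
  simp_rw [← Finset.mul_sum]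
  rw [tsum_mul_left]
  ring

theorem tendsto_int_sum_XM (hG : Tree G d) {θ : ℝ} (h0 : 0 ≤ θ) (hθ : θ ^ 2 * ((d : ℝ) - 1) < 1) {κ : ℝ → ℝ}
    (hκ : IsStrength κ) (s : ℝ) (v : V) (p : ℕ) :
    Tendsto (fun N => ∫ ω, ∑ z ∈ ball G v N, XM p G θ (ball G v N) κ v z s
        (field G θ κ (ball G v N) ω s, field G θ κ (ball G v N) ω s) ∂(PP V)) atTop
      (𝓝 (24 * p ^ 2 * κ s ^ 2 * ∫ ω, (mInf G θ κ ω s v ^ 2 + 24 * p * κ s ^ 2) ^ (p - 1) *
        (∑' r, ∑ y ∈ sphere G v r, covI G θ κ ω s v y ^ 2) ∂(PP V))) := by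
  have h1 := theta_lt_one hG h0 hθ
  have hT := hG.tree
  rw [← integral_const_mul]
  set B : ℝ := 24 * p ^ 2 * (1 / 4) * (1 + 24 * p * (1 / 4)) ^ (p - 1) with hB
  have hB0 : 0 ≤ B := by positivity
  refine tendsto_integral_of_ae_bdd (C := ∑' r, ((sphere G v r).card : ℝ) * (B * θ ^ (2 * r)))
    (fun N => ?_) (fun N ω => ?_) (ae_tendsto_sum_XM hG h0 hθ hκ s v p)
  · exact measurable_fields_om (Φ := fun q => ∑ z ∈ ball G v N, XM p G θ (ball G v N) κ v z q.1 q.2)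
      hκ.meas hκ.meas (Finset.measurable_sum _ fun z _ => measurable_XM hκ.meas v z)
  · refine abs_sum_ball_le hT v (fun r => by positivity) (summable_card_sphere hG v h0 hθ B)
      fun r y hr hy => ?_
    have hdy : G.dist v y = r := (mem_sphere_iff hT).1 hy
    have := XM_ball_bound (p := p) hT h0 h1 hκ (y := y) (v := v) (N := N) (by omega) s
      (field G θ κ (ball G v N) ω s, field G θ κ (ball G v N) ω s)
    rwa [hdy] at this

/-- The moment inequality. -/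
theorem moment_increment (hG : Tree G d) : ∃ K : ℝ, 0 < K ∧ ∀ {θ : ℝ} {κ : ℝ → ℝ} (_ : 0 ≤ θ)
    (_ : θ ^ 2 * ((d : ℝ) - 1) < 1) (_ : IsStrength κ) {τ : ℝ} (_ : 0 ≤ τ) (v : V) (p : ℕ) (_ : 1 ≤ p),
    ∫ ω, mInf G θ κ ω τ v ^ (2 * p) ∂(PP V) ≤
      ∫ s in (0 : ℝ)..τ, K * p ^ 2 * κ s ^ 2 *
        ∫ ω, (mInf G θ κ ω s v ^ 2 + K * p * κ s ^ 2) ^ (p - 1) *
          (∑' r, ∑ y ∈ sphere G v r, covI G θ κ ω s v y ^ 2) ∂(PP V) := by
  refine ⟨24, by norm_num, ?_⟩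
  intro θ κ h0 hθ hκ τ hτ v p hp
  have h1 := theta_lt_one hG h0 hθ
  have hT := hG.tree
  have hL := (tendsto_int_moment hG h0 hθ hκ τ v p).sub (tendsto_int_moment hG h0 hθ hκ 0 v p)
  have hz : ∫ ω, mInf G θ κ ω 0 v ^ (2 * p) ∂(PP V) = 0 := by
    have : ∀ ω : Om V, mInf G θ κ ω 0 v ^ (2 * p) = 0 := fun ω => by
      rw [mInf_zero hG h0 h1 ω v, zero_pow (by omega)]
    simp [this]
  rw [hz, sub_zero] at hL
  set B : ℝ := 24 * p ^ 2 * (1 / 4) * (1 + 24 * p * (1 / 4)) ^ (p - 1) with hB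
  have hB0 : 0 ≤ B := by positivity
  set M : ℝ := ∑' r, ((sphere G v r).card : ℝ) * (B * θ ^ (2 * r)) with hM
  have hmf : ∀ (N : ℕ) (z : V) (τ : ℝ), Measurable fun ω : Om V => XM p G θ (ball G v N) κ v z τ
      (field G θ κ (ball G v N) ω τ, field G θ κ (ball G v N) ω τ) := fun N z τ =>
    measurable_fields_om (Φ := fun q => XM p G θ (ball G v N) κ v z q.1 q.2) hκ.meas hκ.meas
      (measurable_XM hκ.meas v z)
  have hbd : ∀ (N : ℕ) (z : V) (τ : ℝ) (ω : Om V), |XM p G θ (ball G v N) κ v z τ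
      (field G θ κ (ball G v N) ω τ, field G θ κ (ball G v N) ω τ)| ≤ B * 1 := fun N z τ ω => by
    obtain ⟨a', b'⟩ := XM_bounds (G := G) (W := ball G v N) (p := p) h0 h1 hκ v z τ
      (field G θ κ (ball G v N) ω τ, field G θ κ (ball G v N) ω τ)
    rw [abs_of_nonneg a']
    exact b'
  have hmeasa : ∀ N z, Measurable fun τ => ∫ ω, XM p G θ (ball G v N) κ v z τ
      (field G θ κ (ball G v N) ω τ, field G θ κ (ball G v N) ω τ) ∂(PP V) := fun N z =>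
    measurable_integral_fields (Φ := fun q => XM p G θ (ball G v N) κ v z q.1 q.2) hκ.meas hκ.meas
      (measurable_XM hκ.meas v z)
  have hbda : ∀ N τ z, |∫ ω, XM p G θ (ball G v N) κ v z τ
      (field G θ κ (ball G v N) ω τ, field G θ κ (ball G v N) ω τ) ∂(PP V)| ≤ B * 1 := fun N τ z => by
    have := norm_integral_le_of_norm_le_const (μ := PP V) (f := fun ω => XM p G θ (ball G v N) κ v z τ
        (field G θ κ (ball G v N) ω τ, field G θ κ (ball G v N) ω τ)) (C := B * 1)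
      (Eventually.of_forall fun ω => by rw [Real.norm_eq_abs]; exact hbd N z τ ω)
    simpa [Real.norm_eq_abs] using this
  have hint : ∀ N z, IntervalIntegrable (fun τ => ∫ ω, XM p G θ (ball G v N) κ v z τ
      (field G θ κ (ball G v N) ω τ, field G θ κ (ball G v N) ω τ) ∂(PP V)) volume 0 τ := fun N z =>
    intervalIntegrable_of_bdd (hmeasa N z) (fun τ => hbda N τ z) _ _
  have hswap : ∀ N, ∑ z ∈ ball G v N, ∫ τ in (0 : ℝ)..τ, ∫ ω, XM p G θ (ball G v N) κ v z τ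
        (field G θ κ (ball G v N) ω τ, field G θ κ (ball G v N) ω τ) ∂(PP V) =
      ∫ τ in (0 : ℝ)..τ, ∫ ω, ∑ z ∈ ball G v N, XM p G θ (ball G v N) κ v z τ
        (field G θ κ (ball G v N) ω τ, field G θ κ (ball G v N) ω τ) ∂(PP V) := fun N => by
    rw [← intervalIntegral.integral_finsetSum fun z _ => hint N z]
    refine intervalIntegral.integral_congr fun s _ => ?_
    exact (integral_finsetSum _ fun z _ =>
      integrable_of_bdd (hmf N z s) (hbd N z s)).symm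
  have hR : Tendsto (fun N => ∑ z ∈ ball G v N, ∫ τ in (0 : ℝ)..τ, ∫ ω, XM p G θ (ball G v N) κ v z τ
        (field G θ κ (ball G v N) ω τ, field G θ κ (ball G v N) ω τ) ∂(PP V)) atTop
      (𝓝 (∫ s in (0 : ℝ)..τ, 24 * p ^ 2 * κ s ^ 2 *
        ∫ ω, (mInf G θ κ ω s v ^ 2 + 24 * p * κ s ^ 2) ^ (p - 1) *
          (∑' r, ∑ y ∈ sphere G v r, covI G θ κ ω s v y ^ 2) ∂(PP V))) := by
    simp_rw [hswap]
    refine intervalIntegral.tendsto_integral_filter_of_dominated_convergence (fun _ => M) ?_ ?_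
      intervalIntegrable_const ?_
    · refine Eventually.of_forall fun N => ?_
      exact (measurable_integral_fields (Φ := fun q => ∑ z ∈ ball G v N, XM p G θ (ball G v N) κ v z q.1 q.2)
        hκ.meas hκ.meas (Finset.measurable_sum _ fun z _ => measurable_XM hκ.meas v z)).aestronglyMeasurable
    · refine Eventually.of_forall fun N => Eventually.of_forall fun s _ => ?_
      have := norm_integral_le_of_norm_le_const (μ := PP V) (f := fun ω => ∑ z ∈ ball G v N,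
          XM p G θ (ball G v N) κ v z s (field G θ κ (ball G v N) ω s, field G θ κ (ball G v N) ω s)) (C := M)
        (Eventually.of_forall fun ω => by
          rw [Real.norm_eq_abs]
          refine abs_sum_ball_le hT v (fun r => by positivity) (summable_card_sphere hG v h0 hθ B)
            fun r y hr hy => ?_
          have hdy : G.dist v y = r := (mem_sphere_iff hT).1 hy
          have := XM_ball_bound (p := p) hT h0 h1 hκ (y := y) (v := v) (N := N) (by omega) s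
            (field G θ κ (ball G v N) ω s, field G θ κ (ball G v N) ω s)
          rwa [hdy] at this)
      simpa [Real.norm_eq_abs] using this
    · exact Eventually.of_forall fun s _ => tendsto_int_sum_XM hG h0 hθ hκ s v p
  exact le_of_tendsto_of_tendsto' hL hR fun N => window_moment h0 h1 hκ le_rfl hτ v hp

/-! ### The law of the signs in infinite volume -/

theorem measurableSet_sign_event {f : V → Om V → ℝ} (hf : ∀ v, Measurable (f v)) (S : Finset V) (η : V → Bool) :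
    MeasurableSet {ω | ∀ v ∈ S, (0 < f v ω ↔ η v = true)} := by
  have : {ω | ∀ v ∈ S, (0 < f v ω ↔ η v = true)} = ⋂ v ∈ S, {ω | 0 < f v ω ↔ η v = true} := by
    ext ω; simp
  rw [this]
  refine Finset.measurableSet_biInter _ fun v _ => ?_
  have h0 : MeasurableSet {ω | 0 < f v ω} := measurableSet_lt measurable_const (hf v)
  cases h : η v
  · have : {ω | 0 < f v ω ↔ false = true} = {ω | 0 < f v ω}ᶜ := by ext ω; simp
    rw [this]; exact h0.compl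
  · have : {ω | 0 < f v ω ↔ true = true} = {ω | 0 < f v ω} := by ext ω; simp
    rw [this]; exact h0

theorem sign_law_mInf (hG : Tree G d) {S : Finset V} (hS : IsWin G S) {θ : ℝ} {κ : ℝ → ℝ} (hθ0 : 0 ≤ θ)
    (hθ : θ ^ 2 * ((d : ℝ) - 1) < 1) (hκ : IsStrength κ) (τ : ℝ) (η : V → Bool) :
    |((PP V) {ω | ∀ v ∈ S, (0 < mInf G θ κ ω τ v ↔ η v = true)}).toReal -
        Crest.ProbabilityR.TreeIsing.isingWeight G θ S η| ≤
      4 * ∑ v ∈ S, ∫ ω, (1 - mInf G θ κ ω τ v ^ 2) ∂(PP V) := by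
  classical
  have h1 := theta_lt_one hG hθ0 hθ
  have hT := hG.tree
  obtain ⟨o, hoS⟩ : S.Nonempty := hS.nonempty
  -- the events
  set A : Set (Om V) := {ω | ∀ v ∈ S, (0 < mInf G θ κ ω τ v ↔ η v = true)} with hA
  set AN : ℕ → Set (Om V) := fun N => {ω | ∀ v ∈ S, (0 < mW G θ κ (ball G o N) ω τ v ↔ η v = true)} with hAN
  set Z : Set (Om V) := ⋃ v ∈ S, {ω | mInf G θ κ ω τ v = 0} with hZ
  set w := Crest.ProbabilityR.TreeIsing.isingWeight G θ S η with hw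
  set E := ∑ v ∈ S, ∫ ω, (1 - mInf G θ κ ω τ v ^ 2) ∂(PP V) with hE
  have hmA : MeasurableSet A := measurableSet_sign_event (f := fun v ω => mInf G θ κ ω τ v)
    (fun v => measurable_mInf_om hκ.meas v) S η
  have hmAN : ∀ N, MeasurableSet (AN N) := fun N =>
    measurableSet_sign_event (f := fun v ω => mW G θ κ (ball G o N) ω τ v)
      (fun v => measurable_mW_om hκ.meas v) S η
  have hmZ1 : ∀ v, MeasurableSet {ω | mInf G θ κ ω τ v = 0} := fun v =>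
    measurableSet_eq_fun (measurable_mInf_om hκ.meas v) measurable_const
  have hmZ : MeasurableSet Z := Finset.measurableSet_biUnion _ fun v _ => hmZ1 v
  have hnn : ∀ v (ω : Om V), 0 ≤ 1 - mInf G θ κ ω τ v ^ 2 := fun v ω => by
    have := sq_le_one_of_abs (abs_mInf_le (κ := κ) hG hθ0 h1 ω τ v)
    linarith
  have hintm : ∀ v, Integrable (fun ω : Om V => 1 - mInf G θ κ ω τ v ^ 2) (PP V) := fun v =>
    integrable_of_bdd (C := 1) (measurable_const.sub ((measurable_mInf_om hκ.meas v).pow_const 2)) fun ω => by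
      have := sq_le_one_of_abs (abs_mInf_le (κ := κ) hG hθ0 h1 ω τ v)
      rw [abs_of_nonneg (by linarith)]
      linarith [sq_nonneg (mInf G θ κ ω τ v)]
  -- `Z` has small measure
  have hZ1 : ∀ v, (PP V).real {ω | mInf G θ κ ω τ v = 0} ≤ ∫ ω, (1 - mInf G θ κ ω τ v ^ 2) ∂(PP V) := by
    intro v
    rw [← integral_indicator_one (hmZ1 v)]
    refine integral_mono ((integrable_const (1 : ℝ)).indicator (hmZ1 v)) (hintm v) fun ω => ?_
    by_cases h : ω ∈ {ω | mInf G θ κ ω τ v = 0}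
    · simp only [Set.indicator_of_mem h, Pi.one_apply]
      have h' : mInf G θ κ ω τ v = 0 := h
      simp [h']
    · simp only [Set.indicator_of_notMem h]
      exact hnn v ω
  have hZE : (PP V).real Z ≤ E :=
    (measureReal_biUnion_finset_le _ _).trans (Finset.sum_le_sum fun v _ => hZ1 v)
  have hE0 : 0 ≤ E := Finset.sum_nonneg fun v _ => integral_nonneg fun ω => hnn v ω
  -- the window approximations
  obtain ⟨N₀, hN₀⟩ : ∃ N₀ : ℕ, ∀ v ∈ S, G.dist o v ≤ N₀ := by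
    refine ⟨S.sup fun v => G.dist o v, fun v hv => ?_⟩
    exact Finset.le_sup (f := fun v => G.dist o v) hv
  have hSN : ∀ N, N₀ ≤ N → S ⊆ ball G o N := fun N hN v hv =>
    (mem_ball hT).2 ((hN₀ v hv).trans hN)
  have happ : ∀ N, N₀ ≤ N → |(PP V).real (AN N) - w| ≤
      ∑ v ∈ S, ∫ ω, (1 - mW G θ κ (ball G o N) ω τ v ^ 2) ∂(PP V) := fun N hN =>
    sign_law_approx hT (isWin_ball hT o N) hS (hSN N hN) hθ0 h1 hκ τ η
  have hElim : Tendsto (fun N => ∑ v ∈ S, ∫ ω, (1 - mW G θ κ (ball G o N) ω τ v ^ 2) ∂(PP V)) atTop (𝓝 E) := by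
    refine tendsto_finsetSum _ fun v _ => ?_
    refine tendsto_integral_of_ae_bdd (C := 1) (fun N => ?_) (fun N ω => ?_) ?_
    · exact measurable_const.sub ((measurable_mW_om hκ.meas v).pow_const 2)
    · have h3 := sq_le_one_of_abs (abs_mW_le (G := G) (W := ball G o N) (κ := κ) (τ := τ) hθ0 h1 ω v)
      rw [abs_of_nonneg (by linarith)]
      linarith [sq_nonneg (mW G θ κ (ball G o N) ω τ v)]
    · filter_upwards [ae_tendsto_ball hG hθ0 hθ hκ τ o v] with ω h5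
      exact tendsto_const_nhds.sub (h5.pow 2)
  -- convergence of the events off `Z`
  have hlim : Tendsto (fun N => (PP V).real (AN N ∩ Zᶜ)) atTop (𝓝 ((PP V).real (A ∩ Zᶜ))) := by
    have hms : ∀ N, MeasurableSet (AN N ∩ Zᶜ) := fun N => (hmAN N).inter hmZ.compl
    have hms' : MeasurableSet (A ∩ Zᶜ) := hmA.inter hmZ.compl
    simp_rw [← integral_indicator_one (hms _)]
    rw [← integral_indicator_one hms']
    refine tendsto_integral_of_ae_bdd (C := 1) (fun N => measurable_const.indicator (hms N)) (fun N ω => ?_) ?_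
    · by_cases h : ω ∈ AN N ∩ Zᶜ <;> simp [h]
    · have hae : ∀ᵐ ω ∂(PP V), ∀ v ∈ S, Tendsto (fun N => mW G θ κ (ball G o N) ω τ v) atTop
          (𝓝 (mInf G θ κ ω τ v)) :=
        (Filter.eventually_all_finset _).2 fun v _ => ae_tendsto_ball hG hθ0 hθ hκ τ o v
      filter_upwards [hae] with ω hω
      by_cases hzω : ω ∈ Z
      · have h1 : ∀ N, ω ∉ AN N ∩ Zᶜ := fun N h => h.2 hzω
        have h2 : ω ∉ A ∩ Zᶜ := fun h => h.2 hzω
        simp [h1, h2]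
      · have hne : ∀ v ∈ S, mInf G θ κ ω τ v ≠ 0 := fun v hv h0 =>
          hzω (Set.mem_biUnion (Finset.mem_coe.2 hv) h0)
        have hev : ∀ᶠ N in atTop, ∀ v ∈ S, (0 < mW G θ κ (ball G o N) ω τ v ↔ 0 < mInf G θ κ ω τ v) := by
          refine (Filter.eventually_all_finset _).2 fun v hv => ?_
          rcases lt_or_gt_of_ne (hne v hv) with h | h
          · filter_upwards [(hω v hv).eventually (gt_mem_nhds h)] with N hN
            exact ⟨fun h' => absurd h' (by linarith), fun h' => absurd h' (by linarith)⟩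
          · filter_upwards [(hω v hv).eventually (lt_mem_nhds h)] with N hN
            exact ⟨fun _ => h, fun _ => hN⟩
        refine tendsto_const_nhds.congr' ?_
        filter_upwards [hev] with N hN
        have : ω ∈ AN N ↔ ω ∈ A :=
          ⟨fun h v hv => (hN v hv).symm.trans (h v hv), fun h v hv => (hN v hv).trans (h v hv)⟩
        by_cases hA' : ω ∈ A
        · have h1 : ω ∈ A ∩ Zᶜ := ⟨hA', hzω⟩
          have h2 : ω ∈ AN N ∩ Zᶜ := ⟨this.2 hA', hzω⟩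
          simp [h1, h2]
        · have h1 : ω ∉ A ∩ Zᶜ := fun h => hA' h.1
          have h2 : ω ∉ AN N ∩ Zᶜ := fun h => hA' (this.1 h.1)
          simp [h1, h2]
  -- comparison of the events with their restrictions off `Z`
  have hcut : ∀ B : Set (Om V), MeasurableSet B → |(PP V).real B - (PP V).real (B ∩ Zᶜ)| ≤ (PP V).real Z := by
    intro B hB
    have h1 : (PP V).real (B ∩ Zᶜ) ≤ (PP V).real B := measureReal_mono Set.inter_subset_left
    have h2 : (PP V).real B ≤ (PP V).real (B ∩ Zᶜ) + (PP V).real Z := by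
      refine (measureReal_mono ?_).trans (measureReal_union_le _ _)
      intro ω hω
      by_cases h : ω ∈ Z
      · exact Or.inr h
      · exact Or.inl ⟨hω, h⟩
    rw [abs_of_nonneg (by linarith)]
    linarith
  have hfin : ∀ N, N₀ ≤ N → |(PP V).real A - w| ≤
      (PP V).real Z + |(PP V).real (A ∩ Zᶜ) - (PP V).real (AN N ∩ Zᶜ)| + (PP V).real Z +
        ∑ v ∈ S, ∫ ω, (1 - mW G θ κ (ball G o N) ω τ v ^ 2) ∂(PP V) := by
    intro N hN
    have e1 := hcut A hmA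
    have e2 := hcut (AN N) (hmAN N)
    have e3 := happ N hN
    rw [abs_le] at e1 e2 e3 ⊢
    have e4 := neg_abs_le ((PP V).real (A ∩ Zᶜ) - (PP V).real (AN N ∩ Zᶜ))
    have e5 := le_abs_self ((PP V).real (A ∩ Zᶜ) - (PP V).real (AN N ∩ Zᶜ))
    constructor <;> linarith [e1.1, e1.2, e2.1, e2.2, e3.1, e3.2]
  have hlim2 : Tendsto (fun N => (PP V).real Z + |(PP V).real (A ∩ Zᶜ) - (PP V).real (AN N ∩ Zᶜ)| + (PP V).real Z +
      ∑ v ∈ S, ∫ ω, (1 - mW G θ κ (ball G o N) ω τ v ^ 2) ∂(PP V)) atTop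
      (𝓝 ((PP V).real Z + |(PP V).real (A ∩ Zᶜ) - (PP V).real (A ∩ Zᶜ)| + (PP V).real Z + E)) :=
    ((tendsto_const_nhds.add ((tendsto_const_nhds.sub hlim).abs)).add tendsto_const_nhds).add hElim
  have hfinal : |(PP V).real A - w| ≤
      (PP V).real Z + |(PP V).real (A ∩ Zᶜ) - (PP V).real (A ∩ Zᶜ)| + (PP V).real Z + E :=
    ge_of_tendsto hlim2 ((eventually_ge_atTop N₀).mono hfin)
  rw [sub_self, abs_zero] at hfinal
  have : |(PP V).real A - w| ≤ 4 * E := by linarith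
  exact this

end Incr

/-! ### The exported statements -/

theorem pair_increment (hG : Tree G d) : ∃ K : ℝ, 0 < K ∧ ∀ {θ θ' : ℝ} {κ : ℝ → ℝ} (_ : 0 ≤ θ) (_ : 0 ≤ θ')
    (_ : θ ^ 2 * ((d : ℝ) - 1) < 1) (_ : θ' ^ 2 * ((d : ℝ) - 1) < 1) (_ : IsStrength κ) {τ₁ τ₂ : ℝ}
    (_ : 0 ≤ τ₁) (_ : τ₁ ≤ τ₂) (v : V),
    (∫ ω, (mInf G θ κ ω τ₂ v - mInf G θ' κ ω τ₂ v) ^ 2 ∂(PP V)) -
        ∫ ω, (mInf G θ κ ω τ₁ v - mInf G θ' κ ω τ₁ v) ^ 2 ∂(PP V) ≤
      ∫ τ in τ₁..τ₂, ∑' r, ∑ y ∈ sphere G v r, ∫ ω, Xp K G θ θ' κ ω τ v y ∂(PP V) :=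
  Incr.pair_increment hG

/-- `S` is nondecreasing in time. -/
theorem pair_mono (hG : Tree G d) {θ θ' : ℝ} {κ : ℝ → ℝ} (h0 : 0 ≤ θ) (h0' : 0 ≤ θ')
    (hθ : θ ^ 2 * ((d : ℝ) - 1) < 1) (hθ' : θ' ^ 2 * ((d : ℝ) - 1) < 1) (hκ : IsStrength κ) {τ₁ τ₂ : ℝ}
    (h01 : 0 ≤ τ₁) (h12 : τ₁ ≤ τ₂) (v : V) :
    ∫ ω, (mInf G θ κ ω τ₁ v - mInf G θ' κ ω τ₁ v) ^ 2 ∂(PP V) ≤
      ∫ ω, (mInf G θ κ ω τ₂ v - mInf G θ' κ ω τ₂ v) ^ 2 ∂(PP V) :=
  Incr.pair_mono hG h0 h0' hθ hθ' hκ h01 h12 v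

/-- The moment inequality. -/
theorem moment_increment (hG : Tree G d) : ∃ K : ℝ, 0 < K ∧ ∀ {θ : ℝ} {κ : ℝ → ℝ} (_ : 0 ≤ θ)
    (_ : θ ^ 2 * ((d : ℝ) - 1) < 1) (_ : IsStrength κ) {τ : ℝ} (_ : 0 ≤ τ) (v : V) (p : ℕ) (_ : 1 ≤ p),
    ∫ ω, mInf G θ κ ω τ v ^ (2 * p) ∂(PP V) ≤
      ∫ s in (0 : ℝ)..τ, K * p ^ 2 * κ s ^ 2 *
        ∫ ω, (mInf G θ κ ω s v ^ 2 + K * p * κ s ^ 2) ^ (p - 1) *
          (∑' r, ∑ y ∈ sphere G v r, covI G θ κ ω s v y ^ 2) ∂(PP V) :=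
  Incr.moment_increment hG

/-- Moments increase in time. -/
theorem moment_mono (hG : Tree G d) {θ : ℝ} {κ : ℝ → ℝ} (h0 : 0 ≤ θ)
    (hθ : θ ^ 2 * ((d : ℝ) - 1) < 1) (hκ : IsStrength κ) {τ₁ τ₂ : ℝ} (h01 : 0 ≤ τ₁) (h12 : τ₁ ≤ τ₂) (v : V)
    (p : ℕ) : ∫ ω, mInf G θ κ ω τ₁ v ^ (2 * p) ∂(PP V) ≤ ∫ ω, mInf G θ κ ω τ₂ v ^ (2 * p) ∂(PP V) :=
  Incr.moment_mono hG h0 hθ hκ h01 h12 v p

/-- Martingale in time. -/
theorem mInf_time (hG : Tree G d) {θ : ℝ} {κ : ℝ → ℝ} (hθ0 : 0 ≤ θ) (hθ : θ ^ 2 * ((d : ℝ) - 1) < 1)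
    (hκ : IsStrength κ) {τ₁ τ₂ : ℝ} (h01 : 0 ≤ τ₁) (h12 : τ₁ ≤ τ₂) (v : V) :
    ∫ ω, (mInf G θ κ ω τ₂ v - mInf G θ κ ω τ₁ v) ^ 2 ∂(PP V) ≤ ∫ ω, (1 - mInf G θ κ ω τ₁ v ^ 2) ∂(PP V) :=
  Incr.mInf_time hG hθ0 hθ hκ h01 h12 v

/-- Own-site bound in infinite volume, uniform in `θ`. -/
theorem exists_own_bound_mInf {ε : ℝ} (h0 : 0 < ε) (h1 : ε ≤ 1 / 2) :
    ∃ δ : ℝ → ℝ, Tendsto δ atTop (𝓝 0) ∧ ∀ τ, 0 ≤ δ τ ∧
      ∀ (V : Type _) [DecidableEq V] (G : SimpleGraph V) [G.LocallyFinite] (d : ℕ) (_ : Tree G d) (θ : ℝ)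
        (_ : 0 ≤ θ) (_ : θ ^ 2 * ((d : ℝ) - 1) < 1) (v : V),
        ∫ ω, (1 - mInf G θ (kap ε) ω τ v ^ 2) ∂(PP V) ≤ δ τ :=
  Incr.exists_own_bound_mInf h0 h1

theorem sign_law_mInf (hG : Tree G d) {S : Finset V} (hS : IsWin G S) {θ : ℝ} {κ : ℝ → ℝ} (hθ0 : 0 ≤ θ)
    (hθ : θ ^ 2 * ((d : ℝ) - 1) < 1) (hκ : IsStrength κ) (τ : ℝ) (η : V → Bool) :
    |((PP V) {ω | ∀ v ∈ S, (0 < mInf G θ κ ω τ v ↔ η v = true)}).toReal -
        Crest.ProbabilityR.TreeIsing.isingWeight G θ S η| ≤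
      4 * ∑ v ∈ S, ∫ ω, (1 - mInf G θ κ ω τ v ^ 2) ∂(PP V) :=
  Incr.sign_law_mInf hG hS hθ0 hθ hκ τ η

end Crest.Agent.Lib.IsingFIID
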