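/-
Row 160 (S0241): passing to the limit under `L²` convergence of uniformly bounded functions on a
probability space.  No Ising here.
-/
import Mathlib

set_option autoImplicit false
set_option linter.unusedSectionVars false

namespace Crest.Agent.Lib.IsingFIID

open MeasureTheory Filter Topology

variable {Ω : Type*} [MeasurableSpace Ω] {μ : Measure Ω} [IsProbabilityMeasure μ]

theorem integrable_of_bdd {f : Ω → ℝ} (hf : Measurable f) {M : ℝ} (hb : ∀ x, |f x| ≤ M) :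
    Integrable f μ :=
  Integrable.of_bound hf.aestronglyMeasurable M (Eventually.of_forall fun x => by simpa using hb x)

/-- Cauchy-Schwarz: `(∫ f)² ≤ ∫ f²`. -/
theorem sq_integral_le {f : Ω → ℝ} (hf : Measurable f) {M : ℝ} (hb : ∀ x, |f x| ≤ M) :
    (∫ x, f x ∂μ) ^ 2 ≤ ∫ x, f x ^ 2 ∂μ := by
  have hi : Integrable f μ := integrable_of_bdd hf hb
  have hi2 : Integrable (fun x => f x ^ 2) μ :=
    integrable_of_bdd (M := M ^ 2) (hf.pow_const 2) fun x => by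
      rw [abs_pow]
      exact pow_le_pow_left₀ (abs_nonneg _) (hb x) 2
  set c := ∫ x, f x ∂μ with hc
  have h0 : 0 ≤ ∫ x, (f x - c) ^ 2 ∂μ := integral_nonneg fun _ => sq_nonneg _
  have h1 : ∫ x, (f x - c) ^ 2 ∂μ = ∫ x, f x ^ 2 ∂μ - c ^ 2 := by
    have e : ∀ x, (f x - c) ^ 2 = f x ^ 2 - 2 * c * f x + c ^ 2 := fun x => by ring
    simp_rw [e]
    have h2 : ∫ x, (f x ^ 2 - 2 * c * f x + c ^ 2) ∂μ =
        ∫ x, (f x ^ 2 - 2 * c * f x) ∂μ + ∫ _x, c ^ 2 ∂μ :=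
      integral_add (f := fun x => f x ^ 2 - 2 * c * f x) (hi2.sub (hi.const_mul _)) (integrable_const _)
    have h3 : ∫ x, (f x ^ 2 - 2 * c * f x) ∂μ = ∫ x, f x ^ 2 ∂μ - ∫ x, 2 * c * f x ∂μ :=
      integral_sub (f := fun x => f x ^ 2) hi2 (hi.const_mul _)
    rw [h2, h3, integral_const_mul, ← hc]
    simp
    ring
  linarith

/-- `∫ |f| ≤ √(∫ f²)`. -/
theorem l2_integral_abs_le_sqrt {f : Ω → ℝ} (hf : Measurable f) {M : ℝ} (hb : ∀ x, |f x| ≤ M) :
    ∫ x, |f x| ∂μ ≤ Real.sqrt (∫ x, f x ^ 2 ∂μ) := by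
  have := sq_integral_le (μ := μ) (f := fun x => |f x|) hf.abs (M := M) (fun x => by simpa using hb x)
  simp only [sq_abs] at this
  exact Real.le_sqrt_of_sq_le this

/-- The basic limit: a Lipschitz function (on the bounded range) of an `L²`-convergent sequence. -/
theorem tendsto_integral_comp_of_L2 {F : ℕ → Ω → ℝ} {f : Ω → ℝ} {φ : ℝ → ℝ} {L M : ℝ}
    (hF : ∀ N, Measurable (F N)) (hf : Measurable f) (hφ : Measurable φ)
    (hFb : ∀ N x, |F N x| ≤ M) (hfb : ∀ x, |f x| ≤ M) (hL : 0 ≤ L)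
    (hLip : ∀ a b, |a| ≤ M → |b| ≤ M → |φ a - φ b| ≤ L * |a - b|)
    (h : Tendsto (fun N => ∫ x, (F N x - f x) ^ 2 ∂μ) atTop (𝓝 0)) :
    Tendsto (fun N => ∫ x, φ (F N x) ∂μ) atTop (𝓝 (∫ x, φ (f x) ∂μ)) := by
  have hne : Nonempty Ω := nonempty_of_isProbabilityMeasure μ
  have hM : 0 ≤ M := (abs_nonneg _).trans (hfb hne.some)
  have hφb : ∀ a, |a| ≤ M → |φ a| ≤ |φ 0| + L * M := fun a ha => by
    have h1 := hLip a 0 ha (by simpa using hM)
    have h2 : |φ a| ≤ |φ a - φ 0| + |φ 0| := by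
      have := abs_add_le (φ a - φ 0) (φ 0)
      simpa using this
    have h3 : L * |a - 0| ≤ L * M := mul_le_mul_of_nonneg_left (by simpa using ha) hL
    linarith
  have hiF : ∀ N, Integrable (fun x => φ (F N x)) μ := fun N =>
    integrable_of_bdd (hφ.comp (hF N)) fun x => hφb _ (hFb N x)
  have hif : Integrable (fun x => φ (f x)) μ := integrable_of_bdd (hφ.comp hf) fun x => hφb _ (hfb x)
  rw [tendsto_iff_norm_sub_tendsto_zero]
  have hs : Tendsto (fun N => L * Real.sqrt (∫ x, (F N x - f x) ^ 2 ∂μ)) atTop (𝓝 0) := by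
    have := (Real.continuous_sqrt.tendsto 0).comp h
    simpa using this.const_mul L
  refine squeeze_zero (fun _ => norm_nonneg _) (fun N => ?_) hs
  rw [← integral_sub (hiF N) hif, Real.norm_eq_abs]
  calc |∫ x, (φ (F N x) - φ (f x)) ∂μ| ≤ ∫ x, |φ (F N x) - φ (f x)| ∂μ :=
        abs_integral_le_integral_abs
    _ ≤ ∫ x, L * |F N x - f x| ∂μ := by
        refine integral_mono ((hiF N).sub hif).abs ?_ fun x => hLip _ _ (hFb N x) (hfb x)
        exact (integrable_of_bdd (f := fun x => F N x - f x) ((hF N).sub hf) (M := M + M)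
          (fun x => (abs_sub _ _).trans (add_le_add (hFb N x) (hfb x)))).abs.const_mul L
    _ = L * ∫ x, |F N x - f x| ∂μ := integral_const_mul _ _
    _ ≤ L * Real.sqrt (∫ x, (F N x - f x) ^ 2 ∂μ) := by
        refine mul_le_mul_of_nonneg_left ?_ hL
        exact l2_integral_abs_le_sqrt ((hF N).sub hf) (M := M + M)
          (fun x => (abs_sub _ _).trans (add_le_add (hFb N x) (hfb x)))

theorem tendsto_integral_of_L2 {F : ℕ → Ω → ℝ} {f : Ω → ℝ} {M : ℝ}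
    (hF : ∀ N, Measurable (F N)) (hf : Measurable f)
    (hFb : ∀ N x, |F N x| ≤ M) (hfb : ∀ x, |f x| ≤ M)
    (h : Tendsto (fun N => ∫ x, (F N x - f x) ^ 2 ∂μ) atTop (𝓝 0)) :
    Tendsto (fun N => ∫ x, F N x ∂μ) atTop (𝓝 (∫ x, f x ∂μ)) :=
  tendsto_integral_comp_of_L2 (φ := id) (L := 1) hF hf measurable_id hFb hfb zero_le_one
    (fun a b _ _ => by simp) h

theorem tendsto_integral_sq_of_L2 {F : ℕ → Ω → ℝ} {f : Ω → ℝ} {M : ℝ}
    (hF : ∀ N, Measurable (F N)) (hf : Measurable f)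
    (hFb : ∀ N x, |F N x| ≤ M) (hfb : ∀ x, |f x| ≤ M)
    (h : Tendsto (fun N => ∫ x, (F N x - f x) ^ 2 ∂μ) atTop (𝓝 0)) :
    Tendsto (fun N => ∫ x, F N x ^ 2 ∂μ) atTop (𝓝 (∫ x, f x ^ 2 ∂μ)) := by
  have hne : Nonempty Ω := nonempty_of_isProbabilityMeasure μ
  have hM : 0 ≤ M := (abs_nonneg _).trans (hfb hne.some)
  refine tendsto_integral_comp_of_L2 (φ := fun y => y ^ 2) (L := M + M) hF hf
    (measurable_id.pow_const 2) hFb hfb (by positivity) (fun a b ha hb => ?_) h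
  have : a ^ 2 - b ^ 2 = (a + b) * (a - b) := by ring
  rw [this, abs_mul]
  exact mul_le_mul_of_nonneg_right ((abs_add_le _ _).trans (add_le_add ha hb)) (abs_nonneg _)

/-- Variance is at most the second moment. -/
theorem integral_sub_mean_sq_le {f : Ω → ℝ} (hf : Measurable f) {M : ℝ} (hb : ∀ x, |f x| ≤ M) :
    ∫ x, (f x - ∫ y, f y ∂μ) ^ 2 ∂μ ≤ ∫ x, f x ^ 2 ∂μ := by
  have hi : Integrable f μ := integrable_of_bdd hf hb
  have hi2 : Integrable (fun x => f x ^ 2) μ :=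
    integrable_of_bdd (M := M ^ 2) (hf.pow_const 2) fun x => by
      rw [abs_pow]
      exact pow_le_pow_left₀ (abs_nonneg _) (hb x) 2
  set c := ∫ x, f x ∂μ with hc
  have h1 : ∫ x, (f x - c) ^ 2 ∂μ = ∫ x, f x ^ 2 ∂μ - c ^ 2 := by
    have e : ∀ x, (f x - c) ^ 2 = f x ^ 2 - 2 * c * f x + c ^ 2 := fun x => by ring
    simp_rw [e]
    have h2 : ∫ x, (f x ^ 2 - 2 * c * f x + c ^ 2) ∂μ =
        ∫ x, (f x ^ 2 - 2 * c * f x) ∂μ + ∫ _x, c ^ 2 ∂μ :=
      integral_add (f := fun x => f x ^ 2 - 2 * c * f x) (hi2.sub (hi.const_mul _)) (integrable_const _)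
    have h3 : ∫ x, (f x ^ 2 - 2 * c * f x) ∂μ = ∫ x, f x ^ 2 ∂μ - ∫ x, 2 * c * f x ∂μ :=
      integral_sub (f := fun x => f x ^ 2) hi2 (hi.const_mul _)
    rw [h2, h3, integral_const_mul, ← hc]
    simp
    ring
  rw [h1]
  nlinarith [sq_nonneg c]

/-- Four integrable functions. -/
theorem integral_add4 {f₁ f₂ f₃ f₄ : Ω → ℝ} (h₁ : Integrable f₁ μ) (h₂ : Integrable f₂ μ)
    (h₃ : Integrable f₃ μ) (h₄ : Integrable f₄ μ) :
    ∫ x, ((f₁ x + f₂ x) + (f₃ x + f₄ x)) ∂μ =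
      (∫ x, f₁ x ∂μ + ∫ x, f₂ x ∂μ) + (∫ x, f₃ x ∂μ + ∫ x, f₄ x ∂μ) := by
  have h12 : ∫ x, (f₁ x + f₂ x) ∂μ = ∫ x, f₁ x ∂μ + ∫ x, f₂ x ∂μ := integral_add h₁ h₂
  have h34 : ∫ x, (f₃ x + f₄ x) ∂μ = ∫ x, f₃ x ∂μ + ∫ x, f₄ x ∂μ := integral_add h₃ h₄
  rw [← h12, ← h34]
  exact integral_add (f := fun x => f₁ x + f₂ x) (g := fun x => f₃ x + f₄ x) (h₁.add h₂) (h₃.add h₄)

/-- `L²` convergence of a difference with convergent constants. -/
theorem L2_sub_const {F : ℕ → Ω → ℝ} {f : Ω → ℝ} {c : ℕ → ℝ} {c₀ M : ℝ}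
    (hF : ∀ N, Measurable (F N)) (hf : Measurable f)
    (hFb : ∀ N x, |F N x| ≤ M) (hfb : ∀ x, |f x| ≤ M)
    (h : Tendsto (fun N => ∫ x, (F N x - f x) ^ 2 ∂μ) atTop (𝓝 0))
    (hc : Tendsto c atTop (𝓝 c₀)) :
    Tendsto (fun N => ∫ x, ((F N x - c N) - (f x - c₀)) ^ 2 ∂μ) atTop (𝓝 0) := by
  have hc2 : Tendsto (fun N => (c N - c₀) ^ 2) atTop (𝓝 0) := by
    have := (hc.sub_const c₀).pow 2
    simpa using this
  have hlim := (h.add hc2).const_mul 2
  simp only [add_zero, mul_zero] at hlim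
  refine squeeze_zero (fun N => integral_nonneg fun _ => sq_nonneg _) (fun N => ?_) hlim
  have hi : Integrable (fun x => (F N x - f x) ^ 2) μ :=
    integrable_of_bdd (M := (M + M) ^ 2) (((hF N).sub hf).pow_const 2) fun x => by
      rw [abs_pow]
      exact pow_le_pow_left₀ (abs_nonneg _) ((abs_sub _ _).trans (add_le_add (hFb N x) (hfb x))) 2
  have h2 : ∫ x, 2 * ((F N x - f x) ^ 2 + (c N - c₀) ^ 2) ∂μ =
      2 * (∫ x, (F N x - f x) ^ 2 ∂μ + (c N - c₀) ^ 2) := by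
    rw [integral_const_mul, integral_add hi (integrable_const _)]
    simp
  rw [← h2]
  refine integral_mono_of_nonneg (Eventually.of_forall fun _ => sq_nonneg _)
    ((hi.add (integrable_const _)).const_mul 2) (Eventually.of_forall fun x => ?_)
  show ((F N x - c N) - (f x - c₀)) ^ 2 ≤ 2 * ((F N x - f x) ^ 2 + (c N - c₀) ^ 2)
  nlinarith [sq_nonneg ((F N x - f x) + (c N - c₀))]

/-- `L²` convergence of finite sums. -/
theorem L2_sum {ι : Type*} (s : Finset ι) {F : ι → ℕ → Ω → ℝ} {f : ι → Ω → ℝ} {M : ℝ}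
    (hF : ∀ i ∈ s, ∀ N, Measurable (F i N)) (hf : ∀ i ∈ s, Measurable (f i))
    (hFb : ∀ i ∈ s, ∀ N x, |F i N x| ≤ M) (hfb : ∀ i ∈ s, ∀ x, |f i x| ≤ M)
    (h : ∀ i ∈ s, Tendsto (fun N => ∫ x, (F i N x - f i x) ^ 2 ∂μ) atTop (𝓝 0)) :
    Tendsto (fun N => ∫ x, (∑ i ∈ s, F i N x - ∑ i ∈ s, f i x) ^ 2 ∂μ) atTop (𝓝 0) := by
  have hlim : Tendsto (fun N => (s.card : ℝ) * ∑ i ∈ s, ∫ x, (F i N x - f i x) ^ 2 ∂μ) atTop (𝓝 0) := by
    have := (tendsto_finsetSum s h).const_mul (s.card : ℝ)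
    simpa using this
  refine squeeze_zero (fun N => integral_nonneg fun _ => sq_nonneg _) (fun N => ?_) hlim
  have hi : ∀ i ∈ s, Integrable (fun x => (F i N x - f i x) ^ 2) μ := fun i hi =>
    integrable_of_bdd (M := (M + M) ^ 2) (((hF i hi N).sub (hf i hi)).pow_const 2) fun x => by
      rw [abs_pow]
      exact pow_le_pow_left₀ (abs_nonneg _)
        ((abs_sub _ _).trans (add_le_add (hFb i hi N x) (hfb i hi x))) 2
  rw [← integral_finsetSum s hi, ← integral_const_mul]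
  refine integral_mono_of_nonneg (Eventually.of_forall fun _ => sq_nonneg _)
    ((integrable_finsetSum s hi).const_mul _) (Eventually.of_forall fun x => ?_)
  show (∑ i ∈ s, F i N x - ∑ i ∈ s, f i x) ^ 2 ≤ (s.card : ℝ) * ∑ i ∈ s, (F i N x - f i x) ^ 2
  rw [← Finset.sum_sub_distrib]
  exact sq_sum_le_card_mul_sum_sq

end Crest.Agent.Lib.IsingFIID
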