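/-
Row 160 (S0241): the label space `Om V` as an i.i.d. family over the vertices.
`toOm : (V → VLab) → Om V` uncurries, and pushes `prodM V vlaw` to `PP V`.
-/
import Crest.Agent.Lib.IsingFIID.Defs
import Crest.Agent.Lib.IsingFIID.Hoeffding

set_option autoImplicit false

namespace Crest.Agent.Lib.IsingFIID

open MeasureTheory

/-- Labels of one vertex. -/
abbrev VLab := (ℕ → Lab) × (ℕ → Lab)

instance lam_isProbabilityMeasure (I : Type*) : IsProbabilityMeasure (lam I) := by
  unfold lam Crest.ProbabilityR.Labels.labelMeasure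
  infer_instance

instance PP_isProbabilityMeasure (V : Type*) : IsProbabilityMeasure (PP V) := by
  unfold PP
  infer_instance

/-- Law of the labels of one vertex. -/
noncomputable abbrev vlaw : Measure VLab := (lam ℕ).prod (lam ℕ)

variable {V : Type*}

/-- Uncurrying. -/
def toOm (x : V → VLab) : Om V := (fun i => (x i.1).1 i.2, fun i => (x i.1).2 i.2)

/-- Currying. -/
def fromOm (ω : Om V) : V → VLab := fun v => (fun n => ω.1 (v, n), fun n => ω.2 (v, n))

@[simp] theorem toOm_fromOm (ω : Om V) : toOm (fromOm ω) = ω := rfl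

@[simp] theorem fromOm_toOm (x : V → VLab) : fromOm (toOm x) = x := rfl

theorem measurable_toOm : Measurable (toOm : (V → VLab) → Om V) := by
  refine Measurable.prodMk (measurable_pi_iff.2 fun i => ?_) (measurable_pi_iff.2 fun i => ?_)
  · exact (measurable_pi_apply i.2).comp (measurable_fst.comp (measurable_pi_apply i.1))
  · exact (measurable_pi_apply i.2).comp (measurable_snd.comp (measurable_pi_apply i.1))

theorem measurable_fromOm : Measurable (fromOm : Om V → V → VLab) := by
  refine measurable_pi_iff.2 fun v => Measurable.prodMk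
    (measurable_pi_iff.2 fun n => ?_) (measurable_pi_iff.2 fun n => ?_)
  · exact (measurable_pi_apply (v, n)).comp measurable_fst
  · exact (measurable_pi_apply (v, n)).comp measurable_snd

/-- Splitting a sum of index sets (as in `Lib/SRF/EdgeLabels.lean`, restated here). -/
theorem map_lam_sum (α β : Type*) :
    (lam (α ⊕ β)).map (fun c => ((fun a => c (Sum.inl a), fun b => c (Sum.inr b)) : (α → Lab) × (β → Lab)))
      = (lam α).prod (lam β) := by
  classical
  have hmeas : Measurable (fun c : α ⊕ β → Lab =>
      ((fun a => c (Sum.inl a), fun b => c (Sum.inr b)) : (α → Lab) × (β → Lab))) :=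
    (measurable_pi_iff.2 fun a => measurable_pi_apply _).prodMk
      (measurable_pi_iff.2 fun b => measurable_pi_apply _)
  let glue : (α → Lab) × (β → Lab) → (α ⊕ β → Lab) := fun p => Sum.elim p.1 p.2
  have hglue : Measurable glue := by
    refine measurable_pi_iff.2 fun i => ?_
    cases i with
    | inl a => exact (measurable_pi_apply a).comp measurable_fst
    | inr b => exact (measurable_pi_apply b).comp measurable_snd
  have hlaw : ((lam α).prod (lam β)).map glue = lam (α ⊕ β) := by
    refine Measure.eq_infinitePi _ fun s t ht => ?_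
    rw [Measure.map_apply hglue (MeasurableSet.pi s.countable_toSet fun i _ => ht i)]
    have hpre : glue ⁻¹' (Set.pi (s : Set (α ⊕ β)) t)
        = (Set.pi (s.toLeft : Set α) (fun a => t (Sum.inl a)))
          ×ˢ (Set.pi (s.toRight : Set β) (fun b => t (Sum.inr b))) := by
      ext ⟨f, g⟩
      simp only [Set.mem_preimage, Set.mem_pi, Finset.mem_coe, Set.mem_prod, Finset.mem_toLeft,
        Finset.mem_toRight, glue]
      constructor
      · intro h
        exact ⟨fun a ha => h _ ha, fun b hb => h _ hb⟩
      · rintro ⟨h1, h2⟩ i hi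
        cases i with
        | inl a => exact h1 a hi
        | inr b => exact h2 b hi
    rw [hpre, Measure.prod_prod]
    have h1 : lam α (Set.pi (s.toLeft : Set α) (fun a => t (Sum.inl a)))
        = ∏ a ∈ s.toLeft, volume (t (Sum.inl a)) :=
      Measure.infinitePi_pi _ fun a _ => ht _
    have h2 : lam β (Set.pi (s.toRight : Set β) (fun b => t (Sum.inr b)))
        = ∏ b ∈ s.toRight, volume (t (Sum.inr b)) :=
      Measure.infinitePi_pi _ fun b _ => ht _
    rw [h1, h2]
    conv_rhs => rw [← Finset.toLeft_disjSum_toRight (u := s)]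
    rw [Finset.prod_disjSum]
  rw [← hlaw, Measure.map_map hmeas hglue]
  have : (fun c : α ⊕ β → Lab =>
      ((fun a => c (Sum.inl a), fun b => c (Sum.inr b)) : (α → Lab) × (β → Lab))) ∘ glue = id := by
    funext p
    rfl
  rw [this, Measure.map_id]

/-- The labels over the vertices, `V × (ℕ ⊕ ℕ)`, in two steps. -/
theorem map_fromOm : (PP V).map fromOm = prodM V vlaw := by
  -- the law of a vertex
  have hv : (lam (ℕ ⊕ ℕ)).map (fun c => ((fun a => c (Sum.inl a), fun b => c (Sum.inr b)) : VLab))
      = vlaw := map_lam_sum ℕ ℕ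
  have hms : Measurable (fun c : ℕ ⊕ ℕ → Lab =>
      ((fun a => c (Sum.inl a), fun b => c (Sum.inr b)) : VLab)) :=
    (measurable_pi_iff.2 fun a => measurable_pi_apply _).prodMk
      (measurable_pi_iff.2 fun b => measurable_pi_apply _)
  -- a single index set
  let e : (V × ℕ) ⊕ (V × ℕ) ≃ V × (ℕ ⊕ ℕ) := (Equiv.prodSumDistrib V ℕ ℕ).symm
  let glue : Om V → (V × (ℕ ⊕ ℕ) → Lab) := fun ω i =>
    Sum.elim ω.1 ω.2 (e.symm i)
  have hglue : Measurable glue := by
    refine measurable_pi_iff.2 fun i => ?_
    rcases h : e.symm i with a | b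
    · simp only [glue, h, Sum.elim_inl]
      exact (measurable_pi_apply a).comp measurable_fst
    · simp only [glue, h, Sum.elim_inr]
      exact (measurable_pi_apply b).comp measurable_snd
  have hlaw : (PP V).map glue = lam (V × (ℕ ⊕ ℕ)) := by
    have h0 := map_lam_sum (V × ℕ) (V × ℕ)
    unfold PP
    rw [← h0, Measure.map_map hglue (by
      exact (measurable_pi_iff.2 fun a => measurable_pi_apply _).prodMk
        (measurable_pi_iff.2 fun b => measurable_pi_apply _))]
    refine Measure.eq_infinitePi _ fun s t ht => ?_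
    have hm : Measurable (glue ∘ fun c : (V × ℕ) ⊕ (V × ℕ) → Lab =>
        ((fun a => c (Sum.inl a), fun b => c (Sum.inr b)) : (V × ℕ → Lab) × (V × ℕ → Lab))) :=
      hglue.comp ((measurable_pi_iff.2 fun a => measurable_pi_apply _).prodMk
        (measurable_pi_iff.2 fun b => measurable_pi_apply _))
    rw [Measure.map_apply hm (MeasurableSet.pi s.countable_toSet fun i _ => ht i)]
    classical
    have hpre : (glue ∘ fun c : (V × ℕ) ⊕ (V × ℕ) → Lab =>
        ((fun a => c (Sum.inl a), fun b => c (Sum.inr b)) : (V × ℕ → Lab) × (V × ℕ → Lab))) ⁻¹'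
          (Set.pi (s : Set (V × (ℕ ⊕ ℕ))) t)
        = Set.pi ((s.map e.symm.toEmbedding : Finset _) : Set ((V × ℕ) ⊕ (V × ℕ)))
            (fun i => t (e i)) := by
      ext c
      simp only [Set.mem_preimage, Set.mem_pi, Finset.mem_coe, Finset.mem_map, Function.comp]
      constructor
      · rintro h i ⟨j, hj, rfl⟩
        have := h j hj
        simp only [Equiv.coe_toEmbedding, Equiv.apply_symm_apply]
        have hh : glue (fun a => c (Sum.inl a), fun b => c (Sum.inr b)) j = c (e.symm j) := by
          simp only [glue]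
          cases e.symm j <;> rfl
        rwa [hh] at this
      · intro h j hj
        have := h (e.symm j) ⟨j, hj, rfl⟩
        have hh : glue (fun a => c (Sum.inl a), fun b => c (Sum.inr b)) j = c (e.symm j) := by
          simp only [glue]
          cases e.symm j <;> rfl
        rw [hh]
        simpa using this
    rw [hpre]
    have := Measure.infinitePi_pi (fun _ : (V × ℕ) ⊕ (V × ℕ) => (volume : Measure Lab))
      (s := s.map e.symm.toEmbedding) (t := fun i => t (e i)) (fun i _ => ht _)
    change (lam ((V × ℕ) ⊕ (V × ℕ))) _ = _ at this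
    rw [this, Finset.prod_map]
    simp
  -- curry, then split each vertex
  have hcurry : (lam (V × (ℕ ⊕ ℕ))).map (MeasurableEquiv.curry V (ℕ ⊕ ℕ) Lab) =
      prodM V (lam (ℕ ⊕ ℕ)) :=
    Measure.infinitePi_map_curry (fun _ _ => (volume : Measure Lab))
  have hsplit : (prodM V (lam (ℕ ⊕ ℕ))).map (fun x v =>
      ((fun a => x v (Sum.inl a), fun b => x v (Sum.inr b)) : VLab)) = prodM V vlaw := by
    have := Measure.infinitePi_map_pi (fun _ : V => lam (ℕ ⊕ ℕ)) (f := fun _ c =>
      ((fun a => c (Sum.inl a), fun b => c (Sum.inr b)) : VLab)) (fun _ => hms)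
    rw [this, hv]
  have hmc : Measurable (MeasurableEquiv.curry V (ℕ ⊕ ℕ) Lab) := MeasurableEquiv.measurable _
  have hmsp : Measurable (fun (x : V → ℕ ⊕ ℕ → Lab) v =>
      ((fun a => x v (Sum.inl a), fun b => x v (Sum.inr b)) : VLab)) := by
    refine measurable_pi_iff.2 fun v => ?_
    exact (measurable_pi_iff.2 fun a => (measurable_pi_apply _).comp (measurable_pi_apply v)).prodMk
      (measurable_pi_iff.2 fun b => (measurable_pi_apply _).comp (measurable_pi_apply v))
  rw [← hsplit, ← hcurry, ← hlaw, Measure.map_map hmsp hmc, Measure.map_map (hmsp.comp hmc) hglue]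
  congr 1

/-- The main identity. -/
theorem map_toOm : (prodM V vlaw).map toOm = PP V := by
  rw [← map_fromOm, Measure.map_map measurable_toOm measurable_fromOm]
  have : (toOm ∘ fromOm : Om V → Om V) = id := rfl
  rw [this, Measure.map_id]

theorem integral_toOm {F : Om V → ℝ} (hF : Measurable F) :
    ∫ x, F (toOm x) ∂(prodM V vlaw) = ∫ ω, F ω ∂(PP V) := by
  rw [← map_toOm, integral_map measurable_toOm.aemeasurable hF.aestronglyMeasurable]

/-- Under `fromOm`, the automorphism action on labels is precomposition. -/
theorem toOm_comp (g : V → V) (x : V → VLab) : toOm (x ∘ g) = act g (toOm x) := rfl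

end Crest.Agent.Lib.IsingFIID
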