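/-
Row 160 (S0241): balls and half balls are windows; locality of the window system in the labels.
-/
import Crest.Agent.Lib.IsingFIID.Basic

set_option autoImplicit false
set_option linter.unusedVariables false

namespace Crest.Agent.Lib.IsingFIID

open MeasureTheory Filter Topology Set SimpleGraph

variable {V : Type*} [DecidableEq V] {G : SimpleGraph V}

/-- A finite set containing `o`, closed under passing to the closer neighbour, is a window. -/
theorem isWin_of_closer (W : Finset V) {o : V} (ho : o ∈ W)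
    (hc : ∀ v ∈ W, v ≠ o → ∃ c ∈ W, G.Adj v c ∧ G.dist o v = G.dist o c + 1) : IsWin G W := by
  have key : ∀ n, ∀ v (hv : v ∈ W), G.dist o v = n →
      (G.induce (W : Set V)).Reachable ⟨v, hv⟩ ⟨o, ho⟩ := by
    intro n
    induction n with
    | zero =>
      intro v hv hd
      by_cases hvo : v = o
      · subst hvo; exact Reachable.refl _
      · obtain ⟨c, hcW, hadj, hdc⟩ := hc v hv hvo
        omega
    | succ n ih =>
      intro v hv hd
      by_cases hvo : v = o
      · subst hvo; exact Reachable.refl _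
      · obtain ⟨c, hcW, hadj, hdc⟩ := hc v hv hvo
        have h1 : (G.induce (W : Set V)).Adj ⟨v, hv⟩ ⟨c, hcW⟩ := hadj
        exact h1.reachable.trans (ih c hcW (by omega))
  have : Nonempty (W : Set V) := ⟨⟨o, ho⟩⟩
  refine ⟨fun a b => ?_⟩
  exact (key _ a.1 a.2 rfl).trans (key _ b.1 b.2 rfl).symm

/-! ### Locality in the labels -/

theorem fieldF_congr_labels {θ : ℝ} {κ : ℝ → ℝ} {W : Finset V} {ω ω' : Om V}
    (h1 : ∀ v ∈ W, ∀ n, ω.1 (v, n) = ω'.1 (v, n)) (h2 : ∀ v ∈ W, ∀ n, ω.2 (v, n) = ω'.2 (v, n))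
    (k : ℕ) : fieldF G θ κ W ω k = fieldF G θ κ W ω' k := by
  induction k with
  | zero => funext τ v; rfl
  | succ k ih =>
    funext τ v
    simp only [fieldF]
    by_cases hv : v ∈ W
    · simp only [if_pos hv]
      refine Finset.sum_congr rfl fun n _ => ?_
      have hb : before ω v n τ ↔ before ω' v n τ := by simp [before, ringT, h1 v hv n]
      have hr : ringT ω v n = ringT ω' v n := by simp [ringT, h1 v hv n]
      by_cases hbb : before ω v n τ
      · rw [if_pos hbb, if_pos (hb.1 hbb), hr, ih, h2 v hv n]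
      · rw [if_neg hbb, if_neg (fun h => hbb (hb.2 h))]
    · simp only [if_neg hv]

theorem field_congr_labels {θ : ℝ} {κ : ℝ → ℝ} {W : Finset V} {ω ω' : Om V}
    (h1 : ∀ v ∈ W, ∀ n, ω.1 (v, n) = ω'.1 (v, n)) (h2 : ∀ v ∈ W, ∀ n, ω.2 (v, n) = ω'.2 (v, n))
    (τ : ℝ) : field G θ κ W ω τ = field G θ κ W ω' τ := by
  unfold field
  rw [fieldF_congr_labels h1 h2]

theorem mW_congr_labels {θ : ℝ} {κ : ℝ → ℝ} {W : Finset V} {ω ω' : Om V}
    (h1 : ∀ v ∈ W, ∀ n, ω.1 (v, n) = ω'.1 (v, n)) (h2 : ∀ v ∈ W, ∀ n, ω.2 (v, n) = ω'.2 (v, n))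
    (τ : ℝ) (v : V) : mW G θ κ W ω τ v = mW G θ κ W ω' τ v := by
  unfold mW
  rw [field_congr_labels h1 h2]

/-- `ThetaRange` is below `3/4`. -/
theorem thetaRange_le {d : ℕ} (hd : 3 ≤ d) {θ : ℝ} (h : ThetaRange d θ) : θ ≤ 3 / 4 := by
  have h1 : (3 : ℝ) ≤ d := by exact_mod_cast hd
  have h2 : θ ^ 2 * 2 ≤ θ ^ 2 * ((d : ℝ) - 1) :=
    mul_le_mul_of_nonneg_left (by linarith) (sq_nonneg _)
  have h3 := h.2.1
  nlinarith [h.1]

theorem kap_le {ε : ℝ} (h0 : 0 ≤ ε) (τ : ℝ) : kap ε τ ≤ ε := by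
  unfold kap
  have : min (Real.sqrt τ) 1 ≤ 1 := min_le_right _ _
  nlinarith

variable [G.LocallyFinite]

theorem isWin_ball' (hT : G.IsTree) (a : V) (N : ℕ) : IsWin G (ball G a N) := by
  refine isWin_of_closer (o := a) _ ((mem_ball hT).2 (by simp)) fun v hv hne => ?_
  obtain ⟨c, hadj, hd⟩ := exists_closer hT a hne
  refine ⟨c, (mem_ball hT).2 ?_, hadj, hd⟩
  have := (mem_ball hT).1 hv
  omega

theorem mem_halfBall (hT : G.IsTree) {p x v : V} (hpx : G.Adj p x) {N : ℕ} :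
    v ∈ halfBall G p x N ↔ G.dist x v ≤ N ∧ G.dist p v = G.dist x v + 1 := by
  simp only [halfBall, Finset.mem_biUnion, Finset.mem_range, mem_cone hT hpx]
  constructor
  · rintro ⟨n, hn, h1, h2⟩
    exact ⟨by omega, by omega⟩
  · rintro ⟨h1, h2⟩
    exact ⟨_, by omega, rfl, h2⟩

theorem self_mem_halfBall (hT : G.IsTree) {p x : V} (hpx : G.Adj p x) (N : ℕ) :
    x ∈ halfBall G p x N := by
  rw [mem_halfBall hT hpx]
  simp [dist_eq_one_iff_adj.mpr hpx]

theorem isWin_halfBall (hT : G.IsTree) {p x : V} (hpx : G.Adj p x) (N : ℕ) :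
    IsWin G (halfBall G p x N) := by
  refine isWin_of_closer (o := x) _ (self_mem_halfBall hT hpx N) fun v hv hne => ?_
  obtain ⟨c, hadj, hd⟩ := exists_closer hT x hne
  refine ⟨c, ?_, hadj, hd⟩
  rw [mem_halfBall hT hpx] at hv ⊢
  refine ⟨by omega, ?_⟩
  have h1 : G.dist p v ≤ G.dist p c + G.dist c v := (hT.connected).dist_triangle
  have h2 : G.dist p c ≤ G.dist p x + G.dist x c := (hT.connected).dist_triangle
  have h3 : G.dist c v = 1 := dist_eq_one_iff_adj.mpr hadj.symm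
  have h4 : G.dist p x = 1 := dist_eq_one_iff_adj.mpr hpx
  omega

theorem halfBall_subset_ball (hT : G.IsTree) {p x : V} (hpx : G.Adj p x) (N : ℕ) :
    halfBall G p x N ⊆ ball G x N := fun v hv =>
  (mem_ball hT).2 ((mem_halfBall hT hpx).1 hv).1

end Crest.Agent.Lib.IsingFIID
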