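/-
Row 160 (S0241), Task E4: `bsv_pair`, orthogonality along a geodesic, from `bsv_path_sum` on the windows,
`N → ∞`.
-/
import Crest.Agent.Lib.IsingFIID.BSV
import Crest.Agent.Lib.IsingFIID.LabelIso
import Crest.Agent.Lib.IsingFIID.L2Limit
import Crest.Agent.Lib.IsingFIID.WinBasic
import Crest.Agent.Lib.IsingFIID.StrictBasic
import Crest.Agent.Lib.IsingFIID.Strict

set_option autoImplicit false

namespace Crest.Agent.Lib.IsingFIID

open MeasureTheory Filter Topology Set SimpleGraph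

variable {V : Type*} [DecidableEq V] {G : SimpleGraph V} [G.LocallyFinite] {d : ℕ}

theorem bp_measurable_aOf (θ : ℝ) : Measurable fun p : ℝ × ℝ => aOf θ p.1 p.2 := by
  unfold aOf uOf uFun nuOf
  fun_prop

theorem bp_measurable_nuOf (θ : ℝ) : Measurable fun p : ℝ × ℝ => nuOf θ p.1 p.2 := by
  unfold nuOf
  fun_prop

theorem bp_measurable_mW_at {θ : ℝ} {κ : ℝ → ℝ} (hκ : Measurable κ) (W : Finset V) (τ : ℝ) (v : V) :
    Measurable fun ω : Om V => mW G θ κ W ω τ v := by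
  have h1 : Measurable fun ω : Om V => ((τ, ω) : ℝ × Om V) := measurable_prodMk_left
  have h2 := measurable_mW (G := G) (θ := θ) hκ (W := W) v
  have := Measurable.comp h2 h1
  exact this

theorem measurable_mInf_at {θ : ℝ} {κ : ℝ → ℝ} (hκ : Measurable κ) (τ : ℝ) (v : V) :
    Measurable fun ω : Om V => mInf G θ κ ω τ v := by
  have h1 : Measurable fun ω : Om V => ((τ, ω) : ℝ × Om V) := measurable_prodMk_left
  have h2 := measurable_mInf (G := G) (θ := θ) hκ v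
  have := Measurable.comp h2 h1
  exact this

/-- Window means are bounded away from `±1`. -/
theorem exists_abs_mW_le (hG : Tree G d) {θm ε τ : ℝ} (h0 : 0 ≤ θm) (h1 : θm < 1) (hε : 0 ≤ ε)
    (hε1 : ε ≤ 1 / 2) : ∃ t : ℝ, 0 ≤ t ∧ t < 1 ∧ ∀ θ, 0 ≤ θ → θ ≤ θm → ∀ W : Finset V, IsWin G W →
      ∀ ω v, v ∈ W → |mW G θ (kap ε) W ω τ v| ≤ t := by
  set B : ℝ := ⌈τ⌉₊ * Real.artanh ε with hB
  have hB0 : 0 ≤ B := mul_nonneg (Nat.cast_nonneg _) (Real.artanh_nonneg hε)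
  have hA : 0 ≤ Real.artanh θm := Real.artanh_nonneg h0
  set T : ℝ := B + d * Real.artanh θm with hT
  have hT0 : 0 ≤ T := add_nonneg hB0 (mul_nonneg (Nat.cast_nonneg _) hA)
  have hmem := Real.tanh_bijOn.mapsTo (mem_univ T)
  have htanh_mono : ∀ a b : ℝ, a ≤ b → Real.tanh a ≤ Real.tanh b := fun a b hab => by
    have ha := Real.tanh_bijOn.mapsTo (mem_univ a)
    have hb := Real.tanh_bijOn.mapsTo (mem_univ b)
    rw [← Real.artanh_le_artanh_iff ha hb, Real.artanh_tanh, Real.artanh_tanh]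
    exact hab
  refine ⟨|Real.tanh T|, abs_nonneg _, abs_lt.2 ⟨hmem.1, hmem.2⟩, fun θ hθ0 hθm W hW ω v hv => ?_⟩
  have hθ1 : θ < 1 := hθm.trans_lt h1
  have hs : IsStrength (kap ε) := isStrength_kap hε hε1
  have hbd := abs_gm_le_tanh hG hW hθ0 hθ1 (field G θ (kap ε) W ω τ)
    (B := B) (fun u _ => abs_field_le hθ0 hθ1 hs (kap_le hε) hε1 ω τ u) hv
  have hle : B + d * Real.artanh θ ≤ T := by
    have : Real.artanh θ ≤ Real.artanh θm :=
      Real.artanh_le_artanh (by linarith) h1 hθm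
    have := mul_le_mul_of_nonneg_left this (Nat.cast_nonneg d)
    linarith
  exact hbd.trans ((htanh_mono _ _ hle).trans (le_abs_self _))

theorem aux_sq (y₁ y₂ x₁ x₂ x₃ x₄ A : ℝ) (h1 : |y₁| ≤ A * (|x₁| + |x₂|))
    (h2 : |y₂| ≤ A * (|x₃| + |x₄|)) :
    (y₁ - y₂) ^ 2 ≤ 4 * A ^ 2 * ((x₁ ^ 2 + x₂ ^ 2) + (x₃ ^ 2 + x₄ ^ 2)) := by
  have hsq : ∀ u v w : ℝ, |u| ≤ w * v → u ^ 2 ≤ w ^ 2 * v ^ 2 := by
    intro u v w hu
    rw [← sq_abs u, ← mul_pow]
    exact pow_le_pow_left₀ (abs_nonneg _) hu 2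
  have hy1 := hsq y₁ (|x₁| + |x₂|) A h1
  have hy2 := hsq y₂ (|x₃| + |x₄|) A h2
  have hab2 : ∀ u v : ℝ, (|u| + |v|) ^ 2 ≤ 2 * (u ^ 2 + v ^ 2) := by
    intro u v
    have h1 := sq_abs u
    have h2 := sq_abs v
    nlinarith [sq_nonneg (|u| - |v|)]
  have h5 := mul_le_mul_of_nonneg_left (hab2 x₁ x₂) (sq_nonneg A)
  have h6 := mul_le_mul_of_nonneg_left (hab2 x₃ x₄) (sq_nonneg A)
  have h7 : (y₁ - y₂) ^ 2 ≤ 2 * (y₁ ^ 2 + y₂ ^ 2) := by nlinarith [sq_nonneg (y₁ + y₂)]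
  linarith

/-- The window approximation of `fPair`. -/
noncomputable def fWin (G : SimpleGraph V) [G.LocallyFinite] (θ θ' : ℝ) (κ : ℝ → ℝ) (τ : ℝ) (N : ℕ)
    (a b : V) (ω : Om V) : ℝ :=
  aOf θ (mW G θ κ (ball G a N) ω τ a) (mW G θ κ (ball G a N) ω τ b) -
    aOf θ' (mW G θ' κ (ball G a N) ω τ a) (mW G θ' κ (ball G a N) ω τ b)

theorem measurable_fWin {θ θ' : ℝ} {κ : ℝ → ℝ} (hκ : Measurable κ) (τ : ℝ) (N : ℕ) (a b : V) :
    Measurable (fWin G θ θ' κ τ N a b) := by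
  have h1 := Measurable.comp (bp_measurable_aOf θ) ((bp_measurable_mW_at (G := G) (θ := θ) hκ (ball G a N) τ a).prodMk
    (bp_measurable_mW_at (G := G) (θ := θ) hκ (ball G a N) τ b))
  have h2 := Measurable.comp (bp_measurable_aOf θ') ((bp_measurable_mW_at (G := G) (θ := θ') hκ (ball G a N) τ a).prodMk
    (bp_measurable_mW_at (G := G) (θ := θ') hκ (ball G a N) τ b))
  exact h1.sub h2

theorem measurable_fPair {θ θ' : ℝ} {κ : ℝ → ℝ} (hκ : Measurable κ) (τ : ℝ) (a b : V) :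
    Measurable fun ω => fPair G θ θ' κ ω τ a b := by
  have h1 := Measurable.comp (bp_measurable_aOf θ) ((measurable_mInf_at (G := G) (θ := θ) hκ τ a).prodMk
    (measurable_mInf_at (G := G) (θ := θ) hκ τ b))
  have h2 := Measurable.comp (bp_measurable_aOf θ') ((measurable_mInf_at (G := G) (θ := θ') hκ τ a).prodMk
    (measurable_mInf_at (G := G) (θ := θ') hκ τ b))
  exact h1.sub h2

theorem fWin_congr_labels {θ θ' : ℝ} {κ : ℝ → ℝ} {τ : ℝ} {N : ℕ} {a b : V} {ω ω' : Om V}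
    (h1 : ∀ v ∈ ball G a N, ∀ n, ω.1 (v, n) = ω'.1 (v, n))
    (h2 : ∀ v ∈ ball G a N, ∀ n, ω.2 (v, n) = ω'.2 (v, n)) :
    fWin G θ θ' κ τ N a b ω = fWin G θ θ' κ τ N a b ω' := by
  unfold fWin
  rw [mW_congr_labels h1 h2 τ a, mW_congr_labels h1 h2 τ b, mW_congr_labels h1 h2 τ a,
    mW_congr_labels h1 h2 τ b]

theorem fWin_act (hT : G.IsTree) {θ θ' : ℝ} {κ : ℝ → ℝ} {τ : ℝ} {N : ℕ} {a b : V} (g : G ≃g G)
    (ω : Om V) : fWin G θ θ' κ τ N a b (act g ω) = fWin G θ θ' κ τ N (g a) (g b) ω := by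
  unfold fWin
  rw [mW_act, mW_act, mW_act, mW_act, ball_map hT]

/-- Convergence of the window approximation in `L²`, with explicit bound. -/
theorem fWin_L2 (hG : Tree G d) {θ θ' ε : ℝ} (hθ : ThetaRange d θ) (hθ' : ThetaRange d θ')
    (h0 : 0 < ε) (h1 : ε ≤ 1 / 2) (τ : ℝ) (hτ : 0 ≤ τ) :
    ∃ M : ℝ, 0 ≤ M ∧ (∀ N a b ω, G.Adj a b → 1 ≤ N → |fWin G θ θ' (kap ε) τ N a b ω| ≤ M) ∧
      (∀ a b ω, |fPair G θ θ' (kap ε) ω τ a b| ≤ M) ∧
      ∀ a b, G.Adj a b →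
        Tendsto (fun N => ∫ ω, (fWin G θ θ' (kap ε) τ N a b ω - fPair G θ θ' (kap ε) ω τ a b) ^ 2 ∂(PP V))
          atTop (𝓝 0) := by
  have hd := hG.hd
  have hT := hG.tree
  have hθm : (0 : ℝ) ≤ 3 / 4 := by norm_num
  have hθm1 : (3 / 4 : ℝ) < 1 := by norm_num
  have hθle := thetaRange_le hd hθ
  have hθle' := thetaRange_le hd hθ'
  obtain ⟨t₁, ht₁0, ht₁1, ht₁⟩ := exists_abs_mW_le hG (G := G) (τ := τ) hθm hθm1 h0.le h1
  obtain ⟨t₂, ht₂0, ht₂1, ht₂⟩ := exists_abs_mInf_le hG (G := G) (τ₁ := τ) hθm hθm1 h0.le h1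
  set t := max t₁ t₂ with ht
  have ht0 : 0 ≤ t := le_max_of_le_left ht₁0
  have ht1 : t < 1 := max_lt ht₁1 ht₂1
  obtain ⟨L, hL0, hL⟩ := exists_aOf_bounds hθm hθm1 ht0 ht1
  have hA : ∀ ϑ a b, 0 ≤ ϑ → ϑ ≤ 3 / 4 → |a| ≤ t → |b| ≤ t → |aOf ϑ a b| ≤ 4 * L := by
    intro ϑ a b h0 h1 ha hb
    obtain ⟨h2, h3, -, -⟩ := hL ϑ ϑ a b a b h0 h1 h0 h1 ha hb ha hb
    rw [abs_of_nonneg h2]
    have h4 : (|a| + |b|) ^ 2 ≤ 4 := by
      have : |a| + |b| ≤ 2 := by linarith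
      nlinarith [abs_nonneg a, abs_nonneg b]
    nlinarith
  have hlip : ∀ ϑ a b a' b', 0 ≤ ϑ → ϑ ≤ 3 / 4 → |a| ≤ t → |b| ≤ t → |a'| ≤ t → |b'| ≤ t →
      |aOf ϑ a b - aOf ϑ a' b'| ≤ 4 * L * (|a - a'| + |b - b'|) := by
    intro ϑ a b a' b' h0 h1 ha hb ha' hb'
    obtain ⟨-, -, -, h⟩ := hL ϑ ϑ a b a' b' h0 h1 h0 h1 ha hb ha' hb'
    simp only [sub_self, abs_zero, add_zero] at h
    refine h.trans (mul_le_mul_of_nonneg_right ?_ (by positivity))
    have h4 : |a| + |b| + |a'| + |b'| ≤ 4 := by linarith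
    nlinarith
  have hκ := (isStrength_kap h0.le h1).meas
  have hwin : ∀ {ϑ : ℝ}, 0 ≤ ϑ → ϑ ≤ 3 / 4 → ∀ (a b : V) (N : ℕ) ω, G.Adj a b → 1 ≤ N →
      |mW G ϑ (kap ε) (ball G a N) ω τ a| ≤ t ∧ |mW G ϑ (kap ε) (ball G a N) ω τ b| ≤ t := by
    intro ϑ hh0 hh1 a b N ω hab hN
    have hW := isWin_ball hT a N
    have hb : b ∈ ball G a N := (mem_ball hT).2 (by rw [dist_eq_one_iff_adj.mpr hab]; exact hN)
    have ha : a ∈ ball G a N := (mem_ball hT).2 (by simp)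
    exact ⟨(ht₁ ϑ hh0 hh1 _ hW ω a ha).trans (le_max_left _ _),
      (ht₁ ϑ hh0 hh1 _ hW ω b hb).trans (le_max_left _ _)⟩
  have hinf : ∀ {ϑ : ℝ}, 0 ≤ ϑ → ϑ ≤ 3 / 4 → ∀ (a : V) ω, |mInf G ϑ (kap ε) ω τ a| ≤ t := by
    intro ϑ hh0 hh1 a ω
    exact (ht₂ ϑ hh0 hh1 ω τ a le_rfl).trans (le_max_right _ _)
  refine ⟨8 * L, by positivity, ?_, ?_, ?_⟩
  · intro N a b ω hab hN
    unfold fWin
    have h1 := hA θ _ _ hθ.1 hθle (hwin hθ.1 hθle a b N ω hab hN).1 (hwin hθ.1 hθle a b N ω hab hN).2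
    have h2 := hA θ' _ _ hθ'.1 hθle' (hwin hθ'.1 hθle' a b N ω hab hN).1 (hwin hθ'.1 hθle' a b N ω hab hN).2
    refine (abs_sub _ _).trans ?_
    linarith
  · intro a b ω
    unfold fPair
    have h1 := hA θ _ _ hθ.1 hθle (hinf hθ.1 hθle a ω) (hinf hθ.1 hθle b ω)
    have h2 := hA θ' _ _ hθ'.1 hθle' (hinf hθ'.1 hθle' a ω) (hinf hθ'.1 hθle' b ω)
    refine (abs_sub _ _).trans ?_
    linarith
  · intro a b hab
    -- one parameter
    have hone : ∀ {ϑ : ℝ}, 0 ≤ ϑ → ϑ ^ 2 * ((d : ℝ) - 1) < 1 → ∀ v : V, G.dist a v ≤ 1 →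
        Tendsto (fun N => ∫ ω, (mW G ϑ (kap ε) (ball G a N) ω τ v - mInf G ϑ (kap ε) ω τ v) ^ 2 ∂(PP V))
          atTop (𝓝 0) := by
      intro ϑ hϑ0 hϑ v hv
      obtain ⟨B, γ, hB, hγ0, hγ1, hbd⟩ :=
        mInf_L2 hG (τ₁ := τ) (κ := kap ε) hϑ0 hϑ (isStrength_kap h0.le h1)
      have hgeo : Tendsto (fun N : ℕ => B * γ ^ (N - 1)) atTop (𝓝 0) := by
        have h1 : Tendsto (fun N : ℕ => γ ^ N) atTop (𝓝 0) :=
          tendsto_pow_atTop_nhds_zero_of_lt_one hγ0.le hγ1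
        have h2 : Tendsto (fun N : ℕ => N - 1) atTop atTop := tendsto_sub_atTop_nat 1
        simpa using (h1.comp h2).const_mul B
      refine squeeze_zero' (Eventually.of_forall fun N => integral_nonneg fun _ => sq_nonneg _) ?_ hgeo
      filter_upwards [eventually_ge_atTop 1] with N hN
      refine hbd _ (isWin_ball hT a N) v (N - 1) (fun u hu => ?_) τ ⟨hτ, le_rfl⟩
      rw [mem_ball hT] at hu ⊢
      have := (hT.connected).dist_triangle (u := a) (v := v) (w := u)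
      omega
    have h1a := hone hθ.1 hθ.2.1 a (by simp)
    have h1b := hone hθ.1 hθ.2.1 b (by rw [dist_eq_one_iff_adj.mpr hab])
    have h2a := hone hθ'.1 hθ'.2.1 a (by simp)
    have h2b := hone hθ'.1 hθ'.2.1 b (by rw [dist_eq_one_iff_adj.mpr hab])
    set C : ℝ := 4 * (4 * L) ^ 2 with hC
    have hsum := ((h1a.add h1b).add (h2a.add h2b)).const_mul C
    simp only [add_zero, mul_zero] at hsum
    refine squeeze_zero' (Eventually.of_forall fun N => integral_nonneg fun _ => sq_nonneg _) ?_ hsum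
    filter_upwards [eventually_ge_atTop 1] with N hN
    have hint : ∀ {ϑ : ℝ}, 0 ≤ ϑ → ϑ ≤ 3 / 4 → ∀ v : V, Integrable
        (fun ω => (mW G ϑ (kap ε) (ball G a N) ω τ v - mInf G ϑ (kap ε) ω τ v) ^ 2) (PP V) := by
      intro ϑ hϑ0 hϑ1 v
      have hlt : ϑ < 1 := by linarith
      have hm := ((bp_measurable_mW_at (G := G) (θ := ϑ) hκ (ball G a N) τ v).sub
        (measurable_mInf_at (G := G) (θ := ϑ) hκ τ v)).pow_const 2
      refine integrable_of_bdd hm (M := 4) fun ω => ?_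
      have h3 := abs_mW_le (G := G) hϑ0 hlt (κ := kap ε) (ball G a N) ω τ v
      have h4 := abs_mInf_le hG (κ := kap ε) hϑ0 hlt ω τ v
      rw [abs_of_nonneg (sq_nonneg _)]
      have h5 := abs_le.1 h3
      have h6 := abs_le.1 h4
      nlinarith
    have hpt : ∀ ω, (fWin G θ θ' (kap ε) τ N a b ω - fPair G θ θ' (kap ε) ω τ a b) ^ 2 ≤
        C * (((mW G θ (kap ε) (ball G a N) ω τ a - mInf G θ (kap ε) ω τ a) ^ 2 +
          (mW G θ (kap ε) (ball G a N) ω τ b - mInf G θ (kap ε) ω τ b) ^ 2) +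
          ((mW G θ' (kap ε) (ball G a N) ω τ a - mInf G θ' (kap ε) ω τ a) ^ 2 +
          (mW G θ' (kap ε) (ball G a N) ω τ b - mInf G θ' (kap ε) ω τ b) ^ 2)) := by
      intro ω
      have hb1 := hlip θ _ _ _ _ hθ.1 hθle (hwin hθ.1 hθle a b N ω hab hN).1
        (hwin hθ.1 hθle a b N ω hab hN).2 (hinf hθ.1 hθle a ω) (hinf hθ.1 hθle b ω)
      have hb2 := hlip θ' _ _ _ _ hθ'.1 hθle' (hwin hθ'.1 hθle' a b N ω hab hN).1
        (hwin hθ'.1 hθle' a b N ω hab hN).2 (hinf hθ'.1 hθle' a ω) (hinf hθ'.1 hθle' b ω)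
      set x₁ := mW G θ (kap ε) (ball G a N) ω τ a - mInf G θ (kap ε) ω τ a with hx₁
      set x₂ := mW G θ (kap ε) (ball G a N) ω τ b - mInf G θ (kap ε) ω τ b with hx₂
      set x₃ := mW G θ' (kap ε) (ball G a N) ω τ a - mInf G θ' (kap ε) ω τ a with hx₃
      set x₄ := mW G θ' (kap ε) (ball G a N) ω τ b - mInf G θ' (kap ε) ω τ b with hx₄
      have hdiff : fWin G θ θ' (kap ε) τ N a b ω - fPair G θ θ' (kap ε) ω τ a b =
          (aOf θ (mW G θ (kap ε) (ball G a N) ω τ a) (mW G θ (kap ε) (ball G a N) ω τ b) -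
            aOf θ (mInf G θ (kap ε) ω τ a) (mInf G θ (kap ε) ω τ b)) -
          (aOf θ' (mW G θ' (kap ε) (ball G a N) ω τ a) (mW G θ' (kap ε) (ball G a N) ω τ b) -
            aOf θ' (mInf G θ' (kap ε) ω τ a) (mInf G θ' (kap ε) ω τ b)) := by
        unfold fWin fPair
        ring
      rw [hdiff]
      exact aux_sq _ _ _ _ _ _ _ hb1 hb2
    have hI1 := hint hθ.1 hθle a
    have hI2 := hint hθ.1 hθle b
    have hI3 := hint hθ'.1 hθle' a
    have hI4 := hint hθ'.1 hθle' b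
    have hmeasf : Measurable fun ω => (fWin G θ θ' (kap ε) τ N a b ω - fPair G θ θ' (kap ε) ω τ a b) ^ 2 :=
      ((measurable_fWin hκ τ N a b).sub (measurable_fPair hκ τ a b)).pow_const 2
    calc ∫ ω, (fWin G θ θ' (kap ε) τ N a b ω - fPair G θ θ' (kap ε) ω τ a b) ^ 2 ∂(PP V)
        ≤ ∫ ω, C * (((mW G θ (kap ε) (ball G a N) ω τ a - mInf G θ (kap ε) ω τ a) ^ 2 +
          (mW G θ (kap ε) (ball G a N) ω τ b - mInf G θ (kap ε) ω τ b) ^ 2) +
          ((mW G θ' (kap ε) (ball G a N) ω τ a - mInf G θ' (kap ε) ω τ a) ^ 2 +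
          (mW G θ' (kap ε) (ball G a N) ω τ b - mInf G θ' (kap ε) ω τ b) ^ 2)) ∂(PP V) := by
          refine integral_mono_of_nonneg (Eventually.of_forall fun _ => sq_nonneg _) ?_
            (Eventually.of_forall hpt)
          exact ((hI1.add hI2).add (hI3.add hI4)).const_mul C
      _ = _ := by
          rw [integral_const_mul, integral_add4 hI1 hI2 hI3 hI4]

/-- `bsv_pair` (Task E4), with `C = 40`. -/
theorem bsv_pair (hG : Tree G d) : ∃ C : ℝ, 0 < C ∧ ∀ {θ θ' ε τ₁ : ℝ}, ThetaRange d θ → ThetaRange d θ' →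
    0 < ε → ε ≤ 1 / 2 → ∀ τ ∈ Ioc 0 τ₁, ∀ (x : ℕ → V) (r : ℕ), IsGeod G x r → 1 ≤ r →
      ∫ ω, (∑ i ∈ Finset.range r, (fPair G θ θ' (kap ε) ω τ (x i) (x (i + 1)) -
          ∫ ω', fPair G θ θ' (kap ε) ω' τ (x 0) (x 1) ∂(PP V))) ^ 2 ∂(PP V) ≤
        C * r * ∫ ω, fPair G θ θ' (kap ε) ω τ (x 0) (x 1) ^ 2 ∂(PP V) := by
  refine ⟨40, by norm_num, ?_⟩
  intro θ θ' ε τ₁ hθ hθ' h0 h1 τ hτ x r hx hr
  have hT := hG.tree
  have hκ := (isStrength_kap h0.le h1).meas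
  obtain ⟨M, hM0, hMw, hMp, hL2⟩ := fWin_L2 hG hθ hθ' h0 h1 τ hτ.1.le
  have hadj : ∀ i, i < r → G.Adj (x i) (x (i + 1)) := hx.adj
  have h01 : G.Adj (x 0) (x 1) := hadj 0 (by omega)
  -- the window inequality
  have hwin : ∀ N,
      ∫ ω, (∑ i ∈ Finset.range r, (fWin G θ θ' (kap ε) τ (N + 1) (x i) (x (i + 1)) ω -
          ∫ ω', fWin G θ θ' (kap ε) τ (N + 1) (x 0) (x 1) ω' ∂(PP V))) ^ 2 ∂(PP V) ≤
        40 * r * ∫ ω, fWin G θ θ' (kap ε) τ (N + 1) (x 0) (x 1) ω ^ 2 ∂(PP V) := by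
    intro N
    have hmeas := fun a b => measurable_fWin (G := G) (θ := θ) (θ' := θ') hκ τ (N + 1) a b
    have key := bsv_path_sum vlaw hT hG.reg hG.hd
      (fun a b y => fWin G θ θ' (kap ε) τ (N + 1) a b (toOm y)) (N + 1)
      (fun a b hab => ⟨(hmeas a b).comp measurable_toOm, M, fun y => hMw _ a b _ hab (by omega)⟩)
      (fun a b hab y y' hyy => fWin_congr_labels (fun v hv n => by
          show (y v).1 n = (y' v).1 n
          rw [hyy v hv]) (fun v hv n => by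
          show (y v).2 n = (y' v).2 n
          rw [hyy v hv]))
      (fun g a b hab => Eventually.of_forall fun y => by
        show fWin G θ θ' (kap ε) τ (N + 1) (g a) (g b) (toOm y) =
          fWin G θ θ' (kap ε) τ (N + 1) a b (toOm (y ∘ g))
        rw [toOm_comp, fWin_act hT])
      hx h01
    have hm1 : ∫ y, fWin G θ θ' (kap ε) τ (N + 1) (x 0) (x 1) (toOm y) ∂(prodM V vlaw) =
        ∫ ω, fWin G θ θ' (kap ε) τ (N + 1) (x 0) (x 1) ω ∂(PP V) := integral_toOm (hmeas _ _)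
    rw [hm1] at key
    set m := ∫ ω, fWin G θ θ' (kap ε) τ (N + 1) (x 0) (x 1) ω ∂(PP V) with hm
    have hms : Measurable fun ω => (∑ i ∈ Finset.range r,
        (fWin G θ θ' (kap ε) τ (N + 1) (x i) (x (i + 1)) ω - m)) ^ 2 :=
      (Finset.measurable_sum _ fun i _ => (hmeas _ _).sub_const m).pow_const 2
    have hmv : Measurable fun ω => (fWin G θ θ' (kap ε) τ (N + 1) (x 0) (x 1) ω - m) ^ 2 :=
      ((hmeas _ _).sub_const m).pow_const 2
    rw [integral_toOm (F := fun ω => (∑ i ∈ Finset.range r,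
        (fWin G θ θ' (kap ε) τ (N + 1) (x i) (x (i + 1)) ω - m)) ^ 2) hms,
      integral_toOm (F := fun ω => (fWin G θ θ' (kap ε) τ (N + 1) (x 0) (x 1) ω - m) ^ 2) hmv] at key
    refine key.trans (mul_le_mul_of_nonneg_left ?_ (by positivity))
    exact integral_sub_mean_sq_le (hmeas _ _) (M := M) fun ω => hMw _ _ _ ω h01 (by omega)
  -- the limit
  have hL3 : ∀ i, i ∈ Finset.range r → Tendsto (fun N : ℕ =>
      ∫ ω, (fWin G θ θ' (kap ε) τ (N + 1) (x i) (x (i + 1)) ω -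
        fPair G θ θ' (kap ε) ω τ (x i) (x (i + 1))) ^ 2 ∂(PP V)) atTop (𝓝 0) := fun i hi =>
    (hL2 _ _ (hadj i (Finset.mem_range.1 hi))).comp (tendsto_add_atTop_nat 1)
  have h00 : 0 ∈ Finset.range r := Finset.mem_range.2 (by omega)
  have hmeasW := fun (N : ℕ) a b => measurable_fWin (G := G) (θ := θ) (θ' := θ') hκ τ N a b
  have hmeasP := fun a b => measurable_fPair (G := G) (θ := θ) (θ' := θ') hκ τ a b
  -- means converge
  have hmean : Tendsto (fun N : ℕ => ∫ ω, fWin G θ θ' (kap ε) τ (N + 1) (x 0) (x 1) ω ∂(PP V)) atTop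
      (𝓝 (∫ ω, fPair G θ θ' (kap ε) ω τ (x 0) (x 1) ∂(PP V))) :=
    tendsto_integral_of_L2 (M := M) (fun N => hmeasW _ _ _) (hmeasP _ _)
      (fun N ω => hMw _ _ _ ω h01 (by omega)) (fun ω => hMp _ _ ω) (hL3 0 h00)
  have hsq : Tendsto (fun N : ℕ => ∫ ω, fWin G θ θ' (kap ε) τ (N + 1) (x 0) (x 1) ω ^ 2 ∂(PP V)) atTop
      (𝓝 (∫ ω, fPair G θ θ' (kap ε) ω τ (x 0) (x 1) ^ 2 ∂(PP V))) :=
    tendsto_integral_sq_of_L2 (M := M) (fun N => hmeasW _ _ _) (hmeasP _ _)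
      (fun N ω => hMw _ _ _ ω h01 (by omega)) (fun ω => hMp _ _ ω) (hL3 0 h00)
  set mI := ∫ ω, fPair G θ θ' (kap ε) ω τ (x 0) (x 1) ∂(PP V) with hmI
  set mN : ℕ → ℝ := fun N => ∫ ω, fWin G θ θ' (kap ε) τ (N + 1) (x 0) (x 1) ω ∂(PP V) with hmN
  have hmNb : ∀ N, |mN N| ≤ M := fun N =>
    (abs_integral_le_integral_abs).trans (by
      have : ∫ ω, |fWin G θ θ' (kap ε) τ (N + 1) (x 0) (x 1) ω| ∂(PP V) ≤ ∫ _ω, M ∂(PP V) :=
        integral_mono_of_nonneg (Eventually.of_forall fun _ => abs_nonneg _) (integrable_const _)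
          (Eventually.of_forall fun ω => hMw _ _ _ ω h01 (by omega))
      simpa using this)
  have hmIb : |mI| ≤ M :=
    (abs_integral_le_integral_abs).trans (by
      have : ∫ ω, |fPair G θ θ' (kap ε) ω τ (x 0) (x 1)| ∂(PP V) ≤ ∫ _ω, M ∂(PP V) :=
        integral_mono_of_nonneg (Eventually.of_forall fun _ => abs_nonneg _) (integrable_const _)
          (Eventually.of_forall fun ω => hMp _ _ ω)
      simpa using this)
  have hsum := L2_sum (μ := PP V) (Finset.range r) (M := M + M)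
    (F := fun i N ω => fWin G θ θ' (kap ε) τ (N + 1) (x i) (x (i + 1)) ω - mN N)
    (f := fun i ω => fPair G θ θ' (kap ε) ω τ (x i) (x (i + 1)) - mI)
    (fun i _ N => (hmeasW _ _ _).sub_const _) (fun i _ => (hmeasP _ _).sub_const _)
    (fun i hi N ω => (abs_sub _ _).trans (add_le_add
      (hMw _ _ _ ω (hadj i (Finset.mem_range.1 hi)) (by omega)) (hmNb N)))
    (fun i _ ω => (abs_sub _ _).trans (add_le_add (hMp _ _ ω) hmIb))
    (fun i hi => L2_sub_const (M := M) (fun N => hmeasW _ _ _) (hmeasP _ _)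
      (fun N ω => hMw _ _ _ ω (hadj i (Finset.mem_range.1 hi)) (by omega)) (fun ω => hMp _ _ ω)
      (hL3 i hi) hmean)
  have hbdA : ∀ N ω, |∑ i ∈ Finset.range r, (fWin G θ θ' (kap ε) τ (N + 1) (x i) (x (i + 1)) ω - mN N)|
      ≤ r * (M + M) := fun N ω => by
    refine (Finset.abs_sum_le_sum_abs _ _).trans ?_
    refine (Finset.sum_le_card_nsmul _ _ (M + M) fun i hi => (abs_sub _ _).trans (add_le_add
      (hMw _ _ _ ω (hadj i (Finset.mem_range.1 hi)) (by omega)) (hmNb N))).trans ?_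
    simp only [Finset.card_range, nsmul_eq_mul]
    exact le_rfl
  have hbdB : ∀ ω, |∑ i ∈ Finset.range r, (fPair G θ θ' (kap ε) ω τ (x i) (x (i + 1)) - mI)|
      ≤ r * (M + M) := fun ω => by
    refine (Finset.abs_sum_le_sum_abs _ _).trans ?_
    refine (Finset.sum_le_card_nsmul _ _ (M + M) fun i _ => (abs_sub _ _).trans (add_le_add
      (hMp _ _ ω) hmIb)).trans ?_
    simp only [Finset.card_range, nsmul_eq_mul]
    exact le_rfl
  have hA := tendsto_integral_sq_of_L2 (μ := PP V) (M := r * (M + M))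
    (F := fun N ω => ∑ i ∈ Finset.range r, (fWin G θ θ' (kap ε) τ (N + 1) (x i) (x (i + 1)) ω - mN N))
    (f := fun ω => ∑ i ∈ Finset.range r, (fPair G θ θ' (kap ε) ω τ (x i) (x (i + 1)) - mI))
    (fun N => Finset.measurable_sum _ fun i _ => (hmeasW _ _ _).sub_const _)
    (Finset.measurable_sum _ fun i _ => (hmeasP _ _).sub_const _) hbdA hbdB hsum
  exact le_of_tendsto_of_tendsto' hA (hsq.const_mul _) hwin

end Crest.Agent.Lib.IsingFIID
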