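/-
Row 160 (S0241): elementary Hölder tools for bounded functions on a probability space, with `lpN`.
-/
import Crest.Agent.Lib.IsingFIID.Defs

set_option autoImplicit false
set_option linter.unusedSectionVars false

namespace Crest.Agent.Lib.IsingFIID

open MeasureTheory Filter Topology Set
open scoped ENNReal

variable {Ω : Type*} [MeasurableSpace Ω] {P : Measure Ω} [IsProbabilityMeasure P]

theorem memLp_of_bd {f : Ω → ℝ} (hf : Measurable f) {C : ℝ} (hC : ∀ ω, |f ω| ≤ C) (r : ℝ≥0∞) :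
    MemLp f r P :=
  MemLp.of_bound hf.aestronglyMeasurable C (Eventually.of_forall fun ω => by simpa using hC ω)

theorem integrable_bd {f : Ω → ℝ} (hf : Measurable f) {C : ℝ} (hC : ∀ ω, |f ω| ≤ C) : Integrable f P :=
  Integrable.of_bound hf.aestronglyMeasurable C (Eventually.of_forall fun ω => by simpa using hC ω)

theorem lpN_nonneg (f : Ω → ℝ) (Q : ℝ) : 0 ≤ lpN P f Q := by
  unfold lpN
  exact Real.rpow_nonneg (integral_nonneg fun ω => Real.rpow_nonneg (abs_nonneg _) _) _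

/-- Hölder in the `lpN` language. -/
theorem integral_mul_le_lpN {f g : Ω → ℝ} {a b : ℝ} (hab : a.HolderConjugate b) (hf : Measurable f)
    (hg : Measurable g) (hf0 : ∀ ω, 0 ≤ f ω) (hg0 : ∀ ω, 0 ≤ g ω) {C C' : ℝ} (hfC : ∀ ω, |f ω| ≤ C)
    (hgC : ∀ ω, |g ω| ≤ C') : ∫ ω, f ω * g ω ∂P ≤ lpN P f a * lpN P g b := by
  have h := integral_mul_le_Lp_mul_Lq_of_nonneg (μ := P) hab
    (Eventually.of_forall hf0) (Eventually.of_forall hg0) (memLp_of_bd hf hfC _) (memLp_of_bd hg hgC _)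
  unfold lpN
  have e1 : ∀ ω, |f ω| ^ a = f ω ^ a := fun ω => by rw [abs_of_nonneg (hf0 ω)]
  have e2 : ∀ ω, |g ω| ^ b = g ω ^ b := fun ω => by rw [abs_of_nonneg (hg0 ω)]
  simpa only [e1, e2] using h

/-- Measurability of a real power. -/
theorem measurable_abs_rpow {f : Ω → ℝ} (hf : Measurable f) (Q : ℝ) :
    Measurable fun ω => |f ω| ^ Q :=
  (hf.abs).pow_const Q

/-- Product norm: `‖A B‖_p ≤ ‖A‖_{2p} ‖B‖_{2p}`. -/
theorem lpN_mul_le {A B : Ω → ℝ} (hA : Measurable A) (hB : Measurable B) (hA0 : ∀ ω, 0 ≤ A ω)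
    (hB0 : ∀ ω, 0 ≤ B ω) {C C' : ℝ} (hAC : ∀ ω, |A ω| ≤ C) (hBC : ∀ ω, |B ω| ≤ C') {Q : ℝ} (hQ : 1 ≤ Q) :
    lpN P (fun ω => A ω * B ω) Q ≤ lpN P A (2 * Q) * lpN P B (2 * Q) := by
  have hQ0 : 0 < Q := by linarith
  -- Cauchy-Schwarz on `A^Q`, `B^Q`
  have hbd : ∀ {X : Ω → ℝ} {K : ℝ}, (∀ ω, |X ω| ≤ K) → ∀ ω, |(|X ω| ^ Q)| ≤ max 1 K ^ Q := by
    intro X K hK ω
    rw [abs_of_nonneg (Real.rpow_nonneg (abs_nonneg _) _)]
    exact Real.rpow_le_rpow (abs_nonneg _) ((hK ω).trans (le_max_right _ _)) hQ0.le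
  have h2 : (2 : ℝ).HolderConjugate 2 := by
    refine ⟨by norm_num, ?_, ?_⟩ <;> norm_num
  have hcs := integral_mul_le_lpN (P := P) h2 (measurable_abs_rpow hA Q) (measurable_abs_rpow hB Q)
    (fun ω => Real.rpow_nonneg (abs_nonneg _) _) (fun ω => Real.rpow_nonneg (abs_nonneg _) _)
    (hbd hAC) (hbd hBC)
  have e : ∀ X : Ω → ℝ, lpN P (fun ω => |X ω| ^ Q) 2 = lpN P X (2 * Q) ^ Q := by
    intro X
    unfold lpN
    have e1 : ∀ ω, |(|X ω| ^ Q)| ^ (2 : ℝ) = |X ω| ^ (2 * Q) := by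
      intro ω
      rw [abs_of_nonneg (Real.rpow_nonneg (abs_nonneg _) _), ← Real.rpow_mul (abs_nonneg _), mul_comm]
    simp only [e1]
    rw [← Real.rpow_mul (integral_nonneg fun ω => Real.rpow_nonneg (abs_nonneg _) _)]
    congr 1
    field_simp
  rw [e, e] at hcs
  have e3 : ∫ ω, |A ω * B ω| ^ Q ∂P = ∫ ω, |A ω| ^ Q * |B ω| ^ Q ∂P := by
    refine integral_congr_ae (Eventually.of_forall fun ω => ?_)
    simp only [abs_mul]
    rw [Real.mul_rpow (abs_nonneg _) (abs_nonneg _)]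
  unfold lpN at hcs ⊢
  rw [e3]
  have hp1 : 0 ≤ ∫ ω, |A ω| ^ Q * |B ω| ^ Q ∂P := integral_nonneg fun ω =>
    mul_nonneg (Real.rpow_nonneg (abs_nonneg _) _) (Real.rpow_nonneg (abs_nonneg _) _)
  have hA1 : 0 ≤ (∫ ω, |A ω| ^ (2 * Q) ∂P) ^ (1 / (2 * Q)) :=
    Real.rpow_nonneg (integral_nonneg fun ω => Real.rpow_nonneg (abs_nonneg _) _) _
  have hB1 : 0 ≤ (∫ ω, |B ω| ^ (2 * Q) ∂P) ^ (1 / (2 * Q)) :=
    Real.rpow_nonneg (integral_nonneg fun ω => Real.rpow_nonneg (abs_nonneg _) _) _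
  calc (∫ ω, |A ω| ^ Q * |B ω| ^ Q ∂P) ^ (1 / Q)
      ≤ (((∫ ω, |A ω| ^ (2 * Q) ∂P) ^ (1 / (2 * Q))) ^ Q *
          ((∫ ω, |B ω| ^ (2 * Q) ∂P) ^ (1 / (2 * Q))) ^ Q) ^ (1 / Q) :=
        Real.rpow_le_rpow hp1 hcs (by positivity)
    _ = _ := by
        rw [Real.mul_rpow (Real.rpow_nonneg hA1 _) (Real.rpow_nonneg hB1 _),
          ← Real.rpow_mul hA1, ← Real.rpow_mul hB1]
        have : Q * (1 / Q) = 1 := by field_simp
        rw [this, Real.rpow_one, Real.rpow_one]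

/-- The conjugate exponent of a natural `p ≥ 2`. -/
theorem holder_nat {p : ℕ} (hp : 2 ≤ p) :
    (p : ℝ).HolderConjugate ((p : ℝ) / ((p : ℝ) - 1)) := by
  have h : (1 : ℝ) < p := by exact_mod_cast (by omega : 1 < p)
  exact Real.HolderConjugate.conjExponent h

/-- `‖Δ²‖_{p'} ≤ 4^{1/p} (E Δ²)^{1-1/p}` for `Δ² ≤ 4`. -/
theorem lpN_sq_le {g : Ω → ℝ} (hg : Measurable g) (hg0 : ∀ ω, 0 ≤ g ω) (hg4 : ∀ ω, g ω ≤ 4) {p : ℕ}
    (hp : 2 ≤ p) :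
    lpN P g ((p : ℝ) / ((p : ℝ) - 1)) ≤ (4 : ℝ) ^ (1 / (p : ℝ)) * (∫ ω, g ω ∂P) ^ (1 - 1 / (p : ℝ)) := by
  have h1 : (1 : ℝ) < p := by exact_mod_cast (by omega : 1 < p)
  set q : ℝ := (p : ℝ) / ((p : ℝ) - 1) with hq
  have hp0 : (0 : ℝ) < p := by linarith
  have hq1 : 1 < q := by
    rw [hq, lt_div_iff₀ (by linarith)]
    linarith
  have hpoint : ∀ ω, |g ω| ^ q ≤ (4 : ℝ) ^ (q - 1) * g ω := by
    intro ω
    rw [abs_of_nonneg (hg0 ω)]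
    have : g ω ^ q = g ω ^ (q - 1) * g ω := by
      by_cases h0 : g ω = 0
      · rw [h0, Real.zero_rpow (by linarith)]; simp
      · have hpos : 0 < g ω := lt_of_le_of_ne (hg0 ω) (Ne.symm h0)
        rw [← Real.rpow_add_one h0]
        congr 1
        ring
    rw [this]
    exact mul_le_mul_of_nonneg_right (Real.rpow_le_rpow (hg0 ω) (hg4 ω) (by linarith)) (hg0 ω)
  have hgi : Integrable g P := integrable_bd hg (C := 4) fun ω => by
    rw [abs_of_nonneg (hg0 ω)]; exact hg4 ω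
  have hint : ∫ ω, |g ω| ^ q ∂P ≤ (4 : ℝ) ^ (q - 1) * ∫ ω, g ω ∂P := by
    rw [← integral_const_mul]
    refine integral_mono_of_nonneg (Eventually.of_forall fun ω => Real.rpow_nonneg (abs_nonneg _) _)
      (hgi.const_mul _) (Eventually.of_forall hpoint)
  have hI0 : 0 ≤ ∫ ω, g ω ∂P := integral_nonneg hg0
  unfold lpN
  have hq0 : 0 < q := by linarith
  calc (∫ ω, |g ω| ^ q ∂P) ^ (1 / q) ≤ ((4 : ℝ) ^ (q - 1) * ∫ ω, g ω ∂P) ^ (1 / q) :=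
        Real.rpow_le_rpow (integral_nonneg fun ω => Real.rpow_nonneg (abs_nonneg _) _) hint (by positivity)
    _ = _ := by
        rw [Real.mul_rpow (by positivity) hI0, ← Real.rpow_mul (by norm_num)]
        have e1 : (q - 1) * (1 / q) = 1 / (p : ℝ) := by
          rw [hq]
          have : (p : ℝ) - 1 ≠ 0 := by linarith
          field_simp
          ring
        have e2 : 1 / q = 1 - 1 / (p : ℝ) := by
          rw [hq]
          have : (p : ℝ) - 1 ≠ 0 := by linarith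
          field_simp
        rw [e1, e2]

/-- Three-factor Hölder. -/
theorem integral_mul_mul_le {A B g : Ω → ℝ} (hA : Measurable A) (hB : Measurable B) (hg : Measurable g)
    (hA0 : ∀ ω, 0 ≤ A ω) (hB0 : ∀ ω, 0 ≤ B ω) (hg0 : ∀ ω, 0 ≤ g ω) {C C' : ℝ} (hAC : ∀ ω, |A ω| ≤ C)
    (hBC : ∀ ω, |B ω| ≤ C') (hg4 : ∀ ω, g ω ≤ 4) {p : ℕ} (hp : 2 ≤ p) :
    ∫ ω, A ω * B ω * g ω ∂P ≤ lpN P A (2 * (p : ℝ)) * lpN P B (2 * (p : ℝ)) *
      ((4 : ℝ) ^ (1 / (p : ℝ)) * (∫ ω, g ω ∂P) ^ (1 - 1 / (p : ℝ))) := by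
  have h1 : (1 : ℝ) ≤ p := by exact_mod_cast (by omega : 1 ≤ p)
  have hgb : ∀ ω, |g ω| ≤ 4 := fun ω => by rw [abs_of_nonneg (hg0 ω)]; exact hg4 ω
  have hAB : ∀ ω, |A ω * B ω| ≤ C * C' := fun ω => by
    rw [abs_mul]
    exact mul_le_mul (hAC ω) (hBC ω) (abs_nonneg _) ((abs_nonneg _).trans (hAC ω))
  have h2 := integral_mul_le_lpN (P := P) (holder_nat hp) (hA.mul hB) hg
    (fun ω => mul_nonneg (hA0 ω) (hB0 ω)) hg0 hAB hgb
  have h3 := lpN_mul_le (P := P) hA hB hA0 hB0 hAC hBC h1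
  have h4 := lpN_sq_le (P := P) hg hg0 hg4 hp
  calc _ ≤ lpN P (fun ω => A ω * B ω) p * lpN P g ((p : ℝ) / ((p : ℝ) - 1)) := h2
    _ ≤ _ := mul_le_mul h3 h4 (lpN_nonneg _ _) (mul_nonneg (lpN_nonneg _ _) (lpN_nonneg _ _))

/-- Two-factor Hölder with `g ≤ 4`. -/
theorem integral_mul_sq_le {A g : Ω → ℝ} (hA : Measurable A) (hg : Measurable g)
    (hA0 : ∀ ω, 0 ≤ A ω) (hg0 : ∀ ω, 0 ≤ g ω) {C : ℝ} (hAC : ∀ ω, |A ω| ≤ C)
    (hg4 : ∀ ω, g ω ≤ 4) {p : ℕ} (hp : 2 ≤ p) :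
    ∫ ω, A ω * g ω ∂P ≤ lpN P A (p : ℝ) *
      ((4 : ℝ) ^ (1 / (p : ℝ)) * (∫ ω, g ω ∂P) ^ (1 - 1 / (p : ℝ))) := by
  have hgb : ∀ ω, |g ω| ≤ 4 := fun ω => by rw [abs_of_nonneg (hg0 ω)]; exact hg4 ω
  have h2 := integral_mul_le_lpN (P := P) (holder_nat hp) hA hg hA0 hg0 hAC hgb
  have h4 := lpN_sq_le (P := P) hg hg0 hg4 hp
  exact h2.trans (mul_le_mul_of_nonneg_left h4 (lpN_nonneg _ _))

/-- Average of functions: Jensen. -/
theorem lpN_avg_le {ι : Type*} {s : Finset ι} {X : ι → Ω → ℝ} (hX : ∀ c ∈ s, Measurable (X c))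
    (hX0 : ∀ c ∈ s, ∀ ω, 0 ≤ X c ω) {K : ℝ} (hXK : ∀ c ∈ s, ∀ ω, |X c ω| ≤ K) {Q M : ℝ} (hQ : 1 ≤ Q)
    (hM : ∀ c ∈ s, lpN P (X c) Q ≤ M) (hs : s.Nonempty) :
    lpN P (fun ω => (1 / (s.card : ℝ)) * ∑ c ∈ s, X c ω) Q ≤ M := by
  have hQ0 : 0 < Q := by linarith
  have hcard : (0 : ℝ) < s.card := by exact_mod_cast hs.card_pos
  have hM0 : 0 ≤ M := by
    obtain ⟨c, hc⟩ := hs
    exact (lpN_nonneg _ _).trans (hM c hc)
  have hpt : ∀ ω, |(1 / (s.card : ℝ)) * ∑ c ∈ s, X c ω| ^ Q ≤ (1 / (s.card : ℝ)) * ∑ c ∈ s, |X c ω| ^ Q := by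
    intro ω
    have h := Real.rpow_arith_mean_le_arith_mean_rpow s (fun _ => 1 / (s.card : ℝ)) (fun c => X c ω)
      (fun _ _ => by positivity) (by
        rw [Finset.sum_const, nsmul_eq_mul]
        field_simp) (fun c hc => hX0 c hc ω) hQ
    rw [abs_of_nonneg (mul_nonneg (by positivity) (Finset.sum_nonneg fun c hc => hX0 c hc ω))]
    have e1 : (1 / (s.card : ℝ)) * ∑ c ∈ s, X c ω = ∑ c ∈ s, (1 / (s.card : ℝ)) * X c ω := by
      rw [Finset.mul_sum]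
    rw [e1]
    refine h.trans (le_of_eq ?_)
    rw [Finset.mul_sum]
    refine Finset.sum_congr rfl fun c hc => ?_
    rw [abs_of_nonneg (hX0 c hc ω)]
  have hint : ∀ c ∈ s, Integrable (fun ω => |X c ω| ^ Q) P := by
    intro c hc
    refine integrable_bd (measurable_abs_rpow (hX c hc) Q) (C := max 1 K ^ Q) fun ω => ?_
    rw [abs_of_nonneg (Real.rpow_nonneg (abs_nonneg _) _)]
    exact Real.rpow_le_rpow (abs_nonneg _) ((hXK c hc ω).trans (le_max_right _ _)) hQ0.le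
  have hsumI : ∫ ω, (1 / (s.card : ℝ)) * ∑ c ∈ s, |X c ω| ^ Q ∂P ≤ M ^ Q := by
    rw [integral_const_mul, integral_finsetSum _ hint]
    have : ∀ c ∈ s, ∫ ω, |X c ω| ^ Q ∂P ≤ M ^ Q := by
      intro c hc
      have h1 := hM c hc
      unfold lpN at h1
      have h0 : 0 ≤ ∫ ω, |X c ω| ^ Q ∂P := integral_nonneg fun ω => Real.rpow_nonneg (abs_nonneg _) _
      have h2 := Real.rpow_le_rpow (Real.rpow_nonneg h0 _) h1 hQ0.le
      rwa [← Real.rpow_mul h0, one_div, inv_mul_cancel₀ hQ0.ne', Real.rpow_one] at h2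
    calc (1 / (s.card : ℝ)) * ∑ c ∈ s, ∫ ω, |X c ω| ^ Q ∂P
        ≤ (1 / (s.card : ℝ)) * ∑ c ∈ s, M ^ Q :=
          mul_le_mul_of_nonneg_left (Finset.sum_le_sum this) (by positivity)
      _ = M ^ Q := by
          rw [Finset.sum_const, nsmul_eq_mul]
          field_simp
  have hfin : ∫ ω, |(1 / (s.card : ℝ)) * ∑ c ∈ s, X c ω| ^ Q ∂P ≤ M ^ Q := by
    refine le_trans (integral_mono_of_nonneg
      (Eventually.of_forall fun ω => Real.rpow_nonneg (abs_nonneg _) _) ?_ (Eventually.of_forall hpt)) hsumI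
    exact (integrable_finsetSum _ hint).const_mul _
  unfold lpN
  have h0 : 0 ≤ ∫ ω, |(1 / (s.card : ℝ)) * ∑ c ∈ s, X c ω| ^ Q ∂P :=
    integral_nonneg fun ω => Real.rpow_nonneg (abs_nonneg _) _
  calc _ ≤ (M ^ Q) ^ (1 / Q) := Real.rpow_le_rpow h0 hfin (by positivity)
    _ = M := by rw [← Real.rpow_mul hM0, mul_one_div, div_self hQ0.ne', Real.rpow_one]

end Crest.Agent.Lib.IsingFIID
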