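/-
Row 160 (S0241): automorphism-invariant fields of means; the average over arms of a path.
-/
import Crest.Agent.Lib.IsingFIID.Basic
import Crest.Agent.Lib.IsingFIID.LpTools

set_option autoImplicit false
set_option linter.unusedSectionVars false

namespace Crest.Agent.Lib.IsingFIID

open MeasureTheory Filter Topology Set SimpleGraph
open scoped ENNReal

variable {V : Type*} [DecidableEq V] {G : SimpleGraph V} [G.LocallyFinite] {d : ℕ}
variable {Ω : Type*} [MeasurableSpace Ω] {P : Measure Ω} [IsProbabilityMeasure P]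

theorem integrable_of_bd {f : Ω → ℝ} (hf : Measurable f) {C : ℝ} (hC : ∀ ω, |f ω| ≤ C) :
    Integrable f P :=
  Integrable.of_bound hf.aestronglyMeasurable C (Eventually.of_forall fun ω => by simpa using hC ω)

/-- Integral invariance under a measure preserving map. -/
theorem integral_comp_mp {A : Ω → Ω} (hA : MeasurePreserving A P P) {f : Ω → ℝ} (hf : Measurable f) :
    ∫ ω, f (A ω) ∂P = ∫ ω, f ω ∂P := by
  conv_rhs => rw [← hA.map_eq]
  rw [integral_map hA.measurable.aemeasurable hf.aestronglyMeasurable]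

/-- A field of means with an invariant automorphism action. -/
structure MField (G : SimpleGraph V) [G.LocallyFinite] (P : Measure Ω) (A : (G ≃g G) → Ω → Ω)
    (m : Ω → V → ℝ) (t : ℝ) : Prop where
  meas : ∀ v, Measurable fun ω => m ω v
  bd : ∀ ω v, |m ω v| ≤ t
  act : ∀ (g : G ≃g G) ω v, m (A g ω) v = m ω (g v)

/-- `u` takes values in `[0,1]` on the range of the means. -/
def UBd (θ t : ℝ) : Prop := ∀ a b, |a| ≤ t → |b| ≤ t → 0 ≤ uOf θ a b ∧ uOf θ a b ≤ 1

theorem card_children_pa (hG : Tree G d) {p x : V} (h : G.Adj x p) :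
    ((G.neighborFinset x).erase p).card = d - 1 := by
  have h1 : p ∈ G.neighborFinset x := by simpa using h
  rw [Finset.card_erase_of_mem h1, G.card_neighborFinset_eq_degree, hG.reg x]

/-- Equivariance of `wTree` under automorphisms. -/
theorem wTree_comp (g : G ≃g G) (θ : ℝ) (D : ℕ) (m : V → ℝ) (n : ℕ) (p x : V) :
    wTree G θ D (fun u => m (g u)) n p x = wTree G θ D m n (g p) (g x) := by
  induction n generalizing p x with
  | zero => simp [wTree]
  | succ n ih =>
    simp only [wTree]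
    congr 2
    simp only [ih]
    have himg : (G.neighborFinset (g x)).erase (g p) =
        ((G.neighborFinset x).erase p).image g := by
      ext c
      simp only [Finset.mem_erase, mem_neighborFinset, Finset.mem_image]
      constructor
      · rintro ⟨h1, h2⟩
        refine ⟨g.symm c, ⟨?_, ?_⟩, by simp⟩
        · intro h
          apply h1
          rw [← h]
          simp
        · have := g.symm.map_adj_iff.mpr h2
          simpa using this
      · rintro ⟨c', ⟨h1, h2⟩, rfl⟩
        exact ⟨fun h => h1 (g.injective h), g.map_adj_iff.mpr h2⟩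
    rw [himg, Finset.sum_image (fun a _ b _ h => g.injective h)]

theorem measurable_uOf_pa (θ : ℝ) : Measurable fun q : ℝ × ℝ => uOf θ q.1 q.2 := by
  unfold uOf uFun nuOf
  fun_prop

theorem measurable_wTree_pa {m : Ω → V → ℝ} (hm : ∀ v, Measurable fun ω => m ω v) (θ : ℝ)
    (D : ℕ) (n : ℕ) (p x : V) :
    Measurable fun ω => wTree G θ D (m ω) n p x := by
  induction n generalizing p x with
  | zero =>
    simp only [wTree]
    exact ((measurable_uOf_pa θ).comp ((hm p).prodMk (hm x))).pow_const 2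
  | succ n ih =>
    simp only [wTree]
    refine (((measurable_uOf_pa θ).comp ((hm p).prodMk (hm x))).pow_const 2).mul (measurable_const.mul ?_)
    exact Finset.measurable_sum _ fun c _ => ih x c

/-- `wTree` takes values in `[0,1]`. -/
theorem wTree_mem_pa (hG : Tree G d) {θ t : ℝ} (hu : UBd θ t) {m : V → ℝ} (hm : ∀ v, |m v| ≤ t)
    (n : ℕ) {p x : V} (h : G.Adj x p) :
    0 ≤ wTree G θ (d - 1) m n p x ∧ wTree G θ (d - 1) m n p x ≤ 1 := by
  have hD : (1 : ℝ) ≤ ((d - 1 : ℕ) : ℝ) := by
    have := hG.hd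
    exact_mod_cast (by omega : 1 ≤ d - 1)
  induction n generalizing p x with
  | zero =>
    simp only [wTree]
    obtain ⟨h1, h2⟩ := hu _ _ (hm p) (hm x)
    exact ⟨by positivity, pow_le_one₀ h1 h2⟩
  | succ n ih =>
    simp only [wTree]
    obtain ⟨h1, h2⟩ := hu _ _ (hm p) (hm x)
    have hs0 : 0 ≤ ∑ c ∈ (G.neighborFinset x).erase p, wTree G θ (d - 1) m n x c := by
      refine Finset.sum_nonneg fun c hc => ?_
      have : G.Adj x c := by simpa using (Finset.mem_erase.mp hc).2
      exact (ih this.symm).1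
    have hs1 : ∑ c ∈ (G.neighborFinset x).erase p, wTree G θ (d - 1) m n x c ≤ ((d - 1 : ℕ) : ℝ) := by
      calc _ ≤ ∑ c ∈ (G.neighborFinset x).erase p, (1 : ℝ) := by
            refine Finset.sum_le_sum fun c hc => ?_
            have : G.Adj x c := by simpa using (Finset.mem_erase.mp hc).2
            exact (ih this.symm).2
        _ = _ := by simp [card_children_pa hG h]
    have hpos : (0 : ℝ) < ((d - 1 : ℕ) : ℝ) := by linarith
    have h3 : (1 / ((d - 1 : ℕ) : ℝ)) * ∑ c ∈ (G.neighborFinset x).erase p, wTree G θ (d - 1) m n x c ≤ 1 := by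
      rw [one_div, inv_mul_le_iff₀ hpos]
      simpa using hs1
    have h4 : 0 ≤ (1 / ((d - 1 : ℕ) : ℝ)) * ∑ c ∈ (G.neighborFinset x).erase p, wTree G θ (d - 1) m n x c :=
      by positivity
    exact ⟨by positivity, mul_le_one₀ (pow_le_one₀ h1 h2) h4 h3⟩

/-- Product of `n` squared `u`'s along `y` starting at position `k`. -/
noncomputable def uP (θ : ℝ) (m : V → ℝ) (y : ℕ → V) (k n : ℕ) : ℝ :=
  ∏ j ∈ Finset.range n, uOf θ (m (y (k + j))) (m (y (k + j + 1))) ^ 2

theorem uP_succ (θ : ℝ) (m : V → ℝ) (y : ℕ → V) (k n : ℕ) :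
    uP θ m y k (n + 1) = uOf θ (m (y k)) (m (y (k + 1))) ^ 2 * uP θ m y (k + 1) n := by
  unfold uP
  rw [Finset.prod_range_succ']
  simp only [add_zero, mul_comm]
  congr 1
  refine Finset.prod_congr rfl fun j _ => ?_
  have h1 : k + (j + 1) = k + 1 + j := by omega
  simp only [h1]

theorem uP_mem {θ t : ℝ} (hu : UBd θ t) {m : V → ℝ} (hm : ∀ v, |m v| ≤ t) (y : ℕ → V) (k n : ℕ) :
    0 ≤ uP θ m y k n ∧ uP θ m y k n ≤ 1 := by
  unfold uP
  constructor
  · exact Finset.prod_nonneg fun j _ => by positivity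
  · refine Finset.prod_le_one (fun j _ => by positivity) fun j _ => ?_
    obtain ⟨h1, h2⟩ := hu _ _ (hm (y (k + j))) (hm (y (k + j + 1)))
    exact pow_le_one₀ h1 h2

theorem measurable_uP {m : Ω → V → ℝ} (hm : ∀ v, Measurable fun ω => m ω v) (θ : ℝ)
    (y : ℕ → V) (k n : ℕ) : Measurable fun ω => uP θ (m ω) y k n := by
  unfold uP
  exact Finset.measurable_prod _ fun j _ =>
    ((measurable_uOf_pa θ).comp ((hm _).prodMk (hm _))).pow_const 2

/-- Replace the last vertex of a geodesic by another child. -/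
theorem isGeod_update {y : ℕ → V} {r k : ℕ} (hy : IsGeod G y r) (hk : k + 2 ≤ r) {c : V}
    (hc : G.Adj (y (k + 1)) c) (hne : c ≠ y k) :
    IsGeod G (fun i => if i = k + 2 then c else y i) (k + 2) where
  adj := by
    intro i hi
    by_cases h : i = k + 1
    · subst h
      simpa using hc
    · have h1 : i ≠ k + 2 := by omega
      have h2 : i + 1 ≠ k + 2 := by omega
      simp only [h1, h2, if_false]
      exact hy.adj i (by omega)
  nb := by
    intro i hi
    by_cases h : i = k
    · subst h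
      simpa using hne
    · have h1 : i ≠ k + 2 := by omega
      have h2 : i + 2 ≠ k + 2 := by omega
      simp only [h1, h2, if_false]
      exact hy.nb i (by omega)

/-- The average over the tail of an arm: for `Φ` invariant under the stabiliser of the prefix of a
geodesic, the product along the tail integrates as `wTree`. -/
theorem arm_avg (hG : Tree G d) {A : (G ≃g G) → Ω → Ω} (hA : ∀ g, MeasurePreserving (A g) P P)
    {m : Ω → V → ℝ} {t θ : ℝ} (hm : MField G P A m t) (hu : UBd θ t)
    {y : ℕ → V} {r : ℕ} (hy : IsGeod G y r) (n k : ℕ) (hkn : k + n + 1 ≤ r) {Φ : Ω → ℝ}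
    (hΦ : Measurable Φ) (hΦb : ∃ C, ∀ ω, |Φ ω| ≤ C)
    (hinv : ∀ g : G ≃g G, (∀ i, i ≤ k → g (y i) = y i) → ∀ ω, Φ (A g ω) = Φ ω) :
    ∫ ω, uP θ (m ω) y k (n + 1) * Φ ω ∂P = ∫ ω, wTree G θ (d - 1) (m ω) n (y k) (y (k + 1)) * Φ ω ∂P := by
  induction n generalizing k Φ with
  | zero =>
    refine integral_congr_ae (Eventually.of_forall fun ω => ?_)
    simp [uP, wTree]
  | succ n ih =>
    have hkr : k + 2 ≤ r := by omega
    set x1 := y (k + 1) with hx1
    set x0 := y k with hx0
    -- the new test function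
    set Φ' : Ω → ℝ := fun ω => uOf θ (m ω x0) (m ω x1) ^ 2 * Φ ω with hΦ'
    have hU : Measurable fun ω => uOf θ (m ω x0) (m ω x1) ^ 2 :=
      ((measurable_uOf_pa θ).comp ((hm.meas _).prodMk (hm.meas _))).pow_const 2
    have hUb : ∀ ω, |uOf θ (m ω x0) (m ω x1) ^ 2| ≤ 1 := by
      intro ω
      obtain ⟨h1, h2⟩ := hu _ _ (hm.bd ω x0) (hm.bd ω x1)
      rw [abs_of_nonneg (by positivity)]
      exact pow_le_one₀ h1 h2
    obtain ⟨C, hC⟩ := hΦb
    have hΦ'm : Measurable Φ' := hU.mul hΦ
    have hΦ'b : ∃ C', ∀ ω, |Φ' ω| ≤ C' := by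
      refine ⟨1 * C, fun ω => ?_⟩
      rw [hΦ', abs_mul]
      exact mul_le_mul (hUb ω) (hC ω) (abs_nonneg _) (by norm_num)
    have hinv' : ∀ g : G ≃g G, (∀ i, i ≤ k + 1 → g (y i) = y i) → ∀ ω, Φ' (A g ω) = Φ' ω := by
      intro g hg ω
      simp only [hΦ', hm.act]
      rw [hinv g (fun i hi => hg i (by omega)) ω, hx0, hx1, hg k (by omega), hg (k + 1) le_rfl]
    have h1 := ih (k + 1) (by omega) hΦ'm hΦ'b hinv'
    -- left side
    have hL : ∫ ω, uP θ (m ω) y k (n + 1 + 1) * Φ ω ∂P = ∫ ω, uP θ (m ω) y (k + 1) (n + 1) * Φ' ω ∂P := by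
      refine integral_congr_ae (Eventually.of_forall fun ω => ?_)
      simp only [uP_succ θ (m ω) y k (n + 1), hΦ']
      ring
    rw [hL, h1]
    -- all children give the same integral
    have hchild : ∀ c ∈ (G.neighborFinset x1).erase x0,
        ∫ ω, wTree G θ (d - 1) (m ω) n x1 c * Φ' ω ∂P =
          ∫ ω, wTree G θ (d - 1) (m ω) n x1 (y (k + 2)) * Φ' ω ∂P := by
      intro c hc
      have hc1 : c ≠ x0 := (Finset.mem_erase.mp hc).1
      have hc2 : G.Adj x1 c := by simpa using (Finset.mem_erase.mp hc).2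
      have hgeo1 : IsGeod G y (k + 2) := hy.mono hkr
      have hgeo2 := isGeod_update hy hkr hc2 hc1
      obtain ⟨g, hg⟩ := exists_aut_of_geod hG.tree hG.reg hgeo1 hgeo2
      have hg1 : ∀ i, i ≤ k + 1 → g (y i) = y i := by
        intro i hi
        have := hg i (by omega)
        rw [this]
        have h2 : i ≠ k + 2 := by omega
        simp [h2]
      have hg2 : g (y (k + 2)) = c := by
        have := hg (k + 2) le_rfl
        simpa using this
      have hint : Measurable fun ω => wTree G θ (d - 1) (m ω) n x1 (y (k + 2)) * Φ' ω :=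
        (measurable_wTree_pa hm.meas θ _ n _ _).mul hΦ'm
      rw [← integral_comp_mp (hA g) hint]
      refine integral_congr_ae (Eventually.of_forall fun ω => ?_)
      have hfun : m (A g ω) = fun u => m ω (g u) := by
        funext u
        exact hm.act g ω u
      simp only [hfun]
      rw [wTree_comp g θ (d - 1) (m ω) n x1 (y (k + 2)), hinv' g hg1 ω, hg2, hx1, hg1 (k + 1) le_rfl]
    -- the average
    have hy2 : y (k + 2) ∈ (G.neighborFinset x1).erase x0 := by
      refine Finset.mem_erase.mpr ⟨hy.nb k (by omega), ?_⟩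
      simpa using hy.adj (k + 1) (by omega)
    have hx10 : G.Adj x1 x0 := (hy.adj k (by omega)).symm
    have hcard : (((G.neighborFinset x1).erase x0).card : ℝ) = ((d - 1 : ℕ) : ℝ) := by
      rw [card_children_pa hG hx10]
    have hD : (0 : ℝ) < ((d - 1 : ℕ) : ℝ) := by
      have := hG.hd
      exact_mod_cast (by omega : 0 < d - 1)
    have hR : ∫ ω, wTree G θ (d - 1) (m ω) (n + 1) x0 x1 * Φ ω ∂P =
        (1 / ((d - 1 : ℕ) : ℝ)) * ∑ c ∈ (G.neighborFinset x1).erase x0,
          ∫ ω, wTree G θ (d - 1) (m ω) n x1 c * Φ' ω ∂P := by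
      rw [← integral_finsetSum, ← integral_const_mul]
      · refine integral_congr_ae (Eventually.of_forall fun ω => ?_)
        simp only [wTree, hΦ', Finset.mul_sum]
        simp only [Finset.sum_mul]
        refine Finset.sum_congr rfl fun c _ => ?_
        ring
      · intro c hc
        have hc2 : G.Adj x1 c := by simpa using (Finset.mem_erase.mp hc).2
        obtain ⟨C', hC'⟩ := hΦ'b
        refine integrable_of_bd ((measurable_wTree_pa hm.meas θ _ n _ _).mul hΦ'm) (C := 1 * C') fun ω => ?_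
        rw [abs_mul]
        obtain ⟨h3, h4⟩ := wTree_mem_pa hG hu (hm.bd ω) n hc2.symm
        rw [abs_of_nonneg h3]
        exact mul_le_mul h4 (hC' ω) (abs_nonneg _) (by norm_num)
    rw [hR, Finset.sum_congr rfl hchild, Finset.sum_const, nsmul_eq_mul, hcard]
    field_simp
    rfl

/-! ### The arms -/

/-- The reversed geodesic. -/
theorem IsGeod.rev {x : ℕ → V} {r : ℕ} (hx : IsGeod G x r) : IsGeod G (fun i => x (r - i)) r where
  adj := by
    intro i hi
    have h := hx.adj (r - i - 1) (by omega)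
    have e1 : r - i - 1 + 1 = r - i := by omega
    have e2 : r - (i + 1) = r - i - 1 := by omega
    rw [e1] at h
    simp only [e2]
    exact h.symm
  nb := by
    intro i hi
    have h := hx.nb (r - i - 2) (by omega)
    have e1 : r - i - 2 + 2 = r - i := by omega
    have e2 : r - (i + 2) = r - i - 2 := by omega
    rw [e1] at h
    simp only [e2]
    exact h.symm

/-- The arm of length `n` at `z`, pointing away from `w`: averaged products of `u²`. -/
noncomputable def armT (G : SimpleGraph V) [G.LocallyFinite] (θ : ℝ) (D : ℕ) (m : V → ℝ) :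
    ℕ → V → V → ℝ
  | 0, _, _ => 1
  | n + 1, z, w => (1 / (D : ℝ)) * ∑ c ∈ (G.neighborFinset z).erase w, wTree G θ D m n z c

theorem image_children (g : G ≃g G) (z w : V) :
    (G.neighborFinset (g z)).erase (g w) = ((G.neighborFinset z).erase w).image g := by
  ext c
  simp only [Finset.mem_erase, mem_neighborFinset, Finset.mem_image]
  constructor
  · rintro ⟨h1, h2⟩
    refine ⟨g.symm c, ⟨?_, ?_⟩, by simp⟩
    · intro h
      apply h1
      rw [← h]
      simp
    · have := g.symm.map_adj_iff.mpr h2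
      simpa using this
  · rintro ⟨c', ⟨h1, h2⟩, rfl⟩
    exact ⟨fun h => h1 (g.injective h), g.map_adj_iff.mpr h2⟩

theorem armT_comp (g : G ≃g G) (θ : ℝ) (D : ℕ) (m : V → ℝ) (n : ℕ) (z w : V) :
    armT G θ D (fun u => m (g u)) n z w = armT G θ D m n (g z) (g w) := by
  cases n with
  | zero => simp [armT]
  | succ n =>
    simp only [armT, wTree_comp]
    rw [image_children, Finset.sum_image (fun a _ b _ h => g.injective h)]

theorem measurable_armT {m : Ω → V → ℝ} (hm : ∀ v, Measurable fun ω => m ω v) (θ : ℝ)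
    (D : ℕ) (n : ℕ) (z w : V) :
    Measurable fun ω => armT G θ D (m ω) n z w := by
  cases n with
  | zero => simpa [armT] using measurable_const
  | succ n =>
    simp only [armT]
    exact measurable_const.mul (Finset.measurable_sum _ fun c _ => measurable_wTree_pa hm θ _ n _ _)

theorem armT_mem (hG : Tree G d) {θ t : ℝ} (hu : UBd θ t) {m : V → ℝ} (hm : ∀ v, |m v| ≤ t)
    (n : ℕ) {z w : V} (h : G.Adj z w) :
    0 ≤ armT G θ (d - 1) m n z w ∧ armT G θ (d - 1) m n z w ≤ 1 := by
  have hD : (1 : ℝ) ≤ ((d - 1 : ℕ) : ℝ) := by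
    have := hG.hd
    exact_mod_cast (by omega : 1 ≤ d - 1)
  cases n with
  | zero => simp [armT]
  | succ n =>
    simp only [armT]
    have hs0 : 0 ≤ ∑ c ∈ (G.neighborFinset z).erase w, wTree G θ (d - 1) m n z c := by
      refine Finset.sum_nonneg fun c hc => ?_
      have : G.Adj z c := by simpa using (Finset.mem_erase.mp hc).2
      exact (wTree_mem_pa hG hu hm n this.symm).1
    have hs1 : ∑ c ∈ (G.neighborFinset z).erase w, wTree G θ (d - 1) m n z c ≤ ((d - 1 : ℕ) : ℝ) := by
      calc _ ≤ ∑ c ∈ (G.neighborFinset z).erase w, (1 : ℝ) := by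
            refine Finset.sum_le_sum fun c hc => ?_
            have : G.Adj z c := by simpa using (Finset.mem_erase.mp hc).2
            exact (wTree_mem_pa hG hu hm n this.symm).2
        _ = _ := by simp [card_children_pa hG h]
    have hpos : (0 : ℝ) < ((d - 1 : ℕ) : ℝ) := by linarith
    refine ⟨by positivity, ?_⟩
    rw [one_div, inv_mul_le_iff₀ hpos]
    simpa using hs1

/-- All children give the same integral. -/
theorem child_avg (hG : Tree G d) {A : (G ≃g G) → Ω → Ω} (hA : ∀ g, MeasurePreserving (A g) P P)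
    {m : Ω → V → ℝ} {t θ : ℝ} (hm : MField G P A m t) (hu : UBd θ t)
    {y : ℕ → V} {r : ℕ} (hy : IsGeod G y r) (n k : ℕ) (hkr : k + 2 ≤ r) {Φ : Ω → ℝ}
    (hΦ : Measurable Φ) (hΦb : ∃ C, ∀ ω, |Φ ω| ≤ C)
    (hinv : ∀ g : G ≃g G, (∀ i, i ≤ k + 1 → g (y i) = y i) → ∀ ω, Φ (A g ω) = Φ ω) :
    ∫ ω, wTree G θ (d - 1) (m ω) n (y (k + 1)) (y (k + 2)) * Φ ω ∂P =
      ∫ ω, armT G θ (d - 1) (m ω) (n + 1) (y (k + 1)) (y k) * Φ ω ∂P := by
  set x1 := y (k + 1) with hx1
  set x0 := y k with hx0
  have hchild : ∀ c ∈ (G.neighborFinset x1).erase x0,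
      ∫ ω, wTree G θ (d - 1) (m ω) n x1 c * Φ ω ∂P =
        ∫ ω, wTree G θ (d - 1) (m ω) n x1 (y (k + 2)) * Φ ω ∂P := by
    intro c hc
    have hc1 : c ≠ x0 := (Finset.mem_erase.mp hc).1
    have hc2 : G.Adj x1 c := by simpa using (Finset.mem_erase.mp hc).2
    have hgeo1 : IsGeod G y (k + 2) := hy.mono hkr
    have hgeo2 := isGeod_update hy hkr hc2 hc1
    obtain ⟨g, hg⟩ := exists_aut_of_geod hG.tree hG.reg hgeo1 hgeo2
    have hg1 : ∀ i, i ≤ k + 1 → g (y i) = y i := by
      intro i hi
      have := hg i (by omega)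
      rw [this]
      have h2 : i ≠ k + 2 := by omega
      simp [h2]
    have hg2 : g (y (k + 2)) = c := by
      have := hg (k + 2) le_rfl
      simpa using this
    have hint : Measurable fun ω => wTree G θ (d - 1) (m ω) n x1 (y (k + 2)) * Φ ω :=
      (measurable_wTree_pa hm.meas θ _ n _ _).mul hΦ
    rw [← integral_comp_mp (hA g) hint]
    refine integral_congr_ae (Eventually.of_forall fun ω => ?_)
    have hfun : m (A g ω) = fun u => m ω (g u) := by
      funext u
      exact hm.act g ω u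
    simp only [hfun]
    rw [wTree_comp g θ (d - 1) (m ω) n x1 (y (k + 2)), hinv g hg1 ω, hg2, hx1, hg1 (k + 1) le_rfl]
  have hx10 : G.Adj x1 x0 := (hy.adj k (by omega)).symm
  have hcard : (((G.neighborFinset x1).erase x0).card : ℝ) = ((d - 1 : ℕ) : ℝ) := by
    rw [card_children_pa hG hx10]
  have hD : (0 : ℝ) < ((d - 1 : ℕ) : ℝ) := by
    have := hG.hd
    exact_mod_cast (by omega : 0 < d - 1)
  have hR : ∫ ω, armT G θ (d - 1) (m ω) (n + 1) x1 x0 * Φ ω ∂P =
      (1 / ((d - 1 : ℕ) : ℝ)) * ∑ c ∈ (G.neighborFinset x1).erase x0,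
        ∫ ω, wTree G θ (d - 1) (m ω) n x1 c * Φ ω ∂P := by
    rw [← integral_finsetSum, ← integral_const_mul]
    · refine integral_congr_ae (Eventually.of_forall fun ω => ?_)
      simp only [armT, Finset.mul_sum]
      simp only [Finset.sum_mul]
      refine Finset.sum_congr rfl fun c _ => ?_
      ring
    · intro c hc
      have hc2 : G.Adj x1 c := by simpa using (Finset.mem_erase.mp hc).2
      obtain ⟨C', hC'⟩ := hΦb
      refine integrable_of_bd ((measurable_wTree_pa hm.meas θ _ n _ _).mul hΦ) (C := 1 * C') fun ω => ?_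
      rw [abs_mul]
      obtain ⟨h3, h4⟩ := wTree_mem_pa hG hu (hm.bd ω) n hc2.symm
      rw [abs_of_nonneg h3]
      exact mul_le_mul h4 (hC' ω) (abs_nonneg _) (by norm_num)
  rw [hR, Finset.sum_congr rfl hchild, Finset.sum_const, nsmul_eq_mul, hcard]
  field_simp

/-- The average over a whole arm, starting at `y (k+1)` and pointing away from `y k`. -/
theorem arm_full (hG : Tree G d) {A : (G ≃g G) → Ω → Ω} (hA : ∀ g, MeasurePreserving (A g) P P)
    {m : Ω → V → ℝ} {t θ : ℝ} (hm : MField G P A m t) (hu : UBd θ t)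
    {y : ℕ → V} {r : ℕ} (hy : IsGeod G y r) (b k : ℕ) (hk : k + 1 + b ≤ r) {Φ : Ω → ℝ}
    (hΦ : Measurable Φ) (hΦb : ∃ C, ∀ ω, |Φ ω| ≤ C)
    (hinv : ∀ g : G ≃g G, (∀ i, i ≤ k + 1 → g (y i) = y i) → ∀ ω, Φ (A g ω) = Φ ω) :
    ∫ ω, uP θ (m ω) y (k + 1) b * Φ ω ∂P = ∫ ω, armT G θ (d - 1) (m ω) b (y (k + 1)) (y k) * Φ ω ∂P := by
  cases b with
  | zero => simp [uP, armT]
  | succ n =>
    rw [arm_avg hG hA hm hu hy n (k + 1) (by omega) hΦ hΦb hinv]
    exact child_avg hG hA hm hu hy n k (by omega) hΦ hΦb hinv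

/-- The product formula along a geodesic through the edge `x a, x (a+1)`: both arms are averaged. -/
theorem arm_prod (hG : Tree G d) {A : (G ≃g G) → Ω → Ω} (hA : ∀ g, MeasurePreserving (A g) P P)
    {m m' : Ω → V → ℝ} {t θ θ' : ℝ} (hm : MField G P A m t) (hm' : MField G P A m' t)
    (hu : UBd θ t) (hu' : UBd θ' t)
    {x : ℕ → V} {a b : ℕ} (hx : IsGeod G x (a + b + 1)) {Y : Ω → ℝ}
    (hY : Measurable Y) (hYb : ∃ C, ∀ ω, |Y ω| ≤ C)
    (hinv : ∀ g : G ≃g G, g (x a) = x a → g (x (a + 1)) = x (a + 1) → ∀ ω, Y (A g ω) = Y ω) :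
    ∫ ω, uP θ (m ω) (fun k => x (a - k)) 0 a * (Y ω * uP θ' (m' ω) x (a + 1) b) ∂P =
      ∫ ω, armT G θ (d - 1) (m ω) a (x a) (x (a + 1)) * (Y ω * armT G θ' (d - 1) (m' ω) b (x (a + 1)) (x a)) ∂P := by
  set r := a + b + 1 with hr
  have hy := hx.rev
  set y : ℕ → V := fun i => x (r - i) with hydef
  have ey1 : y (b + 1) = x a := by
    simp only [hydef]
    congr 1
    omega
  have ey0 : y b = x (a + 1) := by
    simp only [hydef]
    congr 1
    omega
  have hmA : ∀ (g : G ≃g G) ω, m (A g ω) = fun u => m ω (g u) := fun g ω => by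
    funext u
    exact hm.act g ω u
  have hmA' : ∀ (g : G ≃g G) ω, m' (A g ω) = fun u => m' ω (g u) := fun g ω => by
    funext u
    exact hm'.act g ω u
  -- the left arm
  have eL : ∀ ω, uP θ (m ω) (fun k => x (a - k)) 0 a = uP θ (m ω) y (b + 1) a := by
    intro ω
    unfold uP
    refine Finset.prod_congr rfl fun j hj => ?_
    have hj' : j < a := Finset.mem_range.mp hj
    simp only [hydef]
    have e1 : r - (b + 1 + j) = a - (0 + j) := by omega
    have e2 : r - (b + 1 + j + 1) = a - (0 + j + 1) := by omega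
    rw [e1, e2]
  have hUP : Measurable fun ω => uP θ' (m' ω) x (a + 1) b := measurable_uP hm'.meas θ' x _ _
  have hUPb : ∀ ω, |uP θ' (m' ω) x (a + 1) b| ≤ 1 := fun ω => by
    obtain ⟨h1, h2⟩ := uP_mem hu' (hm'.bd ω) x (a + 1) b
    rw [abs_of_nonneg h1]
    exact h2
  obtain ⟨CY, hCY⟩ := hYb
  have h1 := arm_full hG hA hm hu hy a b (by omega) (Φ := fun ω => Y ω * uP θ' (m' ω) x (a + 1) b)
    (hY.mul hUP) ⟨CY * 1, fun ω => by
      rw [abs_mul]
      exact mul_le_mul (hCY ω) (hUPb ω) (abs_nonneg _) ((abs_nonneg _).trans (hCY ω))⟩ (by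
      intro g hg ω
      have hg' : ∀ i, a ≤ i → i ≤ r → g (x i) = x i := by
        intro i h1 h2
        have := hg (r - i) (by omega)
        simp only [hydef] at this
        rwa [show r - (r - i) = i by omega] at this
      have hrw : uP θ' (m' (A g ω)) x (a + 1) b = uP θ' (m' ω) x (a + 1) b := by
        rw [hmA']
        unfold uP
        refine Finset.prod_congr rfl fun j hj => ?_
        have hj' : j < b := Finset.mem_range.mp hj
        show uOf θ' (m' ω (g (x (a + 1 + j)))) (m' ω (g (x (a + 1 + j + 1)))) ^ 2 = _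
        rw [hg' (a + 1 + j) (by omega) (by omega), hg' (a + 1 + j + 1) (by omega) (by omega)]
      rw [hrw, hinv g (hg' a le_rfl (by omega)) (hg' (a + 1) (by omega) (by omega)) ω])
  simp only [eL]
  rw [h1, ey1, ey0]
  -- the right arm
  have hAL : Measurable fun ω => armT G θ (d - 1) (m ω) a (x a) (x (a + 1)) :=
    measurable_armT hm.meas θ _ a _ _
  have hadj : G.Adj (x a) (x (a + 1)) := hx.adj a (by omega)
  have hALb : ∀ ω, |armT G θ (d - 1) (m ω) a (x a) (x (a + 1))| ≤ 1 := fun ω => by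
    obtain ⟨h1, h2⟩ := armT_mem hG hu (hm.bd ω) a hadj
    rw [abs_of_nonneg h1]
    exact h2
  have h2 := arm_full hG hA hm' hu' hx b a (by omega)
    (Φ := fun ω => armT G θ (d - 1) (m ω) a (x a) (x (a + 1)) * Y ω)
    (hAL.mul hY) ⟨1 * CY, fun ω => by
      rw [abs_mul]
      exact mul_le_mul (hALb ω) (hCY ω) (abs_nonneg _) (by norm_num)⟩ (by
      intro g hg ω
      have ha := hg a (by omega)
      have ha1 := hg (a + 1) le_rfl
      rw [hmA, armT_comp, ha, ha1, hinv g ha ha1 ω])
  calc _ = ∫ ω, uP θ' (m' ω) x (a + 1) b *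
        (armT G θ (d - 1) (m ω) a (x a) (x (a + 1)) * Y ω) ∂P := by
        refine integral_congr_ae (Eventually.of_forall fun ω => ?_)
        show _ * (_ * _) = _ * (_ * _)
        ring
    _ = _ := h2.trans (by
        refine integral_congr_ae (Eventually.of_forall fun ω => ?_)
        show _ * (_ * _) = _ * (_ * _)
        ring)

/-- Pass the norm of `wTree` to the arm. -/
theorem lpN_armT_le (hG : Tree G d) {m : Ω → V → ℝ} {t θ : ℝ} (hmeas : ∀ v, Measurable fun ω => m ω v)
    (hbd : ∀ ω v, |m ω v| ≤ t) (hu : UBd θ t) {Q M : ℝ} (hQ : 1 ≤ Q) (n : ℕ) {z w : V} (h : G.Adj z w)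
    (hM : ∀ c, G.Adj z c → lpN P (fun ω => wTree G θ (d - 1) (m ω) n z c) Q ≤ M) :
    lpN P (fun ω => armT G θ (d - 1) (m ω) (n + 1) z w) Q ≤ M := by
  have hcard : (((G.neighborFinset z).erase w).card : ℝ) = ((d - 1 : ℕ) : ℝ) := by
    rw [card_children_pa hG h]
  have hne : ((G.neighborFinset z).erase w).Nonempty := by
    rw [← Finset.card_pos, card_children_pa hG h]
    have := hG.hd
    omega
  have := lpN_avg_le (P := P) (s := (G.neighborFinset z).erase w)
    (X := fun c ω => wTree G θ (d - 1) (m ω) n z c) (K := 1) (Q := Q) (M := M)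
    (fun c _ => measurable_wTree_pa hmeas θ _ n _ _)
    (fun c hc ω => by
      have h1 : G.Adj z c := by simpa using (Finset.mem_erase.mp hc).2
      exact (wTree_mem_pa hG hu (hbd ω) n h1.symm).1)
    (fun c hc ω => by
      have h1 : G.Adj z c := by simpa using (Finset.mem_erase.mp hc).2
      obtain ⟨h2, h3⟩ := wTree_mem_pa hG hu (hbd ω) n h1.symm
      rw [abs_of_nonneg h2]
      exact h3)
    hQ (fun c hc => hM c (by simpa using (Finset.mem_erase.mp hc).2)) hne
  rw [hcard] at this
  simpa [armT] using this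

end Crest.Agent.Lib.IsingFIID
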