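/-
Row 160 (S0241): the main inequality at a fixed time (`BLUEPRINT.md` §7), abstractly: two invariant
fields of means on a probability space with an automorphism action.
-/
import Crest.Agent.Lib.IsingFIID.PairArm

set_option autoImplicit false
set_option linter.unusedSectionVars false
set_option linter.unusedVariables false

namespace Crest.Agent.Lib.IsingFIID

open MeasureTheory Filter Topology Set SimpleGraph
open scoped ENNReal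

variable {V : Type*} [DecidableEq V] {G : SimpleGraph V} [G.LocallyFinite] {d : ℕ}
variable {Ω : Type*} [MeasurableSpace Ω] {P : Measure Ω} [IsProbabilityMeasure P]

/-! ### Products of slopes -/

/-- Product of `n` slopes along `x` starting at position `k`. -/
noncomputable def slP (θ : ℝ) (m : V → ℝ) (x : ℕ → V) (k n : ℕ) : ℝ :=
  ∏ j ∈ Finset.range n, slopeOf θ (m (x (k + j))) (m (x (k + j + 1)))

/-- The edge functional. -/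
noncomputable def fE (θ θ' : ℝ) (m m' : V → ℝ) (a b : V) : ℝ :=
  aOf θ (m a) (m b) - aOf θ' (m' a) (m' b)

theorem pathCov_eq (θ : ℝ) (m : V → ℝ) (x : ℕ → V) (r : ℕ) :
    pathCov θ m x r = (1 - m (x 0) ^ 2) * slP θ m x 0 r := by
  simp [pathCov, slP]

theorem slP_eq_pow (θ : ℝ) (m : V → ℝ) (x : ℕ → V) (k n : ℕ) :
    slP θ m x k n = θ ^ n * ∏ j ∈ Finset.range n, uOf θ (m (x (k + j))) (m (x (k + j + 1))) := by
  simp [slP, slopeOf, Finset.prod_mul_distrib]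

theorem slP_sq (θ : ℝ) (m : V → ℝ) (x : ℕ → V) (k n : ℕ) :
    slP θ m x k n ^ 2 = θ ^ (2 * n) * uP θ m x k n := by
  rw [slP_eq_pow, mul_pow, ← pow_mul, mul_comm n 2, uP, Finset.prod_pow]

theorem measurable_uOf_comp {f g : Ω → ℝ} (hf : Measurable f) (hg : Measurable g) (θ : ℝ) :
    Measurable fun ω => uOf θ (f ω) (g ω) := by
  have h := (measurable_uOf_pa θ).comp (hf.prodMk hg)
  exact h

theorem measurable_slope {m : Ω → V → ℝ} (hm : ∀ v, Measurable fun ω => m ω v) (θ : ℝ) (a b : V) :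
    Measurable fun ω => slopeOf θ (m ω a) (m ω b) :=
  (measurable_uOf_comp (hm a) (hm b) θ).const_mul θ

theorem measurable_slP {m : Ω → V → ℝ} (hm : ∀ v, Measurable fun ω => m ω v) (θ : ℝ)
    (x : ℕ → V) (k n : ℕ) : Measurable fun ω => slP θ (m ω) x k n := by
  unfold slP
  exact Finset.measurable_prod _ fun j _ => measurable_slope hm θ _ _

theorem measurable_pathCov_pa {m : Ω → V → ℝ} (hm : ∀ v, Measurable fun ω => m ω v) (θ : ℝ)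
    (x : ℕ → V) (r : ℕ) : Measurable fun ω => pathCov θ (m ω) x r := by
  simp only [pathCov_eq]
  exact (measurable_const.sub ((hm _).pow_const 2)).mul (measurable_slP hm θ x 0 r)

theorem measurable_aOf_pa (θ : ℝ) : Measurable fun q : ℝ × ℝ => aOf θ q.1 q.2 :=
  (Real.measurable_log.comp (measurable_uOf_pa θ)).neg

theorem measurable_aOf_comp {f g : Ω → ℝ} (hf : Measurable f) (hg : Measurable g) (θ : ℝ) :
    Measurable fun ω => aOf θ (f ω) (g ω) := by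
  have h := (measurable_aOf_pa θ).comp (hf.prodMk hg)
  exact h

theorem measurable_fE {m m' : Ω → V → ℝ} (hm : ∀ v, Measurable fun ω => m ω v)
    (hm' : ∀ v, Measurable fun ω => m' ω v) (θ θ' : ℝ) (a b : V) :
    Measurable fun ω => fE θ θ' (m ω) (m' ω) a b :=
  (measurable_aOf_comp (hm a) (hm b) θ).sub (measurable_aOf_comp (hm' a) (hm' b) θ')

theorem slope_mem {θ t : ℝ} (h0 : 0 ≤ θ) (hu : UBd θ t) {a b : ℝ} (ha : |a| ≤ t) (hb : |b| ≤ t) :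
    0 ≤ slopeOf θ a b ∧ slopeOf θ a b ≤ θ := by
  obtain ⟨h1, h2⟩ := hu a b ha hb
  unfold slopeOf
  exact ⟨mul_nonneg h0 h1, by nlinarith⟩

theorem slP_mem {θ t : ℝ} (h0 : 0 ≤ θ) (hu : UBd θ t) {m : V → ℝ} (hm : ∀ v, |m v| ≤ t)
    (x : ℕ → V) (k n : ℕ) : 0 ≤ slP θ m x k n ∧ slP θ m x k n ≤ θ ^ n := by
  constructor
  · exact Finset.prod_nonneg fun j _ => (slope_mem h0 hu (hm _) (hm _)).1
  · unfold slP
    calc _ ≤ ∏ j ∈ Finset.range n, θ :=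
          Finset.prod_le_prod (fun j _ => (slope_mem h0 hu (hm _) (hm _)).1)
            fun j _ => (slope_mem h0 hu (hm _) (hm _)).2
      _ = θ ^ n := by simp

/-- Telescoping of a product difference. -/
theorem prod_sub_prod_eq (l l' : ℕ → ℝ) (r : ℕ) :
    ∏ j ∈ Finset.range r, l j - ∏ j ∈ Finset.range r, l' j =
      ∑ i ∈ Finset.range r, (∏ j ∈ Finset.range i, l j) * (l i - l' i) *
        ∏ j ∈ Finset.range (r - 1 - i), l' (i + 1 + j) := by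
  induction r with
  | zero => simp
  | succ r ih =>
    rw [Finset.prod_range_succ, Finset.prod_range_succ, Finset.sum_range_succ]
    have e1 : (∏ j ∈ Finset.range r, l j) * l r - (∏ j ∈ Finset.range r, l' j) * l' r =
        (∏ j ∈ Finset.range r, l j - ∏ j ∈ Finset.range r, l' j) * l' r +
          (∏ j ∈ Finset.range r, l j) * (l r - l' r) := by ring
    rw [e1, ih, Finset.sum_mul]
    congr 1
    · refine Finset.sum_congr rfl fun i hi => ?_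
      have hi' : i < r := Finset.mem_range.mp hi
      have e2 : r + 1 - 1 - i = (r - 1 - i) + 1 := by omega
      rw [e2, Finset.prod_range_succ]
      have e3 : i + 1 + (r - 1 - i) = r := by omega
      rw [e3]
      ring
    · have e2 : r + 1 - 1 - r = 0 := by omega
      rw [e2]
      simp

/-- The squared difference of slope products. -/
theorem sq_slP_sub_le (θ θ' : ℝ) (m m' : V → ℝ) (x : ℕ → V) (r : ℕ) :
    (slP θ m x 0 r - slP θ' m' x 0 r) ^ 2 ≤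
      r * ∑ i ∈ Finset.range r, slP θ m x 0 i ^ 2 *
        (slopeOf θ (m (x i)) (m (x (i + 1))) - slopeOf θ' (m' (x i)) (m' (x (i + 1)))) ^ 2 *
          slP θ' m' x (i + 1) (r - 1 - i) ^ 2 := by
  have e := prod_sub_prod_eq (fun j => slopeOf θ (m (x j)) (m (x (j + 1))))
    (fun j => slopeOf θ' (m' (x j)) (m' (x (j + 1)))) r
  have e0 : slP θ m x 0 r - slP θ' m' x 0 r =
      ∑ i ∈ Finset.range r, (slP θ m x 0 i) *
        (slopeOf θ (m (x i)) (m (x (i + 1))) - slopeOf θ' (m' (x i)) (m' (x (i + 1)))) *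
          slP θ' m' x (i + 1) (r - 1 - i) := by
    simpa [slP] using e
  rw [e0]
  have hcs := sq_sum_le_card_mul_sum_sq (s := Finset.range r)
    (f := fun i => (slP θ m x 0 i) *
        (slopeOf θ (m (x i)) (m (x (i + 1))) - slopeOf θ' (m' (x i)) (m' (x (i + 1)))) *
          slP θ' m' x (i + 1) (r - 1 - i))
  simp only [Finset.card_range] at hcs
  refine hcs.trans (le_of_eq ?_)
  congr 1
  refine Finset.sum_congr rfl fun i _ => ?_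
  ring

/-- `|e^{-A} - e^{-A'}| ≤ |A - A'|` for `A, A' ≥ 0`. -/
theorem abs_exp_neg_sub_le {A A' : ℝ} (h : 0 ≤ A) (h' : 0 ≤ A') :
    |Real.exp (-A) - Real.exp (-A')| ≤ |A - A'| := by
  wlog hle : A ≤ A' generalizing A A'
  · have := this h' h (le_of_not_ge hle)
    rwa [abs_sub_comm, abs_sub_comm A' A] at this
  have h1 : Real.exp (-A') ≤ Real.exp (-A) := Real.exp_le_exp.mpr (by linarith)
  rw [abs_of_nonneg (by linarith), abs_sub_comm, abs_of_nonneg (by linarith : 0 ≤ A' - A)]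
  have h2 : Real.exp (-A') = Real.exp (-A) * Real.exp (-(A' - A)) := by
    rw [← Real.exp_add]
    congr 1
    ring
  have h3 : 1 - (A' - A) ≤ Real.exp (-(A' - A)) := by
    have := Real.add_one_le_exp (-(A' - A))
    linarith
  have h4 : Real.exp (-A) ≤ 1 := Real.exp_le_one_iff.mpr (by linarith)
  have h5 : 0 < Real.exp (-A) := Real.exp_pos _
  rw [h2]
  nlinarith [mul_le_mul_of_nonneg_left h3 h5.le]

theorem sq_add4_le (a b c d : ℝ) : (a + b + c + d) ^ 2 ≤ 4 * (a ^ 2 + b ^ 2 + c ^ 2 + d ^ 2) := by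
  nlinarith [sq_nonneg (a - b), sq_nonneg (a - c), sq_nonneg (a - d), sq_nonneg (b - c),
    sq_nonneg (b - d), sq_nonneg (c - d)]

theorem sq_add3_le (a b c : ℝ) : (a + b + c) ^ 2 ≤ 3 * (a ^ 2 + b ^ 2 + c ^ 2) := by
  nlinarith [sq_nonneg (a - b), sq_nonneg (a - c), sq_nonneg (b - c)]

/-! ### The standing hypotheses -/

/-- Two invariant fields of means, with the real-variable calculus of the Bethe map. -/
structure PairHyp (G : SimpleGraph V) [G.LocallyFinite] (d : ℕ) (P : Measure Ω)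
    (A : (G ≃g G) → Ω → Ω) (m m' : Ω → V → ℝ) (θ θ' t L δ : ℝ) : Prop where
  hG : Tree G d
  hA : ∀ g, MeasurePreserving (A g) P P
  hm : MField G P A m t
  hm' : MField G P A m' t
  t0 : 0 ≤ t
  t1 : t < 1
  θ0 : 0 ≤ θ
  θ1 : θ ≤ 1
  θ0' : 0 ≤ θ'
  θ1' : θ' ≤ 1
  hu : UBd θ t
  hu' : UBd θ' t
  L0 : 0 ≤ L
  δdef : δ = |θ - θ'|
  ulip : ∀ a b a' b' : ℝ, |a| ≤ t → |b| ≤ t → |a'| ≤ t → |b'| ≤ t →
    |uOf θ a b - uOf θ' a' b'| ≤ L * (|a - a'| + |b - b'| + δ)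
  aexp : ∀ a b : ℝ, |a| ≤ t → |b| ≤ t → 0 ≤ aOf θ a b ∧ Real.exp (- aOf θ a b) = uOf θ a b
  aexp' : ∀ a b : ℝ, |a| ≤ t → |b| ≤ t → 0 ≤ aOf θ' a b ∧ Real.exp (- aOf θ' a b) = uOf θ' a b
  alip : ∀ a b a' b' : ℝ, |a| ≤ t → |b| ≤ t → |a'| ≤ t → |b'| ≤ t →
    |aOf θ a b - aOf θ' a' b'| ≤ L * (|a| + |b| + |a'| + |b'|) * (|a - a'| + |b - b'| + δ)
  rev : ∀ (x : ℕ → V) (r : ℕ), IsGeod G x r →
    ∀ᵐ ω ∂P, pathCov θ (m ω) x r = pathCov θ (m ω) (fun i => x (r - i)) r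
  rev' : ∀ (x : ℕ → V) (r : ℕ), IsGeod G x r →
    ∀ᵐ ω ∂P, pathCov θ' (m' ω) x r = pathCov θ' (m' ω) (fun i => x (r - i)) r

namespace PairHyp

variable {A : (G ≃g G) → Ω → Ω} {m m' : Ω → V → ℝ} {θ θ' t L δ : ℝ}

theorem t_le (h : PairHyp G d P A m m' θ θ' t L δ) : t ≤ 1 := h.t1.le

theorem δ_nonneg (h : PairHyp G d P A m m' θ θ' t L δ) : 0 ≤ δ := by
  rw [h.δdef]; exact abs_nonneg _

theorem v0_pos (h : PairHyp G d P A m m' θ θ' t L δ) : 0 < 1 - t ^ 2 := by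
  have := h.t0; have := h.t1; nlinarith

theorem sq_m_le {t : ℝ} (t0 : 0 ≤ t) {x : ℝ} (hx : |x| ≤ t) : x ^ 2 ≤ t ^ 2 := by
  rw [← sq_abs]
  exact pow_le_pow_left₀ (abs_nonneg _) hx 2

theorem Δ_meas (h : PairHyp G d P A m m' θ θ' t L δ) (u : V) :
    Measurable fun ω => (m ω u - m' ω u) ^ 2 :=
  ((h.hm.meas u).sub (h.hm'.meas u)).pow_const 2

theorem Δ_nonneg (u : V) (ω : Ω) : 0 ≤ (m ω u - m' ω u) ^ 2 := sq_nonneg _

theorem Δ_le (h : PairHyp G d P A m m' θ θ' t L δ) (u : V) (ω : Ω) : (m ω u - m' ω u) ^ 2 ≤ 4 := by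
  have h1 := abs_le.mp ((h.hm.bd ω u).trans h.t_le)
  have h2 := abs_le.mp ((h.hm'.bd ω u).trans h.t_le)
  nlinarith

/-- The mean squared difference does not depend on the vertex. -/
theorem integral_Δ_eq (h : PairHyp G d P A m m' θ θ' t L δ) (u v : V) :
    ∫ ω, (m ω u - m' ω u) ^ 2 ∂P = ∫ ω, (m ω v - m' ω v) ^ 2 ∂P := by
  obtain ⟨g, hg, -⟩ := exists_aut_of_dist (a := u) (b := u) (a' := v) (b' := v) h.hG.tree h.hG.reg
    (by simp)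
  rw [← integral_comp_mp (h.hA g) (h.Δ_meas u)]
  refine integral_congr_ae (Eventually.of_forall fun ω => ?_)
  simp only [h.hm.act, h.hm'.act, hg]

/-- The reversal inequality for the left arm. -/
theorem left_rev (h : PairHyp G d P A m m' θ θ' t L δ) {x : ℕ → V} {a : ℕ} (hx : IsGeod G x a) :
    ∀ᵐ ω ∂P, slP θ (m ω) x 0 a ^ 2 ≤
      ((1 - t ^ 2)⁻¹) ^ 2 * (θ ^ (2 * a) * uP θ (m ω) (fun k => x (a - k)) 0 a) := by
  filter_upwards [h.rev x a hx] with ω hω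
  rw [pathCov_eq, pathCov_eq] at hω
  have hv := h.v0_pos
  have h1 := sq_m_le h.t0 (h.hm.bd ω (x 0))
  have h2 := sq_m_le h.t0 (h.hm.bd ω (x a))
  simp only [Nat.sub_zero] at hω
  rw [← slP_sq]
  set s := slP θ (m ω) x 0 a with hs
  set s' := slP θ (m ω) (fun k => x (a - k)) 0 a with hs'
  have hs0 : 0 ≤ s := (slP_mem h.θ0 h.hu (h.hm.bd ω) x 0 a).1
  have hs'0 : 0 ≤ s' := (slP_mem h.θ0 h.hu (h.hm.bd ω) _ 0 a).1
  -- `v0 s ≤ s'`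
  have h3 : (1 - t ^ 2) * s ≤ s' := by
    have h4 : (1 - t ^ 2) * s ≤ (1 - m ω (x 0) ^ 2) * s :=
      mul_le_mul_of_nonneg_right (by linarith) hs0
    have h5 : (1 - m ω (x a) ^ 2) * s' ≤ 1 * s' :=
      mul_le_mul_of_nonneg_right (by nlinarith [sq_nonneg (m ω (x a))]) hs'0
    linarith
  have h6 : s ≤ (1 - t ^ 2)⁻¹ * s' := by
    rw [← div_eq_inv_mul, le_div_iff₀ hv]
    linarith
  calc s ^ 2 ≤ ((1 - t ^ 2)⁻¹ * s') ^ 2 := pow_le_pow_left₀ hs0 h6 2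
    _ = _ := by ring

theorem meas_Y (h : PairHyp G d P A m m' θ θ' t L δ) (a b : V) :
    Measurable fun ω => (slopeOf θ (m ω a) (m ω b) - slopeOf θ' (m' ω a) (m' ω b)) ^ 2 :=
  ((measurable_slope h.hm.meas θ a b).sub (measurable_slope h.hm'.meas θ' a b)).pow_const 2

theorem Y_le (h : PairHyp G d P A m m' θ θ' t L δ) (a b : V) (ω : Ω) :
    (slopeOf θ (m ω a) (m ω b) - slopeOf θ' (m' ω a) (m' ω b)) ^ 2 ≤
      3 * (1 + L) ^ 2 * ((m ω a - m' ω a) ^ 2 + (m ω b - m' ω b) ^ 2 + δ ^ 2) := by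
  obtain ⟨hu1, hu2⟩ := h.hu' _ _ (h.hm'.bd ω a) (h.hm'.bd ω b)
  have hL := h.L0
  have hδ := h.δ_nonneg
  have hlip := h.ulip _ _ _ _ (h.hm.bd ω a) (h.hm.bd ω b) (h.hm'.bd ω a) (h.hm'.bd ω b)
  set u := uOf θ (m ω a) (m ω b)
  set u' := uOf θ' (m' ω a) (m' ω b)
  set da := |m ω a - m' ω a| with hda
  set db := |m ω b - m' ω b| with hdb
  have hda0 : 0 ≤ da := abs_nonneg _
  have hdb0 : 0 ≤ db := abs_nonneg _
  have e : slopeOf θ (m ω a) (m ω b) - slopeOf θ' (m' ω a) (m' ω b) = θ * (u - u') + (θ - θ') * u' := by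
    simp only [slopeOf]
    ring
  have h1 : |θ * (u - u') + (θ - θ') * u'| ≤ (1 + L) * (da + db + δ) := by
    refine (abs_add_le _ _).trans ?_
    rw [abs_mul, abs_mul, abs_of_nonneg h.θ0, abs_of_nonneg hu1, ← h.δdef]
    have h2 : θ * |u - u'| ≤ 1 * (L * (da + db + δ)) :=
      mul_le_mul h.θ1 hlip (abs_nonneg _) (by norm_num)
    have h3 : δ * u' ≤ δ * 1 := mul_le_mul_of_nonneg_left hu2 hδ
    nlinarith [mul_nonneg hL (add_nonneg hda0 (add_nonneg hdb0 hδ))]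
  rw [e]
  have h2 : (θ * (u - u') + (θ - θ') * u') ^ 2 ≤ ((1 + L) * (da + db + δ)) ^ 2 := by
    rw [← sq_abs]
    exact pow_le_pow_left₀ (abs_nonneg _) h1 2
  refine h2.trans ?_
  have e1 : (m ω a - m' ω a) ^ 2 = da ^ 2 := (sq_abs _).symm
  have e2 : (m ω b - m' ω b) ^ 2 = db ^ 2 := (sq_abs _).symm
  rw [e1, e2, mul_pow]
  have h3 := sq_add3_le da db δ
  nlinarith [sq_nonneg (1 + L)]

theorem Y_abs_le (h : PairHyp G d P A m m' θ θ' t L δ) (a b : V) (ω : Ω) :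
    |(slopeOf θ (m ω a) (m ω b) - slopeOf θ' (m' ω a) (m' ω b)) ^ 2| ≤ 1 := by
  have h1 := slope_mem h.θ0 h.hu (h.hm.bd ω a) (h.hm.bd ω b)
  have h2 := slope_mem h.θ0' h.hu' (h.hm'.bd ω a) (h.hm'.bd ω b)
  rw [abs_of_nonneg (sq_nonneg _), sq_le_one_iff_abs_le_one, abs_le]
  constructor <;> linarith [h.θ1, h.θ1', h1.1, h1.2, h2.1, h2.2]

/-- The term of the telescoping sum at the edge `x a, x (a+1)`. -/
theorem tail_term (h : PairHyp G d P A m m' θ θ' t L δ) {x : ℕ → V} {a b : ℕ}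
    (hx : IsGeod G x (a + b + 1)) {p : ℕ} (hp : 2 ≤ p) {S : ℝ}
    (hS : ∀ u, ∫ ω, (m ω u - m' ω u) ^ 2 ∂P = S) :
    ∫ ω, slP θ (m ω) x 0 a ^ 2 *
        (slopeOf θ (m ω (x a)) (m ω (x (a + 1))) - slopeOf θ' (m' ω (x a)) (m' ω (x (a + 1)))) ^ 2 *
          slP θ' (m' ω) x (a + 1) b ^ 2 ∂P ≤
      ((1 - t ^ 2)⁻¹) ^ 2 * (θ ^ (2 * a) * θ' ^ (2 * b)) * (3 * (1 + L) ^ 2 *
        ((lpN P (fun ω => armT G θ (d - 1) (m ω) a (x a) (x (a + 1))) (2 * (p : ℝ)) *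
            lpN P (fun ω => armT G θ' (d - 1) (m' ω) b (x (a + 1)) (x a)) (2 * (p : ℝ))) *
          (2 * ((4 : ℝ) ^ (1 / (p : ℝ)) * S ^ (1 - 1 / (p : ℝ)))) +
          δ ^ 2 * (lpN P (fun ω => armT G θ (d - 1) (m ω) a (x a) (x (a + 1))) 2 *
            lpN P (fun ω => armT G θ' (d - 1) (m' ω) b (x (a + 1)) (x a)) 2))) := by
  have hG := h.hG
  set z := x a with hz
  set w := x (a + 1) with hw
  set Y : Ω → ℝ := fun ω => (slopeOf θ (m ω z) (m ω w) - slopeOf θ' (m' ω z) (m' ω w)) ^ 2 with hY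
  have hYm : Measurable Y := h.meas_Y z w
  have hY0 : ∀ ω, 0 ≤ Y ω := fun ω => sq_nonneg _
  have hYb : ∀ ω, |Y ω| ≤ 1 := fun ω => h.Y_abs_le z w ω
  set uL : Ω → ℝ := fun ω => uP θ (m ω) (fun k => x (a - k)) 0 a with huL
  set uR : Ω → ℝ := fun ω => uP θ' (m' ω) x (a + 1) b with huR
  have huLm : Measurable uL := measurable_uP h.hm.meas θ _ 0 a
  have huRm : Measurable uR := measurable_uP h.hm'.meas θ' _ _ b
  have huL01 : ∀ ω, 0 ≤ uL ω ∧ uL ω ≤ 1 := fun ω => uP_mem h.hu (h.hm.bd ω) _ 0 a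
  have huR01 : ∀ ω, 0 ≤ uR ω ∧ uR ω ≤ 1 := fun ω => uP_mem h.hu' (h.hm'.bd ω) _ _ b
  set c : ℝ := ((1 - t ^ 2)⁻¹) ^ 2 * (θ ^ (2 * a) * θ' ^ (2 * b)) with hc
  have hc0 : 0 ≤ c := by
    have := h.θ0; have := h.θ0'
    positivity
  -- step 1: reversal of the left factor
  have hstep1 : ∫ ω, slP θ (m ω) x 0 a ^ 2 * Y ω * slP θ' (m' ω) x (a + 1) b ^ 2 ∂P ≤
      c * ∫ ω, uL ω * (Y ω * uR ω) ∂P := by
    rw [← integral_const_mul]
    have hmeasF : Measurable fun ω => slP θ (m ω) x 0 a ^ 2 * Y ω * slP θ' (m' ω) x (a + 1) b ^ 2 :=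
      (((measurable_slP h.hm.meas θ x 0 a).pow_const 2).mul hYm).mul
        ((measurable_slP h.hm'.meas θ' x _ b).pow_const 2)
    have hmeasG : Measurable fun ω => c * (uL ω * (Y ω * uR ω)) :=
      (huLm.mul (hYm.mul huRm)).const_mul c
    have hbd1 : ∀ ω, |slP θ (m ω) x 0 a ^ 2 * Y ω * slP θ' (m' ω) x (a + 1) b ^ 2| ≤
        (θ ^ a) ^ 2 * 1 * (θ' ^ b) ^ 2 := by
      intro ω
      have h1 := slP_mem h.θ0 h.hu (h.hm.bd ω) x 0 a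
      have h2 := slP_mem h.θ0' h.hu' (h.hm'.bd ω) x (a + 1) b
      rw [abs_mul, abs_mul, abs_of_nonneg (sq_nonneg (slP θ (m ω) x 0 a)),
        abs_of_nonneg (sq_nonneg (slP θ' (m' ω) x (a + 1) b))]
      refine mul_le_mul (mul_le_mul (pow_le_pow_left₀ h1.1 h1.2 2) (hYb ω) (abs_nonneg _) (by positivity))
        (pow_le_pow_left₀ h2.1 h2.2 2) (sq_nonneg _) ?_
      exact mul_nonneg (sq_nonneg _) (abs_nonneg _ |>.trans (hYb ω))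
    have hbd2 : ∀ ω, |c * (uL ω * (Y ω * uR ω))| ≤ c * (1 * (1 * 1)) := by
      intro ω
      rw [abs_mul, abs_of_nonneg hc0, abs_mul, abs_mul]
      refine mul_le_mul_of_nonneg_left ?_ hc0
      rw [abs_of_nonneg (huL01 ω).1, abs_of_nonneg (huR01 ω).1]
      exact mul_le_mul (huL01 ω).2 (mul_le_mul (hYb ω) (huR01 ω).2 (huR01 ω).1 (by norm_num))
        (mul_nonneg (abs_nonneg _) (huR01 ω).1) (by norm_num)
    refine integral_mono_ae (integrable_bd hmeasF hbd1) (integrable_bd hmeasG hbd2) ?_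
    filter_upwards [h.left_rev (hx.mono (by omega : a ≤ a + b + 1))] with ω hω
    show slP θ (m ω) x 0 a ^ 2 * Y ω * slP θ' (m' ω) x (a + 1) b ^ 2 ≤ c * (uL ω * (Y ω * uR ω))
    rw [slP_sq θ' (m' ω) x (a + 1) b]
    have h1 : slP θ (m ω) x 0 a ^ 2 * Y ω ≤
        (((1 - t ^ 2)⁻¹) ^ 2 * (θ ^ (2 * a) * uL ω)) * Y ω :=
      mul_le_mul_of_nonneg_right hω (hY0 ω)
    have h2 := mul_le_mul_of_nonneg_right h1
      (mul_nonneg (pow_nonneg h.θ0' (2 * b)) (huR01 ω).1)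
    refine h2.trans (le_of_eq ?_)
    rw [hc]
    ring
  -- step 2: the arms
  have hinv : ∀ g : G ≃g G, g z = z → g w = w → ∀ ω, Y (A g ω) = Y ω := by
    intro g h1 h2 ω
    simp only [hY, h.hm.act, h.hm'.act, h1, h2]
  have hstep2 := arm_prod hG h.hA h.hm h.hm' h.hu h.hu' hx hYm ⟨1, hYb⟩ hinv
  -- step 3: Hölder
  set Al : Ω → ℝ := fun ω => armT G θ (d - 1) (m ω) a z w with hAl
  set Bl : Ω → ℝ := fun ω => armT G θ' (d - 1) (m' ω) b w z with hBl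
  have hadj : G.Adj z w := hx.adj a (by omega)
  have hAm : Measurable Al := measurable_armT h.hm.meas θ _ a _ _
  have hBm : Measurable Bl := measurable_armT h.hm'.meas θ' _ b _ _
  have hA01 : ∀ ω, 0 ≤ Al ω ∧ Al ω ≤ 1 := fun ω => armT_mem hG h.hu (h.hm.bd ω) a hadj
  have hB01 : ∀ ω, 0 ≤ Bl ω ∧ Bl ω ≤ 1 := fun ω => armT_mem hG h.hu' (h.hm'.bd ω) b hadj.symm
  have hAb : ∀ ω, |Al ω| ≤ 1 := fun ω => by rw [abs_of_nonneg (hA01 ω).1]; exact (hA01 ω).2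
  have hBb : ∀ ω, |Bl ω| ≤ 1 := fun ω => by rw [abs_of_nonneg (hB01 ω).1]; exact (hB01 ω).2
  have hABm : Measurable fun ω => Al ω * Bl ω := hAm.mul hBm
  have hABb : ∀ ω, |Al ω * Bl ω| ≤ 1 := fun ω => by
    rw [abs_mul]
    exact mul_le_one₀ (hAb ω) (abs_nonneg _) (hBb ω)
  have hterm : ∀ u, ∫ ω, Al ω * Bl ω * (m ω u - m' ω u) ^ 2 ∂P ≤
      lpN P Al (2 * (p : ℝ)) * lpN P Bl (2 * (p : ℝ)) * ((4 : ℝ) ^ (1 / (p : ℝ)) * S ^ (1 - 1 / (p : ℝ))) := by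
    intro u
    have := integral_mul_mul_le (P := P) hAm hBm (h.Δ_meas u) (fun ω => (hA01 ω).1) (fun ω => (hB01 ω).1)
      (fun ω => sq_nonneg _) hAb hBb (fun ω => h.Δ_le u ω) hp
    rwa [hS u] at this
  have hterm2 : ∫ ω, Al ω * Bl ω ∂P ≤ lpN P Al 2 * lpN P Bl 2 := by
    have h2 : (2 : ℝ).HolderConjugate 2 := by
      refine ⟨by norm_num, ?_, ?_⟩ <;> norm_num
    exact integral_mul_le_lpN h2 hAm hBm (fun ω => (hA01 ω).1) (fun ω => (hB01 ω).1) hAb hBb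
  have hint : ∀ u, Integrable (fun ω => Al ω * Bl ω * (m ω u - m' ω u) ^ 2) P := by
    intro u
    refine integrable_bd (hABm.mul (h.Δ_meas u)) (C := 1 * 4) fun ω => ?_
    rw [abs_mul, abs_of_nonneg (sq_nonneg (m ω u - m' ω u))]
    exact mul_le_mul (hABb ω) (h.Δ_le u ω) (sq_nonneg _) (by norm_num)
  have hint2 : Integrable (fun ω => Al ω * Bl ω) P := integrable_bd hABm hABb
  have hstep3 : ∫ ω, Al ω * (Y ω * Bl ω) ∂P ≤ 3 * (1 + L) ^ 2 *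
      (lpN P Al (2 * (p : ℝ)) * lpN P Bl (2 * (p : ℝ)) *
          (2 * ((4 : ℝ) ^ (1 / (p : ℝ)) * S ^ (1 - 1 / (p : ℝ)))) +
        δ ^ 2 * (lpN P Al 2 * lpN P Bl 2)) := by
    have hmaj : ∀ ω, Al ω * (Y ω * Bl ω) ≤ 3 * (1 + L) ^ 2 *
        (Al ω * Bl ω * (m ω z - m' ω z) ^ 2 + Al ω * Bl ω * (m ω w - m' ω w) ^ 2 +
          δ ^ 2 * (Al ω * Bl ω)) := by
      intro ω
      have h1 := h.Y_le z w ω
      have h2 : 0 ≤ Al ω * Bl ω := mul_nonneg (hA01 ω).1 (hB01 ω).1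
      have h3 := mul_le_mul_of_nonneg_left h1 h2
      calc Al ω * (Y ω * Bl ω) = Al ω * Bl ω * Y ω := by ring
        _ ≤ _ := h3
        _ = _ := by ring
    have hYABint : Integrable (fun ω => Al ω * (Y ω * Bl ω)) P := by
      refine integrable_bd (hAm.mul (hYm.mul hBm)) (C := 1 * (1 * 1)) fun ω => ?_
      rw [abs_mul, abs_mul]
      exact mul_le_mul (hAb ω) (mul_le_mul (hYb ω) (hBb ω) (abs_nonneg _) (by norm_num))
        (mul_nonneg (abs_nonneg _) (abs_nonneg _)) (by norm_num)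
    have hint12 : Integrable (fun ω => Al ω * Bl ω * (m ω z - m' ω z) ^ 2 +
        Al ω * Bl ω * (m ω w - m' ω w) ^ 2) P := (hint z).add (hint w)
    have hint123 : Integrable (fun ω => Al ω * Bl ω * (m ω z - m' ω z) ^ 2 +
        Al ω * Bl ω * (m ω w - m' ω w) ^ 2 + δ ^ 2 * (Al ω * Bl ω)) P := hint12.add (hint2.const_mul _)
    have hsumint := hint123.const_mul (3 * (1 + L) ^ 2)
    refine (integral_mono hYABint hsumint hmaj).trans ?_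
    rw [integral_const_mul, integral_add hint12 (hint2.const_mul _),
      integral_add (hint z) (hint w), integral_const_mul]
    refine mul_le_mul_of_nonneg_left ?_ (by positivity)
    have h1 := hterm z
    have h2 := hterm w
    have h3 := mul_le_mul_of_nonneg_left hterm2 (sq_nonneg δ)
    nlinarith
  calc _ ≤ c * ∫ ω, uL ω * (Y ω * uR ω) ∂P := hstep1
    _ = c * ∫ ω, Al ω * (Y ω * Bl ω) ∂P := by rw [hstep2]
    _ ≤ _ := mul_le_mul_of_nonneg_left hstep3 hc0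

/-- The sequence of bounds of the arms. -/
def WW (w : ℕ → ℝ) : ℕ → ℝ
  | 0 => 1
  | n + 1 => w n

theorem lpN_const_one (Q : ℝ) : lpN P (fun _ : Ω => (1 : ℝ)) Q = 1 := by
  simp [lpN]

theorem arm_norm (h : PairHyp G d P A m m' θ θ' t L δ) {m₁ : Ω → V → ℝ} {θ₁ η : ℝ}
    (hm₁ : MField G P A m₁ t) (hu₁ : UBd θ₁ t) (hη0 : 0 < η) (hη1 : η ≤ 1) {Q : ℝ} (hQ : 1 ≤ Q)
    {w : ℕ → ℝ} (hw0 : ∀ n, 0 ≤ w n)
    (hw : ∀ n z c, G.Adj z c → η ^ n * lpN P (fun ω => wTree G θ₁ (d - 1) (m₁ ω) n z c) Q ≤ w n)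
    (n : ℕ) {z u : V} (hzu : G.Adj z u) :
    η ^ n * lpN P (fun ω => armT G θ₁ (d - 1) (m₁ ω) n z u) Q ≤ WW w n := by
  cases n with
  | zero =>
    simp only [pow_zero, one_mul, WW, armT]
    exact (lpN_const_one Q).le
  | succ n =>
    simp only [WW]
    have hpos : 0 < η ^ n := pow_pos hη0 n
    have h1 : lpN P (fun ω => armT G θ₁ (d - 1) (m₁ ω) (n + 1) z u) Q ≤ w n / η ^ n := by
      refine lpN_armT_le h.hG hm₁.meas hm₁.bd hu₁ hQ n hzu fun c hc => ?_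
      rw [le_div_iff₀ hpos, mul_comm]
      exact hw n z c hc
    calc η ^ (n + 1) * lpN P (fun ω => armT G θ₁ (d - 1) (m₁ ω) (n + 1) z u) Q
        ≤ η ^ (n + 1) * (w n / η ^ n) := mul_le_mul_of_nonneg_left h1 (by positivity)
      _ = η * w n := by
          rw [pow_succ]
          field_simp
      _ ≤ 1 * w n := mul_le_mul_of_nonneg_right hη1 (hw0 n)
      _ = w n := one_mul _

/-- The telescoping term, with the powers of `D`. -/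
theorem tail_final (h : PairHyp G d P A m m' θ θ' t L δ) {x : ℕ → V} {a b : ℕ}
    (hx : IsGeod G x (a + b + 1)) {p : ℕ} (hp : 2 ≤ p) {S : ℝ}
    (hS : ∀ u, ∫ ω, (m ω u - m' ω u) ^ 2 ∂P = S)
    (hη0 : 0 < θ ^ 2 * ((d - 1 : ℕ) : ℝ)) (hη1 : θ ^ 2 * ((d - 1 : ℕ) : ℝ) ≤ 1)
    (hη0' : 0 < θ' ^ 2 * ((d - 1 : ℕ) : ℝ)) (hη1' : θ' ^ 2 * ((d - 1 : ℕ) : ℝ) ≤ 1)
    {wp w2 : ℕ → ℝ} (hwp0 : ∀ n, 0 ≤ wp n) (hw20 : ∀ n, 0 ≤ w2 n)
    (hwp : ∀ n z c, G.Adj z c → (θ ^ 2 * ((d - 1 : ℕ) : ℝ)) ^ n *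
      lpN P (fun ω => wTree G θ (d - 1) (m ω) n z c) (2 * (p : ℝ)) ≤ wp n)
    (hwp' : ∀ n z c, G.Adj z c → (θ' ^ 2 * ((d - 1 : ℕ) : ℝ)) ^ n *
      lpN P (fun ω => wTree G θ' (d - 1) (m' ω) n z c) (2 * (p : ℝ)) ≤ wp n)
    (hw2 : ∀ n z c, G.Adj z c → (θ ^ 2 * ((d - 1 : ℕ) : ℝ)) ^ n *
      lpN P (fun ω => wTree G θ (d - 1) (m ω) n z c) 2 ≤ w2 n)
    (hw2' : ∀ n z c, G.Adj z c → (θ' ^ 2 * ((d - 1 : ℕ) : ℝ)) ^ n *
      lpN P (fun ω => wTree G θ' (d - 1) (m' ω) n z c) 2 ≤ w2 n) :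
    ((d - 1 : ℕ) : ℝ) ^ (a + b + 1) * ∫ ω, slP θ (m ω) x 0 a ^ 2 *
        (slopeOf θ (m ω (x a)) (m ω (x (a + 1))) - slopeOf θ' (m' ω (x a)) (m' ω (x (a + 1)))) ^ 2 *
          slP θ' (m' ω) x (a + 1) b ^ 2 ∂P ≤
      ((d - 1 : ℕ) : ℝ) * ((1 - t ^ 2)⁻¹) ^ 2 * (3 * (1 + L) ^ 2) *
        (WW wp a * WW wp b * (2 * ((4 : ℝ) ^ (1 / (p : ℝ)) * S ^ (1 - 1 / (p : ℝ)))) +
          δ ^ 2 * (WW w2 a * WW w2 b)) := by
  set D : ℝ := ((d - 1 : ℕ) : ℝ) with hD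
  have hDpos : 0 < D := by
    have := h.hG.hd
    simp only [hD]
    exact_mod_cast (by omega : 0 < d - 1)
  have hadj : G.Adj (x a) (x (a + 1)) := hx.adj a (by omega)
  have hH0 : 0 ≤ 2 * ((4 : ℝ) ^ (1 / (p : ℝ)) * S ^ (1 - 1 / (p : ℝ))) := by
    have hS0 : 0 ≤ S := by
      rw [← hS (x a)]
      exact integral_nonneg fun ω => sq_nonneg _
    have := Real.rpow_nonneg hS0 (1 - 1 / (p : ℝ))
    positivity
  have hT := h.tail_term hx hp hS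
  have hQ : (1 : ℝ) ≤ 2 * (p : ℝ) := by
    have : (2 : ℝ) ≤ p := by exact_mod_cast hp
    linarith
  have h1 := h.arm_norm h.hm h.hu hη0 hη1 hQ hwp0 hwp a hadj
  have h2 := h.arm_norm h.hm' h.hu' hη0' hη1' hQ hwp0 hwp' b hadj.symm
  have h3 := h.arm_norm h.hm h.hu hη0 hη1 (by norm_num : (1 : ℝ) ≤ 2) hw20 hw2 a hadj
  have h4 := h.arm_norm h.hm' h.hu' hη0' hη1' (by norm_num : (1 : ℝ) ≤ 2) hw20 hw2' b hadj.symm
  set αp := lpN P (fun ω => armT G θ (d - 1) (m ω) a (x a) (x (a + 1))) (2 * (p : ℝ))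
  set βp := lpN P (fun ω => armT G θ' (d - 1) (m' ω) b (x (a + 1)) (x a)) (2 * (p : ℝ))
  set α2 := lpN P (fun ω => armT G θ (d - 1) (m ω) a (x a) (x (a + 1))) 2
  set β2 := lpN P (fun ω => armT G θ' (d - 1) (m' ω) b (x (a + 1)) (x a)) 2
  set η := θ ^ 2 * D with hη
  set η' := θ' ^ 2 * D with hη'
  have hpow : D ^ (a + b + 1) * (θ ^ (2 * a) * θ' ^ (2 * b)) = D * (η ^ a * η' ^ b) := by
    rw [hη, hη', mul_pow, mul_pow, ← pow_mul, ← pow_mul]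
    ring
  have hp1 : η ^ a * αp * (η' ^ b * βp) ≤ WW wp a * WW wp b :=
    mul_le_mul h1 h2 (mul_nonneg (pow_nonneg hη0'.le _) (lpN_nonneg _ _))
      ((mul_nonneg (pow_nonneg hη0.le _) (lpN_nonneg _ _)).trans h1)
  have hp2 : η ^ a * α2 * (η' ^ b * β2) ≤ WW w2 a * WW w2 b :=
    mul_le_mul h3 h4 (mul_nonneg (pow_nonneg hη0'.le _) (lpN_nonneg _ _))
      ((mul_nonneg (pow_nonneg hη0.le _) (lpN_nonneg _ _)).trans h3)
  have hc0 : 0 ≤ D * ((1 - t ^ 2)⁻¹) ^ 2 * (3 * (1 + L) ^ 2) := by positivity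
  calc _ ≤ D ^ (a + b + 1) * (((1 - t ^ 2)⁻¹) ^ 2 * (θ ^ (2 * a) * θ' ^ (2 * b)) * (3 * (1 + L) ^ 2 *
        (αp * βp * (2 * ((4 : ℝ) ^ (1 / (p : ℝ)) * S ^ (1 - 1 / (p : ℝ)))) + δ ^ 2 * (α2 * β2)))) :=
        mul_le_mul_of_nonneg_left hT (by positivity)
    _ = D * ((1 - t ^ 2)⁻¹) ^ 2 * (3 * (1 + L) ^ 2) *
        ((η ^ a * αp * (η' ^ b * βp)) * (2 * ((4 : ℝ) ^ (1 / (p : ℝ)) * S ^ (1 - 1 / (p : ℝ)))) +
          δ ^ 2 * (η ^ a * α2 * (η' ^ b * β2))) := by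
        have : D ^ (a + b + 1) * (((1 - t ^ 2)⁻¹) ^ 2 * (θ ^ (2 * a) * θ' ^ (2 * b)) * (3 * (1 + L) ^ 2 *
            (αp * βp * (2 * ((4 : ℝ) ^ (1 / (p : ℝ)) * S ^ (1 - 1 / (p : ℝ)))) + δ ^ 2 * (α2 * β2)))) =
            (D ^ (a + b + 1) * (θ ^ (2 * a) * θ' ^ (2 * b))) * (((1 - t ^ 2)⁻¹) ^ 2 * (3 * (1 + L) ^ 2 *
            (αp * βp * (2 * ((4 : ℝ) ^ (1 / (p : ℝ)) * S ^ (1 - 1 / (p : ℝ)))) + δ ^ 2 * (α2 * β2)))) := by
          ring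
        rw [this, hpow]
        ring
    _ ≤ _ := by
        refine mul_le_mul_of_nonneg_left ?_ hc0
        exact add_le_add (mul_le_mul_of_nonneg_right hp1 hH0)
          (mul_le_mul_of_nonneg_left hp2 (sq_nonneg _))

/-- Long paths. -/
theorem long_bound (h : PairHyp G d P A m m' θ θ' t L δ) {x : ℕ → V} {r : ℕ}
    (hx : IsGeod G x r) {p : ℕ} (hp : 2 ≤ p) {S : ℝ}
    (hS : ∀ u, ∫ ω, (m ω u - m' ω u) ^ 2 ∂P = S)
    (hη0 : 0 < θ ^ 2 * ((d - 1 : ℕ) : ℝ)) (hη1 : θ ^ 2 * ((d - 1 : ℕ) : ℝ) ≤ 1)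
    (hη0' : 0 < θ' ^ 2 * ((d - 1 : ℕ) : ℝ)) (hη1' : θ' ^ 2 * ((d - 1 : ℕ) : ℝ) ≤ 1)
    {wp w2 : ℕ → ℝ} (hwp0 : ∀ n, 0 ≤ wp n) (hw20 : ∀ n, 0 ≤ w2 n)
    (hwp : ∀ n z c, G.Adj z c → (θ ^ 2 * ((d - 1 : ℕ) : ℝ)) ^ n *
      lpN P (fun ω => wTree G θ (d - 1) (m ω) n z c) (2 * (p : ℝ)) ≤ wp n)
    (hwp' : ∀ n z c, G.Adj z c → (θ' ^ 2 * ((d - 1 : ℕ) : ℝ)) ^ n *
      lpN P (fun ω => wTree G θ' (d - 1) (m' ω) n z c) (2 * (p : ℝ)) ≤ wp n)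
    (hw2 : ∀ n z c, G.Adj z c → (θ ^ 2 * ((d - 1 : ℕ) : ℝ)) ^ n *
      lpN P (fun ω => wTree G θ (d - 1) (m ω) n z c) 2 ≤ w2 n)
    (hw2' : ∀ n z c, G.Adj z c → (θ' ^ 2 * ((d - 1 : ℕ) : ℝ)) ^ n *
      lpN P (fun ω => wTree G θ' (d - 1) (m' ω) n z c) 2 ≤ w2 n) :
    ((d - 1 : ℕ) : ℝ) ^ r * ∫ ω, (slP θ (m ω) x 0 r - slP θ' (m' ω) x 0 r) ^ 2 ∂P ≤
      ((d - 1 : ℕ) : ℝ) * ((1 - t ^ 2)⁻¹) ^ 2 * (3 * (1 + L) ^ 2) *
       (r * ∑ i ∈ Finset.range r,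
        (WW wp i * WW wp (r - 1 - i) * (2 * ((4 : ℝ) ^ (1 / (p : ℝ)) * S ^ (1 - 1 / (p : ℝ)))) +
          δ ^ 2 * (WW w2 i * WW w2 (r - 1 - i)))) := by
  set D : ℝ := ((d - 1 : ℕ) : ℝ) with hD
  have hDpos : 0 < D := by
    have := h.hG.hd
    simp only [hD]
    exact_mod_cast (by omega : 0 < d - 1)
  set F : ℕ → Ω → ℝ := fun i ω => slP θ (m ω) x 0 i ^ 2 *
        (slopeOf θ (m ω (x i)) (m ω (x (i + 1))) - slopeOf θ' (m' ω (x i)) (m' ω (x (i + 1)))) ^ 2 *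
          slP θ' (m' ω) x (i + 1) (r - 1 - i) ^ 2 with hF
  have hFm : ∀ i, Measurable (F i) := fun i =>
    (((measurable_slP h.hm.meas θ x 0 i).pow_const 2).mul (h.meas_Y _ _)).mul
      ((measurable_slP h.hm'.meas θ' x _ _).pow_const 2)
  have hFb : ∀ i ω, |F i ω| ≤ (θ ^ i) ^ 2 * 1 * (θ' ^ (r - 1 - i)) ^ 2 := by
    intro i ω
    have h1 := slP_mem h.θ0 h.hu (h.hm.bd ω) x 0 i
    have h2 := slP_mem h.θ0' h.hu' (h.hm'.bd ω) x (i + 1) (r - 1 - i)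
    simp only [hF]
    rw [abs_mul, abs_mul, abs_of_nonneg (sq_nonneg (slP θ (m ω) x 0 i)),
      abs_of_nonneg (sq_nonneg (slP θ' (m' ω) x (i + 1) (r - 1 - i)))]
    have hYi := h.Y_abs_le (x i) (x (i + 1)) ω
    refine mul_le_mul (mul_le_mul (pow_le_pow_left₀ h1.1 h1.2 2) hYi (abs_nonneg _) (by positivity))
        (pow_le_pow_left₀ h2.1 h2.2 2) (sq_nonneg _) ?_
    exact mul_nonneg (sq_nonneg _) ((abs_nonneg _).trans hYi)
  have hFi : ∀ i, Integrable (F i) P := fun i => integrable_bd (hFm i) (hFb i)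
  have hptw : ∀ ω, (slP θ (m ω) x 0 r - slP θ' (m' ω) x 0 r) ^ 2 ≤
      r * ∑ i ∈ Finset.range r, F i ω := fun ω => sq_slP_sub_le θ θ' (m ω) (m' ω) x r
  have hlint : Integrable (fun ω => (slP θ (m ω) x 0 r - slP θ' (m' ω) x 0 r) ^ 2) P := by
    refine integrable_bd (((measurable_slP h.hm.meas θ x 0 r).sub
      (measurable_slP h.hm'.meas θ' x 0 r)).pow_const 2) (C := 1) fun ω => ?_
    have h1 := slP_mem h.θ0 h.hu (h.hm.bd ω) x 0 r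
    have h2 := slP_mem h.θ0' h.hu' (h.hm'.bd ω) x 0 r
    have h3 : θ ^ r ≤ 1 := pow_le_one₀ h.θ0 h.θ1
    have h4 : θ' ^ r ≤ 1 := pow_le_one₀ h.θ0' h.θ1'
    rw [abs_of_nonneg (sq_nonneg _), sq_le_one_iff_abs_le_one, abs_le]
    constructor <;> linarith [h1.1, h1.2, h2.1, h2.2]
  have hI : ∫ ω, (slP θ (m ω) x 0 r - slP θ' (m' ω) x 0 r) ^ 2 ∂P ≤
      r * ∑ i ∈ Finset.range r, ∫ ω, F i ω ∂P := by
    rw [← integral_finsetSum _ fun i _ => hFi i, ← integral_const_mul]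
    exact integral_mono hlint ((integrable_finsetSum _ fun i _ => hFi i).const_mul _) hptw
  have hterm : ∀ i ∈ Finset.range r, D ^ r * ∫ ω, F i ω ∂P ≤
      D * ((1 - t ^ 2)⁻¹) ^ 2 * (3 * (1 + L) ^ 2) *
        (WW wp i * WW wp (r - 1 - i) * (2 * ((4 : ℝ) ^ (1 / (p : ℝ)) * S ^ (1 - 1 / (p : ℝ)))) +
          δ ^ 2 * (WW w2 i * WW w2 (r - 1 - i))) := by
    intro i hi
    have hi' : i < r := Finset.mem_range.mp hi
    have e : i + (r - 1 - i) + 1 = r := by omega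
    have hx' : IsGeod G x (i + (r - 1 - i) + 1) := by rwa [e]
    have := h.tail_final hx' hp hS hη0 hη1 hη0' hη1' hwp0 hw20 hwp hwp' hw2 hw2'
    rw [e] at this
    exact this
  calc D ^ r * ∫ ω, (slP θ (m ω) x 0 r - slP θ' (m' ω) x 0 r) ^ 2 ∂P
      ≤ D ^ r * (r * ∑ i ∈ Finset.range r, ∫ ω, F i ω ∂P) :=
        mul_le_mul_of_nonneg_left hI (by positivity)
    _ = r * ∑ i ∈ Finset.range r, (D ^ r * ∫ ω, F i ω ∂P) := by
        rw [← Finset.mul_sum]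
        ring
    _ ≤ r * ∑ i ∈ Finset.range r, (D * ((1 - t ^ 2)⁻¹) ^ 2 * (3 * (1 + L) ^ 2) *
        (WW wp i * WW wp (r - 1 - i) * (2 * ((4 : ℝ) ^ (1 / (p : ℝ)) * S ^ (1 - 1 / (p : ℝ)))) +
          δ ^ 2 * (WW w2 i * WW w2 (r - 1 - i)))) :=
        mul_le_mul_of_nonneg_left (Finset.sum_le_sum hterm) (by positivity)
    _ = _ := by
        rw [← Finset.mul_sum]
        ring

/-- `fE` is bounded. -/
theorem fE_abs_le (h : PairHyp G d P A m m' θ θ' t L δ) (a b : V) (ω : Ω) :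
    |fE θ θ' (m ω) (m' ω) a b| ≤ L * 4 * (4 + δ) := by
  have hlip := h.alip _ _ _ _ (h.hm.bd ω a) (h.hm.bd ω b) (h.hm'.bd ω a) (h.hm'.bd ω b)
  refine hlip.trans ?_
  have h1 := (h.hm.bd ω a).trans h.t_le
  have h2 := (h.hm.bd ω b).trans h.t_le
  have h3 := (h.hm'.bd ω a).trans h.t_le
  have h4 := (h.hm'.bd ω b).trans h.t_le
  have h5 : |m ω a - m' ω a| ≤ 2 := (abs_sub _ _).trans (by linarith)
  have h6 : |m ω b - m' ω b| ≤ 2 := (abs_sub _ _).trans (by linarith)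
  have hδ := h.δ_nonneg
  have hL := h.L0
  refine mul_le_mul (mul_le_mul_of_nonneg_left (by linarith) hL) (by linarith) (by positivity) (by positivity)

/-- The second moment of the edge functional. -/
theorem E2_bound (h : PairHyp G d P A m m' θ θ' t L δ) (a b : V) {p : ℕ} (hp : 2 ≤ p) {S z z₁ : ℝ}
    (hS : ∀ u, ∫ ω, (m ω u - m' ω u) ^ 2 ∂P = S)
    (hz : ∀ u, lpN P (fun ω => m ω u ^ 2) (p : ℝ) ≤ z)
    (hz' : ∀ u, lpN P (fun ω => m' ω u ^ 2) (p : ℝ) ≤ z)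
    (hz₁ : ∀ u, ∫ ω, m ω u ^ 2 ∂P ≤ z₁) (hz₁' : ∀ u, ∫ ω, m' ω u ^ 2 ∂P ≤ z₁) :
    ∫ ω, fE θ θ' (m ω) (m' ω) a b ^ 2 ∂P ≤
      12 * L ^ 2 * (8 * (z * ((4 : ℝ) ^ (1 / (p : ℝ)) * S ^ (1 - 1 / (p : ℝ)))) + 4 * (δ ^ 2 * z₁)) := by
  set H := (4 : ℝ) ^ (1 / (p : ℝ)) * S ^ (1 - 1 / (p : ℝ)) with hH
  -- a single coefficient
  have hone : ∀ M : Ω → ℝ, Measurable M → (∀ ω, 0 ≤ M ω) → (∀ ω, M ω ≤ 1) →
      lpN P M (p : ℝ) ≤ z → ∫ ω, M ω ∂P ≤ z₁ →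
      Integrable (fun ω => M ω * ((m ω a - m' ω a) ^ 2 + (m ω b - m' ω b) ^ 2 + δ ^ 2)) P ∧
      ∫ ω, M ω * ((m ω a - m' ω a) ^ 2 + (m ω b - m' ω b) ^ 2 + δ ^ 2) ∂P ≤ 2 * (z * H) + δ ^ 2 * z₁ := by
    intro M hMm hM0 hM1 hMz hMz₁
    have hMb : ∀ ω, |M ω| ≤ 1 := fun ω => by rw [abs_of_nonneg (hM0 ω)]; exact hM1 ω
    have hterm : ∀ u, Integrable (fun ω => M ω * (m ω u - m' ω u) ^ 2) P ∧
        ∫ ω, M ω * (m ω u - m' ω u) ^ 2 ∂P ≤ z * H := by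
      intro u
      constructor
      · refine integrable_bd (hMm.mul (h.Δ_meas u)) (C := 1 * 4) fun ω => ?_
        rw [abs_mul, abs_of_nonneg (sq_nonneg (m ω u - m' ω u))]
        exact mul_le_mul (hMb ω) (h.Δ_le u ω) (sq_nonneg _) (by norm_num)
      · have := integral_mul_sq_le (P := P) hMm (h.Δ_meas u) hM0 (fun ω => sq_nonneg _) hMb
          (fun ω => h.Δ_le u ω) hp
        rw [hS u] at this
        refine this.trans (mul_le_mul_of_nonneg_right hMz ?_)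
        have hS0 : 0 ≤ S := by
          rw [← hS a]
          exact integral_nonneg fun ω => sq_nonneg _
        have := Real.rpow_nonneg hS0 (1 - 1 / (p : ℝ))
        positivity
    have hMi : Integrable M P := integrable_bd hMm hMb
    have h12 : Integrable (fun ω => M ω * (m ω a - m' ω a) ^ 2 + M ω * (m ω b - m' ω b) ^ 2) P :=
      (hterm a).1.add (hterm b).1
    have hI3 : Integrable (fun ω => M ω * δ ^ 2) P := hMi.mul_const _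
    have e : ∀ ω, M ω * ((m ω a - m' ω a) ^ 2 + (m ω b - m' ω b) ^ 2 + δ ^ 2) =
        M ω * (m ω a - m' ω a) ^ 2 + M ω * (m ω b - m' ω b) ^ 2 + M ω * δ ^ 2 := fun ω => by ring
    simp only [e]
    refine ⟨h12.add hI3, ?_⟩
    rw [integral_add h12 hI3, integral_add (hterm a).1 (hterm b).1, integral_mul_const]
    have h3 := mul_le_mul_of_nonneg_right hMz₁ (sq_nonneg δ)
    nlinarith [(hterm a).2, (hterm b).2]
  have hsq : ∀ (n : Ω → V → ℝ) (u : V), MField G P A n t → Measurable (fun ω => n ω u ^ 2) ∧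
      (∀ ω, 0 ≤ n ω u ^ 2) ∧ ∀ ω, n ω u ^ 2 ≤ 1 := by
    intro n u hn
    refine ⟨(hn.meas u).pow_const 2, fun ω => sq_nonneg _, fun ω => ?_⟩
    rw [sq_le_one_iff_abs_le_one]
    exact (hn.bd ω u).trans h.t_le
  obtain ⟨i1, b1⟩ := hone _ (hsq m a h.hm).1 (hsq m a h.hm).2.1 (hsq m a h.hm).2.2 (hz a) (hz₁ a)
  obtain ⟨i2, b2⟩ := hone _ (hsq m b h.hm).1 (hsq m b h.hm).2.1 (hsq m b h.hm).2.2 (hz b) (hz₁ b)
  obtain ⟨i3, b3⟩ := hone _ (hsq m' a h.hm').1 (hsq m' a h.hm').2.1 (hsq m' a h.hm').2.2 (hz' a) (hz₁' a)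
  obtain ⟨i4, b4⟩ := hone _ (hsq m' b h.hm').1 (hsq m' b h.hm').2.1 (hsq m' b h.hm').2.2 (hz' b) (hz₁' b)
  have hmaj : ∀ ω, fE θ θ' (m ω) (m' ω) a b ^ 2 ≤ 12 * L ^ 2 *
      (m ω a ^ 2 * ((m ω a - m' ω a) ^ 2 + (m ω b - m' ω b) ^ 2 + δ ^ 2) +
       m ω b ^ 2 * ((m ω a - m' ω a) ^ 2 + (m ω b - m' ω b) ^ 2 + δ ^ 2) +
       m' ω a ^ 2 * ((m ω a - m' ω a) ^ 2 + (m ω b - m' ω b) ^ 2 + δ ^ 2) +
       m' ω b ^ 2 * ((m ω a - m' ω a) ^ 2 + (m ω b - m' ω b) ^ 2 + δ ^ 2)) := by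
    intro ω
    have hlip := h.alip _ _ _ _ (h.hm.bd ω a) (h.hm.bd ω b) (h.hm'.bd ω a) (h.hm'.bd ω b)
    set x1 := |m ω a| with hx1
    set x2 := |m ω b| with hx2
    set x3 := |m' ω a| with hx3
    set x4 := |m' ω b| with hx4
    set y1 := |m ω a - m' ω a| with hy1
    set y2 := |m ω b - m' ω b| with hy2
    have hδ := h.δ_nonneg
    have hL := h.L0
    have e1 : m ω a ^ 2 = x1 ^ 2 := (sq_abs _).symm
    have e2 : m ω b ^ 2 = x2 ^ 2 := (sq_abs _).symm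
    have e3 : m' ω a ^ 2 = x3 ^ 2 := (sq_abs _).symm
    have e4 : m' ω b ^ 2 = x4 ^ 2 := (sq_abs _).symm
    have e5 : (m ω a - m' ω a) ^ 2 = y1 ^ 2 := (sq_abs _).symm
    have e6 : (m ω b - m' ω b) ^ 2 = y2 ^ 2 := (sq_abs _).symm
    rw [e1, e2, e3, e4, e5, e6]
    have hx10 : 0 ≤ x1 := abs_nonneg _
    have hx20 : 0 ≤ x2 := abs_nonneg _
    have hx30 : 0 ≤ x3 := abs_nonneg _
    have hx40 : 0 ≤ x4 := abs_nonneg _
    have hy10 : 0 ≤ y1 := abs_nonneg _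
    have hy20 : 0 ≤ y2 := abs_nonneg _
    have h1 : fE θ θ' (m ω) (m' ω) a b ^ 2 ≤ (L * (x1 + x2 + x3 + x4) * (y1 + y2 + δ)) ^ 2 := by
      rw [← sq_abs]
      exact pow_le_pow_left₀ (abs_nonneg _) hlip 2
    refine h1.trans ?_
    have h2 := sq_add4_le x1 x2 x3 x4
    have h3 := sq_add3_le y1 y2 δ
    have h4 := mul_le_mul h2 h3 (sq_nonneg _) (by positivity)
    calc (L * (x1 + x2 + x3 + x4) * (y1 + y2 + δ)) ^ 2
        = L ^ 2 * ((x1 + x2 + x3 + x4) ^ 2 * (y1 + y2 + δ) ^ 2) := by ring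
      _ ≤ L ^ 2 * (4 * (x1 ^ 2 + x2 ^ 2 + x3 ^ 2 + x4 ^ 2) * (3 * (y1 ^ 2 + y2 ^ 2 + δ ^ 2))) :=
          mul_le_mul_of_nonneg_left h4 (sq_nonneg _)
      _ = _ := by ring
  have hfi : Integrable (fun ω => fE θ θ' (m ω) (m' ω) a b ^ 2) P := by
    refine integrable_bd ((measurable_fE h.hm.meas h.hm'.meas θ θ' a b).pow_const 2)
      (C := (L * 4 * (4 + δ)) ^ 2) fun ω => ?_
    rw [abs_of_nonneg (sq_nonneg _), ← sq_abs]
    exact pow_le_pow_left₀ (abs_nonneg _) (h.fE_abs_le a b ω) 2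
  set g : Ω → ℝ := fun ω => (m ω a - m' ω a) ^ 2 + (m ω b - m' ω b) ^ 2 + δ ^ 2 with hg
  have hi12 : Integrable (fun ω => m ω a ^ 2 * g ω + m ω b ^ 2 * g ω) P := i1.add i2
  have hi123 : Integrable (fun ω => m ω a ^ 2 * g ω + m ω b ^ 2 * g ω + m' ω a ^ 2 * g ω) P := hi12.add i3
  have hi1234 : Integrable (fun ω => m ω a ^ 2 * g ω + m ω b ^ 2 * g ω + m' ω a ^ 2 * g ω +
      m' ω b ^ 2 * g ω) P := hi123.add i4
  refine (integral_mono hfi (hi1234.const_mul _) hmaj).trans ?_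
  rw [integral_const_mul]
  refine mul_le_mul_of_nonneg_left ?_ (by positivity)
  rw [integral_add hi123 i4, integral_add hi12 i3, integral_add i1 i2]
  linarith

/-- Short paths. -/
theorem short_bound (h : PairHyp G d P A m m' θ θ' t L δ) {x : ℕ → V} {r : ℕ}
    (hx : IsGeod G x r) (hη' : θ' ^ 2 * ((d - 1 : ℕ) : ℝ) ≤ 1) {C ψ : ℝ} (hCr : 0 ≤ C)
    (hbsv : ∫ ω, (∑ i ∈ Finset.range r, (fE θ θ' (m ω) (m' ω) (x i) (x (i + 1)) - ψ)) ^ 2 ∂P ≤ C) :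
    ((d - 1 : ℕ) : ℝ) ^ r * ∫ ω, (slP θ (m ω) x 0 r - slP θ' (m' ω) x 0 r) ^ 2 ∂P ≤
      2 * (2 * C + 2 * (r ^ 2 * ψ ^ 2)) + 2 * ((θ ^ r - θ' ^ r) ^ 2 * ((d - 1 : ℕ) : ℝ) ^ r) := by
  set D : ℝ := ((d - 1 : ℕ) : ℝ) with hD
  have hD0 : 0 ≤ D := by simp only [hD]; positivity
  set X : Ω → ℝ := fun ω => ∑ i ∈ Finset.range r, (fE θ θ' (m ω) (m' ω) (x i) (x (i + 1)) - ψ) with hX
  have hXm : Measurable X := Finset.measurable_sum _ fun i _ =>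
    (measurable_fE h.hm.meas h.hm'.meas θ θ' _ _).sub measurable_const
  have hXb : ∀ ω, |X ω| ≤ ∑ i ∈ Finset.range r, (L * 4 * (4 + δ) + |ψ|) := by
    intro ω
    refine (Finset.abs_sum_le_sum_abs _ _).trans (Finset.sum_le_sum fun i _ => ?_)
    exact (abs_sub _ _).trans (add_le_add (h.fE_abs_le _ _ ω) le_rfl)
  have hX2i : Integrable (fun ω => X ω ^ 2) P := by
    refine integrable_bd (hXm.pow_const 2) (C := (∑ i ∈ Finset.range r, (L * 4 * (4 + δ) + |ψ|)) ^ 2) fun ω => ?_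
    rw [abs_of_nonneg (sq_nonneg _), ← sq_abs]
    exact pow_le_pow_left₀ (abs_nonneg _) (hXb ω) 2
  have hptw : ∀ ω, (slP θ (m ω) x 0 r - slP θ' (m' ω) x 0 r) ^ 2 ≤
      2 * (θ' ^ r) ^ 2 * (2 * X ω ^ 2 + 2 * (r ^ 2 * ψ ^ 2)) + 2 * (θ ^ r - θ' ^ r) ^ 2 := by
    intro ω
    -- the two products of `u`
    set A1 := ∑ j ∈ Finset.range r, aOf θ (m ω (x j)) (m ω (x (j + 1))) with hA1
    set A2 := ∑ j ∈ Finset.range r, aOf θ' (m' ω (x j)) (m' ω (x (j + 1))) with hA2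
    have hA10 : 0 ≤ A1 := Finset.sum_nonneg fun j _ => (h.aexp _ _ (h.hm.bd ω _) (h.hm.bd ω _)).1
    have hA20 : 0 ≤ A2 := Finset.sum_nonneg fun j _ => (h.aexp' _ _ (h.hm'.bd ω _) (h.hm'.bd ω _)).1
    have eP1 : ∏ j ∈ Finset.range r, uOf θ (m ω (x (0 + j))) (m ω (x (0 + j + 1))) = Real.exp (-A1) := by
      rw [hA1, ← Finset.sum_neg_distrib, Real.exp_sum]
      refine Finset.prod_congr rfl fun j _ => ?_
      rw [(h.aexp _ _ (h.hm.bd ω _) (h.hm.bd ω _)).2]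
      simp
    have eP2 : ∏ j ∈ Finset.range r, uOf θ' (m' ω (x (0 + j))) (m' ω (x (0 + j + 1))) = Real.exp (-A2) := by
      rw [hA2, ← Finset.sum_neg_distrib, Real.exp_sum]
      refine Finset.prod_congr rfl fun j _ => ?_
      rw [(h.aexp' _ _ (h.hm'.bd ω _) (h.hm'.bd ω _)).2]
      simp
    rw [slP_eq_pow, slP_eq_pow, eP1, eP2]
    have hdiff : A1 - A2 = X ω + r * ψ := by
      simp only [hX, hA1, hA2, fE]
      rw [Finset.sum_sub_distrib, Finset.sum_sub_distrib, ← Finset.sum_sub_distrib]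
      simp
    have hP := abs_exp_neg_sub_le hA10 hA20
    set P1 := Real.exp (-A1) with hP1
    set P2 := Real.exp (-A2) with hP2
    have hP10 : 0 ≤ P1 := (Real.exp_pos _).le
    have hP11 : P1 ≤ 1 := Real.exp_le_one_iff.mpr (by linarith)
    have h1 : (P1 - P2) ^ 2 ≤ (X ω + r * ψ) ^ 2 := by
      rw [← hdiff, ← sq_abs (P1 - P2), ← sq_abs (A1 - A2)]
      exact pow_le_pow_left₀ (abs_nonneg _) hP 2
    have h2 : (X ω + r * ψ) ^ 2 ≤ 2 * X ω ^ 2 + 2 * (r ^ 2 * ψ ^ 2) := by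
      nlinarith [sq_nonneg (X ω - r * ψ)]
    have h3 : (θ ^ r * P1 - θ' ^ r * P2) ^ 2 ≤
        2 * (θ' ^ r) ^ 2 * (P1 - P2) ^ 2 + 2 * ((θ ^ r - θ' ^ r) ^ 2 * P1 ^ 2) := by
      nlinarith [sq_nonneg (θ' ^ r * (P1 - P2) - (θ ^ r - θ' ^ r) * P1)]
    have h4 : P1 ^ 2 ≤ 1 := by
      rw [sq_le_one_iff_abs_le_one, abs_of_nonneg hP10]
      exact hP11
    have h5 : (θ ^ r - θ' ^ r) ^ 2 * P1 ^ 2 ≤ (θ ^ r - θ' ^ r) ^ 2 * 1 :=
      mul_le_mul_of_nonneg_left h4 (sq_nonneg _)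
    have h6 : 2 * (θ' ^ r) ^ 2 * (P1 - P2) ^ 2 ≤ 2 * (θ' ^ r) ^ 2 * (2 * X ω ^ 2 + 2 * (r ^ 2 * ψ ^ 2)) :=
      mul_le_mul_of_nonneg_left (h1.trans h2) (by positivity)
    linarith
  have hlint : Integrable (fun ω => (slP θ (m ω) x 0 r - slP θ' (m' ω) x 0 r) ^ 2) P := by
    refine integrable_bd (((measurable_slP h.hm.meas θ x 0 r).sub
      (measurable_slP h.hm'.meas θ' x 0 r)).pow_const 2) (C := 1) fun ω => ?_
    have h1 := slP_mem h.θ0 h.hu (h.hm.bd ω) x 0 r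
    have h2 := slP_mem h.θ0' h.hu' (h.hm'.bd ω) x 0 r
    have h3 : θ ^ r ≤ 1 := pow_le_one₀ h.θ0 h.θ1
    have h4 : θ' ^ r ≤ 1 := pow_le_one₀ h.θ0' h.θ1'
    rw [abs_of_nonneg (sq_nonneg _), sq_le_one_iff_abs_le_one, abs_le]
    constructor <;> linarith [h1.1, h1.2, h2.1, h2.2]
  have hR1 : Integrable (fun ω => 2 * (θ' ^ r) ^ 2 * (2 * X ω ^ 2 + 2 * (r ^ 2 * ψ ^ 2))) P :=
    ((hX2i.const_mul 2).add (integrable_const _)).const_mul _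
  have hI : ∫ ω, (slP θ (m ω) x 0 r - slP θ' (m' ω) x 0 r) ^ 2 ∂P ≤
      2 * (θ' ^ r) ^ 2 * (2 * C + 2 * (r ^ 2 * ψ ^ 2)) + 2 * (θ ^ r - θ' ^ r) ^ 2 := by
    refine (integral_mono hlint (hR1.add (integrable_const _)) hptw).trans ?_
    have e : ∫ ω, (2 * (θ' ^ r) ^ 2 * (2 * X ω ^ 2 + 2 * (r ^ 2 * ψ ^ 2)) + 2 * (θ ^ r - θ' ^ r) ^ 2) ∂P =
        2 * (θ' ^ r) ^ 2 * (2 * ∫ ω, X ω ^ 2 ∂P + 2 * (r ^ 2 * ψ ^ 2)) + 2 * (θ ^ r - θ' ^ r) ^ 2 := by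
      rw [integral_add hR1 (integrable_const _), integral_const_mul,
        integral_add (hX2i.const_mul 2) (integrable_const _), integral_const_mul]
      simp
    refine (le_of_eq e).trans ?_
    have h1 : 2 * ∫ ω, X ω ^ 2 ∂P + 2 * (r ^ 2 * ψ ^ 2) ≤ 2 * C + 2 * (r ^ 2 * ψ ^ 2) := by linarith
    have h2 := mul_le_mul_of_nonneg_left h1 (by positivity : 0 ≤ 2 * (θ' ^ r) ^ 2)
    linarith
  have hη'r : D ^ r * (θ' ^ r) ^ 2 ≤ 1 := by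
    have e : D ^ r * (θ' ^ r) ^ 2 = (θ' ^ 2 * D) ^ r := by
      rw [mul_pow, ← pow_mul, ← pow_mul, mul_comm r 2]
      ring
    rw [e]
    exact pow_le_one₀ (by positivity) hη'
  have hpos : 0 ≤ 2 * C + 2 * (r ^ 2 * ψ ^ 2) := by positivity
  calc D ^ r * ∫ ω, (slP θ (m ω) x 0 r - slP θ' (m' ω) x 0 r) ^ 2 ∂P
      ≤ D ^ r * (2 * (θ' ^ r) ^ 2 * (2 * C + 2 * (r ^ 2 * ψ ^ 2)) + 2 * (θ ^ r - θ' ^ r) ^ 2) :=
        mul_le_mul_of_nonneg_left hI (by positivity)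
    _ = 2 * (D ^ r * (θ' ^ r) ^ 2) * (2 * C + 2 * (r ^ 2 * ψ ^ 2)) + 2 * ((θ ^ r - θ' ^ r) ^ 2 * D ^ r) := by
        ring
    _ ≤ 2 * 1 * (2 * C + 2 * (r ^ 2 * ψ ^ 2)) + 2 * ((θ ^ r - θ' ^ r) ^ 2 * D ^ r) := by
        gcongr
    _ = _ := by ring

end PairHyp

/-! ### Spheres and row sums -/

open Classical in
theorem mem_sphere_iff (hT : G.IsTree) {v y : V} {r : ℕ} : y ∈ sphere G v r ↔ G.dist v y = r := by
  unfold sphere
  rw [Finset.mem_filter, mem_ball hT]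
  constructor
  · exact fun h => h.2
  · exact fun h => ⟨h.le, h⟩

open Classical in
theorem card_sphere_le_pa (hG : Tree G d) (v : V) (r : ℕ) :
    ((sphere G v r).card : ℝ) ≤ ((d : ℝ) + 1) * ((d - 1 : ℕ) : ℝ) ^ r := by
  have h1 : (sphere G v r).card ≤ (ball G v r).card := Finset.card_filter_le _ _
  have h2 := card_ball_le hG.tree hG.reg hG.hd v r
  exact_mod_cast h1.trans h2

open Classical in
theorem geoTo_spec (hT : G.IsTree) (v y : V) :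
    IsGeod G (geoTo G v y) (G.dist v y) ∧ geoTo G v y 0 = v ∧ geoTo G v y (G.dist v y) = y := by
  have h := exists_geod hT v y
  unfold geoTo
  rw [dif_pos h]
  exact h.choose_spec

/-- The row sum of squared path covariances. -/
noncomputable def rowS (G : SimpleGraph V) [G.LocallyFinite] (θ : ℝ) (m : V → ℝ) (v : V) : ℝ :=
  ∑' r, ∑ y ∈ sphere G v r, pathCov θ m (geoTo G v y) (G.dist v y) ^ 2

theorem pathCov_sq_le {θ t : ℝ} (h0 : 0 ≤ θ) (ht : t ≤ 1) (hu : UBd θ t) {m : V → ℝ} (hm : ∀ v, |m v| ≤ t)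
    (x : ℕ → V) (r : ℕ) : pathCov θ m x r ^ 2 ≤ (θ ^ r) ^ 2 := by
  rw [pathCov_eq]
  have h1 := slP_mem h0 hu hm x 0 r
  have h2 : m (x 0) ^ 2 ≤ 1 := by
    rw [sq_le_one_iff_abs_le_one]
    exact (hm _).trans ht
  have h3 : 0 ≤ 1 - m (x 0) ^ 2 := by linarith
  have h4 : 1 - m (x 0) ^ 2 ≤ 1 := by nlinarith [sq_nonneg (m (x 0))]
  have h5 : (1 - m (x 0) ^ 2) * slP θ m x 0 r ≤ 1 * θ ^ r := mul_le_mul h4 h1.2 h1.1 (by norm_num)
  rw [one_mul] at h5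
  exact pow_le_pow_left₀ (mul_nonneg h3 h1.1) h5 2

theorem sum_sphere_le (hG : Tree G d) {θ t : ℝ} (h0 : 0 ≤ θ) (ht : t ≤ 1) (hu : UBd θ t) {m : V → ℝ}
    (hm : ∀ v, |m v| ≤ t) (v : V) (r : ℕ) :
    ∑ y ∈ sphere G v r, pathCov θ m (geoTo G v y) (G.dist v y) ^ 2 ≤
      ((d : ℝ) + 1) * (θ ^ 2 * ((d - 1 : ℕ) : ℝ)) ^ r := by
  classical
  calc _ ≤ ∑ y ∈ sphere G v r, (θ ^ r) ^ 2 := by
        refine Finset.sum_le_sum fun y hy => ?_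
        have hd : G.dist v y = r := (mem_sphere_iff hG.tree).mp hy
        rw [hd]
        exact pathCov_sq_le h0 ht hu hm _ r
    _ = ((sphere G v r).card : ℝ) * (θ ^ r) ^ 2 := by simp
    _ ≤ (((d : ℝ) + 1) * ((d - 1 : ℕ) : ℝ) ^ r) * (θ ^ r) ^ 2 :=
        mul_le_mul_of_nonneg_right (card_sphere_le_pa hG v r) (sq_nonneg _)
    _ = _ := by
        have e : (θ ^ 2 * ((d - 1 : ℕ) : ℝ)) ^ r = ((d - 1 : ℕ) : ℝ) ^ r * (θ ^ r) ^ 2 := by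
          rw [mul_pow, ← pow_mul, ← pow_mul, mul_comm r 2]
          ring
        rw [e]
        ring

theorem summable_row (hG : Tree G d) {θ t : ℝ} (h0 : 0 ≤ θ) (ht : t ≤ 1) (hu : UBd θ t) {m : V → ℝ}
    (hm : ∀ v, |m v| ≤ t) (hη : θ ^ 2 * ((d - 1 : ℕ) : ℝ) < 1) (v : V) :
    Summable fun r => ∑ y ∈ sphere G v r, pathCov θ m (geoTo G v y) (G.dist v y) ^ 2 := by
  have hη0 : 0 ≤ θ ^ 2 * ((d - 1 : ℕ) : ℝ) := by positivity
  refine Summable.of_nonneg_of_le (fun r => Finset.sum_nonneg fun y _ => sq_nonneg _)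
    (sum_sphere_le hG h0 ht hu hm v) ((summable_geometric_of_lt_one hη0 hη).mul_left _)

theorem rowS_nonneg (G : SimpleGraph V) [G.LocallyFinite] (θ : ℝ) (m : V → ℝ) (v : V) : 0 ≤ rowS G θ m v :=
  tsum_nonneg fun r => Finset.sum_nonneg fun y _ => sq_nonneg _

theorem rowS_le (hG : Tree G d) {θ t : ℝ} (h0 : 0 ≤ θ) (ht : t ≤ 1) (hu : UBd θ t) {m : V → ℝ}
    (hm : ∀ v, |m v| ≤ t) (hη : θ ^ 2 * ((d - 1 : ℕ) : ℝ) < 1) (v : V) :
    rowS G θ m v ≤ ((d : ℝ) + 1) * (1 - θ ^ 2 * ((d - 1 : ℕ) : ℝ))⁻¹ := by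
  have hη0 : 0 ≤ θ ^ 2 * ((d - 1 : ℕ) : ℝ) := by positivity
  have hs := (summable_geometric_of_lt_one hη0 hη).mul_left ((d : ℝ) + 1)
  unfold rowS
  calc _ ≤ ∑' r, ((d : ℝ) + 1) * (θ ^ 2 * ((d - 1 : ℕ) : ℝ)) ^ r :=
        (summable_row hG h0 ht hu hm hη v).tsum_le_tsum (sum_sphere_le hG h0 ht hu hm v) hs
    _ = _ := by rw [tsum_mul_left, tsum_geometric_of_lt_one hη0 hη]

theorem measurable_rowS (hG : Tree G d) {θ t : ℝ} (h0 : 0 ≤ θ) (ht : t ≤ 1) (hu : UBd θ t)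
    {m : Ω → V → ℝ} (hmeas : ∀ v, Measurable fun ω => m ω v) (hbd : ∀ ω v, |m ω v| ≤ t)
    (hη : θ ^ 2 * ((d - 1 : ℕ) : ℝ) < 1) (v : V) :
    Measurable fun ω => rowS G θ (m ω) v := by
  have hlim : Tendsto (fun n : ℕ => fun ω => ∑ r ∈ Finset.range n, ∑ y ∈ sphere G v r,
      pathCov θ (m ω) (geoTo G v y) (G.dist v y) ^ 2) atTop (𝓝 fun ω => rowS G θ (m ω) v) := by
    rw [tendsto_pi_nhds]
    intro ω
    exact (summable_row hG h0 ht hu (hbd ω) hη v).hasSum.tendsto_sum_nat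
  refine measurable_of_tendsto_metrizable (fun n => ?_) hlim
  exact Finset.measurable_sum _ fun r _ => Finset.measurable_sum _ fun y _ =>
    (measurable_pathCov_pa hmeas θ _ _).pow_const 2

namespace PairHyp

variable {A : (G ≃g G) → Ω → Ω} {m m' : Ω → V → ℝ} {θ θ' t L δ : ℝ}

/-- Moving the difference to the start of the geodesic. -/
theorem rev_term (h : PairHyp G d P A m m' θ θ' t L δ) {x : ℕ → V} {r : ℕ} (hx : IsGeod G x r) :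
    ∫ ω, pathCov θ' (m' ω) x r ^ 2 * (m ω (x r) - m' ω (x r)) ^ 2 ∂P =
      ∫ ω, pathCov θ' (m' ω) x r ^ 2 * (m ω (x 0) - m' ω (x 0)) ^ 2 ∂P := by
  obtain ⟨g, hg⟩ := exists_aut_of_geod h.hG.tree h.hG.reg hx hx.rev
  have hF : Measurable fun ω => pathCov θ' (m' ω) x r ^ 2 * (m ω (x r) - m' ω (x r)) ^ 2 :=
    ((measurable_pathCov_pa h.hm'.meas θ' x r).pow_const 2).mul (h.Δ_meas _)
  rw [← integral_comp_mp (h.hA g) hF]
  refine integral_congr_ae ?_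
  filter_upwards [h.rev' x r hx] with ω hω
  have hfun : m' (A g ω) = fun u => m' ω (g u) := by
    funext u
    exact h.hm'.act g ω u
  have e1 : pathCov θ' (fun u => m' ω (g u)) x r = pathCov θ' (m' ω) (fun i => x (r - i)) r := by
    unfold pathCov
    have h0 := hg 0 (by omega)
    simp only [Nat.sub_zero] at h0
    simp only [Nat.sub_zero]
    rw [h0]
    congr 1
    refine Finset.prod_congr rfl fun i hi => ?_
    have hi' : i < r := Finset.mem_range.mp hi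
    rw [hg i (by omega), hg (i + 1) (by omega)]
  simp only [hfun, h.hm.act, h.hm'.act]
  rw [e1, ← hω, hg r le_rfl]
  simp

/-- The one-ring term at `y`, in terms of the slope products. -/
theorem term_le (h : PairHyp G d P A m m' θ θ' t L δ) {κ K : ℝ} (hκ0 : 0 ≤ κ) (hκ1 : κ ≤ 1 / 2)
    (hK : 0 ≤ K) {x : ℕ → V} {r : ℕ} (hx : IsGeod G x r) :
    ∫ ω, (8 * κ ^ 2 * (pathCov θ (m ω) x r - pathCov θ' (m' ω) x r) ^ 2 +
        K * κ ^ 4 * pathCov θ' (m' ω) x r ^ 2 * (m ω (x r) - m' ω (x r)) ^ 2) ∂P ≤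
      κ ^ 2 * (64 * ((1 - t ^ 2)⁻¹) ^ 2 * ∫ ω, (m ω (x 0) - m' ω (x 0)) ^ 2 * pathCov θ (m ω) x r ^ 2 ∂P +
        16 * ∫ ω, (slP θ (m ω) x 0 r - slP θ' (m' ω) x 0 r) ^ 2 ∂P +
        K / 4 * ∫ ω, (m ω (x 0) - m' ω (x 0)) ^ 2 * pathCov θ' (m' ω) x r ^ 2 ∂P) := by
  have hv := h.v0_pos
  have hc1 := measurable_pathCov_pa h.hm.meas θ x r
  have hc2 := measurable_pathCov_pa h.hm'.meas θ' x r
  have hcb : ∀ (θ₁ : ℝ) (n : Ω → V → ℝ), 0 ≤ θ₁ → θ₁ ≤ 1 → UBd θ₁ t → (∀ ω v, |n ω v| ≤ t) →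
      ∀ ω, pathCov θ₁ (n ω) x r ^ 2 ≤ 1 := by
    intro θ₁ n h0 h1 hu hn ω
    refine (pathCov_sq_le h0 h.t_le hu (hn ω) x r).trans ?_
    have : θ₁ ^ r ≤ 1 := pow_le_one₀ h0 h1
    rw [sq_le_one_iff_abs_le_one, abs_of_nonneg (pow_nonneg h0 r)]
    exact this
  have hb1 := hcb θ m h.θ0 h.θ1 h.hu h.hm.bd
  have hb2 := hcb θ' m' h.θ0' h.θ1' h.hu' h.hm'.bd
  have habs : ∀ (X : Ω → ℝ) (Y : Ω → ℝ) (C1 C2 : ℝ), Measurable X → Measurable Y → (∀ ω, 0 ≤ X ω) →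
      (∀ ω, X ω ≤ C1) → (∀ ω, 0 ≤ Y ω) → (∀ ω, Y ω ≤ C2) → Integrable (fun ω => X ω * Y ω) P := by
    intro X Y C1 C2 hX hY hX0 hX1 hY0 hY1
    refine integrable_bd (hX.mul hY) (C := C1 * C2) fun ω => ?_
    rw [abs_of_nonneg (mul_nonneg (hX0 ω) (hY0 ω))]
    exact mul_le_mul (hX1 ω) (hY1 ω) (hY0 ω) ((hX0 ω).trans (hX1 ω))
  have hI1 : Integrable (fun ω => (m ω (x 0) - m' ω (x 0)) ^ 2 * pathCov θ (m ω) x r ^ 2) P :=
    habs _ _ 4 1 (h.Δ_meas _) (hc1.pow_const 2) (fun ω => sq_nonneg _) (fun ω => h.Δ_le _ ω)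
      (fun ω => sq_nonneg _) hb1
  have hI2 : Integrable (fun ω => (m ω (x 0) - m' ω (x 0)) ^ 2 * pathCov θ' (m' ω) x r ^ 2) P :=
    habs _ _ 4 1 (h.Δ_meas _) (hc2.pow_const 2) (fun ω => sq_nonneg _) (fun ω => h.Δ_le _ ω)
      (fun ω => sq_nonneg _) hb2
  have hI3 : Integrable (fun ω => pathCov θ' (m' ω) x r ^ 2 * (m ω (x r) - m' ω (x r)) ^ 2) P :=
    habs _ _ 1 4 (hc2.pow_const 2) (h.Δ_meas _) (fun ω => sq_nonneg _) hb2 (fun ω => sq_nonneg _)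
      (fun ω => h.Δ_le _ ω)
  have hsP : Measurable fun ω => (slP θ (m ω) x 0 r - slP θ' (m' ω) x 0 r) ^ 2 :=
    ((measurable_slP h.hm.meas θ x 0 r).sub (measurable_slP h.hm'.meas θ' x 0 r)).pow_const 2
  have hI4 : Integrable (fun ω => (slP θ (m ω) x 0 r - slP θ' (m' ω) x 0 r) ^ 2) P := by
    refine integrable_bd hsP (C := 1) fun ω => ?_
    have h1 := slP_mem h.θ0 h.hu (h.hm.bd ω) x 0 r
    have h2 := slP_mem h.θ0' h.hu' (h.hm'.bd ω) x 0 r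
    have h3 : θ ^ r ≤ 1 := pow_le_one₀ h.θ0 h.θ1
    have h4 : θ' ^ r ≤ 1 := pow_le_one₀ h.θ0' h.θ1'
    rw [abs_of_nonneg (sq_nonneg _), sq_le_one_iff_abs_le_one, abs_le]
    constructor <;> linarith [h1.1, h1.2, h2.1, h2.2]
  have hI5 : Integrable (fun ω => (pathCov θ (m ω) x r - pathCov θ' (m' ω) x r) ^ 2) P := by
    refine integrable_bd ((hc1.sub hc2).pow_const 2) (C := 4) fun ω => ?_
    have h1 := sq_le_one_iff_abs_le_one _ |>.mp (hb1 ω)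
    have h2 := sq_le_one_iff_abs_le_one _ |>.mp (hb2 ω)
    rw [abs_of_nonneg (sq_nonneg _)]
    nlinarith [abs_le.mp h1, abs_le.mp h2]
  -- pointwise
  have hptw : ∀ ω, (pathCov θ (m ω) x r - pathCov θ' (m' ω) x r) ^ 2 ≤
      8 * ((1 - t ^ 2)⁻¹) ^ 2 * ((m ω (x 0) - m' ω (x 0)) ^ 2 * pathCov θ (m ω) x r ^ 2) +
        2 * (slP θ (m ω) x 0 r - slP θ' (m' ω) x 0 r) ^ 2 := by
    intro ω
    rw [pathCov_eq, pathCov_eq]
    set a := m ω (x 0)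
    set b := m' ω (x 0)
    set s := slP θ (m ω) x 0 r
    set s' := slP θ' (m' ω) x 0 r
    have ha : a ^ 2 ≤ t ^ 2 := sq_m_le h.t0 (h.hm.bd ω _)
    have hb : b ^ 2 ≤ t ^ 2 := sq_m_le h.t0 (h.hm'.bd ω _)
    have ht2 : t ^ 2 ≤ 1 := by
      have := h.t_le; have := h.t0
      nlinarith
    have ha1 := abs_le.mp ((h.hm.bd ω (x 0)).trans h.t_le)
    have hb1 := abs_le.mp ((h.hm'.bd ω (x 0)).trans h.t_le)
    have hK1 : 1 - t ^ 2 ≤ 1 - a ^ 2 := by linarith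
    have e : (1 - a ^ 2) * s - (1 - b ^ 2) * s' = (b ^ 2 - a ^ 2) * s + (1 - b ^ 2) * (s - s') := by ring
    rw [e]
    have h1 : ((b ^ 2 - a ^ 2) * s + (1 - b ^ 2) * (s - s')) ^ 2 ≤
        2 * ((b ^ 2 - a ^ 2) * s) ^ 2 + 2 * ((1 - b ^ 2) * (s - s')) ^ 2 := by
      nlinarith [sq_nonneg ((b ^ 2 - a ^ 2) * s - (1 - b ^ 2) * (s - s'))]
    have h2 : (b ^ 2 - a ^ 2) ^ 2 ≤ 4 * (a - b) ^ 2 := by
      have : (b ^ 2 - a ^ 2) ^ 2 = (a - b) ^ 2 * (a + b) ^ 2 := by ring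
      rw [this]
      have h3 : (a + b) ^ 2 ≤ 4 := by
        nlinarith [mul_nonneg (by linarith [ha1.1, ha1.2, hb1.1, hb1.2] : 0 ≤ 2 - (a + b))
          (by linarith [ha1.1, ha1.2, hb1.1, hb1.2] : 0 ≤ 2 + (a + b))]
      nlinarith [sq_nonneg (a - b)]
    have h4 : (1 - b ^ 2) ^ 2 ≤ 1 := by
      have : 0 ≤ 1 - b ^ 2 := by linarith
      have : 1 - b ^ 2 ≤ 1 := by nlinarith [sq_nonneg b]
      rw [sq_le_one_iff_abs_le_one, abs_of_nonneg ‹0 ≤ 1 - b ^ 2›]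
      exact this
    have h5 : s ^ 2 ≤ ((1 - t ^ 2)⁻¹) ^ 2 * ((1 - a ^ 2) * s) ^ 2 := by
      have h6 : (1 - t ^ 2) ^ 2 * s ^ 2 ≤ ((1 - a ^ 2) * s) ^ 2 := by
        rw [mul_pow]
        exact mul_le_mul_of_nonneg_right (pow_le_pow_left₀ hv.le hK1 2) (sq_nonneg _)
      have h7 : s ^ 2 = ((1 - t ^ 2)⁻¹) ^ 2 * ((1 - t ^ 2) ^ 2 * s ^ 2) := by
        field_simp
      rw [h7]
      exact mul_le_mul_of_nonneg_left h6 (by positivity)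
    have h8 : ((b ^ 2 - a ^ 2) * s) ^ 2 ≤ 4 * (a - b) ^ 2 * (((1 - t ^ 2)⁻¹) ^ 2 * ((1 - a ^ 2) * s) ^ 2) := by
      rw [mul_pow]
      exact mul_le_mul h2 h5 (sq_nonneg _) (by positivity)
    have h9 : ((1 - b ^ 2) * (s - s')) ^ 2 ≤ 1 * (s - s') ^ 2 := by
      rw [mul_pow]
      exact mul_le_mul_of_nonneg_right h4 (sq_nonneg _)
    calc _ ≤ _ := h1
      _ ≤ 2 * (4 * (a - b) ^ 2 * (((1 - t ^ 2)⁻¹) ^ 2 * ((1 - a ^ 2) * s) ^ 2)) + 2 * (1 * (s - s') ^ 2) := by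
          linarith
      _ = _ := by ring
  have hI6 : Integrable (fun ω => 8 * ((1 - t ^ 2)⁻¹) ^ 2 *
      ((m ω (x 0) - m' ω (x 0)) ^ 2 * pathCov θ (m ω) x r ^ 2)) P := hI1.const_mul _
  have hI7 : Integrable (fun ω => 2 * (slP θ (m ω) x 0 r - slP θ' (m' ω) x 0 r) ^ 2) P := hI4.const_mul _
  have h1 : ∫ ω, (pathCov θ (m ω) x r - pathCov θ' (m' ω) x r) ^ 2 ∂P ≤
      8 * ((1 - t ^ 2)⁻¹) ^ 2 * (∫ ω, (m ω (x 0) - m' ω (x 0)) ^ 2 * pathCov θ (m ω) x r ^ 2 ∂P) +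
        2 * ∫ ω, (slP θ (m ω) x 0 r - slP θ' (m' ω) x 0 r) ^ 2 ∂P := by
    refine (integral_mono hI5 (hI6.add hI7) hptw).trans (le_of_eq ?_)
    have := integral_add hI6 hI7
    rw [integral_const_mul, integral_const_mul] at this
    exact this
  have hκ2 : κ ^ 2 ≤ 1 / 4 := by nlinarith
  have hκ4 : κ ^ 4 ≤ κ ^ 2 * (1 / 4) := by
    have : κ ^ 4 = κ ^ 2 * κ ^ 2 := by ring
    rw [this]
    exact mul_le_mul_of_nonneg_left hκ2 (sq_nonneg _)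
  have e1 : ∫ ω, (8 * κ ^ 2 * (pathCov θ (m ω) x r - pathCov θ' (m' ω) x r) ^ 2 +
        K * κ ^ 4 * pathCov θ' (m' ω) x r ^ 2 * (m ω (x r) - m' ω (x r)) ^ 2) ∂P =
      8 * κ ^ 2 * (∫ ω, (pathCov θ (m ω) x r - pathCov θ' (m' ω) x r) ^ 2 ∂P) +
        K * κ ^ 4 * ∫ ω, pathCov θ' (m' ω) x r ^ 2 * (m ω (x r) - m' ω (x r)) ^ 2 ∂P := by
    have e : ∀ ω, K * κ ^ 4 * pathCov θ' (m' ω) x r ^ 2 * (m ω (x r) - m' ω (x r)) ^ 2 =
        K * κ ^ 4 * (pathCov θ' (m' ω) x r ^ 2 * (m ω (x r) - m' ω (x r)) ^ 2) := fun ω => by ring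
    simp only [e]
    rw [integral_add (hI5.const_mul _) (hI3.const_mul _), integral_const_mul, integral_const_mul]
  rw [e1, h.rev_term hx]
  have e2 : ∫ ω, pathCov θ' (m' ω) x r ^ 2 * (m ω (x 0) - m' ω (x 0)) ^ 2 ∂P =
      ∫ ω, (m ω (x 0) - m' ω (x 0)) ^ 2 * pathCov θ' (m' ω) x r ^ 2 ∂P :=
    integral_congr_ae (Eventually.of_forall fun ω => by simp only [mul_comm])
  rw [e2]
  set I1 := ∫ ω, (pathCov θ (m ω) x r - pathCov θ' (m' ω) x r) ^ 2 ∂P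
  set I2 := ∫ ω, (m ω (x 0) - m' ω (x 0)) ^ 2 * pathCov θ' (m' ω) x r ^ 2 ∂P with hI2'
  set I3 := ∫ ω, (m ω (x 0) - m' ω (x 0)) ^ 2 * pathCov θ (m ω) x r ^ 2 ∂P
  set I4 := ∫ ω, (slP θ (m ω) x 0 r - slP θ' (m' ω) x 0 r) ^ 2 ∂P
  have hI20 : 0 ≤ I2 := integral_nonneg fun ω => mul_nonneg (sq_nonneg _) (sq_nonneg _)
  have h3 : 8 * κ ^ 2 * I1 ≤ 8 * κ ^ 2 * (8 * ((1 - t ^ 2)⁻¹) ^ 2 * I3 + 2 * I4) :=
    mul_le_mul_of_nonneg_left h1 (by positivity)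
  have h4 : K * κ ^ 4 * I2 ≤ K * (κ ^ 2 * (1 / 4)) * I2 :=
    mul_le_mul_of_nonneg_right (mul_le_mul_of_nonneg_left hκ4 hK) hI20
  calc _ ≤ 8 * κ ^ 2 * (8 * ((1 - t ^ 2)⁻¹) ^ 2 * I3 + 2 * I4) + K * (κ ^ 2 * (1 / 4)) * I2 :=
        add_le_add h3 h4
    _ = _ := by ring

end PairHyp

/-- Splitting a sum over radii into short and long paths. -/
theorem split_sum (a s l : ℕ → ℝ) (R N : ℕ) (h0 : a 0 ≤ 0) (hs : ∀ r, 1 ≤ r → r ≤ R → a r ≤ s r)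
    (hl : ∀ r, R < r → a r ≤ l r) (hs0 : ∀ r, 0 ≤ s r) (hl0 : ∀ r, 0 ≤ l r) :
    ∑ r ∈ Finset.range N, a r ≤ ∑ r ∈ Finset.Ioc 0 R, s r + ∑ r ∈ Finset.Ioc R N, l r := by
  have h1 : ∀ r ∈ Finset.range N, a r ≤ (if r ∈ Finset.Ioc 0 R then s r else 0) +
      (if r ∈ Finset.Ioc R N then l r else 0) := by
    intro r hr
    have hr' : r < N := Finset.mem_range.mp hr
    rcases Nat.eq_zero_or_pos r with rfl | hr0
    · simpa using h0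
    · by_cases hrR : r ≤ R
      · have h2 : r ∈ Finset.Ioc 0 R := Finset.mem_Ioc.mpr ⟨hr0, hrR⟩
        have h3 : r ∉ Finset.Ioc R N := by
          simp only [Finset.mem_Ioc, not_and, not_le]
          omega
        rw [if_pos h2, if_neg h3, add_zero]
        exact hs r hr0 hrR
      · have h2 : r ∉ Finset.Ioc 0 R := by
          simp only [Finset.mem_Ioc, not_and, not_le]
          omega
        have h3 : r ∈ Finset.Ioc R N := Finset.mem_Ioc.mpr ⟨by omega, by omega⟩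
        rw [if_neg h2, if_pos h3, zero_add]
        exact hl r (by omega)
  refine (Finset.sum_le_sum h1).trans ?_
  rw [Finset.sum_add_distrib, Finset.sum_ite_mem, Finset.sum_ite_mem]
  refine add_le_add ?_ ?_
  · exact Finset.sum_le_sum_of_subset_of_nonneg Finset.inter_subset_right fun r _ _ => hs0 r
  · exact Finset.sum_le_sum_of_subset_of_nonneg Finset.inter_subset_right fun r _ _ => hl0 r

namespace PairHyp

variable {A : (G ≃g G) → Ω → Ω} {m m' : Ω → V → ℝ} {θ θ' t L δ : ℝ}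

/-- The first (row sum) contribution. -/
theorem row_int (h : PairHyp G d P A m m' θ θ' t L δ) {n : Ω → V → ℝ} {θ₁ : ℝ} (hθ0 : 0 ≤ θ₁) (hθ1 : θ₁ ≤ 1)
    (hn : MField G P A n t) (hu : UBd θ₁ t) (hη : θ₁ ^ 2 * ((d - 1 : ℕ) : ℝ) < 1) (v : V) {p : ℕ} (hp : 2 ≤ p)
    {S ρ : ℝ} (hS : ∫ ω, (m ω v - m' ω v) ^ 2 ∂P = S)
    (hρ : lpN P (fun ω => rowS G θ₁ (n ω) v) (p : ℝ) ≤ ρ) (N : ℕ) :
    ∑ r ∈ Finset.range N, ∑ y ∈ sphere G v r,
        ∫ ω, (m ω v - m' ω v) ^ 2 * pathCov θ₁ (n ω) (geoTo G v y) (G.dist v y) ^ 2 ∂P ≤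
      ρ * ((4 : ℝ) ^ (1 / (p : ℝ)) * S ^ (1 - 1 / (p : ℝ))) := by
  have hG := h.hG
  have hint : ∀ r y, Integrable (fun ω => (m ω v - m' ω v) ^ 2 *
      pathCov θ₁ (n ω) (geoTo G v y) r ^ 2) P := by
    intro r y
    refine integrable_bd ((h.Δ_meas v).mul ((measurable_pathCov_pa hn.meas θ₁ _ _).pow_const 2))
      (C := 4 * 1) fun ω => ?_
    rw [abs_of_nonneg (mul_nonneg (sq_nonneg _) (sq_nonneg _))]
    refine mul_le_mul (h.Δ_le v ω) ?_ (sq_nonneg _) (by norm_num)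
    refine (pathCov_sq_le hθ0 h.t_le hu (hn.bd ω) _ _).trans ?_
    rw [sq_le_one_iff_abs_le_one, abs_of_nonneg (pow_nonneg hθ0 _)]
    exact pow_le_one₀ hθ0 hθ1
  have hintS : ∀ r, Integrable (fun ω => ∑ y ∈ sphere G v r, (m ω v - m' ω v) ^ 2 *
      pathCov θ₁ (n ω) (geoTo G v y) (G.dist v y) ^ 2) P := fun r =>
    integrable_finsetSum _ fun y _ => hint _ y
  have e1 : ∑ r ∈ Finset.range N, ∑ y ∈ sphere G v r,
        ∫ ω, (m ω v - m' ω v) ^ 2 * pathCov θ₁ (n ω) (geoTo G v y) (G.dist v y) ^ 2 ∂P =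
      ∫ ω, ∑ r ∈ Finset.range N, ∑ y ∈ sphere G v r,
        (m ω v - m' ω v) ^ 2 * pathCov θ₁ (n ω) (geoTo G v y) (G.dist v y) ^ 2 ∂P := by
    rw [integral_finsetSum _ fun r _ => hintS r]
    refine Finset.sum_congr rfl fun r _ => ?_
    rw [integral_finsetSum _ fun y _ => hint _ y]
  rw [e1]
  have hRm := measurable_rowS hG hθ0 h.t_le hu hn.meas hn.bd hη v
  have hR0 : ∀ ω, 0 ≤ rowS G θ₁ (n ω) v := fun ω => rowS_nonneg G θ₁ (n ω) v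
  have hRb : ∀ ω, |rowS G θ₁ (n ω) v| ≤ ((d : ℝ) + 1) * (1 - θ₁ ^ 2 * ((d - 1 : ℕ) : ℝ))⁻¹ := fun ω => by
    rw [abs_of_nonneg (hR0 ω)]
    exact rowS_le hG hθ0 h.t_le hu (hn.bd ω) hη v
  have hHol := integral_mul_sq_le (P := P) hRm (h.Δ_meas v) hR0 (fun ω => sq_nonneg _) hRb
    (fun ω => h.Δ_le v ω) hp
  rw [hS] at hHol
  have hS0 : 0 ≤ S := by
    rw [← hS]
    exact integral_nonneg fun ω => sq_nonneg _
  have hH0 : 0 ≤ (4 : ℝ) ^ (1 / (p : ℝ)) * S ^ (1 - 1 / (p : ℝ)) := by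
    have := Real.rpow_nonneg hS0 (1 - 1 / (p : ℝ))
    positivity
  refine le_trans ?_ (hHol.trans (mul_le_mul_of_nonneg_right hρ hH0))
  refine integral_mono (integrable_finsetSum _ fun r _ => hintS r) ?_ fun ω => ?_
  · refine integrable_bd (hRm.mul (h.Δ_meas v)) (C := (((d : ℝ) + 1) * (1 - θ₁ ^ 2 * ((d - 1 : ℕ) : ℝ))⁻¹) * 4)
      fun ω => ?_
    rw [abs_mul, abs_of_nonneg (sq_nonneg (m ω v - m' ω v))]
    exact mul_le_mul (hRb ω) (h.Δ_le v ω) (sq_nonneg _) ((abs_nonneg _).trans (hRb ω))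
  · have hs := summable_row hG hθ0 h.t_le hu (hn.bd ω) hη v
    have h1 : ∑ r ∈ Finset.range N, ∑ y ∈ sphere G v r,
        pathCov θ₁ (n ω) (geoTo G v y) (G.dist v y) ^ 2 ≤ rowS G θ₁ (n ω) v :=
      hs.sum_le_tsum _ fun r _ => Finset.sum_nonneg fun y _ => sq_nonneg _
    have h2 := mul_le_mul_of_nonneg_left h1 (sq_nonneg (m ω v - m' ω v))
    show ∑ r ∈ Finset.range N, ∑ y ∈ sphere G v r,
        (m ω v - m' ω v) ^ 2 * pathCov θ₁ (n ω) (geoTo G v y) (G.dist v y) ^ 2 ≤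
      rowS G θ₁ (n ω) v * (m ω v - m' ω v) ^ 2
    rw [mul_comm (rowS G θ₁ (n ω) v)]
    refine le_trans (le_of_eq ?_) h2
    rw [Finset.mul_sum]
    refine Finset.sum_congr rfl fun r _ => ?_
    rw [Finset.mul_sum]

/-- The main inequality at a fixed time. -/
theorem main_fixed (h : PairHyp G d P A m m' θ θ' t L δ) (v : V) {p : ℕ} (hp : 2 ≤ p) {S : ℝ}
    (hSv : ∫ ω, (m ω v - m' ω v) ^ 2 ∂P = S)
    (hη0 : 0 < θ ^ 2 * ((d - 1 : ℕ) : ℝ)) (hη1 : θ ^ 2 * ((d - 1 : ℕ) : ℝ) < 1)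
    (hη0' : 0 < θ' ^ 2 * ((d - 1 : ℕ) : ℝ)) (hη1' : θ' ^ 2 * ((d - 1 : ℕ) : ℝ) < 1)
    {κ K : ℝ} (hκ0 : 0 ≤ κ) (hκ1 : κ ≤ 1 / 2) (hK : 0 ≤ K)
    {ρ : ℝ} (hρ : lpN P (fun ω => rowS G θ (m ω) v) (p : ℝ) ≤ ρ)
    (hρ' : lpN P (fun ω => rowS G θ' (m' ω) v) (p : ℝ) ≤ ρ)
    {z z₁ : ℝ}
    (hz : ∀ u, lpN P (fun ω => m ω u ^ 2) (p : ℝ) ≤ z)
    (hz' : ∀ u, lpN P (fun ω => m' ω u ^ 2) (p : ℝ) ≤ z)
    (hz₁ : ∀ u, ∫ ω, m ω u ^ 2 ∂P ≤ z₁) (hz₁' : ∀ u, ∫ ω, m' ω u ^ 2 ∂P ≤ z₁)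
    {CB ψ : ℝ} (hCB : 0 ≤ CB)
    (hbsv : ∀ (x : ℕ → V) (r : ℕ), IsGeod G x r → 1 ≤ r →
      ∫ ω, (∑ i ∈ Finset.range r, (fE θ θ' (m ω) (m' ω) (x i) (x (i + 1)) - ψ)) ^ 2 ∂P ≤
        CB * r * ∫ ω, fE θ θ' (m ω) (m' ω) (x 0) (x 1) ^ 2 ∂P)
    {wp w2 : ℕ → ℝ} (hwp0 : ∀ n, 0 ≤ wp n) (hw20 : ∀ n, 0 ≤ w2 n)
    (hwp : ∀ n z c, G.Adj z c → (θ ^ 2 * ((d - 1 : ℕ) : ℝ)) ^ n *
      lpN P (fun ω => wTree G θ (d - 1) (m ω) n z c) (2 * (p : ℝ)) ≤ wp n)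
    (hwp' : ∀ n z c, G.Adj z c → (θ' ^ 2 * ((d - 1 : ℕ) : ℝ)) ^ n *
      lpN P (fun ω => wTree G θ' (d - 1) (m' ω) n z c) (2 * (p : ℝ)) ≤ wp n)
    (hw2 : ∀ n z c, G.Adj z c → (θ ^ 2 * ((d - 1 : ℕ) : ℝ)) ^ n *
      lpN P (fun ω => wTree G θ (d - 1) (m ω) n z c) 2 ≤ w2 n)
    (hw2' : ∀ n z c, G.Adj z c → (θ' ^ 2 * ((d - 1 : ℕ) : ℝ)) ^ n *
      lpN P (fun ω => wTree G θ' (d - 1) (m' ω) n z c) 2 ≤ w2 n)
    {R : ℕ} {T T₂ : ℝ}
    (hT : ∀ N : ℕ, ∑ r ∈ Finset.Ioc R N, (r : ℝ) * ∑ i ∈ Finset.range r, WW wp i * WW wp (r - 1 - i) ≤ T)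
    (hT₂ : ∀ N : ℕ, ∑ r ∈ Finset.Ioc R N, (r : ℝ) * ∑ i ∈ Finset.range r, WW w2 i * WW w2 (r - 1 - i) ≤ T₂) :
    ∑' r, ∑ y ∈ sphere G v r, ∫ ω,
        (8 * κ ^ 2 * (pathCov θ (m ω) (geoTo G v y) (G.dist v y) -
            pathCov θ' (m' ω) (geoTo G v y) (G.dist v y)) ^ 2 +
          K * κ ^ 4 * pathCov θ' (m' ω) (geoTo G v y) (G.dist v y) ^ 2 * (m ω y - m' ω y) ^ 2) ∂P ≤
      κ ^ 2 * ((64 * ((1 - t ^ 2)⁻¹) ^ 2 + K / 4) *
          (ρ * ((4 : ℝ) ^ (1 / (p : ℝ)) * S ^ (1 - 1 / (p : ℝ)))) +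
        16 * ((d : ℝ) + 1) * (R * (4 * (CB * R * (12 * L ^ 2 * (8 * (z * ((4 : ℝ) ^ (1 / (p : ℝ)) * S ^ (1 - 1 / (p : ℝ)))) +
              4 * (δ ^ 2 * z₁)))) + 4 * (R ^ 2 * ψ ^ 2)) +
            2 * ∑ r ∈ Finset.Ioc 0 R, ((θ ^ r - θ' ^ r) ^ 2 * ((d - 1 : ℕ) : ℝ) ^ r) +
            ((d - 1 : ℕ) : ℝ) * ((1 - t ^ 2)⁻¹) ^ 2 * (3 * (1 + L) ^ 2) *
              (T * (2 * ((4 : ℝ) ^ (1 / (p : ℝ)) * S ^ (1 - 1 / (p : ℝ)))) + δ ^ 2 * T₂))) := by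
  have hG := h.hG
  have hT' := hG.tree
  set H := (4 : ℝ) ^ (1 / (p : ℝ)) * S ^ (1 - 1 / (p : ℝ)) with hH
  have hS : ∀ u, ∫ ω, (m ω u - m' ω u) ^ 2 ∂P = S := fun u => by
    rw [← hSv]
    exact h.integral_Δ_eq u v
  have hS0 : 0 ≤ S := by
    rw [← hSv]
    exact integral_nonneg fun ω => sq_nonneg _
  have hH0 : 0 ≤ H := by
    have := Real.rpow_nonneg hS0 (1 - 1 / (p : ℝ))
    rw [hH]
    positivity
  set D : ℝ := ((d - 1 : ℕ) : ℝ) with hD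
  have hDpos : 0 < D := by
    have := hG.hd
    simp only [hD]
    exact_mod_cast (by omega : 0 < d - 1)
  set E2 := 12 * L ^ 2 * (8 * (z * H) + 4 * (δ ^ 2 * z₁)) with hE2
  have hE2b : ∀ a b : V, ∫ ω, fE θ θ' (m ω) (m' ω) a b ^ 2 ∂P ≤ E2 := fun a b =>
    h.E2_bound a b hp hS hz hz' hz₁ hz₁'
  have hE20 : 0 ≤ E2 := (integral_nonneg fun ω => sq_nonneg _).trans (hE2b v v)
  set Dc := D * ((1 - t ^ 2)⁻¹) ^ 2 * (3 * (1 + L) ^ 2) with hDc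
  have hDc0 : 0 ≤ Dc := by positivity
  have hWW0 : ∀ (w : ℕ → ℝ), (∀ n, 0 ≤ w n) → ∀ n, 0 ≤ WW w n := by
    intro w hw n
    cases n with
    | zero => simp [WW]
    | succ n => exact hw n
  -- bounds for the slope differences
  set qs : ℕ → ℝ := fun r => 2 * (2 * (CB * r * E2) + 2 * (r ^ 2 * ψ ^ 2)) +
    2 * ((θ ^ r - θ' ^ r) ^ 2 * D ^ r) with hqs
  set ql : ℕ → ℝ := fun r => Dc * (r * ∑ i ∈ Finset.range r,
    (WW wp i * WW wp (r - 1 - i) * (2 * H) + δ ^ 2 * (WW w2 i * WW w2 (r - 1 - i)))) with hql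
  have hqs0 : ∀ r, 0 ≤ qs r := fun r => by
    simp only [hqs]
    positivity
  have hql0 : ∀ r, 0 ≤ ql r := fun r => by
    simp only [hql]
    refine mul_nonneg hDc0 (mul_nonneg (by positivity) (Finset.sum_nonneg fun i _ => ?_))
    have h1 := hWW0 wp hwp0 i
    have h2 := hWW0 wp hwp0 (r - 1 - i)
    have h3 := hWW0 w2 hw20 i
    have h4 := hWW0 w2 hw20 (r - 1 - i)
    positivity
  set Q : (ℕ → V) → ℕ → ℝ := fun x r => ∫ ω, (slP θ (m ω) x 0 r - slP θ' (m' ω) x 0 r) ^ 2 ∂P with hQ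
  have hQ0 : ∀ x r, 0 ≤ Q x r := fun x r => integral_nonneg fun ω => sq_nonneg _
  have hQzero : ∀ x, Q x 0 = 0 := fun x => by simp [hQ, slP]
  have hQs : ∀ x r, IsGeod G x r → 1 ≤ r → D ^ r * Q x r ≤ qs r := by
    intro x r hx hr
    have h1 := hbsv x r hx hr
    have h2 : CB * r * ∫ ω, fE θ θ' (m ω) (m' ω) (x 0) (x 1) ^ 2 ∂P ≤ CB * r * E2 :=
      mul_le_mul_of_nonneg_left (hE2b _ _) (by positivity)
    exact h.short_bound hx hη1'.le (C := CB * r * E2) (by positivity) (h1.trans h2)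
  have hQl : ∀ x r, IsGeod G x r → D ^ r * Q x r ≤ ql r := by
    intro x r hx
    have := h.long_bound hx hp hS hη0 hη1.le hη0' hη1'.le hwp0 hw20 hwp hwp' hw2 hw2'
    exact this
  -- sum over the sphere of `Q`
  have hsph : ∀ r (B : ℝ), 0 ≤ B → (∀ x, IsGeod G x r → D ^ r * Q x r ≤ B) →
      ∑ y ∈ sphere G v r, Q (geoTo G v y) (G.dist v y) ≤ ((d : ℝ) + 1) * B := by
    intro r B hB hx
    classical
    have h1 : ∀ y ∈ sphere G v r, Q (geoTo G v y) (G.dist v y) ≤ B / D ^ r := by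
      intro y hy
      have hd : G.dist v y = r := (mem_sphere_iff hT').mp hy
      have hgeo := (geoTo_spec hT' v y).1
      rw [hd] at hgeo ⊢
      rw [le_div_iff₀ (pow_pos hDpos r), mul_comm]
      exact hx _ hgeo
    calc _ ≤ ∑ y ∈ sphere G v r, B / D ^ r := Finset.sum_le_sum h1
      _ = ((sphere G v r).card : ℝ) * (B / D ^ r) := by simp
      _ ≤ (((d : ℝ) + 1) * D ^ r) * (B / D ^ r) :=
          mul_le_mul_of_nonneg_right (card_sphere_le_pa hG v r) (by positivity)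
      _ = _ := by
          have := pow_pos hDpos r
          field_simp
  -- the sum of `Q`
  have hsumQ : ∀ N, ∑ r ∈ Finset.range N, ∑ y ∈ sphere G v r, Q (geoTo G v y) (G.dist v y) ≤
      ((d : ℝ) + 1) * (∑ r ∈ Finset.Ioc 0 R, qs r + ∑ r ∈ Finset.Ioc R N, ql r) := by
    intro N
    rw [mul_add, Finset.mul_sum, Finset.mul_sum]
    refine split_sum _ _ _ R N ?_ ?_ ?_ (fun r => by have := hqs0 r; positivity)
      (fun r => by have := hql0 r; positivity)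
    · classical
      refine Finset.sum_nonpos fun y hy => ?_
      have hd : G.dist v y = 0 := (mem_sphere_iff hT').mp hy
      rw [hd, hQzero]
    · intro r h1 h2
      exact hsph r _ (hqs0 r) fun x hx => hQs x r hx h1
    · intro r _
      exact hsph r _ (hql0 r) fun x hx => hQl x r hx
  -- the short part
  have hshort : ∑ r ∈ Finset.Ioc 0 R, qs r ≤ R * (4 * (CB * R * E2) + 4 * (R ^ 2 * ψ ^ 2)) +
      2 * ∑ r ∈ Finset.Ioc 0 R, ((θ ^ r - θ' ^ r) ^ 2 * D ^ r) := by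
    simp only [hqs]
    rw [Finset.sum_add_distrib, ← Finset.mul_sum (a := 2) (f := fun r => (θ ^ r - θ' ^ r) ^ 2 * D ^ r)]
    refine add_le_add ?_ le_rfl
    calc _ ≤ ∑ r ∈ Finset.Ioc 0 R, (4 * (CB * R * E2) + 4 * (R ^ 2 * ψ ^ 2)) := by
          refine Finset.sum_le_sum fun r hr => ?_
          have hr' : (r : ℝ) ≤ R := by exact_mod_cast (Finset.mem_Ioc.mp hr).2
          have hr0 : (0 : ℝ) ≤ r := by positivity
          have h1 : CB * r * E2 ≤ CB * R * E2 :=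
            mul_le_mul_of_nonneg_right (mul_le_mul_of_nonneg_left hr' hCB) hE20
          have h2 : (r : ℝ) ^ 2 * ψ ^ 2 ≤ R ^ 2 * ψ ^ 2 :=
            mul_le_mul_of_nonneg_right (pow_le_pow_left₀ hr0 hr' 2) (sq_nonneg _)
          linarith
      _ = _ := by
          simp only [Finset.sum_const, Nat.card_Ioc, nsmul_eq_mul]
          norm_num
  -- the long part
  have hlong : ∀ N, ∑ r ∈ Finset.Ioc R N, ql r ≤ Dc * (T * (2 * H) + δ ^ 2 * T₂) := by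
    intro N
    simp only [hql]
    rw [← Finset.mul_sum]
    refine mul_le_mul_of_nonneg_left ?_ hDc0
    have e : ∑ r ∈ Finset.Ioc R N, (r : ℝ) * ∑ i ∈ Finset.range r,
        (WW wp i * WW wp (r - 1 - i) * (2 * H) + δ ^ 2 * (WW w2 i * WW w2 (r - 1 - i))) =
        (∑ r ∈ Finset.Ioc R N, (r : ℝ) * ∑ i ∈ Finset.range r, WW wp i * WW wp (r - 1 - i)) * (2 * H) +
          δ ^ 2 * ∑ r ∈ Finset.Ioc R N, (r : ℝ) * ∑ i ∈ Finset.range r, WW w2 i * WW w2 (r - 1 - i) := by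
      rw [Finset.sum_mul, Finset.mul_sum, ← Finset.sum_add_distrib]
      refine Finset.sum_congr rfl fun r _ => ?_
      rw [Finset.sum_add_distrib, mul_add, ← Finset.sum_mul, ← Finset.mul_sum]
      ring
    rw [e]
    exact add_le_add (mul_le_mul_of_nonneg_right (hT N) (by positivity))
      (mul_le_mul_of_nonneg_left (hT₂ N) (sq_nonneg _))
  have hθ0 := h.θ0
  have hθ0' := h.θ0'
  -- conclusion
  refine Real.tsum_le_of_sum_range_le (fun r => Finset.sum_nonneg fun y _ =>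
    integral_nonneg fun ω => ?_) fun N => ?_
  · positivity
  have hterm : ∀ r, ∑ y ∈ sphere G v r, ∫ ω,
        (8 * κ ^ 2 * (pathCov θ (m ω) (geoTo G v y) (G.dist v y) -
            pathCov θ' (m' ω) (geoTo G v y) (G.dist v y)) ^ 2 +
          K * κ ^ 4 * pathCov θ' (m' ω) (geoTo G v y) (G.dist v y) ^ 2 * (m ω y - m' ω y) ^ 2) ∂P ≤
      κ ^ 2 * (64 * ((1 - t ^ 2)⁻¹) ^ 2 * (∑ y ∈ sphere G v r,
          ∫ ω, (m ω v - m' ω v) ^ 2 * pathCov θ (m ω) (geoTo G v y) (G.dist v y) ^ 2 ∂P) +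
        16 * (∑ y ∈ sphere G v r, Q (geoTo G v y) (G.dist v y)) +
        K / 4 * ∑ y ∈ sphere G v r,
          ∫ ω, (m ω v - m' ω v) ^ 2 * pathCov θ' (m' ω) (geoTo G v y) (G.dist v y) ^ 2 ∂P) := by
    intro r
    rw [Finset.mul_sum, Finset.mul_sum, Finset.mul_sum, ← Finset.sum_add_distrib,
      ← Finset.sum_add_distrib, Finset.mul_sum]
    refine Finset.sum_le_sum fun y _ => ?_
    obtain ⟨hgeo, h0, h1⟩ := geoTo_spec hT' v y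
    have := h.term_le hκ0 hκ1 hK hgeo
    rw [h0, h1] at this
    exact this
  refine (Finset.sum_le_sum fun r _ => hterm r).trans ?_
  rw [← Finset.mul_sum, Finset.sum_add_distrib, Finset.sum_add_distrib, ← Finset.mul_sum,
    ← Finset.mul_sum, ← Finset.mul_sum]
  refine mul_le_mul_of_nonneg_left ?_ (sq_nonneg _)
  have hA := h.row_int hθ0 h.θ1 h.hm h.hu hη1 v hp hSv hρ N
  have hB := h.row_int hθ0' h.θ1' h.hm' h.hu' hη1' v hp hSv hρ' N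
  have hC := hsumQ N
  have hC1 := hlong N
  have hc16 : 0 ≤ 16 * ((d : ℝ) + 1) := by positivity
  have hv2 : 0 ≤ 64 * ((1 - t ^ 2)⁻¹) ^ 2 := by positivity
  have hK4 : 0 ≤ K / 4 := by positivity
  have hA' := mul_le_mul_of_nonneg_left hA hv2
  have hB' := mul_le_mul_of_nonneg_left hB hK4
  have hD1 : ∑ r ∈ Finset.Ioc 0 R, qs r + ∑ r ∈ Finset.Ioc R N, ql r ≤
      R * (4 * (CB * R * E2) + 4 * (R ^ 2 * ψ ^ 2)) +
      2 * ∑ r ∈ Finset.Ioc 0 R, ((θ ^ r - θ' ^ r) ^ 2 * D ^ r) + Dc * (T * (2 * H) + δ ^ 2 * T₂) :=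
    add_le_add hshort hC1
  have hC' : 16 * ∑ r ∈ Finset.range N, ∑ y ∈ sphere G v r, Q (geoTo G v y) (G.dist v y) ≤
      16 * ((d : ℝ) + 1) * (R * (4 * (CB * R * E2) + 4 * (R ^ 2 * ψ ^ 2)) +
      2 * ∑ r ∈ Finset.Ioc 0 R, ((θ ^ r - θ' ^ r) ^ 2 * D ^ r) + Dc * (T * (2 * H) + δ ^ 2 * T₂)) := by
    calc _ ≤ 16 * (((d : ℝ) + 1) * (∑ r ∈ Finset.Ioc 0 R, qs r + ∑ r ∈ Finset.Ioc R N, ql r)) :=
          mul_le_mul_of_nonneg_left hC (by norm_num)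
      _ = 16 * ((d : ℝ) + 1) * (∑ r ∈ Finset.Ioc 0 R, qs r + ∑ r ∈ Finset.Ioc R N, ql r) := by ring
      _ ≤ _ := mul_le_mul_of_nonneg_left hD1 hc16
  calc _ ≤ 64 * ((1 - t ^ 2)⁻¹) ^ 2 * (ρ * H) + 16 * ((d : ℝ) + 1) * (R * (4 * (CB * R * E2) + 4 * (R ^ 2 * ψ ^ 2)) +
      2 * ∑ r ∈ Finset.Ioc 0 R, ((θ ^ r - θ' ^ r) ^ 2 * D ^ r) + Dc * (T * (2 * H) + δ ^ 2 * T₂)) +
      K / 4 * (ρ * H) := add_le_add (add_le_add hA' hC') hB'
    _ = _ := by ring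

end PairHyp

end Crest.Agent.Lib.IsingFIID
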