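/-
Row 160 (S0241), Task C, analysis of the coefficients (BLUEPRINT §7 C4): pure real analysis.
`wN` is the right side of `wTree_norm`, `RF` the cut-off `R(τ)`, `ellF = log(eτ₁/τ)`.
Single geometric bound: `wN n ≤ (C + Q^{1/4}) e^{-ατ n}`.
-/
import Crest.Agent.Lib.IsingFIID.MainFixed

set_option autoImplicit false

namespace Crest.Agent.Lib.IsingFIID

open MeasureTheory Filter Topology Set
open PairHyp (WW)

/-- The right side of `wTree_norm`. -/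
noncomputable def wN (c C D Q τ : ℝ) (n : ℕ) : ℝ :=
  min 1 (C * Real.exp (-c * τ * n) + Q * D ^ (-(n : ℝ) / 2))

/-- `log(e τ₁/τ)`. -/
noncomputable def ellF (τ₁ τ : ℝ) : ℝ := Real.log (Real.exp 1 * τ₁ / τ)

/-- The cut-off. -/
noncomputable def RF (A τ₁ τ : ℝ) : ℕ := ⌈A * ellF τ₁ τ / τ⌉₊

section Ell

variable {τ₁ τ : ℝ}

lemma ellF_ge_one (h0 : 0 < τ) (h1 : τ ≤ τ₁) : 1 ≤ ellF τ₁ τ := by
  unfold ellF
  have hτ₁ : 0 < τ₁ := h0.trans_le h1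
  have : Real.log (Real.exp 1 * τ₁ / τ) = 1 + Real.log (τ₁ / τ) := by
    rw [mul_div_assoc, Real.log_mul (Real.exp_pos 1).ne' (div_pos hτ₁ h0).ne', Real.log_exp]
  rw [this]
  have h2 : 1 ≤ τ₁ / τ := (one_le_div h0).mpr h1
  have := Real.log_nonneg h2
  linarith

lemma measurable_ellF : Measurable (ellF τ₁) := by
  unfold ellF
  exact Real.measurable_log.comp (measurable_const.div measurable_id)

/-- `exp(-ℓ) = τ/(eτ₁)`. -/
lemma exp_neg_ellF (h0 : 0 < τ) (hτ₁ : 0 < τ₁) : Real.exp (-ellF τ₁ τ) = τ / (Real.exp 1 * τ₁) := by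
  unfold ellF
  rw [Real.exp_neg, Real.exp_log (by positivity)]
  field_simp

/-- Polylogarithms by small powers. -/
lemma ellF_pow_le (k : ℕ) {a : ℝ} (ha : 0 < a) (hτ₁ : 0 < τ₁) :
    ∃ K : ℝ, 0 < K ∧ ∀ τ, 0 < τ → τ ≤ τ₁ → ellF τ₁ τ ^ k ≤ K * τ ^ (-a) := by
  rcases Nat.eq_zero_or_pos k with rfl | hk
  · refine ⟨τ₁ ^ a, by positivity, fun τ h0 h1 => ?_⟩
    have h2 : τ ^ a ≤ τ₁ ^ a := Real.rpow_le_rpow h0.le h1 ha.le
    have h3 : τ ^ (-a) * τ ^ a = 1 := by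
      rw [← Real.rpow_add h0]; simp
    have h4 : 0 < τ ^ (-a) := by positivity
    simp only [pow_zero]
    nlinarith
  · have hk' : (0 : ℝ) < k := by exact_mod_cast hk
    set b : ℝ := a / k with hb
    have hb0 : 0 < b := div_pos ha hk'
    have hy0 : 0 < Real.exp 1 * τ₁ := by positivity
    refine ⟨(1 / b) ^ k * (Real.exp 1 * τ₁) ^ a, by positivity, fun τ h0 h1 => ?_⟩
    have hy : 0 ≤ Real.exp 1 * τ₁ / τ := by positivity
    have hlog := Real.log_le_rpow_div hy hb0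
    have hl1 := ellF_ge_one h0 h1
    have hbound : ellF τ₁ τ ≤ (1 / b) * (Real.exp 1 * τ₁ / τ) ^ b := by
      unfold ellF
      calc Real.log (Real.exp 1 * τ₁ / τ) ≤ (Real.exp 1 * τ₁ / τ) ^ b / b := hlog
        _ = (1 / b) * (Real.exp 1 * τ₁ / τ) ^ b := by ring
    have hpow := pow_le_pow_left₀ (by linarith : 0 ≤ ellF τ₁ τ) hbound k
    refine hpow.trans (le_of_eq ?_)
    rw [mul_pow, ← Real.rpow_natCast ((Real.exp 1 * τ₁ / τ) ^ b), ← Real.rpow_mul hy]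
    have : b * (k : ℝ) = a := by rw [hb]; field_simp
    rw [this, Real.div_rpow hy0.le h0.le, Real.rpow_neg h0.le]
    ring

variable {A : ℝ}

lemma RF_le (hA : 0 ≤ A) (h0 : 0 < τ) (h1 : τ ≤ τ₁) :
    (RF A τ₁ τ : ℝ) ≤ (A + τ₁) * ellF τ₁ τ / τ := by
  have hl := ellF_ge_one h0 h1
  have h2 : (RF A τ₁ τ : ℝ) < A * ellF τ₁ τ / τ + 1 :=
    Nat.ceil_lt_add_one (by positivity)
  have h3 : (A + τ₁) * ellF τ₁ τ / τ = A * ellF τ₁ τ / τ + τ₁ * ellF τ₁ τ / τ := by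
    ring
  have h4 : 1 ≤ τ₁ * ellF τ₁ τ / τ := by
    rw [one_le_div h0]
    nlinarith
  linarith

lemma le_RF (h0 : 0 < τ) : A * ellF τ₁ τ ≤ τ * (RF A τ₁ τ : ℝ) := by
  have h2 : A * ellF τ₁ τ / τ ≤ (RF A τ₁ τ : ℝ) := Nat.le_ceil _
  rw [div_le_iff₀ h0] at h2
  linarith

/-- What the wiring needs of `ellF` and `RF`. -/
theorem ellF_bounds (hτ₁ : 1 ≤ τ₁) :
    (∀ τ ∈ Ioc 0 τ₁, 1 ≤ ellF τ₁ τ) ∧
    (∀ A : ℝ, 0 < A → ∃ A' : ℝ, 0 < A' ∧ ∀ τ ∈ Ioc 0 τ₁, (RF A τ₁ τ : ℝ) ≤ A' * ellF τ₁ τ / τ) ∧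
    (∀ n : ℕ, ∃ Cn : ℝ, 0 < Cn ∧ ∀ τ ∈ Ioc 0 τ₁, ellF τ₁ τ ^ n ≤ Cn * τ ^ (-(1 / 4) : ℝ)) := by
  have h₁ : 0 < τ₁ := by linarith
  refine ⟨fun τ hτ => ellF_ge_one hτ.1 hτ.2, fun A hA => ⟨A + τ₁, by linarith, fun τ hτ =>
    RF_le hA.le hτ.1 hτ.2⟩, fun n => ?_⟩
  obtain ⟨K, hK, h⟩ := ellF_pow_le n (by norm_num : (0 : ℝ) < 1 / 4) h₁
  exact ⟨K, hK, fun τ hτ => h τ hτ.1 hτ.2⟩

end Ell

section Geom

lemma one_div_one_sub_exp_le {x : ℝ} (hx : 0 < x) : 1 / (1 - Real.exp (-x)) ≤ 1 + 1 / x := by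
  have h1 : x + 1 ≤ Real.exp x := Real.add_one_le_exp x
  have h2 : Real.exp (-x) = 1 / Real.exp x := by rw [Real.exp_neg]; simp
  have hex : 0 < Real.exp x := Real.exp_pos x
  have h3 : Real.exp (-x) < 1 := by
    rw [Real.exp_lt_one_iff]; linarith
  have h4 : 0 < 1 - Real.exp (-x) := by linarith
  rw [div_le_iff₀ h4]
  have h5 : (1 + 1 / x) * (1 - Real.exp (-x)) = (1 + x) / x * ((Real.exp x - 1) / Real.exp x) := by
    rw [h2]; field_simp; ring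
  rw [h5]
  have h6 : (1 + x) / x * ((Real.exp x - 1) / Real.exp x) - 1 =
      ((1 + x) * (Real.exp x - 1) - x * Real.exp x) / (x * Real.exp x) := by
    field_simp
  have h7 : 0 ≤ ((1 + x) * (Real.exp x - 1) - x * Real.exp x) / (x * Real.exp x) := by
    apply div_nonneg
    · nlinarith
    · positivity
  linarith

/-- `Σ_r r² z^{r-1}`, over `r ≥ 1` (the term `r = 0` vanishes). -/
lemma summable_sq_geom {z : ℝ} (h0 : 0 ≤ z) (h1 : z < 1) :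
    Summable (fun r : ℕ => (r : ℝ) ^ 2 * z ^ (r - 1)) ∧
      ∑' r : ℕ, (r : ℝ) ^ 2 * z ^ (r - 1) ≤ 2 / (1 - z) ^ 3 := by
  have hn : ‖z‖ < 1 := by rwa [Real.norm_eq_abs, abs_of_nonneg h0]
  have hs := hasSum_choose_mul_geometric_of_norm_lt_one 2 hn
  have hle : ∀ n : ℕ, ((n : ℝ) + 1) ^ 2 * z ^ n ≤ 2 * ((((n + 2).choose 2 : ℕ) : ℝ) * z ^ n) := by
    intro n
    rw [Nat.cast_choose_two]
    push_cast
    have hzn : 0 ≤ z ^ n := pow_nonneg h0 n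
    have hn0 : (0 : ℝ) ≤ n := Nat.cast_nonneg n
    have : ((n : ℝ) + 1) ^ 2 ≤ 2 * (((n : ℝ) + 2) * ((n : ℝ) + 2 - 1) / 2) := by nlinarith
    calc ((n : ℝ) + 1) ^ 2 * z ^ n ≤ 2 * (((n : ℝ) + 2) * ((n : ℝ) + 2 - 1) / 2) * z ^ n :=
          mul_le_mul_of_nonneg_right this hzn
      _ = _ := by ring
  have hs2 := hs.mul_left 2
  have hsum1 : Summable fun n : ℕ => ((n : ℝ) + 1) ^ 2 * z ^ n :=
    Summable.of_nonneg_of_le (fun n => by positivity) hle hs2.summable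
  have hle1 : ∑' n : ℕ, ((n : ℝ) + 1) ^ 2 * z ^ n ≤ 2 * (1 / (1 - z) ^ (2 + 1)) := by
    rw [← hs2.tsum_eq]
    exact hsum1.tsum_le_tsum hle hs2.summable
  have hsum2 : Summable (fun r : ℕ => (r : ℝ) ^ 2 * z ^ (r - 1)) := by
    rw [← summable_nat_add_iff 1]
    refine hsum1.congr fun n => ?_
    simp
  refine ⟨hsum2, ?_⟩
  rw [hsum2.tsum_eq_zero_add]
  have e : ∀ n : ℕ, (((n + 1 : ℕ) : ℝ)) ^ 2 * z ^ (n + 1 - 1) = ((n : ℝ) + 1) ^ 2 * z ^ n := by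
    intro n; simp
  simp only [e]
  have e2 : (2 : ℝ) / (1 - z) ^ 3 = 2 * (1 / (1 - z) ^ (2 + 1)) := by ring
  rw [e2]
  simpa using hle1

end Geom

section Omega

variable {c C D Q τ : ℝ}

/-- The rate of the second term. -/
noncomputable def rhoF (D : ℝ) : ℝ := D ^ (-(1 / 8) : ℝ)

lemma wN_nonneg (hC : 0 ≤ C) (hD : 0 < D) (hQ : 0 ≤ Q) (n : ℕ) : 0 ≤ wN c C D Q τ n := by
  unfold wN
  refine le_min zero_le_one (add_nonneg (mul_nonneg hC (Real.exp_pos _).le) (mul_nonneg hQ ?_))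
  exact Real.rpow_nonneg hD.le _

/-- The key elementary bound: `min(1, a + b) ≤ a + b^{1/4}`. -/
lemma wN_le (hC : 0 ≤ C) (hD : 1 < D) (hQ : 0 ≤ Q) (n : ℕ) :
    wN c C D Q τ n ≤ C * Real.exp (-(c * τ)) ^ n + Q ^ (1 / 4 : ℝ) * rhoF D ^ n := by
  have hD0 : 0 < D := by linarith
  have e1 : Real.exp (-c * τ * n) = Real.exp (-(c * τ)) ^ n := by
    rw [← Real.exp_nat_mul]; congr 1; ring
  set a := C * Real.exp (-(c * τ)) ^ n with ha
  set y := Q * D ^ (-(n : ℝ) / 2) with hy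
  have ha0 : 0 ≤ a := by positivity
  have hy0 : 0 ≤ y := mul_nonneg hQ (Real.rpow_nonneg hD0.le _)
  have e2 : y ^ (1 / 4 : ℝ) = Q ^ (1 / 4 : ℝ) * rhoF D ^ n := by
    rw [hy, Real.mul_rpow hQ (Real.rpow_nonneg hD0.le _), ← Real.rpow_mul hD0.le]
    unfold rhoF
    rw [← Real.rpow_natCast (D ^ (-(1 / 8) : ℝ)) n, ← Real.rpow_mul hD0.le]
    congr 2
    ring
  rw [← e2]
  unfold wN
  rw [e1]
  by_cases hy1 : y ≤ 1
  · have h1 : y ≤ y ^ (1 / 4 : ℝ) := by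
      have := Real.rpow_le_rpow_of_exponent_ge' hy0 hy1 (by norm_num : (0 : ℝ) ≤ 1 / 4)
        (by norm_num : (1 / 4 : ℝ) ≤ 1)
      simpa using this
    exact (min_le_right _ _).trans (by linarith)
  · have h1 : 1 ≤ y ^ (1 / 4 : ℝ) := Real.one_le_rpow (not_le.mp hy1).le (by norm_num)
    exact (min_le_left _ _).trans (by linarith)

/-- The common rate. -/
noncomputable def alF (c D τ₁ : ℝ) : ℝ := min c (Real.log D / 8 / τ₁)

lemma alF_pos {τ₁ : ℝ} (hc : 0 < c) (hD : 1 < D) (hτ₁ : 0 < τ₁) : 0 < alF c D τ₁ := by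
  unfold alF
  have := Real.log_pos hD
  exact lt_min hc (by positivity)

/-- The single geometric bound. -/
lemma wN_le_geom {τ₁ : ℝ} (hC : 0 ≤ C) (hD : 1 < D) (hQ : 0 ≤ Q) (hτ₁ : 0 < τ₁) (h0 : 0 < τ)
    (h1 : τ ≤ τ₁) (n : ℕ) :
    wN c C D Q τ n ≤ (C + Q ^ (1 / 4 : ℝ)) * Real.exp (-(alF c D τ₁ * τ)) ^ n := by
  have hD0 : 0 < D := by linarith
  refine (wN_le hC hD hQ n).trans ?_
  have h2 : Real.exp (-(c * τ)) ^ n ≤ Real.exp (-(alF c D τ₁ * τ)) ^ n := by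
    refine pow_le_pow_left₀ (Real.exp_pos _).le ?_ n
    rw [Real.exp_le_exp]
    have : alF c D τ₁ ≤ c := min_le_left _ _
    nlinarith
  have h3 : rhoF D ^ n ≤ Real.exp (-(alF c D τ₁ * τ)) ^ n := by
    refine pow_le_pow_left₀ (by unfold rhoF; positivity) ?_ n
    unfold rhoF
    rw [Real.rpow_def_of_pos hD0, Real.exp_le_exp]
    have hl := Real.log_pos hD
    have h4 : alF c D τ₁ * τ ≤ Real.log D / 8 / τ₁ * τ₁ := by
      have h5 : alF c D τ₁ ≤ Real.log D / 8 / τ₁ := min_le_right _ _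
      have h6 : 0 ≤ Real.log D / 8 / τ₁ := by positivity
      calc alF c D τ₁ * τ ≤ Real.log D / 8 / τ₁ * τ := mul_le_mul_of_nonneg_right h5 h0.le
        _ ≤ _ := mul_le_mul_of_nonneg_left h1 h6
    have h7 : Real.log D / 8 / τ₁ * τ₁ = Real.log D / 8 := by field_simp
    linarith
  have hQ' : 0 ≤ Q ^ (1 / 4 : ℝ) := Real.rpow_nonneg hQ _
  calc _ ≤ C * Real.exp (-(alF c D τ₁ * τ)) ^ n + Q ^ (1 / 4 : ℝ) * Real.exp (-(alF c D τ₁ * τ)) ^ n :=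
        add_le_add (mul_le_mul_of_nonneg_left h2 hC) (mul_le_mul_of_nonneg_left h3 hQ')
    _ = _ := by ring

lemma WW_nonneg {w : ℕ → ℝ} (hw : ∀ n, 0 ≤ w n) (n : ℕ) : 0 ≤ WW w n := by
  cases n with
  | zero => simp [WW]
  | succ n => exact hw n

/-- The bound on the arms, all in one. -/
lemma WW_le_geom {τ₁ : ℝ} (hC : 0 ≤ C) (hD : 1 < D) (hQ : 1 ≤ Q) (hτ₁ : 0 < τ₁) (h0 : 0 < τ)
    (h1 : τ ≤ τ₁) (hc : 0 < c) (n : ℕ) :
    WW (wN c C D Q τ) n ≤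
      ((C + 1) * Real.exp (alF c D τ₁ * τ₁) * Q ^ (1 / 4 : ℝ)) *
        Real.exp (-(alF c D τ₁ * τ)) ^ n := by
  set α := alF c D τ₁ with hα
  have hα0 : 0 < α := alF_pos hc hD hτ₁
  have hQ1 : 1 ≤ Q ^ (1 / 4 : ℝ) := Real.one_le_rpow hQ (by norm_num)
  have hE : 1 ≤ Real.exp (α * τ₁) := Real.one_le_exp (by positivity)
  cases n with
  | zero =>
    simp only [WW, pow_zero, mul_one]
    have : (C + 1) * Real.exp (α * τ₁) * Q ^ (1 / 4 : ℝ) ≥ 1 * 1 * 1 := by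
      gcongr
      linarith
    linarith
  | succ n =>
    simp only [WW]
    have h2 := wN_le_geom (c := c) hC hD (by linarith : 0 ≤ Q) hτ₁ h0 h1 n
    refine h2.trans ?_
    rw [pow_succ, ← hα]
    have h3 : Real.exp (-(α * τ)) * Real.exp (α * τ₁) ≥ 1 := by
      rw [← Real.exp_add]
      refine Real.one_le_exp ?_
      nlinarith
    have h4 : 0 ≤ Real.exp (-(α * τ)) ^ n := by positivity
    have h5 : C + Q ^ (1 / 4 : ℝ) ≤ (C + 1) * Q ^ (1 / 4 : ℝ) := by nlinarith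
    calc (C + Q ^ (1 / 4 : ℝ)) * Real.exp (-(α * τ)) ^ n
        ≤ ((C + 1) * Q ^ (1 / 4 : ℝ) * (Real.exp (-(α * τ)) * Real.exp (α * τ₁))) * Real.exp (-(α * τ)) ^ n := by
          refine mul_le_mul_of_nonneg_right ?_ h4
          have h6 : 0 ≤ (C + 1) * Q ^ (1 / 4 : ℝ) := by positivity
          nlinarith
      _ = _ := by ring

/-- **(T)** The sum of the long paths. -/
theorem T_bound {τ₁ : ℝ} (hc : 0 < c) (hC : 0 < C) (hD : 2 ≤ D) (hτ₁ : 1 ≤ τ₁) :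
    ∃ A B : ℝ, 0 < A ∧ 0 < B ∧ ∀ Q : ℝ, 1 ≤ Q → ∀ τ ∈ Ioc 0 τ₁, ∀ N : ℕ,
      ∑ r ∈ Finset.Ioc (RF A τ₁ τ) N, (r : ℝ) * ∑ i ∈ Finset.range r,
        WW (wN c C D Q τ) i * WW (wN c C D Q τ) (r - 1 - i) ≤ B * Q ^ (1 / 2 : ℝ) := by
  have hD1 : 1 < D := by linarith
  have hD0 : 0 < D := by linarith
  have h₁ : 0 < τ₁ := by linarith
  set α := alF c D τ₁ with hα
  have hα0 : 0 < α := alF_pos hc hD1 h₁
  set B : ℝ := 2 * (((C + 1) * Real.exp (α * τ₁)) ^ 2 * (τ₁ + 2 / α) ^ 3) with hB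
  refine ⟨6 / α, B, by positivity, by positivity, fun Q hQ τ hτ N => ?_⟩
  have h0 := hτ.1
  have h1 := hτ.2
  have hQ0 : 0 ≤ Q := by linarith
  set M : ℝ := (C + 1) * Real.exp (α * τ₁) * Q ^ (1 / 4 : ℝ) with hM
  have hM0 : 0 ≤ M := by positivity
  set y := Real.exp (-(α * τ)) with hy
  have hy0 : 0 ≤ y := (Real.exp_pos _).le
  have hWle : ∀ n, WW (wN c C D Q τ) n ≤ M * y ^ n := fun n =>
    WW_le_geom hC.le hD1 hQ h₁ h0 h1 hc n
  have hW0 : ∀ n, 0 ≤ WW (wN c C D Q τ) n := WW_nonneg (wN_nonneg hC.le hD0 hQ0)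
  set R := RF (6 / α) τ₁ τ with hR
  set z := Real.exp (-(α * τ / 2)) with hz
  have hz0 : 0 ≤ z := (Real.exp_pos _).le
  have hz1 : z < 1 := by
    rw [hz, Real.exp_lt_one_iff]
    have := mul_pos hα0 h0
    linarith
  set E := Real.exp (-(α * τ * R / 2)) with hE
  have hE0 : 0 ≤ E := (Real.exp_pos _).le
  -- each term
  have hterm : ∀ r ∈ Finset.Ioc R N, (r : ℝ) * ∑ i ∈ Finset.range r,
      WW (wN c C D Q τ) i * WW (wN c C D Q τ) (r - 1 - i) ≤ M ^ 2 * E * ((r : ℝ) ^ 2 * z ^ (r - 1)) := by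
    intro r hr
    have hr1 : R < r := (Finset.mem_Ioc.mp hr).1
    have hr2 : 1 ≤ r := by omega
    have hin : ∑ i ∈ Finset.range r, WW (wN c C D Q τ) i * WW (wN c C D Q τ) (r - 1 - i) ≤
        ∑ i ∈ Finset.range r, M ^ 2 * y ^ (r - 1) := by
      refine Finset.sum_le_sum fun i hi => ?_
      have hi' : i < r := Finset.mem_range.mp hi
      have e : i + (r - 1 - i) = r - 1 := by omega
      calc _ ≤ (M * y ^ i) * (M * y ^ (r - 1 - i)) :=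
            mul_le_mul (hWle _) (hWle _) (hW0 _) (by positivity)
        _ = M ^ 2 * y ^ (i + (r - 1 - i)) := by rw [pow_add]; ring
        _ = _ := by rw [e]
    have hsum : ∑ i ∈ Finset.range r, M ^ 2 * y ^ (r - 1) = r * (M ^ 2 * y ^ (r - 1)) := by
      simp
    rw [hsum] at hin
    have hyy : y ^ (r - 1) ≤ E * z ^ (r - 1) := by
      rw [hy, hE, hz, ← Real.exp_nat_mul, ← Real.exp_nat_mul, ← Real.exp_add, Real.exp_le_exp]
      have hcast : (R : ℝ) ≤ ((r - 1 : ℕ) : ℝ) := by exact_mod_cast (by omega : R ≤ r - 1)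
      have := mul_pos hα0 h0
      nlinarith
    have hr0 : (0 : ℝ) ≤ r := Nat.cast_nonneg r
    calc (r : ℝ) * ∑ i ∈ Finset.range r, WW (wN c C D Q τ) i * WW (wN c C D Q τ) (r - 1 - i)
        ≤ r * (r * (M ^ 2 * y ^ (r - 1))) := mul_le_mul_of_nonneg_left hin hr0
      _ ≤ r * (r * (M ^ 2 * (E * z ^ (r - 1)))) := by gcongr
      _ = _ := by ring
  refine (Finset.sum_le_sum hterm).trans ?_
  rw [← Finset.mul_sum]
  obtain ⟨hsm, hsle⟩ := summable_sq_geom hz0 hz1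
  have h2 : ∑ r ∈ Finset.Ioc R N, (r : ℝ) ^ 2 * z ^ (r - 1) ≤ 2 / (1 - z) ^ 3 :=
    (hsm.sum_le_tsum _ (fun r _ => by positivity)).trans hsle
  -- the exponential beats the volume
  have hl := ellF_ge_one h0 h1
  have hRl : (6 / α) * ellF τ₁ τ ≤ τ * (R : ℝ) := le_RF h0
  have hEle : E ≤ τ ^ 3 := by
    have h3 : -(α * τ * R / 2) ≤ 3 * (-ellF τ₁ τ) := by
      have h4 : α * ((6 / α) * ellF τ₁ τ) ≤ α * (τ * (R : ℝ)) :=
        mul_le_mul_of_nonneg_left hRl hα0.le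
      have h5 : α * ((6 / α) * ellF τ₁ τ) = 6 * ellF τ₁ τ := by field_simp
      nlinarith
    have h4 : E ≤ Real.exp (-ellF τ₁ τ) ^ 3 := by
      rw [hE, ← Real.exp_nat_mul, Real.exp_le_exp]
      push_cast
      linarith
    rw [exp_neg_ellF h0 h₁] at h4
    refine h4.trans (pow_le_pow_left₀ (by positivity) ?_ 3)
    rw [div_le_iff₀ (by positivity)]
    have h5 : 1 ≤ Real.exp 1 * τ₁ := by
      have := Real.add_one_le_exp (1 : ℝ)
      nlinarith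
    nlinarith
  have hone : 1 / (1 - z) ≤ (τ₁ + 2 / α) / τ := by
    have hx : 0 < α * τ / 2 := by positivity
    have h3 := one_div_one_sub_exp_le hx
    refine h3.trans ?_
    have h4 : 1 / (α * τ / 2) = (2 / α) / τ := by field_simp
    rw [h4, add_div]
    have h5 : 1 ≤ τ₁ / τ := (one_le_div h0).mpr h1
    linarith
  have hz2 : 0 < 1 - z := by linarith
  have hcube : 2 / (1 - z) ^ 3 ≤ 2 * ((τ₁ + 2 / α) ^ 3 / τ ^ 3) := by
    have e : 2 / (1 - z) ^ 3 = 2 * (1 / (1 - z)) ^ 3 := by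
      rw [div_pow]; simp [div_eq_mul_inv]
    rw [e, ← div_pow]
    have := pow_le_pow_left₀ (by positivity) hone 3
    linarith
  have hMsq : M ^ 2 = ((C + 1) * Real.exp (α * τ₁)) ^ 2 * Q ^ (1 / 2 : ℝ) := by
    rw [hM, mul_pow, ← Real.rpow_natCast (Q ^ (1 / 4 : ℝ)) 2, ← Real.rpow_mul hQ0]
    norm_num
  have hτ3 : 0 < τ ^ 3 := by positivity
  have hfin : M ^ 2 * E * ∑ r ∈ Finset.Ioc R N, (r : ℝ) ^ 2 * z ^ (r - 1) ≤
      M ^ 2 * τ ^ 3 * (2 * ((τ₁ + 2 / α) ^ 3 / τ ^ 3)) := by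
    have hS0 : 0 ≤ ∑ r ∈ Finset.Ioc R N, (r : ℝ) ^ 2 * z ^ (r - 1) :=
      Finset.sum_nonneg fun r _ => by positivity
    have hMM : 0 ≤ M ^ 2 := by positivity
    calc _ ≤ M ^ 2 * τ ^ 3 * ∑ r ∈ Finset.Ioc R N, (r : ℝ) ^ 2 * z ^ (r - 1) := by gcongr
      _ ≤ _ := by
        refine mul_le_mul_of_nonneg_left (h2.trans hcube) (by positivity)
  refine hfin.trans (le_of_eq ?_)
  rw [hMsq, hB]
  field_simp

end Omega

section Power

variable {τ₁ : ℝ}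

/-- The integrable singular profile. -/
lemma intervalIntegrable_sing {a : ℝ} (ha : a < 1) (hτ₁ : 0 ≤ τ₁) :
    IntervalIntegrable (fun τ : ℝ => |τ| ^ (-a)) volume 0 τ₁ := by
  have h1 : IntervalIntegrable (fun τ : ℝ => τ ^ (-a)) volume 0 τ₁ :=
    intervalIntegral.intervalIntegrable_rpow' (by linarith)
  rw [intervalIntegrable_iff_integrableOn_Ioc_of_le hτ₁] at h1 ⊢
  refine h1.congr_fun (fun t ht => ?_) measurableSet_Ioc
  simp only [abs_of_pos ht.1]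

lemma integral_sing {a : ℝ} (ha : a < 1) (hτ₁ : 0 ≤ τ₁) :
    ∫ τ in (0 : ℝ)..τ₁, |τ| ^ (-a) = τ₁ ^ (1 - a) / (1 - a) := by
  have h1 : ∫ τ in (0 : ℝ)..τ₁, |τ| ^ (-a) = ∫ τ in (0 : ℝ)..τ₁, τ ^ (-a) := by
    refine intervalIntegral.integral_congr_ae (Eventually.of_forall fun t ht => ?_)
    rw [uIoc_of_le hτ₁] at ht
    rw [abs_of_pos ht.1]
  rw [h1, integral_rpow (Or.inl (by linarith))]
  have e : -a + 1 = 1 - a := by ring
  rw [e, Real.zero_rpow (by linarith)]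
  simp

/-- The explicit coefficient `b_p`: `(1/p) ∫ b_p → 0`. -/
lemma tendsto_coeff (K : ℝ) {s a : ℝ} (hs : s < 1) (ha : a < 1) (hτ₁ : 0 ≤ τ₁) :
    Tendsto (fun p : ℕ => (1 / (p : ℝ)) * ∫ τ in (0 : ℝ)..τ₁, K * (p : ℝ) ^ s * |τ| ^ (-a))
      atTop (𝓝 0) := by
  have h : ∀ᶠ p : ℕ in atTop, (1 / (p : ℝ)) * ∫ τ in (0 : ℝ)..τ₁, K * (p : ℝ) ^ s * |τ| ^ (-a) =
      (K * (τ₁ ^ (1 - a) / (1 - a))) * (p : ℝ) ^ (-(1 - s)) := by
    filter_upwards [eventually_gt_atTop 0] with p hp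
    have hp' : (0 : ℝ) < p := by exact_mod_cast hp
    rw [intervalIntegral.integral_const_mul, integral_sing ha hτ₁]
    have e : (1 / (p : ℝ)) * (p : ℝ) ^ s = (p : ℝ) ^ (-(1 - s)) := by
      rw [one_div, ← Real.rpow_neg_one, ← Real.rpow_add hp']
      congr 1; ring
    calc (1 / (p : ℝ)) * (K * (p : ℝ) ^ s * (τ₁ ^ (1 - a) / (1 - a)))
        = (K * (τ₁ ^ (1 - a) / (1 - a))) * ((1 / (p : ℝ)) * (p : ℝ) ^ s) := by ring
      _ = _ := by rw [e]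
  refine Tendsto.congr' (EventuallyEq.symm h) ?_
  have h2 : Tendsto (fun p : ℕ => (p : ℝ) ^ (-(1 - s))) atTop (𝓝 0) :=
    (tendsto_rpow_neg_atTop (by linarith : (0 : ℝ) < 1 - s)).comp tendsto_natCast_atTop_atTop
  simpa using h2.const_mul (K * (τ₁ ^ (1 - a) / (1 - a)))

end Power

end Crest.Agent.Lib.IsingFIID
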