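/-
Row 160 (S0241): elementary real estimates for the coefficients of the main inequality.
-/
import Mathlib

set_option autoImplicit false

namespace Crest.Agent.Lib.IsingFIID

open Real

/-- `min(1,x) ≤ x^s`. -/
theorem min_one_le_rpow {x s : ℝ} (hx : 0 ≤ x) (hs0 : 0 ≤ s) (hs1 : s ≤ 1) : min 1 x ≤ x ^ s := by
  rcases le_total x 1 with h | h
  · rw [min_eq_right h]
    calc x = x ^ (1 : ℝ) := (Real.rpow_one x).symm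
      _ ≤ x ^ s := Real.rpow_le_rpow_of_exponent_ge' hx h hs0 hs1
  · rw [min_eq_left h]
    exact Real.one_le_rpow h hs0

/-- Negative powers of time against the master power. -/
theorem rpow_neg_le_master {τ τ₁ s : ℝ} (hτ : 0 < τ) (hτ₁ : τ ≤ τ₁) (h1 : 1 ≤ τ₁) (hs0 : 0 ≤ s)
    (hs : s ≤ 19 / 20) : τ ^ (-s) ≤ τ₁ ^ (19 / 20 : ℝ) * τ ^ (-(19 / 20) : ℝ) := by
  have e : τ ^ (-s) = τ ^ (19 / 20 - s) * τ ^ (-(19 / 20) : ℝ) := by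
    rw [← Real.rpow_add hτ]
    congr 1
    ring
  rw [e]
  refine mul_le_mul_of_nonneg_right ?_ (Real.rpow_nonneg hτ.le _)
  calc τ ^ (19 / 20 - s) ≤ τ₁ ^ (19 / 20 - s) := Real.rpow_le_rpow hτ.le hτ₁ (by linarith)
    _ ≤ τ₁ ^ (19 / 20 : ℝ) := Real.rpow_le_rpow_of_exponent_le h1 (by linarith)

theorem one_le_master {τ τ₁ : ℝ} (hτ : 0 < τ) (hτ₁ : τ ≤ τ₁) (h1 : 1 ≤ τ₁) :
    1 ≤ τ₁ ^ (19 / 20 : ℝ) * τ ^ (-(19 / 20) : ℝ) := by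
  have := rpow_neg_le_master hτ hτ₁ h1 (le_refl 0) (by norm_num)
  simpa using this

theorem g0_pos {τ₁ : ℝ} (h1 : 1 ≤ τ₁) : 0 < τ₁ ^ (19 / 20 : ℝ) := Real.rpow_pos_of_pos (by linarith) _

section coefs

variable {τ τ₁ p κ2 : ℝ}

/-- The row sum term. -/
theorem coef_rho (hτ : 0 < τ) (hτ₁ : τ ≤ τ₁) (h1 : 1 ≤ τ₁) (hp : 1 ≤ p) (hκ0 : 0 ≤ κ2) (hκ : κ2 ≤ τ)
    {C : ℝ} (hC : 0 ≤ C) :
    κ2 * (C * (1 / τ + Real.log (p + 1))) ≤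
      (C * (1 + 3 * τ₁) * τ₁ ^ (19 / 20 : ℝ)) * (p ^ (9 / 10 : ℝ) * τ ^ (-(19 / 20) : ℝ)) := by
  have hP9 : 1 ≤ p ^ (9 / 10 : ℝ) := Real.one_le_rpow hp (by norm_num)
  have hlog : Real.log (p + 1) ≤ 3 * p ^ (9 / 10 : ℝ) := by
    have h2 := Real.log_le_rpow_div (x := p + 1) (by linarith) (by norm_num : (0 : ℝ) < 9 / 10)
    have h3 : (p + 1) ^ (9 / 10 : ℝ) ≤ (2 * p) ^ (9 / 10 : ℝ) :=
      Real.rpow_le_rpow (by linarith) (by linarith) (by norm_num)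
    have h4 : (2 * p) ^ (9 / 10 : ℝ) = (2 : ℝ) ^ (9 / 10 : ℝ) * p ^ (9 / 10 : ℝ) :=
      Real.mul_rpow (by norm_num) (by linarith)
    have h5 : (2 : ℝ) ^ (9 / 10 : ℝ) ≤ 2 ^ (1 : ℝ) :=
      Real.rpow_le_rpow_of_exponent_le (by norm_num) (by norm_num)
    rw [Real.rpow_one] at h5
    have h6 : (p + 1) ^ (9 / 10 : ℝ) ≤ 2 * p ^ (9 / 10 : ℝ) := by
      rw [h4] at h3
      nlinarith
    calc Real.log (p + 1) ≤ (p + 1) ^ (9 / 10 : ℝ) / (9 / 10) := h2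
      _ ≤ (2 * p ^ (9 / 10 : ℝ)) / (9 / 10) := by gcongr
      _ ≤ 3 * p ^ (9 / 10 : ℝ) := by
          have : (2 * p ^ (9 / 10 : ℝ)) / (9 / 10) = (20 / 9) * p ^ (9 / 10 : ℝ) := by ring
          rw [this]
          nlinarith
  have hlog0 : 0 ≤ Real.log (p + 1) := Real.log_nonneg (by linarith)
  have h1τ : 0 ≤ 1 / τ := by positivity
  have h2 : κ2 * (1 / τ + Real.log (p + 1)) ≤ τ * (1 / τ + Real.log (p + 1)) :=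
    mul_le_mul_of_nonneg_right hκ (by linarith)
  have h3 : τ * (1 / τ + Real.log (p + 1)) ≤ (1 + 3 * τ₁) * p ^ (9 / 10 : ℝ) := by
    have e : τ * (1 / τ + Real.log (p + 1)) = 1 + τ * Real.log (p + 1) := by
      field_simp
    rw [e]
    have h4 : τ * Real.log (p + 1) ≤ τ₁ * (3 * p ^ (9 / 10 : ℝ)) :=
      mul_le_mul hτ₁ hlog hlog0 (by linarith)
    nlinarith
  have hm := one_le_master hτ hτ₁ h1
  set P9 := p ^ (9 / 10 : ℝ)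
  set Tau := τ ^ (-(19 / 20) : ℝ)
  set g0 := τ₁ ^ (19 / 20 : ℝ)
  have h5 : (1 + 3 * τ₁) * P9 ≤ (1 + 3 * τ₁) * g0 * (P9 * Tau) := by
    have : 0 ≤ (1 + 3 * τ₁) * P9 := by
      have : (0 : ℝ) ≤ 1 + 3 * τ₁ := by linarith
      positivity
    calc (1 + 3 * τ₁) * P9 = ((1 + 3 * τ₁) * P9) * 1 := by ring
      _ ≤ ((1 + 3 * τ₁) * P9) * (g0 * Tau) := mul_le_mul_of_nonneg_left hm this
      _ = _ := by ring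
  calc κ2 * (C * (1 / τ + Real.log (p + 1))) = C * (κ2 * (1 / τ + Real.log (p + 1))) := by ring
    _ ≤ C * ((1 + 3 * τ₁) * g0 * (P9 * Tau)) :=
        mul_le_mul_of_nonneg_left (h2.trans (h3.trans h5)) hC
    _ = _ := by ring

/-- The tail term with the large exponent. -/
theorem coef_T (hτ : 0 < τ) (hτ₁ : τ ≤ τ₁) (h1 : 1 ≤ τ₁) (hp : 1 ≤ p) (hκ0 : 0 ≤ κ2) (hκ : κ2 ≤ τ)
    {B : ℝ} (hB : 0 ≤ B) :
    κ2 * (B * (2 * p) ^ (1 / 2 : ℝ)) ≤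
      (2 * τ₁ * B * τ₁ ^ (19 / 20 : ℝ)) * (p ^ (9 / 10 : ℝ) * τ ^ (-(19 / 20) : ℝ)) := by
  have hp0 : 0 ≤ p := by linarith
  have h2 : (2 * p) ^ (1 / 2 : ℝ) ≤ 2 * p ^ (9 / 10 : ℝ) := by
    rw [Real.mul_rpow (by norm_num) hp0]
    have h3 : (2 : ℝ) ^ (1 / 2 : ℝ) ≤ 2 ^ (1 : ℝ) :=
      Real.rpow_le_rpow_of_exponent_le (by norm_num) (by norm_num)
    rw [Real.rpow_one] at h3
    have h4 : p ^ (1 / 2 : ℝ) ≤ p ^ (9 / 10 : ℝ) :=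
      Real.rpow_le_rpow_of_exponent_le hp (by norm_num)
    exact mul_le_mul h3 h4 (Real.rpow_nonneg hp0 _) (by norm_num)
  have hP0 : 0 ≤ p ^ (9 / 10 : ℝ) := Real.rpow_nonneg hp0 _
  have hm := one_le_master hτ hτ₁ h1
  set P9 := p ^ (9 / 10 : ℝ)
  set Tau := τ ^ (-(19 / 20) : ℝ)
  set g0 := τ₁ ^ (19 / 20 : ℝ)
  have h3 : κ2 * (B * (2 * p) ^ (1 / 2 : ℝ)) ≤ τ₁ * (B * (2 * P9)) :=
    mul_le_mul (hκ.trans hτ₁) (mul_le_mul_of_nonneg_left h2 hB)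
      (mul_nonneg hB (Real.rpow_nonneg (by linarith) _)) (by linarith)
  have h0 : 0 ≤ τ₁ * (B * (2 * P9)) := by
    have : 0 ≤ τ₁ := by linarith
    positivity
  calc _ ≤ τ₁ * (B * (2 * P9)) := h3
    _ = (τ₁ * (B * (2 * P9))) * 1 := by ring
    _ ≤ (τ₁ * (B * (2 * P9))) * (g0 * Tau) := mul_le_mul_of_nonneg_left hm h0
    _ = _ := by ring

/-- The tail term with exponent `2`. -/
theorem coef_T2 (hτ : 0 < τ) (hτ₁ : τ ≤ τ₁) (h1 : 1 ≤ τ₁) (hκ0 : 0 ≤ κ2) (hκ : κ2 ≤ τ)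
    {B : ℝ} (hB : 0 ≤ B) :
    κ2 * (B * (2 : ℝ) ^ (1 / 2 : ℝ)) ≤ (2 * τ₁ * B * τ₁ ^ (19 / 20 : ℝ)) * τ ^ (-(19 / 20) : ℝ) := by
  have h3 : (2 : ℝ) ^ (1 / 2 : ℝ) ≤ 2 ^ (1 : ℝ) :=
    Real.rpow_le_rpow_of_exponent_le (by norm_num) (by norm_num)
  rw [Real.rpow_one] at h3
  have hm := one_le_master hτ hτ₁ h1
  set Tau := τ ^ (-(19 / 20) : ℝ)
  set g0 := τ₁ ^ (19 / 20 : ℝ)
  have h4 : κ2 * (B * (2 : ℝ) ^ (1 / 2 : ℝ)) ≤ τ₁ * (B * 2) :=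
    mul_le_mul (hκ.trans hτ₁) (mul_le_mul_of_nonneg_left h3 hB)
      (mul_nonneg hB (Real.rpow_nonneg (by norm_num) _)) (by linarith)
  have h0 : 0 ≤ τ₁ * (B * 2) := by
    have : 0 ≤ τ₁ := by linarith
    positivity
  calc _ ≤ τ₁ * (B * 2) := h4
    _ = (τ₁ * (B * 2)) * 1 := by ring
    _ ≤ (τ₁ * (B * 2)) * (g0 * Tau) := mul_le_mul_of_nonneg_left hm h0
    _ = _ := by ring

variable {R A' ℓ C₂ Cm : ℝ}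

theorem R_sq_le (hτ : 0 < τ) (hκ0 : 0 ≤ κ2) (hκ : κ2 ≤ τ) (hR0 : 0 ≤ R) (hR : R ≤ A' * ℓ / τ) :
    κ2 * R ^ 2 ≤ A' ^ 2 * ℓ ^ 2 * τ⁻¹ := by
  have h1 : R ^ 2 ≤ (A' * ℓ / τ) ^ 2 := pow_le_pow_left₀ hR0 hR 2
  calc κ2 * R ^ 2 ≤ τ * (A' * ℓ / τ) ^ 2 := mul_le_mul hκ h1 (sq_nonneg _) hτ.le
    _ = _ := by
      field_simp

/-- The `z₁` term. -/
theorem coef_z1 (hτ : 0 < τ) (hτ₁ : τ ≤ τ₁) (h1 : 1 ≤ τ₁) (hκ0 : 0 ≤ κ2) (hκ : κ2 ≤ τ) (hR0 : 0 ≤ R)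
    (hR : R ≤ A' * ℓ / τ) (hℓ2 : ℓ ^ 2 ≤ C₂ * τ ^ (-(1 / 4) : ℝ)) (hCm : 0 ≤ Cm) :
    κ2 * R ^ 2 * (Cm * τ) ≤ (A' ^ 2 * Cm * C₂ * τ₁ ^ (19 / 20 : ℝ)) * τ ^ (-(19 / 20) : ℝ) := by
  have h2 := R_sq_le hτ hκ0 hκ hR0 hR
  have h3 : κ2 * R ^ 2 * (Cm * τ) ≤ (A' ^ 2 * ℓ ^ 2 * τ⁻¹) * (Cm * τ) :=
    mul_le_mul_of_nonneg_right h2 (by positivity)
  have e : (A' ^ 2 * ℓ ^ 2 * τ⁻¹) * (Cm * τ) = A' ^ 2 * Cm * ℓ ^ 2 := by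
    field_simp
  rw [e] at h3
  have hC₂ : 0 ≤ C₂ := by
    by_contra hneg
    have h5 : C₂ * τ ^ (-(1 / 4) : ℝ) < 0 :=
      mul_neg_of_neg_of_pos (not_le.mp hneg) (Real.rpow_pos_of_pos hτ _)
    nlinarith [sq_nonneg ℓ]
  have h4 := rpow_neg_le_master hτ hτ₁ h1 (s := 1 / 4) (by norm_num) (by norm_num)
  have hτ' : (-(1 / 4) : ℝ) = -(1 / 4 : ℝ) := rfl
  calc _ ≤ A' ^ 2 * Cm * ℓ ^ 2 := h3
    _ ≤ A' ^ 2 * Cm * (C₂ * (τ₁ ^ (19 / 20 : ℝ) * τ ^ (-(19 / 20) : ℝ))) := by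
        refine mul_le_mul_of_nonneg_left (hℓ2.trans (mul_le_mul_of_nonneg_left h4 hC₂)) (by positivity)
    _ = _ := by ring

/-- The `z` term: here the exponent `9/10` of `p` appears. -/
theorem coef_z (hτ : 0 < τ) (hp : 1 ≤ p) (hκ0 : 0 ≤ κ2) (hκ : κ2 ≤ τ) (hR0 : 0 ≤ R)
    (hR : R ≤ A' * ℓ / τ) (hℓ2 : ℓ ^ 2 ≤ C₂ * τ ^ (-(1 / 4) : ℝ)) (hCm : 0 ≤ Cm) :
    κ2 * R ^ 2 * min 1 (Cm * p ^ 3 * τ) ≤
      (A' ^ 2 * C₂ * Cm ^ (3 / 10 : ℝ)) * (p ^ (9 / 10 : ℝ) * τ ^ (-(19 / 20) : ℝ)) := by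
  have hp0 : 0 ≤ p := by linarith
  have hC₂ : 0 ≤ C₂ := by
    by_contra hneg
    have h5 : C₂ * τ ^ (-(1 / 4) : ℝ) < 0 :=
      mul_neg_of_neg_of_pos (not_le.mp hneg) (Real.rpow_pos_of_pos hτ _)
    nlinarith [sq_nonneg ℓ]
  have h2 := R_sq_le hτ hκ0 hκ hR0 hR
  have hx : 0 ≤ Cm * p ^ 3 * τ := by positivity
  have h3 : min 1 (Cm * p ^ 3 * τ) ≤ (Cm * p ^ 3 * τ) ^ (3 / 10 : ℝ) :=
    min_one_le_rpow hx (by norm_num) (by norm_num)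
  have h4 : (Cm * p ^ 3 * τ) ^ (3 / 10 : ℝ) = Cm ^ (3 / 10 : ℝ) * p ^ (9 / 10 : ℝ) * τ ^ (3 / 10 : ℝ) := by
    rw [Real.mul_rpow (by positivity) hτ.le, Real.mul_rpow hCm (by positivity)]
    congr 2
    rw [← Real.rpow_natCast, ← Real.rpow_mul hp0]
    norm_num
  have h5 : 0 ≤ min 1 (Cm * p ^ 3 * τ) := le_min (by norm_num) hx
  have hA0 : 0 ≤ A' ^ 2 * ℓ ^ 2 * τ⁻¹ := by positivity
  have e : τ ^ (-(1 / 4) : ℝ) * τ⁻¹ * τ ^ (3 / 10 : ℝ) = τ ^ (-(19 / 20) : ℝ) := by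
    rw [← Real.rpow_neg_one, ← Real.rpow_add hτ, ← Real.rpow_add hτ]
    norm_num
  calc κ2 * R ^ 2 * min 1 (Cm * p ^ 3 * τ)
      ≤ (A' ^ 2 * ℓ ^ 2 * τ⁻¹) * (Cm ^ (3 / 10 : ℝ) * p ^ (9 / 10 : ℝ) * τ ^ (3 / 10 : ℝ)) := by
        rw [← h4]
        exact mul_le_mul h2 h3 h5 hA0
    _ ≤ (A' ^ 2 * (C₂ * τ ^ (-(1 / 4) : ℝ)) * τ⁻¹) *
          (Cm ^ (3 / 10 : ℝ) * p ^ (9 / 10 : ℝ) * τ ^ (3 / 10 : ℝ)) := by
        refine mul_le_mul_of_nonneg_right ?_ (by positivity)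
        refine mul_le_mul_of_nonneg_right ?_ (by positivity)
        exact mul_le_mul_of_nonneg_left hℓ2 (by positivity)
    _ = (A' ^ 2 * C₂ * Cm ^ (3 / 10 : ℝ)) * p ^ (9 / 10 : ℝ) *
          (τ ^ (-(1 / 4) : ℝ) * τ⁻¹ * τ ^ (3 / 10 : ℝ)) := by ring
    _ = _ := by
        rw [e]
        ring

/-- The `ψ` term. -/
theorem coef_psi (hτ : 0 < τ) (hκ0 : 0 ≤ κ2) (hκ : κ2 ≤ τ) (hR0 : 0 ≤ R) (hR : R ≤ A' * ℓ / τ) :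
    κ2 * R ^ 3 ≤ A' ^ 3 * ℓ ^ 3 * (τ⁻¹) ^ 2 := by
  have h1 : R ^ 3 ≤ (A' * ℓ / τ) ^ 3 := pow_le_pow_left₀ hR0 hR 3
  calc κ2 * R ^ 3 ≤ τ * (A' * ℓ / τ) ^ 3 :=
        mul_le_mul hκ h1 (by positivity) hτ.le
    _ = _ := by
      field_simp

/-- The `src` term. -/
theorem coef_src (hτ : 0 < τ) (hτ₁ : τ ≤ τ₁) (h1 : 1 ≤ τ₁) (hκ0 : 0 ≤ κ2) (hκ : κ2 ≤ τ) (hR0 : 0 ≤ R)
    (hA' : 0 ≤ A') (hℓ1 : 1 ≤ ℓ) (hR : R ≤ A' * ℓ / τ) (hℓ2 : ℓ ^ 2 ≤ C₂ * τ ^ (-(1 / 4) : ℝ)) :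
    κ2 * R ^ (3 / 2 : ℝ) ≤ (A' ^ (3 / 2 : ℝ) * C₂ * τ₁ ^ (19 / 20 : ℝ)) * τ ^ (-(19 / 20) : ℝ) := by
  have hℓ0 : 0 ≤ ℓ := by linarith
  have hC₂ : 0 ≤ C₂ := by
    by_contra hneg
    have h5 : C₂ * τ ^ (-(1 / 4) : ℝ) < 0 :=
      mul_neg_of_neg_of_pos (not_le.mp hneg) (Real.rpow_pos_of_pos hτ _)
    nlinarith [sq_nonneg ℓ]
  have h2 : R ^ (3 / 2 : ℝ) ≤ (A' * ℓ / τ) ^ (3 / 2 : ℝ) :=
    Real.rpow_le_rpow hR0 hR (by norm_num)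
  have h3 : (A' * ℓ / τ) ^ (3 / 2 : ℝ) = A' ^ (3 / 2 : ℝ) * ℓ ^ (3 / 2 : ℝ) * τ ^ (-(3 / 2) : ℝ) := by
    rw [div_eq_mul_inv, Real.mul_rpow (by positivity) (by positivity), Real.mul_rpow hA' hℓ0,
      Real.inv_rpow hτ.le, Real.rpow_neg hτ.le]
  have h4 : ℓ ^ (3 / 2 : ℝ) ≤ ℓ ^ 2 := by
    have := Real.rpow_le_rpow_of_exponent_le hℓ1 (show (3 / 2 : ℝ) ≤ 2 by norm_num)
    rwa [show ((2 : ℝ)) = ((2 : ℕ) : ℝ) by norm_num, Real.rpow_natCast] at this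
  have h5 : τ * τ ^ (-(3 / 2) : ℝ) = τ ^ (-(1 / 2) : ℝ) := by
    nth_rw 1 [← Real.rpow_one τ]
    rw [← Real.rpow_add hτ]
    norm_num
  have h6 : τ ^ (-(1 / 4) : ℝ) * τ ^ (-(1 / 2) : ℝ) = τ ^ (-(3 / 4) : ℝ) := by
    rw [← Real.rpow_add hτ]
    norm_num
  have h7 := rpow_neg_le_master hτ hτ₁ h1 (s := 3 / 4) (by norm_num) (by norm_num)
  have hA0 : 0 ≤ A' ^ (3 / 2 : ℝ) := Real.rpow_nonneg hA' _
  calc κ2 * R ^ (3 / 2 : ℝ) ≤ τ * (A' ^ (3 / 2 : ℝ) * ℓ ^ (3 / 2 : ℝ) * τ ^ (-(3 / 2) : ℝ)) := by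
        rw [← h3]
        exact mul_le_mul hκ h2 (Real.rpow_nonneg hR0 _) hτ.le
    _ = A' ^ (3 / 2 : ℝ) * ℓ ^ (3 / 2 : ℝ) * (τ * τ ^ (-(3 / 2) : ℝ)) := by ring
    _ ≤ A' ^ (3 / 2 : ℝ) * (C₂ * τ ^ (-(1 / 4) : ℝ)) * τ ^ (-(1 / 2) : ℝ) := by
        rw [h5]
        refine mul_le_mul_of_nonneg_right ?_ (Real.rpow_nonneg hτ.le _)
        exact mul_le_mul_of_nonneg_left (h4.trans hℓ2) hA0
    _ = A' ^ (3 / 2 : ℝ) * C₂ * (τ ^ (-(1 / 4) : ℝ) * τ ^ (-(1 / 2) : ℝ)) := by ring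
    _ ≤ A' ^ (3 / 2 : ℝ) * C₂ * (τ₁ ^ (19 / 20 : ℝ) * τ ^ (-(19 / 20) : ℝ)) := by
        rw [h6]
        exact mul_le_mul_of_nonneg_left h7 (mul_nonneg hA0 hC₂)
    _ = _ := by ring

end coefs

/-- The sum of differences of powers. -/
theorem src_le {θ θ' D δ : ℝ} (h0 : 0 ≤ θ) (h0' : 0 ≤ θ') (hD : 1 ≤ D) (hη : θ ^ 2 * D ≤ 1)
    (hη' : θ' ^ 2 * D ≤ 1) (hδ : δ = |θ - θ'|) (R : ℕ) :
    ∑ r ∈ Finset.Ioc 0 R, ((θ ^ r - θ' ^ r) ^ 2 * D ^ r) ≤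
      4 * D ^ (1 / 4 : ℝ) * δ ^ (1 / 2 : ℝ) * (R : ℝ) ^ (3 / 2 : ℝ) := by
  have hD0 : 0 < D := by linarith
  have hδ0 : 0 ≤ δ := by rw [hδ]; exact abs_nonneg _
  have hR0 : (0 : ℝ) ≤ R := by positivity
  -- a single term
  have hterm : ∀ r ∈ Finset.Ioc 0 R, (θ ^ r - θ' ^ r) ^ 2 * D ^ r ≤
      4 * (D ^ (1 / 4 : ℝ) * δ ^ (1 / 2 : ℝ) * (R : ℝ) ^ (1 / 2 : ℝ)) := by
    intro r hr
    obtain ⟨hr0, hrR⟩ := Finset.mem_Ioc.mp hr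
    have hrR' : (r : ℝ) ≤ R := by exact_mod_cast hrR
    have hr0' : (0 : ℝ) ≤ r := by positivity
    have hpw : ∀ x : ℝ, x ^ 2 * D ≤ 1 → (x ^ r) ^ 2 * D ^ r ≤ 1 := by
      intro x hx
      have e : (x ^ r) ^ 2 * D ^ r = (x ^ 2 * D) ^ r := by
        rw [mul_pow, ← pow_mul, ← pow_mul, mul_comm r 2]
      rw [e]
      exact pow_le_one₀ (by positivity) hx
    have h1 : (θ ^ r - θ' ^ r) ^ 2 * D ^ r ≤ 4 := by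
      have h2 := hpw θ hη
      have h3 := hpw θ' hη'
      have h4 : (θ ^ r - θ' ^ r) ^ 2 ≤ 2 * (θ ^ r) ^ 2 + 2 * (θ' ^ r) ^ 2 := by
        nlinarith [sq_nonneg (θ ^ r + θ' ^ r)]
      have h5 : (0 : ℝ) < D ^ r := pow_pos hD0 r
      nlinarith [mul_le_mul_of_nonneg_right h4 h5.le]
    have h2 : (θ ^ r - θ' ^ r) ^ 2 * D ^ r ≤ (r : ℝ) ^ 2 * δ ^ 2 * D := by
      have h3 := abs_pow_sub_pow_le θ θ' r
      rw [← hδ, abs_of_nonneg h0, abs_of_nonneg h0'] at h3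
      set M := max θ θ' with hM
      have hM0 : 0 ≤ M := le_max_of_le_left h0
      have hMD : M ^ 2 * D ≤ 1 := by
        rcases le_total θ θ' with h | h
        · rw [hM, max_eq_right h]; exact hη'
        · rw [hM, max_eq_left h]; exact hη
      have h4 : (θ ^ r - θ' ^ r) ^ 2 ≤ (δ * r * M ^ (r - 1)) ^ 2 := by
        rw [← sq_abs]
        exact pow_le_pow_left₀ (abs_nonneg _) h3 2
      have h5 : (M ^ (r - 1)) ^ 2 * D ^ (r - 1) ≤ 1 := by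
        have e : (M ^ (r - 1)) ^ 2 * D ^ (r - 1) = (M ^ 2 * D) ^ (r - 1) := by
          rw [mul_pow, ← pow_mul, ← pow_mul, mul_comm (r - 1) 2]
        rw [e]
        exact pow_le_one₀ (by positivity) hMD
      have e2 : D ^ r = D ^ (r - 1) * D := by
        rw [← pow_succ]
        congr 1
        omega
      calc (θ ^ r - θ' ^ r) ^ 2 * D ^ r ≤ (δ * r * M ^ (r - 1)) ^ 2 * D ^ r :=
            mul_le_mul_of_nonneg_right h4 (by positivity)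
        _ = (r : ℝ) ^ 2 * δ ^ 2 * D * ((M ^ (r - 1)) ^ 2 * D ^ (r - 1)) := by
            rw [e2]
            ring
        _ ≤ (r : ℝ) ^ 2 * δ ^ 2 * D * 1 :=
            mul_le_mul_of_nonneg_left h5 (by positivity)
        _ = _ := by ring
    have hx0 : 0 ≤ (R : ℝ) ^ 2 * δ ^ 2 * D := by positivity
    have h3 : (θ ^ r - θ' ^ r) ^ 2 * D ^ r ≤ (R : ℝ) ^ 2 * δ ^ 2 * D := by
      refine h2.trans ?_
      refine mul_le_mul_of_nonneg_right ?_ hD0.le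
      refine mul_le_mul_of_nonneg_right ?_ (sq_nonneg _)
      exact pow_le_pow_left₀ hr0' hrR' 2
    have h4 : (θ ^ r - θ' ^ r) ^ 2 * D ^ r ≤ 4 * min 1 ((R : ℝ) ^ 2 * δ ^ 2 * D) := by
      rcases le_total 1 ((R : ℝ) ^ 2 * δ ^ 2 * D) with h | h
      · rw [min_eq_left h]
        linarith
      · rw [min_eq_right h]
        have h5 : 0 ≤ (θ ^ r - θ' ^ r) ^ 2 * D ^ r := by positivity
        linarith
    refine h4.trans ?_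
    refine mul_le_mul_of_nonneg_left ?_ (by norm_num)
    refine (min_one_le_rpow hx0 (by norm_num : (0 : ℝ) ≤ 1 / 4) (by norm_num)).trans (le_of_eq ?_)
    rw [Real.mul_rpow (by positivity) hD0.le, Real.mul_rpow (by positivity) (by positivity)]
    have e1 : ((R : ℝ) ^ 2) ^ (1 / 4 : ℝ) = (R : ℝ) ^ (1 / 2 : ℝ) := by
      rw [← Real.rpow_natCast, ← Real.rpow_mul hR0]
      norm_num
    have e2 : (δ ^ 2) ^ (1 / 4 : ℝ) = δ ^ (1 / 2 : ℝ) := by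
      rw [← Real.rpow_natCast, ← Real.rpow_mul hδ0]
      norm_num
    rw [e1, e2]
    ring
  calc _ ≤ ∑ r ∈ Finset.Ioc 0 R, 4 * (D ^ (1 / 4 : ℝ) * δ ^ (1 / 2 : ℝ) * (R : ℝ) ^ (1 / 2 : ℝ)) :=
        Finset.sum_le_sum hterm
    _ = (R : ℝ) * (4 * (D ^ (1 / 4 : ℝ) * δ ^ (1 / 2 : ℝ) * (R : ℝ) ^ (1 / 2 : ℝ))) := by
        simp
    _ = _ := by
        rcases Nat.eq_zero_or_pos R with rfl | hR
        · simp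
        · have hR1 : (0 : ℝ) < R := by exact_mod_cast hR
          have e : (R : ℝ) ^ (3 / 2 : ℝ) = (R : ℝ) * (R : ℝ) ^ (1 / 2 : ℝ) := by
            nth_rw 2 [← Real.rpow_one (R : ℝ)]
            rw [← Real.rpow_add hR1]
            norm_num
          rw [e]
          ring

end Crest.Agent.Lib.IsingFIID
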