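/-
Row 160 (S0241), Task E3: the moment bound, abstract form (BLUEPRINT §6, E3).
`moment_core` is the closed inequality `y^P ≤ (y+K')^{P-1} B` on a probability space.
-/
import Crest.Agent.Lib.IsingFIID.Basic

set_option autoImplicit false

namespace Crest.Agent.Lib.IsingFIID.Mom

open MeasureTheory Filter Topology Set

variable {Ω : Type*} [MeasurableSpace Ω] {μ : Measure Ω} [IsProbabilityMeasure μ]

/-- Minkowski with a constant. -/
theorem lp_add_const_le {f : Ω → ℝ} {c B : ℝ} (hf : Measurable f) (hf0 : ∀ ω, 0 ≤ f ω)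
    (hfb : ∀ ω, f ω ≤ B) (hc : 0 ≤ c) {P : ℕ} (hP : 1 ≤ P) :
    (∫ ω, (f ω + c) ^ P ∂μ) ^ (1 / (P : ℝ)) ≤ (∫ ω, f ω ^ P ∂μ) ^ (1 / (P : ℝ)) + c := by
  have hP0 : (P : ENNReal) ≠ 0 := by
    have : P ≠ 0 := by omega
    exact_mod_cast this
  have hPt : (P : ENNReal) ≠ ⊤ := ENNReal.natCast_ne_top P
  have hP1 : (1 : ENNReal) ≤ (P : ENNReal) := by exact_mod_cast hP
  have hPr : ((P : ENNReal)).toReal = (P : ℝ) := ENNReal.toReal_natCast P
  have hPr0 : (0 : ℝ) < (P : ℝ) := by exact_mod_cast (show 0 < P by omega)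
  have hfM : MemLp f (P : ENNReal) μ := by
    refine MemLp.of_bound hf.aestronglyMeasurable B (ae_of_all _ fun ω => ?_)
    rw [Real.norm_of_nonneg (hf0 ω)]
    exact hfb ω
  have hgM : MemLp (fun _ : Ω => c) (P : ENNReal) μ := memLp_const c
  have hfg : MemLp (fun ω => f ω + c) (P : ENNReal) μ := hfM.add hgM
  have h := eLpNorm_add_le hf.aestronglyMeasurable (aestronglyMeasurable_const (b := c)) hP1 (μ := μ)
  have e1 : eLpNorm (f + fun _ => c) (P : ENNReal) μ =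
      ENNReal.ofReal ((∫ ω, (f ω + c) ^ P ∂μ) ^ (1 / (P : ℝ))) := by
    have := MemLp.eLpNorm_eq_integral_rpow_norm hP0 hPt hfg
    simp only [hPr] at this
    have h' : eLpNorm (f + fun _ => c) (P : ENNReal) μ = eLpNorm (fun ω => f ω + c) (P : ENNReal) μ := rfl
    rw [h', this, one_div]
    congr 3
    funext ω
    rw [Real.norm_of_nonneg (add_nonneg (hf0 ω) hc), Real.rpow_natCast]
  have e2 : eLpNorm f (P : ENNReal) μ = ENNReal.ofReal ((∫ ω, f ω ^ P ∂μ) ^ (1 / (P : ℝ))) := by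
    have := MemLp.eLpNorm_eq_integral_rpow_norm hP0 hPt hfM
    simp only [hPr] at this
    rw [this, one_div]
    congr 3
    funext ω
    rw [Real.norm_of_nonneg (hf0 ω), Real.rpow_natCast]
  have e3 : eLpNorm (fun _ : Ω => c) (P : ENNReal) μ = ENNReal.ofReal c := by
    rw [eLpNorm_const _ hP0 (IsProbabilityMeasure.ne_zero μ)]
    simp [Real.enorm_eq_ofReal hc]
  rw [e1, e2, e3, ← ENNReal.ofReal_add (Real.rpow_nonneg (integral_nonneg fun ω => pow_nonneg (hf0 ω) P) _) hc] at h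
  exact (ENNReal.ofReal_le_ofReal_iff (add_nonneg
    (Real.rpow_nonneg (integral_nonneg fun ω => pow_nonneg (hf0 ω) P) _) hc)).1 h

/-- Hölder for the moment integrand. -/
theorem holder_moment {f R : Ω → ℝ} {B C : ℝ} (hf : Measurable f) (hf0 : ∀ ω, 0 ≤ f ω)
    (hfb : ∀ ω, f ω ≤ B) (hR : Measurable R) (hR0 : ∀ ω, 0 ≤ R ω) (hRb : ∀ ω, R ω ≤ C)
    {P : ℕ} (hP : 1 ≤ P) :
    ∫ ω, f ω ^ (P - 1) * R ω ∂μ ≤
      ((∫ ω, f ω ^ P ∂μ) ^ (1 / (P : ℝ))) ^ (P - 1) * lpN μ R P := by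
  have hPr0 : (0 : ℝ) < (P : ℝ) := by exact_mod_cast (show 0 < P by omega)
  have hlp : lpN μ R P = (∫ ω, R ω ^ P ∂μ) ^ (1 / (P : ℝ)) := by
    unfold lpN
    congr 2
    funext ω
    rw [abs_of_nonneg (hR0 ω), Real.rpow_natCast]
  rcases Nat.lt_or_ge P 2 with h2 | h2
  · -- `P = 1`
    have hP1 : P = 1 := by omega
    subst hP1
    rw [hlp]
    simp
  · -- Hölder with exponents `P/(P-1)` and `P`
    have hPr1 : (1 : ℝ) < (P : ℝ) := by exact_mod_cast (show 1 < P by omega)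
    have hconj : ((P : ℝ) / ((P : ℝ) - 1)).HolderConjugate (P : ℝ) := by
      have := (Real.HolderConjugate.conjExponent hPr1)
      exact this.symm
    have hq : (P : ℝ) / ((P : ℝ) - 1) > 0 := div_pos hPr0 (by linarith)
    have hcast : ((P - 1 : ℕ) : ℝ) = (P : ℝ) - 1 := by
      rw [Nat.cast_sub hP]; simp
    have hMf : MemLp (fun ω => f ω ^ (P - 1)) (ENNReal.ofReal ((P : ℝ) / ((P : ℝ) - 1))) μ := by
      refine MemLp.of_bound (hf.pow_const _).aestronglyMeasurable (B ^ (P - 1)) (ae_of_all _ fun ω => ?_)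
      rw [Real.norm_of_nonneg (pow_nonneg (hf0 ω) _)]
      exact pow_le_pow_left₀ (hf0 ω) (hfb ω) _
    have hMR : MemLp R (ENNReal.ofReal (P : ℝ)) μ := by
      refine MemLp.of_bound hR.aestronglyMeasurable C (ae_of_all _ fun ω => ?_)
      rw [Real.norm_of_nonneg (hR0 ω)]
      exact hRb ω
    have key := integral_mul_le_Lp_mul_Lq_of_nonneg (μ := μ) hconj
      (ae_of_all _ fun ω => pow_nonneg (hf0 ω) (P - 1)) (ae_of_all _ hR0) hMf hMR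
    have e1 : ∀ ω, (f ω ^ (P - 1)) ^ ((P : ℝ) / ((P : ℝ) - 1)) = f ω ^ P := by
      intro ω
      rw [← Real.rpow_natCast (f ω) (P - 1), ← Real.rpow_mul (hf0 ω), hcast,
        mul_div_cancel₀ _ (by linarith : (P : ℝ) - 1 ≠ 0), Real.rpow_natCast]
    have e2 : ∀ ω, R ω ^ (P : ℝ) = R ω ^ P := fun ω => Real.rpow_natCast _ _
    simp only [e1, e2] at key
    rw [hlp]
    refine key.trans (le_of_eq ?_)
    congr 1
    have hI0 : 0 ≤ ∫ ω, f ω ^ P ∂μ := integral_nonneg fun ω => pow_nonneg (hf0 ω) P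
    rw [← Real.rpow_natCast ((∫ ω, f ω ^ P ∂μ) ^ (1 / (P : ℝ))) (P - 1), ← Real.rpow_mul hI0, hcast]
    congr 1
    field_simp

/-- The closed inequality: from the increment inequality and monotonicity in time of the moments,
the `P`-norm of `m²` at time `τ` is bounded by `max (e K P² A τ) (K P² k(τ))`. -/
theorem moment_core (m R : ℝ → Ω → ℝ) (k : ℝ → ℝ) {K A τ : ℝ} {P : ℕ} (hP : 1 ≤ P) (hK : 0 < K)
    (hτ : 0 < τ) (hA : 0 ≤ A)
    (hm : ∀ s ∈ Ioc 0 τ, Measurable (m s)) (hm1 : ∀ s ω, |m s ω| ≤ 1)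
    (hRm : ∀ s ∈ Ioc 0 τ, Measurable (R s)) (hR0 : ∀ s ∈ Ioc 0 τ, ∀ ω, 0 ≤ R s ω)
    (hRb : ∀ s ∈ Ioc 0 τ, ∃ C, ∀ ω, R s ω ≤ C)
    (hk0 : ∀ s, 0 ≤ k s) (hkm : ∀ s ∈ Ioc 0 τ, k s ≤ k τ)
    (hinc : ∫ ω, m τ ω ^ (2 * P) ∂μ ≤
      ∫ s in (0 : ℝ)..τ, K * P ^ 2 * k s * ∫ ω, (m s ω ^ 2 + K * P * k s) ^ (P - 1) * R s ω ∂μ)
    (hmono : ∀ s ∈ Ioc 0 τ, ∫ ω, m s ω ^ (2 * P) ∂μ ≤ ∫ ω, m τ ω ^ (2 * P) ∂μ)
    (hR : ∀ s ∈ Ioc 0 τ, k s * lpN μ (R s) P ≤ A) :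
    (∫ ω, m τ ω ^ (2 * P) ∂μ) ^ (1 / (P : ℝ)) ≤
      max (Real.exp 1 * (K * P ^ 2 * A * τ)) (K * P ^ 2 * k τ) := by
  have hPr0 : (0 : ℝ) < (P : ℝ) := by exact_mod_cast (show 0 < P by omega)
  have hPne : (P : ℝ) ≠ 0 := hPr0.ne'
  set I : ℝ := ∫ ω, m τ ω ^ (2 * P) ∂μ with hIdef
  have hI0 : 0 ≤ I := integral_nonneg fun ω => by
    rw [pow_mul]; exact pow_nonneg (sq_nonneg _) _
  set y : ℝ := I ^ (1 / (P : ℝ)) with hy
  have hy0 : 0 ≤ y := Real.rpow_nonneg hI0 _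
  have hyP : y ^ P = I := by
    rw [hy, ← Real.rpow_natCast, ← Real.rpow_mul hI0]
    rw [one_div_mul_cancel hPne, Real.rpow_one]
  set K' : ℝ := K * P * k τ with hK'
  have hK'0 : 0 ≤ K' := mul_nonneg (mul_nonneg hK.le hPr0.le) (hk0 τ)
  -- pointwise-in-`s` bound
  have hs : ∀ s ∈ Ioc 0 τ,
      K * P ^ 2 * k s * ∫ ω, (m s ω ^ 2 + K * P * k s) ^ (P - 1) * R s ω ∂μ ≤
        K * P ^ 2 * A * (y + K') ^ (P - 1) := by
    intro s hsm
    obtain ⟨C, hC⟩ := hRb s hsm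
    have hc0 : 0 ≤ K * P * k s := mul_nonneg (mul_nonneg hK.le hPr0.le) (hk0 s)
    set f : Ω → ℝ := fun ω => m s ω ^ 2 + K * P * k s with hf
    have hfm : Measurable f := ((hm s hsm).pow_const 2).add_const _
    have hf0 : ∀ ω, 0 ≤ f ω := fun ω => add_nonneg (sq_nonneg _) hc0
    have hm2 : ∀ ω, m s ω ^ 2 ≤ 1 := fun ω => by
      have := hm1 s ω
      nlinarith [abs_nonneg (m s ω), sq_abs (m s ω)]
    have hfb : ∀ ω, f ω ≤ 1 + K * P * k s := fun ω => by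
      simp only [hf]; linarith [hm2 ω]
    have h1 := holder_moment (μ := μ) hfm hf0 hfb (hRm s hsm) (hR0 s hsm) hC hP
    -- Minkowski
    have hmin : (∫ ω, f ω ^ P ∂μ) ^ (1 / (P : ℝ)) ≤
        (∫ ω, (m s ω ^ 2) ^ P ∂μ) ^ (1 / (P : ℝ)) + K * P * k s :=
      lp_add_const_le (μ := μ) ((hm s hsm).pow_const 2) (fun ω => sq_nonneg _) hm2 hc0 hP
    have hmy : (∫ ω, (m s ω ^ 2) ^ P ∂μ) ^ (1 / (P : ℝ)) ≤ y := by
      have he : ∀ ω, (m s ω ^ 2) ^ P = m s ω ^ (2 * P) := fun ω => (pow_mul _ _ _).symm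
      simp only [he]
      exact Real.rpow_le_rpow (integral_nonneg fun ω => by
        rw [pow_mul]; exact pow_nonneg (sq_nonneg _) _) (hmono s hsm) (by positivity)
    have hc' : K * P * k s ≤ K' := mul_le_mul_of_nonneg_left (hkm s hsm) (mul_nonneg hK.le hPr0.le)
    have h2 : (∫ ω, f ω ^ P ∂μ) ^ (1 / (P : ℝ)) ≤ y + K' := by linarith
    have hbase0 : 0 ≤ (∫ ω, f ω ^ P ∂μ) ^ (1 / (P : ℝ)) :=
      Real.rpow_nonneg (integral_nonneg fun ω => pow_nonneg (hf0 ω) P) _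
    have h3 : ((∫ ω, f ω ^ P ∂μ) ^ (1 / (P : ℝ))) ^ (P - 1) ≤ (y + K') ^ (P - 1) :=
      pow_le_pow_left₀ hbase0 h2 _
    have hlp0 : 0 ≤ lpN μ (R s) P := by
      unfold lpN
      exact Real.rpow_nonneg (integral_nonneg fun ω => Real.rpow_nonneg (abs_nonneg _) _) _
    have h4 : ∫ ω, f ω ^ (P - 1) * R s ω ∂μ ≤ (y + K') ^ (P - 1) * lpN μ (R s) P :=
      h1.trans (mul_le_mul_of_nonneg_right h3 hlp0)
    have hyK : 0 ≤ (y + K') ^ (P - 1) := pow_nonneg (add_nonneg hy0 hK'0) _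
    have hKP : 0 ≤ K * (P : ℝ) ^ 2 := by positivity
    calc K * (P : ℝ) ^ 2 * k s * ∫ ω, f ω ^ (P - 1) * R s ω ∂μ
        ≤ K * (P : ℝ) ^ 2 * k s * ((y + K') ^ (P - 1) * lpN μ (R s) P) :=
          mul_le_mul_of_nonneg_left h4 (mul_nonneg hKP (hk0 s))
      _ = K * (P : ℝ) ^ 2 * (y + K') ^ (P - 1) * (k s * lpN μ (R s) P) := by ring
      _ ≤ K * (P : ℝ) ^ 2 * (y + K') ^ (P - 1) * A :=
          mul_le_mul_of_nonneg_left (hR s hsm) (mul_nonneg hKP hyK)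
      _ = K * (P : ℝ) ^ 2 * A * (y + K') ^ (P - 1) := by ring
  -- integrate
  have hnn : ∀ s, 0 ≤ K * P ^ 2 * k s * ∫ ω, (m s ω ^ 2 + K * P * k s) ^ (P - 1) * R s ω ∂μ ∨
      s ∉ Ioc 0 τ := by
    intro s
    by_cases hsm : s ∈ Ioc 0 τ
    · left
      refine mul_nonneg (mul_nonneg (by positivity) (hk0 s)) (integral_nonneg fun ω => ?_)
      have hc0 : 0 ≤ K * P * k s := mul_nonneg (mul_nonneg hK.le hPr0.le) (hk0 s)
      exact mul_nonneg (pow_nonneg (add_nonneg (sq_nonneg _) hc0) _) (hR0 s hsm ω)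
    · right; exact hsm
  have hint : ∫ s in (0 : ℝ)..τ, K * P ^ 2 * k s *
        ∫ ω, (m s ω ^ 2 + K * P * k s) ^ (P - 1) * R s ω ∂μ ≤
      (K * P ^ 2 * A * (y + K') ^ (P - 1)) * τ := by
    rw [intervalIntegral.integral_of_le hτ.le]
    have hconst : ∫ _ in Ioc 0 τ, (K * (P : ℝ) ^ 2 * A * (y + K') ^ (P - 1)) =
        (K * P ^ 2 * A * (y + K') ^ (P - 1)) * τ := by
      rw [setIntegral_const]
      simp [hτ.le, smul_eq_mul, mul_comm]
    rw [← hconst]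
    refine integral_mono_of_nonneg ?_ (integrable_const _) ?_
    · refine (ae_restrict_iff' measurableSet_Ioc).2 (ae_of_all _ fun s hsm => ?_)
      exact (hnn s).resolve_right (not_not.2 hsm)
    · exact (ae_restrict_iff' measurableSet_Ioc).2 (ae_of_all _ fun s hsm => hs s hsm)
  have hmain : y ^ P ≤ (K * P ^ 2 * A * τ) * (y + K') ^ (P - 1) := by
    rw [hyP]
    calc I ≤ _ := hinc
      _ ≤ _ := hint
      _ = _ := by ring
  -- dichotomy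
  by_cases hcase : (P : ℝ) * K' ≤ y
  · -- `y ≥ P K'`: then `(y+K')^{P-1} ≤ e y^{P-1}`
    refine le_max_of_le_left ?_
    rcases hy0.eq_or_lt with hy00 | hypos
    · rw [← hy00]
      have : 0 ≤ Real.exp 1 * (K * (P : ℝ) ^ 2 * A * τ) := by positivity
      exact this
    have hle1 : y + K' ≤ y * (1 + 1 / (P : ℝ)) := by
      have : K' ≤ y / P := by
        rw [le_div_iff₀ hPr0]; linarith
      have h' : y * (1 + 1 / (P : ℝ)) = y + y / P := by field_simp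
      rw [h']; linarith
    have hpow1 : (1 + 1 / (P : ℝ)) ^ (P - 1) ≤ Real.exp 1 := by
      have h1 : 1 + 1 / (P : ℝ) ≤ Real.exp (1 / (P : ℝ)) := by
        have := Real.add_one_le_exp (1 / (P : ℝ))
        linarith
      have h2 : (1 + 1 / (P : ℝ)) ^ (P - 1) ≤ Real.exp (1 / (P : ℝ)) ^ (P - 1) :=
        pow_le_pow_left₀ (by positivity) h1 _
      refine h2.trans ?_
      rw [← Real.exp_nat_mul]
      apply Real.exp_le_exp.2
      have hcast : ((P - 1 : ℕ) : ℝ) = (P : ℝ) - 1 := by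
        rw [Nat.cast_sub hP]; simp
      rw [hcast]
      have : ((P : ℝ) - 1) * (1 / (P : ℝ)) = 1 - 1 / (P : ℝ) := by field_simp
      rw [this]
      have : 0 < 1 / (P : ℝ) := by positivity
      linarith
    have hpow2 : (y + K') ^ (P - 1) ≤ y ^ (P - 1) * Real.exp 1 := by
      calc (y + K') ^ (P - 1) ≤ (y * (1 + 1 / (P : ℝ))) ^ (P - 1) :=
            pow_le_pow_left₀ (add_nonneg hy0 hK'0) hle1 _
        _ = y ^ (P - 1) * (1 + 1 / (P : ℝ)) ^ (P - 1) := mul_pow _ _ _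
        _ ≤ y ^ (P - 1) * Real.exp 1 :=
            mul_le_mul_of_nonneg_left hpow1 (pow_nonneg hy0 _)
    have hB0 : 0 ≤ K * (P : ℝ) ^ 2 * A * τ := by positivity
    have hchain : y ^ P ≤ (K * P ^ 2 * A * τ) * (y ^ (P - 1) * Real.exp 1) :=
      hmain.trans (mul_le_mul_of_nonneg_left hpow2 hB0)
    have hsplit : y ^ P = y * y ^ (P - 1) := by
      rw [← pow_succ']
      congr 1
      omega
    rw [hsplit] at hchain
    have hpos : 0 < y ^ (P - 1) := pow_pos hypos _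
    have : y * y ^ (P - 1) ≤ (Real.exp 1 * (K * P ^ 2 * A * τ)) * y ^ (P - 1) := by
      calc y * y ^ (P - 1) ≤ _ := hchain
        _ = _ := by ring
    exact le_of_mul_le_mul_right this hpos
  · refine le_max_of_le_right ?_
    have hcase := not_le.1 hcase
    have : (P : ℝ) * K' = K * P ^ 2 * k τ := by rw [hK']; ring
    rw [← this]
    exact hcase.le

/-! ### The row sum: boundedness and measurability -/

open SimpleGraph

variable {V : Type*} [DecidableEq V] {G : SimpleGraph V} [G.LocallyFinite] {d : ℕ}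

/-- Each slope is at most `θ`, hence the path covariance is at most `θ^r`. -/
theorem abs_pathCov_le {θ : ℝ} (h0 : 0 ≤ θ)
    (hu : ∀ a b : ℝ, |a| ≤ 1 → |b| ≤ 1 → 0 ≤ uOf θ a b ∧ uOf θ a b ≤ 1)
    {m : V → ℝ} (hm : ∀ u, |m u| ≤ 1) (x : ℕ → V) (r : ℕ) : |pathCov θ m x r| ≤ θ ^ r := by
  unfold pathCov
  rw [abs_mul, Finset.abs_prod]
  have h1 : |1 - m (x 0) ^ 2| ≤ 1 := by
    have h := hm (x 0)
    have h2 : m (x 0) ^ 2 ≤ 1 := by nlinarith [abs_nonneg (m (x 0)), sq_abs (m (x 0))]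
    rw [abs_of_nonneg (by linarith)]
    nlinarith [sq_nonneg (m (x 0))]
  have h2 : ∏ i ∈ Finset.range r, |slopeOf θ (m (x i)) (m (x (i + 1)))| ≤ θ ^ r := by
    have : ∏ i ∈ Finset.range r, |slopeOf θ (m (x i)) (m (x (i + 1)))| ≤
        ∏ _i ∈ Finset.range r, θ := by
      refine Finset.prod_le_prod (fun _ _ => abs_nonneg _) fun i _ => ?_
      unfold slopeOf
      obtain ⟨hu0, hu1⟩ := hu _ _ (hm (x i)) (hm (x (i + 1)))
      rw [abs_of_nonneg (mul_nonneg h0 hu0)]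
      nlinarith
    simpa using this
  calc _ ≤ 1 * θ ^ r := mul_le_mul h1 h2 (Finset.prod_nonneg fun _ _ => abs_nonneg _) zero_le_one
    _ = θ ^ r := one_mul _

open Classical in
/-- A sphere has at most `(D+2) D^r` points. -/
theorem card_sphere_le (hG : Tree G d) (v : V) (r : ℕ) :
    ((sphere G v r).card : ℝ) ≤ ((d : ℝ) + 1) * ((d : ℝ) - 1) ^ r := by
  have h1 : (sphere G v r).card ≤ (ball G v r).card := Finset.card_filter_le _ _
  have h2 := card_ball_le hG.tree hG.reg hG.hd v r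
  have hd : 1 ≤ d := by have := hG.hd; omega
  have h3 : ((ball G v r).card : ℝ) ≤ ((d : ℝ) + 1) * ((d : ℝ) - 1) ^ r := by
    have : (((d + 1) * (d - 1) ^ r : ℕ) : ℝ) = ((d : ℝ) + 1) * ((d : ℝ) - 1) ^ r := by
      push_cast [Nat.cast_sub hd]
      ring
    rw [← this]
    exact_mod_cast h2
  exact (by exact_mod_cast h1 : ((sphere G v r).card : ℝ) ≤ (ball G v r).card).trans h3

/-- Terms of the row sum are dominated by a geometric series. -/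
theorem rowSum_term_le (hG : Tree G d) {θ : ℝ} (h0 : 0 ≤ θ)
    (hu : ∀ a b : ℝ, |a| ≤ 1 → |b| ≤ 1 → 0 ≤ uOf θ a b ∧ uOf θ a b ≤ 1) {κ : ℝ → ℝ}
    (hm1 : ∀ ω τ u, |mInf G θ κ ω τ u| ≤ 1) (ω : Om V) (τ : ℝ) (v : V) (r : ℕ) :
    ∑ y ∈ sphere G v r, covI G θ κ ω τ v y ^ 2 ≤ ((d : ℝ) + 1) * (θ ^ 2 * ((d : ℝ) - 1)) ^ r := by
  classical
  have hd : (1 : ℝ) ≤ (d : ℝ) := by
    have := hG.hd
    exact_mod_cast (show 1 ≤ d by omega)
  have hterm : ∀ y ∈ sphere G v r, covI G θ κ ω τ v y ^ 2 ≤ (θ ^ r) ^ 2 := by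
    intro y hy
    have hdist : G.dist v y = r := by
      have := Finset.mem_filter.1 hy
      exact this.2
    have h1 : |covI G θ κ ω τ v y| ≤ θ ^ r := by
      unfold covI
      rw [hdist]
      exact abs_pathCov_le h0 hu (fun u => hm1 ω τ u) _ r
    exact (sq_abs _).symm.le.trans (pow_le_pow_left₀ (abs_nonneg _) h1 2)
  have h2 := Finset.sum_le_card_nsmul (sphere G v r) _ _ hterm
  rw [nsmul_eq_mul] at h2
  refine h2.trans ?_
  have h3 := card_sphere_le hG v r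
  have hθr : 0 ≤ (θ ^ r) ^ 2 := sq_nonneg _
  calc ((sphere G v r).card : ℝ) * (θ ^ r) ^ 2
      ≤ (((d : ℝ) + 1) * ((d : ℝ) - 1) ^ r) * (θ ^ r) ^ 2 := mul_le_mul_of_nonneg_right h3 hθr
    _ = ((d : ℝ) + 1) * (θ ^ 2 * ((d : ℝ) - 1)) ^ r := by
      rw [mul_pow, ← pow_mul, ← pow_mul, mul_comm r 2]
      ring

/-- The row sum is summable. -/
theorem summable_rowSum (hG : Tree G d) {θ : ℝ} (h0 : 0 ≤ θ) (hθ : θ ^ 2 * ((d : ℝ) - 1) < 1)
    (hu : ∀ a b : ℝ, |a| ≤ 1 → |b| ≤ 1 → 0 ≤ uOf θ a b ∧ uOf θ a b ≤ 1) {κ : ℝ → ℝ}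
    (hm1 : ∀ ω τ u, |mInf G θ κ ω τ u| ≤ 1) (ω : Om V) (τ : ℝ) (v : V) :
    Summable fun r => ∑ y ∈ sphere G v r, covI G θ κ ω τ v y ^ 2 := by
  have hd : (1 : ℝ) ≤ (d : ℝ) := by
    have := hG.hd
    exact_mod_cast (show 1 ≤ d by omega)
  have hq0 : 0 ≤ θ ^ 2 * ((d : ℝ) - 1) := mul_nonneg (sq_nonneg _) (by linarith)
  refine Summable.of_nonneg_of_le (fun r => Finset.sum_nonneg fun y _ => sq_nonneg _)
    (fun r => rowSum_term_le hG h0 hu hm1 ω τ v r)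
    ((summable_geometric_of_lt_one hq0 hθ).mul_left _)

/-- The row sum is bounded. -/
theorem rowSum_le (hG : Tree G d) {θ : ℝ} (h0 : 0 ≤ θ) (hθ : θ ^ 2 * ((d : ℝ) - 1) < 1)
    (hu : ∀ a b : ℝ, |a| ≤ 1 → |b| ≤ 1 → 0 ≤ uOf θ a b ∧ uOf θ a b ≤ 1) {κ : ℝ → ℝ}
    (hm1 : ∀ ω τ u, |mInf G θ κ ω τ u| ≤ 1) (ω : Om V) (τ : ℝ) (v : V) :
    rowSum G θ κ ω τ v ≤ ((d : ℝ) + 1) * (1 - θ ^ 2 * ((d : ℝ) - 1))⁻¹ := by
  have hd : (1 : ℝ) ≤ (d : ℝ) := by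
    have := hG.hd
    exact_mod_cast (show 1 ≤ d by omega)
  have hq0 : 0 ≤ θ ^ 2 * ((d : ℝ) - 1) := mul_nonneg (sq_nonneg _) (by linarith)
  unfold rowSum
  have hsum := summable_rowSum hG h0 hθ hu hm1 ω τ v
  have hg := (hasSum_geometric_of_lt_one hq0 hθ).mul_left ((d : ℝ) + 1)
  exact hasSum_le (fun r => rowSum_term_le hG h0 hu hm1 ω τ v r) hsum.hasSum hg

theorem rowSum_nonneg {θ : ℝ} {κ : ℝ → ℝ} (ω : Om V) (τ : ℝ) (v : V) :
    0 ≤ rowSum G θ κ ω τ v :=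
  tsum_nonneg fun _ => Finset.sum_nonneg fun _ _ => sq_nonneg _

theorem measurable_nuOf (θ : ℝ) : Measurable fun p : ℝ × ℝ => nuOf θ p.1 p.2 := by
  unfold nuOf
  fun_prop

theorem measurable_uOf (θ : ℝ) : Measurable fun p : ℝ × ℝ => uOf θ p.1 p.2 := by
  unfold uOf uFun
  have := measurable_nuOf θ
  fun_prop

theorem measurable_slopeOf (θ : ℝ) : Measurable fun p : ℝ × ℝ => slopeOf θ p.1 p.2 := by
  unfold slopeOf
  have := measurable_uOf θ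
  fun_prop

theorem measurable_pathCov {Ω : Type*} [MeasurableSpace Ω] {θ : ℝ} {m : Ω → V → ℝ}
    (hm : ∀ u, Measurable fun ω => m ω u) (x : ℕ → V) (r : ℕ) :
    Measurable fun ω => pathCov θ (m ω) x r := by
  have key : ∀ i, Measurable fun ω => slopeOf θ (m ω (x i)) (m ω (x (i + 1))) := by
    intro i
    have h : Measurable fun ω => (m ω (x i), m ω (x (i + 1))) :=
      Measurable.prodMk (hm (x i)) (hm (x (i + 1)))
    have h' := Measurable.comp (measurable_slopeOf θ) h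
    exact h'
  have h1 : Measurable fun ω => (1 : ℝ) - m ω (x 0) ^ 2 :=
    measurable_const.sub ((hm (x 0)).pow_const 2)
  have h2 : Measurable fun ω => ∏ i ∈ Finset.range r, slopeOf θ (m ω (x i)) (m ω (x (i + 1))) :=
    Finset.measurable_fun_prod _ fun i _ => key i
  exact h1.mul h2

theorem measurable_covI {θ : ℝ} {κ : ℝ → ℝ} {τ : ℝ}
    (hmeas : ∀ u, Measurable fun ω => mInf G θ κ ω τ u) (v y : V) :
    Measurable fun ω : Om V => covI G θ κ ω τ v y :=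
  measurable_pathCov (m := fun ω u => mInf G θ κ ω τ u) hmeas _ _

/-- The row sum is measurable. -/
theorem measurable_rowSum (hG : Tree G d) {θ : ℝ} (h0 : 0 ≤ θ) (hθ : θ ^ 2 * ((d : ℝ) - 1) < 1)
    (hu : ∀ a b : ℝ, |a| ≤ 1 → |b| ≤ 1 → 0 ≤ uOf θ a b ∧ uOf θ a b ≤ 1) {κ : ℝ → ℝ} {τ : ℝ}
    (hm1 : ∀ ω τ u, |mInf G θ κ ω τ u| ≤ 1)
    (hmeas : ∀ u, Measurable fun ω => mInf G θ κ ω τ u) (v : V) :
    Measurable fun ω : Om V => rowSum G θ κ ω τ v := by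
  have hpart : ∀ n : ℕ, Measurable fun ω : Om V =>
      ∑ r ∈ Finset.range n, ∑ y ∈ sphere G v r, covI G θ κ ω τ v y ^ 2 := fun n =>
    Finset.measurable_sum _ fun _ _ => Finset.measurable_sum _ fun y _ =>
      (measurable_covI hmeas v y).pow_const 2
  refine measurable_of_tendsto_metrizable hpart ?_
  rw [tendsto_pi_nhds]
  intro ω
  exact (summable_rowSum hG h0 hθ hu hm1 ω τ v).hasSum.tendsto_sum_nat

/-! ### The strength `kap` -/

theorem kap_sq_eq {ε s : ℝ} : kap ε s ^ 2 = ε ^ 2 * min (Real.sqrt s) 1 ^ 2 := by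
  unfold kap; ring

theorem kap_sq_le_const {ε s : ℝ} : kap ε s ^ 2 ≤ ε ^ 2 := by
  rw [kap_sq_eq]
  have h1 : 0 ≤ min (Real.sqrt s) 1 := le_min (Real.sqrt_nonneg _) zero_le_one
  have h2 : min (Real.sqrt s) 1 ≤ 1 := min_le_right _ _
  have h3 : min (Real.sqrt s) 1 ^ 2 ≤ 1 := by nlinarith
  nlinarith [sq_nonneg ε]

theorem kap_sq_le_time {ε s : ℝ} (hs : 0 ≤ s) : kap ε s ^ 2 ≤ ε ^ 2 * s := by
  rw [kap_sq_eq]
  have h1 : 0 ≤ min (Real.sqrt s) 1 := le_min (Real.sqrt_nonneg _) zero_le_one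
  have h2 : min (Real.sqrt s) 1 ≤ Real.sqrt s := min_le_left _ _
  have h3 : min (Real.sqrt s) 1 ^ 2 ≤ s := by
    calc min (Real.sqrt s) 1 ^ 2 ≤ Real.sqrt s ^ 2 := pow_le_pow_left₀ h1 h2 2
      _ = s := Real.sq_sqrt hs
  exact mul_le_mul_of_nonneg_left h3 (sq_nonneg ε)

theorem kap_sq_mono {ε s t : ℝ} (hst : s ≤ t) : kap ε s ^ 2 ≤ kap ε t ^ 2 := by
  rw [kap_sq_eq, kap_sq_eq]
  have h1 : 0 ≤ min (Real.sqrt s) 1 := le_min (Real.sqrt_nonneg _) zero_le_one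
  have h2 : min (Real.sqrt s) 1 ≤ min (Real.sqrt t) 1 :=
    min_le_min_right _ (Real.sqrt_le_sqrt hst)
  exact mul_le_mul_of_nonneg_left (pow_le_pow_left₀ h1 h2 2) (sq_nonneg ε)

/-- `moment_bound` from its inputs. -/
theorem moment_bound_of (hG : Tree G d) {ε τ₁ K C₀ : ℝ} (h0 : 0 < ε) (hK : 0 < K) (hC₀ : 0 < C₀)
    (hu : ∀ θ, ThetaRange d θ → ∀ a b : ℝ, |a| ≤ 1 → |b| ≤ 1 → 0 ≤ uOf θ a b ∧ uOf θ a b ≤ 1)
    (hm1 : ∀ θ, ThetaRange d θ → ∀ ω τ u, |mInf G θ (kap ε) ω τ u| ≤ 1)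
    (hmeas : ∀ θ, ThetaRange d θ → ∀ τ u, Measurable fun ω => mInf G θ (kap ε) ω τ u)
    (hinc : ∀ θ, ThetaRange d θ → ∀ τ, 0 ≤ τ → ∀ v, ∀ p : ℕ, 1 ≤ p →
      ∫ ω, mInf G θ (kap ε) ω τ v ^ (2 * p) ∂(PP V) ≤
        ∫ s in (0 : ℝ)..τ, K * p ^ 2 * kap ε s ^ 2 *
          ∫ ω, (mInf G θ (kap ε) ω s v ^ 2 + K * p * kap ε s ^ 2) ^ (p - 1) *
            (∑' r, ∑ y ∈ sphere G v r, covI G θ (kap ε) ω s v y ^ 2) ∂(PP V))
    (hmono : ∀ θ, ThetaRange d θ → ∀ τ₁' τ₂', 0 ≤ τ₁' → τ₁' ≤ τ₂' → ∀ v, ∀ p : ℕ,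
      ∫ ω, mInf G θ (kap ε) ω τ₁' v ^ (2 * p) ∂(PP V) ≤ ∫ ω, mInf G θ (kap ε) ω τ₂' v ^ (2 * p) ∂(PP V))
    (hrow : ∀ θ, ThetaRange d θ → ∀ τ ∈ Ioc 0 τ₁, ∀ v, ∀ P : ℕ, 1 ≤ P →
      lpN (PP V) (fun ω => rowSum G θ (kap ε) ω τ v) P ≤ C₀ * (1 / τ + Real.log (P + 1))) :
    ∃ C : ℝ, 0 < C ∧ ∀ θ, ThetaRange d θ → ∀ τ ∈ Ioc 0 τ₁, ∀ v, ∀ P : ℕ, 1 ≤ P →
      (∫ ω, mInf G θ (kap ε) ω τ v ^ (2 * P) ∂(PP V)) ^ (1 / (P : ℝ)) ≤ C * P ^ 3 * τ := by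
  refine ⟨2 * Real.exp 1 * K * ε ^ 2 * C₀ + K * ε ^ 2 + 1, by positivity, ?_⟩
  intro θ hθ τ hτ v P hP
  have hτ0 : 0 < τ := hτ.1
  have hPr1 : (1 : ℝ) ≤ (P : ℝ) := by exact_mod_cast hP
  have hPr0 : (0 : ℝ) < (P : ℝ) := by linarith
  have hlog0 : 0 ≤ Real.log ((P : ℝ) + 1) := Real.log_nonneg (by linarith)
  have hlogle : Real.log ((P : ℝ) + 1) ≤ P := by
    have := Real.log_le_sub_one_of_pos (show 0 < (P : ℝ) + 1 by linarith)
    linarith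
  set A : ℝ := ε ^ 2 * C₀ * (1 + Real.log ((P : ℝ) + 1)) with hA
  have hA0 : 0 ≤ A := by positivity
  have : IsProbabilityMeasure (PP V) := by
    unfold PP lam Crest.ProbabilityR.Labels.labelMeasure
    infer_instance
  have hcore := moment_core (μ := PP V)
    (fun s ω => mInf G θ (kap ε) ω s v)
    (fun s ω => rowSum G θ (kap ε) ω s v)
    (fun s => kap ε s ^ 2) (K := K) (A := A) (τ := τ) (P := P) hP hK hτ0 hA0
    (fun s _ => hmeas θ hθ s v) (fun s ω => hm1 θ hθ ω s v)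
    (fun s _ => measurable_rowSum hG hθ.1 hθ.2.1 (hu θ hθ) (hm1 θ hθ) (hmeas θ hθ s) v)
    (fun s _ ω => rowSum_nonneg ω s v)
    (fun s _ => ⟨_, fun ω => rowSum_le hG hθ.1 hθ.2.1 (hu θ hθ) (hm1 θ hθ) ω s v⟩)
    (fun s => sq_nonneg _) (fun s hs => kap_sq_mono hs.2)
    (hinc θ hθ τ hτ0.le v P hP)
    (fun s hs => hmono θ hθ s τ hs.1.le hs.2 v P)
    ?_
  · refine hcore.trans (max_le ?_ ?_)
    · have h1 : 1 + Real.log ((P : ℝ) + 1) ≤ 2 * P := by linarith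
      have hP2 : (0 : ℝ) ≤ (P : ℝ) ^ 2 := by positivity
      have e0 : 0 ≤ Real.exp 1 := (Real.exp_pos 1).le
      calc Real.exp 1 * (K * (P : ℝ) ^ 2 * A * τ)
          = (Real.exp 1 * K * ε ^ 2 * C₀) * ((P : ℝ) ^ 2 * (1 + Real.log ((P : ℝ) + 1)) * τ) := by
            rw [hA]; ring
        _ ≤ (Real.exp 1 * K * ε ^ 2 * C₀) * ((P : ℝ) ^ 2 * (2 * P) * τ) := by
            refine mul_le_mul_of_nonneg_left ?_ (by positivity)
            exact mul_le_mul_of_nonneg_right (mul_le_mul_of_nonneg_left h1 hP2) hτ0.le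
        _ = (2 * Real.exp 1 * K * ε ^ 2 * C₀) * ((P : ℝ) ^ 3 * τ) := by ring
        _ ≤ (2 * Real.exp 1 * K * ε ^ 2 * C₀ + K * ε ^ 2 + 1) * ((P : ℝ) ^ 3 * τ) := by
            refine mul_le_mul_of_nonneg_right ?_ (by positivity)
            nlinarith [show 0 ≤ K * ε ^ 2 by positivity]
        _ = _ := by ring
    · have h1 : kap ε τ ^ 2 ≤ ε ^ 2 * τ := kap_sq_le_time hτ0.le
      have hP3 : (P : ℝ) ^ 2 ≤ (P : ℝ) ^ 3 := pow_le_pow_right₀ hPr1 (by norm_num)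
      calc K * (P : ℝ) ^ 2 * kap ε τ ^ 2 ≤ K * (P : ℝ) ^ 2 * (ε ^ 2 * τ) :=
            mul_le_mul_of_nonneg_left h1 (by positivity)
        _ = (K * ε ^ 2) * ((P : ℝ) ^ 2 * τ) := by ring
        _ ≤ (K * ε ^ 2) * ((P : ℝ) ^ 3 * τ) := by
            refine mul_le_mul_of_nonneg_left ?_ (by positivity)
            exact mul_le_mul_of_nonneg_right hP3 hτ0.le
        _ ≤ (2 * Real.exp 1 * K * ε ^ 2 * C₀ + K * ε ^ 2 + 1) * ((P : ℝ) ^ 3 * τ) := by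
            refine mul_le_mul_of_nonneg_right ?_ (by positivity)
            have : 0 ≤ 2 * Real.exp 1 * K * ε ^ 2 * C₀ := by positivity
            linarith
        _ = _ := by ring
  · intro s hs
    have hs0 : 0 < s := hs.1
    have hst : s ∈ Ioc 0 τ₁ := ⟨hs0, hs.2.trans hτ.2⟩
    have hlp := hrow θ hθ s hst v P hP
    have hk0 : 0 ≤ kap ε s ^ 2 := sq_nonneg _
    calc kap ε s ^ 2 * lpN (PP V) (fun ω => rowSum G θ (kap ε) ω s v) P
        ≤ kap ε s ^ 2 * (C₀ * (1 / s + Real.log ((P : ℝ) + 1))) :=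
          mul_le_mul_of_nonneg_left hlp hk0
      _ = C₀ * (kap ε s ^ 2 / s + kap ε s ^ 2 * Real.log ((P : ℝ) + 1)) := by ring
      _ ≤ C₀ * (ε ^ 2 + ε ^ 2 * Real.log ((P : ℝ) + 1)) := by
          refine mul_le_mul_of_nonneg_left (add_le_add ?_ ?_) hC₀.le
          · rw [div_le_iff₀ hs0]
            exact kap_sq_le_time hs0.le
          · exact mul_le_mul_of_nonneg_right kap_sq_le_const hlog0
      _ = A := by rw [hA]; ring

end Crest.Agent.Lib.IsingFIID.Mom
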