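/-
Row 160 (S0241): the main inequality for the family of strict solutions, from the inputs.
`BLUEPRINT.md` §7.  The statement `main_ineq` follows from `MainInputs`.
-/
import Crest.Agent.Lib.IsingFIID.MainFixed
import Crest.Agent.Lib.IsingFIID.MainReal
import Crest.Agent.Lib.IsingFIID.MainAnalysis
import Crest.Agent.Lib.IsingFIID.LabelIso
import Crest.Agent.Lib.IsingFIID.Moment
import Crest.Agent.Lib.IsingFIID.WinBasic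

set_option autoImplicit false
set_option linter.unusedSectionVars false
set_option linter.unusedVariables false

namespace Crest.Agent.Lib.IsingFIID

open MeasureTheory Filter Topology Set SimpleGraph
open scoped ENNReal
open PairHyp (WW)

/-! ### The arithmetic of the final inequality -/

/-- Separating the coefficient of `S^{1-1/p}` from the source. -/
theorem combine_coefs {κ2 a₁ a₂ D V2 L CB ρ H Y z z₁ R ψ T T₂ δ rδ src Pi Tau X c₁ c₂ c₃ c₄ c₆ c₇ : ℝ}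
    (hκ0 : 0 ≤ κ2) (ha₁ : 0 ≤ a₁) (ha₂ : 0 ≤ a₂) (hD : 0 ≤ D) (hV2 : 0 ≤ V2) (hCB : 0 ≤ CB) (hδ : 0 ≤ δ)
    (hrδ : 0 ≤ rδ) (hH0 : 0 ≤ H) (hHY : H ≤ 2 * Y) (hPi : 0 ≤ Pi) (hTau : 0 ≤ Tau)
    (hc₁ : 0 ≤ c₁) (hc₂ : 0 ≤ c₂) (hc₃ : 0 ≤ c₃) (hc₄ : 0 ≤ c₄) (hc₆ : 0 ≤ c₆) (hc₇ : 0 ≤ c₇)
    (h1 : κ2 * ρ ≤ c₁ * Pi) (h2 : κ2 * R ^ 2 * z ≤ c₂ * Pi) (h3 : κ2 * T ≤ c₃ * Pi)
    (h4 : κ2 * R ^ 2 * z₁ ≤ c₄ * Tau) (h5 : κ2 * R ^ 3 ≤ X) (h6 : κ2 * src ≤ c₆ * rδ * Tau)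
    (h7 : κ2 * T₂ ≤ c₇ * Tau) :
    κ2 * (a₁ * (ρ * H) + a₂ * (R * (4 * (CB * R * (12 * L ^ 2 * (8 * (z * H) + 4 * (δ ^ 2 * z₁)))) +
          4 * (R ^ 2 * ψ ^ 2)) + 2 * src + D * V2 * (3 * (1 + L) ^ 2) * (T * (2 * H) + δ ^ 2 * T₂))) ≤
      (2 * (a₁ * c₁ + a₂ * (384 * CB * L ^ 2 * c₂ + 6 * D * V2 * (1 + L) ^ 2 * c₃))) * Pi * Y +
        (a₂ * (192 * CB * L ^ 2 * c₄ + 3 * D * V2 * (1 + L) ^ 2 * c₇ + 2 * c₆) * (δ ^ 2 + rδ) * Tau +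
          4 * a₂ * (X * ψ ^ 2)) := by
  have e : κ2 * (a₁ * (ρ * H) + a₂ * (R * (4 * (CB * R * (12 * L ^ 2 * (8 * (z * H) + 4 * (δ ^ 2 * z₁)))) +
          4 * (R ^ 2 * ψ ^ 2)) + 2 * src + D * V2 * (3 * (1 + L) ^ 2) * (T * (2 * H) + δ ^ 2 * T₂))) =
      a₁ * H * (κ2 * ρ) + a₂ * (384 * CB * L ^ 2) * H * (κ2 * R ^ 2 * z) +
        a₂ * (192 * CB * L ^ 2) * δ ^ 2 * (κ2 * R ^ 2 * z₁) + 4 * a₂ * ψ ^ 2 * (κ2 * R ^ 3) +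
        2 * a₂ * (κ2 * src) + a₂ * (6 * D * V2 * (1 + L) ^ 2) * H * (κ2 * T) +
        a₂ * (3 * D * V2 * (1 + L) ^ 2) * δ ^ 2 * (κ2 * T₂) := by ring
  rw [e]
  have t1 := mul_le_mul_of_nonneg_left h1 (mul_nonneg ha₁ hH0)
  have t2 := mul_le_mul_of_nonneg_left h2 (mul_nonneg (mul_nonneg ha₂ (by positivity)) hH0 :
    0 ≤ a₂ * (384 * CB * L ^ 2) * H)
  have t3 := mul_le_mul_of_nonneg_left h4 (mul_nonneg (mul_nonneg ha₂ (by positivity)) (sq_nonneg δ) :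
    0 ≤ a₂ * (192 * CB * L ^ 2) * δ ^ 2)
  have t4 := mul_le_mul_of_nonneg_left h5 (by positivity : 0 ≤ 4 * a₂ * ψ ^ 2)
  have t5 := mul_le_mul_of_nonneg_left h6 (by positivity : 0 ≤ 2 * a₂)
  have t6 := mul_le_mul_of_nonneg_left h3 (mul_nonneg (mul_nonneg ha₂ (by positivity)) hH0 :
    0 ≤ a₂ * (6 * D * V2 * (1 + L) ^ 2) * H)
  have t7 := mul_le_mul_of_nonneg_left h7 (mul_nonneg (mul_nonneg ha₂ (by positivity)) (sq_nonneg δ) :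
    0 ≤ a₂ * (3 * D * V2 * (1 + L) ^ 2) * δ ^ 2)
  -- replace `H` by `2 Y`
  have hY : ∀ c : ℝ, 0 ≤ c → c * H ≤ c * (2 * Y) := fun c hc => mul_le_mul_of_nonneg_left hHY hc
  have s1 := hY (a₁ * (c₁ * Pi)) (by positivity)
  have s2 := hY (a₂ * (384 * CB * L ^ 2) * (c₂ * Pi)) (by positivity)
  have s3 := hY (a₂ * (6 * D * V2 * (1 + L) ^ 2) * (c₃ * Pi)) (by positivity)
  have hA : 0 ≤ a₂ * (192 * CB * L ^ 2 * c₄ + 3 * D * V2 * (1 + L) ^ 2 * c₇) * rδ * Tau := by positivity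
  have hB : 0 ≤ a₂ * (2 * c₆) * δ ^ 2 * Tau := by positivity
  calc _ ≤ a₁ * H * (c₁ * Pi) + a₂ * (384 * CB * L ^ 2) * H * (c₂ * Pi) +
        a₂ * (192 * CB * L ^ 2) * δ ^ 2 * (c₄ * Tau) + 4 * a₂ * ψ ^ 2 * X +
        2 * a₂ * (c₆ * rδ * Tau) + a₂ * (6 * D * V2 * (1 + L) ^ 2) * H * (c₃ * Pi) +
        a₂ * (3 * D * V2 * (1 + L) ^ 2) * δ ^ 2 * (c₇ * Tau) := by
        gcongr
    _ = (a₁ * (c₁ * Pi)) * H + (a₂ * (384 * CB * L ^ 2) * (c₂ * Pi)) * H +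
        (a₂ * (6 * D * V2 * (1 + L) ^ 2) * (c₃ * Pi)) * H +
        (a₂ * (192 * CB * L ^ 2) * δ ^ 2 * (c₄ * Tau) + 4 * a₂ * ψ ^ 2 * X +
        2 * a₂ * (c₆ * rδ * Tau) + a₂ * (3 * D * V2 * (1 + L) ^ 2) * δ ^ 2 * (c₇ * Tau)) := by ring
    _ ≤ (a₁ * (c₁ * Pi)) * (2 * Y) + (a₂ * (384 * CB * L ^ 2) * (c₂ * Pi)) * (2 * Y) +
        (a₂ * (6 * D * V2 * (1 + L) ^ 2) * (c₃ * Pi)) * (2 * Y) +
        (a₂ * (192 * CB * L ^ 2) * δ ^ 2 * (c₄ * Tau) + 4 * a₂ * ψ ^ 2 * X +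
        2 * a₂ * (c₆ * rδ * Tau) + a₂ * (3 * D * V2 * (1 + L) ^ 2) * δ ^ 2 * (c₇ * Tau)) := by
        linarith
    _ ≤ _ := by
        have e2 : (2 * (a₁ * c₁ + a₂ * (384 * CB * L ^ 2 * c₂ + 6 * D * V2 * (1 + L) ^ 2 * c₃))) * Pi * Y +
            (a₂ * (192 * CB * L ^ 2 * c₄ + 3 * D * V2 * (1 + L) ^ 2 * c₇ + 2 * c₆) * (δ ^ 2 + rδ) * Tau +
              4 * a₂ * (X * ψ ^ 2)) =
            (a₁ * (c₁ * Pi)) * (2 * Y) + (a₂ * (384 * CB * L ^ 2) * (c₂ * Pi)) * (2 * Y) +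
            (a₂ * (6 * D * V2 * (1 + L) ^ 2) * (c₃ * Pi)) * (2 * Y) +
            (a₂ * (192 * CB * L ^ 2) * δ ^ 2 * (c₄ * Tau) + 4 * a₂ * ψ ^ 2 * X +
            2 * a₂ * (c₆ * rδ * Tau) + a₂ * (3 * D * V2 * (1 + L) ^ 2) * δ ^ 2 * (c₇ * Tau)) +
            (a₂ * (192 * CB * L ^ 2 * c₄ + 3 * D * V2 * (1 + L) ^ 2 * c₇) * rδ * Tau +
              a₂ * (2 * c₆) * δ ^ 2 * Tau) := by ring
        rw [e2]
        linarith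

theorem four_rpow_le {p : ℕ} (hp : 2 ≤ p) : (4 : ℝ) ^ (1 / (p : ℝ)) ≤ 2 := by
  have h1 : (2 : ℝ) ≤ p := by exact_mod_cast hp
  have h2 : 1 / (p : ℝ) ≤ 1 / 2 := by
    rw [div_le_div_iff₀ (by linarith) (by norm_num)]
    linarith
  have h3 : (4 : ℝ) ^ (1 / 2 : ℝ) = 2 := by
    rw [show (4 : ℝ) = 2 ^ (2 : ℝ) by norm_num, ← Real.rpow_mul (by norm_num)]
    norm_num
  calc _ ≤ (4 : ℝ) ^ (1 / 2 : ℝ) := Real.rpow_le_rpow_of_exponent_le (by norm_num) h2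
    _ = 2 := h3

/-! ### The inputs -/

variable {V : Type*} [DecidableEq V] {G : SimpleGraph V} [G.LocallyFinite] {d : ℕ}

/-- The outputs of the other tasks, at `κ = kap ε`. -/
structure MainInputs (G : SimpleGraph V) [G.LocallyFinite] (d : ℕ) (ε τ₁ : ℝ) (θs : ℕ → ℝ)
    (t L Cρ c Cw Cm CB : ℝ) : Prop where
  hG : Tree G d
  ε0 : 0 < ε
  ε1 : ε ≤ 1 / 2
  hτ₁ : 1 ≤ τ₁
  hr : ∀ j, ThetaRange d (θs j)
  t0 : 0 ≤ t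
  t1 : t < 1
  hbd : ∀ θ, ThetaRange d θ → ∀ ω τ v, τ ≤ τ₁ → |mInf G θ (kap ε) ω τ v| ≤ t
  hmeas : ∀ θ v, Measurable fun p : ℝ × Om V => mInf G θ (kap ε) p.2 p.1 v
  hact : ∀ θ (g : G ≃g G) ω τ v, mInf G θ (kap ε) (act g ω) τ v = mInf G θ (kap ε) ω τ (g v)
  hmap : ∀ g : G ≃g G, MeasurePreserving (act g : Om V → Om V) (PP V) (PP V)
  L0 : 0 < L
  hu : ∀ θ θ' a b a' b' : ℝ, ThetaRange d θ → ThetaRange d θ' → |a| ≤ t → |b| ≤ t → |a'| ≤ t → |b'| ≤ t →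
    0 ≤ uOf θ a b ∧ uOf θ a b ≤ 1 ∧ |uOf θ a b - uOf θ' a' b'| ≤ L * (|a - a'| + |b - b'| + |θ - θ'|)
  ha : ∀ θ θ' a b a' b' : ℝ, ThetaRange d θ → ThetaRange d θ' → |a| ≤ t → |b| ≤ t → |a'| ≤ t → |b'| ≤ t →
    0 ≤ aOf θ a b ∧ aOf θ a b ≤ L * (|a| + |b|) ^ 2 ∧ Real.exp (- aOf θ a b) = uOf θ a b ∧
      |aOf θ a b - aOf θ' a' b'| ≤ L * (|a| + |b| + |a'| + |b'|) * (|a - a'| + |b - b'| + |θ - θ'|)
  hrev : ∀ θ, ThetaRange d θ → ∀ τ ∈ Ioc 0 τ₁, ∀ (x : ℕ → V) (r : ℕ), IsGeod G x r →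
    ∀ᵐ ω ∂(PP V), pathCov θ (fun u => mInf G θ (kap ε) ω τ u) x r =
      pathCov θ (fun u => mInf G θ (kap ε) ω τ u) (fun i => x (r - i)) r
  hrow : ∀ θ, ThetaRange d θ → ∀ τ ∈ Ioc 0 τ₁, ∀ v, ∀ P : ℕ, 1 ≤ P →
    lpN (PP V) (fun ω => rowSum G θ (kap ε) ω τ v) P ≤ Cρ * (1 / τ + Real.log (P + 1))
  Cρ0 : 0 < Cρ
  c0 : 0 < c
  Cw0 : 0 < Cw
  hwt : ∀ θ, ThetaRange d θ → ∀ τ ∈ Ioc 0 τ₁, ∀ x p, G.Adj p x → ∀ (n P : ℕ), 1 ≤ P →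
    (θ ^ 2 * ((d : ℝ) - 1)) ^ n *
        lpN (PP V) (fun ω => wTree G θ (d - 1) (fun u => mInf G θ (kap ε) ω τ u) n p x) P ≤
      min 1 (Cw * Real.exp (- c * τ * n) + P * ((d : ℝ) - 1) ^ (-(n : ℝ) / 2))
  Cm0 : 0 < Cm
  hmom : ∀ θ, ThetaRange d θ → ∀ τ ∈ Ioc 0 τ₁, ∀ v, ∀ P : ℕ, 1 ≤ P →
    (∫ ω, mInf G θ (kap ε) ω τ v ^ (2 * P) ∂(PP V)) ^ (1 / (P : ℝ)) ≤ Cm * P ^ 3 * τ
  CB0 : 0 < CB
  hbsv : ∀ θ θ', ThetaRange d θ → ThetaRange d θ' → ∀ τ ∈ Ioc 0 τ₁, ∀ (x : ℕ → V) (r : ℕ), IsGeod G x r →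
    1 ≤ r → ∫ ω, (∑ i ∈ Finset.range r, (fPair G θ θ' (kap ε) ω τ (x i) (x (i + 1)) -
          ∫ ω', fPair G θ θ' (kap ε) ω' τ (x 0) (x 1) ∂(PP V))) ^ 2 ∂(PP V) ≤
        CB * r * ∫ ω, fPair G θ θ' (kap ε) ω τ (x 0) (x 1) ^ 2 ∂(PP V)
  hpsi : ∀ x p, G.Adj p x → ∀ τ ∈ Ioc 0 τ₁,
    Tendsto (fun jk : ℕ × ℕ => ∫ ω, fPair G (θs jk.1) (θs jk.2) (kap ε) ω τ p x ∂(PP V))
      (atTop ×ˢ atTop) (𝓝 0)

namespace MainInputs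

variable {ε τ₁ : ℝ} {θs : ℕ → ℝ} {t L Cρ c Cw Cm CB : ℝ}

theorem measurable_at (I : MainInputs G d ε τ₁ θs t L Cρ c Cw Cm CB) (θ τ : ℝ) (v : V) :
    Measurable fun ω : Om V => mInf G θ (kap ε) ω τ v := by
  have h := (I.hmeas θ v).comp (measurable_const.prodMk measurable_id : Measurable fun ω : Om V => (τ, ω))
  exact h

theorem mfield (I : MainInputs G d ε τ₁ θs t L Cρ c Cw Cm CB) {θ τ : ℝ} (hθ : ThetaRange d θ) (hτ : τ ≤ τ₁) :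
    MField G (PP V) (fun g : G ≃g G => (act g : Om V → Om V)) (fun ω u => mInf G θ (kap ε) ω τ u) t where
  meas := fun v => I.measurable_at θ τ v
  bd := fun ω v => I.hbd θ hθ ω τ v hτ
  act := fun g ω v => I.hact θ g ω τ v

theorem ubd (I : MainInputs G d ε τ₁ θs t L Cρ c Cw Cm CB) {θ : ℝ} (hθ : ThetaRange d θ) : UBd θ t := by
  intro a b ha hb
  obtain ⟨h1, h2, -⟩ := I.hu θ θ a b a b hθ hθ ha hb ha hb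
  exact ⟨h1, h2⟩

/-- The pair hypotheses at a fixed time. -/
theorem pairHyp (I : MainInputs G d ε τ₁ θs t L Cρ c Cw Cm CB) {θ θ' τ : ℝ} (hθ : ThetaRange d θ)
    (hθ' : ThetaRange d θ') (hτ : τ ∈ Ioc 0 τ₁) :
    PairHyp G d (PP V) (fun g : G ≃g G => (act g : Om V → Om V))
      (fun ω u => mInf G θ (kap ε) ω τ u) (fun ω u => mInf G θ' (kap ε) ω τ u) θ θ' t L |θ - θ'| where
  hG := I.hG
  hA := I.hmap
  hm := I.mfield hθ hτ.2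
  hm' := I.mfield hθ' hτ.2
  t0 := I.t0
  t1 := I.t1
  θ0 := hθ.1
  θ1 := (thetaRange_le I.hG.hd hθ).trans (by norm_num)
  θ0' := hθ'.1
  θ1' := (thetaRange_le I.hG.hd hθ').trans (by norm_num)
  hu := I.ubd hθ
  hu' := I.ubd hθ'
  L0 := I.L0.le
  δdef := rfl
  ulip := fun a b a' b' h1 h2 h3 h4 => (I.hu θ θ' a b a' b' hθ hθ' h1 h2 h3 h4).2.2
  aexp := fun a b h1 h2 => by
    obtain ⟨h3, -, h4, -⟩ := I.ha θ θ a b a b hθ hθ h1 h2 h1 h2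
    exact ⟨h3, h4⟩
  aexp' := fun a b h1 h2 => by
    obtain ⟨h3, -, h4, -⟩ := I.ha θ' θ' a b a b hθ' hθ' h1 h2 h1 h2
    exact ⟨h3, h4⟩
  alip := fun a b a' b' h1 h2 h3 h4 => (I.ha θ θ' a b a' b' hθ hθ' h1 h2 h3 h4).2.2.2
  rev := I.hrev θ hθ τ hτ
  rev' := I.hrev θ' hθ' τ hτ

/-- The mean of the edge functional does not depend on the edge. -/
theorem integral_fPair_eq (I : MainInputs G d ε τ₁ θs t L Cρ c Cw Cm CB) (θ θ' τ : ℝ) {a b a' b' : V}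
    (h : G.Adj a b) (h' : G.Adj a' b') :
    ∫ ω, fPair G θ θ' (kap ε) ω τ a b ∂(PP V) = ∫ ω, fPair G θ θ' (kap ε) ω τ a' b' ∂(PP V) := by
  obtain ⟨g, h1, h2⟩ := exists_aut_of_adj I.hG.tree I.hG.reg h h'
  have hm : Measurable fun ω => fPair G θ θ' (kap ε) ω τ a b :=
    (measurable_aOf_comp (I.measurable_at θ τ a) (I.measurable_at θ τ b) θ).sub
      (measurable_aOf_comp (I.measurable_at θ' τ a) (I.measurable_at θ' τ b) θ')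
  rw [← integral_comp_mp (I.hmap g) hm]
  refine integral_congr_ae (Eventually.of_forall fun ω => ?_)
  simp only [fPair, I.hact, h1, h2]

/-- `|ψ| ≤ C τ`. -/
theorem abs_integral_fPair_le (I : MainInputs G d ε τ₁ θs t L Cρ c Cw Cm CB) {θ θ' τ : ℝ} (hθ : ThetaRange d θ)
    (hθ' : ThetaRange d θ') (hτ : τ ∈ Ioc 0 τ₁) (a b : V) :
    |∫ ω, fPair G θ θ' (kap ε) ω τ a b ∂(PP V)| ≤ 4 * L * Cm * τ := by
  have hL := I.L0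
  have hbound : ∀ θ₁, ThetaRange d θ₁ →
      Integrable (fun ω => aOf θ₁ (mInf G θ₁ (kap ε) ω τ a) (mInf G θ₁ (kap ε) ω τ b)) (PP V) ∧
      0 ≤ ∫ ω, aOf θ₁ (mInf G θ₁ (kap ε) ω τ a) (mInf G θ₁ (kap ε) ω τ b) ∂(PP V) ∧
      ∫ ω, aOf θ₁ (mInf G θ₁ (kap ε) ω τ a) (mInf G θ₁ (kap ε) ω τ b) ∂(PP V) ≤ 4 * L * Cm * τ := by
    intro θ₁ hθ₁
    have hb := fun ω u => I.hbd θ₁ hθ₁ ω τ u hτ.2
    have htle : t ≤ 1 := I.t1.le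
    have hm := fun u => I.measurable_at θ₁ τ u
    have hpt := fun ω => I.ha θ₁ θ₁ _ _ _ _ hθ₁ hθ₁ (hb ω a) (hb ω b) (hb ω a) (hb ω b)
    have hint : Integrable (fun ω => aOf θ₁ (mInf G θ₁ (kap ε) ω τ a) (mInf G θ₁ (kap ε) ω τ b)) (PP V) := by
      refine integrable_bd (measurable_aOf_comp (hm a) (hm b) θ₁) (C := L * (1 + 1) ^ 2) fun ω => ?_
      obtain ⟨h1, h2, -, -⟩ := hpt ω
      rw [abs_of_nonneg h1]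
      refine h2.trans (mul_le_mul_of_nonneg_left ?_ hL.le)
      exact pow_le_pow_left₀ (by positivity)
        (add_le_add ((hb ω a).trans htle) ((hb ω b).trans htle)) 2
    refine ⟨hint, integral_nonneg fun ω => (hpt ω).1, ?_⟩
    have hsq : ∀ u, Integrable (fun ω => mInf G θ₁ (kap ε) ω τ u ^ 2) (PP V) ∧
        ∫ ω, mInf G θ₁ (kap ε) ω τ u ^ 2 ∂(PP V) ≤ Cm * τ := by
      intro u
      constructor
      · refine integrable_bd ((hm u).pow_const 2) (C := 1) fun ω => ?_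
        rw [abs_of_nonneg (sq_nonneg _), sq_le_one_iff_abs_le_one]
        exact (hb ω u).trans htle
      · have h1 := I.hmom θ₁ hθ₁ τ hτ u 1 le_rfl
        simpa using h1
    have hmaj : ∀ ω, aOf θ₁ (mInf G θ₁ (kap ε) ω τ a) (mInf G θ₁ (kap ε) ω τ b) ≤
        2 * L * (mInf G θ₁ (kap ε) ω τ a ^ 2 + mInf G θ₁ (kap ε) ω τ b ^ 2) := by
      intro ω
      obtain ⟨-, h2, -, -⟩ := hpt ω
      refine h2.trans ?_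
      have e : (|mInf G θ₁ (kap ε) ω τ a| + |mInf G θ₁ (kap ε) ω τ b|) ^ 2 ≤
          2 * (mInf G θ₁ (kap ε) ω τ a ^ 2 + mInf G θ₁ (kap ε) ω τ b ^ 2) := by
        have h3 := sq_abs (mInf G θ₁ (kap ε) ω τ a)
        have h4 := sq_abs (mInf G θ₁ (kap ε) ω τ b)
        nlinarith [sq_nonneg (|mInf G θ₁ (kap ε) ω τ a| - |mInf G θ₁ (kap ε) ω τ b|)]
      calc _ ≤ L * (2 * (mInf G θ₁ (kap ε) ω τ a ^ 2 + mInf G θ₁ (kap ε) ω τ b ^ 2)) :=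
            mul_le_mul_of_nonneg_left e hL.le
        _ = _ := by ring
    have hI12 : Integrable (fun ω => mInf G θ₁ (kap ε) ω τ a ^ 2 + mInf G θ₁ (kap ε) ω τ b ^ 2) (PP V) :=
      (hsq a).1.add (hsq b).1
    refine (integral_mono hint (hI12.const_mul _) hmaj).trans ?_
    rw [integral_const_mul, integral_add (hsq a).1 (hsq b).1]
    have h1 := (hsq a).2
    have h2 := (hsq b).2
    nlinarith
  obtain ⟨i1, n1, u1⟩ := hbound θ hθ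
  obtain ⟨i2, n2, u2⟩ := hbound θ' hθ'
  have e : ∫ ω, fPair G θ θ' (kap ε) ω τ a b ∂(PP V) =
      (∫ ω, aOf θ (mInf G θ (kap ε) ω τ a) (mInf G θ (kap ε) ω τ b) ∂(PP V)) -
        ∫ ω, aOf θ' (mInf G θ' (kap ε) ω τ a) (mInf G θ' (kap ε) ω τ b) ∂(PP V) :=
    integral_sub i1 i2
  rw [e, abs_le]
  constructor <;> linarith

theorem fE_eq_fPair (θ θ' : ℝ) (κ : ℝ → ℝ) (ω : Om V) (τ : ℝ) (a b : V) :
    fE θ θ' (fun u => mInf G θ κ ω τ u) (fun u => mInf G θ' κ ω τ u) a b = fPair G θ θ' κ ω τ a b := rfl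

/-- The moment bound in the `lpN` language. -/
theorem lpN_sq_le_min (I : MainInputs G d ε τ₁ θs t L Cρ c Cw Cm CB) {θ τ : ℝ} (hθ : ThetaRange d θ)
    (hτ : τ ∈ Ioc 0 τ₁) (u : V) {p : ℕ} (hp : 1 ≤ p) :
    lpN (PP V) (fun ω => mInf G θ (kap ε) ω τ u ^ 2) (p : ℝ) ≤ min 1 (Cm * (p : ℝ) ^ 3 * τ) := by
  unfold lpN
  have e : ∀ ω, |mInf G θ (kap ε) ω τ u ^ 2| ^ (p : ℝ) = mInf G θ (kap ε) ω τ u ^ (2 * p) := by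
    intro ω
    rw [abs_of_nonneg (sq_nonneg _), Real.rpow_natCast, ← pow_mul]
  simp only [e]
  refine le_min ?_ (I.hmom θ hθ τ hτ u p hp)
  have hp0 : (0 : ℝ) < p := by exact_mod_cast hp
  have hb : ∀ ω, |mInf G θ (kap ε) ω τ u| ≤ 1 := fun ω => (I.hbd θ hθ ω τ u hτ.2).trans I.t1.le
  have h0 : ∀ ω, 0 ≤ mInf G θ (kap ε) ω τ u ^ (2 * p) := fun ω => by
    rw [pow_mul]
    positivity
  have h1 : ∀ ω, mInf G θ (kap ε) ω τ u ^ (2 * p) ≤ 1 := fun ω => by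
    rw [pow_mul]
    refine pow_le_one₀ (sq_nonneg _) ?_
    rw [sq_le_one_iff_abs_le_one]
    exact hb ω
  refine Real.rpow_le_one (integral_nonneg h0) ?_ (by positivity)
  calc _ ≤ ∫ ω : Om V, (1 : ℝ) ∂(PP V) := by
        refine integral_mono ?_ (integrable_const _) h1
        refine integrable_bd ((I.measurable_at θ τ u).pow_const _) (C := 1) fun ω => ?_
        rw [abs_of_nonneg (h0 ω)]
        exact h1 ω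
    _ = 1 := by simp

/-- The inequality at one `j,k,τ,p`, with uniform constants. -/
theorem main_pointwise (I : MainInputs G d ε τ₁ θs t L Cρ c Cw Cm CB) {K : ℝ} (hK : 0 ≤ K) {A B C₂ : ℝ}
    (hA : 0 < A) (hB : 0 ≤ B)
    (hTb : ∀ Q : ℝ, 1 ≤ Q → ∀ τ ∈ Ioc 0 τ₁, ∀ N : ℕ, ∑ r ∈ Finset.Ioc (RF A τ₁ τ) N, (r : ℝ) *
      ∑ i ∈ Finset.range r, WW (wN c Cw ((d : ℝ) - 1) Q τ) i * WW (wN c Cw ((d : ℝ) - 1) Q τ) (r - 1 - i) ≤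
        B * Q ^ (1 / 2 : ℝ))
    (hC₂ : ∀ τ ∈ Ioc 0 τ₁, ellF τ₁ τ ^ 2 ≤ C₂ * τ ^ (-(1 / 4) : ℝ)) (hC₂0 : 0 ≤ C₂) {v v₁ : V}
    (hv : G.Adj v v₁) :
    ∃ Bb E₁ E₂ : ℝ, 0 ≤ Bb ∧ 0 ≤ E₁ ∧ 0 ≤ E₂ ∧ ∀ θ θ', ThetaRange d θ → ThetaRange d θ' → ∀ τ ∈ Ioc 0 τ₁,
      ∀ p : ℕ, 2 ≤ p →
        ∑' r, ∑ y ∈ sphere G v r, ∫ ω, Xp K G θ θ' (kap ε) ω τ v y ∂(PP V) ≤
          Bb * ((p : ℝ) ^ (9 / 10 : ℝ) * τ ^ (-(19 / 20) : ℝ)) *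
              Sd G θ θ' (kap ε) τ v ^ (1 - 1 / (p : ℝ)) +
            (E₁ * (|θ - θ'| ^ 2 + |θ - θ'| ^ (1 / 2 : ℝ)) * τ ^ (-(19 / 20) : ℝ) +
              E₂ * (ellF τ₁ τ ^ 3 * (τ⁻¹) ^ 2 * (∫ ω, fPair G θ θ' (kap ε) ω τ v v₁ ∂(PP V)) ^ 2)) := by
  have hG := I.hG
  have hτ₁ := I.hτ₁
  have hτ₁0 : 0 < τ₁ := by linarith
  have hd3 : 3 ≤ d := hG.hd
  have hDD : ((d - 1 : ℕ) : ℝ) = (d : ℝ) - 1 := by
    rw [Nat.cast_sub (by omega)]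
    simp
  have hD2 : (2 : ℝ) ≤ ((d - 1 : ℕ) : ℝ) := by exact_mod_cast (by omega : 2 ≤ d - 1)
  set D : ℝ := ((d - 1 : ℕ) : ℝ) with hD
  have hD0 : 0 < D := by linarith
  have hv0 : 0 < 1 - t ^ 2 := by
    have := I.t0
    have := I.t1
    nlinarith
  set V2 : ℝ := ((1 - t ^ 2)⁻¹) ^ 2 with hV2
  have hV20 : 0 ≤ V2 := by positivity
  set a₁ : ℝ := 64 * V2 + K / 4 with ha₁
  have ha₁0 : 0 ≤ a₁ := by positivity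
  set a₂ : ℝ := 16 * ((d : ℝ) + 1) with ha₂
  have ha₂0 : 0 ≤ a₂ := by positivity
  set A' : ℝ := A + τ₁ with hA'
  have hA'0 : 0 < A' := by positivity
  set g0 : ℝ := τ₁ ^ (19 / 20 : ℝ) with hg0
  have hg00 : 0 < g0 := g0_pos hτ₁
  have hCρ := I.Cρ0
  have hCm := I.Cm0
  have hCB := I.CB0
  set c₁ : ℝ := Cρ * (1 + 3 * τ₁) * g0 with hc₁
  set c₂ : ℝ := A' ^ 2 * C₂ * Cm ^ (3 / 10 : ℝ) with hc₂
  set c₃ : ℝ := 2 * τ₁ * B * g0 with hc₃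
  set c₄ : ℝ := A' ^ 2 * Cm * C₂ * g0 with hc₄
  set c₆ : ℝ := 4 * D ^ (1 / 4 : ℝ) * (A' ^ (3 / 2 : ℝ) * C₂ * g0) with hc₆
  have hc₁0 : 0 ≤ c₁ := by positivity
  have hc₂0 : 0 ≤ c₂ := by positivity
  have hc₃0 : 0 ≤ c₃ := by positivity
  have hc₄0 : 0 ≤ c₄ := by positivity
  have hc₆0 : 0 ≤ c₆ := by positivity
  refine ⟨2 * (a₁ * c₁ + a₂ * (384 * CB * L ^ 2 * c₂ + 6 * D * V2 * (1 + L) ^ 2 * c₃)),
    a₂ * (192 * CB * L ^ 2 * c₄ + 3 * D * V2 * (1 + L) ^ 2 * c₃ + 2 * c₆), 4 * a₂ * A' ^ 3,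
    by positivity, by positivity, by positivity, ?_⟩
  intro θ θ' hθ hθ' τ hτ p hp
  have h := I.pairHyp hθ hθ' hτ
  obtain ⟨hτ0, hτ1⟩ := hτ
  have hτ : τ ∈ Ioc 0 τ₁ := ⟨hτ0, hτ1⟩
  have hp1 : 1 ≤ p := by omega
  have hp1' : (1 : ℝ) ≤ p := by exact_mod_cast hp1
  have hp2' : (2 : ℝ) ≤ p := by exact_mod_cast hp
  set δ := |θ - θ'| with hδ
  have hδ0 : 0 ≤ δ := abs_nonneg _
  set m : Om V → V → ℝ := fun ω u => mInf G θ (kap ε) ω τ u with hm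
  set m' : Om V → V → ℝ := fun ω u => mInf G θ' (kap ε) ω τ u with hm'
  set S := Sd G θ θ' (kap ε) τ v with hS
  have hS0 : 0 ≤ S := integral_nonneg fun ω => sq_nonneg _
  set ψ := ∫ ω, fPair G θ θ' (kap ε) ω τ v v₁ ∂(PP V) with hψ
  -- `η`
  have hηb : ∀ θ₁, ThetaRange d θ₁ → 0 < θ₁ ^ 2 * D ∧ θ₁ ^ 2 * D < 1 := by
    intro θ₁ hθ₁
    have h1 := hθ₁.2.1
    have h2 := hθ₁.2.2
    rw [hDD]
    constructor <;> linarith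
  obtain ⟨hη0, hη1⟩ := hηb θ hθ
  obtain ⟨hη0', hη1'⟩ := hηb θ' hθ'
  -- `κ`
  set κ := kap ε τ with hκ
  have hκ0 : 0 ≤ κ := by
    simp only [hκ, kap]
    exact mul_nonneg I.ε0.le (le_min (Real.sqrt_nonneg _) zero_le_one)
  have hκ1 : κ ≤ 1 / 2 := (kap_le I.ε0.le τ).trans I.ε1
  have hκ2 : κ ^ 2 ≤ τ := by
    have h1 : κ ^ 2 ≤ ε ^ 2 * τ := Mom.kap_sq_le_time hτ0.le
    have h2 : ε ^ 2 ≤ 1 := pow_le_one₀ I.ε0.le (I.ε1.trans (by norm_num))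
    exact h1.trans (mul_le_of_le_one_left hτ0.le h2)
  have hκ20 : 0 ≤ κ ^ 2 := sq_nonneg _
  -- inputs of `main_fixed`
  have hρ : ∀ θ₁, ThetaRange d θ₁ → lpN (PP V) (fun ω => rowS G θ₁ (fun u => mInf G θ₁ (kap ε) ω τ u) v) (p : ℝ) ≤
      Cρ * (1 / τ + Real.log ((p : ℝ) + 1)) := fun θ₁ hθ₁ => I.hrow θ₁ hθ₁ τ hτ v p hp1
  have hz₁ : ∀ θ₁, ThetaRange d θ₁ → ∀ u, ∫ ω, mInf G θ₁ (kap ε) ω τ u ^ 2 ∂(PP V) ≤ Cm * τ := by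
    intro θ₁ hθ₁ u
    have h1 := I.hmom θ₁ hθ₁ τ hτ u 1 le_rfl
    simpa using h1
  have hbsv' : ∀ (x : ℕ → V) (r : ℕ), IsGeod G x r → 1 ≤ r →
      ∫ ω, (∑ i ∈ Finset.range r, (fE θ θ' (m ω) (m' ω) (x i) (x (i + 1)) - ψ)) ^ 2 ∂(PP V) ≤
        CB * r * ∫ ω, fE θ θ' (m ω) (m' ω) (x 0) (x 1) ^ 2 ∂(PP V) := by
    intro x r hx hr
    have h1 := I.hbsv θ θ' hθ hθ' τ hτ x r hx hr
    rw [I.integral_fPair_eq θ θ' τ (hx.adj 0 (by omega)) hv] at h1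
    simp only [hm, hm', fE_eq_fPair]
    exact h1
  have hwt' : ∀ θ₁, ThetaRange d θ₁ → ∀ (P : ℕ), 1 ≤ P → ∀ n z c', G.Adj z c' → (θ₁ ^ 2 * D) ^ n *
      lpN (PP V) (fun ω => wTree G θ₁ (d - 1) (fun u => mInf G θ₁ (kap ε) ω τ u) n z c') (P : ℝ) ≤
      wN c Cw ((d : ℝ) - 1) (P : ℝ) τ n := by
    intro θ₁ hθ₁ P hP n z c' hzc
    have h1 := I.hwt θ₁ hθ₁ τ hτ c' z hzc n P hP
    rw [hDD]
    exact h1
  have hwN0 : ∀ Q : ℝ, 0 ≤ Q → ∀ n, 0 ≤ wN c Cw ((d : ℝ) - 1) Q τ n := fun Q hQ n =>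
    wN_nonneg I.Cw0.le (by rw [← hDD]; exact hD0) hQ n
  have hwp : ∀ θ₁, ThetaRange d θ₁ → ∀ n z c', G.Adj z c' → (θ₁ ^ 2 * D) ^ n *
      lpN (PP V) (fun ω => wTree G θ₁ (d - 1) (fun u => mInf G θ₁ (kap ε) ω τ u) n z c') (2 * (p : ℝ)) ≤
      wN c Cw ((d : ℝ) - 1) (2 * (p : ℝ)) τ n := by
    intro θ₁ hθ₁ n z c' hzc
    have h1 := hwt' θ₁ hθ₁ (2 * p) (by omega) n z c' hzc
    push_cast at h1
    exact h1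
  have hw2 : ∀ θ₁, ThetaRange d θ₁ → ∀ n z c', G.Adj z c' → (θ₁ ^ 2 * D) ^ n *
      lpN (PP V) (fun ω => wTree G θ₁ (d - 1) (fun u => mInf G θ₁ (kap ε) ω τ u) n z c') 2 ≤
      wN c Cw ((d : ℝ) - 1) 2 τ n := by
    intro θ₁ hθ₁ n z c' hzc
    have h1 := hwt' θ₁ hθ₁ 2 (by omega) n z c' hzc
    push_cast at h1
    exact h1
  have hQ1 : (1 : ℝ) ≤ 2 * (p : ℝ) := by linarith
  have key := h.main_fixed v hp (S := S) rfl hη0 hη1 hη0' hη1' hκ0 hκ1 hK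
    (ρ := Cρ * (1 / τ + Real.log ((p : ℝ) + 1))) (hρ θ hθ) (hρ θ' hθ')
    (z := min 1 (Cm * (p : ℝ) ^ 3 * τ)) (z₁ := Cm * τ)
    (fun u => I.lpN_sq_le_min hθ hτ u hp1) (fun u => I.lpN_sq_le_min hθ' hτ u hp1)
    (hz₁ θ hθ) (hz₁ θ' hθ') (CB := CB) (ψ := ψ) hCB.le hbsv'
    (wp := wN c Cw ((d : ℝ) - 1) (2 * (p : ℝ)) τ) (w2 := wN c Cw ((d : ℝ) - 1) 2 τ)
    (hwN0 _ (by positivity)) (hwN0 _ (by norm_num))
    (hwp θ hθ) (hwp θ' hθ') (hw2 θ hθ) (hw2 θ' hθ')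
    (R := RF A τ₁ τ) (T := B * (2 * (p : ℝ)) ^ (1 / 2 : ℝ)) (T₂ := B * (2 : ℝ) ^ (1 / 2 : ℝ))
    (hTb _ hQ1 τ hτ) (hTb 2 (by norm_num) τ hτ)
  -- the coefficients
  set ℓ := ellF τ₁ τ with hℓ
  have hℓ1 : 1 ≤ ℓ := ellF_ge_one hτ0 hτ1
  have hℓ2 := hC₂ τ hτ
  set R : ℝ := (RF A τ₁ τ : ℝ) with hR
  have hR0 : 0 ≤ R := by positivity
  have hRle : R ≤ A' * ℓ / τ := RF_le hA.le hτ0 hτ1
  set Pi : ℝ := (p : ℝ) ^ (9 / 10 : ℝ) * τ ^ (-(19 / 20) : ℝ) with hPi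
  set Tau : ℝ := τ ^ (-(19 / 20) : ℝ) with hTau
  have hTau0 : 0 ≤ Tau := Real.rpow_nonneg hτ0.le _
  have hPi0 : 0 ≤ Pi := mul_nonneg (Real.rpow_nonneg (by linarith) _) hTau0
  set Y := S ^ (1 - 1 / (p : ℝ)) with hY
  have hY0 : 0 ≤ Y := Real.rpow_nonneg hS0 _
  set H := (4 : ℝ) ^ (1 / (p : ℝ)) * Y with hH
  have hH0 : 0 ≤ H := by positivity
  have hHY : H ≤ 2 * Y := mul_le_mul_of_nonneg_right (four_rpow_le hp) hY0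
  have h1 := coef_rho hτ0 hτ1 hτ₁ hp1' hκ20 hκ2 hCρ.le
  have h2 : κ ^ 2 * R ^ 2 * min 1 (Cm * (p : ℝ) ^ 3 * τ) ≤ c₂ * Pi :=
    coef_z hτ0 hp1' hκ20 hκ2 hR0 hRle hℓ2 hCm.le
  have h3 := coef_T hτ0 hτ1 hτ₁ hp1' hκ20 hκ2 hB
  have h4 : κ ^ 2 * R ^ 2 * (Cm * τ) ≤ c₄ * Tau := coef_z1 hτ0 hτ1 hτ₁ hκ20 hκ2 hR0 hRle hℓ2 hCm.le
  have h5 : κ ^ 2 * R ^ 3 ≤ A' ^ 3 * ℓ ^ 3 * (τ⁻¹) ^ 2 := coef_psi hτ0 hκ20 hκ2 hR0 hRle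
  have h7 := coef_T2 hτ0 hτ1 hτ₁ hκ20 hκ2 hB
  have hsrc := src_le hθ.1 hθ'.1 (by linarith : (1 : ℝ) ≤ D) hη1.le hη1'.le hδ (RF A τ₁ τ)
  have hcs := coef_src hτ0 hτ1 hτ₁ hκ20 hκ2 hR0 hA'0.le hℓ1 hRle hℓ2
  have h6 : κ ^ 2 * ∑ r ∈ Finset.Ioc 0 (RF A τ₁ τ), ((θ ^ r - θ' ^ r) ^ 2 * D ^ r) ≤
      c₆ * δ ^ (1 / 2 : ℝ) * Tau := by
    have hr0 : 0 ≤ δ ^ (1 / 2 : ℝ) := Real.rpow_nonneg hδ0 _
    have hD4 : 0 ≤ D ^ (1 / 4 : ℝ) := Real.rpow_nonneg hD0.le _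
    calc _ ≤ κ ^ 2 * (4 * D ^ (1 / 4 : ℝ) * δ ^ (1 / 2 : ℝ) * R ^ (3 / 2 : ℝ)) :=
          mul_le_mul_of_nonneg_left hsrc hκ20
      _ = (4 * D ^ (1 / 4 : ℝ) * δ ^ (1 / 2 : ℝ)) * (κ ^ 2 * R ^ (3 / 2 : ℝ)) := by ring
      _ ≤ (4 * D ^ (1 / 4 : ℝ) * δ ^ (1 / 2 : ℝ)) * ((A' ^ (3 / 2 : ℝ) * C₂ * g0) * Tau) :=
          mul_le_mul_of_nonneg_left hcs (by positivity)
      _ = _ := by
          rw [hc₆]
          ring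
  have hfin := combine_coefs (κ2 := κ ^ 2) (a₁ := a₁) (a₂ := a₂) (D := D) (V2 := V2) (L := L) (CB := CB)
    (ρ := Cρ * (1 / τ + Real.log ((p : ℝ) + 1))) (H := H) (Y := Y) (z := min 1 (Cm * (p : ℝ) ^ 3 * τ))
    (z₁ := Cm * τ) (R := R) (ψ := ψ) (T := B * (2 * (p : ℝ)) ^ (1 / 2 : ℝ)) (T₂ := B * (2 : ℝ) ^ (1 / 2 : ℝ))
    (δ := δ) (rδ := δ ^ (1 / 2 : ℝ)) (src := ∑ r ∈ Finset.Ioc 0 (RF A τ₁ τ), ((θ ^ r - θ' ^ r) ^ 2 * D ^ r))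
    (Pi := Pi) (Tau := Tau) (X := A' ^ 3 * ℓ ^ 3 * (τ⁻¹) ^ 2) (c₁ := c₁) (c₂ := c₂) (c₃ := c₃) (c₄ := c₄)
    (c₆ := c₆) (c₇ := c₃) hκ20 ha₁0 ha₂0 hD0.le hV20 hCB.le hδ0 (Real.rpow_nonneg hδ0 _) hH0 hHY hPi0 hTau0
    hc₁0 hc₂0 hc₃0 hc₄0 hc₆0 hc₃0 h1 h2 h3 h4 h5 h6 h7
  refine le_trans key (hfin.trans (le_of_eq ?_))
  ring

theorem intervalIntegrable_master {τ₁ : ℝ} (hτ₁ : 0 ≤ τ₁) :
    IntervalIntegrable (fun τ : ℝ => |τ| ^ (-(19 / 20) : ℝ)) volume 0 τ₁ := by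
  rw [intervalIntegrable_iff_integrableOn_Ioc_of_le hτ₁]
  have h := (intervalIntegral.intervalIntegrable_rpow' (a := 0) (b := τ₁)
    (r := (-(19 / 20) : ℝ)) (by norm_num))
  rw [intervalIntegrable_iff_integrableOn_Ioc_of_le hτ₁] at h
  refine h.congr_fun (fun x hx => ?_) measurableSet_Ioc
  simp only []
  rw [abs_of_pos hx.1]

/-- The main inequality from its inputs. -/
theorem main_ineq_core (I : MainInputs G d ε τ₁ θs t L Cρ c Cw Cm CB) (hmono : Monotone θs) {K : ℝ}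
    (hK : 0 ≤ K) (v : V) {A B : ℝ} (hA : 0 < A) (hB : 0 ≤ B)
    (hTb : ∀ Q : ℝ, 1 ≤ Q → ∀ τ ∈ Ioc 0 τ₁, ∀ N : ℕ, ∑ r ∈ Finset.Ioc (RF A τ₁ τ) N, (r : ℝ) *
      ∑ i ∈ Finset.range r, WW (wN c Cw ((d : ℝ) - 1) Q τ) i * WW (wN c Cw ((d : ℝ) - 1) Q τ) (r - 1 - i) ≤
        B * Q ^ (1 / 2 : ℝ)) :
    ∃ (b : ℕ → ℝ → ℝ) (e : ℕ → ℕ → ℝ → ℝ),
      (∀ p, IntervalIntegrable (b p) volume 0 τ₁) ∧ (∀ p τ, 0 ≤ b p τ) ∧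
      Tendsto (fun p : ℕ => (1 / (p : ℝ)) * ∫ τ in (0 : ℝ)..τ₁, b p τ) atTop (𝓝 0) ∧
      (∀ j k, IntervalIntegrable (e j k) volume 0 τ₁) ∧ (∀ j k τ, 0 ≤ e j k τ) ∧
      Tendsto (fun jk : ℕ × ℕ => ∫ τ in (0 : ℝ)..τ₁, e jk.1 jk.2 τ) (atTop ×ˢ atTop) (𝓝 0) ∧
      ∀ j k, ∀ τ ∈ Ioc 0 τ₁, ∀ p : ℕ, 2 ≤ p →
        ∑' r, ∑ y ∈ sphere G v r, ∫ ω, Xp K G (θs j) (θs k) (kap ε) ω τ v y ∂(PP V) ≤
          b p τ * Sd G (θs j) (θs k) (kap ε) τ v ^ (1 - 1 / (p : ℝ)) + e j k τ := by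
  have hG := I.hG
  have hτ₁ := I.hτ₁
  have hτ₁0 : 0 ≤ τ₁ := by linarith
  have hd3 : 3 ≤ d := hG.hd
  -- a neighbour
  obtain ⟨v₁, hv⟩ : ∃ v₁, G.Adj v v₁ := by
    have h1 : (G.neighborFinset v).card = d := by
      rw [G.card_neighborFinset_eq_degree, hG.reg v]
    have h2 : (G.neighborFinset v).Nonempty := by
      rw [← Finset.card_pos, h1]
      omega
    obtain ⟨x, hx⟩ := h2
    exact ⟨x, by simpa using hx⟩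
  obtain ⟨C₂, hC₂0, hC₂⟩ := (ellF_bounds hτ₁).2.2 2
  obtain ⟨C₃, hC₃0, hC₃⟩ := (ellF_bounds hτ₁).2.2 3
  obtain ⟨Bb, E₁, E₂, hBb, hE₁, hE₂, hmain⟩ := I.main_pointwise hK hA hB hTb hC₂ hC₂0.le hv
  have hI0 : IntervalIntegrable (fun τ : ℝ => |τ| ^ (-(19 / 20) : ℝ)) volume 0 τ₁ :=
    intervalIntegrable_master hτ₁0
  set ψ : ℕ → ℕ → ℝ → ℝ := fun j k τ => ∫ ω, fPair G (θs j) (θs k) (kap ε) ω τ v v₁ ∂(PP V) with hψ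
  have hψm : ∀ j k, Measurable (ψ j k) := by
    intro j k
    have hjoint : Measurable fun p : ℝ × Om V => fPair G (θs j) (θs k) (kap ε) p.2 p.1 v v₁ :=
      (measurable_aOf_comp (I.hmeas (θs j) v) (I.hmeas (θs j) v₁) (θs j)).sub
        (measurable_aOf_comp (I.hmeas (θs k) v) (I.hmeas (θs k) v₁) (θs k))
    exact (hjoint.stronglyMeasurable.integral_prod_right' (ν := PP V)).measurable
  set δ : ℕ → ℕ → ℝ := fun j k => |θs j - θs k| with hδ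
  set F : ℕ → ℕ → ℝ → ℝ := fun j k τ => E₁ * (δ j k ^ 2 + δ j k ^ (1 / 2 : ℝ)) * τ ^ (-(19 / 20) : ℝ) +
    E₂ * (ellF τ₁ τ ^ 3 * (τ⁻¹) ^ 2 * ψ j k τ ^ 2) with hF
  have hFm : ∀ j k, Measurable (F j k) := by
    intro j k
    refine Measurable.add ((measurable_id.pow_const _).const_mul _) (Measurable.const_mul ?_ _)
    exact (((measurable_ellF (τ₁ := τ₁)).pow_const 3).mul (measurable_inv.pow_const 2)).mul ((hψm j k).pow_const 2)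
  have hδ0 : ∀ j k, 0 ≤ δ j k := fun j k => abs_nonneg _
  have hδ1 : ∀ j k, δ j k ≤ 1 := by
    intro j k
    have h1 := thetaRange_le hd3 (I.hr j)
    have h2 := thetaRange_le hd3 (I.hr k)
    have h3 := (I.hr j).1
    have h4 := (I.hr k).1
    simp only [hδ]
    rw [abs_le]
    constructor <;> linarith
  set g0 : ℝ := τ₁ ^ (19 / 20 : ℝ) with hg0
  have hg00 : 0 < g0 := g0_pos hτ₁
  set Bd : ℝ := E₁ * 2 + E₂ * ((4 * L * Cm) ^ 2 * C₃ * g0) with hBd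
  have hL := I.L0
  have hCm := I.Cm0
  have hBd0 : 0 ≤ Bd := by positivity
  have hF0 : ∀ j k, ∀ τ ∈ Ioc 0 τ₁, 0 ≤ F j k τ := by
    intro j k τ hτ
    have h1 := ellF_ge_one hτ.1 hτ.2
    have h2 : 0 ≤ ellF τ₁ τ := by linarith
    have h3 := Real.rpow_nonneg hτ.1.le (-(19 / 20) : ℝ)
    have h4 := Real.rpow_nonneg (hδ0 j k) (1 / 2 : ℝ)
    simp only [hF]
    positivity
  have hFb : ∀ j k, ∀ τ ∈ Ioc 0 τ₁, F j k τ ≤ Bd * τ ^ (-(19 / 20) : ℝ) := by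
    intro j k τ hτ
    have hT0 := Real.rpow_nonneg hτ.1.le (-(19 / 20) : ℝ)
    have hℓ1 := ellF_ge_one hτ.1 hτ.2
    have h1 : δ j k ^ 2 + δ j k ^ (1 / 2 : ℝ) ≤ 2 := by
      have h2 : δ j k ^ 2 ≤ 1 := pow_le_one₀ (hδ0 j k) (hδ1 j k)
      have h3 : δ j k ^ (1 / 2 : ℝ) ≤ 1 := Real.rpow_le_one (hδ0 j k) (hδ1 j k) (by norm_num)
      linarith
    have h2 : |ψ j k τ| ≤ 4 * L * Cm * τ := I.abs_integral_fPair_le (I.hr j) (I.hr k) hτ v v₁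
    have h3 : (τ⁻¹) ^ 2 * ψ j k τ ^ 2 ≤ (4 * L * Cm) ^ 2 := by
      have h4 : ψ j k τ ^ 2 ≤ (4 * L * Cm * τ) ^ 2 := by
        rw [← sq_abs]
        exact pow_le_pow_left₀ (abs_nonneg _) h2 2
      have hτne : τ ≠ 0 := hτ.1.ne'
      calc _ ≤ (τ⁻¹) ^ 2 * (4 * L * Cm * τ) ^ 2 := mul_le_mul_of_nonneg_left h4 (sq_nonneg _)
        _ = _ := by
          field_simp
    have h5 : ellF τ₁ τ ^ 3 ≤ C₃ * (g0 * τ ^ (-(19 / 20) : ℝ)) := by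
      refine (hC₃ τ hτ).trans (mul_le_mul_of_nonneg_left ?_ hC₃0.le)
      exact rpow_neg_le_master hτ.1 hτ.2 hτ₁ (by norm_num) (by norm_num)
    have hℓ0 : 0 ≤ ellF τ₁ τ ^ 3 := pow_nonneg (by linarith) 3
    have h6 : ellF τ₁ τ ^ 3 * (τ⁻¹) ^ 2 * ψ j k τ ^ 2 ≤
        (C₃ * (g0 * τ ^ (-(19 / 20) : ℝ))) * (4 * L * Cm) ^ 2 := by
      rw [mul_assoc]
      exact mul_le_mul h5 h3 (by positivity) (by positivity)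
    simp only [hF, hBd]
    calc _ ≤ E₁ * 2 * τ ^ (-(19 / 20) : ℝ) +
          E₂ * ((C₃ * (g0 * τ ^ (-(19 / 20) : ℝ))) * (4 * L * Cm) ^ 2) := by
          refine add_le_add ?_ (mul_le_mul_of_nonneg_left h6 hE₂)
          exact mul_le_mul_of_nonneg_right (mul_le_mul_of_nonneg_left h1 hE₁) hT0
      _ = _ := by ring
  -- convergence of `δ`
  have hδlim : Tendsto (fun jk : ℕ × ℕ => δ jk.1 jk.2) (atTop ×ˢ atTop) (𝓝 0) := by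
    have hbdd : BddAbove (Set.range θs) := ⟨3 / 4, by
      rintro _ ⟨j, rfl⟩
      exact thetaRange_le hd3 (I.hr j)⟩
    have hlim := tendsto_atTop_ciSup hmono hbdd
    have h1 := ((hlim.comp tendsto_fst).sub (hlim.comp tendsto_snd)).abs
    simpa using h1
  refine ⟨fun p τ => Bb * ((p : ℝ) ^ (9 / 10 : ℝ) * |τ| ^ (-(19 / 20) : ℝ)),
    fun j k => (Ioc 0 τ₁).indicator (F j k), ?_, ?_, ?_, ?_, ?_, ?_, ?_⟩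
  · intro p
    exact (hI0.const_mul _).const_mul _
  · intro p τ
    have h1 := Real.rpow_nonneg (abs_nonneg τ) (-(19 / 20) : ℝ)
    have h2 := Real.rpow_nonneg (Nat.cast_nonneg p : (0 : ℝ) ≤ p) (9 / 10 : ℝ)
    positivity
  · set J := ∫ τ in (0 : ℝ)..τ₁, |τ| ^ (-(19 / 20) : ℝ) with hJ
    have e1 : ∀ p : ℕ, (1 / (p : ℝ)) * ∫ τ in (0 : ℝ)..τ₁, Bb * ((p : ℝ) ^ (9 / 10 : ℝ) * |τ| ^ (-(19 / 20) : ℝ)) =
        Bb * J * ((1 / (p : ℝ)) * (p : ℝ) ^ (9 / 10 : ℝ)) := by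
      intro p
      rw [intervalIntegral.integral_const_mul, intervalIntegral.integral_const_mul]
      ring
    simp only [e1]
    have h1 : Tendsto (fun p : ℕ => ((p : ℝ)) ^ (-(1 / 10) : ℝ)) atTop (𝓝 0) :=
      (tendsto_rpow_neg_atTop (by norm_num : (0 : ℝ) < 1 / 10)).comp tendsto_natCast_atTop_atTop
    have h2 : Tendsto (fun p : ℕ => (1 / (p : ℝ)) * (p : ℝ) ^ (9 / 10 : ℝ)) atTop (𝓝 0) := by
      refine h1.congr' ?_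
      filter_upwards [eventually_ge_atTop 1] with p hp
      have hp0 : (0 : ℝ) < p := by exact_mod_cast hp
      have e2 : (1 / (p : ℝ)) * (p : ℝ) ^ (9 / 10 : ℝ) = (p : ℝ) ^ (-(1 / 10) : ℝ) := by
        rw [one_div, ← Real.rpow_neg_one, ← Real.rpow_add hp0]
        norm_num
      exact e2.symm
    have h3 := h2.const_mul (Bb * J)
    simpa using h3
  · intro j k
    rw [intervalIntegrable_iff_integrableOn_Ioc_of_le hτ₁0]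
    have hI1 : IntegrableOn (fun τ : ℝ => |τ| ^ (-(19 / 20) : ℝ)) (Ioc 0 τ₁) :=
      (intervalIntegrable_iff_integrableOn_Ioc_of_le hτ₁0).mp hI0
    refine Integrable.mono' (hI1.integrable.const_mul Bd)
      (((hFm j k).indicator measurableSet_Ioc).aestronglyMeasurable) ?_
    refine (ae_restrict_iff' measurableSet_Ioc).mpr (Eventually.of_forall fun τ hτ => ?_)
    show ‖(Ioc 0 τ₁).indicator (F j k) τ‖ ≤ Bd * |τ| ^ (-(19 / 20) : ℝ)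
    rw [Set.indicator_of_mem hτ, Real.norm_of_nonneg (hF0 j k τ hτ), abs_of_pos hτ.1]
    exact hFb j k τ hτ
  · intro j k τ
    exact Set.indicator_nonneg (hF0 j k) τ
  · have hbound : IntervalIntegrable (fun τ : ℝ => Bd * |τ| ^ (-(19 / 20) : ℝ)) volume 0 τ₁ :=
      hI0.const_mul _
    have hDCT := intervalIntegral.tendsto_integral_filter_of_dominated_convergence
      (a := 0) (b := τ₁) (μ := volume) (f := fun _ => (0 : ℝ)) (l := atTop ×ˢ atTop)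
      (F := fun (jk : ℕ × ℕ) => (Ioc 0 τ₁).indicator (F jk.1 jk.2))
      (fun τ : ℝ => Bd * |τ| ^ (-(19 / 20) : ℝ))
      (Eventually.of_forall fun jk =>
        ((hFm jk.1 jk.2).indicator measurableSet_Ioc).aestronglyMeasurable)
      (Eventually.of_forall fun jk => Eventually.of_forall fun τ hτ => by
        rw [uIoc_of_le hτ₁0] at hτ
        show ‖(Ioc 0 τ₁).indicator (F jk.1 jk.2) τ‖ ≤ Bd * |τ| ^ (-(19 / 20) : ℝ)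
        rw [Set.indicator_of_mem hτ, Real.norm_of_nonneg (hF0 _ _ τ hτ), abs_of_pos hτ.1]
        exact hFb _ _ τ hτ)
      hbound
      (Eventually.of_forall fun τ hτ => by
        rw [uIoc_of_le hτ₁0] at hτ
        simp only [Set.indicator_of_mem hτ]
        have h1 : Tendsto (fun jk : ℕ × ℕ => δ jk.1 jk.2 ^ 2 + δ jk.1 jk.2 ^ (1 / 2 : ℝ))
            (atTop ×ˢ atTop) (𝓝 (0 ^ 2 + 0 ^ (1 / 2 : ℝ))) :=
          (hδlim.pow 2).add (hδlim.rpow_const (Or.inr (by norm_num)))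
        have h2 : Tendsto (fun jk : ℕ × ℕ => ψ jk.1 jk.2 τ) (atTop ×ˢ atTop) (𝓝 0) := I.hpsi v₁ v hv τ hτ
        have h3 := ((h1.const_mul E₁).mul_const (τ ^ (-(19 / 20) : ℝ))).add
          (((h2.pow 2).const_mul (ellF τ₁ τ ^ 3 * (τ⁻¹) ^ 2)).const_mul E₂)
        have hz : (0 : ℝ) ^ (1 / 2 : ℝ) = 0 := Real.zero_rpow (by norm_num)
        simpa [hF, hz] using h3)
    simpa using hDCT
  · intro j k τ hτ p hp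
    have h1 := hmain (θs j) (θs k) (I.hr j) (I.hr k) τ hτ p hp
    simp only [Set.indicator_of_mem hτ, abs_of_pos hτ.1]
    exact h1

end MainInputs

/-- `main_ineq` from the statements of the other tasks. -/
theorem main_ineq_of (hG : Tree G d) {K : ℝ} (hK : 0 ≤ K) {ε τ₁ : ℝ} (h0 : 0 < ε) (h1 : ε ≤ 1 / 2)
    (hτ₁ : 1 ≤ τ₁) {θs : ℕ → ℝ} (hmono : Monotone θs) (hr : ∀ j, ThetaRange d (θs j)) (v : V)
    (habs : ∃ t : ℝ, 0 ≤ t ∧ t < 1 ∧ ∀ θ, 0 ≤ θ → θ ≤ 3 / 4 → ∀ ω τ v, τ ≤ τ₁ →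
      |mInf G θ (kap ε) ω τ v| ≤ t)
    (hmeas : ∀ θ v, Measurable fun p : ℝ × Om V => mInf G θ (kap ε) p.2 p.1 v)
    (hact : ∀ θ (g : G ≃g G) ω τ v, mInf G θ (kap ε) (act g ω) τ v = mInf G θ (kap ε) ω τ (g v))
    (hmap : ∀ g : G ≃g G, MeasurePreserving (act g : Om V → Om V) (PP V) (PP V))
    (hbethe : ∃ L : ℝ, 0 < L ∧ ∀ θ θ' a b a' b' : ℝ, 0 ≤ θ → θ ≤ 3 / 4 → 0 ≤ θ' → θ' ≤ 3 / 4 →
      |a| ≤ 1 → |b| ≤ 1 → |a'| ≤ 1 → |b'| ≤ 1 →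
        |nuOf θ a b| ≤ 1 ∧
        |nuOf θ a b| ≤ L * (|a| + |b|) ∧
        |nuOf θ a b - nuOf θ' a' b'| ≤ L * (|a - a'| + |b - b'| + |θ - θ'|) ∧
        0 ≤ uOf θ a b ∧ uOf θ a b ≤ 1 ∧
        |uOf θ a b - uOf θ' a' b'| ≤ L * (|a - a'| + |b - b'| + |θ - θ'|))
    (haOf : ∀ t : ℝ, 0 ≤ t → t < 1 → ∃ L : ℝ, 0 < L ∧ ∀ θ θ' a b a' b' : ℝ, 0 ≤ θ → θ ≤ 3 / 4 → 0 ≤ θ' → θ' ≤ 3 / 4 →
      |a| ≤ t → |b| ≤ t → |a'| ≤ t → |b'| ≤ t →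
        0 ≤ aOf θ a b ∧ aOf θ a b ≤ L * (|a| + |b|) ^ 2 ∧ Real.exp (- aOf θ a b) = uOf θ a b ∧
        |aOf θ a b - aOf θ' a' b'| ≤
          L * (|a| + |b| + |a'| + |b'|) * (|a - a'| + |b - b'| + |θ - θ'|))
    (hrev : ∀ θ, ThetaRange d θ → ∀ τ ∈ Ioc 0 τ₁, ∀ (x : ℕ → V) (r : ℕ), IsGeod G x r →
      ∀ᵐ ω ∂(PP V), pathCov θ (fun u => mInf G θ (kap ε) ω τ u) x r =
        pathCov θ (fun u => mInf G θ (kap ε) ω τ u) (fun i => x (r - i)) r)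
    (hrow : ∃ C : ℝ, 0 < C ∧ ∀ θ, ThetaRange d θ → ∀ τ ∈ Ioc 0 τ₁, ∀ v, ∀ P : ℕ, 1 ≤ P →
      lpN (PP V) (fun ω => rowSum G θ (kap ε) ω τ v) P ≤ C * (1 / τ + Real.log (P + 1)))
    (hwt : ∃ c C : ℝ, 0 < c ∧ 0 < C ∧ ∀ θ, ThetaRange d θ → ∀ τ ∈ Ioc 0 τ₁, ∀ x p, G.Adj p x → ∀ (n P : ℕ), 1 ≤ P →
      (θ ^ 2 * ((d : ℝ) - 1)) ^ n *
          lpN (PP V) (fun ω => wTree G θ (d - 1) (fun u => mInf G θ (kap ε) ω τ u) n p x) P ≤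
        min 1 (C * Real.exp (- c * τ * n) + P * ((d : ℝ) - 1) ^ (-(n : ℝ) / 2)))
    (hmom : ∃ C : ℝ, 0 < C ∧ ∀ θ, ThetaRange d θ → ∀ τ ∈ Ioc 0 τ₁, ∀ v, ∀ P : ℕ, 1 ≤ P →
      (∫ ω, mInf G θ (kap ε) ω τ v ^ (2 * P) ∂(PP V)) ^ (1 / (P : ℝ)) ≤ C * P ^ 3 * τ)
    (hbsv : ∃ C : ℝ, 0 < C ∧ ∀ θ θ', ThetaRange d θ → ThetaRange d θ' → ∀ τ ∈ Ioc 0 τ₁,
      ∀ (x : ℕ → V) (r : ℕ), IsGeod G x r → 1 ≤ r →
      ∫ ω, (∑ i ∈ Finset.range r, (fPair G θ θ' (kap ε) ω τ (x i) (x (i + 1)) -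
          ∫ ω', fPair G θ θ' (kap ε) ω' τ (x 0) (x 1) ∂(PP V))) ^ 2 ∂(PP V) ≤
        C * r * ∫ ω, fPair G θ θ' (kap ε) ω τ (x 0) (x 1) ^ 2 ∂(PP V))
    (hpsi : ∀ x p, G.Adj p x → ∀ τ ∈ Ioc 0 τ₁,
      Tendsto (fun jk : ℕ × ℕ => ∫ ω, fPair G (θs jk.1) (θs jk.2) (kap ε) ω τ p x ∂(PP V))
        (atTop ×ˢ atTop) (𝓝 0)) :
    ∃ (b : ℕ → ℝ → ℝ) (e : ℕ → ℕ → ℝ → ℝ),
      (∀ p, IntervalIntegrable (b p) volume 0 τ₁) ∧ (∀ p τ, 0 ≤ b p τ) ∧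
      Tendsto (fun p : ℕ => (1 / (p : ℝ)) * ∫ τ in (0 : ℝ)..τ₁, b p τ) atTop (𝓝 0) ∧
      (∀ j k, IntervalIntegrable (e j k) volume 0 τ₁) ∧ (∀ j k τ, 0 ≤ e j k τ) ∧
      Tendsto (fun jk : ℕ × ℕ => ∫ τ in (0 : ℝ)..τ₁, e jk.1 jk.2 τ) (atTop ×ˢ atTop) (𝓝 0) ∧
      ∀ j k, ∀ τ ∈ Ioc 0 τ₁, ∀ p : ℕ, 2 ≤ p →
        ∑' r, ∑ y ∈ sphere G v r, ∫ ω, Xp K G (θs j) (θs k) (kap ε) ω τ v y ∂(PP V) ≤
          b p τ * Sd G (θs j) (θs k) (kap ε) τ v ^ (1 - 1 / (p : ℝ)) + e j k τ := by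
  have hd3 : 3 ≤ d := hG.hd
  have hθ34 : ∀ θ, ThetaRange d θ → 0 ≤ θ ∧ θ ≤ 3 / 4 := fun θ h => ⟨h.1, thetaRange_le hd3 h⟩
  obtain ⟨t, ht0, ht1, hbd⟩ := habs
  obtain ⟨L₁, hL₁, hB⟩ := hbethe
  obtain ⟨L₂, hL₂, hAO⟩ := haOf t ht0 ht1
  obtain ⟨Cρ, hCρ, hrow⟩ := hrow
  obtain ⟨c, Cw, hc, hCw, hwt⟩ := hwt
  obtain ⟨Cm, hCm, hmom⟩ := hmom
  obtain ⟨CB, hCB, hbsv⟩ := hbsv
  set L := max L₁ L₂ with hL
  have hL0 : 0 < L := lt_max_of_lt_left hL₁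
  have htle : t ≤ 1 := ht1.le
  have I : MainInputs G d ε τ₁ θs t L Cρ c Cw Cm CB := {
    hG := hG
    ε0 := h0
    ε1 := h1
    hτ₁ := hτ₁
    hr := hr
    t0 := ht0
    t1 := ht1
    hbd := fun θ hθ ω τ v hτ => hbd θ (hθ34 θ hθ).1 (hθ34 θ hθ).2 ω τ v hτ
    hmeas := hmeas
    hact := hact
    hmap := hmap
    L0 := hL0
    hu := by
      intro θ θ' a b a' b' hθ hθ' h1 h2 h3 h4
      obtain ⟨-, -, -, h5, h6, h7⟩ := hB θ θ' a b a' b' (hθ34 θ hθ).1 (hθ34 θ hθ).2 (hθ34 θ' hθ').1 (hθ34 θ' hθ').2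
        (h1.trans htle) (h2.trans htle) (h3.trans htle) (h4.trans htle)
      refine ⟨h5, h6, h7.trans (mul_le_mul_of_nonneg_right (le_max_left _ _) ?_)⟩
      positivity
    ha := by
      intro θ θ' a b a' b' hθ hθ' h1 h2 h3 h4
      obtain ⟨h5, h6, h7, h8⟩ := hAO θ θ' a b a' b' (hθ34 θ hθ).1 (hθ34 θ hθ).2 (hθ34 θ' hθ').1 (hθ34 θ' hθ').2
        h1 h2 h3 h4
      refine ⟨h5, h6.trans (mul_le_mul_of_nonneg_right (le_max_right _ _) (by positivity)), h7,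
        h8.trans (mul_le_mul_of_nonneg_right (mul_le_mul_of_nonneg_right (le_max_right _ _) (by positivity))
          (by positivity))⟩
    hrev := hrev
    hrow := hrow
    Cρ0 := hCρ
    c0 := hc
    Cw0 := hCw
    hwt := hwt
    Cm0 := hCm
    hmom := hmom
    CB0 := hCB
    hbsv := hbsv
    hpsi := hpsi }
  have hD2 : (2 : ℝ) ≤ (d : ℝ) - 1 := by
    have : (3 : ℝ) ≤ d := by exact_mod_cast hd3
    linarith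
  obtain ⟨A, B, hA, hB0, hTb⟩ := T_bound (c := c) (C := Cw) (D := (d : ℝ) - 1) hc hCw hD2 hτ₁
  exact I.main_ineq_core hmono hK v hA hB0.le hTb

end Crest.Agent.Lib.IsingFIID
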