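/-
Row 160 (S0241), Task LA: monotonicity in `θ` of `E Ψ(m)` for even convex `Ψ`.

Mathematics.  On a subtree `W` the Ising law with parameter `t θ'` is the law of the componentwise
product of independent Ising laws with parameters `t` and `θ'` (convolution identity `sum_iw_xor`,
because the edge products of an Ising configuration on a tree are independent).  Flipping the noises
`U → 1 - U` on the vertices of a pattern `B` flips the likelihood at those vertices and preserves
the law of the labels.  Hence the planted law for `t θ'` is a mixture of flipped copies of the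
planted law for `θ'`, and Jensen for the perspective `(a,b) ↦ a Ψ(b/a)` finishes.
-/
import Crest.Agent.Lib.IsingFIID.Basic

set_option autoImplicit false
set_option linter.unusedSectionVars false

namespace Crest.Agent.Lib.IsingFIID

open MeasureTheory Filter Topology Set SimpleGraph
open scoped ENNReal

variable {V : Type*} [DecidableEq V] {G : SimpleGraph V}

namespace ConvexMono

/-! ### Leaf decomposition of windows -/

/-- A window with at least two vertices has a leaf. -/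
lemma win_exists_leaf (hT : G.IsAcyclic) {W : Finset V} (hW : IsWin G W) (h2 : 2 ≤ W.card) :
    ∃ ℓ ∈ W, ∃ p ∈ W.erase ℓ, G.Adj ℓ p ∧ (∀ q ∈ W.erase ℓ, G.Adj ℓ q → q = p) ∧
      IsWin G (W.erase ℓ) := by
  classical
  have htree : (G.induce (W : Set V)).IsTree := ⟨hW, hT.induce _⟩
  have : Fintype (W : Set V) := inferInstance
  have : Nontrivial (W : Set V) := by
    rw [Set.nontrivial_coe_sort]
    exact Finset.one_lt_card_iff_nontrivial.1 h2
  obtain ⟨ℓ, hℓ⟩ := htree.exists_vert_degree_one_of_nontrivial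
  obtain ⟨u, hu, huniq⟩ := SimpleGraph.degree_eq_one_iff_existsUnique_adj.mp hℓ
  have hconn := htree.1.induce_compl_singleton_of_degree_eq_one hℓ
  have hℓW : ℓ.1 ∈ W := ℓ.2
  have huW : u.1 ∈ W := u.2
  have hne : u.1 ≠ ℓ.1 := by
    intro h
    have : G.Adj ℓ.1 u.1 := hu
    exact this.ne h.symm
  refine ⟨ℓ.1, hℓW, u.1, Finset.mem_erase.2 ⟨hne, huW⟩, hu, ?_, ?_⟩
  · intro q hq hadj
    have hqW : q ∈ W := Finset.mem_of_mem_erase hq
    have := huniq ⟨q, hqW⟩ hadj
    exact congrArg Subtype.val this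
  · let f : (G.induce (W : Set V)).induce ({ℓ}ᶜ : Set (W : Set V)) →g
        G.induce ((W.erase ℓ.1 : Finset V) : Set V) :=
      { toFun := fun a => ⟨a.1.1, by
          have h1 : a.1 ≠ ℓ := a.2
          have h2 : a.1.1 ≠ ℓ.1 := fun h => h1 (Subtype.ext h)
          exact Finset.mem_coe.2 (Finset.mem_erase.2 ⟨h2, a.1.2⟩)⟩
        map_rel' := fun {a b} hab => hab }
    have hsurj : Function.Surjective f := by
      rintro ⟨a, ha⟩
      have ha' := Finset.mem_erase.1 (Finset.mem_coe.1 ha)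
      refine ⟨⟨⟨a, ha'.2⟩, ?_⟩, rfl⟩
      intro h
      have : (⟨a, ha'.2⟩ : (W : Set V)) = ℓ := h
      exact ha'.1 (congrArg Subtype.val this)
    have : Nonempty ((W.erase ℓ.1 : Finset V) : Set V) :=
      ⟨⟨u.1, Finset.mem_coe.2 (Finset.mem_erase.2 ⟨hne, huW⟩)⟩⟩
    refine (SimpleGraph.connected_iff _).mpr ⟨fun a b => ?_, inferInstance⟩
    obtain ⟨a', rfl⟩ := hsurj a
    obtain ⟨b', rfl⟩ := hsurj b
    exact (hconn.preconnected a' b').map f

/-- Induction on windows by removing leaves. -/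
lemma win_induction (hT : G.IsAcyclic) {P : Finset V → Prop} (single : ∀ r, P {r})
    (step : ∀ (W₀ : Finset V) (ℓ p : V), IsWin G W₀ → ℓ ∉ W₀ → p ∈ W₀ → G.Adj ℓ p →
      (∀ q ∈ W₀, G.Adj ℓ q → q = p) → P W₀ → P (insert ℓ W₀)) :
    ∀ W : Finset V, IsWin G W → P W := by
  intro W
  induction' hn : W.card using Nat.strong_induction_on with n ih generalizing W
  intro hW
  by_cases h2 : 2 ≤ W.card
  · obtain ⟨ℓ, hℓ, p, hp, hadj, huniq, hW₀⟩ := win_exists_leaf hT hW h2
    have hins : insert ℓ (W.erase ℓ) = W := Finset.insert_erase hℓ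
    rw [← hins]
    have hcard : (W.erase ℓ).card < n := by
      rw [Finset.card_erase_of_mem hℓ]; omega
    exact step _ ℓ p hW₀ (Finset.notMem_erase ℓ W) hp hadj huniq (ih _ hcard _ rfl hW₀)
  · have hne : W.Nonempty := by
      obtain ⟨a⟩ := hW.nonempty
      exact ⟨a.1, Finset.mem_coe.1 a.2⟩
    have h1 : W.card = 1 := by
      have := Finset.card_pos.2 hne
      omega
    obtain ⟨r, rfl⟩ := Finset.card_eq_one.1 h1
    exact single r

/-! ### The Ising weight over a leaf -/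

local notation "iw" => Crest.ProbabilityR.TreeIsing.isingWeight

lemma iw_congr {S : Finset V} {θ : ℝ} {η η' : V → Bool} (h : ∀ v ∈ S, η v = η' v) :
    iw G θ S η = iw G θ S η' := by
  classical
  unfold Crest.ProbabilityR.TreeIsing.isingWeight
  congr 1
  refine Finset.prod_congr rfl fun e he => ?_
  have he' := (Finset.mem_filter.1 he).1
  rw [Finset.mem_sym2_iff] at he'
  induction e using Sym2.ind with
  | _ a b =>
    have ha := h a (he' a (by simp))
    have hb := h b (he' b (by simp))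
    simp only [Sym2.map_mk, Sym2.mk_isDiag_iff, ha, hb]

lemma iw_singleton (θ : ℝ) (r : V) (η : V → Bool) : iw G θ {r} η = 1 / 2 := by
  classical
  unfold Crest.ProbabilityR.TreeIsing.isingWeight
  have : ∀ e ∈ ({r} : Finset V).sym2, e ∉ G.edgeSet := by
    intro e he
    rw [Finset.mem_sym2_iff] at he
    induction e using Sym2.ind with
    | _ a b =>
      have ha := Finset.mem_singleton.1 (he a (by simp))
      have hb := Finset.mem_singleton.1 (he b (by simp))
      subst ha; subst hb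
      simp
  rw [Finset.filter_false_of_mem this]
  simp

/-- Factorisation of the Ising weight over a leaf. -/
lemma iw_insert {W₀ : Finset V} {ℓ p : V} (hℓ : ℓ ∉ W₀) (hp : p ∈ W₀) (hadj : G.Adj ℓ p)
    (huniq : ∀ q ∈ W₀, G.Adj ℓ q → q = p) (θ : ℝ) (η : V → Bool) :
    iw G θ (insert ℓ W₀) η =
      iw G θ W₀ η * (if η ℓ = η p then (1 + θ) / 2 else (1 - θ) / 2) := by
  classical
  unfold Crest.ProbabilityR.TreeIsing.isingWeight
  have hset : ((insert ℓ W₀).sym2.filter fun e => e ∈ G.edgeSet) =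
      insert s(ℓ, p) (W₀.sym2.filter fun e => e ∈ G.edgeSet) := by
    ext e
    induction e using Sym2.ind with
    | _ a b =>
      simp only [Finset.mem_filter, Finset.mk_mem_sym2_iff, Finset.mem_insert,
        SimpleGraph.mem_edgeSet, Sym2.eq_iff]
      constructor
      · rintro ⟨⟨ha | ha, hb | hb⟩, hab⟩
        · subst ha; subst hb; exact absurd hab (G.irrefl)
        · subst ha
          have := huniq b hb hab
          subst this; exact Or.inl (Or.inl ⟨rfl, rfl⟩)
        · subst hb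
          have := huniq a ha hab.symm
          subst this; exact Or.inl (Or.inr ⟨rfl, rfl⟩)
        · exact Or.inr ⟨⟨ha, hb⟩, hab⟩
      · rintro ((⟨rfl, rfl⟩ | ⟨rfl, rfl⟩) | ⟨⟨ha, hb⟩, hab⟩)
        · exact ⟨⟨Or.inl rfl, Or.inr hp⟩, hadj⟩
        · exact ⟨⟨Or.inr hp, Or.inl rfl⟩, hadj.symm⟩
        · exact ⟨⟨Or.inr ha, Or.inr hb⟩, hab⟩
  have hnot : s(ℓ, p) ∉ (W₀.sym2.filter fun e => e ∈ G.edgeSet) := by
    simp only [Finset.mem_filter, Finset.mk_mem_sym2_iff, not_and]
    intro h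
    exact absurd h.1 hℓ
  rw [hset, Finset.prod_insert hnot]
  simp only [Sym2.map_mk, Sym2.mk_isDiag_iff]
  ring

/-! ### The convolution identity -/

/-- `B ↦ ` indicator of a pattern. -/
def dec (B : Finset V) (v : V) : Bool := decide (v ∈ B)

lemma dec_insert_of_mem {B : Finset V} {ℓ v : V} (hv : v ≠ ℓ) : dec (insert ℓ B) v = dec B v := by
  simp [dec, Finset.mem_insert, hv]

lemma edge_sum (t θ : ℝ) (b x y : Bool) :
    (if false = b then (1 + t) / 2 else (1 - t) / 2) *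
        (if xor x false = xor y b then (1 + θ) / 2 else (1 - θ) / 2) +
      (if true = b then (1 + t) / 2 else (1 - t) / 2) *
        (if xor x true = xor y b then (1 + θ) / 2 else (1 - θ) / 2) =
      if x = y then (1 + t * θ) / 2 else (1 - t * θ) / 2 := by
  cases b <;> cases x <;> cases y <;> simp <;> ring

lemma edge_sum_one (t : ℝ) (b : Bool) :
    (if false = b then (1 + t) / 2 else (1 - t) / 2) +
      (if true = b then (1 + t) / 2 else (1 - t) / 2) = 1 := by
  cases b <;> simp <;> ring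

lemma sum_powerset_singleton (r : V) (f : Finset V → ℝ) :
    ∑ B ∈ ({r} : Finset V).powerset, f B = f ∅ + f {r} := by
  have : ({r} : Finset V) = insert r ∅ := rfl
  rw [this, Finset.sum_powerset_insert (Finset.notMem_empty r)]
  simp

/-- Total mass. -/
theorem sum_iw (hT : G.IsAcyclic) (t : ℝ) {W : Finset V} (hW : IsWin G W) :
    ∑ B ∈ W.powerset, iw G t W (dec B) = 1 := by
  refine win_induction hT (P := fun W => ∑ B ∈ W.powerset, iw G t W (dec B) = 1) ?_ ?_ W hW
  · intro r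
    rw [sum_powerset_singleton, iw_singleton, iw_singleton]
    norm_num
  · intro W₀ ℓ p _ hℓ hp hadj huniq ih
    rw [Finset.sum_powerset_insert hℓ, ← Finset.sum_add_distrib, ← ih]
    refine Finset.sum_congr rfl fun B hB => ?_
    have hBW := Finset.mem_powerset.1 hB
    have hℓB : ℓ ∉ B := fun h => hℓ (hBW h)
    have hpℓ : p ≠ ℓ := fun h => hℓ (h ▸ hp)
    rw [iw_insert hℓ hp hadj huniq, iw_insert hℓ hp hadj huniq]
    have hne : ∀ v ∈ W₀, v ≠ ℓ := fun v hv h => hℓ (h ▸ hv)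
    have h1 : iw G t W₀ (dec (insert ℓ B)) = iw G t W₀ (dec B) :=
      iw_congr fun v hv => dec_insert_of_mem (hne v hv)
    rw [h1, dec_insert_of_mem hpℓ, ← mul_add]
    have h2 : dec (insert ℓ B) ℓ = true := by simp [dec]
    have h3 : dec B ℓ = false := by simp [dec, hℓB]
    rw [h2, h3, edge_sum_one, mul_one]

/-- The Ising law with parameter `t θ` is the componentwise product of the laws `t`, `θ`. -/
theorem sum_iw_xor (hT : G.IsAcyclic) (t θ : ℝ) {W : Finset V} (hW : IsWin G W) (η : V → Bool) :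
    ∑ B ∈ W.powerset, iw G t W (dec B) * iw G θ W (fun v => xor (η v) (dec B v)) =
      iw G (t * θ) W η := by
  refine win_induction hT (P := fun W => ∑ B ∈ W.powerset,
    iw G t W (dec B) * iw G θ W (fun v => xor (η v) (dec B v)) = iw G (t * θ) W η) ?_ ?_ W hW
  · intro r
    rw [sum_powerset_singleton]
    simp only [iw_singleton]
    norm_num
  · intro W₀ ℓ p _ hℓ hp hadj huniq ih
    rw [Finset.sum_powerset_insert hℓ, ← Finset.sum_add_distrib, iw_insert hℓ hp hadj huniq, ← ih,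
      Finset.sum_mul]
    refine Finset.sum_congr rfl fun B hB => ?_
    have hBW := Finset.mem_powerset.1 hB
    have hℓB : ℓ ∉ B := fun h => hℓ (hBW h)
    have hpℓ : p ≠ ℓ := fun h => hℓ (h ▸ hp)
    simp only [iw_insert hℓ hp hadj huniq]
    have hne : ∀ v ∈ W₀, v ≠ ℓ := fun v hv h => hℓ (h ▸ hv)
    have h1 : iw G t W₀ (dec (insert ℓ B)) = iw G t W₀ (dec B) :=
      iw_congr fun v hv => dec_insert_of_mem (hne v hv)
    have h1' : iw G θ W₀ (fun v => xor (η v) (dec (insert ℓ B) v)) =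
        iw G θ W₀ (fun v => xor (η v) (dec B v)) :=
      iw_congr fun v hv => by rw [dec_insert_of_mem (hne v hv)]
    rw [h1, h1', dec_insert_of_mem hpℓ]
    have h2 : dec (insert ℓ B) ℓ = true := by simp [dec]
    have h3 : dec B ℓ = false := by simp [dec, hℓB]
    rw [h2, h3]
    have := edge_sum t θ (dec B p) (η ℓ) (η p)
    rw [← this]
    ring

/-! ### Likelihood of a pattern -/

/-- Likelihood of the pattern `A` on the window `W`. -/
noncomputable def likW (κ : ℝ → ℝ) (W : Finset V) (ω : Om V) (τ : ℝ) (A : Finset V) : ℝ :=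
  ∏ v ∈ W, likV κ ω τ v (sp A v)

/-- Unnormalised planted mean of the spin at `v`. -/
noncomputable def likS (G : SimpleGraph V) (θ : ℝ) (κ : ℝ → ℝ) (W : Finset V) (ω : Om V) (τ : ℝ)
    (v : V) : ℝ :=
  ∑ A ∈ W.powerset, bw G θ W A * likW κ W ω τ A * sp A v

lemma lik_eq_sum (θ : ℝ) (κ : ℝ → ℝ) (W : Finset V) (ω : Om V) (τ : ℝ) :
    lik G θ κ W ω τ = ∑ A ∈ W.powerset, bw G θ W A * likW κ W ω τ A := rfl

lemma sp_eq (A : Finset V) (v : V) : sp A v = 1 ∨ sp A v = -1 := by
  unfold sp; split_ifs <;> simp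

lemma abs_sp (A : Finset V) (v : V) : |sp A v| = 1 := by
  rcases sp_eq A v with h | h <;> simp [h]

/-- The tilt of a ring. -/
noncomputable def tiltN (κ : ℝ → ℝ) (ω : Om V) (v : V) (n : ℕ) : ℝ :=
  κ (ringT ω v n) * (2 * (ω.2 (v, n) : ℝ) - 1)

lemma abs_tiltN_le {κ : ℝ → ℝ} (hκ : IsStrength κ) (ω : Om V) (v : V) (n : ℕ) :
    |tiltN κ ω v n| ≤ 1 / 2 := by
  unfold tiltN
  rw [abs_mul, abs_of_nonneg (hκ.nonneg _)]
  have h1 : |2 * (ω.2 (v, n) : ℝ) - 1| ≤ 1 := by
    rw [abs_le]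
    have h0 := (ω.2 (v, n)).2.1
    have h1 := (ω.2 (v, n)).2.2
    constructor <;> linarith
  have h2 := hκ.le (ringT ω v n)
  have h3 := hκ.nonneg (ringT ω v n)
  nlinarith

/-- `1 + x s = √(1-x²) exp(artanh x · s)`. -/
lemma one_add_mul_eq {x s : ℝ} (hx : |x| < 1) (hs : s = 1 ∨ s = -1) :
    1 + x * s = Real.sqrt (1 - x ^ 2) * Real.exp (Real.artanh x * s) := by
  obtain ⟨hx1, hx2⟩ := abs_lt.1 hx
  have hq2 : 0 < 1 - x ^ 2 := by nlinarith
  have hd : 0 < (1 + x) / (1 - x) := div_pos (by linarith) (by linarith)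
  have hexp : Real.exp (Real.artanh x) = Real.sqrt ((1 + x) / (1 - x)) :=
    Real.exp_artanh ⟨hx1, hx2⟩
  have hr : 0 < Real.sqrt ((1 + x) / (1 - x)) := Real.sqrt_pos.2 hd
  have hq : 0 < Real.sqrt (1 - x ^ 2) := Real.sqrt_pos.2 hq2
  have hr2 : Real.sqrt ((1 + x) / (1 - x)) ^ 2 = (1 + x) / (1 - x) := Real.sq_sqrt hd.le
  have hqq : Real.sqrt (1 - x ^ 2) ^ 2 = 1 - x ^ 2 := Real.sq_sqrt hq2.le
  have h1mx : (1 - x) ≠ 0 := by linarith
  have h1px : (1 + x) ≠ 0 := by linarith
  rcases hs with rfl | rfl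
  · rw [mul_one, mul_one, hexp]
    have : (1 + x) ^ 2 = (Real.sqrt (1 - x ^ 2) * Real.sqrt ((1 + x) / (1 - x))) ^ 2 := by
      rw [mul_pow, hr2, hqq]; field_simp; ring
    exact (pow_left_inj₀ (by linarith) (mul_pos hq hr).le (by norm_num)).1 this
  · rw [mul_neg, mul_one, mul_neg, mul_one, Real.exp_neg, hexp]
    have : (1 - x) ^ 2 = (Real.sqrt (1 - x ^ 2) * (Real.sqrt ((1 + x) / (1 - x)))⁻¹) ^ 2 := by
      rw [mul_pow, inv_pow, hr2, hqq]; field_simp; ring
    have h := (pow_left_inj₀ (by linarith) (mul_pos hq (inv_pos.2 hr)).le (by norm_num)).1 this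
    linarith

/-- The normalising constant at a site. -/
noncomputable def cV (κ : ℝ → ℝ) (ω : Om V) (τ : ℝ) (v : V) : ℝ :=
  haveI := Classical.dec
  ∏ n ∈ Finset.range ⌈τ⌉₊, if before ω v n τ then Real.sqrt (1 - tiltN κ ω v n ^ 2) else 1

lemma cV_pos {κ : ℝ → ℝ} (hκ : IsStrength κ) (ω : Om V) (τ : ℝ) (v : V) : 0 < cV κ ω τ v := by
  classical
  unfold cV
  refine Finset.prod_pos fun n _ => ?_
  split_ifs
  · refine Real.sqrt_pos.2 ?_
    have := abs_le.1 (abs_tiltN_le hκ ω v n)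
    nlinarith [this.1, this.2]
  · exact one_pos

lemma likV_eq {κ : ℝ → ℝ} (hκ : IsStrength κ) (ω : Om V) (τ : ℝ) (v : V) {s : ℝ}
    (hs : s = 1 ∨ s = -1) :
    likV κ ω τ v s = cV κ ω τ v * Real.exp (field0 κ ω τ v * s) := by
  classical
  unfold likV cV field0
  rw [Finset.sum_mul, Real.exp_sum, ← Finset.prod_mul_distrib]
  refine Finset.prod_congr rfl fun n _ => ?_
  by_cases hb : before ω v n τ
  · simp only [hb, if_true]
    have hx : |tiltN κ ω v n| < 1 := lt_of_le_of_lt (abs_tiltN_le hκ ω v n) (by norm_num)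
    exact one_add_mul_eq hx hs
  · simp [hb]

lemma likV_pos {κ : ℝ → ℝ} (hκ : IsStrength κ) (ω : Om V) (τ : ℝ) (v : V) {s : ℝ}
    (hs : s = 1 ∨ s = -1) : 0 < likV κ ω τ v s := by
  rw [likV_eq hκ ω τ v hs]
  exact mul_pos (cV_pos hκ ω τ v) (Real.exp_pos _)

lemma likW_pos {κ : ℝ → ℝ} (hκ : IsStrength κ) (W : Finset V) (ω : Om V) (τ : ℝ) (A : Finset V) :
    0 < likW κ W ω τ A :=
  Finset.prod_pos fun v _ => likV_pos hκ ω τ v (sp_eq A v)

lemma likW_eq {κ : ℝ → ℝ} (hκ : IsStrength κ) (W : Finset V) (ω : Om V) (τ : ℝ) (A : Finset V) :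
    likW κ W ω τ A = (∏ v ∈ W, cV κ ω τ v) * gExp (field0W κ W ω τ) W A := by
  unfold likW gExp
  rw [Real.exp_sum, ← Finset.prod_mul_distrib]
  refine Finset.prod_congr rfl fun v hv => ?_
  rw [likV_eq hκ ω τ v (sp_eq A v)]
  simp [field0W, hv]

/-- Positivity of the Ising weight. -/
lemma iw_pos {θ : ℝ} (h0 : |θ| < 1) (W : Finset V) (η : V → Bool) : 0 < iw G θ W η := by
  classical
  obtain ⟨h1, h2⟩ := abs_lt.1 h0
  unfold Crest.ProbabilityR.TreeIsing.isingWeight
  refine mul_pos (by norm_num) (Finset.prod_pos fun e _ => ?_)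
  split_ifs <;> linarith

lemma bw_pos' {θ : ℝ} (h0 : |θ| < 1) (W A : Finset V) : 0 < bw G θ W A := iw_pos h0 W _

lemma lik_pos {θ : ℝ} (h0 : |θ| < 1) {κ : ℝ → ℝ} (hκ : IsStrength κ) (W : Finset V) (ω : Om V)
    (τ : ℝ) : 0 < lik G θ κ W ω τ := by
  rw [lik_eq_sum]
  exact Finset.sum_pos (fun A _ => mul_pos (bw_pos' h0 W A) (likW_pos hκ W ω τ A))
    ⟨∅, Finset.empty_mem_powerset W⟩

lemma abs_likS_le {θ : ℝ} (h0 : |θ| < 1) {κ : ℝ → ℝ} (hκ : IsStrength κ) (W : Finset V) (ω : Om V)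
    (τ : ℝ) (v : V) : |likS G θ κ W ω τ v| ≤ lik G θ κ W ω τ := by
  rw [lik_eq_sum]
  unfold likS
  refine (Finset.abs_sum_le_sum_abs _ _).trans (Finset.sum_le_sum fun A _ => ?_)
  rw [abs_mul, abs_sp, mul_one, abs_of_pos (mul_pos (bw_pos' h0 W A) (likW_pos hκ W ω τ A))]

/-- The mean of the undriven fields is the planted mean. -/
lemma gm_field0W {θ : ℝ} {κ : ℝ → ℝ} (hκ : IsStrength κ) (W : Finset V) (ω : Om V) (τ : ℝ) (v : V) :
    gm G θ W (field0W κ W ω τ) v = likS G θ κ W ω τ v / lik G θ κ W ω τ := by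
  have hC : (∏ v ∈ W, cV κ ω τ v) ≠ 0 := (Finset.prod_pos fun v _ => cV_pos hκ ω τ v).ne'
  unfold gm gAvg gZ
  rw [lik_eq_sum]
  unfold likS
  simp only [likW_eq hκ W ω τ]
  rw [← mul_div_mul_left _ _ hC, Finset.mul_sum, Finset.mul_sum]
  congr 1 <;> exact Finset.sum_congr rfl fun A _ => by ring

/-! ### Measurability -/

lemma measurable_lab1 (v : V) (n : ℕ) : Measurable fun ω : Om V => (ω.1 (v, n) : ℝ) :=
  continuous_subtype_val.measurable.comp ((measurable_pi_apply (v, n)).comp measurable_fst)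

lemma measurable_lab2 (v : V) (n : ℕ) : Measurable fun ω : Om V => (ω.2 (v, n) : ℝ) :=
  continuous_subtype_val.measurable.comp ((measurable_pi_apply (v, n)).comp measurable_snd)

lemma measurable_ringT (v : V) (n : ℕ) : Measurable fun ω : Om V => ringT ω v n := by
  unfold ringT
  exact measurable_const.add (measurable_const.mul (measurable_lab1 v n))

lemma measurableSet_before (v : V) (n : ℕ) (τ : ℝ) : MeasurableSet {ω : Om V | before ω v n τ} := by
  have : {ω : Om V | before ω v n τ} =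
      {ω : Om V | (ω.1 (v, n) : ℝ) < 1 / 2} ∩ {ω : Om V | ringT ω v n < τ} := rfl
  rw [this]
  exact (measurableSet_lt (measurable_lab1 v n) measurable_const).inter
    (measurableSet_lt (measurable_ringT v n) measurable_const)

lemma measurable_likV {κ : ℝ → ℝ} (hκ : Measurable κ) (τ : ℝ) (v : V) (s : ℝ) :
    Measurable fun ω : Om V => likV κ ω τ v s := by
  classical
  unfold likV
  refine Finset.measurable_prod _ fun n _ => ?_
  refine Measurable.ite (measurableSet_before v n τ) ?_ measurable_const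
  exact measurable_const.add
    (((hκ.comp (measurable_ringT v n)).mul
      ((measurable_const.mul (measurable_lab2 v n)).sub measurable_const)).mul measurable_const)

lemma measurable_likW {κ : ℝ → ℝ} (hκ : Measurable κ) (W : Finset V) (τ : ℝ) (A : Finset V) :
    Measurable fun ω : Om V => likW κ W ω τ A :=
  Finset.measurable_prod _ fun v _ => measurable_likV hκ τ v _

lemma measurable_lik {θ : ℝ} {κ : ℝ → ℝ} (hκ : Measurable κ) (W : Finset V) (τ : ℝ) :
    Measurable fun ω : Om V => lik G θ κ W ω τ :=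
  Finset.measurable_sum _ fun A _ => (measurable_likW hκ W τ A).const_mul _

lemma measurable_likS {θ : ℝ} {κ : ℝ → ℝ} (hκ : Measurable κ) (W : Finset V) (τ : ℝ) (v : V) :
    Measurable fun ω : Om V => likS G θ κ W ω τ v :=
  Finset.measurable_sum _ fun A _ => ((measurable_likW hκ W τ A).const_mul _).mul_const _

lemma measurable_gExp (W A : Finset V) : Measurable fun h : V → ℝ => gExp h W A := by
  unfold gExp
  refine Real.measurable_exp.comp (Finset.measurable_sum _ fun v _ => ?_)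
  exact (measurable_pi_apply v).mul_const _

lemma measurable_gm (θ : ℝ) (W : Finset V) (v : V) : Measurable fun h : V → ℝ => gm G θ W h v := by
  unfold gm gAvg gZ
  refine Measurable.div (Finset.measurable_sum _ fun A _ => ?_)
    (Finset.measurable_sum _ fun A _ => ?_)
  · exact ((measurable_gExp W A).const_mul _).mul_const _
  · exact (measurable_gExp W A).const_mul _

/-! ### Flipping the noise -/

/-- Flip the noises `U → 1 - U` on the vertices of `B`. -/
noncomputable def flipU (B : Finset V) (ω : Om V) : Om V :=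
  (ω.1, fun i => if i.1 ∈ B then unitInterval.symm (ω.2 i) else ω.2 i)

lemma measurable_flipU (B : Finset V) : Measurable (flipU B : Om V → Om V) := by
  refine Measurable.prodMk measurable_fst ?_
  refine measurable_pi_iff.2 fun i => ?_
  by_cases hi : i.1 ∈ B
  · simp only [hi, if_true]
    exact unitInterval.measurable_symm.comp ((measurable_pi_apply i).comp measurable_snd)
  · simp only [hi, if_false]
    exact (measurable_pi_apply i).comp measurable_snd

lemma map_flipU (B : Finset V) : (PP V).map (flipU B) = PP V := by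
  classical
  let g : V × ℕ → Lab → Lab := fun i => if i.1 ∈ B then unitInterval.symm else id
  have hg : ∀ i, Measurable (g i) := by
    intro i
    by_cases hi : i.1 ∈ B
    · simp only [g, hi, if_true]; exact unitInterval.measurable_symm
    · simp only [g, hi, if_false]; exact measurable_id
  let f : (V × ℕ → Lab) → (V × ℕ → Lab) := fun x i => g i (x i)
  have hf : Measurable f := measurable_pi_iff.2 fun i => (hg i).comp (measurable_pi_apply i)
  have hσ : (lam (V × ℕ)).map f = lam (V × ℕ) := by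
    unfold lam Crest.ProbabilityR.Labels.labelMeasure
    rw [Measure.infinitePi_map_pi _ hg]
    congr 1
    funext i
    by_cases hi : i.1 ∈ B
    · simp only [g, hi, if_true]; exact unitInterval.measurePreserving_symm.map_eq
    · simp only [g, hi, if_false]; exact Measure.map_id
  have hact : (flipU B : Om V → Om V) = Prod.map id f := by
    funext ω
    refine Prod.ext rfl ?_
    funext i
    by_cases hi : i.1 ∈ B <;> simp [flipU, f, g, hi]
  have : IsProbabilityMeasure (lam (V × ℕ)) := by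
    unfold lam Crest.ProbabilityR.Labels.labelMeasure
    infer_instance
  rw [hact, PP, ← Measure.map_prod_map _ _ measurable_id hf, hσ, Measure.map_id]

lemma likV_flipU (B : Finset V) (κ : ℝ → ℝ) (ω : Om V) (τ : ℝ) (v : V) (s : ℝ) :
    likV κ (flipU B ω) τ v s = likV κ ω τ v (if v ∈ B then -s else s) := by
  classical
  unfold likV
  refine Finset.prod_congr rfl fun n _ => ?_
  have h1 : before (flipU B ω) v n τ ↔ before ω v n τ := Iff.rfl
  have h2 : ringT (flipU B ω) v n = ringT ω v n := rfl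
  by_cases hb : before ω v n τ
  · rw [if_pos (h1.2 hb), if_pos hb, h2]
    by_cases hv : v ∈ B
    · have : ((flipU B ω).2 (v, n) : ℝ) = 1 - (ω.2 (v, n) : ℝ) := by
        simp [flipU, hv, unitInterval.coe_symm_eq]
      rw [this, if_pos hv]
      ring
    · have : ((flipU B ω).2 (v, n) : ℝ) = (ω.2 (v, n) : ℝ) := by
        simp [flipU, hv]
      rw [this, if_neg hv]
  · rw [if_neg (fun h => hb (h1.1 h)), if_neg hb]

/-- The gauge sign of a pattern. -/
def sgnB (B : Finset V) (v : V) : ℝ := if v ∈ B then -1 else 1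

lemma sgnB_mul_self (B : Finset V) (v : V) : sgnB B v * sgnB B v = 1 := by
  unfold sgnB; split_ifs <;> norm_num

lemma sgnB_eq (B : Finset V) (v : V) : sgnB B v = 1 ∨ sgnB B v = -1 := by
  unfold sgnB; split_ifs <;> simp

lemma sp_symmDiff (A B : Finset V) (v : V) : sp (symmDiff A B) v = sp A v * sgnB B v := by
  unfold sp sgnB
  by_cases h1 : v ∈ A <;> by_cases h2 : v ∈ B <;> simp [Finset.mem_symmDiff, h1, h2]

lemma likW_flipU (B : Finset V) (κ : ℝ → ℝ) (W : Finset V) (ω : Om V) (τ : ℝ) (A : Finset V) :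
    likW κ W (flipU B ω) τ A = likW κ W ω τ (symmDiff A B) := by
  unfold likW
  refine Finset.prod_congr rfl fun v _ => ?_
  rw [likV_flipU, sp_symmDiff]
  congr 1
  by_cases h : v ∈ B <;> simp [sgnB, h]

/-! ### The mixture -/

lemma symmDiff_subset_of_subset {W A B : Finset V} (hA : A ⊆ W) (hB : B ⊆ W) : symmDiff A B ⊆ W := by
  intro x hx
  rcases Finset.mem_symmDiff.1 hx with h | h
  · exact hA h.1
  · exact hB h.1

/-- Reindexing the sum over patterns by `A ↦ A ∆ B`. -/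
lemma sum_symmDiff {W B : Finset V} (hB : B ⊆ W) (f : Finset V → ℝ) :
    ∑ A ∈ W.powerset, f (symmDiff A B) = ∑ A ∈ W.powerset, f A := by
  refine Finset.sum_nbij' (fun A => symmDiff A B) (fun A => symmDiff A B) ?_ ?_ ?_ ?_ ?_
  · intro A hA
    exact Finset.mem_powerset.2 (symmDiff_subset_of_subset (Finset.mem_powerset.1 hA) hB)
  · intro A hA
    exact Finset.mem_powerset.2 (symmDiff_subset_of_subset (Finset.mem_powerset.1 hA) hB)
  · intro A _; simp
  · intro A _; simp
  · intro A _; rfl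

lemma bw_conv (hT : G.IsAcyclic) (t θ : ℝ) {W : Finset V} (hW : IsWin G W) (A : Finset V) :
    bw G (t * θ) W A = ∑ B ∈ W.powerset, bw G t W B * bw G θ W (symmDiff A B) := by
  have := sum_iw_xor hT t θ hW (dec A)
  unfold bw
  rw [show (fun v => decide (v ∈ A)) = dec A from rfl, ← this]
  refine Finset.sum_congr rfl fun B _ => ?_
  congr 2
  funext v
  by_cases h1 : v ∈ A <;> by_cases h2 : v ∈ B <;> simp [dec, Finset.mem_symmDiff, h1, h2]

lemma lik_mix (hT : G.IsAcyclic) (t θ : ℝ) {W : Finset V} (hW : IsWin G W) (κ : ℝ → ℝ) (ω : Om V)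
    (τ : ℝ) :
    lik G (t * θ) κ W ω τ = ∑ B ∈ W.powerset, bw G t W B * lik G θ κ W (flipU B ω) τ := by
  simp only [lik_eq_sum, bw_conv hT t θ hW, Finset.sum_mul, Finset.mul_sum]
  rw [Finset.sum_comm]
  refine Finset.sum_congr rfl fun B hB => ?_
  have hBW := Finset.mem_powerset.1 hB
  rw [← sum_symmDiff hBW (fun A => bw G t W B * (bw G θ W A * likW κ W (flipU B ω) τ A))]
  refine Finset.sum_congr rfl fun A _ => ?_
  rw [likW_flipU, symmDiff_symmDiff_cancel_right]
  ring

lemma likS_mix (hT : G.IsAcyclic) (t θ : ℝ) {W : Finset V} (hW : IsWin G W) (κ : ℝ → ℝ) (ω : Om V)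
    (τ : ℝ) (v : V) :
    likS G (t * θ) κ W ω τ v =
      ∑ B ∈ W.powerset, bw G t W B * (sgnB B v * likS G θ κ W (flipU B ω) τ v) := by
  unfold likS
  simp only [bw_conv hT t θ hW, Finset.sum_mul, Finset.mul_sum]
  rw [Finset.sum_comm]
  refine Finset.sum_congr rfl fun B hB => ?_
  have hBW := Finset.mem_powerset.1 hB
  rw [← sum_symmDiff hBW
    (fun A => bw G t W B * (sgnB B v * (bw G θ W A * likW κ W (flipU B ω) τ A * sp A v)))]
  refine Finset.sum_congr rfl fun A _ => ?_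
  rw [likW_flipU, symmDiff_symmDiff_cancel_right, sp_symmDiff]
  have h2 := sgnB_mul_self B v
  calc bw G t W B * bw G θ W (symmDiff A B) * likW κ W ω τ A * sp A v
      = bw G t W B * bw G θ W (symmDiff A B) * likW κ W ω τ A * sp A v * (sgnB B v * sgnB B v) := by
        rw [h2, mul_one]
    _ = _ := by ring

/-! ### Jensen for the perspective -/

lemma perspective_jensen {ι : Type*} (s : Finset ι) (w a b : ι → ℝ) {Ψ : ℝ → ℝ}
    (hΨ : ConvexOn ℝ (Icc (-1) 1) Ψ) (hw : ∀ i ∈ s, 0 ≤ w i) (ha : ∀ i ∈ s, 0 < a i)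
    (hb : ∀ i ∈ s, |b i| ≤ a i) (hpos : 0 < ∑ i ∈ s, w i * a i) :
    (∑ i ∈ s, w i * a i) * Ψ ((∑ i ∈ s, w i * b i) / ∑ i ∈ s, w i * a i) ≤
      ∑ i ∈ s, w i * (a i * Ψ (b i / a i)) := by
  set T := ∑ i ∈ s, w i * a i with hT
  have hT0 : T ≠ 0 := hpos.ne'
  have h1 := hΨ.map_sum_le (t := s) (w := fun i => w i * a i / T) (p := fun i => b i / a i)
    (fun i hi => div_nonneg (mul_nonneg (hw i hi) (ha i hi).le) hpos.le)
    (by rw [← Finset.sum_div, div_self hT0])
    (fun i hi => by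
      have := abs_le.1 (hb i hi)
      have hai := ha i hi
      refine ⟨?_, ?_⟩
      · rw [le_div_iff₀ hai]; linarith
      · rw [div_le_iff₀ hai]; linarith)
  have h2 : ∑ i ∈ s, (w i * a i / T) • (b i / a i) = (∑ i ∈ s, w i * b i) / T := by
    rw [Finset.sum_div]
    refine Finset.sum_congr rfl fun i hi => ?_
    have := (ha i hi).ne'
    rw [smul_eq_mul]
    field_simp
  rw [h2] at h1
  have h3 : T * ∑ i ∈ s, (w i * a i / T) • Ψ (b i / a i) =
      ∑ i ∈ s, w i * (a i * Ψ (b i / a i)) := by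
    rw [Finset.mul_sum]
    refine Finset.sum_congr rfl fun i _ => ?_
    rw [smul_eq_mul]
    field_simp
  rw [← h3]
  exact mul_le_mul_of_nonneg_left h1 hpos.le

/-- The perspective of `Ψ` at the planted pair. -/
noncomputable def persp (G : SimpleGraph V) (Ψ : ℝ → ℝ) (θ : ℝ) (κ : ℝ → ℝ) (W : Finset V)
    (τ : ℝ) (v : V) (ω : Om V) : ℝ :=
  lik G θ κ W ω τ * Ψ (likS G θ κ W ω τ v / lik G θ κ W ω τ)

/-- Pointwise mixture inequality. -/
lemma persp_le (hT : G.IsAcyclic) {W : Finset V} (hW : IsWin G W) {t θ : ℝ} (ht0 : 0 ≤ t)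
    (ht1 : t < 1) (hθ0 : 0 ≤ θ) (hθ1 : θ < 1) {κ : ℝ → ℝ} (hκ : IsStrength κ) (τ : ℝ)
    {Ψ : ℝ → ℝ} (hΨ : ConvexOn ℝ (Icc (-1) 1) Ψ) (hev : ∀ x, Ψ (-x) = Ψ x) (v : V) (ω : Om V) :
    persp G Ψ (t * θ) κ W τ v ω ≤
      ∑ B ∈ W.powerset, bw G t W B * persp G Ψ θ κ W τ v (flipU B ω) := by
  have ht : |t| < 1 := by rw [abs_of_nonneg ht0]; exact ht1
  have hθ : |θ| < 1 := by rw [abs_of_nonneg hθ0]; exact hθ1
  have htθ : |t * θ| < 1 := by
    rw [abs_mul]
    have := abs_nonneg t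
    have := abs_nonneg θ
    nlinarith
  have h := perspective_jensen W.powerset (fun B => bw G t W B)
    (fun B => lik G θ κ W (flipU B ω) τ)
    (fun B => sgnB B v * likS G θ κ W (flipU B ω) τ v) hΨ
    (fun B _ => (bw_pos' ht W B).le) (fun B _ => lik_pos hθ hκ W _ τ)
    (fun B _ => by
      rw [abs_mul]
      have : |sgnB B v| = 1 := by rcases sgnB_eq B v with h | h <;> simp [h]
      rw [this, one_mul]
      exact abs_likS_le hθ hκ W _ τ v)
    (by
      rw [← lik_mix hT t θ hW]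
      exact lik_pos htθ hκ W ω τ)
  rw [← lik_mix hT t θ hW, ← likS_mix hT t θ hW] at h
  unfold persp
  refine h.trans (le_of_eq (Finset.sum_congr rfl fun B _ => ?_))
  congr 2
  rw [mul_div_assoc]
  rcases sgnB_eq B v with h | h
  · rw [h, one_mul]
  · rw [h, neg_one_mul, hev]

lemma measurable_persp {Ψ : ℝ → ℝ} (hΨ : Continuous Ψ) {θ : ℝ} {κ : ℝ → ℝ} (hκ : Measurable κ)
    (W : Finset V) (τ : ℝ) (v : V) : Measurable (persp G Ψ θ κ W τ v) := by
  unfold persp
  exact (measurable_lik hκ W τ).mul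
    (hΨ.measurable.comp ((measurable_likS hκ W τ v).div (measurable_lik hκ W τ)))

/-- The mixture inequality integrated. -/
theorem lintegral_persp_le (hT : G.IsAcyclic) {W : Finset V} (hW : IsWin G W) {t θ : ℝ} (ht0 : 0 ≤ t)
    (ht1 : t < 1) (hθ0 : 0 ≤ θ) (hθ1 : θ < 1) {κ : ℝ → ℝ} (hκ : IsStrength κ) (τ : ℝ)
    {Ψ : ℝ → ℝ} (hΨ : ConvexOn ℝ (Icc (-1) 1) Ψ) (hc : Continuous Ψ) (hnn : ∀ x, 0 ≤ Ψ x)
    (hev : ∀ x, Ψ (-x) = Ψ x) (v : V) :
    ∫⁻ ω, ENNReal.ofReal (persp G Ψ (t * θ) κ W τ v ω) ∂(PP V) ≤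
      ∫⁻ ω, ENNReal.ofReal (persp G Ψ θ κ W τ v ω) ∂(PP V) := by
  have ht : |t| < 1 := by rw [abs_of_nonneg ht0]; exact ht1
  have hθ : |θ| < 1 := by rw [abs_of_nonneg hθ0]; exact hθ1
  have hpn : ∀ ω, 0 ≤ persp G Ψ θ κ W τ v ω := fun ω =>
    mul_nonneg (lik_pos hθ hκ W ω τ).le (hnn _)
  have hm := measurable_persp (G := G) hc (θ := θ) hκ.meas W τ v
  have hflip : ∀ B : Finset V, ∫⁻ ω, ENNReal.ofReal (persp G Ψ θ κ W τ v (flipU B ω)) ∂(PP V) =
      ∫⁻ ω, ENNReal.ofReal (persp G Ψ θ κ W τ v ω) ∂(PP V) := by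
    intro B
    have := lintegral_map (μ := PP V) (f := fun ω => ENNReal.ofReal (persp G Ψ θ κ W τ v ω))
      (ENNReal.measurable_ofReal.comp hm) (measurable_flipU B)
    rw [map_flipU] at this
    exact this.symm
  calc ∫⁻ ω, ENNReal.ofReal (persp G Ψ (t * θ) κ W τ v ω) ∂(PP V)
      ≤ ∫⁻ ω, ∑ B ∈ W.powerset, ENNReal.ofReal (bw G t W B) *
          ENNReal.ofReal (persp G Ψ θ κ W τ v (flipU B ω)) ∂(PP V) := by
        refine lintegral_mono fun ω => ?_
        refine (ENNReal.ofReal_le_ofReal (persp_le hT hW ht0 ht1 hθ0 hθ1 hκ τ hΨ hev v ω)).trans ?_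
        rw [ENNReal.ofReal_sum_of_nonneg (fun B _ => mul_nonneg (bw_pos' ht W B).le (hpn _))]
        refine Finset.sum_le_sum fun B _ => ?_
        rw [ENNReal.ofReal_mul (bw_pos' ht W B).le]
    _ = ∑ B ∈ W.powerset, ENNReal.ofReal (bw G t W B) *
          ∫⁻ ω, ENNReal.ofReal (persp G Ψ θ κ W τ v ω) ∂(PP V) := by
        rw [lintegral_finsetSum']
        · refine Finset.sum_congr rfl fun B _ => ?_
          rw [lintegral_const_mul' _ _ ENNReal.ofReal_ne_top, hflip]
        · intro B _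
          exact ((ENNReal.measurable_ofReal.comp (hm.comp (measurable_flipU B))).const_mul _).aemeasurable
    _ = ∫⁻ ω, ENNReal.ofReal (persp G Ψ θ κ W τ v ω) ∂(PP V) := by
        rw [← Finset.sum_mul, ← ENNReal.ofReal_sum_of_nonneg (fun B _ => (bw_pos' ht W B).le)]
        have : ∑ B ∈ W.powerset, bw G t W B = 1 := sum_iw hT t hW
        rw [this, ENNReal.ofReal_one, one_mul]

/-! ### From the planted law to the statement -/

lemma abs_gm_le' {θ : ℝ} (h0 : |θ| < 1) (W : Finset V) (h : V → ℝ) (v : V) : |gm G θ W h v| ≤ 1 := by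
  unfold gm gAvg
  have hpos : ∀ A, 0 < bw G θ W A * gExp h W A := fun A =>
    mul_pos (bw_pos' h0 W A) (Real.exp_pos _)
  have hZ : 0 < gZ G θ W h :=
    Finset.sum_pos (fun A _ => hpos A) ⟨∅, Finset.empty_mem_powerset W⟩
  rw [abs_div, abs_of_pos hZ, div_le_one hZ]
  refine (Finset.abs_sum_le_sum_abs _ _).trans (le_of_eq (Finset.sum_congr rfl fun A _ => ?_))
  rw [abs_mul, abs_sp, mul_one, abs_of_pos (hpos A)]

instance instPP : IsProbabilityMeasure (PP V) := by
  have : IsProbabilityMeasure (lam (V × ℕ)) := by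
    unfold lam Crest.ProbabilityR.Labels.labelMeasure
    infer_instance
  infer_instance

/-- The clamp to `[-1,1]`. -/
noncomputable def clampI (x : ℝ) : ℝ := max (-1) (min 1 x)

lemma clampI_mem (x : ℝ) : clampI x ∈ Icc (-1 : ℝ) 1 := by
  unfold clampI
  constructor
  · exact le_max_left _ _
  · exact max_le (by norm_num) (min_le_left _ _)

lemma clampI_of_mem {x : ℝ} (hx : x ∈ Icc (-1 : ℝ) 1) : clampI x = x := by
  unfold clampI
  rw [min_eq_right hx.2, max_eq_right hx.1]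

lemma clampI_neg (x : ℝ) : clampI (-x) = - clampI x := by
  unfold clampI
  rcases le_total 1 x with h | h
  · rw [min_eq_left h, min_eq_right (by linarith), max_eq_left (by linarith), max_eq_right (by norm_num)]
  · rw [min_eq_right h]
    rcases le_total (-1) x with h' | h'
    · rw [min_eq_right (by linarith), max_eq_right h', max_eq_right (by linarith)]
    · rw [min_eq_left (by linarith), max_eq_left h', max_eq_right (by norm_num)]
      norm_num

lemma continuous_clampI : Continuous clampI := by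
  unfold clampI
  fun_prop

/-- The law of the driven mean in terms of the planted pair, for a nonnegative continuous `Ψ`. -/
lemma lintegral_mW_eq {W : Finset V} {θ : ℝ} {κ : ℝ → ℝ} (hκ : IsStrength κ) (τ : ℝ) (hθ : |θ| < 1)
    {Ψ : ℝ → ℝ} (hc : Continuous Ψ) (v : V)
    (hlaw : ∀ F : (V → ℝ) → ℝ≥0∞, Measurable F → ∫⁻ ω, F (field G θ κ W ω τ) ∂(PP V) =
      ∫⁻ ω, F (field0W κ W ω τ) * ENNReal.ofReal (lik G θ κ W ω τ) ∂(PP V)) :
    ∫⁻ ω, ENNReal.ofReal (Ψ (mW G θ κ W ω τ v)) ∂(PP V) =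
      ∫⁻ ω, ENNReal.ofReal (persp G Ψ θ κ W τ v ω) ∂(PP V) := by
  have h := hlaw (fun h => ENNReal.ofReal (Ψ (gm G θ W h v)))
    (ENNReal.measurable_ofReal.comp (hc.measurable.comp (measurable_gm θ W v)))
  refine h.trans (lintegral_congr fun ω => ?_)
  unfold persp
  rw [gm_field0W hκ, ENNReal.ofReal_mul (lik_pos hθ hκ W ω τ).le, mul_comm]

end ConvexMono

open ConvexMono in
/-- `integral_convex_mono`, given the planted formula for the two parameters and measurability. -/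
theorem integral_convex_mono_of_law (hT : G.IsTree) {W : Finset V} (hW : IsWin G W) {θ θ' : ℝ}
    {κ : ℝ → ℝ} (hθ0 : 0 ≤ θ) (hθθ' : θ ≤ θ') (hθ1 : θ' < 1) (hκ : IsStrength κ) (τ : ℝ) {Ψ : ℝ → ℝ}
    (hΨ : ConvexOn ℝ (Icc (-1) 1) Ψ) (hev : ∀ x, Ψ (-x) = Ψ x) (hc : ContinuousOn Ψ (Icc (-1) 1))
    {v : V}
    (hlaw : ∀ θ₀ : ℝ, 0 ≤ θ₀ → θ₀ < 1 → ∀ F : (V → ℝ) → ℝ≥0∞, Measurable F →
      ∫⁻ ω, F (field G θ₀ κ W ω τ) ∂(PP V) =
        ∫⁻ ω, F (field0W κ W ω τ) * ENNReal.ofReal (lik G θ₀ κ W ω τ) ∂(PP V))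
    (hm : ∀ θ₀ : ℝ, Measurable fun ω => mW G θ₀ κ W ω τ v) :
    ∫ ω, Ψ (mW G θ κ W ω τ v) ∂(PP V) ≤ ∫ ω, Ψ (mW G θ' κ W ω τ v) ∂(PP V) := by
  rcases hθθ'.eq_or_lt with rfl | hlt
  · exact le_rfl
  have hθ'0 : 0 < θ' := lt_of_le_of_lt hθ0 hlt
  obtain ⟨C, hC⟩ := isCompact_Icc.exists_bound_of_continuousOn hc
  have hC0 : 0 ≤ C := (norm_nonneg _).trans (hC 0 (by norm_num))
  set Ψp : ℝ → ℝ := fun x => Ψ (clampI x) + C with hΨp
  have hpc : Continuous Ψp :=
    (hc.comp_continuous continuous_clampI clampI_mem).add continuous_const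
  have hpnn : ∀ x, 0 ≤ Ψp x := fun x => by
    have := abs_le.1 (hC (clampI x) (clampI_mem x))
    simp only [hΨp]
    linarith [this.1]
  have hple : ∀ x, Ψp x ≤ 2 * C := fun x => by
    have := abs_le.1 (hC (clampI x) (clampI_mem x))
    simp only [hΨp]
    linarith [this.2]
  have hpev : ∀ x, Ψp (-x) = Ψp x := fun x => by
    simp only [hΨp, clampI_neg, hev]
  have hpconv : ConvexOn ℝ (Icc (-1) 1) Ψp := by
    refine ⟨convex_Icc _ _, fun x hx y hy a b ha hb hab => ?_⟩
    have hxy : a * x + b * y ∈ Icc (-1 : ℝ) 1 := by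
      have := (convex_Icc (-1 : ℝ) 1) hx hy ha hb hab
      simpa only [smul_eq_mul] using this
    simp only [hΨp, clampI_of_mem hx, clampI_of_mem hy, clampI_of_mem hxy, smul_eq_mul]
    have := hΨ.2 hx hy ha hb hab
    simp only [smul_eq_mul] at this
    have hCC : C = a * C + b * C := by rw [← add_mul, hab, one_mul]
    linarith
  have hmem : ∀ θ₀ : ℝ, 0 ≤ θ₀ → θ₀ < 1 → ∀ ω, mW G θ₀ κ W ω τ v ∈ Icc (-1 : ℝ) 1 := by
    intro θ₀ h0 h1 ω
    exact abs_le.1 (abs_gm_le' (by rw [abs_of_nonneg h0]; exact h1) W _ v)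
  have hpm : ∀ θ₀ : ℝ, Measurable fun ω => Ψp (mW G θ₀ κ W ω τ v) := fun θ₀ =>
    hpc.measurable.comp (hm θ₀)
  have hpi : ∀ θ₀ : ℝ, Integrable (fun ω => Ψp (mW G θ₀ κ W ω τ v)) (PP V) := fun θ₀ =>
    Integrable.of_bound (hpm θ₀).aestronglyMeasurable (2 * C) (Eventually.of_forall fun ω => by
      rw [Real.norm_eq_abs, abs_of_nonneg (hpnn _)]
      exact hple _)
  have hrw : ∀ θ₀ : ℝ, 0 ≤ θ₀ → θ₀ < 1 →
      ∫ ω, Ψ (mW G θ₀ κ W ω τ v) ∂(PP V) = ∫ ω, Ψp (mW G θ₀ κ W ω τ v) ∂(PP V) - C := by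
    intro θ₀ h0 h1
    have : ∀ ω, Ψ (mW G θ₀ κ W ω τ v) = Ψp (mW G θ₀ κ W ω τ v) - C := fun ω => by
      simp only [hΨp, clampI_of_mem (hmem θ₀ h0 h1 ω)]
      ring
    simp only [this]
    rw [integral_sub (hpi θ₀) (integrable_const C)]
    simp
  have ht0 : 0 ≤ θ / θ' := div_nonneg hθ0 hθ'0.le
  have ht1 : θ / θ' < 1 := (div_lt_one hθ'0).2 hlt
  have htθ : θ / θ' * θ' = θ := div_mul_cancel₀ _ hθ'0.ne'
  have hkey := lintegral_persp_le (G := G) hT.isAcyclic hW ht0 ht1 hθ'0.le hθ1 hκ τ hpconv hpc hpnn hpev v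
  rw [htθ, ← lintegral_mW_eq hκ τ (by rw [abs_of_nonneg hθ0]; linarith) hpc v (hlaw θ hθ0 (by linarith)),
    ← lintegral_mW_eq hκ τ (by rw [abs_of_pos hθ'0]; exact hθ1) hpc v (hlaw θ' hθ'0.le hθ1)] at hkey
  rw [hrw θ hθ0 (by linarith), hrw θ' hθ'0.le hθ1]
  refine sub_le_sub_right ?_ _
  rw [integral_eq_lintegral_of_nonneg_ae (Eventually.of_forall fun ω => hpnn _)
      (hpm θ).aestronglyMeasurable,
    integral_eq_lintegral_of_nonneg_ae (Eventually.of_forall fun ω => hpnn _)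
      (hpm θ').aestronglyMeasurable]
  exact ENNReal.toReal_mono (hpi θ').lintegral_lt_top.ne hkey

end Crest.Agent.Lib.IsingFIID
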