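/-
Row 160 (S0241), task LA: the final form of `integral_convex_mono`.
-/
import Crest.Agent.Lib.IsingFIID.ConvexMono
import Crest.Agent.Lib.IsingFIID.Planted

set_option autoImplicit false
set_option linter.unusedSectionVars false
set_option linter.unusedVariables false

namespace Crest.Agent.Lib.IsingFIID

open MeasureTheory Filter Topology Set SimpleGraph
open scoped ENNReal

variable {V : Type*} [DecidableEq V] {G : SimpleGraph V}

lemma measurable_field_omega {θ : ℝ} {κ : ℝ → ℝ} (hκ : Measurable κ) (W : Finset V) (τ : ℝ) :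
    Measurable fun ω : Om V => field G θ κ W ω τ := by
  rw [measurable_pi_iff]
  intro u
  exact (measurable_field hκ u).comp (measurable_const.prodMk measurable_id)

lemma measurable_mW_omega {θ : ℝ} {κ : ℝ → ℝ} (hκ : Measurable κ) (W : Finset V) (τ : ℝ) (v : V) :
    Measurable fun ω : Om V => mW G θ κ W ω τ v :=
  (measurable_gm W v).comp (measurable_field_omega hκ W τ)

/-- Monotonicity in `θ` of `E Ψ(m)` for even convex `Ψ`. -/
theorem integral_convex_mono (hT : G.IsTree) {W : Finset V} (hW : IsWin G W) {θ θ' : ℝ} {κ : ℝ → ℝ}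
    (hθ0 : 0 ≤ θ) (hθθ' : θ ≤ θ') (hθ1 : θ' < 1) (hκ : IsStrength κ) (τ : ℝ) {Ψ : ℝ → ℝ}
    (hΨ : ConvexOn ℝ (Icc (-1) 1) Ψ) (hev : ∀ x, Ψ (-x) = Ψ x) (hc : ContinuousOn Ψ (Icc (-1) 1)) {v : V}
    (hv : v ∈ W) :
    ∫ ω, Ψ (mW G θ κ W ω τ v) ∂(PP V) ≤ ∫ ω, Ψ (mW G θ' κ W ω τ v) ∂(PP V) :=
  integral_convex_mono_of_law hT hW hθ0 hθθ' hθ1 hκ τ hΨ hev hc
    (fun θ₀ h0 h1 F hF => lintegral_field_eq hT hW h0 h1 hκ τ hF)
    (fun θ₀ => measurable_mW_omega hκ.meas W τ v)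

end Crest.Agent.Lib.IsingFIID
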