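/-
Row 160 (S0241), Task E5: `psi_tendsto`.  The means of the functional `a = -log u` converge along an
increasing sequence `θ_j`: `a = Ψ₁(ν) - Ψ_{θ²}(ν)` with `Ψ_c(y) = -log(1-c y²)`, both means are monotone in `θ`
(`integral_convex_mono` on half balls, `lintegral_field_sub`, `N → ∞`) and bounded.
-/
import Crest.Agent.Lib.IsingFIID.BsvPair
import Crest.Agent.Lib.IsingFIID.ConvexMonoFinal

set_option autoImplicit false
set_option linter.unusedSectionVars false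
set_option linter.unusedVariables false

namespace Crest.Agent.Lib.IsingFIID

open MeasureTheory Filter Topology Set SimpleGraph
open scoped ENNReal

/-! ### The functions `Ψ_c` -/

/-- `Ψ_c(y) = -log(1 - c y²)`. -/
noncomputable def psiC (c y : ℝ) : ℝ := - Real.log (1 - c * y ^ 2)

theorem psiC_neg (c y : ℝ) : psiC c (-y) = psiC c y := by simp [psiC]

theorem measurable_psiC (c : ℝ) : Measurable (psiC c) := by
  unfold psiC
  fun_prop

theorem psiC_nonneg {c y : ℝ} (hc : 0 ≤ c) (h : c * y ^ 2 < 1) : 0 ≤ psiC c y := by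
  unfold psiC
  have h1 : 1 - c * y ^ 2 ≤ 1 := by nlinarith [mul_nonneg hc (sq_nonneg y)]
  have := Real.log_nonpos (by linarith) h1
  linarith

theorem psiC_le_of_le {c c' y y' : ℝ} (h : c * y ^ 2 ≤ c' * y' ^ 2) (h1 : c' * y' ^ 2 < 1) :
    psiC c y ≤ psiC c' y' := by
  unfold psiC
  have := Real.log_le_log (by linarith : 0 < 1 - c' * y' ^ 2) (by linarith : 1 - c' * y' ^ 2 ≤ 1 - c * y ^ 2)
  linarith

/-- `-log(1 - σ y)` is convex. -/
theorem convexOn_neg_log_one_sub {σ : ℝ} (hσ : |σ| < 1) :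
    ConvexOn ℝ (Icc (-1) 1) (fun y => - Real.log (1 - σ * y)) := by
  have hlog : ConvexOn ℝ (Ioi 0) (fun u => - Real.log u) := strictConcaveOn_log_Ioi.concaveOn.neg
  have hpos : ∀ y ∈ Icc (-1 : ℝ) 1, 0 < 1 - σ * y := by
    intro y hy
    have h1 : |σ * y| ≤ |σ| := by
      rw [abs_mul]
      have : |y| ≤ 1 := abs_le.2 hy
      nlinarith [abs_nonneg σ]
    have := (abs_le.1 h1).2
    linarith [le_abs_self (σ * y)]
  refine ⟨convex_Icc _ _, fun x hx y hy a b ha hb hab => ?_⟩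
  have h := hlog.2 (hpos x hx) (hpos y hy) ha hb hab
  have e : a • (1 - σ * x) + b • (1 - σ * y) = 1 - σ * (a • x + b • y) := by
    simp only [smul_eq_mul]
    have : b = 1 - a := by linarith
    subst this
    ring
  simp only [e] at h
  exact h

theorem convexOn_psiC {c : ℝ} (h0 : 0 ≤ c) (h1 : c < 1) : ConvexOn ℝ (Icc (-1) 1) (psiC c) := by
  set s := Real.sqrt c with hs
  have hs0 : 0 ≤ s := Real.sqrt_nonneg c
  have hs2 : s ^ 2 = c := Real.sq_sqrt h0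
  have hs1 : s < 1 := by nlinarith
  have h3 : |s| < 1 := by rwa [abs_of_nonneg hs0]
  have h4 : |-s| < 1 := by rwa [abs_neg]
  have h5 := (convexOn_neg_log_one_sub h3).add (convexOn_neg_log_one_sub h4)
  refine h5.congr fun y hy => ?_
  have hy1 := hy.1
  have hy2 := hy.2
  have h6 : 0 < 1 - s * y := by nlinarith
  have h7 : 0 < 1 - -s * y := by nlinarith
  show - Real.log (1 - s * y) + - Real.log (1 - -s * y) = psiC c y
  unfold psiC
  rw [← hs2, ← neg_add, ← Real.log_mul h6.ne' h7.ne']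
  congr 2
  ring

theorem continuousOn_psiC {c : ℝ} (h0 : 0 ≤ c) (h1 : c < 1) : ContinuousOn (psiC c) (Icc (-1) 1) := by
  unfold psiC
  refine ContinuousOn.neg (ContinuousOn.log (by fun_prop) fun y hy => ?_)
  have h2 : y ^ 2 ≤ 1 := by
    have := abs_le.2 hy
    nlinarith [abs_nonneg y, sq_abs y]
  nlinarith

/-- Lipschitz on `|y| ≤ M`, `M < 1`, uniformly in `c ≤ 1`. -/
theorem abs_psiC_sub_le {c a b δ : ℝ} (hδ : 0 < δ) (h0 : 0 ≤ c) (h1 : c ≤ 1) (ha : a ^ 2 ≤ 1 - δ)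
    (hb : b ^ 2 ≤ 1 - δ) : |psiC c a - psiC c b| ≤ 2 / δ * |a - b| := by
  have hA : 1 - c * a ^ 2 ≥ δ := by nlinarith [sq_nonneg a]
  have hB : 1 - c * b ^ 2 ≥ δ := by nlinarith [sq_nonneg b]
  have key : ∀ u v : ℝ, δ ≤ u → δ ≤ v → v ≤ u → Real.log u - Real.log v ≤ (u - v) / δ := by
    intro u v hu hv huv
    have hv0 : 0 < v := by linarith
    have hu0 : 0 < u := by linarith
    rw [← Real.log_div hu0.ne' hv0.ne']
    refine (Real.log_le_sub_one_of_pos (by positivity)).trans ?_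
    have : u / v - 1 = (u - v) / v := by field_simp
    rw [this]
    exact div_le_div_of_nonneg_left (by linarith) hδ hv
  have hcab : |c * a ^ 2 - c * b ^ 2| ≤ 2 * |a - b| := by
    have e : c * a ^ 2 - c * b ^ 2 = c * (a + b) * (a - b) := by ring
    rw [e, abs_mul, abs_mul, abs_of_nonneg h0]
    have h3 : |a + b| ≤ 2 := by
      have h4 : |a| ≤ 1 := by
        have := abs_le_of_sq_le_sq (show a ^ 2 ≤ 1 ^ 2 by nlinarith) zero_le_one
        simpa [abs_le] using this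
      have h5 : |b| ≤ 1 := by
        have := abs_le_of_sq_le_sq (show b ^ 2 ≤ 1 ^ 2 by nlinarith) zero_le_one
        simpa [abs_le] using this
      exact (abs_add_le _ _).trans (by linarith)
    have h6 : c * |a + b| ≤ 2 := by nlinarith [abs_nonneg (a + b)]
    exact mul_le_mul_of_nonneg_right h6 (abs_nonneg _)
  unfold psiC
  have e2 : - Real.log (1 - c * a ^ 2) - - Real.log (1 - c * b ^ 2) =
      Real.log (1 - c * b ^ 2) - Real.log (1 - c * a ^ 2) := by ring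
  rw [e2, abs_le]
  have hab := abs_le.1 hcab
  have e3 : 2 / δ * |a - b| = (2 * |a - b|) / δ := by ring
  rw [e3]
  constructor
  · by_cases hc : 1 - c * b ^ 2 ≤ 1 - c * a ^ 2
    · have := key _ _ hA hB hc
      have h7 : (1 - c * a ^ 2 - (1 - c * b ^ 2)) / δ ≤ 2 * |a - b| / δ :=
        div_le_div_of_nonneg_right (by linarith) hδ.le
      linarith
    · have h8 : 0 ≤ Real.log (1 - c * b ^ 2) - Real.log (1 - c * a ^ 2) := by
        have := Real.log_le_log (by linarith) (le_of_not_ge hc)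
        linarith
      have h9 : 0 ≤ 2 * |a - b| / δ := by positivity
      linarith
  · by_cases hc : 1 - c * a ^ 2 ≤ 1 - c * b ^ 2
    · have := key _ _ hB hA hc
      have h7 : (1 - c * b ^ 2 - (1 - c * a ^ 2)) / δ ≤ 2 * |a - b| / δ :=
        div_le_div_of_nonneg_right (by linarith) hδ.le
      linarith
    · have h8 : Real.log (1 - c * b ^ 2) - Real.log (1 - c * a ^ 2) ≤ 0 := by
        have := Real.log_le_log (by linarith) (le_of_not_ge hc)
        linarith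
      have h9 : 0 ≤ 2 * |a - b| / δ := by positivity
      linarith

/-- `Ψ₁ - Ψ_c` is small for `c` near `1`. -/
theorem psiC_one_le {c y δ : ℝ} (hδ : 0 < δ) (h0 : 0 ≤ c) (h1 : c ≤ 1) (hy : y ^ 2 ≤ 1 - δ) :
    psiC 1 y ≤ psiC c y + (1 - c) / δ := by
  unfold psiC
  have hu : 0 < 1 - c * y ^ 2 := by nlinarith [sq_nonneg y]
  have hv : 0 < 1 - 1 * y ^ 2 := by nlinarith
  have := Real.log_le_sub_one_of_pos (show 0 < (1 - c * y ^ 2) / (1 - 1 * y ^ 2) by positivity)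
  rw [Real.log_div hu.ne' hv.ne'] at this
  have h2 : (1 - c * y ^ 2) / (1 - 1 * y ^ 2) - 1 = ((1 - c) * y ^ 2) / (1 - 1 * y ^ 2) := by
    rw [div_sub_one hv.ne']
    congr 1
    ring
  rw [h2] at this
  have h3 : ((1 - c) * y ^ 2) / (1 - 1 * y ^ 2) ≤ (1 - c) / δ := by
    rw [div_le_div_iff₀ hv hδ]
    have h4 : y ^ 2 * δ ≤ 1 * (1 - 1 * y ^ 2) := by nlinarith [sq_nonneg y]
    nlinarith
  linarith

/-- `a = Ψ₁(ν) - Ψ_{θ²}(ν)`. -/
theorem aOf_eq_psiC {θ a b : ℝ} (h0 : θ ^ 2 ≤ 1) (hν : nuOf θ a b ^ 2 < 1) :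
    aOf θ a b = psiC 1 (nuOf θ a b) - psiC (θ ^ 2) (nuOf θ a b) := by
  unfold aOf uOf uFun psiC
  set ν := nuOf θ a b
  have h1 : 0 < 1 - ν ^ 2 := by linarith
  have h2 : 0 < 1 - θ ^ 2 * ν ^ 2 := by nlinarith [sq_nonneg ν]
  rw [Real.log_div h1.ne' h2.ne']
  simp
  ring

/-! ### The cavity recursion: locality, measurability -/

variable {V : Type*} [DecidableEq V] {G : SimpleGraph V} [G.LocallyFinite] {d : ℕ}

theorem halfBall_child_subset (hT : G.IsTree) {p x c : V} (hpx : G.Adj p x) (hxc : G.Adj x c) (hc : c ≠ p)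
    (N : ℕ) : halfBall G x c N ⊆ halfBall G p x (N + 1) := by
  intro v hv
  rw [mem_halfBall hT hxc] at hv
  rw [mem_halfBall hT hpx]
  obtain ⟨h1, h2⟩ := hv
  refine ⟨by omega, ?_⟩
  rcases hT.dist_eq_dist_add_one_of_adj v hpx with h | h
  · rw [dc G p v, dc G x v]
    exact h
  · exfalso
    apply hc
    refine closer_unique hT v hxc hpx.symm ?_ ?_
    · rw [dc G v x, dc G v c]
      exact h2
    · exact h

theorem nuV_congr (hT : G.IsTree) {θ : ℝ} {h h' : V → ℝ} (N : ℕ) {x p : V} (hpx : G.Adj p x)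
    (hh : ∀ v ∈ halfBall G p x N, h v = h' v) : nuV G θ h N x p = nuV G θ h' N x p := by
  induction N generalizing x p with
  | zero =>
    simp only [nuV]
    rw [hh x (self_mem_halfBall hT hpx 0)]
  | succ N ih =>
    simp only [nuV]
    rw [hh x (self_mem_halfBall hT hpx _)]
    congr 2
    refine Finset.sum_congr rfl fun c hc => ?_
    rw [Finset.mem_erase, mem_neighborFinset] at hc
    rw [ih hc.2 fun v hv => hh v (halfBall_child_subset hT hpx hc.2 hc.1 N hv)]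

theorem measurable_tanh : Measurable Real.tanh := by
  have : Real.tanh = fun x => Real.sinh x / Real.cosh x := by
    funext x
    exact Real.tanh_eq_sinh_div_cosh x
  rw [this]
  exact Real.measurable_sinh.div Real.measurable_cosh

theorem measurable_artanh : Measurable Real.artanh := by
  unfold Real.artanh
  fun_prop

theorem measurable_nuV {θ : ℝ} (N : ℕ) (x p : V) : Measurable fun h : V → ℝ => nuV G θ h N x p := by
  induction N generalizing x p with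
  | zero =>
    simp only [nuV]
    exact measurable_tanh.comp (measurable_pi_apply x)
  | succ N ih =>
    simp only [nuV]
    refine measurable_tanh.comp ((measurable_pi_apply x).add ?_)
    exact Finset.measurable_sum _ fun c _ => measurable_artanh.comp ((ih c x).const_mul θ)

theorem abs_nuV_lt {θ : ℝ} (h : V → ℝ) (N : ℕ) (x p : V) : |nuV G θ h N x p| < 1 := by
  cases N with
  | zero => exact abs_lt.2 ⟨Real.neg_one_lt_tanh _, Real.tanh_lt_one _⟩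
  | succ N => exact abs_lt.2 ⟨Real.neg_one_lt_tanh _, Real.tanh_lt_one _⟩

/-! ### Law of the cavity message -/

/-- Bochner form of the consistency of the fields. -/
theorem integral_field_sub (hT : G.IsTree) {W₀ W : Finset V} (h0W : IsWin G W₀) (hW : IsWin G W)
    (hs : W₀ ⊆ W) {θ : ℝ} {κ : ℝ → ℝ} (hθ0 : 0 ≤ θ) (hθ1 : θ < 1) (hκ : IsStrength κ) (τ : ℝ)
    {ψ : (V → ℝ) → ℝ} (hψ : Measurable ψ) (hψ0 : ∀ h, 0 ≤ ψ h)
    (hdep : ∀ h h' : V → ℝ, (∀ v ∈ W₀, h v = h' v) → ψ h = ψ h') :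
    ∫ ω, ψ (field G θ κ W ω τ) ∂(PP V) = ∫ ω, ψ (field G θ κ W₀ ω τ) ∂(PP V) := by
  have hm : ∀ U : Finset V, Measurable fun ω : Om V => field G θ κ U ω τ := by
    intro U
    refine measurable_pi_iff.2 fun v => ?_
    have h1 : Measurable fun ω : Om V => ((τ, ω) : ℝ × Om V) := measurable_prodMk_left
    have h2 := measurable_field (G := G) (θ := θ) hκ.meas (W := U) v
    have := Measurable.comp h2 h1
    exact this
  rw [integral_eq_lintegral_of_nonneg_ae (Eventually.of_forall fun ω => hψ0 _)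
      (hψ.comp (hm W)).aestronglyMeasurable,
    integral_eq_lintegral_of_nonneg_ae (Eventually.of_forall fun ω => hψ0 _)
      (hψ.comp (hm W₀)).aestronglyMeasurable]
  congr 1
  exact lintegral_field_sub hT h0W hW hs hθ0 hθ1 hκ τ (Ψ := fun h => ENNReal.ofReal (ψ h))
    (ENNReal.measurable_ofReal.comp hψ) fun h h' hh => by rw [hdep h h' hh]

/-- The window cavity in the ball has the law of the root mean of the half ball. -/
theorem integral_psi_cavity (hG : Tree G d) {θ : ℝ} {κ : ℝ → ℝ} (hθ0 : 0 ≤ θ) (hθ1 : θ < 1)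
    (hκ : IsStrength κ) (τ : ℝ) {x p : V} (hpx : G.Adj p x) {N : ℕ} (hN : 1 ≤ N) {Ψ : ℝ → ℝ}
    (hΨ : Measurable Ψ) (hΨ0 : ∀ y, |y| < 1 → 0 ≤ Ψ y) :
    ∫ ω, Ψ (nuOf θ (mW G θ κ (ball G x N) ω τ p) (mW G θ κ (ball G x N) ω τ x)) ∂(PP V) =
      ∫ ω, Ψ (mW G θ κ (halfBall G p x N) ω τ x) ∂(PP V) := by
  have hT := hG.tree
  have e1 : ∀ ω : Om V, nuOf θ (mW G θ κ (ball G x N) ω τ p) (mW G θ κ (ball G x N) ω τ x) =
      nuV G θ (field G θ κ (ball G x N) ω τ) N x p := by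
    intro ω
    have := nuOf_gm_ball hG hθ0 hθ1 (field G θ κ (ball G x N) ω τ) (o := x) (b := x) (p := p) (N := N)
      (by simp) (by rw [dist_eq_one_iff_adj.mpr hpx.symm]; exact hN) hpx.symm (Or.inl rfl)
    simpa [mW] using this
  have e2 : ∀ ω : Om V, mW G θ κ (halfBall G p x N) ω τ x =
      nuV G θ (field G θ κ (halfBall G p x N) ω τ) N x p := fun ω =>
    gm_halfBall hG hθ0 hθ1 _ hpx N
  simp_rw [e1, e2]
  exact integral_field_sub hT (isWin_halfBall hT hpx N) (isWin_ball hT x N)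
    (halfBall_subset_ball hT hpx N) hθ0 hθ1 hκ τ
    (ψ := fun h => Ψ (nuV G θ h N x p)) (hΨ.comp (measurable_nuV N x p))
    (fun h => hΨ0 _ (abs_nuV_lt _ _ _ _))
    (fun h h' hh => by rw [nuV_congr hT N hpx hh])

/-- Monotonicity in `θ` of the window means of `Ψ_c`. -/
theorem psiC_window_le (hG : Tree G d) {θ θ' c : ℝ} {κ : ℝ → ℝ} (hθ0 : 0 ≤ θ) (hθθ' : θ ≤ θ') (hθ1 : θ' < 1)
    (hκ : IsStrength κ) (τ : ℝ) {x p : V} (hpx : G.Adj p x) {N : ℕ} (hN : 1 ≤ N) (hc0 : 0 ≤ c) (hc1 : c < 1) :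
    ∫ ω, psiC c (nuOf θ (mW G θ κ (ball G x N) ω τ p) (mW G θ κ (ball G x N) ω τ x)) ∂(PP V) ≤
      ∫ ω, psiC c (nuOf θ' (mW G θ' κ (ball G x N) ω τ p) (mW G θ' κ (ball G x N) ω τ x)) ∂(PP V) := by
  have hT := hG.tree
  have hnn : ∀ y, |y| < 1 → 0 ≤ psiC c y := by
    intro y hy
    refine psiC_nonneg hc0 ?_
    have h1 : y ^ 2 < 1 := by
      rw [← sq_abs]
      nlinarith [abs_nonneg y]
    nlinarith [sq_nonneg y]
  rw [integral_psi_cavity hG hθ0 (hθθ'.trans_lt hθ1) hκ τ hpx hN (measurable_psiC c) hnn,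
    integral_psi_cavity hG (hθ0.trans hθθ') hθ1 hκ τ hpx hN (measurable_psiC c) hnn]
  exact integral_convex_mono hT (isWin_halfBall hT hpx N) hθ0 hθθ' hθ1 hκ τ (convexOn_psiC hc0 hc1)
    (psiC_neg c) (continuousOn_psiC hc0 hc1) (self_mem_halfBall hT hpx N)

/-! ### Passing to infinite volume -/

/-- `L²` convergence of window means in a ball, at the centre or a neighbour. -/
theorem mW_ball_L2 (hG : Tree G d) {ϑ τ : ℝ} {κ : ℝ → ℝ} (hϑ0 : 0 ≤ ϑ) (hϑ : ϑ ^ 2 * ((d : ℝ) - 1) < 1)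
    (hκ : IsStrength κ) (hτ : 0 ≤ τ) {a v : V} (hv : G.dist a v ≤ 1) :
    Tendsto (fun N => ∫ ω, (mW G ϑ κ (ball G a N) ω τ v - mInf G ϑ κ ω τ v) ^ 2 ∂(PP V)) atTop (𝓝 0) := by
  have hT := hG.tree
  obtain ⟨B, γ, hB, hγ0, hγ1, hbd⟩ := mInf_L2 hG (τ₁ := τ) (κ := κ) hϑ0 hϑ hκ
  have hgeo : Tendsto (fun N : ℕ => B * γ ^ (N - 1)) atTop (𝓝 0) := by
    have h1 : Tendsto (fun N : ℕ => γ ^ N) atTop (𝓝 0) :=
      tendsto_pow_atTop_nhds_zero_of_lt_one hγ0.le hγ1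
    have h2 : Tendsto (fun N : ℕ => N - 1) atTop atTop := tendsto_sub_atTop_nat 1
    simpa using (h1.comp h2).const_mul B
  refine squeeze_zero' (Eventually.of_forall fun N => integral_nonneg fun _ => sq_nonneg _) ?_ hgeo
  filter_upwards [eventually_ge_atTop 1] with N hN
  refine hbd _ (isWin_ball hT a N) v (N - 1) (fun u hu => ?_) τ ⟨hτ, le_rfl⟩
  rw [mem_ball hT] at hu ⊢
  have := (hT.connected).dist_triangle (u := a) (v := v) (w := u)
  omega

/-- The cavity messages at a fixed time are uniformly bounded away from `±1`. -/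
theorem exists_cavity_bound (hG : Tree G d) {ε τ : ℝ} (h0 : 0 < ε) (h1 : ε ≤ 1 / 2) :
    ∃ M : ℝ, 0 ≤ M ∧ M < 1 ∧ ∀ θ, 0 ≤ θ → θ ≤ 3 / 4 → ∀ x p, G.Adj p x → ∀ ω : Om V,
      |nuOf θ (mInf G θ (kap ε) ω τ p) (mInf G θ (kap ε) ω τ x)| ≤ M ∧
      ∀ N, 1 ≤ N → |nuOf θ (mW G θ (kap ε) (ball G x N) ω τ p) (mW G θ (kap ε) (ball G x N) ω τ x)| ≤ M := by
  have hT := hG.tree
  have hθm : (0 : ℝ) ≤ 3 / 4 := by norm_num
  have hθm1 : (3 / 4 : ℝ) < 1 := by norm_num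
  obtain ⟨t₁, ht₁0, ht₁1, ht₁⟩ := exists_abs_mW_le hG (G := G) (τ := τ) hθm hθm1 h0.le h1
  obtain ⟨t₂, ht₂0, ht₂1, ht₂⟩ := exists_abs_mInf_le hG (G := G) (τ₁ := τ) hθm hθm1 h0.le h1
  set t := max t₁ t₂ with ht
  have ht0 : 0 ≤ t := le_max_of_le_left ht₁0
  have ht1 : t < 1 := max_lt ht₁1 ht₂1
  have hden : ∀ θ : ℝ, 0 ≤ θ → 0 < 1 + θ * t := fun θ h => by nlinarith [mul_nonneg h ht0]
  have hmon : ∀ θ : ℝ, 0 ≤ θ → θ ≤ 3 / 4 → (t + θ) / (1 + θ * t) ≤ (t + 3 / 4) / (1 + 3 / 4 * t) := by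
    intro θ h2 h3
    rw [div_le_div_iff₀ (hden θ h2) (hden _ hθm)]
    nlinarith [mul_nonneg ht0 ht0, mul_nonneg (sub_nonneg.2 h3) (sub_nonneg.2 (by nlinarith : t ^ 2 ≤ 1))]
  refine ⟨(t + 3 / 4) / (1 + 3 / 4 * t), by positivity, ?_, ?_⟩
  · rw [div_lt_one (hden _ hθm)]
    nlinarith
  · intro θ h2 h3 x p hpx ω
    have hθ1 : θ < 1 := by linarith
    constructor
    · exact (abs_nuOf_le_of_abs_le h2 hθ1 ht1
        ((ht₂ θ h2 h3 ω τ p le_rfl).trans (le_max_right _ _))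
        ((ht₂ θ h2 h3 ω τ x le_rfl).trans (le_max_right _ _))).trans (hmon θ h2 h3)
    · intro N hN
      have hW := isWin_ball hT x N
      have hp : p ∈ ball G x N := (mem_ball hT).2 (by rw [dist_eq_one_iff_adj.mpr hpx.symm]; exact hN)
      have hx : x ∈ ball G x N := (mem_ball hT).2 (by simp)
      exact (abs_nuOf_le_of_abs_le h2 hθ1 ht1
        ((ht₁ θ h2 h3 _ hW ω p hp).trans (le_max_left _ _))
        ((ht₁ θ h2 h3 _ hW ω x hx).trans (le_max_left _ _))).trans (hmon θ h2 h3)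

theorem measurable_nu_inf {θ : ℝ} {κ : ℝ → ℝ} (hκ : Measurable κ) (τ : ℝ) (x p : V) :
    Measurable fun ω : Om V => nuOf θ (mInf G θ κ ω τ p) (mInf G θ κ ω τ x) := by
  have := Measurable.comp (bp_measurable_nuOf θ) ((measurable_mInf_at (G := G) (θ := θ) hκ τ p).prodMk
    (measurable_mInf_at (G := G) (θ := θ) hκ τ x))
  exact this

theorem measurable_nu_win {θ : ℝ} {κ : ℝ → ℝ} (hκ : Measurable κ) (τ : ℝ) (N : ℕ) (x p : V) :
    Measurable fun ω : Om V => nuOf θ (mW G θ κ (ball G x N) ω τ p) (mW G θ κ (ball G x N) ω τ x) := by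
  have := Measurable.comp (bp_measurable_nuOf θ) ((bp_measurable_mW_at (G := G) (θ := θ) hκ (ball G x N) τ p).prodMk
    (bp_measurable_mW_at (G := G) (θ := θ) hκ (ball G x N) τ x))
  exact this

theorem aux_sq2 (y x₁ x₂ A : ℝ) (h1 : |y| ≤ A * (|x₁| + |x₂|)) :
    y ^ 2 ≤ 2 * A ^ 2 * (x₁ ^ 2 + x₂ ^ 2) := by
  have h2 : y ^ 2 ≤ A ^ 2 * (|x₁| + |x₂|) ^ 2 := by
    rw [← sq_abs y, ← mul_pow]
    exact pow_le_pow_left₀ (abs_nonneg _) h1 2
  have h3 : (|x₁| + |x₂|) ^ 2 ≤ 2 * (x₁ ^ 2 + x₂ ^ 2) := by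
    have h4 := sq_abs x₁
    have h5 := sq_abs x₂
    nlinarith [sq_nonneg (|x₁| - |x₂|)]
  have h6 := mul_le_mul_of_nonneg_left h3 (sq_nonneg A)
  linarith

/-- `L²` convergence of the cavity messages. -/
theorem nu_L2 (hG : Tree G d) {θ τ : ℝ} {κ : ℝ → ℝ} (hθ : ThetaRange d θ)
    (hκ : IsStrength κ) (hτ : 0 ≤ τ) {x p : V} (hpx : G.Adj p x) :
    Tendsto (fun N => ∫ ω, (nuOf θ (mW G θ κ (ball G x N) ω τ p) (mW G θ κ (ball G x N) ω τ x) -
      nuOf θ (mInf G θ κ ω τ p) (mInf G θ κ ω τ x)) ^ 2 ∂(PP V)) atTop (𝓝 0) := by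
  have hT := hG.tree
  have hle := thetaRange_le hG.hd hθ
  have hθ1 : θ < 1 := by linarith
  obtain ⟨L, hL0, hL⟩ := exists_bethe_bounds (θm := 3 / 4) (by norm_num) (by norm_num)
  have h1p := mW_ball_L2 hG hθ.1 hθ.2.1 hκ hτ (a := x) (v := p) (by rw [dist_eq_one_iff_adj.mpr hpx.symm])
  have h1x := mW_ball_L2 hG hθ.1 hθ.2.1 hκ hτ (a := x) (v := x) (by simp)
  have hlim := (h1p.add h1x).const_mul (2 * L ^ 2)
  simp only [add_zero, mul_zero] at hlim
  refine squeeze_zero (fun N => integral_nonneg fun _ => sq_nonneg _) (fun N => ?_) hlim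
  have hint : ∀ v : V, Integrable
      (fun ω => (mW G θ κ (ball G x N) ω τ v - mInf G θ κ ω τ v) ^ 2) (PP V) := by
    intro v
    have hm := ((bp_measurable_mW_at (G := G) (θ := θ) hκ.meas (ball G x N) τ v).sub
      (measurable_mInf_at (G := G) (θ := θ) hκ.meas τ v)).pow_const 2
    refine integrable_of_bdd hm (M := 4) fun ω => ?_
    have h3 := abs_mW_le (G := G) hθ.1 hθ1 (κ := κ) (ball G x N) ω τ v
    have h4 := abs_mInf_le hG (κ := κ) hθ.1 hθ1 ω τ v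
    rw [abs_of_nonneg (sq_nonneg _)]
    have h5 := abs_le.1 h3
    have h6 := abs_le.1 h4
    nlinarith
  rw [← integral_add (hint p) (hint x), ← integral_const_mul]
  refine integral_mono_of_nonneg (Eventually.of_forall fun _ => sq_nonneg _)
    (((hint p).add (hint x)).const_mul _) (Eventually.of_forall fun ω => ?_)
  have hb := (hL θ θ _ _ _ _ hθ.1 hle hθ.1 hle
    (abs_mW_le (G := G) hθ.1 hθ1 (κ := κ) (ball G x N) ω τ p)
    (abs_mW_le (G := G) hθ.1 hθ1 (κ := κ) (ball G x N) ω τ x)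
    (abs_mInf_le hG (κ := κ) hθ.1 hθ1 ω τ p) (abs_mInf_le hG (κ := κ) hθ.1 hθ1 ω τ x)).2.2.1
  simp only [sub_self, abs_zero, add_zero] at hb
  exact aux_sq2 _ _ _ _ hb

/-- Monotonicity in `θ`, infinite volume, `c < 1`. -/
theorem psiC_inf_le (hG : Tree G d) {θ θ' ε τ c : ℝ} (hθ : ThetaRange d θ) (hθ' : ThetaRange d θ')
    (hle : θ ≤ θ') (h0 : 0 < ε) (h1 : ε ≤ 1 / 2) (hτ : 0 ≤ τ) (hc0 : 0 ≤ c) (hc1 : c < 1) {x p : V}
    (hpx : G.Adj p x) :
    ∫ ω, psiC c (nuOf θ (mInf G θ (kap ε) ω τ p) (mInf G θ (kap ε) ω τ x)) ∂(PP V) ≤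
      ∫ ω, psiC c (nuOf θ' (mInf G θ' (kap ε) ω τ p) (mInf G θ' (kap ε) ω τ x)) ∂(PP V) := by
  have hκ := isStrength_kap h0.le h1
  obtain ⟨M, hM0, hM1, hM⟩ := exists_cavity_bound hG (G := G) (τ := τ) h0 h1
  have hθle := thetaRange_le hG.hd hθ
  have hθle' := thetaRange_le hG.hd hθ'
  have hδ : 0 < 1 - M ^ 2 := by nlinarith
  have hlip : ∀ a b, |a| ≤ M → |b| ≤ M → |psiC c a - psiC c b| ≤ 2 / (1 - M ^ 2) * |a - b| := by
    intro a b ha hb
    refine abs_psiC_sub_le hδ hc0 hc1.le ?_ ?_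
    · have : a ^ 2 ≤ M ^ 2 := by rw [← sq_abs a]; exact pow_le_pow_left₀ (abs_nonneg _) ha 2
      linarith
    · have : b ^ 2 ≤ M ^ 2 := by rw [← sq_abs b]; exact pow_le_pow_left₀ (abs_nonneg _) hb 2
      linarith
  have hT1 : ∀ {ϑ : ℝ}, ThetaRange d ϑ → ϑ ≤ 3 / 4 → Tendsto (fun N : ℕ =>
      ∫ ω, psiC c (nuOf ϑ (mW G ϑ (kap ε) (ball G x (N + 1)) ω τ p) (mW G ϑ (kap ε) (ball G x (N + 1)) ω τ x)) ∂(PP V))
      atTop (𝓝 (∫ ω, psiC c (nuOf ϑ (mInf G ϑ (kap ε) ω τ p) (mInf G ϑ (kap ε) ω τ x)) ∂(PP V))) := by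
    intro ϑ hϑ hϑle
    refine tendsto_integral_comp_of_L2 (μ := PP V) (φ := psiC c) (L := 2 / (1 - M ^ 2)) (M := M)
      (F := fun N ω => nuOf ϑ (mW G ϑ (kap ε) (ball G x (N + 1)) ω τ p) (mW G ϑ (kap ε) (ball G x (N + 1)) ω τ x))
      (f := fun ω => nuOf ϑ (mInf G ϑ (kap ε) ω τ p) (mInf G ϑ (kap ε) ω τ x))
      (fun N => measurable_nu_win hκ.meas τ _ x p) (measurable_nu_inf hκ.meas τ x p) (measurable_psiC c)
      (fun N ω => (hM ϑ hϑ.1 hϑle x p hpx ω).2 _ (by omega))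
      (fun ω => (hM ϑ hϑ.1 hϑle x p hpx ω).1) (by positivity) hlip ?_
    exact (nu_L2 hG hϑ hκ hτ hpx).comp (tendsto_add_atTop_nat 1)
  exact le_of_tendsto_of_tendsto' (hT1 hθ hθle) (hT1 hθ' hθle') fun N =>
    psiC_window_le hG hθ.1 hle (by linarith) hκ τ hpx (by omega) hc0 hc1

/-- Integrability and the bound of `Ψ_c` of the cavity. -/
theorem integral_psiC_bounds (hG : Tree G d) {θ ε τ c M : ℝ} (h0 : 0 < ε) (h1 : ε ≤ 1 / 2) (hc0 : 0 ≤ c)
    (hc1 : c ≤ 1) (hM1 : M < 1) {x p : V}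
    (hb : ∀ ω, |nuOf θ (mInf G θ (kap ε) ω τ p) (mInf G θ (kap ε) ω τ x)| ≤ M) :
    Integrable (fun ω => psiC c (nuOf θ (mInf G θ (kap ε) ω τ p) (mInf G θ (kap ε) ω τ x))) (PP V) ∧
      ∫ ω, psiC c (nuOf θ (mInf G θ (kap ε) ω τ p) (mInf G θ (kap ε) ω τ x)) ∂(PP V) ≤ psiC 1 M := by
  have hκ := isStrength_kap h0.le h1
  have hM0 : ∀ y, |y| ≤ M → y ^ 2 ≤ M ^ 2 := fun y hy => by
    rw [← sq_abs y]; exact pow_le_pow_left₀ (abs_nonneg _) hy 2
  have hne : Nonempty (Om V) := nonempty_of_isProbabilityMeasure (PP V)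
  have hMnn : 0 ≤ M := (abs_nonneg _).trans (hb hne.some)
  have hM2 : M ^ 2 < 1 := by nlinarith
  have hle : ∀ ω, psiC c (nuOf θ (mInf G θ (kap ε) ω τ p) (mInf G θ (kap ε) ω τ x)) ≤ psiC 1 M := fun ω => by
    refine psiC_le_of_le ?_ (by linarith)
    have := hM0 _ (hb ω)
    nlinarith [sq_nonneg (nuOf θ (mInf G θ (kap ε) ω τ p) (mInf G θ (kap ε) ω τ x))]
  have hnn : ∀ ω, 0 ≤ psiC c (nuOf θ (mInf G θ (kap ε) ω τ p) (mInf G θ (kap ε) ω τ x)) := fun ω => by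
    refine psiC_nonneg hc0 ?_
    have := hM0 _ (hb ω)
    nlinarith [sq_nonneg (nuOf θ (mInf G θ (kap ε) ω τ p) (mInf G θ (kap ε) ω τ x))]
  have hint : Integrable (fun ω => psiC c (nuOf θ (mInf G θ (kap ε) ω τ p) (mInf G θ (kap ε) ω τ x))) (PP V) :=
    integrable_of_bdd (M := psiC 1 M) ((measurable_psiC c).comp (measurable_nu_inf hκ.meas τ x p)) fun ω => by
      rw [abs_of_nonneg (hnn ω)]
      exact hle ω
  refine ⟨hint, ?_⟩
  have := integral_mono hint (integrable_const _) hle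
  simpa using this

/-- Monotonicity in `θ`, `c = 1`. -/
theorem psiC_one_inf_le (hG : Tree G d) {θ θ' ε τ : ℝ} (hθ : ThetaRange d θ) (hθ' : ThetaRange d θ')
    (hle : θ ≤ θ') (h0 : 0 < ε) (h1 : ε ≤ 1 / 2) (hτ : 0 ≤ τ) {x p : V} (hpx : G.Adj p x) :
    ∫ ω, psiC 1 (nuOf θ (mInf G θ (kap ε) ω τ p) (mInf G θ (kap ε) ω τ x)) ∂(PP V) ≤
      ∫ ω, psiC 1 (nuOf θ' (mInf G θ' (kap ε) ω τ p) (mInf G θ' (kap ε) ω τ x)) ∂(PP V) := by
  obtain ⟨M, hM0, hM1, hM⟩ := exists_cavity_bound hG (G := G) (τ := τ) h0 h1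
  have hθle := thetaRange_le hG.hd hθ
  have hθle' := thetaRange_le hG.hd hθ'
  have hδ : 0 < 1 - M ^ 2 := by nlinarith
  have hb := fun ω => (hM θ hθ.1 hθle x p hpx ω).1
  have hb' := fun ω => (hM θ' hθ'.1 hθle' x p hpx ω).1
  have hM0' : ∀ y, |y| ≤ M → y ^ 2 ≤ 1 - (1 - M ^ 2) := fun y hy => by
    have : y ^ 2 ≤ M ^ 2 := by rw [← sq_abs y]; exact pow_le_pow_left₀ (abs_nonneg _) hy 2
    linarith
  refine le_of_forall_pos_le_add fun e he => ?_
  set η := min (1 / 2) (e * (1 - M ^ 2)) with hη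
  have hη0 : 0 < η := lt_min (by norm_num) (by positivity)
  have hη1 : η ≤ 1 / 2 := min_le_left _ _
  have hη2 : η ≤ e * (1 - M ^ 2) := min_le_right _ _
  have hc0 : (0 : ℝ) ≤ 1 - η := by linarith
  have hc1 : 1 - η < 1 := by linarith
  have hee : (1 - (1 - η)) / (1 - M ^ 2) ≤ e := by
    rw [div_le_iff₀ hδ]
    linarith
  have hA := integral_psiC_bounds hG (θ := θ) (τ := τ) (x := x) (p := p) h0 h1 (zero_le_one) le_rfl hM1 hb
  have hB := integral_psiC_bounds hG (θ := θ) (τ := τ) (x := x) (p := p) h0 h1 hc0 hc1.le hM1 hb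
  have hC := integral_psiC_bounds hG (θ := θ') (τ := τ) (x := x) (p := p) h0 h1 hc0 hc1.le hM1 hb'
  have hD := integral_psiC_bounds hG (θ := θ') (τ := τ) (x := x) (p := p) h0 h1 (zero_le_one) le_rfl hM1 hb'
  have h2 : ∫ ω, psiC 1 (nuOf θ (mInf G θ (kap ε) ω τ p) (mInf G θ (kap ε) ω τ x)) ∂(PP V) ≤
      ∫ ω, psiC (1 - η) (nuOf θ (mInf G θ (kap ε) ω τ p) (mInf G θ (kap ε) ω τ x)) ∂(PP V) +
        (1 - (1 - η)) / (1 - M ^ 2) := by
    have h3 := integral_mono hA.1 (hB.1.add (integrable_const ((1 - (1 - η)) / (1 - M ^ 2))))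
      (fun ω => psiC_one_le hδ hc0 hc1.le (hM0' _ (hb ω)))
    have h4 : ∫ ω, (psiC (1 - η) (nuOf θ (mInf G θ (kap ε) ω τ p) (mInf G θ (kap ε) ω τ x)) +
        (1 - (1 - η)) / (1 - M ^ 2)) ∂(PP V) =
        ∫ ω, psiC (1 - η) (nuOf θ (mInf G θ (kap ε) ω τ p) (mInf G θ (kap ε) ω τ x)) ∂(PP V) +
        (1 - (1 - η)) / (1 - M ^ 2) := by
      rw [integral_add hB.1 (integrable_const _)]
      simp
    exact h3.trans_eq h4
  have h5 := psiC_inf_le hG hθ hθ' hle h0 h1 hτ hc0 hc1 hpx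
  have h6 : ∫ ω, psiC (1 - η) (nuOf θ' (mInf G θ' (kap ε) ω τ p) (mInf G θ' (kap ε) ω τ x)) ∂(PP V) ≤
      ∫ ω, psiC 1 (nuOf θ' (mInf G θ' (kap ε) ω τ p) (mInf G θ' (kap ε) ω τ x)) ∂(PP V) := by
    refine integral_mono hC.1 hD.1 fun ω => ?_
    refine psiC_le_of_le ?_ ?_
    · nlinarith [sq_nonneg (nuOf θ' (mInf G θ' (kap ε) ω τ p) (mInf G θ' (kap ε) ω τ x))]
    · have := hM0' _ (hb' ω)
      linarith
  linarith

/-- E5. -/
theorem psi_tendsto (hG : Tree G d) {ε τ₁ : ℝ} (h0 : 0 < ε) (h1 : ε ≤ 1 / 2) (hτ₁ : 1 ≤ τ₁)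
    {θs : ℕ → ℝ} (hmono : Monotone θs) (hr : ∀ j, ThetaRange d (θs j))
    (hlim : Tendsto (fun j => θs j ^ 2 * ((d : ℝ) - 1)) atTop (𝓝 1)) {x p : V} (hxp : G.Adj p x)
    (τ : ℝ) (hτ : τ ∈ Ioc 0 τ₁) :
    Tendsto (fun jk : ℕ × ℕ => ∫ ω, fPair G (θs jk.1) (θs jk.2) (kap ε) ω τ p x ∂(PP V))
      (atTop ×ˢ atTop) (𝓝 0) := by
  have hτ0 : 0 ≤ τ := hτ.1.le
  have hκ := isStrength_kap h0.le h1
  obtain ⟨M, hM0, hM1, hM⟩ := exists_cavity_bound hG (G := G) (τ := τ) h0 h1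
  have hle := fun j => thetaRange_le hG.hd (hr j)
  have hb := fun j ω => (hM (θs j) (hr j).1 (hle j) x p hxp ω).1
  have hM2 : ∀ j ω, nuOf (θs j) (mInf G (θs j) (kap ε) ω τ p) (mInf G (θs j) (kap ε) ω τ x) ^ 2 < 1 := by
    intro j ω
    have h2 : nuOf (θs j) (mInf G (θs j) (kap ε) ω τ p) (mInf G (θs j) (kap ε) ω τ x) ^ 2 ≤ M ^ 2 := by
      rw [← sq_abs]
      exact pow_le_pow_left₀ (abs_nonneg _) (hb j ω) 2
    nlinarith
  have hθsq : ∀ j, θs j ^ 2 ≤ 1 := fun j => by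
    have := (hr j).1
    have := hle j
    nlinarith
  -- the two sequences
  set A : ℕ → ℝ := fun j =>
    ∫ ω, psiC 1 (nuOf (θs j) (mInf G (θs j) (kap ε) ω τ p) (mInf G (θs j) (kap ε) ω τ x)) ∂(PP V) with hA
  set C : ℕ → ℝ := fun j =>
    ∫ ω, psiC (θs j ^ 2) (nuOf (θs j) (mInf G (θs j) (kap ε) ω τ p) (mInf G (θs j) (kap ε) ω τ x)) ∂(PP V) with hC
  have hAm : Monotone A := fun i j hij =>
    psiC_one_inf_le hG (hr i) (hr j) (hmono hij) h0 h1 hτ0 hxp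
  have hCm : Monotone C := by
    intro i j hij
    have hsq : θs i ^ 2 ≤ θs j ^ 2 := pow_le_pow_left₀ (hr i).1 (hmono hij) 2
    have hc1 : θs i ^ 2 < 1 := by
      have := (hr i).1
      have := hle i
      nlinarith
    have h2 := psiC_inf_le hG (hr i) (hr j) (hmono hij) h0 h1 hτ0 (sq_nonneg _) hc1 hxp
    refine h2.trans (integral_mono
      (integral_psiC_bounds hG h0 h1 (sq_nonneg _) hc1.le hM1 (hb j)).1
      (integral_psiC_bounds hG h0 h1 (sq_nonneg _) (hθsq j) hM1 (hb j)).1 fun ω => ?_)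
    refine psiC_le_of_le ?_ ?_
    · exact mul_le_mul_of_nonneg_right hsq (sq_nonneg _)
    · have h3 := hM2 j ω
      have h4 := hθsq j
      nlinarith [sq_nonneg (nuOf (θs j) (mInf G (θs j) (kap ε) ω τ p) (mInf G (θs j) (kap ε) ω τ x))]
  have hAb : BddAbove (range A) := ⟨psiC 1 M, by
    rintro _ ⟨j, rfl⟩
    exact (integral_psiC_bounds hG h0 h1 zero_le_one le_rfl hM1 (hb j)).2⟩
  have hCb : BddAbove (range C) := ⟨psiC 1 M, by
    rintro _ ⟨j, rfl⟩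
    exact (integral_psiC_bounds hG h0 h1 (sq_nonneg _) (hθsq j) hM1 (hb j)).2⟩
  have hAt := tendsto_atTop_ciSup hAm hAb
  have hCt := tendsto_atTop_ciSup hCm hCb
  -- the functional
  have hat : ∀ j, ∫ ω, aOf (θs j) (mInf G (θs j) (kap ε) ω τ p) (mInf G (θs j) (kap ε) ω τ x) ∂(PP V) = A j - C j := by
    intro j
    have e : ∀ ω : Om V, aOf (θs j) (mInf G (θs j) (kap ε) ω τ p) (mInf G (θs j) (kap ε) ω τ x) =
        psiC 1 (nuOf (θs j) (mInf G (θs j) (kap ε) ω τ p) (mInf G (θs j) (kap ε) ω τ x)) -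
        psiC (θs j ^ 2) (nuOf (θs j) (mInf G (θs j) (kap ε) ω τ p) (mInf G (θs j) (kap ε) ω τ x)) :=
      fun ω => aOf_eq_psiC (hθsq j) (hM2 j ω)
    simp_rw [e]
    exact integral_sub (integral_psiC_bounds hG h0 h1 zero_le_one le_rfl hM1 (hb j)).1
      (integral_psiC_bounds hG h0 h1 (sq_nonneg _) (hθsq j) hM1 (hb j)).1
  have hbdd : ∀ j, ∀ ω : Om V,
      |aOf (θs j) (mInf G (θs j) (kap ε) ω τ p) (mInf G (θs j) (kap ε) ω τ x)| ≤ psiC 1 M + psiC 1 M := by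
    intro j ω
    rw [aOf_eq_psiC (hθsq j) (hM2 j ω)]
    have hM3 : M ^ 2 < 1 := by nlinarith
    set y := nuOf (θs j) (mInf G (θs j) (kap ε) ω τ p) (mInf G (θs j) (kap ε) ω τ x) with hy
    have hy2 : y ^ 2 ≤ M ^ 2 := by
      rw [← sq_abs]
      exact pow_le_pow_left₀ (abs_nonneg _) (hb j ω) 2
    have h5 : psiC 1 y ≤ psiC 1 M := psiC_le_of_le (by linarith) (by linarith)
    have h6 : psiC (θs j ^ 2) y ≤ psiC 1 M :=
      psiC_le_of_le (by nlinarith [sq_nonneg y, hθsq j]) (by linarith)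
    have h7 : 0 ≤ psiC 1 y := psiC_nonneg zero_le_one (hM2 j ω |> fun h => by linarith)
    have h8 : 0 ≤ psiC (θs j ^ 2) y :=
      psiC_nonneg (sq_nonneg _) (by nlinarith [sq_nonneg y, hθsq j, hM2 j ω])
    rw [abs_le]
    constructor <;> linarith
  have hfp : ∀ jk : ℕ × ℕ, ∫ ω, fPair G (θs jk.1) (θs jk.2) (kap ε) ω τ p x ∂(PP V) =
      (A jk.1 - C jk.1) - (A jk.2 - C jk.2) := by
    intro jk
    rw [← hat jk.1, ← hat jk.2]
    have hm : ∀ j, Measurable fun ω : Om V =>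
        aOf (θs j) (mInf G (θs j) (kap ε) ω τ p) (mInf G (θs j) (kap ε) ω τ x) := fun j => by
      have := Measurable.comp (bp_measurable_aOf (θs j)) ((measurable_mInf_at (G := G) (θ := θs j) hκ.meas τ p).prodMk
        (measurable_mInf_at (G := G) (θ := θs j) hκ.meas τ x))
      exact this
    exact integral_sub (integrable_of_bdd (hm jk.1) (hbdd jk.1)) (integrable_of_bdd (hm jk.2) (hbdd jk.2))
  simp_rw [hfp]
  have hd := hAt.sub hCt
  have h9 := (hd.comp tendsto_fst).sub (hd.comp tendsto_snd) (f := fun _ => _) (l := atTop ×ˢ atTop)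
  simpa using h9

end Crest.Agent.Lib.IsingFIID
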