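/-
Row 160 (S0241): `main_ineq`, from the real modules.
-/
import Crest.Agent.Lib.IsingFIID.MainIneq
import Crest.Agent.Lib.IsingFIID.Increment
import Crest.Agent.Lib.IsingFIID.BsvPair
import Crest.Agent.Lib.IsingFIID.PsiLimit

set_option autoImplicit false
set_option linter.unusedSectionVars false
set_option linter.unusedVariables false

namespace Crest.Agent.Lib.IsingFIID

open MeasureTheory Filter Topology Set SimpleGraph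
open scoped ENNReal

variable {V : Type*} [DecidableEq V] {G : SimpleGraph V} [G.LocallyFinite] {d : ℕ}

/-- Reversal of the path formula in infinite volume. -/
theorem ae_pathCov_reverse (hG : Tree G d) {θ : ℝ} {κ : ℝ → ℝ} (hθ0 : 0 ≤ θ)
    (hθ : θ ^ 2 * ((d : ℝ) - 1) < 1) (hκ : IsStrength κ) (τ : ℝ) {x : ℕ → V} {r : ℕ} (hx : IsGeod G x r) :
    ∀ᵐ ω ∂(PP V), pathCov θ (fun u => mInf G θ κ ω τ u) x r =
      pathCov θ (fun u => mInf G θ κ ω τ u) (fun i => x (r - i)) r := by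
  have hT := hG.tree
  have hθ1 : θ < 1 := Incr.theta_lt_one hG hθ0 hθ
  have hae : ∀ᵐ ω ∂(PP V), ∀ i : ℕ, Tendsto (fun N => mW G θ κ (ball G (x 0) N) ω τ (x i)) atTop
      (𝓝 (mInf G θ κ ω τ (x i))) :=
    ae_all_iff.2 fun i => Incr.ae_tendsto_ball hG hθ0 hθ hκ τ (x 0) _
  filter_upwards [hae] with ω hω
  have h1 := Incr.tendsto_pathCov (θ := θ) (m := fun N u => mW G θ κ (ball G (x 0) N) ω τ u)
    (m' := fun u => mInf G θ κ ω τ u) (x := x) (r := r) hθ0 hθ1 hω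
    (fun N i => Incr.abs_mW_le hθ0 hθ1 ω _) (fun i => abs_mInf_le hG hθ0 hθ1 ω τ _)
  have h2 := Incr.tendsto_pathCov (θ := θ) (m := fun N u => mW G θ κ (ball G (x 0) N) ω τ u)
    (m' := fun u => mInf G θ κ ω τ u) (x := fun i => x (r - i)) (r := r) hθ0 hθ1 (fun i => hω (r - i))
    (fun N i => Incr.abs_mW_le hθ0 hθ1 ω _) (fun i => abs_mInf_le hG hθ0 hθ1 ω τ _)
  refine tendsto_nhds_unique h1 (h2.congr' ?_)
  filter_upwards [eventually_ge_atTop r] with N hN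
  have hW : IsWin G (ball G (x 0) N) := isWin_ball hG.tree _ _
  have hmem : ∀ i, i ≤ r → x i ∈ ball G (x 0) N := by
    intro i hi
    rw [mem_ball hT, hx.dist_zero hT i hi]
    omega
  exact (pathCov_reverse hT hW hθ0 hθ1 _ hx hmem).symm

/-- `main_ineq` from the norm bounds. -/
theorem main_ineq_of_norms (hG : Tree G d) {K : ℝ} (hK : 0 ≤ K) {ε τ₁ : ℝ} (h0 : 0 < ε) (h1 : ε ≤ 1 / 2)
    (hτ₁ : 1 ≤ τ₁) {θs : ℕ → ℝ} (hmono : Monotone θs) (hr : ∀ j, ThetaRange d (θs j))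
    (hlim : Tendsto (fun j => θs j ^ 2 * ((d : ℝ) - 1)) atTop (𝓝 1)) (v : V)
    (hrow : ∃ C : ℝ, 0 < C ∧ ∀ θ, ThetaRange d θ → ∀ τ ∈ Ioc 0 τ₁, ∀ v, ∀ P : ℕ, 1 ≤ P →
      lpN (PP V) (fun ω => rowSum G θ (kap ε) ω τ v) P ≤ C * (1 / τ + Real.log (P + 1)))
    (hwt : ∃ c C : ℝ, 0 < c ∧ 0 < C ∧ ∀ θ, ThetaRange d θ → ∀ τ ∈ Ioc 0 τ₁, ∀ x p, G.Adj p x → ∀ (n P : ℕ), 1 ≤ P →
      (θ ^ 2 * ((d : ℝ) - 1)) ^ n *
          lpN (PP V) (fun ω => wTree G θ (d - 1) (fun u => mInf G θ (kap ε) ω τ u) n p x) P ≤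
        min 1 (C * Real.exp (- c * τ * n) + P * ((d : ℝ) - 1) ^ (-(n : ℝ) / 2)))
    (hmom : ∃ C : ℝ, 0 < C ∧ ∀ θ, ThetaRange d θ → ∀ τ ∈ Ioc 0 τ₁, ∀ v, ∀ P : ℕ, 1 ≤ P →
      (∫ ω, mInf G θ (kap ε) ω τ v ^ (2 * P) ∂(PP V)) ^ (1 / (P : ℝ)) ≤ C * P ^ 3 * τ) :
    ∃ (b : ℕ → ℝ → ℝ) (e : ℕ → ℕ → ℝ → ℝ),
      (∀ p, IntervalIntegrable (b p) volume 0 τ₁) ∧ (∀ p τ, 0 ≤ b p τ) ∧
      Tendsto (fun p : ℕ => (1 / (p : ℝ)) * ∫ τ in (0 : ℝ)..τ₁, b p τ) atTop (𝓝 0) ∧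
      (∀ j k, IntervalIntegrable (e j k) volume 0 τ₁) ∧ (∀ j k τ, 0 ≤ e j k τ) ∧
      Tendsto (fun jk : ℕ × ℕ => ∫ τ in (0 : ℝ)..τ₁, e jk.1 jk.2 τ) (atTop ×ˢ atTop) (𝓝 0) ∧
      ∀ j k, ∀ τ ∈ Ioc 0 τ₁, ∀ p : ℕ, 2 ≤ p →
        ∑' r, ∑ y ∈ sphere G v r, ∫ ω, Xp K G (θs j) (θs k) (kap ε) ω τ v y ∂(PP V) ≤
          b p τ * Sd G (θs j) (θs k) (kap ε) τ v ^ (1 - 1 / (p : ℝ)) + e j k τ := by
  have hκ : IsStrength (kap ε) := isStrength_kap h0.le h1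
  obtain ⟨CB, hCB, hbsv⟩ := bsv_pair (V := V) (G := G) hG
  refine main_ineq_of hG hK h0 h1 hτ₁ hmono hr v
    (exists_abs_mInf_le hG (θm := 3 / 4) (by norm_num) (by norm_num) h0.le h1)
    (fun θ v => measurable_mInf hκ.meas v)
    (fun θ g ω τ v => mInf_act hG.tree g ω τ v)
    (fun g => ⟨measurable_act g, map_act g⟩)
    (exists_bethe_bounds (θm := 3 / 4) (by norm_num) (by norm_num))
    (fun t h2 h3 => exists_aOf_bounds (θm := 3 / 4) (by norm_num) (by norm_num) h2 h3)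
    (fun θ hθ τ hτ x r hx => ae_pathCov_reverse hG hθ.1 hθ.2.1 hκ τ hx)
    hrow hwt hmom
    ⟨CB, hCB, fun θ θ' hθ hθ' τ hτ x r hx hr' => hbsv hθ hθ' h0 h1 τ hτ x r hx hr'⟩
    (fun x p hxp τ hτ => psi_tendsto hG h0 h1 hτ₁ hmono hr hlim hxp τ hτ)

end Crest.Agent.Lib.IsingFIID
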