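/-
Bethe edge map: real-variable facts.
For θ ∈ [0,3/4] and cavity means (t,t') ∈ [-1,1]², the two-site law
  P(s,s') ∝ (1+t s)(1+t' s')(1+θ s s')
has means m = (t+θ t')/(1+θ t t'), m' = (t'+θ t)/(1+θ t t').
We prove the map is invertible with an explicit inverse `binv`, uniformly Lipschitz on the closed
square and in θ, and the covariance identity Cov(s,s') = g(t) (1 - m'^2) with
g(t) = θ (1-t²)/(1-θ²t²).
-/
import Mathlib

namespace Crest.Agent.Lib.IsingFIID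

open Real

/-- normalising factor of the edge law -/
noncomputable def bD (θ t t' : ℝ) : ℝ := 1 + θ * t * t'

/-- mean at the first site -/
noncomputable def bm (θ t t' : ℝ) : ℝ := (t + θ * t') / bD θ t t'

/-- pair correlation -/
noncomputable def bc (θ t t' : ℝ) : ℝ := (θ + t * t') / bD θ t t'

/-- attenuation factor: `g θ t = θ (1-t²)/(1-θ²t²)` -/
noncomputable def gg (θ t : ℝ) : ℝ := θ * (1 - t ^ 2) / (1 - θ ^ 2 * t ^ 2)

lemma bD_symm (θ t t' : ℝ) : bD θ t' t = bD θ t t' := by unfold bD; ring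

lemma abs_mul_le_one' {t t' : ℝ} (ht : |t| ≤ 1) (ht' : |t'| ≤ 1) : |t * t'| ≤ 1 := by
  rw [abs_mul]; exact mul_le_one₀ ht (abs_nonneg _) ht'

lemma bD_ge {θ t t' : ℝ} (h0 : 0 ≤ θ) (ht : |t| ≤ 1) (ht' : |t'| ≤ 1) :
    1 - θ ≤ bD θ t t' := by
  unfold bD
  have h3 : -1 ≤ t * t' := (abs_le.mp (abs_mul_le_one' ht ht')).1
  nlinarith

lemma bD_pos {θ t t' : ℝ} (h0 : 0 ≤ θ) (h1 : θ < 1) (ht : |t| ≤ 1) (ht' : |t'| ≤ 1) :
    0 < bD θ t t' := by
  have := bD_ge h0 ht ht'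
  linarith

lemma bm_abs_le {θ t t' : ℝ} (h0 : 0 ≤ θ) (h1 : θ < 1) (ht : |t| ≤ 1) (ht' : |t'| ≤ 1) :
    |bm θ t t'| ≤ 1 := by
  have hD := bD_pos h0 h1 ht ht'
  unfold bm
  rw [abs_div, abs_of_pos hD, div_le_one hD]
  rw [abs_le] at ht ht' ⊢
  unfold bD
  constructor <;> nlinarith [mul_nonneg h0 (mul_nonneg (sub_nonneg.mpr ht.2) (sub_nonneg.mpr ht'.2)),
    mul_nonneg h0 (mul_nonneg (by linarith [ht.1] : 0 ≤ 1 + t) (by linarith [ht'.1] : 0 ≤ 1 + t')),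
    mul_nonneg h0 (mul_nonneg (sub_nonneg.mpr ht.2) (by linarith [ht'.1] : 0 ≤ 1 + t')),
    mul_nonneg h0 (mul_nonneg (by linarith [ht.1] : 0 ≤ 1 + t) (sub_nonneg.mpr ht'.2))]

/-- algebraic identity: `m - θ m' = t (1-θ²)/D` -/
lemma bm_sub {θ t t' : ℝ} (hD : bD θ t t' ≠ 0) :
    bm θ t t' - θ * bm θ t' t = t * (1 - θ ^ 2) / bD θ t t' := by
  have h : bD θ t' t = bD θ t t' := bD_symm θ t t'
  unfold bm; rw [h]; field_simp; ring

/-- `1 - m'^2 = (1-t'^2)(1-θ²t²)/D²` -/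
lemma one_sub_bm_sq {θ t t' : ℝ} (hD : bD θ t t' ≠ 0) :
    1 - bm θ t' t ^ 2 = (1 - t' ^ 2) * (1 - θ ^ 2 * t ^ 2) / bD θ t t' ^ 2 := by
  have h : bD θ t' t = bD θ t t' := bD_symm θ t t'
  unfold bm; rw [h]; field_simp; unfold bD; ring

/-- covariance of the edge law -/
lemma bc_sub {θ t t' : ℝ} (hD : bD θ t t' ≠ 0) :
    bc θ t t' - bm θ t t' * bm θ t' t = θ * (1 - t ^ 2) * (1 - t' ^ 2) / bD θ t t' ^ 2 := by
  have h : bD θ t' t = bD θ t t' := bD_symm θ t t'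
  unfold bm bc; rw [h]; field_simp; unfold bD; ring

lemma one_sub_theta_sq_pos {θ t : ℝ} (h0 : 0 ≤ θ) (h1 : θ < 1) (ht : |t| ≤ 1) :
    0 < 1 - θ ^ 2 * t ^ 2 := by
  have h2 : t ^ 2 ≤ 1 := by
    rw [← sq_abs]; nlinarith [abs_nonneg t]
  have h3 : θ ^ 2 < 1 := by nlinarith
  nlinarith [sq_nonneg t, sq_nonneg θ]

/-- covariance = g(t) × (1 - m'^2) -/
lemma bc_sub_eq_gg {θ t t' : ℝ} (h0 : 0 ≤ θ) (h1 : θ < 1) (ht : |t| ≤ 1) (ht' : |t'| ≤ 1) :
    bc θ t t' - bm θ t t' * bm θ t' t = gg θ t * (1 - bm θ t' t ^ 2) := by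
  have hD := (bD_pos h0 h1 ht ht').ne'
  have hE := (one_sub_theta_sq_pos h0 h1 ht).ne'
  rw [bc_sub hD, one_sub_bm_sq hD]
  unfold gg
  field_simp

lemma gg_nonneg {θ t : ℝ} (h0 : 0 ≤ θ) (h1 : θ < 1) (ht : |t| ≤ 1) : 0 ≤ gg θ t := by
  unfold gg
  have h2 : t ^ 2 ≤ 1 := by rw [← sq_abs]; nlinarith [abs_nonneg t]
  exact div_nonneg (mul_nonneg h0 (by linarith)) (one_sub_theta_sq_pos h0 h1 ht).le

lemma gg_le {θ t : ℝ} (h0 : 0 ≤ θ) (h1 : θ < 1) (ht : |t| ≤ 1) : gg θ t ≤ θ := by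
  unfold gg
  have hE := one_sub_theta_sq_pos h0 h1 ht
  rw [div_le_iff₀ hE]
  have h3 : θ ^ 2 ≤ 1 := by nlinarith
  nlinarith [mul_nonneg h0 (sq_nonneg t), mul_nonneg (mul_nonneg h0 (sq_nonneg t)) (sub_nonneg.mpr h3)]

/-! ### Inverse map -/

/-- auxiliary quantity `c = θ a b/(1-θ²)²` -/
noncomputable def bcc (θ m m' : ℝ) : ℝ :=
  θ * ((m - θ * m') * (m' - θ * m)) * (1 / (1 - θ ^ 2) ^ 2)

/-- `r = √(1-4c)` -/
noncomputable def brr (θ m m' : ℝ) : ℝ := Real.sqrt (1 - 4 * bcc θ m m')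

/-- inverse of the edge map (first cavity mean in terms of the two site means) -/
noncomputable def binv (θ m m' : ℝ) : ℝ :=
  2 * (m - θ * m') / ((1 - θ ^ 2) * (1 + brr θ m m'))

lemma binv_bm {θ t t' : ℝ} (h0 : 0 ≤ θ) (h1 : θ < 1) (ht : |t| ≤ 1) (ht' : |t'| ≤ 1) :
    binv θ (bm θ t t') (bm θ t' t) = t := by
  have hD := bD_pos h0 h1 ht ht'
  have hD' := hD.ne'
  have hA : 0 < 1 - θ ^ 2 := by nlinarith
  have hA' := hA.ne'
  have e1 : bm θ t t' - θ * bm θ t' t = t * (1 - θ ^ 2) / bD θ t t' := bm_sub hD'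
  have e2 : bm θ t' t - θ * bm θ t t' = t' * (1 - θ ^ 2) / bD θ t t' := by
    have := bm_sub (θ := θ) (t := t') (t' := t) (by rw [bD_symm]; exact hD')
    rw [bD_symm] at this; exact this
  have hpos : 0 ≤ 1 - θ * t * t' := by
    have h3 : t * t' ≤ 1 := (abs_le.mp (abs_mul_le_one' ht ht')).2
    nlinarith
  have e3 : 1 - 4 * bcc θ (bm θ t t') (bm θ t' t) = ((1 - θ * t * t') / bD θ t t') ^ 2 := by
    unfold bcc
    rw [e1, e2]
    field_simp
    unfold bD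
    ring
  have e4 : brr θ (bm θ t t') (bm θ t' t) = (1 - θ * t * t') / bD θ t t' := by
    unfold brr
    rw [e3]
    exact Real.sqrt_sq (div_nonneg hpos hD.le)
  unfold binv
  rw [e4, e1]
  have e5 : 1 + (1 - θ * t * t') / bD θ t t' = 2 / bD θ t t' := by
    field_simp; unfold bD; ring
  rw [e5]
  field_simp

/-- basic product estimate -/
lemma abs_mul_sub_mul_le {x y x' y' X Y : ℝ} (hx : |x| ≤ X) (hy : |y'| ≤ Y) :
    |x * y - x' * y'| ≤ X * |y - y'| + Y * |x - x'| := by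
  have : x * y - x' * y' = x * (y - y') + (x - x') * y' := by ring
  rw [this]
  refine (abs_add_le _ _).trans ?_
  rw [abs_mul, abs_mul]
  have h1 : |x| * |y - y'| ≤ X * |y - y'| := mul_le_mul_of_nonneg_right hx (abs_nonneg _)
  have h2 : |x - x'| * |y'| ≤ |x - x'| * Y := mul_le_mul_of_nonneg_left hy (abs_nonneg _)
  linarith

/-- Standing bounds on the parameters. -/
structure BArg (θ m m' : ℝ) : Prop where
  h0 : 0 ≤ θ
  h1 : θ ≤ 3 / 4
  hm : |m| ≤ 1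
  hm' : |m'| ≤ 1

section bounds
variable {θ m m' : ℝ}

lemma BArg.A_ge (h : BArg θ m m') : 7 / 16 ≤ 1 - θ ^ 2 := by
  have := h.h0; have := h.h1; nlinarith

lemma BArg.A_le (h : BArg θ m m') : 1 - θ ^ 2 ≤ 1 := by nlinarith [sq_nonneg θ]

lemma BArg.a_abs (h : BArg θ m m') : |m - θ * m'| ≤ 7 / 4 := by
  have h1 : |θ * m'| ≤ 3 / 4 := by
    rw [abs_mul, abs_of_nonneg h.h0]
    have := h.hm'; have := h.h1; have := h.h0
    nlinarith [abs_nonneg m']
  have := abs_sub m (θ * m')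
  have := h.hm
  linarith

lemma BArg.swap (h : BArg θ m m') : BArg θ m' m := ⟨h.h0, h.h1, h.hm', h.hm⟩

/-- key: `(m-θm')(m'-θm) ≤ (1-θ)²` on the square -/
lemma BArg.prod_le (h : BArg θ m m') : (m - θ * m') * (m' - θ * m) ≤ (1 - θ) ^ 2 := by
  have h0 := h.h0
  have h1 := h.h1
  have hm := abs_le.mp h.hm
  have hm' := abs_le.mp h.hm'
  have e : (m - θ * m') * (m' - θ * m) = m * m' * (1 + θ ^ 2) - θ * (m ^ 2 + m' ^ 2) := by ring
  rw [e]
  have h2 : 2 * |m * m'| ≤ m ^ 2 + m' ^ 2 := by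
    rw [abs_mul]
    nlinarith [sq_nonneg (|m| - |m'|), sq_abs m, sq_abs m']
  have h3 : |m * m'| ≤ 1 := abs_mul_le_one' h.hm h.hm'
  have h4 : m * m' ≤ |m * m'| := le_abs_self _
  have h5 : (0 : ℝ) ≤ 1 + θ ^ 2 := by positivity
  have h6 : m * m' * (1 + θ ^ 2) ≤ |m * m'| * (1 + θ ^ 2) :=
    mul_le_mul_of_nonneg_right h4 h5
  have h7 : θ * (2 * |m * m'|) ≤ θ * (m ^ 2 + m' ^ 2) := mul_le_mul_of_nonneg_left h2 h0
  have h8 : |m * m'| * (1 - θ) ^ 2 ≤ 1 * (1 - θ) ^ 2 :=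
    mul_le_mul_of_nonneg_right h3 (sq_nonneg _)
  nlinarith

lemma BArg.prod_abs_le (h : BArg θ m m') : |(m - θ * m') * (m' - θ * m)| ≤ 49 / 16 := by
  rw [abs_mul]
  have h1 := h.a_abs
  have h2 := h.swap.a_abs
  calc |m - θ * m'| * |m' - θ * m| ≤ 7 / 4 * (7 / 4) :=
        mul_le_mul h1 h2 (abs_nonneg _) (by norm_num)
    _ = 49 / 16 := by norm_num

/-- `1 - 4c ≥ 1/49` -/
lemma BArg.rad_ge (h : BArg θ m m') : 1 / 49 ≤ 1 - 4 * bcc θ m m' := by
  have hA := h.A_ge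
  have h0 := h.h0
  have h1 := h.h1
  unfold bcc
  have hA2 : 0 < (1 - θ ^ 2) ^ 2 := by positivity
  have e : θ * ((m - θ * m') * (m' - θ * m)) * (1 / (1 - θ ^ 2) ^ 2) ≤
      θ * (1 - θ) ^ 2 * (1 / (1 - θ ^ 2) ^ 2) := by
    apply mul_le_mul_of_nonneg_right _ (by positivity)
    exact mul_le_mul_of_nonneg_left h.prod_le h0
  have e2 : θ * (1 - θ) ^ 2 * (1 / (1 - θ ^ 2) ^ 2) = θ / (1 + θ) ^ 2 := by
    have h3 : (1 - θ) ≠ 0 := by linarith
    have h4 : (1 + θ) ≠ 0 := by linarith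
    have h5 : 1 - θ ^ 2 = (1 - θ) * (1 + θ) := by ring
    rw [h5]
    field_simp
  rw [e2] at e
  have e3 : 1 / 49 ≤ 1 - 4 * (θ / (1 + θ) ^ 2) := by
    have h6 : 0 < (1 + θ) ^ 2 := by positivity
    have : 1 - 4 * (θ / (1 + θ) ^ 2) = (1 - θ) ^ 2 / (1 + θ) ^ 2 := by
      field_simp; ring
    rw [this, le_div_iff₀ h6]
    nlinarith
  linarith

lemma BArg.rad_le (h : BArg θ m m') : 1 - 4 * bcc θ m m' ≤ 65 := by
  have hA := h.A_ge
  have h0 := h.h0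
  have h1 := h.h1
  unfold bcc
  have h3 : -(49 / 16) ≤ (m - θ * m') * (m' - θ * m) := (abs_le.mp h.prod_abs_le).1
  have h4 : (0:ℝ) < (1 - θ ^ 2) ^ 2 := by positivity
  have h5 : 1 / (1 - θ ^ 2) ^ 2 ≤ 256 / 49 := by
    rw [div_le_div_iff₀ h4 (by norm_num)]
    nlinarith
  have h6 : 0 ≤ 1 / (1 - θ ^ 2) ^ 2 := by positivity
  have h7 : -(147 / 64) ≤ θ * ((m - θ * m') * (m' - θ * m)) := by nlinarith
  have h8 : -(147 / 64) * (256 / 49) ≤ θ * ((m - θ * m') * (m' - θ * m)) * (1 / (1 - θ ^ 2) ^ 2) := by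
    nlinarith
  linarith

lemma BArg.brr_ge (h : BArg θ m m') : 1 / 7 ≤ brr θ m m' := by
  unfold brr
  apply Real.le_sqrt_of_sq_le
  have := h.rad_ge
  norm_num at this ⊢
  linarith

lemma BArg.brr_le (h : BArg θ m m') : brr θ m m' ≤ 9 := by
  unfold brr
  rw [Real.sqrt_le_left (by norm_num)]
  have := h.rad_le
  linarith

end bounds

section lipschitz
variable {θ m m' τ n n' : ℝ}

/-- total displacement -/
noncomputable def bδ (θ m m' τ n n' : ℝ) : ℝ := |θ - τ| + |m - n| + |m' - n'|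

lemma bδ_nonneg : 0 ≤ bδ θ m m' τ n n' := by unfold bδ; positivity

lemma a_lip (h : BArg θ m m') (h' : BArg τ n n') :
    |(m - θ * m') - (n - τ * n')| ≤ bδ θ m m' τ n n' := by
  have e : (m - θ * m') - (n - τ * n') = (m - n) - (θ * m' - τ * n') := by ring
  rw [e]
  have h1 : |θ * m' - τ * n'| ≤ 3 / 4 * |m' - n'| + 1 * |θ - τ| :=
    abs_mul_sub_mul_le (by rw [abs_of_nonneg h.h0]; exact h.h1) h'.hm'
  have := abs_sub (m - n) (θ * m' - τ * n')
  unfold bδ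
  have := abs_nonneg (m' - n')
  have := abs_nonneg (θ - τ)
  linarith

lemma bδ_swap : bδ θ m' m τ n' n = bδ θ m m' τ n n' := by unfold bδ; ring

lemma prod_lip (h : BArg θ m m') (h' : BArg τ n n') :
    |(m - θ * m') * (m' - θ * m) - (n - τ * n') * (n' - τ * n)| ≤ 7 / 2 * bδ θ m m' τ n n' := by
  have h1 := abs_mul_sub_mul_le (x := m - θ * m') (y := m' - θ * m)
    (x' := n - τ * n') (y' := n' - τ * n) h.a_abs h'.swap.a_abs
  have h2 := a_lip h h'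
  have h3 := a_lip h.swap h'.swap
  rw [bδ_swap] at h3
  have h4 := bδ_nonneg (θ := θ) (m := m) (m' := m') (τ := τ) (n := n) (n' := n')
  nlinarith [abs_nonneg (m - θ * m' - (n - τ * n')), abs_nonneg (m' - θ * m - (n' - τ * n))]

lemma theta_lip (_h : BArg θ m m') (_h' : BArg τ n n') : |θ - τ| ≤ bδ θ m m' τ n n' := by
  unfold bδ; have := abs_nonneg (m - n); have := abs_nonneg (m' - n'); linarith

lemma thetaprod_lip (h : BArg θ m m') (h' : BArg τ n n') :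
    |θ * ((m - θ * m') * (m' - θ * m)) - τ * ((n - τ * n') * (n' - τ * n))| ≤
      6 * bδ θ m m' τ n n' := by
  have h1 := abs_mul_sub_mul_le (x := θ) (y := (m - θ * m') * (m' - θ * m))
    (x' := τ) (y' := (n - τ * n') * (n' - τ * n)) (X := 3 / 4) (Y := 49 / 16)
    (by rw [abs_of_nonneg h.h0]; exact h.h1) h'.prod_abs_le
  have h2 := prod_lip h h'
  have h3 := theta_lip h h'
  have h4 := bδ_nonneg (θ := θ) (m := m) (m' := m') (τ := τ) (n := n) (n' := n')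
  nlinarith [abs_nonneg (θ - τ)]

lemma inv_lip (h : BArg θ m m') (h' : BArg τ n n') :
    |1 / (1 - θ ^ 2) ^ 2 - 1 / (1 - τ ^ 2) ^ 2| ≤ 90 * bδ θ m m' τ n n' := by
  have hA := h.A_ge
  have hB := h'.A_ge
  have hA0 : 0 < 1 - θ ^ 2 := by linarith
  have hB0 : 0 < 1 - τ ^ 2 := by linarith
  have e : 1 / (1 - θ ^ 2) ^ 2 - 1 / (1 - τ ^ 2) ^ 2 =
      ((θ - τ) * (τ + θ)) * (2 - θ ^ 2 - τ ^ 2) / ((1 - θ ^ 2) ^ 2 * (1 - τ ^ 2) ^ 2) := by
    field_simp; ring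
  rw [e, abs_div, abs_mul, abs_mul]
  have h1 : 0 < (1 - θ ^ 2) ^ 2 * (1 - τ ^ 2) ^ 2 := by positivity
  rw [abs_of_pos h1, div_le_iff₀ h1]
  have h2 : |τ + θ| ≤ 3 / 2 := by
    rw [abs_of_nonneg (by have := h.h0; have := h'.h0; linarith)]
    have := h.h1; have := h'.h1; linarith
  have h3 : |2 - θ ^ 2 - τ ^ 2| ≤ 2 := by
    rw [abs_of_nonneg (by nlinarith)]
    nlinarith [sq_nonneg θ, sq_nonneg τ]
  have h4 : |θ - τ| ≤ bδ θ m m' τ n n' := theta_lip h h'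
  have h5 := bδ_nonneg (θ := θ) (m := m) (m' := m') (τ := τ) (n := n) (n' := n')
  have h6 : (7 / 16 : ℝ) ^ 2 * (7 / 16) ^ 2 ≤ (1 - θ ^ 2) ^ 2 * (1 - τ ^ 2) ^ 2 := by
    apply mul_le_mul _ _ (by positivity) (by positivity)
    · exact pow_le_pow_left₀ (by norm_num) hA 2
    · exact pow_le_pow_left₀ (by norm_num) hB 2
  calc |θ - τ| * |τ + θ| * |2 - θ ^ 2 - τ ^ 2|
      ≤ bδ θ m m' τ n n' * (3 / 2) * 2 := by
        apply mul_le_mul _ h3 (abs_nonneg _) (by positivity)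
        exact mul_le_mul h4 h2 (abs_nonneg _) h5
    _ ≤ 90 * bδ θ m m' τ n n' * ((7 / 16 : ℝ) ^ 2 * (7 / 16) ^ 2) := by
        norm_num; nlinarith
    _ ≤ _ := by
        apply mul_le_mul_of_nonneg_left h6 (by positivity)

lemma bcc_lip (h : BArg θ m m') (h' : BArg τ n n') :
    |bcc θ m m' - bcc τ n n'| ≤ 250 * bδ θ m m' τ n n' := by
  unfold bcc
  have hA := h.A_ge
  have hB := h'.A_ge
  have hB2 : 1 / (1 - τ ^ 2) ^ 2 ≤ 256 / 49 := by
    have h4 : (0:ℝ) < (1 - τ ^ 2) ^ 2 := by positivity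
    rw [div_le_div_iff₀ h4 (by norm_num)]
    nlinarith
  have hB3 : 0 ≤ 1 / (1 - τ ^ 2) ^ 2 := by positivity
  have hbd : |θ * ((m - θ * m') * (m' - θ * m))| ≤ 147 / 64 := by
    rw [abs_mul, abs_of_nonneg h.h0]
    calc θ * |(m - θ * m') * (m' - θ * m)| ≤ 3 / 4 * (49 / 16) :=
          mul_le_mul h.h1 h.prod_abs_le (abs_nonneg _) (by norm_num)
      _ = 147 / 64 := by norm_num
  have h1 := abs_mul_sub_mul_le (x := θ * ((m - θ * m') * (m' - θ * m)))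
    (y := 1 / (1 - θ ^ 2) ^ 2) (x' := τ * ((n - τ * n') * (n' - τ * n)))
    (y' := 1 / (1 - τ ^ 2) ^ 2) (X := 147 / 64) (Y := 256 / 49) hbd
    (by rw [abs_of_nonneg hB3]; exact hB2)
  have h2 := inv_lip h h'
  have h3 := thetaprod_lip h h'
  have h5 := bδ_nonneg (θ := θ) (m := m) (m' := m') (τ := τ) (n := n) (n' := n')
  nlinarith [abs_nonneg (1 / (1 - θ ^ 2) ^ 2 - 1 / (1 - τ ^ 2) ^ 2)]

lemma brr_lip (h : BArg θ m m') (h' : BArg τ n n') :
    |brr θ m m' - brr τ n n'| ≤ 3500 * bδ θ m m' τ n n' := by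
  have h1 := h.brr_ge
  have h2 := h'.brr_ge
  have h3 := h.rad_ge
  have h4 := h'.rad_ge
  unfold brr at *
  set r := Real.sqrt (1 - 4 * bcc θ m m')
  set s := Real.sqrt (1 - 4 * bcc τ n n')
  have hr : r ^ 2 = 1 - 4 * bcc θ m m' := Real.sq_sqrt (by linarith)
  have hs : s ^ 2 = 1 - 4 * bcc τ n n' := Real.sq_sqrt (by linarith)
  have e : (r - s) * (r + s) = 4 * (bcc τ n n' - bcc θ m m') := by nlinarith
  have h5 : |r - s| * (2 / 7) ≤ |r - s| * |r + s| := by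
    apply mul_le_mul_of_nonneg_left _ (abs_nonneg _)
    rw [abs_of_pos (by linarith)]
    linarith
  have h6 : |r - s| * |r + s| = 4 * |bcc θ m m' - bcc τ n n'| := by
    rw [← abs_mul, e, abs_mul, abs_sub_comm]; norm_num
  have h7 := bcc_lip h h'
  nlinarith

/-- The inverse map is uniformly Lipschitz on the closed square and in θ ∈ [0,3/4]. -/
theorem binv_lip (h : BArg θ m m') (h' : BArg τ n n') :
    |binv θ m m' - binv τ n n'| ≤ 100000 * bδ θ m m' τ n n' := by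
  unfold binv
  have hA := h.A_ge
  have hB := h'.A_ge
  have hA1 := h.A_le
  have hB1 := h'.A_le
  have hr1 := h.brr_ge
  have hr2 := h'.brr_ge
  have hr3 := h'.brr_le
  set E := (1 - θ ^ 2) * (1 + brr θ m m') with hE
  set F := (1 - τ ^ 2) * (1 + brr τ n n') with hF
  have hE0 : 7 / 16 ≤ E := by rw [hE]; nlinarith
  have hF0 : 7 / 16 ≤ F := by rw [hF]; nlinarith
  have hEF : |E - F| ≤ 3600 * bδ θ m m' τ n n' := by
    have h1 := abs_mul_sub_mul_le (x := 1 - θ ^ 2) (y := 1 + brr θ m m')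
      (x' := 1 - τ ^ 2) (y' := 1 + brr τ n n') (X := 1) (Y := 10)
      (by rw [abs_of_nonneg (by linarith)]; exact hA1)
      (by rw [abs_of_nonneg (by linarith)]; linarith)
    have h2 := brr_lip h h'
    have h3 : |(1 - θ ^ 2) - (1 - τ ^ 2)| ≤ 3 / 2 * bδ θ m m' τ n n' := by
      have e : (1 - θ ^ 2) - (1 - τ ^ 2) = (τ - θ) * (τ + θ) := by ring
      rw [e, abs_mul]
      have h4 : |τ + θ| ≤ 3 / 2 := by
        rw [abs_of_nonneg (by have := h.h0; have := h'.h0; linarith)]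
        have := h.h1; have := h'.h1; linarith
      have h5 : |τ - θ| ≤ bδ θ m m' τ n n' := by
        rw [abs_sub_comm]; exact theta_lip h h'
      have h6 := bδ_nonneg (θ := θ) (m := m) (m' := m') (τ := τ) (n := n) (n' := n')
      calc |τ - θ| * |τ + θ| ≤ bδ θ m m' τ n n' * (3 / 2) :=
            mul_le_mul h5 h4 (abs_nonneg _) h6
        _ = _ := by ring
    have e1 : 1 + brr θ m m' - (1 + brr τ n n') = brr θ m m' - brr τ n n' := by ring
    rw [e1] at h1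
    have h6 := bδ_nonneg (θ := θ) (m := m) (m' := m') (τ := τ) (n := n) (n' := n')
    simp only [hE, hF]
    nlinarith
  have hE1 : 0 < E := by linarith
  have hF1 : 0 < F := by linarith
  have e : 2 * (m - θ * m') / E - 2 * (n - τ * n') / F =
      (2 * (m - θ * m') * F - 2 * (n - τ * n') * E) / (E * F) := by
    field_simp
  rw [e, abs_div, abs_of_pos (mul_pos hE1 hF1), div_le_iff₀ (mul_pos hE1 hF1)]
  have hFle : F ≤ 10 := by rw [hF]; nlinarith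
  have hEle : E ≤ 10 := by
    have := h.brr_le
    rw [hE]; nlinarith
  have h1 := abs_mul_sub_mul_le (x := 2 * (m - θ * m')) (y := F)
      (x' := 2 * (n - τ * n')) (y' := E) (X := 7 / 2) (Y := 10)
      (by rw [abs_mul]; norm_num; have := h.a_abs; linarith)
      (by rw [abs_of_pos hE1]; exact hEle)
  have h2 : |2 * (m - θ * m') - 2 * (n - τ * n')| ≤ 2 * bδ θ m m' τ n n' := by
    have e' : 2 * (m - θ * m') - 2 * (n - τ * n') = 2 * ((m - θ * m') - (n - τ * n')) := by ring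
    rw [e', abs_mul]; norm_num
    exact a_lip h h'
  have h3 : |F - E| ≤ 3600 * bδ θ m m' τ n n' := by rw [abs_sub_comm]; exact hEF
  have h6 := bδ_nonneg (θ := θ) (m := m) (m' := m') (τ := τ) (n := n) (n' := n')
  have h7 : (7 / 16 : ℝ) * (7 / 16) ≤ E * F := mul_le_mul hE0 hF0 (by norm_num) (by linarith)
  have h8 : 100000 * bδ θ m m' τ n n' * ((7 / 16 : ℝ) * (7 / 16)) ≤
      100000 * bδ θ m m' τ n n' * (E * F) :=
    mul_le_mul_of_nonneg_left h7 (by positivity)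
  nlinarith

end lipschitz

end Crest.Agent.Lib.IsingFIID
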