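/-
Task GI, real variables: the Bethe inverse `nuOf` of `Defs.lean`.
-/
import Crest.Agent.Lib.IsingFIID.Basic
import Crest.Agent.Lib.IsingFIID.Bethe

set_option autoImplicit false
set_option linter.unusedSectionVars false
set_option linter.unusedVariables false

namespace Crest.Agent.Lib.IsingFIID

open Real

/-- `nuOf` and the inverse `binv` of `Bethe.lean`. -/
lemma nuOf_eq_binv (θ a b : ℝ) (h : 1 - θ ^ 2 ≠ 0) : nuOf θ a b = binv θ b a := by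
  unfold nuOf binv brr bcc
  have e : θ * ((a - θ * b) * (b - θ * a)) / (1 - θ ^ 2) ^ 2 =
      θ * ((b - θ * a) * (a - θ * b)) * (1 / (1 - θ ^ 2) ^ 2) := by ring
  rw [e]
  set R := Real.sqrt (1 - 4 * (θ * ((b - θ * a) * (a - θ * b)) * (1 / (1 - θ ^ 2) ^ 2)))
  by_cases hR : 1 + R = 0
  · rw [hR]; simp
  · field_simp

/-- `gg θ t = θ u(t)`. -/
lemma gg_eq_uFun (θ t : ℝ) : gg θ t = θ * uFun θ t := by
  unfold gg uFun; ring

/-! ### The algebra of the inverse -/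

section alg

variable {θ a b : ℝ}

/-- The common factor. -/
noncomputable def nuD (θ a b : ℝ) : ℝ :=
  2 / (1 + Real.sqrt (1 - 4 * (θ * ((a - θ * b) * (b - θ * a)) / (1 - θ ^ 2) ^ 2)))

lemma nuOf_eq (θ a b : ℝ) : nuOf θ a b = (b - θ * a) / (1 - θ ^ 2) * nuD θ a b := rfl

lemma nuD_symm (θ a b : ℝ) : nuD θ b a = nuD θ a b := by
  unfold nuD
  congr 4
  ring

lemma prod_le_sq (h0 : 0 ≤ θ) (ha : |a| ≤ 1) (hb : |b| ≤ 1) :
    (a - θ * b) * (b - θ * a) ≤ (1 - θ) ^ 2 := by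
  have h1 : a * b ≤ 1 := (abs_le.mp (abs_mul_le_one' ha hb)).2
  have e : (1 - θ) ^ 2 - (a - θ * b) * (b - θ * a) = (1 - θ) ^ 2 * (1 - a * b) + θ * (a - b) ^ 2 := by
    ring
  nlinarith [mul_nonneg (sq_nonneg (1 - θ)) (sub_nonneg.mpr h1), mul_nonneg h0 (sq_nonneg (a - b))]

lemma A_pos (h0 : 0 ≤ θ) (h1 : θ < 1) : 0 < 1 - θ ^ 2 := by nlinarith

/-- The radicand is bounded below. -/
lemma rad_ge' (h0 : 0 ≤ θ) (h1 : θ < 1) (ha : |a| ≤ 1) (hb : |b| ≤ 1) :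
    ((1 - θ) / (1 + θ)) ^ 2 ≤ 1 - 4 * (θ * ((a - θ * b) * (b - θ * a)) / (1 - θ ^ 2) ^ 2) := by
  have hA := A_pos h0 h1
  have hp := prod_le_sq h0 ha hb
  have h2 : 0 < 1 - θ := by linarith
  have h3 : 0 < 1 + θ := by linarith
  have e : ((1 - θ) / (1 + θ)) ^ 2 = 1 - 4 * (θ * (1 - θ) ^ 2 / (1 - θ ^ 2) ^ 2) := by
    have : 1 - θ ^ 2 = (1 - θ) * (1 + θ) := by ring
    rw [this]
    field_simp
    ring
  rw [e]
  have : θ * ((a - θ * b) * (b - θ * a)) / (1 - θ ^ 2) ^ 2 ≤ θ * (1 - θ) ^ 2 / (1 - θ ^ 2) ^ 2 := by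
    apply div_le_div_of_nonneg_right (mul_le_mul_of_nonneg_left hp h0) (by positivity)
  linarith

/-- The radius. -/
noncomputable def nuR (θ a b : ℝ) : ℝ :=
  Real.sqrt (1 - 4 * (θ * ((a - θ * b) * (b - θ * a)) / (1 - θ ^ 2) ^ 2))

lemma nuD_eq (θ a b : ℝ) : nuD θ a b = 2 / (1 + nuR θ a b) := rfl

lemma nuR_nonneg (θ a b : ℝ) : 0 ≤ nuR θ a b := Real.sqrt_nonneg _

lemma nuR_ge (h0 : 0 ≤ θ) (h1 : θ < 1) (ha : |a| ≤ 1) (hb : |b| ≤ 1) :
    (1 - θ) / (1 + θ) ≤ nuR θ a b := by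
  unfold nuR
  exact Real.le_sqrt_of_sq_le (rad_ge' h0 h1 ha hb)

lemma nuR_sq (h0 : 0 ≤ θ) (h1 : θ < 1) (ha : |a| ≤ 1) (hb : |b| ≤ 1) :
    nuR θ a b ^ 2 = 1 - 4 * (θ * ((a - θ * b) * (b - θ * a)) / (1 - θ ^ 2) ^ 2) := by
  unfold nuR
  exact Real.sq_sqrt (le_trans (sq_nonneg _) (rad_ge' h0 h1 ha hb))

lemma nuD_pos (θ a b : ℝ) : 0 < nuD θ a b := by
  rw [nuD_eq]
  have := nuR_nonneg θ a b
  positivity

lemma nuD_le (θ a b : ℝ) : nuD θ a b ≤ 2 := by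
  rw [nuD_eq, div_le_iff₀ (by have := nuR_nonneg θ a b; positivity)]
  have := nuR_nonneg θ a b
  linarith

/-- `D = 1 + θ μ ν`. -/
lemma nuD_rec (h0 : 0 ≤ θ) (h1 : θ < 1) (ha : |a| ≤ 1) (hb : |b| ≤ 1) :
    nuD θ a b = 1 + θ * nuOf θ b a * nuOf θ a b := by
  have hA := A_pos h0 h1
  have hs := nuR_sq h0 h1 ha hb
  have hr := nuR_nonneg θ a b
  rw [nuOf_eq θ b a, nuOf_eq θ a b, nuD_symm θ a b, nuD_eq]
  set r := nuR θ a b
  have hc2 : θ * ((a - θ * b) * (b - θ * a)) / (1 - θ ^ 2) ^ 2 = (1 - r ^ 2) / 4 := by rw [hs]; ring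
  have e : θ * ((a - θ * b) / (1 - θ ^ 2) * (2 / (1 + r))) * ((b - θ * a) / (1 - θ ^ 2) * (2 / (1 + r)))
      = (θ * ((a - θ * b) * (b - θ * a)) / (1 - θ ^ 2) ^ 2) * (2 / (1 + r)) ^ 2 := by
    field_simp
  rw [e, hc2]
  field_simp
  ring

/-- `b = (ν + θ μ)/D`: the inverse is a right inverse. -/
lemma nu_add (h0 : 0 ≤ θ) (h1 : θ < 1) :
    nuOf θ a b + θ * nuOf θ b a = b * nuD θ a b := by
  have hA := A_pos h0 h1
  rw [nuOf_eq θ a b, nuOf_eq θ b a, nuD_symm θ a b]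
  field_simp
  ring

theorem abs_nuOf_le_one (h0 : 0 ≤ θ) (h1 : θ < 1) (ha : |a| ≤ 1) (hb : |b| ≤ 1) :
    |nuOf θ a b| ≤ 1 := by
  set ν := nuOf θ a b with hν
  set μ := nuOf θ b a with hμ
  set D := nuD θ a b with hD
  have hDpos : 0 < D := nuD_pos θ a b
  have hDle : D ≤ 2 := nuD_le θ a b
  have hrec : D = 1 + θ * μ * ν := nuD_rec h0 h1 ha hb
  have e1 : ν + θ * μ = b * D := nu_add h0 h1
  have e2 : μ + θ * ν = a * D := by
    have := nu_add (θ := θ) (a := b) (b := a) h0 h1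
    rwa [nuD_symm] at this
  have ha' := abs_le.mp ha
  have hb' := abs_le.mp hb
  -- the four factorisations
  have f1 : (1 - ν) * (1 - θ * μ) = (1 - b) * D := by linear_combination -e1 - hrec
  have f2 : (1 - μ) * (1 - θ * ν) = (1 - a) * D := by linear_combination -e2 - hrec
  have f3 : (1 + ν) * (1 + θ * μ) = (1 + b) * D := by linear_combination e1 - hrec
  have f4 : (1 + μ) * (1 + θ * ν) = (1 + a) * D := by linear_combination e2 - hrec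
  have n1 : 0 ≤ (1 - ν) * (1 - θ * μ) := by rw [f1]; exact mul_nonneg (by linarith) hDpos.le
  have n2 : 0 ≤ (1 - μ) * (1 - θ * ν) := by rw [f2]; exact mul_nonneg (by linarith) hDpos.le
  have n3 : 0 ≤ (1 + ν) * (1 + θ * μ) := by rw [f3]; exact mul_nonneg (by linarith) hDpos.le
  have n4 : 0 ≤ (1 + μ) * (1 + θ * ν) := by rw [f4]; exact mul_nonneg (by linarith) hDpos.le
  rw [abs_le]
  constructor
  · by_contra hν1
    push Not at hν1
    -- `ν < -1`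
    have h3 : 1 + θ * μ ≤ 0 := by
      by_contra h
      push Not at h
      nlinarith
    have h4 : μ < -1 := by nlinarith
    have h5 : 1 + θ * ν ≤ 0 := by
      by_contra h
      push Not at h
      nlinarith
    nlinarith
  · by_contra hν1
    push Not at hν1
    have h3 : 1 - θ * μ ≤ 0 := by
      by_contra h
      push Not at h
      nlinarith
    have h4 : 1 < μ := by nlinarith
    have h5 : 1 - θ * ν ≤ 0 := by
      by_contra h
      push Not at h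
      nlinarith
    nlinarith

/-- If the means are bounded away from `±1` so is the cavity. -/
theorem abs_nuOf_le_of_abs_le {θ t a b : ℝ} (h0 : 0 ≤ θ) (h1 : θ < 1) (ht : t < 1) (ha : |a| ≤ t)
    (hb : |b| ≤ t) : |nuOf θ a b| ≤ (t + θ) / (1 + θ * t) := by
  have ht0 : 0 ≤ t := le_trans (abs_nonneg _) ha
  have ha1 : |a| ≤ 1 := by linarith
  have hb1 : |b| ≤ 1 := by linarith
  set ν := nuOf θ a b with hν
  set μ := nuOf θ b a with hμ
  set D := nuD θ a b with hD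
  have hrec : D = 1 + θ * μ * ν := nuD_rec h0 h1 ha1 hb1
  have e1 : ν + θ * μ = b * D := nu_add h0 h1
  have hμ1 : |μ| ≤ 1 := abs_nuOf_le_one h0 h1 hb1 ha1
  have hμ' := abs_le.mp hμ1
  have hb' := abs_le.mp hb
  have hden : 0 < 1 - θ * μ * b := by
    have h2 : |θ * μ * b| ≤ θ := by
      rw [abs_mul, abs_mul, abs_of_nonneg h0]
      calc θ * |μ| * |b| ≤ θ * 1 * 1 := by
            apply mul_le_mul (mul_le_mul_of_nonneg_left hμ1 h0) hb1 (abs_nonneg _) (by positivity)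
        _ = θ := by ring
    linarith [(abs_le.mp h2).2]
  have hν_eq : ν * (1 - θ * μ * b) = b - θ * μ := by
    rw [hrec] at e1
    linear_combination e1
  have hT : 0 < 1 + θ * t := by positivity
  have hx : ν = (b - θ * μ) / (1 - θ * μ * b) := (eq_div_iff hden.ne').mpr hν_eq
  rw [hx, abs_le]
  have hb1' := abs_le.mp hb1
  have h1tb : 0 ≤ 1 - t * b := by nlinarith [hb'.1, hb'.2]
  have h1tb' : 0 ≤ 1 + t * b := by nlinarith [hb'.1, hb'.2]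
  have hθ2 : θ ^ 2 ≤ 1 := by nlinarith
  have hμ2 : 0 ≤ 1 - θ ^ 2 * μ := by nlinarith [hμ'.1, hμ'.2, sq_nonneg θ]
  have hμ3 : 0 ≤ 1 + θ ^ 2 * μ := by nlinarith [hμ'.1, hμ'.2, sq_nonneg θ]
  constructor
  · rw [le_div_iff₀ hden, ← neg_div, div_mul_eq_mul_div, div_le_iff₀ hT]
    have e : (b - θ * μ) * (1 + θ * t) + (t + θ) * (1 - θ * μ * b) =
        (t + b) * (1 - θ ^ 2 * μ) + θ * ((1 - μ) * (1 + t * b)) := by ring
    have n1 : 0 ≤ (t + b) * (1 - θ ^ 2 * μ) := mul_nonneg (by linarith [hb'.1]) hμ2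
    have n2 : 0 ≤ θ * ((1 - μ) * (1 + t * b)) :=
      mul_nonneg h0 (mul_nonneg (by linarith [hμ'.2]) h1tb')
    linarith
  · rw [div_le_div_iff₀ hden hT]
    have e : (t + θ) * (1 - θ * μ * b) - (b - θ * μ) * (1 + θ * t) =
        (t - b) * (1 + θ ^ 2 * μ) + θ * ((1 + μ) * (1 - t * b)) := by ring
    have n1 : 0 ≤ (t - b) * (1 + θ ^ 2 * μ) := mul_nonneg (by linarith [hb'.2]) hμ3
    have n2 : 0 ≤ θ * ((1 + μ) * (1 - t * b)) :=
      mul_nonneg h0 (mul_nonneg (by linarith [hμ'.1]) h1tb)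
    linarith

end alg

/-! ### A small calculus of bounded Lipschitz functions -/

section BLcalc

variable {α : Type*} {S : Set α} {d : α → α → ℝ}

/-- Bounded and Lipschitz on `S` relative to `d`. -/
def BL (S : Set α) (d : α → α → ℝ) (f : α → ℝ) : Prop :=
  ∃ L : ℝ, 0 ≤ L ∧ ∀ p ∈ S, ∀ p' ∈ S, |f p| ≤ L ∧ |f p - f p'| ≤ L * d p p'

lemma BL.const (hd : ∀ p p', 0 ≤ d p p') (c : ℝ) : BL S d (fun _ => c) :=
  ⟨|c|, abs_nonneg _, fun p _ p' _ => ⟨le_rfl, by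
    simpa using mul_nonneg (abs_nonneg c) (hd p p')⟩⟩

lemma BL.add {f g : α → ℝ} (hf : BL S d f) (hg : BL S d g) : BL S d (fun p => f p + g p) := by
  obtain ⟨L, hL, h⟩ := hf
  obtain ⟨M, hM, k⟩ := hg
  refine ⟨L + M, by positivity, fun p hp p' hp' => ?_⟩
  obtain ⟨h1, h2⟩ := h p hp p' hp'
  obtain ⟨k1, k2⟩ := k p hp p' hp'
  constructor
  · exact (abs_add_le _ _).trans (by linarith)
  · have : f p + g p - (f p' + g p') = (f p - f p') + (g p - g p') := by ring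
    rw [this]
    refine (abs_add_le _ _).trans ?_
    rw [add_mul]
    linarith

lemma BL.neg {f : α → ℝ} (hf : BL S d f) : BL S d (fun p => - f p) := by
  obtain ⟨L, hL, h⟩ := hf
  refine ⟨L, hL, fun p hp p' hp' => ?_⟩
  obtain ⟨h1, h2⟩ := h p hp p' hp'
  constructor
  · simpa using h1
  · have : - f p - - f p' = - (f p - f p') := by ring
    rw [this, abs_neg]
    exact h2

lemma BL.sub {f g : α → ℝ} (hf : BL S d f) (hg : BL S d g) : BL S d (fun p => f p - g p) := by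
  simpa [sub_eq_add_neg] using hf.add hg.neg

lemma BL.mul (hd : ∀ p p', 0 ≤ d p p') {f g : α → ℝ} (hf : BL S d f) (hg : BL S d g) :
    BL S d (fun p => f p * g p) := by
  obtain ⟨L, hL, h⟩ := hf
  obtain ⟨M, hM, k⟩ := hg
  refine ⟨2 * (L * M), by positivity, fun p hp p' hp' => ?_⟩
  obtain ⟨h1, h2⟩ := h p hp p' hp'
  obtain ⟨k1, k2⟩ := k p hp p' hp'
  obtain ⟨k1', _⟩ := k p' hp' p hp
  constructor
  · rw [abs_mul]
    have := mul_le_mul h1 k1 (abs_nonneg _) hL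
    have : 0 ≤ L * M := by positivity
    linarith
  · have e : f p * g p - f p' * g p' = f p * (g p - g p') + (f p - f p') * g p' := by ring
    rw [e]
    refine (abs_add_le _ _).trans ?_
    rw [abs_mul, abs_mul]
    have n := hd p p'
    have a1 : |f p| * |g p - g p'| ≤ L * (M * d p p') :=
      mul_le_mul h1 k2 (abs_nonneg _) hL
    have a2 : |f p - f p'| * |g p'| ≤ (L * d p p') * M :=
      mul_le_mul h2 k1' (abs_nonneg _) (by positivity)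
    have : L * (M * d p p') + L * d p p' * M = 2 * (L * M) * d p p' := by ring
    linarith

lemma BL.inv {f : α → ℝ} {c : ℝ} (hc : 0 < c) (hd : ∀ p p', 0 ≤ d p p') (hf : BL S d f)
    (hfc : ∀ p ∈ S, c ≤ |f p|) : BL S d (fun p => (f p)⁻¹) := by
  obtain ⟨L, hL, h⟩ := hf
  refine ⟨c⁻¹ + L * (c⁻¹ * c⁻¹), by positivity, fun p hp p' hp' => ?_⟩
  obtain ⟨h1, h2⟩ := h p hp p' hp'
  have hp1 := hfc p hp
  have hp2 := hfc p' hp'
  have f0 : f p ≠ 0 := by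
    intro h0; rw [h0] at hp1; simp at hp1; linarith
  have f0' : f p' ≠ 0 := by
    intro h0; rw [h0] at hp2; simp at hp2; linarith
  have i1 : |f p|⁻¹ ≤ c⁻¹ := inv_anti₀ hc hp1
  have i2 : |f p'|⁻¹ ≤ c⁻¹ := inv_anti₀ hc hp2
  have ic : 0 ≤ c⁻¹ := by positivity
  constructor
  · rw [abs_inv]
    have : 0 ≤ L * (c⁻¹ * c⁻¹) := by positivity
    linarith
  · have e : (f p)⁻¹ - (f p')⁻¹ = (f p' - f p) * ((f p)⁻¹ * (f p')⁻¹) := by
      field_simp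
    rw [e, abs_mul, abs_mul, abs_sub_comm, abs_inv, abs_inv]
    have n := hd p p'
    have a1 : |f p|⁻¹ * |f p'|⁻¹ ≤ c⁻¹ * c⁻¹ :=
      mul_le_mul i1 i2 (by positivity) ic
    calc |f p - f p'| * (|f p|⁻¹ * |f p'|⁻¹) ≤ (L * d p p') * (c⁻¹ * c⁻¹) :=
          mul_le_mul h2 a1 (by positivity) (by positivity)
      _ = L * (c⁻¹ * c⁻¹) * d p p' := by ring
      _ ≤ (c⁻¹ + L * (c⁻¹ * c⁻¹)) * d p p' := by
          apply mul_le_mul_of_nonneg_right _ n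
          linarith

lemma BL.div {f g : α → ℝ} {c : ℝ} (hc : 0 < c) (hd : ∀ p p', 0 ≤ d p p') (hf : BL S d f)
    (hg : BL S d g) (hgc : ∀ p ∈ S, c ≤ |g p|) : BL S d (fun p => f p / g p) := by
  simpa [div_eq_mul_inv] using hf.mul hd (hg.inv hc hd hgc)

lemma BL.sqrt {f : α → ℝ} {c : ℝ} (hc : 0 < c) (hd : ∀ p p', 0 ≤ d p p') (hf : BL S d f)
    (hfc : ∀ p ∈ S, c ≤ f p) : BL S d (fun p => Real.sqrt (f p)) := by
  obtain ⟨L, hL, h⟩ := hf
  have hsc : 0 < Real.sqrt c := Real.sqrt_pos.mpr hc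
  refine ⟨Real.sqrt L + L / Real.sqrt c, by positivity, fun p hp p' hp' => ?_⟩
  obtain ⟨h1, h2⟩ := h p hp p' hp'
  have hp1 := hfc p hp
  have hp2 := hfc p' hp'
  have s1 : Real.sqrt c ≤ Real.sqrt (f p) := Real.sqrt_le_sqrt hp1
  have s2 : Real.sqrt c ≤ Real.sqrt (f p') := Real.sqrt_le_sqrt hp2
  have hfp : 0 ≤ f p := by linarith
  have hfp' : 0 ≤ f p' := by linarith
  constructor
  · rw [abs_of_nonneg (Real.sqrt_nonneg _)]
    have : Real.sqrt (f p) ≤ Real.sqrt L := Real.sqrt_le_sqrt ((le_abs_self _).trans h1)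
    have h3 : 0 ≤ L / Real.sqrt c := by positivity
    linarith
  · have n := hd p p'
    have e : (Real.sqrt (f p) - Real.sqrt (f p')) * (Real.sqrt (f p) + Real.sqrt (f p')) = f p - f p' := by
      have a1 := Real.mul_self_sqrt hfp
      have a2 := Real.mul_self_sqrt hfp'
      nlinarith
    have hpos : Real.sqrt c ≤ Real.sqrt (f p) + Real.sqrt (f p') := by
      have := Real.sqrt_nonneg (f p')
      linarith
    have e2 : |Real.sqrt (f p) - Real.sqrt (f p')| * Real.sqrt c ≤ |f p - f p'| := by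
      rw [← e, abs_mul, abs_of_nonneg (by positivity : 0 ≤ Real.sqrt (f p) + Real.sqrt (f p'))]
      exact mul_le_mul_of_nonneg_left hpos (abs_nonneg _)
    have e3 : |Real.sqrt (f p) - Real.sqrt (f p')| ≤ L * d p p' / Real.sqrt c := by
      rw [le_div_iff₀ hsc]
      exact e2.trans h2
    refine e3.trans ?_
    have : L * d p p' / Real.sqrt c = L / Real.sqrt c * d p p' := by ring
    rw [this]
    apply mul_le_mul_of_nonneg_right _ n
    have := Real.sqrt_nonneg L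
    linarith

end BLcalc

/-! ### The map `(θ,a,b) ↦ ν` -/

section nuBL

/-- The distance. -/
noncomputable def dB (p p' : ℝ × ℝ × ℝ) : ℝ :=
  |p.2.1 - p'.2.1| + |p.2.2 - p'.2.2| + |p.1 - p'.1|

lemma dB_nonneg (p p' : ℝ × ℝ × ℝ) : 0 ≤ dB p p' := by
  unfold dB; positivity

/-- The domain. -/
def sB (θm : ℝ) : Set (ℝ × ℝ × ℝ) := {p | 0 ≤ p.1 ∧ p.1 ≤ θm ∧ |p.2.1| ≤ 1 ∧ |p.2.2| ≤ 1}

variable {θm : ℝ}

lemma BL_fst (h0 : 0 ≤ θm) : BL (sB θm) dB (fun p => p.1) := by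
  refine ⟨θm + 1, by positivity, fun p hp p' hp' => ⟨?_, ?_⟩⟩
  · rw [abs_of_nonneg hp.1]; linarith [hp.2.1]
  · have := dB_nonneg p p'
    have e : |p.1 - p'.1| ≤ dB p p' := by
      unfold dB
      linarith [abs_nonneg (p.2.1 - p'.2.1), abs_nonneg (p.2.2 - p'.2.2)]
    have : (θm + 1) * dB p p' = θm * dB p p' + dB p p' := by ring
    have : 0 ≤ θm * dB p p' := by positivity
    linarith

lemma BL_a (h0 : 0 ≤ θm) : BL (sB θm) dB (fun p => p.2.1) := by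
  refine ⟨1, by norm_num, fun p hp p' hp' => ⟨hp.2.2.1, ?_⟩⟩
  rw [one_mul]
  unfold dB
  linarith [abs_nonneg (p.2.2 - p'.2.2), abs_nonneg (p.1 - p'.1)]

lemma BL_b (h0 : 0 ≤ θm) : BL (sB θm) dB (fun p => p.2.2) := by
  refine ⟨1, by norm_num, fun p hp p' hp' => ⟨hp.2.2.2, ?_⟩⟩
  rw [one_mul]
  unfold dB
  linarith [abs_nonneg (p.2.1 - p'.2.1), abs_nonneg (p.1 - p'.1)]

lemma BL_nu (h0 : 0 ≤ θm) (h1 : θm < 1) :
    BL (sB θm) dB (fun p => nuOf p.1 p.2.1 p.2.2) := by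
  have hd := dB_nonneg
  have hθ := BL_fst h0
  have ha := BL_a h0
  have hb := BL_b h0
  have hA : BL (sB θm) dB (fun p => 1 - p.1 ^ 2) := by
    have := (BL.const (S := sB θm) hd 1).sub (hθ.mul hd hθ)
    simpa [sq] using this
  have hAc : (0 : ℝ) < 1 - θm ^ 2 := A_pos h0 h1
  have hAlow : ∀ p ∈ sB θm, 1 - θm ^ 2 ≤ 1 - p.1 ^ 2 := by
    intro p hp
    have : p.1 ^ 2 ≤ θm ^ 2 := pow_le_pow_left₀ hp.1 hp.2.1 2
    linarith
  have hAabs : ∀ p ∈ sB θm, 1 - θm ^ 2 ≤ |1 - p.1 ^ 2| := fun p hp =>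
    (hAlow p hp).trans (le_abs_self _)
  have hA2abs : ∀ p ∈ sB θm, (1 - θm ^ 2) ^ 2 ≤ |(1 - p.1 ^ 2) ^ 2| := by
    intro p hp
    rw [abs_of_nonneg (sq_nonneg _)]
    exact pow_le_pow_left₀ hAc.le (hAlow p hp) 2
  have hnum : BL (sB θm) dB (fun p => p.2.2 - p.1 * p.2.1) := hb.sub (hθ.mul hd ha)
  have hnum' : BL (sB θm) dB (fun p => p.2.1 - p.1 * p.2.2) := ha.sub (hθ.mul hd hb)
  have hA2 : BL (sB θm) dB (fun p => (1 - p.1 ^ 2) ^ 2) := by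
    simpa [sq] using hA.mul hd hA
  have hc : BL (sB θm) dB (fun p => p.1 * ((p.2.1 - p.1 * p.2.2) * (p.2.2 - p.1 * p.2.1)) /
      (1 - p.1 ^ 2) ^ 2) :=
    (hθ.mul hd (hnum'.mul hd hnum)).div (pow_pos hAc 2) hd hA2 hA2abs
  have hrad : BL (sB θm) dB (fun p => 1 - 4 * (p.1 * ((p.2.1 - p.1 * p.2.2) * (p.2.2 - p.1 * p.2.1)) /
      (1 - p.1 ^ 2) ^ 2)) :=
    (BL.const hd 1).sub ((BL.const hd 4).mul hd hc)
  have hr0 : (0 : ℝ) < ((1 - θm) / (1 + θm)) ^ 2 := by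
    have : 0 < (1 - θm) / (1 + θm) := div_pos (by linarith) (by linarith)
    positivity
  have hradlow : ∀ p ∈ sB θm, ((1 - θm) / (1 + θm)) ^ 2 ≤
      1 - 4 * (p.1 * ((p.2.1 - p.1 * p.2.2) * (p.2.2 - p.1 * p.2.1)) / (1 - p.1 ^ 2) ^ 2) := by
    intro p hp
    refine le_trans ?_ (rad_ge' hp.1 (lt_of_le_of_lt hp.2.1 h1) hp.2.2.1 hp.2.2.2)
    have hq : (1 - θm) / (1 + θm) ≤ (1 - p.1) / (1 + p.1) := by
      rw [div_le_div_iff₀ (by linarith) (by linarith [hp.1])]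
      nlinarith [hp.1, hp.2.1]
    exact pow_le_pow_left₀ (div_nonneg (by linarith) (by linarith)) hq 2
  have hs := hrad.sqrt hr0 hd hradlow
  have hden : BL (sB θm) dB (fun p => 1 + Real.sqrt (1 - 4 * (p.1 * ((p.2.1 - p.1 * p.2.2) *
      (p.2.2 - p.1 * p.2.1)) / (1 - p.1 ^ 2) ^ 2))) := (BL.const hd 1).add hs
  have hq : BL (sB θm) dB (fun p => 2 / (1 + Real.sqrt (1 - 4 * (p.1 * ((p.2.1 - p.1 * p.2.2) *
      (p.2.2 - p.1 * p.2.1)) / (1 - p.1 ^ 2) ^ 2)))) := by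
    refine (BL.const hd 2).div one_pos hd hden ?_
    intro p _
    have := Real.sqrt_nonneg (1 - 4 * (p.1 * ((p.2.1 - p.1 * p.2.2) * (p.2.2 - p.1 * p.2.1)) /
      (1 - p.1 ^ 2) ^ 2))
    rw [abs_of_nonneg (by linarith)]
    linarith
  exact (hnum.div hAc hd hA hAabs).mul hd hq

lemma BL_u (h0 : 0 ≤ θm) (h1 : θm < 1) :
    BL (sB θm) dB (fun p => uOf p.1 p.2.1 p.2.2) := by
  have hd := dB_nonneg
  have hθ := BL_fst h0
  have hν := BL_nu h0 h1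
  have hν2 : BL (sB θm) dB (fun p => (nuOf p.1 p.2.1 p.2.2) ^ 2) := by
    simpa [sq] using hν.mul hd hν
  have hθ2 : BL (sB θm) dB (fun p => p.1 ^ 2) := by
    simpa [sq] using hθ.mul hd hθ
  have hnum : BL (sB θm) dB (fun p => 1 - (nuOf p.1 p.2.1 p.2.2) ^ 2) := (BL.const hd 1).sub hν2
  have hden : BL (sB θm) dB (fun p => 1 - p.1 ^ 2 * (nuOf p.1 p.2.1 p.2.2) ^ 2) :=
    (BL.const hd 1).sub (hθ2.mul hd hν2)
  have hAc : (0 : ℝ) < 1 - θm ^ 2 := A_pos h0 h1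
  refine hnum.div hAc hd hden ?_
  intro p hp
  have hp1 : p.1 < 1 := lt_of_le_of_lt hp.2.1 h1
  have hn : |nuOf p.1 p.2.1 p.2.2| ≤ 1 := abs_nuOf_le_one hp.1 hp1 hp.2.2.1 hp.2.2.2
  have hn2 : (nuOf p.1 p.2.1 p.2.2) ^ 2 ≤ 1 := (sq_le_one_iff_abs_le_one _).mpr hn
  have : p.1 ^ 2 ≤ θm ^ 2 := pow_le_pow_left₀ hp.1 hp.2.1 2
  have h4 : p.1 ^ 2 * (nuOf p.1 p.2.1 p.2.2) ^ 2 ≤ θm ^ 2 := by
    have := sq_nonneg (nuOf p.1 p.2.1 p.2.2)
    have h5 := sq_nonneg p.1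
    nlinarith
  exact le_trans (by linarith) (le_abs_self _)

end nuBL

/-- `u` lies in `[0,1]`. -/
lemma uFun_mem {θ ν : ℝ} (h0 : 0 ≤ θ) (h1 : θ < 1) (hν : |ν| ≤ 1) :
    0 ≤ uFun θ ν ∧ uFun θ ν ≤ 1 := by
  have hn2 : ν ^ 2 ≤ 1 := (sq_le_one_iff_abs_le_one _).mpr hν
  have hθ2 : θ ^ 2 < 1 := by nlinarith
  have hs := sq_nonneg ν
  have ht := sq_nonneg θ
  have hden : 0 < 1 - θ ^ 2 * ν ^ 2 := by nlinarith
  unfold uFun
  constructor
  · exact div_nonneg (by linarith) hden.le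
  · rw [div_le_one hden]
    nlinarith

/-- Small means give small cavities. -/
lemma abs_nuOf_le_sum {θ θm a b : ℝ} (h0 : 0 ≤ θ) (hm : θ ≤ θm) (h1 : θm < 1) :
    |nuOf θ a b| ≤ 2 / (1 - θm ^ 2) * (|a| + |b|) := by
  have h0m : 0 ≤ θm := h0.trans hm
  have hA : 0 < 1 - θm ^ 2 := A_pos h0m h1
  have hA' : 1 - θm ^ 2 ≤ 1 - θ ^ 2 := by
    have : θ ^ 2 ≤ θm ^ 2 := pow_le_pow_left₀ h0 hm 2
    linarith
  have hθ1 : |θ| ≤ 1 := by rw [abs_of_nonneg h0]; linarith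
  rw [nuOf_eq, abs_mul, abs_div, abs_of_pos (by linarith : 0 < 1 - θ ^ 2),
    abs_of_pos (nuD_pos θ a b)]
  have h2 : |b - θ * a| ≤ |a| + |b| := by
    refine (abs_sub _ _).trans ?_
    rw [abs_mul]
    have : |θ| * |a| ≤ 1 * |a| := mul_le_mul_of_nonneg_right hθ1 (abs_nonneg _)
    linarith
  have h3 : |b - θ * a| / (1 - θ ^ 2) ≤ (|a| + |b|) / (1 - θm ^ 2) :=
    div_le_div₀ (by positivity) h2 hA hA'
  calc |b - θ * a| / (1 - θ ^ 2) * nuD θ a b ≤ (|a| + |b|) / (1 - θm ^ 2) * 2 :=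
        mul_le_mul h3 (nuD_le θ a b) (nuD_pos θ a b).le (by positivity)
    _ = 2 / (1 - θm ^ 2) * (|a| + |b|) := by ring

theorem exists_bethe_bounds {θm : ℝ} (h0 : 0 ≤ θm) (h1 : θm < 1) :
    ∃ L : ℝ, 0 < L ∧ ∀ θ θ' a b a' b' : ℝ, 0 ≤ θ → θ ≤ θm → 0 ≤ θ' → θ' ≤ θm →
      |a| ≤ 1 → |b| ≤ 1 → |a'| ≤ 1 → |b'| ≤ 1 →
        |nuOf θ a b| ≤ 1 ∧
        |nuOf θ a b| ≤ L * (|a| + |b|) ∧
        |nuOf θ a b - nuOf θ' a' b'| ≤ L * (|a - a'| + |b - b'| + |θ - θ'|) ∧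
        0 ≤ uOf θ a b ∧ uOf θ a b ≤ 1 ∧
        |uOf θ a b - uOf θ' a' b'| ≤ L * (|a - a'| + |b - b'| + |θ - θ'|) := by
  obtain ⟨L1, hL1, h1'⟩ := BL_nu h0 h1
  obtain ⟨L2, hL2, h2'⟩ := BL_u h0 h1
  have hA : 0 < 1 - θm ^ 2 := A_pos h0 h1
  refine ⟨L1 + L2 + 2 / (1 - θm ^ 2), by positivity, ?_⟩
  intro θ θ' a b a' b' hθ0 hθm hθ0' hθm' ha hb ha' hb'
  have hθ1 : θ < 1 := lt_of_le_of_lt hθm h1
  have mem : ((θ, a, b) : ℝ × ℝ × ℝ) ∈ sB θm := ⟨hθ0, hθm, ha, hb⟩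
  have mem' : ((θ', a', b') : ℝ × ℝ × ℝ) ∈ sB θm := ⟨hθ0', hθm', ha', hb'⟩
  have hν1 := abs_nuOf_le_one hθ0 hθ1 ha hb
  have hδ := dB_nonneg ((θ, a, b) : ℝ × ℝ × ℝ) (θ', a', b')
  have hd : dB ((θ, a, b) : ℝ × ℝ × ℝ) (θ', a', b') = |a - a'| + |b - b'| + |θ - θ'| := rfl
  rw [hd] at hδ
  have hu := uFun_mem hθ0 hθ1 hν1
  have hq : 0 ≤ 2 / (1 - θm ^ 2) := by positivity
  refine ⟨hν1, ?_, ?_, hu.1, hu.2, ?_⟩
  · refine (abs_nuOf_le_sum hθ0 hθm h1).trans ?_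
    apply mul_le_mul_of_nonneg_right _ (by positivity)
    linarith
  · have := (h1' _ mem _ mem').2
    rw [hd] at this
    refine this.trans (mul_le_mul_of_nonneg_right ?_ hδ)
    linarith
  · have := (h2' _ mem _ mem').2
    rw [hd] at this
    refine this.trans (mul_le_mul_of_nonneg_right ?_ hδ)
    linarith

/-- The logarithm is Lipschitz away from `0`. -/
lemma abs_log_sub_le {x y η : ℝ} (hη : 0 < η) (hx : η ≤ x) (hy : η ≤ y) :
    |Real.log x - Real.log y| ≤ |x - y| / η := by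
  have hx0 : 0 < x := by linarith
  have hy0 : 0 < y := by linarith
  have key : ∀ {p q : ℝ}, η ≤ p → η ≤ q → Real.log p - Real.log q ≤ |p - q| / η := by
    intro p q hp hq
    have hp0 : 0 < p := by linarith
    have hq0 : 0 < q := by linarith
    rw [← Real.log_div hp0.ne' hq0.ne']
    have h1 := Real.log_le_sub_one_of_pos (div_pos hp0 hq0)
    have h2 : p / q - 1 = (p - q) / q := by field_simp
    rw [h2] at h1
    refine h1.trans ?_
    calc (p - q) / q ≤ |p - q| / q := div_le_div_of_nonneg_right (le_abs_self _) hq0.le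
      _ ≤ |p - q| / η := div_le_div_of_nonneg_left (abs_nonneg _) hη hq
  rw [abs_le]
  constructor
  · have := key hy hx
    rw [abs_sub_comm] at this
    linarith
  · exact key hx hy

set_option maxHeartbeats 1000000 in
theorem exists_aOf_bounds {θm t : ℝ} (h0 : 0 ≤ θm) (h1 : θm < 1) (ht0 : 0 ≤ t) (ht : t < 1) :
    ∃ L : ℝ, 0 < L ∧ ∀ θ θ' a b a' b' : ℝ, 0 ≤ θ → θ ≤ θm → 0 ≤ θ' → θ' ≤ θm →
      |a| ≤ t → |b| ≤ t → |a'| ≤ t → |b'| ≤ t →
        0 ≤ aOf θ a b ∧ aOf θ a b ≤ L * (|a| + |b|) ^ 2 ∧ Real.exp (- aOf θ a b) = uOf θ a b ∧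
        |aOf θ a b - aOf θ' a' b'| ≤
          L * (|a| + |b| + |a'| + |b'|) * (|a - a'| + |b - b'| + |θ - θ'|) := by
  obtain ⟨L1, hL1, hB⟩ := exists_bethe_bounds h0 h1
  -- the bound away from `1`
  set t' : ℝ := (t + θm) / (1 + θm * t) with ht'
  have hden : 0 < 1 + θm * t := by positivity
  have ht'0 : 0 ≤ t' := by positivity
  have ht'1 : t' < 1 := by
    rw [ht', div_lt_one hden]
    nlinarith [mul_pos (sub_pos.mpr h1) (sub_pos.mpr ht)]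
  set η : ℝ := 1 - t' ^ 2 with hη
  have hηpos : 0 < η := by
    rw [hη]; nlinarith
  have hνt : ∀ θ a b : ℝ, 0 ≤ θ → θ ≤ θm → |a| ≤ t → |b| ≤ t → (nuOf θ a b) ^ 2 ≤ t' ^ 2 := by
    intro θ a b hθ0 hθm ha hb
    have h2 := abs_nuOf_le_of_abs_le hθ0 (lt_of_le_of_lt hθm h1) ht ha hb
    have h3 : (t + θ) / (1 + θ * t) ≤ t' := by
      rw [ht', div_le_div_iff₀ (by positivity) hden]
      nlinarith [mul_nonneg (sub_nonneg.mpr hθm) (mul_nonneg (sub_nonneg.mpr ht.le)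
        (by linarith : (0 : ℝ) ≤ 1 + t))]
    have h4 : |nuOf θ a b| ≤ t' := h2.trans h3
    rw [← sq_abs]
    exact pow_le_pow_left₀ (abs_nonneg _) h4 2
  -- the value
  have hval : ∀ θ a b : ℝ, 0 ≤ θ → θ ≤ θm → |a| ≤ t → |b| ≤ t →
      aOf θ a b = Real.log (1 - θ ^ 2 * (nuOf θ a b) ^ 2) - Real.log (1 - (nuOf θ a b) ^ 2) ∧
        η ≤ 1 - (nuOf θ a b) ^ 2 ∧ η ≤ 1 - θ ^ 2 * (nuOf θ a b) ^ 2 := by
    intro θ a b hθ0 hθm ha hb
    have hy := hνt θ a b hθ0 hθm ha hb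
    have hy0 := sq_nonneg (nuOf θ a b)
    have hθ2 : θ ^ 2 ≤ 1 := by
      have : θ ≤ 1 := by linarith
      nlinarith
    have h1y : η ≤ 1 - (nuOf θ a b) ^ 2 := by rw [hη]; linarith
    have h2y : η ≤ 1 - θ ^ 2 * (nuOf θ a b) ^ 2 := by
      have : θ ^ 2 * (nuOf θ a b) ^ 2 ≤ (nuOf θ a b) ^ 2 := by
        have := sq_nonneg θ
        nlinarith
      linarith
    refine ⟨?_, h1y, h2y⟩
    unfold aOf uOf uFun
    rw [Real.log_div (by linarith) (by linarith)]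
    ring
  refine ⟨L1 ^ 2 / η + (2 * L1 ^ 2 + 2 * L1) / η + 1, by positivity, ?_⟩
  intro θ θ' a b a' b' hθ0 hθm hθ0' hθm' ha hb ha' hb'
  have ha1 : |a| ≤ 1 := by linarith
  have hb1 : |b| ≤ 1 := by linarith
  have ha1' : |a'| ≤ 1 := by linarith
  have hb1' : |b'| ≤ 1 := by linarith
  obtain ⟨b1, b2, b3, b4, b5, b6⟩ := hB θ θ' a b a' b' hθ0 hθm hθ0' hθm' ha1 hb1 ha1' hb1'
  obtain ⟨b1', b2', -, -, -, -⟩ := hB θ' θ a' b' a b hθ0' hθm' hθ0 hθm ha1' hb1' ha1 hb1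
  obtain ⟨v1, v2, v3⟩ := hval θ a b hθ0 hθm ha hb
  obtain ⟨v1', v2', v3'⟩ := hval θ' a' b' hθ0' hθm' ha' hb'
  set ν := nuOf θ a b with hν
  set ν' := nuOf θ' a' b' with hν'
  have hν2 : ν ^ 2 ≤ (L1 * (|a| + |b|)) ^ 2 := by
    rw [← sq_abs ν]
    exact pow_le_pow_left₀ (abs_nonneg _) b2 2
  have hσ : 0 ≤ |a| + |b| := by positivity
  have hσ' : 0 ≤ |a'| + |b'| := by positivity
  have hδ : 0 ≤ |a - a'| + |b - b'| + |θ - θ'| := by positivity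
  have hSq : 0 ≤ (|a| + |b|) ^ 2 := by positivity
  have hu : 0 < uOf θ a b := by
    show 0 < uFun θ ν
    unfold uFun
    exact div_pos (by linarith) (by linarith)
  refine ⟨?_, ?_, ?_, ?_⟩
  · -- nonnegativity
    unfold aOf
    have : Real.log (uOf θ a b) ≤ 0 := Real.log_nonpos hu.le b5
    linarith
  · -- quadratic bound
    rw [v1]
    have l1 : Real.log (1 - θ ^ 2 * ν ^ 2) ≤ 0 := by
      apply Real.log_nonpos (by linarith)
      have := sq_nonneg θ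
      have := sq_nonneg ν
      nlinarith
    have l2 : - Real.log (1 - ν ^ 2) ≤ ν ^ 2 / η := by
      have hpos : 0 < 1 - ν ^ 2 := by linarith
      have h3 := Real.one_sub_inv_le_log_of_pos hpos
      have h4 : 1 - (1 - ν ^ 2)⁻¹ = - (ν ^ 2 / (1 - ν ^ 2)) := by
        field_simp
        ring
      rw [h4] at h3
      have h5 : ν ^ 2 / (1 - ν ^ 2) ≤ ν ^ 2 / η :=
        div_le_div_of_nonneg_left (sq_nonneg _) hηpos v2
      linarith
    have l3 : ν ^ 2 / η ≤ L1 ^ 2 / η * (|a| + |b|) ^ 2 := by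
      have : L1 ^ 2 / η * (|a| + |b|) ^ 2 = (L1 * (|a| + |b|)) ^ 2 / η := by ring
      rw [this]
      exact div_le_div_of_nonneg_right hν2 hηpos.le
    have l4 : L1 ^ 2 / η * (|a| + |b|) ^ 2 ≤
        (L1 ^ 2 / η + (2 * L1 ^ 2 + 2 * L1) / η + 1) * (|a| + |b|) ^ 2 := by
      apply mul_le_mul_of_nonneg_right _ hSq
      have : 0 ≤ (2 * L1 ^ 2 + 2 * L1) / η := by positivity
      linarith
    linarith
  · -- the exponential
    unfold aOf
    rw [neg_neg, Real.exp_log hu]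
  · -- Lipschitz
    set δ := |a - a'| + |b - b'| + |θ - θ'| with hδdef
    set σ := |a| + |b| + |a'| + |b'| with hσdef
    have hσ0 : 0 ≤ σ := by positivity
    rw [v1, v1']
    have l1 := abs_log_sub_le hηpos v3 v3'
    have l2 := abs_log_sub_le hηpos v2 v2'
    have hy : |ν ^ 2 - ν' ^ 2| ≤ L1 ^ 2 * (σ * δ) := by
      have e : ν ^ 2 - ν' ^ 2 = (ν - ν') * (ν + ν') := by ring
      rw [e, abs_mul]
      have s1 : |ν + ν'| ≤ L1 * σ := by
        refine (abs_add_le _ _).trans ?_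
        have : L1 * σ = L1 * (|a| + |b|) + L1 * (|a'| + |b'|) := by rw [hσdef]; ring
        linarith
      calc |ν - ν'| * |ν + ν'| ≤ (L1 * δ) * (L1 * σ) :=
            mul_le_mul b3 s1 (abs_nonneg _) (by positivity)
        _ = L1 ^ 2 * (σ * δ) := by ring
    have hy' : ν' ^ 2 ≤ L1 * σ := by
      have q1 : |ν'| ≤ 1 := b1'
      have q2 : |ν'| ≤ L1 * (|a'| + |b'|) := b2'
      have q3 : ν' ^ 2 ≤ |ν'| := by
        rw [← sq_abs]
        nlinarith [abs_nonneg ν']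
      have q4 : L1 * (|a'| + |b'|) ≤ L1 * σ := by
        apply mul_le_mul_of_nonneg_left _ hL1.le
        rw [hσdef]
        have := abs_nonneg a
        have := abs_nonneg b
        linarith
      linarith
    have hθθ : |θ ^ 2 - θ' ^ 2| ≤ 2 * |θ - θ'| := by
      have e : θ ^ 2 - θ' ^ 2 = (θ - θ') * (θ + θ') := by ring
      rw [e, abs_mul, mul_comm 2]
      apply mul_le_mul_of_nonneg_left _ (abs_nonneg _)
      rw [abs_of_nonneg (by positivity)]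
      linarith
    have hθ2 : θ ^ 2 ≤ 1 := by
      have : θ ≤ 1 := by linarith
      nlinarith
    have hprod : |(1 - θ ^ 2 * ν ^ 2) - (1 - θ' ^ 2 * ν' ^ 2)| ≤ |ν ^ 2 - ν' ^ 2| + 2 * (L1 * σ) * δ := by
      have e : (1 - θ ^ 2 * ν ^ 2) - (1 - θ' ^ 2 * ν' ^ 2) =
          - (θ ^ 2 * (ν ^ 2 - ν' ^ 2)) - (θ ^ 2 - θ' ^ 2) * ν' ^ 2 := by ring
      rw [e]
      refine (abs_sub _ _).trans ?_
      rw [abs_neg, abs_mul, abs_mul, abs_of_nonneg (sq_nonneg θ), abs_of_nonneg (sq_nonneg ν')]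
      have r1 : θ ^ 2 * |ν ^ 2 - ν' ^ 2| ≤ 1 * |ν ^ 2 - ν' ^ 2| :=
        mul_le_mul_of_nonneg_right hθ2 (abs_nonneg _)
      have hδ' : |θ - θ'| ≤ δ := by
        rw [hδdef]
        have := abs_nonneg (a - a')
        have := abs_nonneg (b - b')
        linarith
      have r2 : |θ ^ 2 - θ' ^ 2| * ν' ^ 2 ≤ (2 * δ) * (L1 * σ) :=
        mul_le_mul (by linarith) hy' (sq_nonneg _) (by positivity)
      nlinarith
    have hsub : Real.log (1 - θ ^ 2 * ν ^ 2) - Real.log (1 - ν ^ 2) -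
        (Real.log (1 - θ' ^ 2 * ν' ^ 2) - Real.log (1 - ν' ^ 2)) =
        (Real.log (1 - θ ^ 2 * ν ^ 2) - Real.log (1 - θ' ^ 2 * ν' ^ 2)) -
        (Real.log (1 - ν ^ 2) - Real.log (1 - ν' ^ 2)) := by ring
    rw [hsub]
    refine (abs_sub _ _).trans ?_
    have l3 : |(1 - ν ^ 2) - (1 - ν' ^ 2)| = |ν ^ 2 - ν' ^ 2| := by
      rw [abs_sub_comm]; congr 1; ring
    rw [l3] at l2
    have l4 : |Real.log (1 - θ ^ 2 * ν ^ 2) - Real.log (1 - θ' ^ 2 * ν' ^ 2)| +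
        |Real.log (1 - ν ^ 2) - Real.log (1 - ν' ^ 2)| ≤
        ((2 * L1 ^ 2 + 2 * L1) * (σ * δ)) / η := by
      have s : |(1 - θ ^ 2 * ν ^ 2) - (1 - θ' ^ 2 * ν' ^ 2)| / η + |ν ^ 2 - ν' ^ 2| / η ≤
          ((2 * L1 ^ 2 + 2 * L1) * (σ * δ)) / η := by
        rw [← add_div]
        apply div_le_div_of_nonneg_right _ hηpos.le
        have : (2 * L1 ^ 2 + 2 * L1) * (σ * δ) = 2 * (L1 ^ 2 * (σ * δ)) + 2 * (L1 * σ) * δ := by ring
        rw [this]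
        linarith
      linarith
    refine l4.trans ?_
    have e5 : ((2 * L1 ^ 2 + 2 * L1) * (σ * δ)) / η = (2 * L1 ^ 2 + 2 * L1) / η * σ * δ := by ring
    rw [e5]
    apply mul_le_mul_of_nonneg_right _ hδ
    apply mul_le_mul_of_nonneg_right _ hσ0
    have : 0 ≤ L1 ^ 2 / η := by positivity
    linarith

end Crest.Agent.Lib.IsingFIID
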