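/-
Row 160 (S0241), task E2, second half: the moments of the row sum from those of the tree-averaged path
weights (`rowSum_norm_of`).  Deterministically
`rowSum ≤ (d+1) + ∑_{n ≥ 0} θ² (θ²D)^n ∑_{x ~ v} wTree n v x`,
which is the path sum over spheres; then Minkowski and
`∑_n min(1, C e^{-cτn} + P D^{-n/2}) ≤ C'(1/τ + log(P+1))`.
-/
import Crest.Agent.Lib.IsingFIID.MainFixed
import Crest.Agent.Lib.IsingFIID.BetheQ
import Crest.Agent.Lib.IsingFIID.LabelIso

set_option autoImplicit false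
set_option linter.unusedSectionVars false

namespace Crest.Agent.Lib.IsingFIID

open MeasureTheory Filter Topology Set SimpleGraph
open scoped ENNReal

namespace RowNorm

/-! ### `lpN`: Minkowski, homogeneity, monotonicity -/

section Lp

variable {Ω : Type*} [MeasurableSpace Ω] {μ : Measure Ω} [IsProbabilityMeasure μ]

lemma eLpNorm_eq_lpN {f : Ω → ℝ} (hf : BM f) {Q : ℝ} (hQ : 0 < Q) :
    eLpNorm f (ENNReal.ofReal Q) μ = ENNReal.ofReal (lpN μ f Q) := by
  obtain ⟨C, hC⟩ := hf.bdd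
  have hp0 : ENNReal.ofReal Q ≠ 0 := by simpa using hQ
  rw [MemLp.eLpNorm_eq_integral_rpow_norm hp0 ENNReal.ofReal_ne_top (memLp_of_bd hf.meas hC _),
    ENNReal.toReal_ofReal hQ.le]
  unfold lpN
  simp [Real.norm_eq_abs, one_div]

lemma lpN_add_le {f g : Ω → ℝ} (hf : BM f) (hg : BM g) {Q : ℝ} (hQ : 1 ≤ Q) :
    lpN μ (fun ω => f ω + g ω) Q ≤ lpN μ f Q + lpN μ g Q := by
  have hQ0 : 0 < Q := by linarith
  have h := eLpNorm_add_le (μ := μ) hf.meas.aestronglyMeasurable hg.meas.aestronglyMeasurable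
    (p := ENNReal.ofReal Q) (by simpa using hQ)
  have hfg : f + g = fun ω => f ω + g ω := rfl
  rw [hfg, eLpNorm_eq_lpN (hf.add hg) hQ0, eLpNorm_eq_lpN hf hQ0, eLpNorm_eq_lpN hg hQ0,
    ← ENNReal.ofReal_add (lpN_nonneg _ _) (lpN_nonneg _ _)] at h
  exact (ENNReal.ofReal_le_ofReal_iff (add_nonneg (lpN_nonneg _ _) (lpN_nonneg _ _))).1 h

lemma lpN_zero {Q : ℝ} (hQ : 0 < Q) : lpN μ (fun _ : Ω => (0 : ℝ)) Q = 0 := by
  unfold lpN
  simp [Real.zero_rpow hQ.ne', Real.zero_rpow (inv_ne_zero hQ.ne')]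

lemma lpN_sum_le {ι : Type*} (s : Finset ι) {f : ι → Ω → ℝ} (hf : ∀ i ∈ s, BM (f i)) {Q : ℝ}
    (hQ : 1 ≤ Q) : lpN μ (fun ω => ∑ i ∈ s, f i ω) Q ≤ ∑ i ∈ s, lpN μ (f i) Q := by
  classical
  have hQ0 : 0 < Q := by linarith
  induction s using Finset.induction_on with
  | empty => simp [lpN_zero hQ0]
  | insert i s hi ih =>
    simp only [Finset.sum_insert hi]
    refine (lpN_add_le (hf i (Finset.mem_insert_self _ _))
      (BM.finset_sum _ fun j hj => hf j (Finset.mem_insert_of_mem hj)) hQ).trans ?_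
    exact add_le_add le_rfl (ih fun j hj => hf j (Finset.mem_insert_of_mem hj))

lemma lpN_const_mul {f : Ω → ℝ} {c Q : ℝ} (hc : 0 ≤ c) (hQ : 0 < Q) :
    lpN μ (fun ω => c * f ω) Q = c * lpN μ f Q := by
  unfold lpN
  have e : ∀ ω, |c * f ω| ^ Q = c ^ Q * |f ω| ^ Q := fun ω => by
    rw [abs_mul, abs_of_nonneg hc, Real.mul_rpow hc (abs_nonneg _)]
  simp only [e]
  rw [integral_const_mul, Real.mul_rpow (Real.rpow_nonneg hc _)
    (integral_nonneg fun ω => Real.rpow_nonneg (abs_nonneg _) _), ← Real.rpow_mul hc,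
    mul_one_div_cancel hQ.ne', Real.rpow_one]

lemma lpN_mono {f g : Ω → ℝ} (hg : BM g) (h0 : ∀ ω, 0 ≤ f ω) (hfg : ∀ ω, f ω ≤ g ω) {Q : ℝ}
    (hQ : 0 < Q) : lpN μ f Q ≤ lpN μ g Q := by
  unfold lpN
  obtain ⟨C, hC⟩ := hg.bdd
  have hC0 : 0 ≤ C := by
    obtain ⟨ω⟩ : Nonempty Ω := nonempty_of_isProbabilityMeasure μ
    exact (abs_nonneg _).trans (hC ω)
  have hint : Integrable (fun ω => |g ω| ^ Q) μ := by
    refine integrable_bd (measurable_abs_rpow hg.meas Q) (C := C ^ Q) fun ω => ?_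
    rw [abs_of_nonneg (Real.rpow_nonneg (abs_nonneg _) _)]
    exact Real.rpow_le_rpow (abs_nonneg _) (hC ω) hQ.le
  refine Real.rpow_le_rpow (integral_nonneg fun ω => Real.rpow_nonneg (abs_nonneg _) _) ?_
    (one_div_pos.2 hQ).le
  refine integral_mono_of_nonneg (Eventually.of_forall fun ω => Real.rpow_nonneg (abs_nonneg _) _) hint
    (Eventually.of_forall fun ω => ?_)
  exact Real.rpow_le_rpow (abs_nonneg _) (by
    rw [abs_of_nonneg (h0 ω), abs_of_nonneg ((h0 ω).trans (hfg ω))]; exact hfg ω) hQ.le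

lemma lpN_const_le {c Q : ℝ} (hc : 0 ≤ c) (hQ : 0 < Q) : lpN μ (fun _ : Ω => c) Q = c := by
  have := lpN_const_mul (μ := μ) (f := fun _ : Ω => (1 : ℝ)) hc hQ
  simp only [mul_one] at this
  rw [this, PairHyp.lpN_const_one]
  ring

/-- The norm is continuous along bounded pointwise convergence. -/
lemma tendsto_lpN {f : ℕ → Ω → ℝ} {g : Ω → ℝ} (hf : ∀ n, Measurable (f n)) {C : ℝ}
    (hC : ∀ n ω, |f n ω| ≤ C) (hlim : ∀ ω, Tendsto (fun n => f n ω) atTop (𝓝 (g ω))) {Q : ℝ}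
    (hQ : 0 < Q) : Tendsto (fun n => lpN μ (f n) Q) atTop (𝓝 (lpN μ g Q)) := by
  have hint : Tendsto (fun n => ∫ ω, |f n ω| ^ Q ∂μ) atTop (𝓝 (∫ ω, |g ω| ^ Q ∂μ)) := by
    refine tendsto_integral_of_dominated_convergence (fun _ => C ^ Q) ?_ (integrable_const _) ?_ ?_
    · exact fun n => (measurable_abs_rpow (hf n) Q).aestronglyMeasurable
    · intro n
      refine Eventually.of_forall fun ω => ?_
      rw [Real.norm_of_nonneg (Real.rpow_nonneg (abs_nonneg _) _)]
      exact Real.rpow_le_rpow (abs_nonneg _) (hC n ω) hQ.le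
    · refine Eventually.of_forall fun ω => ?_
      have hcont : Continuous fun x : ℝ => |x| ^ Q :=
        continuous_abs.rpow_const fun _ => Or.inr hQ.le
      exact hcont.continuousAt.tendsto.comp (hlim ω)
  exact hint.rpow_const (Or.inr (one_div_pos.2 hQ).le)

end Lp

/-! ### Geodesics are unique -/

section Tree

variable {V : Type*} [DecidableEq V] {G : SimpleGraph V} [G.LocallyFinite] {d : ℕ}

theorem geod_unique (hT : G.IsTree) {x x' : ℕ → V} {r : ℕ} (hx : IsGeod G x r) (hx' : IsGeod G x' r)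
    (h0 : x 0 = x' 0) (hr : x r = x' r) : ∀ i, i ≤ r → x i = x' i := by
  have key : ∀ k, k ≤ r → x (r - k) = x' (r - k) := by
    intro k
    induction k with
    | zero => simpa using fun _ : 0 ≤ r => hr
    | succ k ih =>
      intro hk
      have h1 := ih (by omega)
      have e : r - k = r - (k + 1) + 1 := by omega
      rw [e] at h1
      set i := r - (k + 1) with hi
      have hir : i + 1 ≤ r := by omega
      have a1 : G.Adj (x (i + 1)) (x i) := (hx.adj i (by omega)).symm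
      have a2 : G.Adj (x (i + 1)) (x' i) := by
        rw [h1]
        exact (hx'.adj i (by omega)).symm
      refine closer_unique hT (x 0) a1 a2 ?_ ?_
      · rw [hx.dist_zero hT (i + 1) hir, hx.dist_zero hT i (by omega)]
      · rw [hx.dist_zero hT (i + 1) hir, h0, hx'.dist_zero hT i (by omega)]
  intro i hi
  have := key (r - i) (by omega)
  rwa [show r - (r - i) = i by omega] at this

/-- The geodesic from `p` through `x`, in terms of the geodesic from `x`. -/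
theorem geoTo_succ (hT : G.IsTree) {p x y : V} {n : ℕ} (hpx : G.Adj p x)
    (hx : G.dist x y = n) (hp : G.dist p y = n + 1) :
    geoTo G p y 0 = p ∧ geoTo G p y 1 = x ∧ ∀ i, i ≤ n → geoTo G p y (i + 1) = geoTo G x y i := by
  obtain ⟨z, hz, z0, z1, zn⟩ := exists_geod_through hT hpx hx hp
  obtain ⟨g1, g10, g1n⟩ := geoTo_spec hT p y
  obtain ⟨g2, g20, g2n⟩ := geoTo_spec hT x y
  rw [hp] at g1 g1n
  rw [hx] at g2 g2n
  have e1 := geod_unique hT g1 hz (by rw [g10, z0]) (by rw [g1n, zn])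
  have hs : IsGeod G (fun i => z (1 + i)) n := by
    have := hz.shift 1
    simpa using this
  have e2 := geod_unique hT hs g2 (by simp [z1, g20]) (by
    show z (1 + n) = geoTo G x y n
    rw [show 1 + n = n + 1 by omega, zn, g2n])
  refine ⟨g10, ?_, fun i hi => ?_⟩
  · rw [e1 1 (by omega), z1]
  · rw [e1 (i + 1) (by omega), ← e2 i hi, show i + 1 = 1 + i by omega]

/-- One level of a cone. -/
theorem sum_cone_succ {p x : V} (n : ℕ) (f : V → ℝ) (hT : G.IsTree) :
    ∑ y ∈ cone G p x (n + 1), f y =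
      ∑ c ∈ (G.neighborFinset x).erase p, ∑ y ∈ cone G x c n, f y := by
  have hset : cone G p x (n + 1) = ((G.neighborFinset x).erase p).biUnion fun c => cone G x c n := by
    ext y
    simp only [cone, Finset.mem_biUnion, Finset.mem_erase]
  rw [hset, Finset.sum_biUnion]
  intro c hc c' hc' hne
  have h1 : G.Adj x c := by simpa using (Finset.mem_erase.mp hc).2
  have h2 : G.Adj x c' := by simpa using (Finset.mem_erase.mp hc').2
  rw [Function.onFun, Finset.disjoint_left]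
  intro v hv hv'
  obtain ⟨h3, h4⟩ := (mem_cone hT h1).1 hv
  obtain ⟨h5, h6⟩ := (mem_cone hT h2).1 hv'
  apply hne
  refine closer_unique hT v h1 h2 ?_ ?_
  · rw [dc G v x, dc G v c]
    omega
  · rw [dc G v x, dc G v c']
    omega

/-- The weight of a cone: the path sum of squared `u`'s is `D^n` times the average `wTree`. -/
theorem sum_cone_uP (hG : Tree G d) (θ : ℝ) (m : V → ℝ) {p x : V} (hpx : G.Adj p x) (n : ℕ) :
    ∑ y ∈ cone G p x n, uP θ m (geoTo G p y) 0 (n + 1) =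
      ((d - 1 : ℕ) : ℝ) ^ n * wTree G θ (d - 1) m n p x := by
  have hT := hG.tree
  have hD : (0 : ℝ) < ((d - 1 : ℕ) : ℝ) := by
    have := hG.hd
    exact_mod_cast (by omega : 0 < d - 1)
  induction n generalizing p x with
  | zero =>
    simp only [cone, Finset.sum_singleton, pow_zero, one_mul, wTree]
    obtain ⟨-, h0, h1⟩ := geoTo_spec hT p x
    rw [dist_eq_one_iff_adj.mpr hpx] at h1
    simp [uP, h0, h1]
  | succ n ih =>
    rw [sum_cone_succ n _ hT]
    have hstep : ∀ c ∈ (G.neighborFinset x).erase p,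
        ∑ y ∈ cone G x c n, uP θ m (geoTo G p y) 0 (n + 1 + 1) =
          uOf θ (m p) (m x) ^ 2 * (((d - 1 : ℕ) : ℝ) ^ n * wTree G θ (d - 1) m n x c) := by
      intro c hc
      have hxc : G.Adj x c := by simpa using (Finset.mem_erase.mp hc).2
      have hcp : c ≠ p := (Finset.mem_erase.mp hc).1
      rw [← ih hxc, Finset.mul_sum]
      refine Finset.sum_congr rfl fun y hy => ?_
      have hy' : y ∈ cone G p x (n + 1) := by
        simp only [cone, Finset.mem_biUnion, Finset.mem_erase]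
        exact ⟨c, Finset.mem_erase.1 hc, hy⟩
      obtain ⟨d1, d2⟩ := (mem_cone hT hpx).1 hy'
      obtain ⟨e0, e1, e2⟩ := geoTo_succ hT hpx d1 d2
      rw [uP_succ, e0, e1]
      congr 1
      unfold uP
      refine Finset.prod_congr rfl fun j hj => ?_
      have hj' : j < n + 1 := Finset.mem_range.1 hj
      have h3 := e2 j (by omega)
      have h4 := e2 (j + 1) (by omega)
      simp only [zero_add]
      rw [show 0 + 1 + j = j + 1 by omega, h3, show j + 1 + 1 = j + 1 + 1 from rfl, h4]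
    rw [Finset.sum_congr rfl hstep, ← Finset.mul_sum, ← Finset.mul_sum]
    simp only [wTree]
    rw [pow_succ]
    field_simp
    ring

/-- The sphere is the disjoint union of the cones of the neighbours. -/
theorem sum_sphere_succ (hT : G.IsTree) (v : V) (n : ℕ) (f : V → ℝ) :
    ∑ y ∈ sphere G v (n + 1), f y = ∑ x ∈ G.neighborFinset v, ∑ y ∈ cone G v x n, f y := by
  have hset : sphere G v (n + 1) = (G.neighborFinset v).biUnion fun x => cone G v x n := by
    ext y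
    rw [mem_sphere_iff hT, Finset.mem_biUnion]
    constructor
    · intro h
      have hne : v ≠ y := by
        rintro rfl
        simp at h
      obtain ⟨c, hc, hd⟩ := exists_closer hT y hne
      refine ⟨c, by simpa using hc, (mem_cone hT hc).2 ⟨?_, h⟩⟩
      rw [dc G c y]
      rw [dc G y v] at hd
      omega
    · rintro ⟨x, hx, hy⟩
      have hvx : G.Adj v x := by simpa using hx
      exact ((mem_cone hT hvx).1 hy).2
  rw [hset, Finset.sum_biUnion]
  intro c hc c' hc' hne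
  have h1 : G.Adj v c := by simpa using hc
  have h2 : G.Adj v c' := by simpa using hc'
  rw [Function.onFun, Finset.disjoint_left]
  intro y hy hy'
  obtain ⟨h3, h4⟩ := (mem_cone hT h1).1 hy
  obtain ⟨h5, h6⟩ := (mem_cone hT h2).1 hy'
  apply hne
  refine closer_unique hT y h1 h2 ?_ ?_
  · rw [dc G y v, dc G y c]
    omega
  · rw [dc G y v, dc G y c']
    omega

/-- The term of radius `n+1` of the row sum is at most the tree-averaged path weight. -/
theorem sum_sphere_pathCov_le (hG : Tree G d) {θ : ℝ} {m : V → ℝ} (hm : ∀ v, |m v| ≤ 1) (v : V) (n : ℕ) :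
    ∑ y ∈ sphere G v (n + 1), pathCov θ m (geoTo G v y) (G.dist v y) ^ 2 ≤
      θ ^ 2 * ∑ x ∈ G.neighborFinset v,
        ((θ ^ 2 * ((d - 1 : ℕ) : ℝ)) ^ n * wTree G θ (d - 1) m n v x) := by
  classical
  have hT := hG.tree
  have hterm : ∀ y ∈ sphere G v (n + 1), pathCov θ m (geoTo G v y) (G.dist v y) ^ 2 ≤
      θ ^ (2 * (n + 1)) * uP θ m (geoTo G v y) 0 (n + 1) := by
    intro y hy
    have hd : G.dist v y = n + 1 := (mem_sphere_iff hT).1 hy
    rw [hd, pathCov_eq, mul_pow, slP_sq]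
    have h0 := (geoTo_spec hT v y).2.1
    rw [h0]
    have h1 : m v ^ 2 ≤ 1 := (sq_le_one_iff_abs_le_one _).2 (hm v)
    have h2 : 0 ≤ 1 - m v ^ 2 := by linarith
    have h3 : (1 - m v ^ 2) ^ 2 ≤ 1 := pow_le_one₀ h2 (by nlinarith [sq_nonneg (m v)])
    have h4 : 0 ≤ θ ^ (2 * (n + 1)) * uP θ m (geoTo G v y) 0 (n + 1) := by
      have e : 0 ≤ uP θ m (geoTo G v y) 0 (n + 1) := by
        unfold uP
        exact Finset.prod_nonneg fun j _ => sq_nonneg _
      have : 0 ≤ θ ^ (2 * (n + 1)) := by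
        rw [pow_mul]
        positivity
      exact mul_nonneg this e
    calc _ ≤ 1 * (θ ^ (2 * (n + 1)) * uP θ m (geoTo G v y) 0 (n + 1)) :=
          mul_le_mul_of_nonneg_right h3 h4
      _ = _ := one_mul _
  refine (Finset.sum_le_sum hterm).trans (le_of_eq ?_)
  rw [sum_sphere_succ hT, Finset.mul_sum]
  refine Finset.sum_congr rfl fun x hx => ?_
  have hvx : G.Adj v x := by simpa using hx
  rw [← Finset.mul_sum, sum_cone_uP hG θ m hvx n]
  rw [mul_pow]
  ring

end Tree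

/-! ### The row sum in `L^Q` -/

section RowLp

variable {V : Type*} [DecidableEq V] {G : SimpleGraph V} [G.LocallyFinite] {d : ℕ}
variable {Ω : Type*} [MeasurableSpace Ω] {μ : Measure Ω} [IsProbabilityMeasure μ]

theorem bm_wTree (hG : Tree G d) {θ : ℝ} (hu : UBd θ 1) {m : Ω → V → ℝ}
    (hmeas : ∀ v, Measurable fun ω => m ω v) (hbd : ∀ ω v, |m ω v| ≤ 1) (n : ℕ) {p x : V}
    (hpx : G.Adj p x) : BM fun ω => wTree G θ (d - 1) (m ω) n p x :=
  ⟨measurable_wTree_pa hmeas θ _ n p x, ⟨1, fun ω => by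
    obtain ⟨h1, h2⟩ := wTree_mem_pa hG hu (hbd ω) n hpx.symm
    rw [abs_of_nonneg h1]
    exact h2⟩⟩

theorem lpN_rowS_le (hG : Tree G d) {θ : ℝ} (h0 : 0 ≤ θ) (hu : UBd θ 1) {m : Ω → V → ℝ}
    (hmeas : ∀ v, Measurable fun ω => m ω v) (hbd : ∀ ω v, |m ω v| ≤ 1)
    (hη : θ ^ 2 * ((d - 1 : ℕ) : ℝ) < 1) (v : V) {Q : ℝ} (hQ : 1 ≤ Q) {w : ℕ → ℝ}
    (hw : ∀ n x, G.Adj v x →
      (θ ^ 2 * ((d - 1 : ℕ) : ℝ)) ^ n * lpN μ (fun ω => wTree G θ (d - 1) (m ω) n v x) Q ≤ w n)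
    {B : ℝ} (hB : ∀ N, ∑ n ∈ Finset.range N, w n ≤ B) :
    lpN μ (fun ω => rowS G θ (m ω) v) Q ≤ ((d : ℝ) + 1) + θ ^ 2 * ((d : ℝ) * B) := by
  have hQ0 : 0 < Q := by linarith
  have hdpos : (0 : ℝ) ≤ (d : ℝ) + 1 := by positivity
  have hη0 : 0 ≤ θ ^ 2 * ((d - 1 : ℕ) : ℝ) := by positivity
  set T : ℕ → Ω → ℝ := fun r ω => ∑ y ∈ sphere G v r, pathCov θ (m ω) (geoTo G v y) (G.dist v y) ^ 2
    with hT
  have hT0 : ∀ r ω, 0 ≤ T r ω := fun r ω => Finset.sum_nonneg fun y _ => sq_nonneg _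
  have hTm : ∀ r, Measurable (T r) := fun r =>
    Finset.measurable_sum _ fun y _ => (measurable_pathCov_pa hmeas θ _ _).pow_const 2
  have hTle : ∀ r ω, T r ω ≤ ((d : ℝ) + 1) * (θ ^ 2 * ((d - 1 : ℕ) : ℝ)) ^ r := fun r ω =>
    sum_sphere_le hG h0 le_rfl hu (hbd ω) v r
  have hTbm : ∀ r, BM (T r) := fun r => ⟨hTm r, ⟨((d : ℝ) + 1) * (θ ^ 2 * ((d - 1 : ℕ) : ℝ)) ^ r, fun ω => by
    rw [abs_of_nonneg (hT0 r ω)]
    exact hTle r ω⟩⟩
  -- partial sums
  set R : ℕ → Ω → ℝ := fun N ω => ∑ r ∈ Finset.range N, T r ω with hR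
  have hsummable : ∀ ω, Summable fun r => T r ω := fun ω =>
    summable_row hG h0 le_rfl hu (hbd ω) hη v
  have hRle : ∀ N ω, |R N ω| ≤ ((d : ℝ) + 1) * (1 - θ ^ 2 * ((d - 1 : ℕ) : ℝ))⁻¹ := by
    intro N ω
    rw [abs_of_nonneg (Finset.sum_nonneg fun r _ => hT0 r ω)]
    exact ((hsummable ω).sum_le_tsum _ fun r _ => hT0 r ω).trans
      (rowS_le hG h0 le_rfl hu (hbd ω) hη v)
  have hRm : ∀ N, Measurable (R N) := fun N => Finset.measurable_sum _ fun r _ => hTm r
  have hlim : Tendsto (fun N => lpN μ (R (N + 1)) Q) atTop (𝓝 (lpN μ (fun ω => rowS G θ (m ω) v) Q)) := by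
    have := tendsto_lpN (μ := μ) (f := R) (g := fun ω => rowS G θ (m ω) v) hRm hRle
      (fun ω => (hsummable ω).hasSum.tendsto_sum_nat) hQ0
    exact (tendsto_add_atTop_iff_nat 1).2 this
  refine le_of_tendsto' hlim fun N => ?_
  -- Minkowski
  have hsplit : R (N + 1) = fun ω => T 0 ω + ∑ n ∈ Finset.range N, T (n + 1) ω := by
    funext ω
    simp only [hR]
    rw [Finset.sum_range_succ', add_comm]
  rw [hsplit]
  refine (lpN_add_le (hTbm 0) (BM.finset_sum _ fun n _ => hTbm (n + 1)) hQ).trans ?_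
  refine add_le_add ?_ ?_
  · -- radius zero
    have h1 : lpN μ (T 0) Q ≤ lpN μ (fun _ : Ω => (d : ℝ) + 1) Q :=
      lpN_mono (BM.const _) (hT0 0) (fun ω => by simpa using hTle 0 ω) hQ0
    rwa [lpN_const_le hdpos hQ0] at h1
  · refine (lpN_sum_le _ (fun n _ => hTbm (n + 1)) hQ).trans ?_
    have hterm : ∀ n, lpN μ (T (n + 1)) Q ≤ θ ^ 2 * ((d : ℝ) * w n) := by
      intro n
      set W : V → Ω → ℝ := fun x ω =>
        (θ ^ 2 * ((d - 1 : ℕ) : ℝ)) ^ n * wTree G θ (d - 1) (m ω) n v x with hW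
      have hWbm : ∀ x ∈ G.neighborFinset v, BM (W x) := fun x hx =>
        (BM.const _).mul (bm_wTree hG hu hmeas hbd n (by simpa using hx))
      have h1 : lpN μ (T (n + 1)) Q ≤
          lpN μ (fun ω => θ ^ 2 * ∑ x ∈ G.neighborFinset v, W x ω) Q :=
        lpN_mono ((BM.const _).mul (BM.finset_sum _ hWbm)) (hT0 _)
          (fun ω => sum_sphere_pathCov_le hG (hbd ω) v n) hQ0
      refine h1.trans ?_
      rw [lpN_const_mul (sq_nonneg θ) hQ0]
      refine mul_le_mul_of_nonneg_left ?_ (sq_nonneg θ)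
      refine (lpN_sum_le _ hWbm hQ).trans ?_
      have h2 : ∀ x ∈ G.neighborFinset v, lpN μ (W x) Q ≤ w n := by
        intro x hx
        simp only [hW]
        rw [lpN_const_mul (pow_nonneg hη0 n) hQ0]
        exact hw n x (by simpa using hx)
      refine (Finset.sum_le_sum h2).trans (le_of_eq ?_)
      rw [Finset.sum_const, nsmul_eq_mul, card_neighborFinset_eq_degree, hG.reg v]
    refine (Finset.sum_le_sum fun n _ => hterm n).trans (le_of_eq_of_le ?_
      (mul_le_mul_of_nonneg_left (mul_le_mul_of_nonneg_left (hB N) (by positivity)) (sq_nonneg θ)))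
    rw [← Finset.mul_sum, ← Finset.mul_sum]

end RowLp

/-! ### The numerical series -/

section Series

lemma sum_min_geom {q : ℝ} (hq0 : 0 ≤ q) (hq1 : q < 1) (k : ℕ) :
    ∀ A : ℝ, 0 ≤ A → A * q ^ k ≤ 1 → ∀ N : ℕ,
      ∑ n ∈ Finset.range N, min 1 (A * q ^ n) ≤ (k : ℝ) + 1 / (1 - q) := by
  have hq2 : 0 < 1 - q := by linarith
  induction k with
  | zero =>
    intro A hA hA1 N
    simp only [pow_zero, mul_one] at hA1
    have h1 : ∀ n ∈ Finset.range N, min 1 (A * q ^ n) ≤ q ^ n := fun n _ =>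
      (min_le_right _ _).trans (by
        have := pow_nonneg hq0 n
        nlinarith)
    have h2 : ∑ n ∈ Finset.range N, q ^ n ≤ ∑' n, q ^ n :=
      (summable_geometric_of_lt_one hq0 hq1).sum_le_tsum _ fun n _ => pow_nonneg hq0 n
    rw [tsum_geometric_of_lt_one hq0 hq1] at h2
    simp only [Nat.cast_zero, zero_add, one_div]
    exact (Finset.sum_le_sum h1).trans h2
  | succ k ih =>
    intro A hA hA1 N
    cases N with
    | zero =>
      simp only [Finset.range_zero, Finset.sum_empty]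
      positivity
    | succ N =>
      rw [Finset.sum_range_succ']
      have h1 := ih (A * q) (mul_nonneg hA hq0) (by rw [pow_succ] at hA1; linarith [hA1, mul_assoc A q (q ^ k), mul_comm q (q ^ k)]) N
      have e : ∀ n, A * q * q ^ n = A * q ^ (n + 1) := fun n => by ring
      simp only [e] at h1
      have h2 : min 1 (A * q ^ 0) ≤ 1 := min_le_left _ _
      push_cast
      linarith

lemma min_one_add_le {a b : ℝ} (ha : 0 ≤ a) (hb : 0 ≤ b) : min 1 (a + b) ≤ min 1 a + min 1 b := by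
  rcases le_total 1 a with h | h
  · rw [min_eq_left h]
    have : 0 ≤ min 1 b := le_min zero_le_one hb
    linarith [min_le_left 1 (a + b)]
  · rw [min_eq_right h]
    rcases le_total 1 b with h' | h'
    · rw [min_eq_left h']
      linarith [min_le_left 1 (a + b)]
    · rw [min_eq_right h']
      exact min_le_right _ _

/-- The first series. -/
lemma sum_exp_le {c C τ : ℝ} (hc : 0 < c) (hτ : 0 < τ) (N : ℕ) :
    ∑ n ∈ Finset.range N, min 1 (C * Real.exp (-c * τ * n)) ≤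
      (Real.log (max C 1) + 1) / (c * τ) + 2 := by
  set x : ℝ := c * τ with hx
  have hx0 : 0 < x := mul_pos hc hτ
  set q : ℝ := Real.exp (-x) with hq
  have hq0 : 0 ≤ q := (Real.exp_pos _).le
  have hq1 : q < 1 := by
    rw [hq, Real.exp_lt_one_iff]
    linarith
  set A : ℝ := max C 1 with hA
  have hA1 : 1 ≤ A := le_max_right _ _
  have hA0 : 0 < A := by linarith
  have hlog : 0 ≤ Real.log A := Real.log_nonneg hA1
  set k : ℕ := ⌈Real.log A / x⌉₊ with hk
  have hk1 : Real.log A / x ≤ k := Nat.le_ceil _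
  have hk2 : (k : ℝ) < Real.log A / x + 1 := Nat.ceil_lt_add_one (div_nonneg hlog hx0.le)
  have hqk : A * q ^ k ≤ 1 := by
    have e : q ^ k = Real.exp (-(k * x)) := by
      rw [hq, ← Real.exp_nat_mul]
      congr 1
      ring
    rw [e]
    have e' : A * Real.exp (-(k * x)) = Real.exp (Real.log A + -(k * x)) := by
      rw [Real.exp_add, Real.exp_log hA0]
    rw [e']
    refine Real.exp_le_one_iff.2 ?_
    rw [div_le_iff₀ hx0] at hk1
    linarith
  have h1 := sum_min_geom hq0 hq1 k A hA0.le hqk N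
  have e1 : ∀ n : ℕ, Real.exp (-c * τ * n) = q ^ n := by
    intro n
    rw [hq, ← Real.exp_nat_mul]
    congr 1
    rw [hx]
    ring
  have h2 : ∑ n ∈ Finset.range N, min 1 (C * Real.exp (-c * τ * n)) ≤
      ∑ n ∈ Finset.range N, min 1 (A * q ^ n) := by
    refine Finset.sum_le_sum fun n _ => ?_
    rw [e1]
    exact min_le_min_left _ (mul_le_mul_of_nonneg_right (le_max_left _ _) (pow_nonneg hq0 n))
  have h3 : 1 / (1 - q) ≤ 1 + 1 / x := by
    have h4 : x + 1 ≤ Real.exp x := Real.add_one_le_exp x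
    have hex : 0 < Real.exp x := Real.exp_pos x
    have hqe : q = 1 / Real.exp x := by rw [hq, Real.exp_neg]; simp
    have h5 : 0 < 1 - q := by linarith
    rw [div_le_iff₀ h5]
    have h6 : (1 + 1 / x) * (1 - q) = (1 + x) / x * ((Real.exp x - 1) / Real.exp x) := by
      rw [hqe]
      field_simp
      ring
    rw [h6, div_mul_div_comm, le_div_iff₀ (by positivity)]
    nlinarith
  have e2 : (Real.log A + 1) / x = Real.log A / x + 1 / x := by ring
  rw [e2]
  linarith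

/-- The second series. -/
lemma sum_pow_le {D : ℝ} (hD : 2 ≤ D) {P : ℕ} (hP : 1 ≤ P) (N : ℕ) :
    ∑ n ∈ Finset.range N, min 1 ((P : ℝ) * D ^ (-(n : ℝ) / 2)) ≤ 4 * Real.log ((P : ℝ) + 1) + 5 := by
  have hD0 : 0 < D := by linarith
  have hP1 : (1 : ℝ) ≤ (P : ℝ) := by exact_mod_cast hP
  have hP0 : (0 : ℝ) < (P : ℝ) := by linarith
  set q : ℝ := 3 / 4 with hq
  have hlogP : 0 ≤ Real.log (P : ℝ) := Real.log_nonneg hP1
  set k : ℕ := ⌈4 * Real.log (P : ℝ)⌉₊ with hk
  have hk1 : 4 * Real.log (P : ℝ) ≤ k := Nat.le_ceil _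
  have hk2 : (k : ℝ) < 4 * Real.log (P : ℝ) + 1 := Nat.ceil_lt_add_one (by positivity)
  have hqk : (P : ℝ) * q ^ k ≤ 1 := by
    have hlq : Real.log q ≤ -(1 / 4) := by
      have := Real.log_le_sub_one_of_pos (show 0 < q by norm_num [hq])
      rw [hq] at this ⊢
      linarith
    have e : q ^ k = Real.exp (k * Real.log q) := by
      rw [Real.exp_nat_mul, Real.exp_log (by norm_num [hq])]
    rw [e]
    have e' : (P : ℝ) * Real.exp (k * Real.log q) = Real.exp (Real.log (P : ℝ) + k * Real.log q) := by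
      rw [Real.exp_add, Real.exp_log hP0]
    rw [e']
    refine Real.exp_le_one_iff.2 ?_
    have hk0 : (0 : ℝ) ≤ k := by positivity
    nlinarith
  have h1 := sum_min_geom (q := q) (by norm_num [hq]) (by norm_num [hq]) k P hP0.le hqk N
  have h2 : ∀ n : ℕ, D ^ (-(n : ℝ) / 2) ≤ q ^ n := by
    intro n
    have e : D ^ (-(n : ℝ) / 2) = (D ^ (-(1 / 2) : ℝ)) ^ n := by
      rw [← Real.rpow_natCast, ← Real.rpow_mul hD0.le]
      congr 1
      ring
    rw [e]
    refine pow_le_pow_left₀ (Real.rpow_nonneg hD0.le _) ?_ n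
    have h3 : (D ^ (-(1 / 2) : ℝ)) ^ 2 ≤ q ^ 2 := by
      rw [← Real.rpow_natCast, ← Real.rpow_mul hD0.le]
      have : (-(1 / 2) : ℝ) * ((2 : ℕ) : ℝ) = -1 := by norm_num
      rw [this, Real.rpow_neg_one, hq]
      have : D⁻¹ ≤ 2⁻¹ := inv_anti₀ (by norm_num) hD
      norm_num at this ⊢
      linarith
    exact (pow_le_pow_iff_left₀ (Real.rpow_nonneg hD0.le _) (by norm_num [hq]) (by norm_num)).1 h3
  have h4 : ∑ n ∈ Finset.range N, min 1 ((P : ℝ) * D ^ (-(n : ℝ) / 2)) ≤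
      ∑ n ∈ Finset.range N, min 1 ((P : ℝ) * q ^ n) :=
    Finset.sum_le_sum fun n _ => min_le_min_left _ (mul_le_mul_of_nonneg_left (h2 n) hP0.le)
  have h5 : 1 / (1 - q) = 4 := by norm_num [hq]
  rw [h5] at h1
  have h6 : Real.log (P : ℝ) ≤ Real.log ((P : ℝ) + 1) := Real.log_le_log hP0 (by linarith)
  linarith

/-- The whole series. -/
theorem sum_wN_le {c C τ D : ℝ} (hc : 0 < c) (hC : 0 < C) (hτ : 0 < τ) (hD : 2 ≤ D) {P : ℕ} (hP : 1 ≤ P)
    (N : ℕ) :
    ∑ n ∈ Finset.range N, min 1 (C * Real.exp (-c * τ * n) + (P : ℝ) * D ^ (-(n : ℝ) / 2)) ≤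
      (Real.log (max C 1) + 1) / (c * τ) + 7 + 4 * Real.log ((P : ℝ) + 1) := by
  have hD0 : 0 < D := by linarith
  have h1 : ∑ n ∈ Finset.range N, min 1 (C * Real.exp (-c * τ * n) + (P : ℝ) * D ^ (-(n : ℝ) / 2)) ≤
      ∑ n ∈ Finset.range N, min 1 (C * Real.exp (-c * τ * n)) +
        ∑ n ∈ Finset.range N, min 1 ((P : ℝ) * D ^ (-(n : ℝ) / 2)) := by
    rw [← Finset.sum_add_distrib]
    exact Finset.sum_le_sum fun n _ => min_one_add_le
      (mul_nonneg hC.le (Real.exp_pos _).le) (mul_nonneg (by positivity) (Real.rpow_nonneg hD0.le _))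
  have h2 := sum_exp_le (C := C) hc hτ N
  have h3 := sum_pow_le hD hP N
  linarith

end Series

end RowNorm

/-! ### The statement -/

section Main

variable {V : Type*} [DecidableEq V] {G : SimpleGraph V} [G.LocallyFinite] {d : ℕ}

open RowNorm in
/-- **`rowSum_norm` from `wTree_norm`.** -/
theorem rowSum_norm_of (hG : Tree G d) {ε τ₁ : ℝ} (hτ₁ : 1 ≤ τ₁) {c C : ℝ} (hc : 0 < c) (hC : 0 < C)
    (hm1 : ∀ θ, ThetaRange d θ → ∀ ω τ u, |mInf G θ (kap ε) ω τ u| ≤ 1)
    (hmeas : ∀ θ, ThetaRange d θ → ∀ τ u, Measurable fun ω => mInf G θ (kap ε) ω τ u)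
    (hlt : ∀ θ, ThetaRange d θ → θ < 1)
    (hw : ∀ θ, ThetaRange d θ → ∀ τ ∈ Ioc 0 τ₁, ∀ x p, G.Adj p x → ∀ (n P : ℕ), 1 ≤ P →
      (θ ^ 2 * ((d : ℝ) - 1)) ^ n *
          lpN (PP V) (fun ω => wTree G θ (d - 1) (fun u => mInf G θ (kap ε) ω τ u) n p x) P ≤
        min 1 (C * Real.exp (- c * τ * n) + P * ((d : ℝ) - 1) ^ (-(n : ℝ) / 2))) :
    ∃ C' : ℝ, 0 < C' ∧ ∀ θ, ThetaRange d θ → ∀ τ ∈ Ioc 0 τ₁, ∀ v, ∀ P : ℕ, 1 ≤ P →
      lpN (PP V) (fun ω => rowSum G θ (kap ε) ω τ v) P ≤ C' * (1 / τ + Real.log (P + 1)) := by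
  have hd3 : (3 : ℝ) ≤ (d : ℝ) := by exact_mod_cast hG.hd
  have hd1 : (((d - 1 : ℕ) : ℝ)) = (d : ℝ) - 1 := by
    rw [Nat.cast_sub (by have := hG.hd; omega)]
    simp
  have hτ₁0 : 0 < τ₁ := by linarith
  set L : ℝ := Real.log (max C 1) + 1 with hL
  have hL0 : 0 < L := by
    have := Real.log_nonneg (le_max_right C 1)
    linarith
  refine ⟨((d : ℝ) + 1 + 21 / 2) * τ₁ + 3 / 2 * (L / c) + 6, by positivity, ?_⟩
  intro θ hθ τ hτ v P hP
  have hτ0 : 0 < τ := hτ.1
  have hP1 : (1 : ℝ) ≤ (P : ℝ) := by exact_mod_cast hP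
  have h10 := hlt θ hθ
  have hu : UBd θ 1 := by
    intro a b ha hb
    have hn := abs_nuOf_le_one hθ.1 h10 ha hb
    have hn2 : nuOf θ a b ^ 2 ≤ 1 := (sq_le_one_iff_abs_le_one _).mpr hn
    have hθ2 : θ ^ 2 < 1 := by nlinarith [hθ.1]
    have hdpos : 0 < 1 - θ ^ 2 * nuOf θ a b ^ 2 := by
      have := sq_nonneg (nuOf θ a b)
      nlinarith
    unfold uOf uFun
    refine ⟨div_nonneg (by linarith) hdpos.le, ?_⟩
    rw [div_le_one hdpos]
    have := sq_nonneg (nuOf θ a b)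
    nlinarith
  have hη : θ ^ 2 * ((d - 1 : ℕ) : ℝ) < 1 := by
    rw [hd1]
    exact hθ.2.1
  have hB := sum_wN_le (D := (d : ℝ) - 1) hc hC hτ0 (by linarith) hP
  have hmain := lpN_rowS_le (μ := PP V) hG hθ.1 hu (m := fun ω u => mInf G θ (kap ε) ω τ u)
    (fun u => hmeas θ hθ τ u) (fun ω u => hm1 θ hθ ω τ u) hη v (Q := (P : ℝ)) hP1
    (w := fun n => min 1 (C * Real.exp (- c * τ * n) + P * ((d : ℝ) - 1) ^ (-(n : ℝ) / 2)))
    (fun n x hvx => by
      rw [hd1]
      exact hw θ hθ τ hτ x v hvx n P hP) hB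
  have hrow : (fun ω => rowSum G θ (kap ε) ω τ v) =
      fun ω => rowS G θ (fun u => mInf G θ (kap ε) ω τ u) v := rfl
  rw [hrow]
  refine hmain.trans ?_
  -- numerics
  set lg : ℝ := Real.log ((P : ℝ) + 1) with hlg
  have hlg0 : 0 ≤ lg := Real.log_nonneg (by linarith)
  set B : ℝ := L / (c * τ) + 7 + 4 * lg with hBdef
  have hB0 : 0 ≤ B := by positivity
  have hθd : θ ^ 2 * (d : ℝ) ≤ 3 / 2 := by
    have h1 := hθ.2.1
    have h2 : 0 ≤ θ ^ 2 := sq_nonneg θ
    nlinarith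
  have hone : 1 ≤ τ₁ * (1 / τ) := by
    have := hτ.2
    rw [mul_one_div, le_div_iff₀ hτ0]
    linarith
  have hinv : 0 < 1 / τ := by positivity
  have e1 : L / (c * τ) = L / c * (1 / τ) := by
    field_simp
  have hLc : 0 < L / c := by positivity
  have h3 : θ ^ 2 * ((d : ℝ) * B) ≤ 3 / 2 * B := by
    rw [← mul_assoc]
    exact mul_le_mul_of_nonneg_right hθd hB0
  have hdd : 0 ≤ (d : ℝ) + 1 + 21 / 2 := by positivity
  have h4 : (d : ℝ) + 1 + 21 / 2 ≤ ((d : ℝ) + 1 + 21 / 2) * τ₁ * (1 / τ) := by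
    calc (d : ℝ) + 1 + 21 / 2 = ((d : ℝ) + 1 + 21 / 2) * 1 := (mul_one _).symm
      _ ≤ ((d : ℝ) + 1 + 21 / 2) * (τ₁ * (1 / τ)) := mul_le_mul_of_nonneg_left hone hdd
      _ = _ := by ring
  have h5 : 0 ≤ ((d : ℝ) + 1 + 21 / 2) * τ₁ * lg := by positivity
  have h6 : 0 ≤ L / c * lg := by positivity
  have h7 : 0 ≤ 6 * (1 / τ) := by positivity
  rw [hBdef, e1] at h3
  nlinarith

end Main

end Crest.Agent.Lib.IsingFIID
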