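/-
Finite tree Gibbs measures: configurations, averages and covariances for weights on `ι → Bool`,
factorisation across a cut and the resulting covariance identities.
-/
import Crest.Agent.Lib.IsingFIID.Bethe

set_option autoImplicit false
set_option linter.unusedSectionVars false
set_option linter.unusedVariables false

namespace Crest.Agent.Lib.IsingFIID

open Finset

variable {ι : Type*} [Fintype ι] [DecidableEq ι]

/-- The real value of a Boolean spin. -/
noncomputable def sg (b : Bool) : ℝ := if b then 1 else -1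

@[simp] lemma sg_true : sg true = 1 := by simp [sg]
@[simp] lemma sg_false : sg false = -1 := by simp [sg]

lemma sg_mul_self (b : Bool) : sg b * sg b = 1 := by cases b <;> simp

lemma sg_sq (b : Bool) : sg b ^ 2 = 1 := by rw [sq, sg_mul_self]

lemma sg_abs (b : Bool) : |sg b| = 1 := by cases b <;> simp

/-- The spin at site `v`, as a function of the configuration. -/
noncomputable def spn (v : ι) (σ : ι → Bool) : ℝ := sg (σ v)

lemma spn_mul_self (v : ι) (σ : ι → Bool) : spn v σ * spn v σ = 1 := sg_mul_self _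

lemma sp_abs (v : ι) (σ : ι → Bool) : |spn v σ| = 1 := sg_abs _

/-- Average of `f` under the (unnormalised) weight `w`. -/
noncomputable def avg (w f : (ι → Bool) → ℝ) : ℝ := (∑ σ, w σ * f σ) / ∑ σ, w σ

/-- Covariance of `f,g` under the weight `w`. -/
noncomputable def cov (w f g : (ι → Bool) → ℝ) : ℝ :=
  avg w (fun σ => f σ * g σ) - avg w f * avg w g

lemma cov_comm (w f g : (ι → Bool) → ℝ) : cov w f g = cov w g f := by
  unfold cov; rw [mul_comm (avg w f)]; congr 2; funext σ; ring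

lemma avg_const {w : (ι → Bool) → ℝ} (hw : ∑ σ, w σ ≠ 0) (c : ℝ) : avg w (fun _ => c) = c := by
  unfold avg; rw [← Finset.sum_mul]; field_simp

lemma avg_one {w : (ι → Bool) → ℝ} (hw : ∑ σ, w σ ≠ 0) : avg w (fun _ => 1) = 1 := avg_const hw 1

lemma avg_add (w f g : (ι → Bool) → ℝ) :
    avg w (fun σ => f σ + g σ) = avg w f + avg w g := by
  unfold avg; rw [← add_div, ← Finset.sum_add_distrib]; congr 1
  exact Finset.sum_congr rfl fun σ _ => by ring

lemma avg_sub (w f g : (ι → Bool) → ℝ) :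
    avg w (fun σ => f σ - g σ) = avg w f - avg w g := by
  unfold avg; rw [← sub_div, ← Finset.sum_sub_distrib]; congr 1
  exact Finset.sum_congr rfl fun σ _ => by ring

lemma avg_smul (w f : (ι → Bool) → ℝ) (c : ℝ) :
    avg w (fun σ => c * f σ) = c * avg w f := by
  unfold avg; rw [← mul_div_assoc, Finset.mul_sum]; congr 1
  exact Finset.sum_congr rfl fun σ _ => by ring

lemma avg_congr {w w' f f' : (ι → Bool) → ℝ} (hw : ∀ σ, w σ = w' σ) (hf : ∀ σ, f σ = f' σ) :
    avg w f = avg w' f' := by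
  unfold avg; simp only [hw, hf]

/-- Rescaling the weight does not change averages. -/
lemma avg_weight_smul (w f : (ι → Bool) → ℝ) {c : ℝ} (hc : c ≠ 0) :
    avg (fun σ => c * w σ) f = avg w f := by
  unfold avg
  have h1 : ∑ σ, c * w σ * f σ = c * ∑ σ, w σ * f σ := by
    rw [Finset.mul_sum]; exact Finset.sum_congr rfl fun σ _ => by ring
  have h2 : ∑ σ, c * w σ = c * ∑ σ, w σ := by rw [Finset.mul_sum]
  rw [h1, h2, mul_div_mul_left _ _ hc]

lemma cov_weight_smul (w f g : (ι → Bool) → ℝ) {c : ℝ} (hc : c ≠ 0) :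
    cov (fun σ => c * w σ) f g = cov w f g := by
  unfold cov; simp only [avg_weight_smul _ _ hc]

/-- A nonnegative weight with positive mass gives averages bounded by a uniform bound. -/
lemma abs_avg_le {w f : (ι → Bool) → ℝ} (hw : ∀ σ, 0 ≤ w σ) (hw' : 0 < ∑ σ, w σ) {C : ℝ}
    (hf : ∀ σ, |f σ| ≤ C) : |avg w f| ≤ C := by
  unfold avg
  rw [abs_div, abs_of_pos hw', div_le_iff₀ hw']
  calc |∑ σ, w σ * f σ| ≤ ∑ σ, |w σ * f σ| := Finset.abs_sum_le_sum_abs _ _
    _ ≤ ∑ σ, C * w σ := Finset.sum_le_sum fun σ _ => by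
        rw [abs_mul, abs_of_nonneg (hw σ), mul_comm]
        exact mul_le_mul_of_nonneg_right (hf σ) (hw σ)
    _ = C * ∑ σ, w σ := by rw [Finset.mul_sum]

lemma abs_avg_sp_le {w : (ι → Bool) → ℝ} (hw : ∀ σ, 0 ≤ w σ) (hw' : 0 < ∑ σ, w σ) (v : ι) :
    |avg w (spn v)| ≤ 1 := abs_avg_le hw hw' fun σ => (sp_abs v σ).le

/-! ### Tilting -/

/-- Tilting the weight by `1 + x s_y`: the update rule `π⁺(f) = π(f) + Cov(f,s_y) x/(1+x m_y)`. -/
theorem avg_tilt {w : (ι → Bool) → ℝ} (hw : ∑ σ, w σ ≠ 0) (y : ι) {x : ℝ}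
    (hx : 1 + x * avg w (spn y) ≠ 0) (f : (ι → Bool) → ℝ) :
    avg (fun σ => w σ * (1 + x * spn y σ)) f =
      avg w f + cov w f (spn y) * (x / (1 + x * avg w (spn y))) := by
  have e1 : ∑ σ, w σ * (1 + x * spn y σ) = (∑ σ, w σ) * (1 + x * avg w (spn y)) := by
    unfold avg
    rw [mul_add, mul_one, mul_left_comm, mul_div_cancel₀ _ hw, Finset.mul_sum, ← Finset.sum_add_distrib]
    exact Finset.sum_congr rfl fun σ _ => by ring
  have e2 : ∑ σ, w σ * (1 + x * spn y σ) * f σ =
      (∑ σ, w σ) * (avg w f + x * avg w (fun σ => f σ * spn y σ)) := by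
    unfold avg
    rw [mul_add, mul_left_comm, mul_div_cancel₀ _ hw, mul_div_cancel₀ _ hw, Finset.mul_sum,
      ← Finset.sum_add_distrib]
    exact Finset.sum_congr rfl fun σ _ => by ring
  have hw2 : (∑ σ, w σ) * (1 + x * avg w (spn y)) ≠ 0 := mul_ne_zero hw hx
  have h0 : avg (fun σ => w σ * (1 + x * spn y σ)) f =
      (∑ σ, w σ * (1 + x * spn y σ) * f σ) / ∑ σ, w σ * (1 + x * spn y σ) := rfl
  rw [h0, e1, e2, mul_div_mul_left _ _ hw]
  unfold cov
  generalize avg w (spn y) = m at hx ⊢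
  generalize avg w f = a
  generalize avg w (fun σ => f σ * spn y σ) = b
  rw [div_eq_iff hx]
  have : (a + (b - a * m) * (x / (1 + x * m))) * (1 + x * m) =
      a * (1 + x * m) + (b - a * m) * ((x / (1 + x * m)) * (1 + x * m)) := by ring
  rw [this, div_mul_cancel₀ _ hx]
  ring

/-- The tilted mean, obtained from `avg_tilt`. -/
theorem avg_sp_tilt {w : (ι → Bool) → ℝ} (hw : ∑ σ, w σ ≠ 0) (y : ι) {x : ℝ}
    (hx : 1 + x * avg w (spn y) ≠ 0) :
    avg (fun σ => w σ * (1 + x * spn y σ)) (spn y) =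
      (avg w (spn y) + x) / (1 + x * avg w (spn y)) := by
  rw [avg_tilt hw y hx]
  have h1 : avg w (fun σ => spn y σ * spn y σ) = 1 := by
    simp only [spn_mul_self]; exact avg_one hw
  unfold cov
  rw [h1]
  generalize avg w (spn y) = m at hx ⊢
  rw [eq_div_iff hx]
  have : (m + (1 - m * m) * (x / (1 + x * m))) * (1 + x * m) =
      m * (1 + x * m) + (1 - m * m) * ((x / (1 + x * m)) * (1 + x * m)) := by ring
  rw [this, div_mul_cancel₀ _ hx]
  ring

/-! ### Functions depending on a set of coordinates -/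

/-- `f` depends only on the coordinates in `p`. -/
def DepOn (p : Finset ι) (f : (ι → Bool) → ℝ) : Prop :=
  ∀ σ τ : ι → Bool, (∀ i ∈ p, σ i = τ i) → f σ = f τ

lemma DepOn.mul {p : Finset ι} {f g : (ι → Bool) → ℝ} (hf : DepOn p f) (hg : DepOn p g) :
    DepOn p (fun σ => f σ * g σ) := fun σ τ h => by simp only [hf σ τ h, hg σ τ h]

lemma DepOn.const (p : Finset ι) (c : ℝ) : DepOn p (fun _ => c) := fun _ _ _ => rfl

lemma DepOn.mono {p q : Finset ι} {f : (ι → Bool) → ℝ} (hpq : p ⊆ q) (hf : DepOn p f) : DepOn q f :=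
  fun σ τ h => hf σ τ fun i hi => h i (hpq hi)

lemma depOn_sp {p : Finset ι} {v : ι} (hv : v ∈ p) : DepOn p (spn v) := fun σ τ h => by
  unfold spn; rw [h v hv]

/-- `merge p σ τ` uses `σ` on `p` and `τ` off `p`. -/
def merge (p : Finset ι) (σ τ : ι → Bool) : ι → Bool := fun i => if i ∈ p then σ i else τ i

lemma merge_involutive (p : Finset ι) :
    Function.Involutive (fun z : (ι → Bool) × (ι → Bool) => (merge p z.1 z.2, merge p z.2 z.1)) := by
  intro z
  ext i <;> by_cases h : i ∈ p <;> simp [merge, h]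

/-- Independence under the uniform measure of functions of complementary coordinates. -/
theorem sum_mul_sum (p : Finset ι) {F G : (ι → Bool) → ℝ} (hF : DepOn p F) (hG : DepOn pᶜ G) :
    (∑ σ, F σ) * (∑ σ, G σ) = (2 : ℝ) ^ Fintype.card ι * ∑ σ, F σ * G σ := by
  classical
  have h1 : (∑ σ, F σ) * (∑ σ, G σ) = ∑ z : (ι → Bool) × (ι → Bool), F z.1 * G z.2 := by
    rw [Finset.sum_mul_sum, ← Finset.univ_product_univ, Finset.sum_product]
  have h2 : (∑ z : (ι → Bool) × (ι → Bool), F z.1 * G z.1) =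
      ∑ z : (ι → Bool) × (ι → Bool), F z.1 * G z.2 := by
    rw [← Equiv.sum_comp (merge_involutive p).toPerm (fun z : (ι → Bool) × (ι → Bool) => F z.1 * G z.1)]
    refine Finset.sum_congr rfl fun z _ => ?_
    simp only [Function.Involutive.coe_toPerm]
    rw [hF (merge p z.1 z.2) z.1 (fun i hi => by simp [merge, hi]),
      hG (merge p z.1 z.2) z.2 (fun i hi => by
        have : i ∉ p := by simpa using hi
        simp [merge, this])]
  rw [h1, ← h2, ← Finset.univ_product_univ, Finset.sum_product]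
  simp only [Finset.sum_const, Finset.card_univ, Fintype.card_fun, Fintype.card_bool, nsmul_eq_mul]
  rw [Finset.mul_sum]
  simp

/-! ### The two-sided decomposition across a cut -/

/-- The data of a cut: positive weights `wp`, `wq` on complementary coordinate sets, and an
edge `x ∈ p`, `y ∉ p` of strength `θ ∈ [0,1)`. -/
structure Cut (θ : ℝ) (p : Finset ι) (x y : ι) (wp wq : (ι → Bool) → ℝ) : Prop where
  hx : x ∈ p
  hy : y ∉ p
  dp : DepOn p wp
  dq : DepOn pᶜ wq
  wp_pos : ∀ σ, 0 < wp σ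
  wq_pos : ∀ σ, 0 < wq σ
  θ0 : 0 ≤ θ
  θ1 : θ < 1

/-- The weight glued along the edge `xy`. -/
noncomputable def glue (θ : ℝ) (x y : ι) (wp wq : (ι → Bool) → ℝ) : (ι → Bool) → ℝ :=
  fun σ => wp σ * wq σ * (1 + θ * spn x σ * spn y σ)

lemma glue_comm (θ : ℝ) (x y : ι) (wp wq : (ι → Bool) → ℝ) :
    glue θ y x wq wp = glue θ x y wp wq := by
  funext σ; unfold glue; ring

lemma sum_pos_of_pos {w : (ι → Bool) → ℝ} (h : ∀ σ, 0 < w σ) : 0 < ∑ σ, w σ :=
  Finset.sum_pos (fun σ _ => h σ) Finset.univ_nonempty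

namespace Cut

variable {θ : ℝ} {p : Finset ι} {x y : ι} {wp wq : (ι → Bool) → ℝ}

lemma swap (c : Cut θ p x y wp wq) : Cut θ pᶜ y x wq wp where
  hx := by simpa using c.hy
  hy := by simpa using c.hx
  dp := c.dq
  dq := by rw [compl_compl]; exact c.dp
  wp_pos := c.wq_pos
  wq_pos := c.wp_pos
  θ0 := c.θ0
  θ1 := c.θ1

lemma sum_wp_pos (c : Cut θ p x y wp wq) : 0 < ∑ σ, wp σ := sum_pos_of_pos c.wp_pos
lemma sum_wq_pos (c : Cut θ p x y wp wq) : 0 < ∑ σ, wq σ := sum_pos_of_pos c.wq_pos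

lemma abs_nu_le (c : Cut θ p x y wp wq) : |avg wp (spn x)| ≤ 1 :=
  abs_avg_sp_le (fun σ => (c.wp_pos σ).le) c.sum_wp_pos x

lemma abs_nu'_le (c : Cut θ p x y wp wq) : |avg wq (spn y)| ≤ 1 :=
  abs_avg_sp_le (fun σ => (c.wq_pos σ).le) c.sum_wq_pos y

lemma D_pos (c : Cut θ p x y wp wq) : 0 < bD θ (avg wp (spn x)) (avg wq (spn y)) :=
  bD_pos c.θ0 c.θ1 c.abs_nu_le c.abs_nu'_le

/-- The core identity: the normalised sum of `glue * (f * g)`. -/
lemma core (c : Cut θ p x y wp wq) {f g : (ι → Bool) → ℝ} (hf : DepOn p f) (hg : DepOn pᶜ g) :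
    (2 : ℝ) ^ Fintype.card ι * ∑ σ, glue θ x y wp wq σ * (f σ * g σ) =
      (∑ σ, wp σ) * (∑ σ, wq σ) * (avg wp f * avg wq g +
        θ * avg wp (fun σ => f σ * spn x σ) * avg wq (fun σ => g σ * spn y σ)) := by
  have hA := c.sum_wp_pos.ne'
  have hB := c.sum_wq_pos.ne'
  have h1 := sum_mul_sum p (F := fun σ => wp σ * f σ) (G := fun σ => wq σ * g σ)
    (c.dp.mul hf) (c.dq.mul hg)
  have h2 := sum_mul_sum p (F := fun σ => wp σ * (f σ * spn x σ)) (G := fun σ => wq σ * (g σ * spn y σ))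
    (c.dp.mul (hf.mul (depOn_sp c.hx))) (c.dq.mul (hg.mul (depOn_sp (by simpa using c.hy))))
  have h3 : ∑ σ, glue θ x y wp wq σ * (f σ * g σ) =
      ∑ σ, wp σ * f σ * (wq σ * g σ) +
        θ * ∑ σ, wp σ * (f σ * spn x σ) * (wq σ * (g σ * spn y σ)) := by
    rw [Finset.mul_sum, ← Finset.sum_add_distrib]
    refine Finset.sum_congr rfl fun σ _ => ?_
    unfold glue; ring
  rw [h3, mul_add, mul_left_comm, ← h1, ← h2]
  unfold avg
  field_simp

/-- The general two-sided formula. -/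
theorem avg_glue (c : Cut θ p x y wp wq) {f g : (ι → Bool) → ℝ} (hf : DepOn p f)
    (hg : DepOn pᶜ g) :
    avg (glue θ x y wp wq) (fun σ => f σ * g σ) =
      (avg wp f * avg wq g +
        θ * avg wp (fun σ => f σ * spn x σ) * avg wq (fun σ => g σ * spn y σ)) /
        bD θ (avg wp (spn x)) (avg wq (spn y)) := by
  have hA := c.sum_wp_pos.ne'
  have hB := c.sum_wq_pos.ne'
  have hD := c.D_pos.ne'
  have hn : (2 : ℝ) ^ Fintype.card ι ≠ 0 := by positivity
  have h0 := c.core (f := fun _ => 1) (g := fun _ => 1) (DepOn.const _ 1) (DepOn.const _ 1)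
  have h1 := c.core hf hg
  simp only [mul_one, one_mul] at h0
  rw [avg_one hA, avg_one hB, one_mul] at h0
  have h0' : (2 : ℝ) ^ Fintype.card ι * ∑ σ, glue θ x y wp wq σ =
      (∑ σ, wp σ) * (∑ σ, wq σ) * bD θ (avg wp (spn x)) (avg wq (spn y)) := by
    rw [h0]; unfold bD
    have e1 : (fun σ => spn x σ) = spn x := rfl
    have e2 : (fun σ => spn y σ) = spn y := rfl
    rw [e1, e2]
  have hS : ∑ σ, glue θ x y wp wq σ ≠ 0 := by
    intro h; rw [h, mul_zero] at h0'
    exact (mul_ne_zero (mul_ne_zero hA hB) hD) h0'.symm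
  show (∑ σ, glue θ x y wp wq σ * (f σ * g σ)) / (∑ σ, glue θ x y wp wq σ) = _
  rw [div_eq_div_iff hS hD]
  refine mul_left_cancel₀ hn ?_
  calc (2 : ℝ) ^ Fintype.card ι * ((∑ σ, glue θ x y wp wq σ * (f σ * g σ)) *
        bD θ (avg wp (spn x)) (avg wq (spn y)))
      = ((2 : ℝ) ^ Fintype.card ι * ∑ σ, glue θ x y wp wq σ * (f σ * g σ)) *
        bD θ (avg wp (spn x)) (avg wq (spn y)) := by ring
    _ = _ := by rw [h1]
    _ = (avg wp f * avg wq g +
        θ * avg wp (fun σ => f σ * spn x σ) * avg wq (fun σ => g σ * spn y σ)) *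
          ((∑ σ, wp σ) * (∑ σ, wq σ) * bD θ (avg wp (spn x)) (avg wq (spn y))) := by ring
    _ = (avg wp f * avg wq g +
        θ * avg wp (fun σ => f σ * spn x σ) * avg wq (fun σ => g σ * spn y σ)) *
          ((2 : ℝ) ^ Fintype.card ι * ∑ σ, glue θ x y wp wq σ) := by rw [h0']
    _ = _ := by ring

lemma sum_glue_ne (c : Cut θ p x y wp wq) : ∑ σ, glue θ x y wp wq σ ≠ 0 := by
  have hA := c.sum_wp_pos.ne'
  have hB := c.sum_wq_pos.ne'
  have hD := c.D_pos.ne'
  have h0 := c.core (f := fun _ => 1) (g := fun _ => 1) (DepOn.const _ 1) (DepOn.const _ 1)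
  simp only [mul_one, one_mul] at h0
  rw [avg_one hA, avg_one hB, one_mul] at h0
  intro h
  rw [h, mul_zero] at h0
  have e1 : (fun σ => spn x σ) = spn x := rfl
  have e2 : (fun σ => spn y σ) = spn y := rfl
  rw [e1, e2] at h0
  exact (mul_ne_zero (mul_ne_zero hA hB) hD) (by unfold bD; rw [h0])

/-- Function of the `x`-side only. -/
theorem avg_left (c : Cut θ p x y wp wq) {f : (ι → Bool) → ℝ} (hf : DepOn p f) :
    avg (glue θ x y wp wq) f =
      (avg wp f + θ * avg wp (fun σ => f σ * spn x σ) * avg wq (spn y)) /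
        bD θ (avg wp (spn x)) (avg wq (spn y)) := by
  have h := c.avg_glue hf (DepOn.const _ 1)
  simp only [mul_one, one_mul] at h
  rw [avg_one c.sum_wq_pos.ne', mul_one] at h
  exact h

/-- Function of the `y`-side only. -/
theorem avg_right (c : Cut θ p x y wp wq) {g : (ι → Bool) → ℝ} (hg : DepOn pᶜ g) :
    avg (glue θ x y wp wq) g =
      (avg wq g + θ * avg wp (spn x) * avg wq (fun σ => g σ * spn y σ)) /
        bD θ (avg wp (spn x)) (avg wq (spn y)) := by
  have h := c.avg_glue (DepOn.const _ 1) hg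
  simp only [mul_one, one_mul] at h
  rw [avg_one c.sum_wp_pos.ne', one_mul] at h
  exact h

/-- Mean at `x`. -/
theorem mean_x (c : Cut θ p x y wp wq) :
    avg (glue θ x y wp wq) (spn x) = bm θ (avg wp (spn x)) (avg wq (spn y)) := by
  rw [c.avg_left (depOn_sp c.hx)]
  simp only [spn_mul_self]
  rw [avg_one c.sum_wp_pos.ne']
  unfold bm; ring

/-- Mean at `y`. -/
theorem mean_y (c : Cut θ p x y wp wq) :
    avg (glue θ x y wp wq) (spn y) = bm θ (avg wq (spn y)) (avg wp (spn x)) := by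
  rw [c.avg_right (depOn_sp (by simpa using c.hy))]
  simp only [spn_mul_self]
  rw [avg_one c.sum_wq_pos.ne', bD_symm]
  unfold bm; ring

/-- The edge correlation. -/
theorem corr (c : Cut θ p x y wp wq) :
    avg (glue θ x y wp wq) (fun σ => spn x σ * spn y σ) = bc θ (avg wp (spn x)) (avg wq (spn y)) := by
  rw [c.avg_glue (depOn_sp c.hx) (depOn_sp (by simpa using c.hy))]
  simp only [spn_mul_self]
  rw [avg_one c.sum_wp_pos.ne', avg_one c.sum_wq_pos.ne']
  unfold bc; ring

/-- Covariance of functions on opposite sides. -/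
theorem cov_two_sided (c : Cut θ p x y wp wq) {f g : (ι → Bool) → ℝ} (hf : DepOn p f)
    (hg : DepOn pᶜ g) :
    cov (glue θ x y wp wq) f g =
      θ * (avg wp (fun σ => f σ * spn x σ) - avg wp (spn x) * avg wp f) *
        (avg wq (fun σ => g σ * spn y σ) - avg wq (spn y) * avg wq g) /
          bD θ (avg wp (spn x)) (avg wq (spn y)) ^ 2 := by
  have hD := c.D_pos.ne'
  unfold cov
  rw [c.avg_glue hf hg, c.avg_left hf, c.avg_right hg]
  generalize avg wp (spn x) = ν at hD ⊢
  generalize avg wq (spn y) = ν' at hD ⊢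
  generalize avg wp f = a
  generalize avg wq g = b
  generalize avg wp (fun σ => f σ * spn x σ) = a'
  generalize avg wq (fun σ => g σ * spn y σ) = b'
  field_simp
  unfold bD
  ring

/-- Covariance with the spin at `x`, for a function of the `x`-side. -/
theorem cov_left_x (c : Cut θ p x y wp wq) {f : (ι → Bool) → ℝ} (hf : DepOn p f) :
    cov (glue θ x y wp wq) f (spn x) =
      (avg wp (fun σ => f σ * spn x σ) - avg wp (spn x) * avg wp f) *
        (1 - θ ^ 2 * avg wq (spn y) ^ 2) / bD θ (avg wp (spn x)) (avg wq (spn y)) ^ 2 := by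
  have hD := c.D_pos.ne'
  have hm := c.mean_x
  unfold cov
  rw [hm, c.avg_left hf, c.avg_left (hf.mul (depOn_sp c.hx))]
  have e : (fun σ => f σ * spn x σ * spn x σ) = f := by
    funext σ; rw [mul_assoc, spn_mul_self, mul_one]
  simp only [e]
  unfold bm
  generalize avg wp (spn x) = ν at hD ⊢
  generalize avg wq (spn y) = ν' at hD ⊢
  generalize avg wp f = a
  generalize avg wp (fun σ => f σ * spn x σ) = a'
  field_simp
  unfold bD
  ring

/-- Covariance with the spin at `y`, for a function of the `x`-side. -/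
theorem cov_left_y (c : Cut θ p x y wp wq) {f : (ι → Bool) → ℝ} (hf : DepOn p f) :
    cov (glue θ x y wp wq) f (spn y) =
      θ * (avg wp (fun σ => f σ * spn x σ) - avg wp (spn x) * avg wp f) *
        (1 - avg wq (spn y) ^ 2) / bD θ (avg wp (spn x)) (avg wq (spn y)) ^ 2 := by
  rw [c.cov_two_sided hf (depOn_sp (by simpa using c.hy))]
  simp only [spn_mul_self]
  rw [avg_one c.sum_wq_pos.ne']
  have : avg wq (spn y) * avg wq (spn y) = avg wq (spn y) ^ 2 := by ring
  rw [this]

/-- The propagation step: for `f` on the `x`-side, `Cov(f,s_y) = Cov(f,s_x) g(ν_{y→x})`. -/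
theorem cov_step (c : Cut θ p x y wp wq) {f : (ι → Bool) → ℝ} (hf : DepOn p f) :
    cov (glue θ x y wp wq) f (spn y) =
      cov (glue θ x y wp wq) f (spn x) * gg θ (avg wq (spn y)) := by
  have h := one_sub_theta_sq_pos c.θ0 c.θ1 c.abs_nu'_le
  rw [c.cov_left_x hf, c.cov_left_y hf]
  unfold gg
  have hD := c.D_pos.ne'
  field_simp

/-- `1 - m_x² = (1-ν²)(1-θ²ν'²)/D²`. -/
theorem one_sub_mean_sq (c : Cut θ p x y wp wq) :
    1 - avg (glue θ x y wp wq) (spn x) ^ 2 =
      (1 - avg wp (spn x) ^ 2) * (1 - θ ^ 2 * avg wq (spn y) ^ 2) /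
        bD θ (avg wp (spn x)) (avg wq (spn y)) ^ 2 := by
  rw [c.mean_x]
  have := one_sub_bm_sq (θ := θ) (t := avg wq (spn y)) (t' := avg wp (spn x))
    (by rw [bD_symm]; exact c.D_pos.ne')
  rw [bD_symm] at this
  exact this

/-- Variance of a spin under a normalised weight. -/
lemma cov_sp_self {w : (ι → Bool) → ℝ} (hw : ∑ σ, w σ ≠ 0) (v : ι) :
    cov w (spn v) (spn v) = 1 - avg w (spn v) ^ 2 := by
  unfold cov
  simp only [spn_mul_self]
  rw [avg_one hw]; ring

/-- The edge covariance `γ_xy`. -/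
theorem cov_edge (c : Cut θ p x y wp wq) :
    cov (glue θ x y wp wq) (spn x) (spn y) =
      θ * (1 - avg wp (spn x) ^ 2) * (1 - avg wq (spn y) ^ 2) /
        bD θ (avg wp (spn x)) (avg wq (spn y)) ^ 2 := by
  rw [c.cov_two_sided (depOn_sp c.hx) (depOn_sp (by simpa using c.hy))]
  simp only [spn_mul_self]
  rw [avg_one c.sum_wp_pos.ne', avg_one c.sum_wq_pos.ne']
  ring

/-- The key identity `Cov(f,g) K_x K_y = Cov(f,s_x) γ_xy Cov(s_y,g)` for `f` on the `x`-side and
`g` on the `y`-side. -/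
theorem cov_factor (c : Cut θ p x y wp wq) {f g : (ι → Bool) → ℝ} (hf : DepOn p f)
    (hg : DepOn pᶜ g) :
    cov (glue θ x y wp wq) f g * (1 - avg (glue θ x y wp wq) (spn x) ^ 2) *
        (1 - avg (glue θ x y wp wq) (spn y) ^ 2) =
      cov (glue θ x y wp wq) f (spn x) * cov (glue θ x y wp wq) (spn x) (spn y) *
        cov (glue θ x y wp wq) (spn y) g := by
  have c' := c.swap
  have hy : y ∈ pᶜ := by simpa using c.hy
  have e : glue θ y x wq wp = glue θ x y wp wq := glue_comm θ x y wp wq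
  have h1 : cov (glue θ x y wp wq) (spn y) g = cov (glue θ x y wp wq) g (spn y) := cov_comm _ _ _
  have h2 := c'.cov_left_x hg
  rw [e] at h2
  have h3 := c'.one_sub_mean_sq
  rw [e] at h3
  rw [h1, h2, h3, c.cov_two_sided hf hg, c.cov_left_x hf, c.one_sub_mean_sq, c.cov_edge, bD_symm]
  have hD := c.D_pos.ne'
  field_simp

/-- Nonnegativity of the glued weight. -/
lemma glue_pos (c : Cut θ p x y wp wq) (σ : ι → Bool) : 0 < glue θ x y wp wq σ := by
  unfold glue
  have h1 : |θ * spn x σ * spn y σ| = θ := by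
    rw [abs_mul, abs_mul, sp_abs, sp_abs, abs_of_nonneg c.θ0]; ring
  have h2 := (abs_le.mp h1.le).1
  have h3 : 0 < 1 + θ * spn x σ * spn y σ := by linarith [c.θ1]
  exact mul_pos (mul_pos (c.wp_pos σ) (c.wq_pos σ)) h3

end Cut

end Crest.Agent.Lib.IsingFIID
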