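/-
Tree Gibbs weights on a finite graph: products over edges inside a vertex set and tilts; sides of
an edge of a tree, factorisation across an edge, cavity means, the means and covariances in terms of
cavity means, the path-product formula for covariances, and the cavity recursion.
-/
import Crest.Agent.Lib.IsingFIID.TreeGibbs

set_option autoImplicit false
set_option linter.unusedSectionVars false
set_option linter.unusedVariables false

namespace Crest.Agent.Lib.IsingFIID

open Finset

variable {ι : Type*} [Fintype ι] [DecidableEq ι]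

/-- Edge factor `1 + θ s_u s_v`. -/
noncomputable def ef (θ : ℝ) (σ : ι → Bool) : Sym2 ι → ℝ :=
  Sym2.lift ⟨fun u v => 1 + θ * spn u σ * spn v σ, fun u v => by ring⟩

@[simp] lemma ef_mk (θ : ℝ) (σ : ι → Bool) (u v : ι) :
    ef θ σ s(u, v) = 1 + θ * spn u σ * spn v σ := rfl

variable (T : SimpleGraph ι)

open Classical in
/-- Edges of `T` with both endpoints in `p`. -/
noncomputable def edgesIn (p : Finset ι) : Finset (Sym2 ι) :=
  Finset.univ.filter (fun e => e ∈ T.edgeSet ∧ ∀ a ∈ e, a ∈ p)

lemma mem_edgesIn {p : Finset ι} {e : Sym2 ι} :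
    e ∈ edgesIn T p ↔ e ∈ T.edgeSet ∧ ∀ a ∈ e, a ∈ p := by
  simp [edgesIn]

lemma mk_mem_edgesIn {p : Finset ι} {a b : ι} :
    s(a, b) ∈ edgesIn T p ↔ T.Adj a b ∧ a ∈ p ∧ b ∈ p := by
  simp [mem_edgesIn]

/-- The Gibbs weight of the part of the system inside `p`, with tilts `l`. -/
noncomputable def wtOn (θ : ℝ) (l : ι → ℝ) (p : Finset ι) (σ : ι → Bool) : ℝ :=
  (∏ e ∈ edgesIn T p, ef θ σ e) * ∏ v ∈ p, (1 + l v * spn v σ)

/-- The full Gibbs weight. -/
noncomputable abbrev wt (θ : ℝ) (l : ι → ℝ) : (ι → Bool) → ℝ := wtOn T θ l Finset.univ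

variable {T} {θ : ℝ} {l : ι → ℝ}

/-- A tilted site factor is positive. -/
lemma site_pos (hl : ∀ v, |l v| < 1) (v : ι) (σ : ι → Bool) : 0 < 1 + l v * spn v σ := by
  have h1 : |l v * spn v σ| < 1 := by rw [abs_mul, sp_abs, mul_one]; exact hl v
  linarith [(abs_lt.mp h1).1]

lemma ef_pos (h0 : 0 ≤ θ) (h1 : θ < 1) (σ : ι → Bool) (e : Sym2 ι) : 0 < ef θ σ e := by
  induction e using Sym2.ind with
  | _ u v =>
    rw [ef_mk]
    have h2 : |θ * spn u σ * spn v σ| = θ := by
      rw [abs_mul, abs_mul, sp_abs, sp_abs, abs_of_nonneg h0]; ring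
    linarith [(abs_le.mp h2.le).1]

lemma wtOn_pos (h0 : 0 ≤ θ) (h1 : θ < 1) (hl : ∀ v, |l v| < 1) (p : Finset ι) (σ : ι → Bool) :
    0 < wtOn T θ l p σ :=
  mul_pos (Finset.prod_pos fun e _ => ef_pos h0 h1 σ e)
    (Finset.prod_pos fun v _ => site_pos hl v σ)

lemma wtOn_depOn (θ : ℝ) (l : ι → ℝ) (p : Finset ι) : DepOn p (wtOn T θ l p) := by
  intro σ τ h
  unfold wtOn
  congr 1
  · refine Finset.prod_congr rfl fun e he => ?_
    induction e using Sym2.ind with
    | _ u v =>
      rw [mk_mem_edgesIn] at he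
      rw [ef_mk, ef_mk]
      unfold spn
      rw [h u he.2.1, h v he.2.2]
  · refine Finset.prod_congr rfl fun v hv => ?_
    unfold spn
    rw [h v hv]

/-- Gluing two disjoint vertex sets joined by exactly one edge. -/
theorem wtOn_union {p q : Finset ι} (hpq : Disjoint p q) {x y : ι} (hx : x ∈ p) (hy : y ∈ q)
    (hxy : T.Adj x y) (hc : ∀ a ∈ p, ∀ b ∈ q, T.Adj a b → a = x ∧ b = y) (σ : ι → Bool) :
    wtOn T θ l (p ∪ q) σ = glue θ x y (wtOn T θ l p) (wtOn T θ l q) σ := by
  have hxq : x ∉ q := Finset.disjoint_left.mp hpq hx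
  have hyp : y ∉ p := Finset.disjoint_right.mp hpq hy
  have he : edgesIn T (p ∪ q) = edgesIn T p ∪ edgesIn T q ∪ {s(x, y)} := by
    ext e
    induction e using Sym2.ind with
    | _ a b =>
      simp only [mk_mem_edgesIn, Finset.mem_union, Finset.mem_singleton]
      constructor
      · rintro ⟨hab, ha | ha, hb | hb⟩
        · exact Or.inl (Or.inl ⟨hab, ha, hb⟩)
        · obtain ⟨rfl, rfl⟩ := hc a ha b hb hab
          exact Or.inr rfl
        · obtain ⟨rfl, rfl⟩ := hc b hb a ha hab.symm
          exact Or.inr Sym2.eq_swap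
        · exact Or.inl (Or.inr ⟨hab, ha, hb⟩)
      · rintro (⟨⟨hab, ha, hb⟩ | ⟨hab, ha, hb⟩⟩ | h)
        · exact ⟨hab, Or.inl ha, Or.inl hb⟩
        · exact ⟨hab, Or.inr ha, Or.inr hb⟩
        · rcases Sym2.eq_iff.mp h with ⟨rfl, rfl⟩ | ⟨rfl, rfl⟩
          · exact ⟨hxy, Or.inl hx, Or.inr hy⟩
          · exact ⟨hxy.symm, Or.inr hy, Or.inl hx⟩
  have hd1 : Disjoint (edgesIn T p) (edgesIn T q) := by
    rw [Finset.disjoint_left]
    intro e he1 he2
    induction e using Sym2.ind with
    | _ a b =>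
      rw [mk_mem_edgesIn] at he1 he2
      exact (Finset.disjoint_left.mp hpq) he1.2.1 he2.2.1
  have hd2 : Disjoint (edgesIn T p ∪ edgesIn T q) {s(x, y)} := by
    rw [Finset.disjoint_singleton_right, Finset.mem_union, not_or]
    constructor
    · rw [mk_mem_edgesIn]; exact fun h => hyp h.2.2
    · rw [mk_mem_edgesIn]; exact fun h => hxq h.2.1
  unfold wtOn glue
  rw [he, Finset.prod_union hd2, Finset.prod_union hd1, Finset.prod_singleton, ef_mk,
    Finset.prod_union hpq]
  ring

/-! ### Sides of an edge -/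

variable (T) in
open Classical in
/-- The vertices on the `x`-side of the edge `xy`. -/
noncomputable def side (x y : ι) : Finset ι :=
  Finset.univ.filter (fun w => (T.deleteEdges {s(x, y)}).Reachable x w)

lemma mem_side {x y w : ι} : w ∈ side T x y ↔ (T.deleteEdges {s(x, y)}).Reachable x w := by
  simp [side]

lemma self_mem_side (x y : ι) : x ∈ side T x y := mem_side.mpr (SimpleGraph.Reachable.refl x)

lemma not_mem_side (hT : T.IsAcyclic) {x y : ι} (h : T.Adj x y) : y ∉ side T x y := by
  intro hy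
  exact (SimpleGraph.isAcyclic_iff_forall_adj_isBridge.mp hT h) (mem_side.mp hy)

lemma side_step {x y a b : ι} (ha : a ∈ side T x y) (hab : T.Adj a b) (hne : s(a, b) ≠ s(x, y)) :
    b ∈ side T x y := by
  rw [mem_side] at ha ⊢
  refine ha.trans (SimpleGraph.Adj.reachable ?_)
  rw [SimpleGraph.deleteEdges_adj]
  exact ⟨hab, by simpa using hne⟩

lemma reachable_closed {G : SimpleGraph ι} {A : Set ι}
    (hA : ∀ a b, a ∈ A → G.Adj a b → b ∈ A) {u v : ι} (hu : u ∈ A) (h : G.Reachable u v) :
    v ∈ A := by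
  obtain ⟨p⟩ := h
  induction p with
  | nil => exact hu
  | cons hadj _ ih => exact ih (hA _ _ hu hadj)

lemma disjoint_sides (hT : T.IsAcyclic) {x y : ι} (h : T.Adj x y) :
    Disjoint (side T x y) (side T y x) := by
  rw [Finset.disjoint_left]
  intro w h1 h2
  rw [mem_side] at h1 h2
  rw [Sym2.eq_swap] at h2
  exact (SimpleGraph.isAcyclic_iff_forall_adj_isBridge.mp hT h) (h1.trans h2.symm)

lemma union_sides (hT : T.Connected) {x y : ι} (h : T.Adj x y) :
    side T x y ∪ side T y x = Finset.univ := by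
  rw [Finset.eq_univ_iff_forall]
  intro w
  rw [Finset.mem_union]
  have hcl : ∀ a b, a ∈ {w | w ∈ side T x y ∨ w ∈ side T y x} → T.Adj a b →
      b ∈ {w | w ∈ side T x y ∨ w ∈ side T y x} := by
    intro a b ha hab
    by_cases he : s(a, b) = s(x, y)
    · rcases Sym2.eq_iff.mp he with ⟨rfl, rfl⟩ | ⟨rfl, rfl⟩
      · exact Or.inr (self_mem_side _ _)
      · exact Or.inl (self_mem_side _ _)
    · rcases ha with ha | ha
      · exact Or.inl (side_step ha hab he)
      · exact Or.inr (side_step ha hab (by rwa [Sym2.eq_swap (a := y)]))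
  exact reachable_closed hcl (Or.inl (self_mem_side x y)) (hT.preconnected x w)

lemma compl_side (hT : T.IsTree) {x y : ι} (h : T.Adj x y) : (side T x y)ᶜ = side T y x := by
  have h1 := disjoint_sides hT.isAcyclic h
  have h2 := union_sides hT.connected h
  ext w
  rw [Finset.mem_compl]
  have := Finset.ext_iff.mp h2 w
  simp only [Finset.mem_union, Finset.mem_univ, iff_true] at this
  have h3 : w ∈ side T x y → w ∉ side T y x := fun hw => Finset.disjoint_left.mp h1 hw
  tauto

/-- Any edge between two sides is the cut edge. -/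
lemma cross_sides (hT : T.IsAcyclic) {x y : ι} (h : T.Adj x y) :
    ∀ a ∈ side T x y, ∀ b ∈ side T y x, T.Adj a b → a = x ∧ b = y := by
  intro a ha b hb hab
  by_cases he : s(a, b) = s(x, y)
  · rcases Sym2.eq_iff.mp he with ⟨rfl, rfl⟩ | ⟨rfl, rfl⟩
    · exact ⟨rfl, rfl⟩
    · exact absurd ha (not_mem_side hT h)
  · exact absurd hb (Finset.disjoint_left.mp (disjoint_sides hT h) (side_step ha hab he))

/-- Factorisation of the full weight across an edge of a tree. -/
theorem wt_eq_glue (hT : T.IsTree) {x y : ι} (h : T.Adj x y) :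
    wt T θ l = glue θ x y (wtOn T θ l (side T x y)) (wtOn T θ l (side T y x)) := by
  funext σ
  rw [← wtOn_union (disjoint_sides hT.isAcyclic h) (self_mem_side x y) (self_mem_side y x) h
    (cross_sides hT.isAcyclic h) σ, union_sides hT.connected h]

/-- The cut structure at an edge of a tree. -/
theorem cut_side (hT : T.IsTree) {x y : ι} (h : T.Adj x y) (h0 : 0 ≤ θ) (h1 : θ < 1)
    (hl : ∀ v, |l v| < 1) :
    Cut θ (side T x y) x y (wtOn T θ l (side T x y)) (wtOn T θ l (side T y x)) where
  hx := self_mem_side x y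
  hy := not_mem_side hT.isAcyclic h
  dp := wtOn_depOn θ l _
  dq := by rw [compl_side hT h]; exact wtOn_depOn θ l _
  wp_pos := wtOn_pos h0 h1 hl _
  wq_pos := wtOn_pos h0 h1 hl _
  θ0 := h0
  θ1 := h1

variable (T θ l) in
/-- Cavity mean: the mean of `s_x` under the Gibbs weight of the `x`-side of the edge `xy`. -/
noncomputable def nu (x y : ι) : ℝ := avg (wtOn T θ l (side T x y)) (spn x)

variable (T θ l) in
/-- The mean of `s_v` under the full weight. -/
noncomputable def mean (v : ι) : ℝ := avg (wt T θ l) (spn v)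

lemma abs_mean_le (h0 : 0 ≤ θ) (h1 : θ < 1) (hl : ∀ v, |l v| < 1) (v : ι) :
    |mean T θ l v| ≤ 1 :=
  abs_avg_sp_le (fun σ => (wtOn_pos h0 h1 hl _ σ).le) (sum_pos_of_pos (wtOn_pos h0 h1 hl _)) v

lemma abs_nu_le (h0 : 0 ≤ θ) (h1 : θ < 1) (hl : ∀ v, |l v| < 1) (x y : ι) :
    |nu T θ l x y| ≤ 1 :=
  abs_avg_sp_le (fun σ => (wtOn_pos h0 h1 hl _ σ).le) (sum_pos_of_pos (wtOn_pos h0 h1 hl _)) x

section edge

variable (hT : T.IsTree) {x y : ι} (h : T.Adj x y) (h0 : 0 ≤ θ) (h1 : θ < 1)
  (hl : ∀ v, |l v| < 1)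

include hT h h0 h1 hl

/-- The Bethe map: means in terms of cavity means. -/
theorem mean_eq_bm : mean T θ l x = bm θ (nu T θ l x y) (nu T θ l y x) := by
  unfold mean; rw [wt_eq_glue hT h]; exact (cut_side hT h h0 h1 hl).mean_x

/-- The inverse of the Bethe map: cavity means in terms of the means. -/
theorem nu_eq_binv : nu T θ l x y = binv θ (mean T θ l x) (mean T θ l y) := by
  rw [mean_eq_bm hT h h0 h1 hl, mean_eq_bm hT h.symm h0 h1 hl]
  exact (binv_bm h0 h1 (abs_nu_le h0 h1 hl _ _) (abs_nu_le h0 h1 hl _ _)).symm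

/-- The propagation of a covariance across the edge `xy`. -/
theorem cov_wt_step {f : (ι → Bool) → ℝ} (hf : DepOn (side T x y) f) :
    cov (wt T θ l) f (spn y) = cov (wt T θ l) f (spn x) * gg θ (nu T θ l y x) := by
  rw [wt_eq_glue hT h]; exact (cut_side hT h h0 h1 hl).cov_step hf

/-- The pair correlation at an edge. -/
theorem corr_eq_bc : avg (wt T θ l) (fun σ => spn x σ * spn y σ) =
    bc θ (nu T θ l x y) (nu T θ l y x) := by
  rw [wt_eq_glue hT h]; exact (cut_side hT h h0 h1 hl).corr

/-- The covariance at an edge, in terms of cavity means. -/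
theorem cov_edge_eq : cov (wt T θ l) (spn x) (spn y) =
    θ * (1 - nu T θ l x y ^ 2) * (1 - nu T θ l y x ^ 2) /
      bD θ (nu T θ l x y) (nu T θ l y x) ^ 2 := by
  rw [wt_eq_glue hT h]; exact (cut_side hT h h0 h1 hl).cov_edge

/-- The variance at `x`, in terms of cavity means. -/
theorem one_sub_mean_sq_eq : 1 - mean T θ l x ^ 2 =
    (1 - nu T θ l x y ^ 2) * (1 - θ ^ 2 * nu T θ l y x ^ 2) /
      bD θ (nu T θ l x y) (nu T θ l y x) ^ 2 := by
  unfold mean; rw [wt_eq_glue hT h]; exact (cut_side hT h h0 h1 hl).one_sub_mean_sq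

end edge

/-! ### Path products -/

/-- Product of the attenuation factors along a walk, as a function of the means `m`:
the walk `u = x₀, x₁, …, x_r = v` gives `∏ g θ (binv θ (m x_i) (m x_{i+1}))`. -/
noncomputable def pathProd (θ : ℝ) (m : ι → ℝ) : ∀ {u v : ι}, T.Walk u v → ℝ
  | _, _, .nil => 1
  | u, _, .cons (v := u') _ q => gg θ (binv θ (m u) (m u')) * pathProd θ m q

/-- **Path product formula**: for a path from `u` to `v` in a tree,
`Cov(s_v, s_u) = (1 - m_v²) ∏ g(ν_{x_i → x_{i+1}})`. -/
theorem cov_path (hT : T.IsTree) (h0 : 0 ≤ θ) (h1 : θ < 1) (hl : ∀ v, |l v| < 1) {u v : ι}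
    (p : T.Walk u v) (hp : p.IsPath) :
    cov (wt T θ l) (spn v) (spn u) = (1 - mean T θ l v ^ 2) * pathProd θ (mean T θ l) p := by
  induction p with
  | nil =>
    rw [Cut.cov_sp_self (sum_pos_of_pos (wtOn_pos h0 h1 hl _)).ne']
    simp [pathProd, mean]
  | @cons u u' v hadj q ih =>
    rw [SimpleGraph.Walk.cons_isPath_iff] at hp
    have hq : v ∈ side T u' u := by
      rw [mem_side]
      apply SimpleGraph.reachable_deleteEdges_iff_exists_walk.mpr
      refine ⟨q, fun he => hp.2 ?_⟩
      exact SimpleGraph.Walk.snd_mem_support_of_mem_edges q he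
    have hs := cov_wt_step hT hadj.symm h0 h1 hl (f := spn v) (depOn_sp hq)
    rw [hs, ih hp.1, nu_eq_binv hT hadj h0 h1 hl]
    simp only [pathProd]
    ring

/-! ### Elementary sums -/

/-- Flip the spin at `x`. -/
def flipAt (x : ι) (σ : ι → Bool) : ι → Bool := Function.update σ x (!σ x)

lemma flipAt_involutive (x : ι) : Function.Involutive (flipAt x : (ι → Bool) → (ι → Bool)) := by
  intro σ; funext i; by_cases h : i = x <;> simp [flipAt, h]

lemma sp_flipAt (x : ι) (σ : ι → Bool) : spn x (flipAt x σ) = - spn x σ := by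
  unfold spn flipAt; simp only [Function.update_self]; cases σ x <;> simp

/-- The uniform mean of a spin is zero. -/
lemma sum_sp (x : ι) : ∑ σ : ι → Bool, spn x σ = 0 := by
  have h := Equiv.sum_comp (flipAt_involutive x).toPerm (fun σ => spn x σ)
  simp only [Function.Involutive.coe_toPerm, sp_flipAt, Finset.sum_neg_distrib] at h
  linarith

lemma sum_one_cfg : ∑ _σ : ι → Bool, (1 : ℝ) = 2 ^ Fintype.card ι := by
  simp

/-- Strict bound for a spin under a positive weight. -/
lemma abs_avg_sp_lt {w : (ι → Bool) → ℝ} (hw : ∀ σ, 0 < w σ) (v : ι) : |avg w (spn v)| < 1 := by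
  have hS := sum_pos_of_pos hw
  unfold avg
  rw [abs_lt]
  constructor
  · rw [lt_div_iff₀ hS, neg_one_mul, ← Finset.sum_neg_distrib]
    refine Finset.sum_lt_sum (fun σ _ => ?_) ⟨fun _ => true, Finset.mem_univ _, ?_⟩
    · have h1 := (abs_le.mp (sp_abs v σ).le).1
      nlinarith [hw σ]
    · simp only [spn, sg_true, mul_one]; linarith [hw fun _ => true]
  · rw [div_lt_one hS]
    refine Finset.sum_lt_sum (fun σ _ => ?_) ⟨fun _ => false, Finset.mem_univ _, ?_⟩
    · have h1 := (abs_le.mp (sp_abs v σ).le).2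
      nlinarith [hw σ]
    · simp only [spn, sg_false]; linarith [hw fun _ => false]

/-! ### The cavity recursion -/

/-- The odds of a mean. -/
noncomputable def odds (t : ℝ) : ℝ := (1 + t) / (1 - t)

lemma odds_pos {t : ℝ} (ht : |t| < 1) : 0 < odds t := by
  have := abs_lt.mp ht
  exact div_pos (by linarith) (by linarith)

/-- The Bethe map multiplies odds. -/
lemma odds_bm {θ t t' : ℝ} (h0 : 0 ≤ θ) (h1 : θ < 1) (ht : |t| < 1) (ht' : |t'| ≤ 1) :
    odds (bm θ t t') = odds t * odds (θ * t') := by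
  have hD := bD_pos h0 h1 ht.le ht'
  have h2 := abs_lt.mp ht
  have h3 := abs_le.mp ht'
  have h4 : 0 < 1 - t := by linarith
  have h5 : 0 < 1 - θ * t' := by nlinarith
  have e1 : 1 + bm θ t t' = (1 + t) * (1 + θ * t') / bD θ t t' := by
    unfold bm; field_simp; unfold bD; ring
  have e2 : 1 - bm θ t t' = (1 - t) * (1 - θ * t') / bD θ t t' := by
    unfold bm; field_simp; unfold bD; ring
  unfold odds
  rw [e1, e2]
  field_simp

lemma disjoint_siblings (hT : T.IsAcyclic) {x c c' : ι} (hc : T.Adj c x) (hc' : T.Adj c' x)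
    (hne : c ≠ c') : Disjoint (side T c x) (side T c' x) := by
  rw [Finset.disjoint_left]
  intro w hw hw'
  have hx : x ∉ side T c x := not_mem_side hT hc
  have hx' : x ∉ side T c' x := not_mem_side hT hc'
  have hcl : ∀ a b, a ∈ {w | w ∈ side T c x ∧ w ∈ side T c' x} →
      (T.deleteEdges {s(c', x)}).Adj a b → b ∈ {w | w ∈ side T c x ∧ w ∈ side T c' x} := by
    intro a b ha hab
    rw [SimpleGraph.deleteEdges_adj] at hab
    have hb' : b ∈ side T c' x := side_step ha.2 hab.1 (by simpa using hab.2)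
    refine ⟨?_, hb'⟩
    by_cases he : s(a, b) = s(c, x)
    · rcases Sym2.eq_iff.mp he with ⟨rfl, rfl⟩ | ⟨rfl, rfl⟩
      · exact absurd hb' hx'
      · exact absurd ha.1 hx
    · exact side_step ha.1 hab.1 he
  have hr : (T.deleteEdges {s(c', x)}).Reachable w c' := (mem_side.mp hw').symm
  have hc'' := reachable_closed hcl ⟨hw, hw'⟩ hr
  refine hx (side_step hc''.1 hc' ?_)
  intro he
  rcases Sym2.eq_iff.mp he with ⟨h1, _⟩ | ⟨h1, h2⟩
  · exact hne h1.symm
  · exact hc.ne h2.symm

/-- `x` together with the branches at the neighbours `c ∈ N`. -/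
noncomputable def star (T : SimpleGraph ι) (x : ι) (N : Finset ι) : Finset ι :=
  {x} ∪ N.biUnion (fun c => side T c x)

lemma self_mem_star (x : ι) (N : Finset ι) : x ∈ star T x N := by simp [star]

lemma star_empty (x : ι) : star T x ∅ = {x} := by simp [star]

lemma star_insert (x c : ι) (N : Finset ι) :
    star T x (insert c N) = star T x N ∪ side T c x := by
  unfold star
  rw [Finset.biUnion_insert]
  ext w; simp only [Finset.mem_union]; tauto

lemma disjoint_star (hT : T.IsAcyclic) {x c : ι} {N : Finset ι} (hN : ∀ b ∈ N, T.Adj b x)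
    (hc : T.Adj c x) (hcN : c ∉ N) : Disjoint (star T x N) (side T c x) := by
  rw [Finset.disjoint_left]
  intro w hw hw'
  unfold star at hw
  simp only [Finset.mem_union, Finset.mem_singleton, Finset.mem_biUnion] at hw
  rcases hw with rfl | ⟨b, hb, hwb⟩
  · exact not_mem_side hT hc hw'
  · refine Finset.disjoint_left.mp (disjoint_siblings hT hc (hN b hb) ?_) hw' hwb
    rintro rfl; exact hcN hb

lemma cross_star (hT : T.IsAcyclic) {x c : ι} {N : Finset ι} (hN : ∀ b ∈ N, T.Adj b x)
    (hc : T.Adj c x) (hcN : c ∉ N) :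
    ∀ a ∈ star T x N, ∀ b ∈ side T c x, T.Adj a b → a = x ∧ b = c := by
  intro a ha b hb hab
  by_cases he : s(b, a) = s(c, x)
  · rcases Sym2.eq_iff.mp he with ⟨rfl, rfl⟩ | ⟨rfl, rfl⟩
    · exact ⟨rfl, rfl⟩
    · exact absurd hb (not_mem_side hT hc)
  · exact absurd (side_step hb hab.symm he)
      (Finset.disjoint_left.mp (disjoint_star hT hN hc hcN) ha)

/-- Cut structure for adding a branch. -/
lemma cut_star (hT : T.IsAcyclic) {x c : ι} {N : Finset ι} (hN : ∀ b ∈ N, T.Adj b x)
    (hc : T.Adj c x) (hcN : c ∉ N) (h0 : 0 ≤ θ) (h1 : θ < 1) (hl : ∀ v, |l v| < 1) :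
    Cut θ (star T x N) x c (wtOn T θ l (star T x N)) (wtOn T θ l (side T c x)) where
  hx := self_mem_star x N
  hy := fun h => Finset.disjoint_left.mp (disjoint_star hT hN hc hcN) h (self_mem_side c x)
  dp := wtOn_depOn θ l _
  dq := by
    refine DepOn.mono ?_ (wtOn_depOn θ l _)
    intro w hw
    rw [Finset.mem_compl]
    exact fun h => Finset.disjoint_left.mp (disjoint_star hT hN hc hcN) h hw
  wp_pos := wtOn_pos h0 h1 hl _
  wq_pos := wtOn_pos h0 h1 hl _
  θ0 := h0
  θ1 := h1

/-- The weight on a single vertex. -/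
lemma wtOn_singleton (x : ι) (σ : ι → Bool) : wtOn T θ l {x} σ = 1 + l x * spn x σ := by
  unfold wtOn
  have : edgesIn T {x} = ∅ := by
    rw [Finset.eq_empty_iff_forall_notMem]
    intro e
    induction e using Sym2.ind with
    | _ a b =>
      rw [mk_mem_edgesIn]
      rintro ⟨hab, ha, hb⟩
      rw [Finset.mem_singleton] at ha hb
      subst ha; subst hb
      exact T.irrefl hab
  rw [this]; simp

lemma avg_wtOn_singleton (x : ι) : avg (wtOn T θ l {x}) (spn x) = l x := by
  unfold avg
  simp only [wtOn_singleton]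
  have h1 : ∑ σ : ι → Bool, (1 + l x * spn x σ) = 2 ^ Fintype.card ι := by
    rw [Finset.sum_add_distrib, ← Finset.mul_sum, sum_sp, sum_one_cfg]; ring
  have h2 : ∑ σ : ι → Bool, (1 + l x * spn x σ) * spn x σ = l x * 2 ^ Fintype.card ι := by
    have : ∀ σ : ι → Bool, (1 + l x * spn x σ) * spn x σ = spn x σ + l x * 1 := by
      intro σ
      have := spn_mul_self x σ
      linear_combination (l x) * this
    simp only [this]
    rw [Finset.sum_add_distrib, sum_sp, ← Finset.mul_sum, sum_one_cfg]; ring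
  rw [h1, h2]
  field_simp

/-- **Cavity recursion along a growing star**. -/
theorem odds_star (hT : T.IsAcyclic) (h0 : 0 ≤ θ) (h1 : θ < 1) (hl : ∀ v, |l v| < 1) (x : ι)
    (N : Finset ι) (hN : ∀ b ∈ N, T.Adj b x) :
    odds (avg (wtOn T θ l (star T x N)) (spn x)) = odds (l x) * ∏ c ∈ N, odds (θ * nu T θ l c x) := by
  induction N using Finset.induction_on with
  | empty =>
    rw [star_empty, avg_wtOn_singleton]; simp
  | insert c N hcN ih =>
    have hN' : ∀ b ∈ N, T.Adj b x := fun b hb => hN b (Finset.mem_insert_of_mem hb)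
    have hc : T.Adj c x := hN c (Finset.mem_insert_self c N)
    have cut := cut_star hT hN' hc hcN h0 h1 hl
    have hw : wtOn T θ l (star T x (insert c N)) =
        glue θ x c (wtOn T θ l (star T x N)) (wtOn T θ l (side T c x)) := by
      funext σ
      rw [star_insert]
      exact wtOn_union (disjoint_star hT hN' hc hcN) (self_mem_star x N) (self_mem_side c x)
        hc.symm (cross_star hT hN' hc hcN) σ
    have hnu : |avg (wtOn T θ l (side T c x)) (spn c)| ≤ 1 := abs_nu_le h0 h1 hl c x
    rw [hw, cut.mean_x, odds_bm h0 h1 (abs_avg_sp_lt (wtOn_pos h0 h1 hl _) x) hnu, ih hN',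
      Finset.prod_insert hcN]
    simp only [nu]
    ring

/-- The branch at a neighbour `c ≠ y` lies inside the side of `x` at the edge `xy`. -/
lemma side_sub_side (hT : T.IsAcyclic) {x y c : ι} (hxy : T.Adj x y) (hc : T.Adj c x) (hcy : c ≠ y) :
    side T c x ⊆ side T x y := by
  intro w hw
  have hcl : ∀ a b, a ∈ {w | w ∈ side T c x ∧ w ∈ side T x y} →
      (T.deleteEdges {s(c, x)}).Adj a b → b ∈ {w | w ∈ side T c x ∧ w ∈ side T x y} := by
    intro a b ha hab
    rw [SimpleGraph.deleteEdges_adj] at hab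
    have hb' : b ∈ side T c x := side_step ha.1 hab.1 (by simpa using hab.2)
    refine ⟨hb', ?_⟩
    by_cases he : s(a, b) = s(x, y)
    · rcases Sym2.eq_iff.mp he with ⟨rfl, rfl⟩ | ⟨rfl, rfl⟩
      · exact absurd ha.1 (not_mem_side hT hc)
      · exact absurd ha.2 (not_mem_side hT hxy)
    · exact side_step ha.2 hab.1 he
  have hc0 : c ∈ {w | w ∈ side T c x ∧ w ∈ side T x y} := by
    refine ⟨self_mem_side c x, side_step (self_mem_side x y) hc.symm ?_⟩
    intro he
    rcases Sym2.eq_iff.mp he with ⟨_, h2⟩ | ⟨h1, h2⟩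
    · exact hcy h2
    · exact hc.ne h2
  exact (reachable_closed hcl hc0 (mem_side.mp hw)).2

open Classical in
/-- The other neighbours of `x`. -/
noncomputable def others (T : SimpleGraph ι) (x y : ι) : Finset ι :=
  Finset.univ.filter (fun c => T.Adj c x ∧ c ≠ y)

open Classical in
/-- All neighbours of `x`. -/
noncomputable def nbrs (T : SimpleGraph ι) (x : ι) : Finset ι :=
  Finset.univ.filter (fun c => T.Adj c x)

lemma mem_others {x y c : ι} : c ∈ others T x y ↔ T.Adj c x ∧ c ≠ y := by simp [others]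
lemma mem_nbrs {x c : ι} : c ∈ nbrs T x ↔ T.Adj c x := by simp [nbrs]

/-- The `x`-side of `xy` is the star of the other neighbours. -/
theorem star_others (hT : T.IsAcyclic) {x y : ι} (hxy : T.Adj x y) :
    star T x (others T x y) = side T x y := by
  apply Finset.Subset.antisymm
  · intro w hw
    unfold star at hw
    simp only [Finset.mem_union, Finset.mem_singleton, Finset.mem_biUnion] at hw
    rcases hw with rfl | ⟨c, hc, hwc⟩
    · exact self_mem_side _ _
    · rw [mem_others] at hc
      exact side_sub_side hT hxy hc.1 hc.2 hwc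
  · intro w hw
    have hcl : ∀ a b, a ∈ {w | w ∈ star T x (others T x y)} →
        (T.deleteEdges {s(x, y)}).Adj a b → b ∈ {w | w ∈ star T x (others T x y)} := by
      intro a b ha hab
      rw [SimpleGraph.deleteEdges_adj] at hab
      have ha' : a ∈ star T x (others T x y) := ha
      unfold star at ha'
      simp only [Finset.mem_union, Finset.mem_singleton, Finset.mem_biUnion] at ha'
      show b ∈ star T x (others T x y)
      unfold star
      simp only [Finset.mem_union, Finset.mem_singleton, Finset.mem_biUnion]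
      rcases ha' with rfl | ⟨c, hc, hac⟩
      · refine Or.inr ⟨b, mem_others.mpr ⟨hab.1.symm, ?_⟩, self_mem_side _ _⟩
        rintro rfl
        exact hab.2 (by simp)
      · rw [mem_others] at hc
        by_cases he : s(a, b) = s(c, x)
        · rcases Sym2.eq_iff.mp he with ⟨rfl, rfl⟩ | ⟨rfl, rfl⟩
          · exact Or.inl rfl
          · exact absurd hac (not_mem_side hT hc.1)
        · exact Or.inr ⟨c, mem_others.mpr hc, side_step hac hab.1 he⟩
    exact reachable_closed hcl (self_mem_star x _) (mem_side.mp hw)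

/-- **Cavity recursion** in a tree. -/
theorem odds_nu (hT : T.IsAcyclic) (h0 : 0 ≤ θ) (h1 : θ < 1) (hl : ∀ v, |l v| < 1) {x y : ι}
    (hxy : T.Adj x y) :
    odds (nu T θ l x y) = odds (l x) * ∏ c ∈ others T x y, odds (θ * nu T θ l c x) := by
  have := odds_star hT h0 h1 hl x (others T x y) (fun b hb => (mem_others.mp hb).1)
  rwa [star_others hT hxy] at this

/-- The star of all neighbours is the whole vertex set. -/
theorem star_nbrs (hT : T.IsTree) (x : ι) : star T x (nbrs T x) = Finset.univ := by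
  rw [Finset.eq_univ_iff_forall]
  intro w
  have hcl : ∀ a b, a ∈ {w | w ∈ star T x (nbrs T x)} →
      T.Adj a b → b ∈ {w | w ∈ star T x (nbrs T x)} := by
    intro a b ha hab
    have ha' : a ∈ star T x (nbrs T x) := ha
    unfold star at ha'
    simp only [Finset.mem_union, Finset.mem_singleton, Finset.mem_biUnion] at ha'
    show b ∈ star T x (nbrs T x)
    unfold star
    simp only [Finset.mem_union, Finset.mem_singleton, Finset.mem_biUnion]
    rcases ha' with rfl | ⟨c, hc, hac⟩
    · exact Or.inr ⟨b, mem_nbrs.mpr hab.symm, self_mem_side _ _⟩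
    · rw [mem_nbrs] at hc
      by_cases he : s(a, b) = s(c, x)
      · rcases Sym2.eq_iff.mp he with ⟨rfl, rfl⟩ | ⟨rfl, rfl⟩
        · exact Or.inl rfl
        · exact absurd hac (not_mem_side hT.isAcyclic hc)
      · exact Or.inr ⟨c, mem_nbrs.mpr hc, side_step hac hab he⟩
  exact reachable_closed hcl (self_mem_star x _) (hT.connected.preconnected x w)

/-- **Posterior odds**: the full mean is a product of odds over all incoming messages. -/
theorem odds_mean (hT : T.IsTree) (h0 : 0 ≤ θ) (h1 : θ < 1) (hl : ∀ v, |l v| < 1) (x : ι) :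
    odds (mean T θ l x) = odds (l x) * ∏ c ∈ nbrs T x, odds (θ * nu T θ l c x) := by
  have := odds_star hT.isAcyclic h0 h1 hl x (nbrs T x) (fun b hb => mem_nbrs.mp hb)
  rwa [star_nbrs hT] at this

/-! ### Tilt composition -/

/-- Composition of a tilt at `y`. -/
theorem wt_update_tilt (l : ι → ℝ) (θ : ℝ) (y : ι) {x : ℝ} (hx : 1 + l y * x ≠ 0) (σ : ι → Bool) :
    (1 + l y * x) * wt T θ (Function.update l y ((l y + x) / (1 + l y * x))) σ =
      wt T θ l σ * (1 + x * spn y σ) := by
  unfold wt wtOn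
  have h := Finset.mul_prod_erase Finset.univ (fun v => 1 + l v * spn v σ) (Finset.mem_univ y)
  have h' := Finset.mul_prod_erase Finset.univ
    (fun v => 1 + Function.update l y ((l y + x) / (1 + l y * x)) v * spn v σ) (Finset.mem_univ y)
  have he : ∏ v ∈ Finset.univ.erase y,
      (1 + Function.update l y ((l y + x) / (1 + l y * x)) v * spn v σ) =
      ∏ v ∈ Finset.univ.erase y, (1 + l v * spn v σ) := by
    refine Finset.prod_congr rfl fun v hv => ?_
    rw [Function.update_of_ne (Finset.ne_of_mem_erase hv)]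
  rw [← h, ← h', he]
  simp only [Function.update_self]
  have hs := spn_mul_self y σ
  have : (1 + l y * x) * (1 + (l y + x) / (1 + l y * x) * spn y σ) =
      (1 + l y * spn y σ) * (1 + x * spn y σ) := by
    field_simp
    linear_combination (-(l y * x)) * hs
  calc _ = (∏ e ∈ edgesIn T Finset.univ, ef θ σ e) *
        ((1 + l y * x) * (1 + (l y + x) / (1 + l y * x) * spn y σ)) *
        ∏ v ∈ Finset.univ.erase y, (1 + l v * spn v σ) := by ring
    _ = _ := by rw [this]; ring

/-- Bounds for a composed tilt. -/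
lemma abs_tilt_lt {a x : ℝ} (ha : |a| < 1) (hx : |x| < 1) : |(a + x) / (1 + a * x)| < 1 := by
  have h1 := abs_lt.mp ha
  have h2 := abs_lt.mp hx
  have hD : 0 < 1 + a * x := by nlinarith
  rw [abs_div, abs_of_pos hD, div_lt_one hD, abs_lt]
  constructor <;> nlinarith

section update

variable (hT : T.IsTree) (h0 : 0 ≤ θ) (h1 : θ < 1) (hl : ∀ v, |l v| < 1)

include h0 h1 hl

/-- **Ring update for means.** -/
theorem avg_update_tilt (y : ι) {x : ℝ} (hx : |x| < 1) (f : (ι → Bool) → ℝ) :
    avg (wt T θ (Function.update l y ((l y + x) / (1 + l y * x)))) f =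
      avg (wt T θ l) f + cov (wt T θ l) f (spn y) * (x / (1 + x * mean T θ l y)) := by
  have hS := (sum_pos_of_pos (wtOn_pos (T := T) (θ := θ) (l := l) h0 h1 hl Finset.univ)).ne'
  have hm := abs_le.mp (abs_mean_le (T := T) h0 h1 hl y)
  have hxx := abs_lt.mp hx
  have hD : 1 + x * mean T θ l y ≠ 0 := by
    have h3 : |x * mean T θ l y| < 1 := by
      rw [abs_mul]
      exact lt_of_le_of_lt (mul_le_of_le_one_right (abs_nonneg x) (abs_mean_le h0 h1 hl y)) hx
    have : 0 < 1 + x * mean T θ l y := by linarith [(abs_lt.mp h3).1]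
    exact this.ne'
  have hly := abs_lt.mp (hl y)
  have hD2 : (1 + l y * x) ≠ 0 := by
    have : 0 < 1 + l y * x := by nlinarith
    exact this.ne'
  have e : wt T θ (Function.update l y ((l y + x) / (1 + l y * x))) =
      fun σ => (1 + l y * x)⁻¹ * (wt T θ l σ * (1 + x * spn y σ)) := by
    funext σ
    rw [← wt_update_tilt l θ y hD2 σ]
    field_simp
  rw [e, avg_weight_smul _ _ (inv_ne_zero hD2)]
  exact avg_tilt hS y hD f

end update

/-! ### The free measure: marginals on connected sets -/

/-- Flip all spins. -/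
def flipAll (σ : ι → Bool) : ι → Bool := fun i => !σ i

lemma flipAll_involutive : Function.Involutive (flipAll : (ι → Bool) → (ι → Bool)) := by
  intro σ; funext i; simp [flipAll]

lemma sp_flipAll (x : ι) (σ : ι → Bool) : spn x (flipAll σ) = - spn x σ := by
  unfold spn flipAll; cases σ x <;> simp

lemma wtOn_free_flipAll (θ : ℝ) (p : Finset ι) (σ : ι → Bool) :
    wtOn T θ 0 p (flipAll σ) = wtOn T θ 0 p σ := by
  unfold wtOn
  simp only [Pi.zero_apply, zero_mul]
  congr 1
  refine Finset.prod_congr rfl fun e _ => ?_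
  induction e using Sym2.ind with
  | _ u v => rw [ef_mk, ef_mk, sp_flipAll, sp_flipAll]; ring

/-- All means under a flip-symmetric weight vanish. -/
lemma avg_sp_free (θ : ℝ) (p : Finset ι) (x : ι) : avg (wtOn T θ 0 p) (spn x) = 0 := by
  unfold avg
  have h := Equiv.sum_comp (flipAll_involutive (ι := ι)).toPerm (fun σ => wtOn T θ 0 p σ * spn x σ)
  simp only [Function.Involutive.coe_toPerm, wtOn_free_flipAll, sp_flipAll] at h
  have h2 : ∑ σ, wtOn T θ 0 p σ * spn x σ = 0 := by
    have : ∑ σ, wtOn T θ 0 p σ * -spn x σ = - ∑ σ, wtOn T θ 0 p σ * spn x σ := by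
      rw [← Finset.sum_neg_distrib]; exact Finset.sum_congr rfl fun σ _ => by ring
    linarith
  rw [h2, zero_div]

lemma nu_free (θ : ℝ) (x y : ι) : nu T θ 0 x y = 0 := avg_sp_free θ _ x
lemma mean_free (θ : ℝ) (x : ι) : mean T θ 0 x = 0 := avg_sp_free θ _ x

/-- Indicator that `σ` equals `η` on `S`. -/
noncomputable def ind (S : Finset ι) (η σ : ι → Bool) : ℝ := if ∀ v ∈ S, σ v = η v then 1 else 0

lemma ind_empty (η σ : ι → Bool) : ind ∅ η σ = 1 := by simp [ind]

lemma ind_insert (c : ι) (S : Finset ι) (η σ : ι → Bool) :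
    ind (insert c S) η σ = ind S η σ * ((1 + sg (η c) * spn c σ) / 2) := by
  unfold ind spn
  simp only [Finset.forall_mem_insert]
  by_cases h : σ c = η c
  · by_cases h' : ∀ v ∈ S, σ v = η v
    · rw [if_pos ⟨h, h'⟩, if_pos h', h, sg_mul_self]; norm_num
    · rw [if_neg (fun k => h' k.2), if_neg h']; ring
  · have : sg (η c) * sg (σ c) = -1 := by
      cases hc : σ c <;> cases hc' : η c <;> simp_all
    rw [if_neg (fun k => h k.1), this]; norm_num

lemma ind_mul_sp {S : Finset ι} {x : ι} (hx : x ∈ S) (η σ : ι → Bool) :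
    ind S η σ * spn x σ = ind S η σ * sg (η x) := by
  unfold ind spn
  by_cases h : ∀ v ∈ S, σ v = η v
  · rw [if_pos h, one_mul, one_mul, h x hx]
  · rw [if_neg h]; ring

lemma depOn_ind (S : Finset ι) (η : ι → Bool) : DepOn S (ind S η) := by
  intro σ τ h
  unfold ind
  have : (∀ v ∈ S, σ v = η v) ↔ (∀ v ∈ S, τ v = η v) := by
    constructor
    · intro h' v hv; rw [← h v hv]; exact h' v hv
    · intro h' v hv; rw [h v hv]; exact h' v hv
  simp only [this]

section free

variable (hT : T.IsTree) (h0 : 0 ≤ θ) (h1 : θ < 1)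

include hT h0 h1

/-- The Markov property of the free measure across an edge. -/
theorem free_markov {x c : ι} (hxc : T.Adj x c) {f : (ι → Bool) → ℝ} (hf : DepOn (side T x c) f) :
    avg (wt T θ 0) (fun σ => f σ * spn c σ) = θ * avg (wt T θ 0) (fun σ => f σ * spn x σ) := by
  have hl : ∀ v : ι, |(0 : ι → ℝ) v| < 1 := fun v => by simp
  have cut := cut_side hT hxc h0 h1 hl
  have hq : DepOn (side T x c)ᶜ (spn c) := depOn_sp (by
    rw [compl_side hT hxc]; exact self_mem_side c x)
  rw [wt_eq_glue hT hxc, cut.avg_glue hf hq, cut.avg_left (hf.mul (depOn_sp (self_mem_side x c)))]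
  have e : (fun σ => f σ * spn x σ * spn x σ) = f := by
    funext σ; rw [mul_assoc, spn_mul_self, mul_one]
  simp only [e, spn_mul_self, avg_sp_free, bD]
  rw [avg_one cut.sum_wq_pos.ne']
  simp

end free

/-- A connected finite set with at least two elements has a vertex whose removal keeps it
connected. -/
lemma exists_erase_connected {S : Finset ι} (hS : (T.induce (S : Set ι)).Connected)
    (h2 : 1 < S.card) : ∃ v ∈ S, (T.induce ((S.erase v : Finset ι) : Set ι)).Connected := by
  have : Nontrivial (S : Set ι) := by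
    obtain ⟨a, ha, b, hb, hab⟩ := Finset.one_lt_card.mp h2
    exact ⟨⟨a, ha⟩, ⟨b, hb⟩, fun h => hab (congrArg Subtype.val h)⟩
  obtain ⟨v, hv⟩ := hS.exists_connected_induce_compl_singleton_of_finite_nontrivial
  refine ⟨v.1, v.2, ?_⟩
  let f : ((T.induce (S : Set ι)).induce {v}ᶜ) →g T.induce ((S.erase v.1 : Finset ι) : Set ι) :=
    { toFun := fun a => ⟨a.1.1, by
        have h3 : a.1 ≠ v := a.2
        have h4 : a.1.1 ≠ v.1 := fun h => h3 (Subtype.ext h)
        simp only [Finset.coe_erase, Set.mem_sdiff, Finset.mem_coe, Set.mem_singleton_iff]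
        exact ⟨a.1.2, h4⟩⟩
      map_rel' := fun {a b} hab => hab }
  have hsurj : Function.Surjective f := by
    rintro ⟨a, ha⟩
    simp only [Finset.coe_erase, Set.mem_sdiff, Finset.mem_coe, Set.mem_singleton_iff] at ha
    refine ⟨⟨⟨a, ha.1⟩, fun h => ha.2 (congrArg Subtype.val h)⟩, rfl⟩
  have : Nonempty (((S.erase v.1 : Finset ι) : Set ι)) := by
    obtain ⟨a⟩ := hv.nonempty
    exact ⟨f a⟩
  refine (SimpleGraph.connected_iff _).mpr ⟨fun a b => ?_, inferInstance⟩
  obtain ⟨a', rfl⟩ := hsurj a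
  obtain ⟨b', rfl⟩ := hsurj b
  exact (hv.preconnected a' b').map f

/-- A neighbour of the removed vertex. -/
lemma exists_adj_erase {S : Finset ι} (hS : (T.induce (S : Set ι)).Connected) {v : ι} (hv : v ∈ S)
    (h2 : 1 < S.card) : ∃ x ∈ S.erase v, T.Adj x v := by
  by_contra hno
  push Not at hno
  obtain ⟨u, hu, huv⟩ := Finset.exists_mem_ne h2 v
  have hcl : ∀ a b : (S : Set ι), a ∈ {a : (S : Set ι) | a.1 ≠ v} →
      (T.induce (S : Set ι)).Adj a b → b ∈ {a : (S : Set ι) | a.1 ≠ v} := by
    intro a b ha hab hb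
    refine hno a.1 (Finset.mem_erase.mpr ⟨ha, a.2⟩) ?_
    rw [← hb]; exact hab
  have := reachable_closed (ι := (S : Set ι)) hcl (u := ⟨u, hu⟩) (v := ⟨v, hv⟩) huv
    (hS.preconnected _ _)
  exact this rfl

/-- A connected set not containing `c`, containing `x`, lies in the `x`-side of `xc`. -/
lemma connected_sub_side {S : Finset ι} (hS : (T.induce (S : Set ι)).Connected) {x c : ι}
    (hx : x ∈ S) (hc : c ∉ S) : S ⊆ side T x c := by
  intro w hw
  rw [mem_side]
  let f : T.induce (S : Set ι) →g T.deleteEdges {s(x, c)} :=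
    { toFun := fun a => a.1
      map_rel' := fun {a b} hab => by
        rw [SimpleGraph.deleteEdges_adj]
        refine ⟨hab, ?_⟩
        simp only [Set.mem_singleton_iff]
        intro he
        rcases Sym2.eq_iff.mp he with ⟨_, h2⟩ | ⟨h1, _⟩
        · exact hc (h2 ▸ b.2)
        · exact hc (h1 ▸ a.2) }
  exact (hS.preconnected ⟨x, hx⟩ ⟨w, hw⟩).map f

/-- Edges inside `S ∪ {c}`, `c` attached to `S` at `x`. -/
lemma edgesIn_insert (hT : T.IsAcyclic) {S : Finset ι} {x c : ι} (hxc : T.Adj x c)
    (hx : x ∈ S) (hc : c ∉ S) (hS : S ⊆ side T x c) :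
    edgesIn T (insert c S) = insert s(x, c) (edgesIn T S) := by
  ext e
  induction e using Sym2.ind with
  | _ a b =>
    simp only [mk_mem_edgesIn, Finset.mem_insert]
    have key : ∀ a' ∈ S, T.Adj a' c → a' = x := by
      intro a' ha' had
      by_contra hne
      refine not_mem_side hT hxc (side_step (hS ha') had ?_)
      intro he
      rcases Sym2.eq_iff.mp he with ⟨h1, _⟩ | ⟨h1, h2⟩
      · exact hne h1
      · exact hxc.ne h2.symm
    constructor
    · rintro ⟨hab, ha | ha, hb | hb⟩
      · subst ha; subst hb; exact absurd hab (T.irrefl)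
      · subst ha
        left
        rw [key b hb hab.symm]; exact Sym2.eq_swap
      · subst hb
        left
        rw [key a ha hab]
      · exact Or.inr ⟨hab, ha, hb⟩
    · rintro (h | ⟨hab, ha, hb⟩)
      · rcases Sym2.eq_iff.mp h with ⟨rfl, rfl⟩ | ⟨rfl, rfl⟩
        · exact ⟨hxc, Or.inr hx, Or.inl rfl⟩
        · exact ⟨hxc.symm, Or.inl rfl, Or.inr hx⟩
      · exact ⟨hab, Or.inr ha, Or.inr hb⟩

/-- **Marginal of the free measure on a connected set.** -/
theorem avg_ind_free (hT : T.IsTree) (h0 : 0 ≤ θ) (h1 : θ < 1) (η : ι → Bool) :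
    ∀ (n : ℕ) (S : Finset ι), S.card = n → (T.induce (S : Set ι)).Connected →
      avg (wt T θ 0) (ind S η) = (1 / 2) * ∏ e ∈ edgesIn T S, (ef θ η e / 2) := by
  have hS0 := (sum_pos_of_pos (wtOn_pos (T := T) (θ := θ) (l := 0) h0 h1
    (fun v => by simp) Finset.univ)).ne'
  intro n
  induction n with
  | zero =>
    intro S hS hc
    have := hc.nonempty
    rw [Finset.card_eq_zero] at hS
    subst hS
    simp at this
  | succ n ih =>
    intro S hS hc
    by_cases hn : n = 0
    · subst hn
      rw [zero_add, Finset.card_eq_one] at hS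
      obtain ⟨x, rfl⟩ := hS
      have e1 : ind {x} η = fun σ : ι → Bool => (1 / 2 : ℝ) + (sg (η x) / 2) * spn x σ := by
        funext σ
        have : ({x} : Finset ι) = insert x ∅ := by simp
        rw [this, ind_insert, ind_empty]; ring
      have e2 : edgesIn T {x} = ∅ := by
        rw [Finset.eq_empty_iff_forall_notMem]
        intro e
        induction e using Sym2.ind with
        | _ a b =>
          rw [mk_mem_edgesIn]
          rintro ⟨hab, ha, hb⟩
          rw [Finset.mem_singleton] at ha hb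
          subst ha; subst hb
          exact T.irrefl hab
      rw [e1, e2, Finset.prod_empty, avg_add, avg_const hS0, avg_smul]
      have := mean_free (T := T) θ x
      unfold mean at this
      rw [this]; ring
    · have hcard : 1 < S.card := by omega
      obtain ⟨c, hcS, hcc⟩ := exists_erase_connected hc hcard
      obtain ⟨x, hxS, hxc⟩ := exists_adj_erase hc hcS hcard
      have hcS' : c ∉ S.erase c := Finset.notMem_erase c S
      have hins : S = insert c (S.erase c) := (Finset.insert_erase hcS).symm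
      have hsub := connected_sub_side hcc hxS hcS'
      have hdep : DepOn (side T x c) (ind (S.erase c) η) := (depOn_ind _ _).mono hsub
      have hm := free_markov hT h0 h1 hxc hdep
      rw [hins, edgesIn_insert hT.isAcyclic hxc hxS hcS' hsub,
        Finset.prod_insert (by
          rw [mk_mem_edgesIn]; exact fun h => hcS' h.2.2)]
      have hi := ih (S.erase c) (by rw [Finset.card_erase_of_mem hcS]; omega) hcc
      have e1 : ind (insert c (S.erase c)) η = fun σ =>
          (1 / 2 : ℝ) * ind (S.erase c) η σ +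
            (sg (η c) / 2) * (ind (S.erase c) η σ * spn c σ) := by
        funext σ; rw [ind_insert]; ring
      have e2 : (fun σ => ind (S.erase c) η σ * spn x σ) =
          fun σ => sg (η x) * ind (S.erase c) η σ := by
        funext σ; rw [ind_mul_sp hxS]; ring
      rw [e1, avg_add, avg_smul, avg_smul, hm, e2, avg_smul, hi, ef_mk]
      unfold spn
      ring

end Crest.Agent.Lib.IsingFIID
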