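/-
Row 160 (S0241): the true model on a finite tree window, as a density on the tilts.
`P(G) = ∫ G(ω) Z(tilt ω) dΠ(ω)`, `Π` a product law, tilts `L(ω v)`, `L` odd under a measure preserving
map `ρ`; `Z` the normalised partition function of the tilted Gibbs weight.  Cut formula, marginal
consistency, independence of even functions across an edge.
-/
import Crest.Agent.Lib.IsingFIID.TreeCut
import Crest.Agent.Lib.IsingFIID.Hoeffding

set_option autoImplicit false
set_option linter.unusedSectionVars false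
set_option linter.unusedVariables false

namespace Crest.Agent.Lib.IsingFIID

open MeasureTheory Finset

universe u w

variable {ι : Type u} [Fintype ι] [DecidableEq ι]

/-! ### The normalised partition function -/

section ZZdef

variable (T : SimpleGraph ι) (θ : ℝ)

/-- Normalised partition function of the part `p`. -/
noncomputable def ZZ (p : Finset ι) (l : ι → ℝ) : ℝ :=
  (∑ σ, wtOn T θ l p σ) / 2 ^ Fintype.card ι

variable {T θ}

lemma ZZ_pos (h0 : 0 ≤ θ) (h1 : θ < 1) {l : ι → ℝ} (hl : ∀ v, |l v| < 1) (p : Finset ι) :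
    0 < ZZ T θ p l :=
  div_pos (sum_pos_of_pos (wtOn_pos h0 h1 hl p)) (by positivity)

/-- Dependence of the weight on the tilts. -/
lemma wtOn_congr {p : Finset ι} {l l' : ι → ℝ} (h : ∀ v ∈ p, l v = l' v) (σ : ι → Bool) :
    wtOn T θ l p σ = wtOn T θ l' p σ := by
  unfold wtOn
  congr 1
  exact Finset.prod_congr rfl fun v hv => by rw [h v hv]

lemma ZZ_congr {p : Finset ι} {l l' : ι → ℝ} (h : ∀ v ∈ p, l v = l' v) :
    ZZ T θ p l = ZZ T θ p l' := by
  unfold ZZ
  congr 1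
  exact Finset.sum_congr rfl fun σ _ => wtOn_congr h σ

/-- The mean of a spin under the part `p`. -/
noncomputable def mp (T : SimpleGraph ι) (θ : ℝ) (p : Finset ι) (x : ι) (l : ι → ℝ) : ℝ :=
  avg (wtOn T θ l p) (spn x)

lemma mp_congr {p : Finset ι} {x : ι} {l l' : ι → ℝ} (h : ∀ v ∈ p, l v = l' v) :
    mp T θ p x l = mp T θ p x l' := by
  unfold mp avg
  congr 1
  · exact Finset.sum_congr rfl fun σ _ => by rw [wtOn_congr h σ]
  · exact Finset.sum_congr rfl fun σ _ => wtOn_congr h σ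

lemma abs_mp_le (h0 : 0 ≤ θ) (h1 : θ < 1) {l : ι → ℝ} (hl : ∀ v, |l v| < 1) (p : Finset ι) (x : ι) :
    |mp T θ p x l| ≤ 1 :=
  abs_avg_sp_le (fun σ => (wtOn_pos h0 h1 hl _ σ).le) (sum_pos_of_pos (wtOn_pos h0 h1 hl _)) x

lemma abs_mp_lt (h0 : 0 ≤ θ) (h1 : θ < 1) {l : ι → ℝ} (hl : ∀ v, |l v| < 1) (p : Finset ι) (x : ι) :
    |mp T θ p x l| < 1 :=
  abs_avg_sp_lt (wtOn_pos h0 h1 hl _) x

/-- Flip: the weight is invariant under flipping spins and tilts. -/
lemma wtOn_neg (l : ι → ℝ) (p : Finset ι) (σ : ι → Bool) :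
    wtOn T θ (fun v => - l v) p (flipAll σ) = wtOn T θ l p σ := by
  unfold wtOn
  congr 1
  · refine Finset.prod_congr rfl fun e _ => ?_
    induction e using Sym2.ind with
    | _ u v => rw [ef_mk, ef_mk, sp_flipAll, sp_flipAll]; ring
  · refine Finset.prod_congr rfl fun v _ => ?_
    rw [sp_flipAll]; ring

lemma ZZ_neg (l : ι → ℝ) (p : Finset ι) : ZZ T θ p (fun v => - l v) = ZZ T θ p l := by
  unfold ZZ
  congr 1
  rw [← Equiv.sum_comp (flipAll_involutive (ι := ι)).toPerm (fun σ => wtOn T θ (fun v => - l v) p σ)]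
  exact Finset.sum_congr rfl fun σ _ => wtOn_neg l p σ

lemma mp_neg (l : ι → ℝ) (p : Finset ι) (x : ι) :
    mp T θ p x (fun v => - l v) = - mp T θ p x l := by
  unfold mp avg
  have h1 : ∑ σ, wtOn T θ (fun v => - l v) p σ = ∑ σ, wtOn T θ l p σ := by
    rw [← Equiv.sum_comp (flipAll_involutive (ι := ι)).toPerm (fun σ => wtOn T θ (fun v => - l v) p σ)]
    exact Finset.sum_congr rfl fun σ _ => wtOn_neg l p σ
  have h2 : ∑ σ, wtOn T θ (fun v => - l v) p σ * spn x σ = - ∑ σ, wtOn T θ l p σ * spn x σ := by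
    rw [← Equiv.sum_comp (flipAll_involutive (ι := ι)).toPerm
      (fun σ => wtOn T θ (fun v => - l v) p σ * spn x σ), ← Finset.sum_neg_distrib]
    refine Finset.sum_congr rfl fun σ _ => ?_
    simp only [Function.Involutive.coe_toPerm]
    rw [wtOn_neg l p σ, sp_flipAll]
    ring
  rw [h1, h2, neg_div]

/-- The cut formula for partition functions. -/
lemma ZZ_glue {p q : Finset ι} {x y : ι} {l : ι → ℝ}
    (c : Cut θ p x y (wtOn T θ l p) (wtOn T θ l q)) (hpq : ∀ σ, wtOn T θ l (p ∪ q) σ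
      = glue θ x y (wtOn T θ l p) (wtOn T θ l q) σ) :
    ZZ T θ (p ∪ q) l = ZZ T θ p l * ZZ T θ q l * bD θ (mp T θ p x l) (mp T θ q y l) := by
  have h := c.core (f := fun _ => 1) (g := fun _ => 1) (DepOn.const _ 1) (DepOn.const _ 1)
  have hA := c.sum_wp_pos.ne'
  have hB := c.sum_wq_pos.ne'
  simp only [mul_one, one_mul] at h
  rw [avg_one hA, avg_one hB, one_mul] at h
  have e1 : (fun σ => spn x σ) = spn x := rfl
  have e2 : (fun σ => spn y σ) = spn y := rfl
  rw [e1, e2] at h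
  have hn : (2 : ℝ) ^ Fintype.card ι ≠ 0 := by positivity
  unfold ZZ mp bD
  simp_rw [hpq]
  field_simp
  linear_combination h

/-- The cut formula at an edge of a tree. -/
theorem ZZ_side (hT : T.IsTree) {x y : ι} (h : T.Adj x y) (h0 : 0 ≤ θ) (h1 : θ < 1)
    {l : ι → ℝ} (hl : ∀ v, |l v| < 1) :
    ZZ T θ univ l = ZZ T θ (side T x y) l * ZZ T θ (side T y x) l *
      bD θ (nu T θ l x y) (nu T θ l y x) := by
  have h2 := ZZ_glue (cut_side hT h h0 h1 hl) (q := side T y x) (fun σ =>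
    wtOn_union (disjoint_sides hT.isAcyclic h) (self_mem_side x y) (self_mem_side y x) h
      (cross_sides hT.isAcyclic h) σ)
  rwa [union_sides hT.connected h] at h2

/-- The partition function of a star, with the free tilts. -/
theorem ZZ_star_free (hT : T.IsAcyclic) (h0 : 0 ≤ θ) (h1 : θ < 1) :
    ∀ (n : ℕ) (x : ι) (N : Finset ι), (star T x N).card ≤ n → (∀ b ∈ N, T.Adj b x) →
      ZZ T θ (star T x N) 0 = 1 := by
  intro n
  induction n with
  | zero =>
    intro x N hc _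
    have := self_mem_star (T := T) x N
    have h2 : (star T x N).card = 0 := by omega
    rw [Finset.card_eq_zero] at h2
    rw [h2] at this
    simp at this
  | succ n ih =>
    intro x N hcard hN
    induction N using Finset.induction_on with
    | empty =>
      rw [star_empty]
      unfold ZZ
      have : ∀ σ : ι → Bool, wtOn T θ 0 {x} σ = 1 := by
        intro σ
        rw [wtOn_singleton]
        simp
      simp only [this]
      rw [sum_one_cfg]
      field_simp
    | insert c N hcN ihN =>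
      have hN' : ∀ b ∈ N, T.Adj b x := fun b hb => hN b (Finset.mem_insert_of_mem hb)
      have hc : T.Adj c x := hN c (Finset.mem_insert_self c N)
      have hl0 : ∀ v : ι, |(0 : ι → ℝ) v| < 1 := fun v => by simp
      have cut := cut_star hT hN' hc hcN h0 h1 hl0
      have hw : ∀ σ, wtOn T θ 0 (star T x N ∪ side T c x) σ =
          glue θ x c (wtOn T θ 0 (star T x N)) (wtOn T θ 0 (side T c x)) σ := fun σ =>
        wtOn_union (disjoint_star hT hN' hc hcN) (self_mem_star x N) (self_mem_side c x)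
          hc.symm (cross_star hT hN' hc hcN) σ
      rw [star_insert] at hcard ⊢
      have h3 := ZZ_glue cut hw
      rw [h3]
      have hd := Finset.card_union_of_disjoint (disjoint_star hT hN' hc hcN)
      have h4 : (star T x N).card ≤ n + 1 := by omega
      have h5 : 1 ≤ (star T x N).card := Finset.card_pos.2 ⟨x, self_mem_star x N⟩
      have h6 : (side T c x).card ≤ n := by omega
      have h7 : ZZ T θ (side T c x) 0 = 1 := by
        have h8 := star_others hT hc
        rw [← h8]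
        refine ih c _ ?_ (fun b hb => (mem_others.mp hb).1)
        rw [h8]
        exact h6
      rw [ihN h4 hN', h7]
      have h9 : mp T θ (star T x N) x 0 = 0 := by
        unfold mp
        exact avg_sp_free θ _ x
      simp [h9, bD]

/-- The free partition function of a side is one. -/
theorem ZZ_side_free (hT : T.IsAcyclic) (h0 : 0 ≤ θ) (h1 : θ < 1) {x y : ι} (h : T.Adj x y) :
    ZZ T θ (side T x y) 0 = 1 := by
  rw [← star_others hT h]
  exact ZZ_star_free hT h0 h1 _ x _ le_rfl (fun b hb => (mem_others.mp hb).1)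

/-- The free partition function of the whole tree is one. -/
theorem ZZ_univ_free (hT : T.IsTree) (h0 : 0 ≤ θ) (h1 : θ < 1) : ZZ T θ univ (0 : ι → ℝ) = 1 := by
  obtain ⟨x⟩ := hT.connected.nonempty
  rw [← star_nbrs hT x]
  exact ZZ_star_free hT.isAcyclic h0 h1 _ x _ le_rfl (fun b hb => mem_nbrs.mp hb)

end ZZdef

/-! ### The tilt system -/

variable {X : Type w} [MeasurableSpace X]

/-- The single-site randomness: a tilt, bounded away from `±1`, odd under a measure preserving map. -/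
structure TiltSys (ν : Measure X) where
  L : X → ℝ
  c : ℝ
  meas : Measurable L
  c_lt : c < 1
  bd : ∀ a, |L a| ≤ c
  ρ : X → X
  ρ_mp : MeasurePreserving ρ ν ν
  L_ρ : ∀ a, L (ρ a) = - L a

variable {ν : Measure X} [IsProbabilityMeasure ν] (S : TiltSys ν)

namespace TiltSys

/-- The tilts of a site configuration. -/
def tilt (ω : ι → X) : ι → ℝ := fun v => S.L (ω v)

lemma abs_tilt_lt (ω : ι → X) (v : ι) : |S.tilt ω v| < 1 := (S.bd _).trans_lt S.c_lt

lemma measurable_tilt_apply (v : ι) : Measurable (fun ω : ι → X => S.tilt ω v) :=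
  S.meas.comp (measurable_pi_apply v)

lemma measurable_tilt : Measurable (S.tilt : (ι → X) → ι → ℝ) :=
  measurable_pi_iff.2 fun v => S.measurable_tilt_apply v

/-- Flipping all sites. -/
def flp (ω : ι → X) : ι → X := fun v => S.ρ (ω v)

lemma tilt_flp (ω : ι → X) : S.tilt (S.flp ω) = fun v => - S.tilt ω v := by
  funext v
  exact S.L_ρ _

lemma map_flp : (prodM ι ν).map (S.flp) = prodM ι ν := by
  have h := Measure.infinitePi_map_pi (μ := fun _ : ι => ν) (f := fun _ => S.ρ)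
    (fun _ => S.ρ_mp.measurable)
  have h2 : (fun _ : ι => ν.map S.ρ) = fun _ : ι => ν := by
    funext _
    exact S.ρ_mp.map_eq
  unfold prodM
  simp only [h2] at h
  exact h

lemma measurable_flp : Measurable (S.flp : (ι → X) → ι → X) :=
  measurable_pi_iff.2 fun v => S.ρ_mp.measurable.comp (measurable_pi_apply v)

/-- The integral is invariant under the flip. -/
lemma integral_flp {g : (ι → X) → ℝ} (hg : BM g) :
    ∫ ω, g (S.flp ω) ∂(prodM ι ν) = ∫ ω, g ω ∂(prodM ι ν) := by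
  have h1 := integral_map (μ := prodM ι ν) (φ := S.flp) (f := g)
    S.measurable_flp.aemeasurable (by rw [S.map_flp]; exact hg.meas.aestronglyMeasurable)
  rw [S.map_flp] at h1
  exact h1.symm

variable (T : SimpleGraph ι) (θ : ℝ)

lemma measurable_wtOn (p : Finset ι) (σ : ι → Bool) :
    Measurable (fun ω : ι → X => wtOn T θ (S.tilt ω) p σ) := by
  unfold wtOn
  refine measurable_const.mul ?_
  refine Finset.measurable_prod _ fun v _ => ?_
  exact measurable_const.add ((S.measurable_tilt_apply v).mul measurable_const)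

/-- A bound for the weight. -/
lemma abs_wtOn_le {θ : ℝ} (h0 : 0 ≤ θ) (h1 : θ < 1) (ω : ι → X) (p : Finset ι) (σ : ι → Bool) :
    |wtOn T θ (S.tilt ω) p σ| ≤ 2 ^ (edgesIn T p).card * 2 ^ p.card := by
  unfold wtOn
  rw [abs_mul, Finset.abs_prod, Finset.abs_prod]
  refine mul_le_mul ?_ ?_ (Finset.prod_nonneg fun _ _ => abs_nonneg _) (by positivity)
  · refine (Finset.prod_le_prod (fun _ _ => abs_nonneg _) (g := fun _ => (2 : ℝ)) ?_).trans ?_
    · intro e _
      induction e using Sym2.ind with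
      | _ u v =>
        rw [ef_mk]
        have h2 : |θ * spn u σ * spn v σ| = θ := by
          rw [abs_mul, abs_mul, sp_abs, sp_abs, abs_of_nonneg h0]; ring
        refine (abs_add_le _ _).trans ?_
        rw [h2, abs_one]
        linarith
    · simp
  · refine (Finset.prod_le_prod (fun _ _ => abs_nonneg _) (g := fun _ => (2 : ℝ)) ?_).trans ?_
    · intro v _
      have h2 : |S.tilt ω v * spn v σ| < 1 := by
        rw [abs_mul, sp_abs, mul_one]
        exact S.abs_tilt_lt ω v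
      refine (abs_add_le _ _).trans ?_
      rw [abs_one]
      linarith
    · simp

/-- `Z` composed with the tilts is bounded measurable. -/
theorem ZZ_BM {θ : ℝ} (h0 : 0 ≤ θ) (h1 : θ < 1) (p : Finset ι) :
    BM (fun ω : ι → X => ZZ T θ p (S.tilt ω)) := by
  refine ⟨?_, ⟨2 ^ (edgesIn T p).card * 2 ^ p.card, fun ω => ?_⟩⟩
  · unfold ZZ
    refine Measurable.div_const ?_ _
    exact Finset.measurable_sum _ fun σ _ => S.measurable_wtOn T θ p σ
  · unfold ZZ
    rw [abs_div, abs_of_pos (by positivity : (0 : ℝ) < 2 ^ Fintype.card ι), div_le_iff₀ (by positivity)]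
    refine (Finset.abs_sum_le_sum_abs _ _).trans ?_
    refine (Finset.sum_le_sum fun σ _ => S.abs_wtOn_le T h0 h1 ω p σ).trans ?_
    simp only [Finset.sum_const, Finset.card_univ, Fintype.card_pi, Fintype.card_bool,
      Finset.prod_const, nsmul_eq_mul]
    push_cast
    apply le_of_eq
    ring

/-- The part mean composed with the tilts is bounded measurable. -/
theorem mp_BM {θ : ℝ} (h0 : 0 ≤ θ) (h1 : θ < 1) (p : Finset ι) (x : ι) :
    BM (fun ω : ι → X => mp T θ p x (S.tilt ω)) := by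
  refine ⟨?_, ⟨1, fun ω => abs_mp_le h0 h1 (S.abs_tilt_lt ω) p x⟩⟩
  unfold mp avg
  refine Measurable.div ?_ ?_
  · exact Finset.measurable_sum _ fun σ _ => (S.measurable_wtOn T θ p σ).mul measurable_const
  · exact Finset.measurable_sum _ fun σ _ => S.measurable_wtOn T θ p σ

/-- Cavity mean composed with the tilts. -/
theorem nu_BM {θ : ℝ} (h0 : 0 ≤ θ) (h1 : θ < 1) (x y : ι) :
    BM (fun ω : ι → X => nu T θ (S.tilt ω) x y) :=
  S.mp_BM T h0 h1 (side T x y) x

/-- Mean composed with the tilts. -/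
theorem mean_BM {θ : ℝ} (h0 : 0 ≤ θ) (h1 : θ < 1) (x : ι) :
    BM (fun ω : ι → X => mean T θ (S.tilt ω) x) :=
  S.mp_BM T h0 h1 univ x

/-- The integral of a site factor: the tilts have mean zero. -/
lemma integral_L : ∫ a, S.L a ∂ν = 0 := by
  have hb : BM S.L := ⟨S.meas, ⟨S.c, S.bd⟩⟩
  have h1 := integral_map (μ := ν) (φ := S.ρ) (f := S.L)
    S.ρ_mp.measurable.aemeasurable (by rw [S.ρ_mp.map_eq]; exact hb.meas.aestronglyMeasurable)
  rw [S.ρ_mp.map_eq] at h1
  simp_rw [S.L_ρ, integral_neg] at h1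
  linarith

/-- Integrating the partition function over the tilts. -/
theorem integral_ZZ {θ : ℝ} (h0 : 0 ≤ θ) (h1 : θ < 1) (p : Finset ι) :
    ∫ ω, ZZ T θ p (S.tilt ω) ∂(prodM ι ν) = ZZ T θ p 0 := by
  classical
  have hint : ∀ σ : ι → Bool, ∫ ω, wtOn T θ (S.tilt ω) p σ ∂(prodM ι ν) = wtOn T θ 0 p σ := by
    intro σ
    unfold wtOn
    rw [integral_const_mul]
    simp only [Pi.zero_apply, zero_mul, add_zero, Finset.prod_const_one, mul_one]
    have h2 : ∀ ω : ι → X, ∏ v ∈ p, (1 + S.tilt ω v * spn v σ)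
        = ∏ v, (fun v (a : X) => if v ∈ p then 1 + S.L a * spn v σ else 1) v (ω v) := by
      intro ω
      rw [← Finset.prod_filter_mul_prod_filter_not univ (fun v => v ∈ p)]
      simp only [Finset.filter_mem_eq_inter, Finset.univ_inter]
      have h3 : ∏ v ∈ univ.filter (fun v => v ∉ p), (if v ∈ p then 1 + S.L (ω v) * spn v σ else 1) = 1 := by
        refine Finset.prod_eq_one fun v hv => ?_
        simp [(Finset.mem_filter.1 hv).2]
      rw [h3, mul_one]
      refine Finset.prod_congr rfl fun v hv => ?_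
      simp [hv, tilt]
    simp_rw [h2]
    unfold prodM
    have h5 : ∫ a : ι → X, ∏ v, (if v ∈ p then 1 + S.L (a v) * spn v σ else 1)
        ∂(Measure.pi fun _ : ι => ν) = ∏ v, ∫ a, (if v ∈ p then 1 + S.L a * spn v σ else 1) ∂ν :=
      integral_fintype_prod_eq_prod (fun v (a : X) => if v ∈ p then 1 + S.L a * spn v σ else 1)
    rw [Measure.infinitePi_eq_pi, h5]
    have h4 : ∀ v, ∫ a, (if v ∈ p then 1 + S.L a * spn v σ else 1) ∂ν = 1 := by
      intro v
      by_cases hv : v ∈ p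
      · simp only [hv, if_true]
        have hb : BM S.L := ⟨S.meas, ⟨S.c, S.bd⟩⟩
        rw [integral_add (integrable_const _) ((hb.integrable ν).mul_const _), integral_mul_const,
          S.integral_L]
        simp
      · simp [hv]
    simp [h4]
  unfold ZZ
  rw [integral_div, integral_finsetSum]
  · simp_rw [hint]
  · intro σ _
    refine Integrable.of_bound (S.measurable_wtOn T θ p σ).aestronglyMeasurable
      (2 ^ (edgesIn T p).card * 2 ^ p.card) (Filter.Eventually.of_forall fun ω => ?_)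
    simpa using S.abs_wtOn_le T h0 h1 ω p σ

/-! ### The model -/

/-- Expectation under the density of the part `p`. -/
noncomputable def PB (p : Finset ι) (G : (ι → X) → ℝ) : ℝ :=
  ∫ ω, G ω * ZZ T θ p (S.tilt ω) ∂(prodM ι ν)

/-- Expectation under the true model on the window. -/
noncomputable abbrev PP (G : (ι → X) → ℝ) : ℝ := S.PB T θ univ G

/-- `G` depends only on the coordinates in `A`. -/
def DepW (A : Finset ι) (G : (ι → X) → ℝ) : Prop := ∀ ω ω', (∀ v ∈ A, ω v = ω' v) → G ω = G ω'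

omit [Fintype ι] in
lemma DepW.mono {A A' : Finset ι} {G : (ι → X) → ℝ} (h : A ⊆ A') (hG : DepW A G) : DepW A' G :=
  fun ω ω' hω => hG ω ω' fun v hv => hω v (h hv)

omit [Fintype ι] in
lemma DepW.mul {A : Finset ι} {F G : (ι → X) → ℝ} (hF : DepW A F) (hG : DepW A G) :
    DepW A (fun ω => F ω * G ω) := fun ω ω' h => by
  show F ω * G ω = F ω' * G ω'
  rw [hF ω ω' h, hG ω ω' h]

omit [Fintype ι] in
lemma DepW.const (A : Finset ι) (c : ℝ) : DepW A (fun _ : ι → X => c) := fun _ _ _ => rfl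

/-- Tilts of a merge. -/
lemma tilt_lmerge_mem {A : Finset ι} {ω ω' : ι → X} {v : ι} (hv : v ∈ A) :
    S.tilt (lmerge A ω ω') v = S.tilt ω v := by
  simp [tilt, lmerge_apply_mem hv]

lemma tilt_lmerge_not_mem {A : Finset ι} {ω ω' : ι → X} {v : ι} (hv : v ∉ A) :
    S.tilt (lmerge A ω ω') v = S.tilt ω' v := by
  simp [tilt, lmerge_apply_not_mem hv]

variable {T θ}

theorem depW_ZZ (p : Finset ι) : DepW p (fun ω : ι → X => ZZ T θ p (S.tilt ω)) :=
  fun ω ω' h => ZZ_congr fun v hv => by simp [tilt, h v hv]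

theorem depW_mp (p : Finset ι) (x : ι) : DepW p (fun ω : ι → X => mp T θ p x (S.tilt ω)) :=
  fun ω ω' h => mp_congr fun v hv => by simp [tilt, h v hv]

theorem depW_nu (x y : ι) : DepW (side T x y) (fun ω : ι → X => nu T θ (S.tilt ω) x y) :=
  S.depW_mp (side T x y) x

/-- Product integral form of the true model, by cutting an edge. -/
theorem PP_cut (hT : T.IsTree) {x y : ι} (h : T.Adj x y) (h0 : 0 ≤ θ) (h1 : θ < 1)
    {G : (ι → X) → ℝ} (hG : BM G) :
    S.PP T θ G = ∫ p : (ι → X) × (ι → X), G (lmerge (side T x y) p.1 p.2) *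
        (ZZ T θ (side T x y) (S.tilt p.1) * ZZ T θ (side T y x) (S.tilt p.2) *
          bD θ (nu T θ (S.tilt p.1) x y) (nu T θ (S.tilt p.2) y x))
        ∂((prodM ι ν).prod (prodM ι ν)) := by
  unfold PP PB
  have hZ := S.ZZ_BM T h0 h1 (univ : Finset ι)
  have hF := hG.mul hZ
  set A := side T x y with hA
  set B := side T y x with hB
  conv_lhs => rw [← map_lmerge ν A]
  rw [integral_map (measurable_lmerge A).aemeasurable hF.meas.aestronglyMeasurable]
  congr 1
  funext p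
  congr 1
  have hBA : ∀ v ∈ B, v ∉ A := fun v hv hv' =>
    Finset.disjoint_left.mp (disjoint_sides hT.isAcyclic h) hv' hv
  rw [ZZ_side hT h h0 h1 (S.abs_tilt_lt _)]
  have e1 : ZZ T θ (side T x y) (S.tilt (lmerge A p.1 p.2)) = ZZ T θ A (S.tilt p.1) :=
    ZZ_congr fun v hv => S.tilt_lmerge_mem hv
  have e2 : ZZ T θ (side T y x) (S.tilt (lmerge A p.1 p.2)) = ZZ T θ B (S.tilt p.2) :=
    ZZ_congr fun v hv => S.tilt_lmerge_not_mem (hBA v hv)
  have e3 : nu T θ (S.tilt (lmerge A p.1 p.2)) x y = nu T θ (S.tilt p.1) x y :=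
    mp_congr fun v hv => S.tilt_lmerge_mem hv
  have e4 : nu T θ (S.tilt (lmerge A p.1 p.2)) y x = nu T θ (S.tilt p.2) y x :=
    mp_congr fun v hv => S.tilt_lmerge_not_mem (hBA v hv)
  rw [e1, e2, e3, e4]

/-- Flip the second coordinate of a product integral. -/
theorem integral_flp₂ {H : (ι → X) × (ι → X) → ℝ} (hH : BM H) :
    ∫ p, H (p.1, S.flp p.2) ∂((prodM ι ν).prod (prodM ι ν))
      = ∫ p, H p ∂((prodM ι ν).prod (prodM ι ν)) := by
  have hmp : MeasurePreserving (fun p : (ι → X) × (ι → X) => (p.1, S.flp p.2))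
      ((prodM ι ν).prod (prodM ι ν)) ((prodM ι ν).prod (prodM ι ν)) :=
    (MeasurePreserving.id _).prod ⟨S.measurable_flp, S.map_flp⟩
  have h1 := integral_map (μ := (prodM ι ν).prod (prodM ι ν))
    (φ := fun p : (ι → X) × (ι → X) => (p.1, S.flp p.2)) (f := H)
    hmp.measurable.aemeasurable (by rw [hmp.map_eq]; exact hH.meas.aestronglyMeasurable)
  rw [hmp.map_eq] at h1
  exact h1.symm

lemma ZZ_tilt_flp (p : Finset ι) (ω : ι → X) : ZZ T θ p (S.tilt (S.flp ω)) = ZZ T θ p (S.tilt ω) := by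
  rw [S.tilt_flp, ZZ_neg]

lemma mp_tilt_flp (p : Finset ι) (x : ι) (ω : ι → X) :
    mp T θ p x (S.tilt (S.flp ω)) = - mp T θ p x (S.tilt ω) := by
  rw [S.tilt_flp, mp_neg]

lemma nu_tilt_flp (x y : ι) (ω : ι → X) :
    nu T θ (S.tilt (S.flp ω)) x y = - nu T θ (S.tilt ω) x y :=
  S.mp_tilt_flp (side T x y) x ω

/-- Mass of the part density. -/
theorem PB_one (hT : T.IsAcyclic) (h0 : 0 ≤ θ) (h1 : θ < 1) {x y : ι} (h : T.Adj x y) :
    S.PB T θ (side T x y) (fun _ => 1) = 1 := by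
  unfold PB
  simp only [one_mul]
  rw [S.integral_ZZ T h0 h1, ZZ_side_free hT h0 h1 h]

/-- Odd functions integrate to zero against a part density. -/
theorem PB_odd (h0 : 0 ≤ θ) (h1 : θ < 1) (p : Finset ι) {F : (ι → X) → ℝ} (hF : BM F)
    (hodd : ∀ ω, F (S.flp ω) = - F ω) : S.PB T θ p F = 0 := by
  unfold PB
  have hb := hF.mul (S.ZZ_BM T h0 h1 p)
  have h2 : ∫ ω, F (S.flp ω) * ZZ T θ p (S.tilt (S.flp ω)) ∂(prodM ι ν)
      = ∫ ω, F ω * ZZ T θ p (S.tilt ω) ∂(prodM ι ν) := S.integral_flp hb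
  simp only [hodd, S.ZZ_tilt_flp, neg_mul, integral_neg] at h2
  linarith

/-- Even functions on one side of an edge are independent of everything on the other side. -/
theorem PP_even_mul (hT : T.IsTree) {x y : ι} (h : T.Adj x y) (h0 : 0 ≤ θ) (h1 : θ < 1)
    {F G : (ι → X) → ℝ} (hF : BM F) (hG : BM G) (hFd : DepW (side T y x) F)
    (hGd : DepW (side T x y) G) (hev : ∀ ω, F (S.flp ω) = F ω) :
    S.PP T θ (fun ω => F ω * G ω)
      = S.PB T θ (side T y x) F * S.PB T θ (side T x y) G := by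
  set A := side T x y with hA
  set B := side T y x with hB
  have hBA : ∀ v ∈ B, v ∉ A := fun v hv hv' =>
    Finset.disjoint_left.mp (disjoint_sides hT.isAcyclic h) hv' hv
  rw [S.PP_cut hT h h0 h1 (hF.mul hG)]
  have hZA := S.ZZ_BM T h0 h1 A
  have hZB := S.ZZ_BM T h0 h1 B
  have hνA := S.nu_BM T h0 h1 x y
  have hνB := S.nu_BM T h0 h1 y x
  have e : ∀ p : (ι → X) × (ι → X),
      F (lmerge A p.1 p.2) * G (lmerge A p.1 p.2) *
        (ZZ T θ A (S.tilt p.1) * ZZ T θ B (S.tilt p.2) *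
          bD θ (nu T θ (S.tilt p.1) x y) (nu T θ (S.tilt p.2) y x))
      = (G p.1 * ZZ T θ A (S.tilt p.1)) * (F p.2 * ZZ T θ B (S.tilt p.2))
        + θ * ((G p.1 * ZZ T θ A (S.tilt p.1)) * nu T θ (S.tilt p.1) x y) *
          ((F p.2 * ZZ T θ B (S.tilt p.2)) * nu T θ (S.tilt p.2) y x) := by
    intro p
    rw [hFd (lmerge A p.1 p.2) p.2 (fun v hv => lmerge_apply_not_mem (hBA v hv)),
      hGd (lmerge A p.1 p.2) p.1 (fun v hv => lmerge_apply_mem hv)]
    unfold bD
    ring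
  simp only [← hA, ← hB]
  simp_rw [e]
  have i1 : Integrable (fun p : (ι → X) × (ι → X) =>
      (G p.1 * ZZ T θ A (S.tilt p.1)) * (F p.2 * ZZ T θ B (S.tilt p.2)))
      ((prodM ι ν).prod (prodM ι ν)) :=
    ((hG.mul hZA).integrable _).mul_prod ((hF.mul hZB).integrable _)
  have i2 : Integrable (fun p : (ι → X) × (ι → X) =>
      ((G p.1 * ZZ T θ A (S.tilt p.1)) * nu T θ (S.tilt p.1) x y) *
          ((F p.2 * ZZ T θ B (S.tilt p.2)) * nu T θ (S.tilt p.2) y x))
      ((prodM ι ν).prod (prodM ι ν)) :=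
    (((hG.mul hZA).mul hνA).integrable _).mul_prod (((hF.mul hZB).mul hνB).integrable _)
  have i3 : Integrable (fun p : (ι → X) × (ι → X) =>
      θ * ((G p.1 * ZZ T θ A (S.tilt p.1)) * nu T θ (S.tilt p.1) x y) *
          ((F p.2 * ZZ T θ B (S.tilt p.2)) * nu T θ (S.tilt p.2) y x))
      ((prodM ι ν).prod (prodM ι ν)) := by
    have := i2.const_mul θ
    simpa [mul_assoc] using this
  rw [integral_add i1 i3]
  have z : ∫ p : (ι → X) × (ι → X), θ * ((G p.1 * ZZ T θ A (S.tilt p.1)) * nu T θ (S.tilt p.1) x y) *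
        ((F p.2 * ZZ T θ B (S.tilt p.2)) * nu T θ (S.tilt p.2) y x)
        ∂((prodM ι ν).prod (prodM ι ν)) = 0 := by
    have h2 : ∀ p : (ι → X) × (ι → X), θ * ((G p.1 * ZZ T θ A (S.tilt p.1)) * nu T θ (S.tilt p.1) x y) *
        ((F p.2 * ZZ T θ B (S.tilt p.2)) * nu T θ (S.tilt p.2) y x)
        = θ * (((G p.1 * ZZ T θ A (S.tilt p.1)) * nu T θ (S.tilt p.1) x y) *
        ((F p.2 * ZZ T θ B (S.tilt p.2)) * nu T θ (S.tilt p.2) y x)) := fun p => by ring
    simp_rw [h2]
    rw [integral_const_mul, integral_prod_mul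
      (fun ω => (G ω * ZZ T θ A (S.tilt ω)) * nu T θ (S.tilt ω) x y)
      (fun ω => (F ω * ZZ T θ B (S.tilt ω)) * nu T θ (S.tilt ω) y x)]
    have h3 : ∫ ω, (F ω * ZZ T θ B (S.tilt ω)) * nu T θ (S.tilt ω) y x ∂(prodM ι ν) = 0 := by
      have h4 : ∫ ω, (F (S.flp ω) * ZZ T θ B (S.tilt (S.flp ω))) * nu T θ (S.tilt (S.flp ω)) y x ∂(prodM ι ν)
          = ∫ ω, (F ω * ZZ T θ B (S.tilt ω)) * nu T θ (S.tilt ω) y x ∂(prodM ι ν) :=
        S.integral_flp ((hF.mul hZB).mul hνB)
      simp only [hev, S.ZZ_tilt_flp, S.nu_tilt_flp, mul_neg, integral_neg] at h4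
      linarith
    rw [h3]
    ring
  rw [z, add_zero, integral_prod_mul (fun ω => G ω * ZZ T θ A (S.tilt ω))
    (fun ω => F ω * ZZ T θ B (S.tilt ω))]
  unfold PB
  ring

/-- Marginal consistency: a function on one side only sees the density of that side. -/
theorem PP_of_dep (hT : T.IsTree) {x y : ι} (h : T.Adj x y) (h0 : 0 ≤ θ) (h1 : θ < 1)
    {G : (ι → X) → ℝ} (hG : BM G) (hGd : DepW (side T x y) G) :
    S.PP T θ G = S.PB T θ (side T x y) G := by
  have := S.PP_even_mul hT h h0 h1 (F := fun _ => 1) (G := G) (BM.const 1) hG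
    (DepW.const _ 1) hGd (fun _ => rfl)
  simp only [one_mul] at this
  rw [this, S.PB_one hT.isAcyclic h0 h1 h.symm, one_mul]

/-- The cavity second moment. -/
noncomputable def qq (T : SimpleGraph ι) (θ : ℝ) (x y : ι) : ℝ :=
  S.PB T θ (side T x y) (fun ω => nu T θ (S.tilt ω) x y ^ 2)

/-! ### Attenuation -/

/-- Attenuation factor. -/
noncomputable def uu (θ t : ℝ) : ℝ := (1 - t ^ 2) / (1 - θ ^ 2 * t ^ 2)

/-- Squared attenuation factor. -/
noncomputable def UU (θ t : ℝ) : ℝ := uu θ t ^ 2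

lemma denom_pos {θ t : ℝ} (h0 : 0 ≤ θ) (h1 : θ < 1) (ht : |t| ≤ 1) : 0 < 1 - θ ^ 2 * t ^ 2 := by
  have h2 : t ^ 2 ≤ 1 := by
    have := abs_le.1 ht
    nlinarith
  have h3 : θ ^ 2 < 1 := by nlinarith
  nlinarith [sq_nonneg t]

lemma uu_nonneg {θ t : ℝ} (h0 : 0 ≤ θ) (h1 : θ < 1) (ht : |t| ≤ 1) : 0 ≤ uu θ t := by
  have h2 : t ^ 2 ≤ 1 := by
    have := abs_le.1 ht
    nlinarith
  exact div_nonneg (by linarith) (denom_pos h0 h1 ht).le

lemma uu_le_sub {θ t : ℝ} (h0 : 0 ≤ θ) (h1 : θ < 1) (ht : |t| ≤ 1) :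
    uu θ t ≤ 1 - (1 - θ ^ 2) * t ^ 2 := by
  have hd := denom_pos h0 h1 ht
  unfold uu
  rw [div_le_iff₀ hd]
  have h3 : 0 ≤ 1 - θ ^ 2 := by nlinarith
  have h4 : 0 ≤ θ ^ 2 * (1 - θ ^ 2) * t ^ 4 := by positivity
  nlinarith

lemma uu_le_one {θ t : ℝ} (h0 : 0 ≤ θ) (h1 : θ < 1) (ht : |t| ≤ 1) : uu θ t ≤ 1 := by
  have h3 : 0 ≤ 1 - θ ^ 2 := by nlinarith
  have := uu_le_sub h0 h1 ht
  nlinarith [sq_nonneg t]

lemma UU_nonneg (θ t : ℝ) : 0 ≤ UU θ t := sq_nonneg _

lemma UU_le_one {θ t : ℝ} (h0 : 0 ≤ θ) (h1 : θ < 1) (ht : |t| ≤ 1) : UU θ t ≤ 1 := by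
  have h2 := uu_nonneg h0 h1 ht
  have h3 := uu_le_one h0 h1 ht
  unfold UU
  nlinarith

lemma one_sub_UU_ge {θ t : ℝ} (h0 : 0 ≤ θ) (h1 : θ < 1) (ht : |t| ≤ 1) :
    (1 - θ ^ 2) * t ^ 2 ≤ 1 - UU θ t := by
  have h2 := uu_nonneg h0 h1 ht
  have h3 := uu_le_one h0 h1 ht
  have h4 := uu_le_sub h0 h1 ht
  unfold UU
  nlinarith

lemma UU_neg (θ t : ℝ) : UU θ (-t) = UU θ t := by
  unfold UU uu
  simp

/-- Adding a same sign term only increases. -/
lemma sq_le_star {a w : ℝ} (haw : 0 ≤ a * w) (hw : |w| ≤ 1) :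
    w ^ 2 ≤ ((a + w) / (1 + a * w)) ^ 2 := by
  have hpos : 0 < 1 + a * w := by linarith
  rw [div_pow, le_div_iff₀ (by positivity)]
  have h2 : w ^ 2 ≤ 1 := by
    have := abs_le.1 hw
    nlinarith
  have key : (a + w) ^ 2 - w ^ 2 * (1 + a * w) ^ 2
      = (1 - w ^ 2) * (a ^ 2 + 2 * (a * w) + a ^ 2 * w ^ 2) := by ring
  have h3 : 0 ≤ (1 - w ^ 2) * (a ^ 2 + 2 * (a * w) + a ^ 2 * w ^ 2) :=
    mul_nonneg (by linarith) (by positivity)
  linarith

/-- The sibling estimate: pointwise form. -/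
theorem atten_pointwise {θ a b t : ℝ} (h0 : 0 ≤ θ) (h1 : θ < 1) (ha : |a| ≤ 1) (hb : |b| ≤ 1)
    (ht : |t| ≤ 1) :
    ((1 + θ * b * t) * UU θ (bm θ a t) + (1 - θ * b * t) * UU θ (bm θ a (-t))) / 2
      ≤ 1 - (1 - θ) * (1 - θ ^ 2) * θ ^ 2 / 2 * t ^ 2 := by
  have ht' : |(-t)| ≤ 1 := by rwa [abs_neg]
  have hm1 := bm_abs_le h0 h1 ha ht
  have hm2 := bm_abs_le h0 h1 ha ht'
  set r₁ := bm θ a t with hr₁
  set r₂ := bm θ a (-t) with hr₂
  have hU1 := one_sub_UU_ge h0 h1 hm1
  have hU2 := one_sub_UU_ge h0 h1 hm2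
  have hU1' := UU_le_one h0 h1 hm1
  have hU2' := UU_le_one h0 h1 hm2
  -- sum of squares
  have hsum : (θ * t) ^ 2 ≤ r₁ ^ 2 + r₂ ^ 2 := by
    have hw : |θ * t| ≤ 1 := by
      rw [abs_mul, abs_of_nonneg h0]
      nlinarith [abs_nonneg t]
    by_cases hs : 0 ≤ a * (θ * t)
    · have := sq_le_star hs hw
      have e : r₁ = (a + θ * t) / (1 + a * (θ * t)) := by
        rw [hr₁]
        unfold bm bD
        congr 1
        ring
      rw [e]
      nlinarith [sq_nonneg r₂]
    · have hs' : 0 ≤ a * (-(θ * t)) := by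
        have := not_le.1 hs
        linarith
      have hw' : |(-(θ * t))| ≤ 1 := by rwa [abs_neg]
      have := sq_le_star hs' hw'
      have e : r₂ = (a + -(θ * t)) / (1 + a * (-(θ * t))) := by
        rw [hr₂]
        unfold bm bD
        congr 1
        · ring
        · ring
      rw [e]
      rw [neg_sq] at this
      nlinarith [sq_nonneg r₁]
  have hbt : |θ * b * t| ≤ θ := by
    rw [abs_mul, abs_mul, abs_of_nonneg h0]
    have : |b| * |t| ≤ 1 := by nlinarith [abs_nonneg b, abs_nonneg t]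
    calc θ * |b| * |t| = θ * (|b| * |t|) := by ring
      _ ≤ θ * 1 := mul_le_mul_of_nonneg_left this h0
      _ = θ := by ring
  obtain ⟨hb1, hb2⟩ := abs_le.1 hbt
  set w := θ * b * t with hw
  have h3 : 0 ≤ 1 - θ ^ 2 := by nlinarith
  have h4 : 0 ≤ 1 - θ := by linarith
  -- weights at least `1 - θ`
  have k1 : (1 - θ) * (1 - UU θ r₁) ≤ (1 + w) * (1 - UU θ r₁) :=
    mul_le_mul_of_nonneg_right (by linarith) (by linarith)
  have k2 : (1 - θ) * (1 - UU θ r₂) ≤ (1 - w) * (1 - UU θ r₂) :=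
    mul_le_mul_of_nonneg_right (by linarith) (by linarith)
  have k3 : (1 - θ) * ((1 - θ ^ 2) * r₁ ^ 2) ≤ (1 - θ) * (1 - UU θ r₁) :=
    mul_le_mul_of_nonneg_left hU1 h4
  have k4 : (1 - θ) * ((1 - θ ^ 2) * r₂ ^ 2) ≤ (1 - θ) * (1 - UU θ r₂) :=
    mul_le_mul_of_nonneg_left hU2 h4
  have k5 : (1 - θ) * (1 - θ ^ 2) * (θ * t) ^ 2 ≤ (1 - θ) * (1 - θ ^ 2) * (r₁ ^ 2 + r₂ ^ 2) :=
    mul_le_mul_of_nonneg_left hsum (mul_nonneg h4 h3)
  nlinarith

end TiltSys

end Crest.Agent.Lib.IsingFIID
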