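/-
Bridge from a finite window `W` of a tree `G` (with vertex type `V`) to the prelude's `isingWeight`.
-/
import Crest.Agent.Lib.IsingFIID.TreeCut
import Crest.Prelude.Def_TreeIsing

set_option autoImplicit false
set_option linter.unusedSectionVars false
set_option linter.unusedVariables false

namespace Crest.Agent.Lib.IsingFIID

open Finset

variable {V : Type*} {G : SimpleGraph V}

section
open Classical

/-- `G` induced on a finite connected window in an acyclic graph is a tree. -/
lemma induce_isTree (hG : G.IsAcyclic) {W : Finset V} (hW : (G.induce (W : Set V)).Connected) :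
    (G.induce (W : Set V)).IsTree := ⟨hW, hG.induce _⟩

/-- The trace of `S` in the vertex type of the window `W`. -/
noncomputable def winTrace (W S : Finset V) : Finset (W : Set V) :=
  S.subtype (fun v => v ∈ (W : Set V))

lemma mem_winTrace {W S : Finset V} {v : (W : Set V)} : v ∈ winTrace W S ↔ v.1 ∈ S := by
  simp [winTrace]

lemma winTrace_connected {W S : Finset V} (hSW : S ⊆ W) (hS : (G.induce (S : Set V)).Connected) :
    ((G.induce (W : Set V)).induce (winTrace W S : Set (W : Set V))).Connected := by
  let f : G.induce (S : Set V) →g (G.induce (W : Set V)).induce (winTrace W S : Set (W : Set V)) :=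
    { toFun := fun a => ⟨⟨a.1, hSW a.2⟩, by
        rw [Finset.mem_coe, mem_winTrace]; exact a.2⟩
      map_rel' := fun {a b} hab => hab }
  have hsurj : Function.Surjective f := by
    rintro ⟨a, ha⟩
    rw [Finset.mem_coe, mem_winTrace] at ha
    exact ⟨⟨a.1, ha⟩, rfl⟩
  have : Nonempty (winTrace W S : Set (W : Set V)) := by
    obtain ⟨a⟩ := hS.nonempty
    exact ⟨f a⟩
  refine (SimpleGraph.connected_iff _).mpr ⟨fun a b => ?_, inferInstance⟩
  obtain ⟨a', rfl⟩ := hsurj a
  obtain ⟨b', rfl⟩ := hsurj b
  exact (hS.preconnected a' b').map f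

/-- Identification of the edge product with the prelude's Ising weight. -/
lemma prod_edgesIn_eq {W S : Finset V} (hSW : S ⊆ W) (θ : ℝ) (η : V → Bool) :
    (1 / 2 : ℝ) * ∏ e ∈ edgesIn (G.induce (W : Set V)) (winTrace W S),
        (ef θ (fun v : (W : Set V) => η v.1) e / 2) =
      Crest.ProbabilityR.TreeIsing.isingWeight G θ S η := by
  unfold Crest.ProbabilityR.TreeIsing.isingWeight
  congr 1
  refine Finset.prod_bij (fun e _ => Sym2.map Subtype.val e) ?_ ?_ ?_ ?_
  · intro e he
    induction e using Sym2.ind with
    | _ a b =>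
      rw [mk_mem_edgesIn, mem_winTrace, mem_winTrace] at he
      simp only [Sym2.map_mk, Finset.mem_filter, Finset.mk_mem_sym2_iff,
        SimpleGraph.mem_edgeSet]
      exact ⟨⟨he.2.1, he.2.2⟩, he.1⟩
  · intro e _ e' _ h
    exact Sym2.map.injective Subtype.val_injective h
  · intro e he
    induction e using Sym2.ind with
    | _ u v =>
      simp only [Finset.mem_filter, Finset.mk_mem_sym2_iff, SimpleGraph.mem_edgeSet] at he
      refine ⟨s(⟨u, hSW he.1.1⟩, ⟨v, hSW he.1.2⟩), ?_, rfl⟩
      rw [mk_mem_edgesIn, mem_winTrace, mem_winTrace]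
      exact ⟨he.2, he.1.1, he.1.2⟩
  · intro e he
    induction e using Sym2.ind with
    | _ a b =>
      simp only [Sym2.map_mk, Sym2.mk_isDiag_iff, ef_mk, spn]
      by_cases h : η a.1 = η b.1
      · rw [if_pos h, h, mul_assoc, sg_mul_self]; ring
      · rw [if_neg h]
        have : sg (η a.1) * sg (η b.1) = -1 := by
          cases h1 : η a.1 <;> cases h2 : η b.1 <;> simp_all
        rw [mul_assoc, this]; ring

/-- **Window law of the free measure**: the free Gibbs weight on a finite connected window of an
acyclic graph has the prelude's Ising weight as its marginal on a connected subset. -/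
theorem avg_ind_eq_isingWeight (hG : G.IsAcyclic) {W S : Finset V}
    (hW : (G.induce (W : Set V)).Connected) (hSW : S ⊆ W) (hS : (G.induce (S : Set V)).Connected)
    {θ : ℝ} (h0 : 0 ≤ θ) (h1 : θ < 1) (η : V → Bool) :
    avg (wt (G.induce (W : Set V)) θ 0) (ind (winTrace W S) (fun v => η v.1)) =
      Crest.ProbabilityR.TreeIsing.isingWeight G θ S η := by
  rw [avg_ind_free (induce_isTree hG hW) h0 h1 _ _ _ rfl (winTrace_connected hSW hS),
    prod_edgesIn_eq hSW]

end

end Crest.Agent.Lib.IsingFIID
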