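/-
Row 160 (S0241): the Gibbs measures of `Defs.lean` on a window `W` (patterns `A ⊆ W`, fields `h`) as
the tree weights of `TreeCut.lean` on the induced tree (configurations on `↥W`, tilts `tanh h`).
-/
import Crest.Agent.Lib.IsingFIID.Basic
import Crest.Agent.Lib.IsingFIID.WindowBridge
import Crest.Agent.Lib.IsingFIID.GibbsGrow
import Crest.Agent.Lib.IsingFIID.TrueModel

set_option autoImplicit false
set_option linter.unusedSectionVars false
set_option linter.unusedVariables false

namespace Crest.Agent.Lib.IsingFIID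

open Finset

variable {V : Type*} [DecidableEq V] {G : SimpleGraph V}

/-- The vertices of the window as a type. -/
abbrev WI (W : Finset V) : Type _ := ↥(W : Set V)

/-- The configuration of a pattern. -/
def cfgOf (W A : Finset V) : WI W → Bool := fun v => decide (v.1 ∈ A)

lemma spn_cfgOf (W A : Finset V) (v : WI W) : spn v (cfgOf W A) = sp A v.1 := by
  unfold spn cfgOf sp sg
  by_cases h : v.1 ∈ A <;> simp [h]

/-- The pattern of a configuration. -/
noncomputable def patOf (W : Finset V) (σ : WI W → Bool) : Finset V :=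
  (Finset.univ.filter fun v : WI W => σ v = true).map (Function.Embedding.subtype _)

lemma mem_patOf {W : Finset V} {σ : WI W → Bool} {v : V} :
    v ∈ patOf W σ ↔ ∃ hv : v ∈ (W : Set V), σ ⟨v, hv⟩ = true := by
  unfold patOf
  simp

lemma patOf_subset (W : Finset V) (σ : WI W → Bool) : patOf W σ ⊆ W := by
  intro v hv
  obtain ⟨h, _⟩ := mem_patOf.mp hv
  exact h

lemma cfgOf_patOf (W : Finset V) (σ : WI W → Bool) : cfgOf W (patOf W σ) = σ := by
  funext v
  unfold cfgOf
  by_cases h : σ v = true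
  · rw [h]
    simp only [decide_eq_true_eq]
    exact mem_patOf.mpr ⟨v.2, h⟩
  · have h2 : σ v = false := by simpa using h
    rw [h2]
    simp only [decide_eq_false_iff_not]
    intro hm
    obtain ⟨_, h3⟩ := mem_patOf.mp hm
    exact h h3

lemma patOf_cfgOf {W A : Finset V} (hA : A ⊆ W) : patOf W (cfgOf W A) = A := by
  ext v
  rw [mem_patOf]
  constructor
  · rintro ⟨_, h⟩
    simpa [cfgOf] using h
  · intro hv
    exact ⟨hA hv, by simpa [cfgOf] using hv⟩

/-- Sums over patterns are sums over configurations. -/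
lemma sum_powerset_eq (W : Finset V) (f : Finset V → ℝ) :
    ∑ A ∈ W.powerset, f A = ∑ σ : WI W → Bool, f (patOf W σ) := by
  refine Finset.sum_nbij' (fun A => cfgOf W A) (fun σ => patOf W σ) ?_ ?_ ?_ ?_ ?_
  · intro A _
    exact Finset.mem_univ _
  · intro σ _
    exact Finset.mem_powerset.2 (patOf_subset W σ)
  · intro A hA
    exact patOf_cfgOf (Finset.mem_powerset.1 hA)
  · intro σ _
    exact cfgOf_patOf W σ
  · intro A hA
    rw [patOf_cfgOf (Finset.mem_powerset.1 hA)]

/-- Products over the window. -/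
lemma prod_window (W : Finset V) (g : V → ℝ) :
    ∏ v ∈ W, g v = ∏ v : WI W, g v.1 :=
  Finset.prod_subtype W (fun x => Iff.rfl) g

/-- Identification of the edge product with the prelude's Ising weight on the whole window. -/
lemma prod_edges_eq (θ : ℝ) (W : Finset V) (η : V → Bool) :
    (1 / 2 : ℝ) * ∏ e ∈ edgesIn (G.induce (W : Set V)) (Finset.univ : Finset (WI W)),
        (ef θ (fun v : WI W => η v.1) e / 2) =
      Crest.ProbabilityR.TreeIsing.isingWeight G θ W η := by
  unfold Crest.ProbabilityR.TreeIsing.isingWeight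
  congr 1
  refine Finset.prod_bij (fun e _ => Sym2.map Subtype.val e) ?_ ?_ ?_ ?_
  · intro e he
    induction e using Sym2.ind with
    | _ a b =>
      rw [mk_mem_edgesIn] at he
      simp only [Sym2.map_mk, Finset.mem_filter, Finset.mk_mem_sym2_iff,
        SimpleGraph.mem_edgeSet]
      exact ⟨⟨a.2, b.2⟩, he.1⟩
  · intro e _ e' _ h
    exact Sym2.map.injective Subtype.val_injective h
  · intro e he
    induction e using Sym2.ind with
    | _ u v =>
      simp only [Finset.mem_filter, Finset.mk_mem_sym2_iff, SimpleGraph.mem_edgeSet] at he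
      refine ⟨s(⟨u, he.1.1⟩, ⟨v, he.1.2⟩), ?_, rfl⟩
      rw [mk_mem_edgesIn]
      exact ⟨he.2, Finset.mem_univ _, Finset.mem_univ _⟩
  · intro e he
    induction e using Sym2.ind with
    | _ a b =>
      simp only [Sym2.map_mk, Sym2.mk_isDiag_iff, ef_mk, spn]
      by_cases h : η a.1 = η b.1
      · rw [if_pos h, h, mul_assoc, sg_mul_self]; ring
      · rw [if_neg h]
        have : sg (η a.1) * sg (η b.1) = -1 := by
          cases h1 : η a.1 <;> cases h2 : η b.1 <;> simp_all
        rw [mul_assoc, this]; ring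

/-- The constant of the edge product. -/
noncomputable def bwC (G : SimpleGraph V) (W : Finset V) : ℝ :=
  (1 / 2) * (1 / 2) ^ (edgesIn (G.induce (W : Set V)) (Finset.univ : Finset (WI W))).card

lemma bw_eq_edges (θ : ℝ) (W A : Finset V) :
    bw G θ W A = bwC G W *
      ∏ e ∈ edgesIn (G.induce (W : Set V)) (Finset.univ : Finset (WI W)), ef θ (cfgOf W A) e := by
  unfold bw
  rw [← prod_edges_eq (G := G) θ W (fun v => decide (v ∈ A))]
  unfold bwC
  have h2 : (fun v : WI W => decide (v.1 ∈ A)) = cfgOf W A := rfl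
  rw [h2, mul_assoc]
  congr 1
  simp_rw [div_eq_mul_inv]
  rw [Finset.prod_mul_distrib, Finset.prod_const, mul_comm]
  congr 2
  norm_num

/-- The master formula. -/
theorem sum_bw_tilt (θ : ℝ) (W : Finset V) (l : WI W → ℝ) (f : Finset V → ℝ) :
    ∑ A ∈ W.powerset, bw G θ W A * (∏ v : WI W, (1 + l v * sp A v.1)) * f A
      = bwC G W * ∑ σ, wt (G.induce (W : Set V)) θ l σ * f (patOf W σ) := by
  rw [sum_powerset_eq, Finset.mul_sum]
  refine Finset.sum_congr rfl fun σ _ => ?_
  rw [bw_eq_edges, cfgOf_patOf]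
  unfold wt wtOn
  have e : ∀ v : WI W, sp (patOf W σ) v.1 = spn v σ := fun v => by
    rw [← spn_cfgOf, cfgOf_patOf]
  simp_rw [e]
  ring

lemma induce_tree (hT : G.IsTree) {W : Finset V} (hW : IsWin G W) :
    (G.induce (W : Set V)).IsTree := ⟨hW, hT.isAcyclic.induce _⟩

/-- The normalisation. -/
lemma bwC_mul (hT : G.IsTree) {W : Finset V} (hW : IsWin G W) {θ : ℝ} (h0 : 0 ≤ θ) (h1 : θ < 1) :
    bwC G W * 2 ^ Fintype.card (W : Set V) = 1 := by
  have h := sum_bw_tilt (G := G) θ W 0 (fun _ => 1)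
  simp only [Pi.zero_apply, zero_mul, add_zero, Finset.prod_const_one, mul_one] at h
  rw [sum_bw hT hW] at h
  have hZ := ZZ_univ_free (T := G.induce (W : Set V)) (induce_tree hT hW) h0 h1
  unfold ZZ at hZ
  have hn : (2 : ℝ) ^ Fintype.card (WI W) ≠ 0 := by positivity
  rw [div_eq_iff hn, one_mul] at hZ
  rw [← hZ]
  exact h.symm

/-- The master formula, normalised. -/
theorem sum_bw_tilt' (hT : G.IsTree) {W : Finset V} (hW : IsWin G W) {θ : ℝ} (h0 : 0 ≤ θ) (h1 : θ < 1)
    (l : WI W → ℝ) (f : Finset V → ℝ) :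
    ∑ A ∈ W.powerset, bw G θ W A * (∏ v : WI W, (1 + l v * sp A v.1)) * f A
      = (∑ σ, wt (G.induce (W : Set V)) θ l σ * f (patOf W σ)) / 2 ^ Fintype.card (WI W) := by
  rw [sum_bw_tilt]
  have h := bwC_mul hT hW h0 h1
  have hn : (2 : ℝ) ^ Fintype.card (WI W) ≠ 0 := by positivity
  rw [eq_div_iff hn]
  calc _ = (bwC G W * 2 ^ Fintype.card (WI W)) * ∑ σ, wt (G.induce (W : Set V)) θ l σ * f (patOf W σ) := by ring
    _ = _ := by rw [h, one_mul]

/-- The tree partition function from the patterns. -/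
theorem sum_bw_tilt_one (hT : G.IsTree) {W : Finset V} (hW : IsWin G W) {θ : ℝ} (h0 : 0 ≤ θ) (h1 : θ < 1)
    (l : WI W → ℝ) :
    ∑ A ∈ W.powerset, bw G θ W A * ∏ v : WI W, (1 + l v * sp A v.1)
      = ZZ (G.induce (W : Set V)) θ Finset.univ l := by
  have h := sum_bw_tilt' hT hW h0 h1 l (fun _ => 1)
  simp only [mul_one] at h
  rw [h]
  rfl

/-- One exponential factor. -/
lemma exp_mul_sp (h : ℝ) (A : Finset V) (v : V) :
    Real.exp (h * sp A v) = Real.cosh h * (1 + Real.tanh h * sp A v) := by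
  have hc := (Real.cosh_pos h).ne'
  by_cases hv : v ∈ A
  · simp only [sp, hv, if_true, mul_one]
    rw [Real.tanh_eq_sinh_div_cosh]
    field_simp
    rw [← Real.cosh_add_sinh h]
  · simp only [sp, hv, if_false]
    rw [Real.tanh_eq_sinh_div_cosh]
    have : h * -1 = -h := by ring
    rw [this]
    field_simp
    rw [← Real.cosh_sub_sinh]
    ring

/-- The factor of the fields. -/
lemma gExp_eq (h : V → ℝ) (W A : Finset V) :
    gExp h W A = (∏ v ∈ W, Real.cosh (h v)) * ∏ v : WI W, (1 + Real.tanh (h v.1) * sp A v.1) := by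
  unfold gExp
  rw [Real.exp_sum, prod_window W (fun v => Real.exp (h v * sp A v)),
    prod_window W (fun v => Real.cosh (h v)), ← Finset.prod_mul_distrib]
  exact Finset.prod_congr rfl fun v _ => exp_mul_sp _ _ _

/-- The Gibbs sum with the fields. -/
theorem sum_bw_gExp (hT : G.IsTree) {W : Finset V} (hW : IsWin G W) {θ : ℝ} (h0 : 0 ≤ θ) (h1 : θ < 1)
    (h : V → ℝ) (f : Finset V → ℝ) :
    ∑ A ∈ W.powerset, bw G θ W A * gExp h W A * f A
      = (∏ v ∈ W, Real.cosh (h v)) *
        ((∑ σ, wt (G.induce (W : Set V)) θ (fun v => Real.tanh (h v.1)) σ * f (patOf W σ))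
          / 2 ^ Fintype.card (WI W)) := by
  rw [← sum_bw_tilt' hT hW h0 h1, Finset.mul_sum]
  refine Finset.sum_congr rfl fun A _ => ?_
  rw [gExp_eq]
  ring

/-- The partition function with fields. -/
theorem gZ_eq_ZZ (hT : G.IsTree) {W : Finset V} (hW : IsWin G W) {θ : ℝ} (h0 : 0 ≤ θ) (h1 : θ < 1)
    (h : V → ℝ) :
    gZ G θ W h = (∏ v ∈ W, Real.cosh (h v)) *
      ZZ (G.induce (W : Set V)) θ Finset.univ (fun v => Real.tanh (h v.1)) := by
  have := sum_bw_gExp hT hW h0 h1 h (fun _ => 1)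
  simp only [mul_one] at this
  unfold gZ
  rw [this]
  rfl

/-- The Gibbs average of a function of a pattern. -/
theorem gAvg_eq (hT : G.IsTree) {W : Finset V} (hW : IsWin G W) {θ : ℝ} (h0 : 0 ≤ θ) (h1 : θ < 1)
    (h : V → ℝ) (f : Finset V → ℝ) :
    gAvg G θ W h f = avg (wt (G.induce (W : Set V)) θ (fun v => Real.tanh (h v.1)))
      (fun σ => f (patOf W σ)) := by
  unfold gAvg avg
  have e1 := sum_bw_gExp hT hW h0 h1 h f
  have e2 := sum_bw_gExp hT hW h0 h1 h (fun _ => 1)
  simp only [mul_one] at e2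
  have hc : (∏ v ∈ W, Real.cosh (h v)) ≠ 0 := (Finset.prod_pos fun v _ => Real.cosh_pos _).ne'
  have hn : (2 : ℝ) ^ Fintype.card (WI W) ≠ 0 := by positivity
  unfold gZ
  rw [e1, e2]
  field_simp

/-- **Means of the two formalisms.** -/
theorem gm_eq_mean (hT : G.IsTree) {W : Finset V} (hW : IsWin G W) {θ : ℝ} (h0 : 0 ≤ θ) (h1 : θ < 1)
    (h : V → ℝ) (v : WI W) :
    gm G θ W h v.1 = mean (G.induce (W : Set V)) θ (fun u => Real.tanh (h u.1)) v := by
  unfold gm mean
  rw [gAvg_eq hT hW h0 h1]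
  congr 1
  funext σ
  rw [← spn_cfgOf, cfgOf_patOf]

end Crest.Agent.Lib.IsingFIID
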