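/-
Row 160 (S0241), Task E1/E2 bridge (helper22 note 224): on the ball `W = ball G o N`, with induced tree
`T = G.induce W` and tilts `l v = tanh (h v)`:
(B0) the vertex-mean formula of `uOf` is `uu` of the cavity message;
(B1) `wTree` (defined on `G` with the vertex means) is `UU (nu x p) * Ws / D^n`;
(B2) branches pointing outward are `Full`; (B3) the degree bound.
(W1,W2): moment bounds transported from the density model, for any tilt system with the window law.
-/
import Crest.Agent.Lib.IsingFIID.QRec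
import Crest.Agent.Lib.IsingFIID.GibbsBridge
import Crest.Agent.Lib.IsingFIID.BetheQ
import Crest.Agent.Lib.IsingFIID.WinBasic

set_option autoImplicit false
set_option linter.unusedSectionVars false
set_option linter.unusedVariables false

namespace Crest.Agent.Lib.IsingFIID

open MeasureTheory Finset SimpleGraph
open TiltSys (UU uu)

variable {V : Type*} [DecidableEq V] {G : SimpleGraph V} [G.LocallyFinite] {d : ℕ}

/-- A neighbour away from the root is farther. -/
theorem dist_child (hT : G.IsTree) {o p x c : V} (hpx : G.Adj p x)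
    (hout : x = o ∨ G.dist o x = G.dist o p + 1) (hxc : G.Adj x c) (hc : c ≠ p) :
    G.dist o c = G.dist o x + 1 := by
  rcases hT.dist_eq_dist_add_one_of_adj o hxc with h | h
  · exfalso
    rcases hout with rfl | h2
    · simp at h
    · exact hc (closer_unique hT o hxc hpx.symm h h2)
  · exact h

section Ball

variable {o : V} {N : ℕ}

/-- Membership of the ball. -/
theorem mem_ball_coe (hT : G.IsTree) {v : V} (hv : G.dist o v ≤ N) : v ∈ ((ball G o N : Finset V) : Set V) :=
  Finset.mem_coe.2 ((mem_ball hT).2 hv)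

/-- Sums over `others` of the induced tree are sums over the neighbours of the vertex in `G`, if all of
them lie in the window. -/
theorem sum_others_window {W : Finset V} {x p : WI W} (f : V → ℝ)
    (hall : ∀ c, G.Adj x.1 c → c ≠ p.1 → c ∈ W) :
    ∑ c ∈ others (G.induce (W : Set V)) x p, f c.1 =
      ∑ c ∈ (G.neighborFinset x.1).erase p.1, f c := by
  refine Finset.sum_bij (fun c _ => c.1) ?_ ?_ ?_ ?_
  · intro c hc
    obtain ⟨h1, h2⟩ := mem_others.mp hc
    rw [Finset.mem_erase, mem_neighborFinset]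
    refine ⟨fun h => h2 (Subtype.ext h), ?_⟩
    exact (show G.Adj c.1 x.1 from h1).symm
  · intro a _ b _ h
    exact Subtype.ext h
  · intro c hc
    rw [Finset.mem_erase, mem_neighborFinset] at hc
    refine ⟨⟨c, Finset.mem_coe.2 (hall c hc.2 hc.1)⟩, ?_, rfl⟩
    refine mem_others.mpr ⟨?_, fun h => hc.1 (congrArg Subtype.val h)⟩
    exact (show G.Adj c x.1 from hc.2.symm)
  · intro c _
    rfl

/-- (B3) the degree bound on any window. -/
theorem card_others_le (hreg : G.IsRegularOfDegree d) {W : Finset V} {z w : WI W}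
    (h : (G.induce (W : Set V)).Adj z w) : (others (G.induce (W : Set V)) z w).card ≤ d - 1 := by
  have h1 : (others (G.induce (W : Set V)) z w).card ≤ ((G.neighborFinset z.1).erase w.1).card := by
    refine Finset.card_le_card_of_injOn (fun c => c.1) ?_ ?_
    · intro c hc
      have hc' := mem_others.mp (Finset.mem_coe.1 hc)
      simp only [Finset.coe_erase, Set.mem_sdiff, Finset.mem_coe, mem_neighborFinset,
        Set.mem_singleton_iff]
      exact ⟨(show G.Adj c.1 z.1 from hc'.1).symm, fun h => hc'.2 (Subtype.ext h)⟩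
    · intro a _ b _ hab
      exact Subtype.ext hab
  have hw : w.1 ∈ G.neighborFinset z.1 := by
    rw [mem_neighborFinset]
    exact h
  rw [Finset.card_erase_of_mem hw, G.card_neighborFinset_eq_degree, hreg z.1] at h1
  exact h1

/-- (B2) outward branches are full. -/
theorem full_ball (hT : G.IsTree) (hreg : G.IsRegularOfDegree d) {D : ℕ} (hD : D = d - 1) (j : ℕ)
    {x p : WI (ball G o N)} (hadj : G.Adj p.1 x.1) (hout : x.1 = o ∨ G.dist o x.1 = G.dist o p.1 + 1)
    (hj : G.dist o x.1 + j ≤ N) :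
    Full (G.induce ((ball G o N : Finset V) : Set V)) D j x p := by
  induction j generalizing x p with
  | zero => trivial
  | succ j ih =>
    have hall : ∀ c, G.Adj x.1 c → c ≠ p.1 → c ∈ ball G o N := fun c h1 h2 => by
      rw [mem_ball hT, dist_child hT hadj hout h1 h2]
      omega
    refine ⟨?_, fun c hc => ?_⟩
    · have h1 := sum_others_window (G := G) (W := ball G o N) (x := x) (p := p) (fun _ => (1 : ℝ)) hall
      simp only [Finset.sum_const, nsmul_eq_mul, mul_one] at h1
      have hw : p.1 ∈ G.neighborFinset x.1 := by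
        rw [mem_neighborFinset]
        exact hadj.symm
      rw [Finset.card_erase_of_mem hw, G.card_neighborFinset_eq_degree, hreg x.1] at h1
      rw [hD]
      exact_mod_cast h1
    · obtain ⟨h1, h2⟩ := mem_others.mp hc
      have hxc : G.Adj x.1 c.1 := (show G.Adj c.1 x.1 from h1).symm
      have hcp : c.1 ≠ p.1 := fun h => h2 (Subtype.ext h)
      have hd := dist_child hT hadj hout hxc hcp
      exact ih hxc (Or.inr hd) (by omega)

/-- (B0) the edge attenuation factor from the vertex means. -/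
theorem uOf_gm_eq (hT : G.IsTree) {W : Finset V} (hW : IsWin G W) {θ : ℝ} (h0 : 0 ≤ θ) (h1 : θ < 1)
    (h : V → ℝ) {p x : WI W} (hadj : G.Adj p.1 x.1) :
    nuOf θ (gm G θ W h p.1) (gm G θ W h x.1) =
      nu (G.induce (W : Set V)) θ (fun u => Real.tanh (h u.1)) x p := by
  have hTT : (G.induce (W : Set V)).IsTree := induce_tree hT hW
  have hl : ∀ v : WI W, |Real.tanh (h v.1)| < 1 := fun v =>
    abs_lt.2 ⟨Real.neg_one_lt_tanh _, Real.tanh_lt_one _⟩
  have hne : 1 - θ ^ 2 ≠ 0 := by
    have : 0 < 1 - θ ^ 2 := by nlinarith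
    exact this.ne'
  rw [nuOf_eq_binv θ _ _ hne, gm_eq_mean hT hW h0 h1 h x, gm_eq_mean hT hW h0 h1 h p]
  exact (nu_eq_binv hTT (show (G.induce (W : Set V)).Adj x p from hadj.symm) h0 h1 hl).symm

theorem uOf_sq_gm_eq (hT : G.IsTree) {W : Finset V} (hW : IsWin G W) {θ : ℝ} (h0 : 0 ≤ θ) (h1 : θ < 1)
    (h : V → ℝ) {p x : WI W} (hadj : G.Adj p.1 x.1) :
    uOf θ (gm G θ W h p.1) (gm G θ W h x.1) ^ 2 =
      UU θ (nu (G.induce (W : Set V)) θ (fun u => Real.tanh (h u.1)) x p) := by
  unfold uOf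
  rw [uOf_gm_eq hT hW h0 h1 h hadj]
  rfl

end Ball

/-- (B1) `wTree` on a ball. -/
theorem wTree_eq_Ws (hG : Tree G d) {o : V} {N : ℕ} (hW : IsWin G (ball G o N)) {θ : ℝ} (h0 : 0 ≤ θ)
    (h1 : θ < 1) (h : V → ℝ) {D : ℕ} (hD : D = d - 1) (n : ℕ) {x p : WI (ball G o N)}
    (hadj : G.Adj p.1 x.1) (hout : x.1 = o ∨ G.dist o x.1 = G.dist o p.1 + 1)
    (hn : G.dist o x.1 + n ≤ N) :
    wTree G θ D (gm G θ (ball G o N) h) n p.1 x.1 =
      UU θ (nu (G.induce ((ball G o N : Finset V) : Set V)) θ (fun u => Real.tanh (h u.1)) x p) *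
        Ws (G.induce ((ball G o N : Finset V) : Set V)) θ (fun u => Real.tanh (h u.1)) n x p / (D : ℝ) ^ n := by
  have hT := hG.tree
  have hD2 : (D : ℝ) ≠ 0 := by
    have := hG.hd
    have : 2 ≤ D := by omega
    positivity
  induction n generalizing x p with
  | zero =>
    simp only [wTree, Ws_zero, pow_zero, mul_one, div_one]
    exact uOf_sq_gm_eq hT hW h0 h1 h hadj
  | succ n ih =>
    rw [wTree, Ws_succ, uOf_sq_gm_eq hT hW h0 h1 h hadj, mul_div_assoc]
    congr 1
    have hall : ∀ c, G.Adj x.1 c → c ≠ p.1 → c ∈ ball G o N := fun c h2 h3 => by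
      rw [mem_ball hT, dist_child hT hadj hout h2 h3]
      omega
    -- extend the summand to `V`
    set l : WI (ball G o N) → ℝ := fun u => Real.tanh (h u.1) with hl
    set T := G.induce ((ball G o N : Finset V) : Set V) with hTdef
    have hsum : ∑ c ∈ (G.neighborFinset x.1).erase p.1, wTree G θ D (gm G θ (ball G o N) h) n x.1 c =
        ∑ c ∈ others T x p, (UU θ (nu T θ l c x) * Ws T θ l n c x / (D : ℝ) ^ n) := by
      rw [← sum_others_window (G := G) (W := ball G o N) (x := x) (p := p)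
        (fun c => wTree G θ D (gm G θ (ball G o N) h) n x.1 c) hall]
      refine Finset.sum_congr rfl fun c hc => ?_
      obtain ⟨h2, h3⟩ := mem_others.mp hc
      have hxc : G.Adj x.1 c.1 := (show G.Adj c.1 x.1 from h2).symm
      have hcp : c.1 ≠ p.1 := fun h => h3 (Subtype.ext h)
      have hd := dist_child hT hadj hout hxc hcp
      exact ih hxc (Or.inr hd) (by omega)
    rw [hsum, ← Finset.sum_div, pow_succ]
    field_simp

/-! ### Measurability in the tilts -/

section Meas

variable {ι : Type*} [Fintype ι] [DecidableEq ι] (T : SimpleGraph ι) (θ : ℝ)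

theorem measurable_wtOn_l (p : Finset ι) (σ : ι → Bool) :
    Measurable fun l : ι → ℝ => wtOn T θ l p σ := by
  unfold wtOn
  refine measurable_const.mul ?_
  refine Finset.measurable_prod _ fun v _ => ?_
  exact measurable_const.add ((measurable_pi_apply v).mul measurable_const)

theorem measurable_nu_l (x y : ι) : Measurable fun l : ι → ℝ => nu T θ l x y := by
  unfold nu avg
  refine Measurable.div ?_ ?_
  · exact Finset.measurable_sum _ fun σ _ => (measurable_wtOn_l T θ _ σ).mul measurable_const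
  · exact Finset.measurable_sum _ fun σ _ => measurable_wtOn_l T θ _ σ

theorem measurable_Ws_l (n : ℕ) (x y : ι) : Measurable fun l : ι → ℝ => Ws T θ l n x y := by
  induction n generalizing x y with
  | zero => exact measurable_const
  | succ n ih =>
    simp only [Ws_succ]
    exact Finset.measurable_sum _ fun c _ =>
      ((TiltSys.measurable_UU θ).comp (measurable_nu_l T θ c x)).mul (ih c x)

/-- The tilts with all coordinates in `(-1,1)`. -/
def OpenTilt (l : ι → ℝ) : Prop := ∀ v, |l v| < 1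

theorem measurableSet_openTilt : MeasurableSet {l : ι → ℝ | OpenTilt l} := by
  have : {l : ι → ℝ | OpenTilt l} = ⋂ v, {l | |l v| < 1} := by
    ext l
    simp [OpenTilt]
  rw [this]
  exact MeasurableSet.iInter fun v => measurableSet_lt ((measurable_pi_apply v).abs) measurable_const

open Classical in
/-- Clip a function of the tilts to the admissible tilts. -/
noncomputable def clipT (g : (ι → ℝ) → ℝ) (l : ι → ℝ) : ℝ := if OpenTilt l then g l else 0

theorem clipT_BM {g : (ι → ℝ) → ℝ} (hg : Measurable g) {C : ℝ} (hC0 : 0 ≤ C)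
    (hC : ∀ l, OpenTilt l → |g l| ≤ C) : BM (clipT g) := by
  refine ⟨?_, ⟨C, fun l => ?_⟩⟩
  · classical
    exact Measurable.ite measurableSet_openTilt hg measurable_const
  · unfold clipT
    split_ifs with h
    · exact hC l h
    · simpa using hC0

theorem clipT_of {g : (ι → ℝ) → ℝ} {l : ι → ℝ} (h : OpenTilt l) : clipT g l = g l := if_pos h

end Meas

/-! ### Transport from the density model -/

section Transport

variable {X : Type*} [MeasurableSpace X] {ν : Measure X} [IsProbabilityMeasure ν]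

/-- The window law of the fields, as hypothesis (proved by `law_window_abs` for the own tilt system). -/
def HasWindowLaw (S : TiltSys ν) (G : SimpleGraph V) (θ : ℝ) (κ : ℝ → ℝ) (τ : ℝ) (W : Finset V) : Prop :=
  ∀ {F : (WI W → ℝ) → ℝ}, BM F →
    ∫ ω, F (fun v : WI W => Real.tanh (field G θ κ W ω τ v.1)) ∂(PP V)
      = S.PP (G.induce (W : Set V)) θ (fun y => F (S.tilt y))

theorem tanh_openTilt (h : V → ℝ) {W : Finset V} : OpenTilt (fun v : WI W => Real.tanh (h v.1)) :=
  fun _ => abs_lt.2 ⟨Real.neg_one_lt_tanh _, Real.tanh_lt_one _⟩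

theorem mW_eq_gm (G : SimpleGraph V) (θ : ℝ) (κ : ℝ → ℝ) (W : Finset V) (ω : Om V) (τ : ℝ) :
    mW G θ κ W ω τ = gm G θ W (field G θ κ W ω τ) := rfl

section
variable (S : TiltSys ν) (hG : Tree G d) {θ : ℝ} (h0 : 0 ≤ θ) (h1 : θ < 1)
  {κ : ℝ → ℝ} {τ : ℝ} {p x : V} (hpx : G.Adj p x) {N : ℕ} (hN1 : 1 ≤ N)
include hG hpx hN1

theorem x_mem_ball : x ∈ ((ball G x N : Finset V) : Set V) :=
  mem_ball_coe hG.tree (by simp)

theorem p_mem_ball : p ∈ ((ball G x N : Finset V) : Set V) :=
  mem_ball_coe hG.tree (by rw [dist_eq_one_iff_adj.mpr hpx.symm]; exact hN1)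

include h0 h1 in
/-- **(W1)** Moments of `wTree` on a ball around `x`. -/
theorem integral_wTree_pow_le {m k j P : ℕ} (hN : m + k + j + 1 ≤ N)
    (hlaw : HasWindowLaw S G θ κ τ (ball G x N)) :
    ∫ ω, wTree G θ ((d - 1 : ℕ)) (mW G θ κ (ball G x N) ω τ) (m + k) p x ^ P ∂(PP V) ≤
      ((1 - TiltSys.kp θ * qLow (θ ^ 2 * ((d - 1 : ℕ) : ℝ)) S.s2 j) ^ k + P / ((d - 1 : ℕ) : ℝ) ^ m) ^ P := by
  have hT := hG.tree
  have hd := hG.hd
  have hreg := hG.reg
  have hW : IsWin G (ball G x N) := isWin_ball' hT x N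
  set T := G.induce ((ball G x N : Finset V) : Set V) with hTdef
  have hTT : T.IsTree := induce_tree hT hW
  set D : ℕ := d - 1 with hD
  have hD2 : 2 ≤ D := by omega
  have hDpos : (0 : ℝ) < (D : ℝ) := by positivity
  set x' : WI (ball G x N) := ⟨x, x_mem_ball hG hpx hN1⟩ with hx'
  set p' : WI (ball G x N) := ⟨p, p_mem_ball hG hpx hN1⟩ with hp'
  have hadj : G.Adj p'.1 x'.1 := hpx
  have hxy : T.Adj x' p' := hadj.symm
  have hdeg : ∀ z w : WI (ball G x N), T.Adj z w → (others T z w).card ≤ D :=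
    fun z w h => card_others_le hreg h
  have hf : Full T D (m + k + j + 1) x' p' :=
    full_ball hT hreg hD _ hadj (Or.inl rfl) (by simpa [hx'] using hN)
  set n := m + k with hn
  set g : (WI (ball G x N) → ℝ) → ℝ := fun l =>
    (UU θ (nu T θ l x' p') * Ws T θ l n x' p' / (D : ℝ) ^ n) ^ P with hg
  have hWs01 : ∀ l, OpenTilt l → 0 ≤ Ws T θ l n x' p' / (D : ℝ) ^ n ∧
      Ws T θ l n x' p' / (D : ℝ) ^ n ≤ 1 := by
    intro l hl
    refine ⟨div_nonneg (Ws_nonneg _ _ _ _) (by positivity), ?_⟩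
    rw [div_le_one (by positivity)]
    exact Ws_le h0 h1 hl hdeg n hxy
  have hgb : ∀ l, OpenTilt l → |g l| ≤ 1 := by
    intro l hl
    obtain ⟨h2, h3⟩ := hWs01 l hl
    have hU0 := TiltSys.UU_nonneg θ (nu T θ l x' p')
    have hU1 := TiltSys.UU_le_one h0 h1 (abs_nu_le (T := T) (l := l) h0 h1 hl x' p')
    simp only [hg]
    rw [mul_div_assoc, abs_pow]
    have h4 : |UU θ (nu T θ l x' p') * (Ws T θ l n x' p' / (D : ℝ) ^ n)| ≤ 1 := by
      rw [abs_of_nonneg (mul_nonneg hU0 h2)]
      exact mul_le_one₀ hU1 h2 h3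
    exact pow_le_one₀ (abs_nonneg _) h4
  have hgm : Measurable g := by
    refine Measurable.pow_const ?_ P
    exact (((TiltSys.measurable_UU θ).comp (measurable_nu_l T θ x' p')).mul
      (measurable_Ws_l T θ n x' p')).div_const _
  have hFBM : BM (clipT g) := clipT_BM hgm zero_le_one hgb
  have e1 : ∀ ω : Om V, wTree G θ D (mW G θ κ (ball G x N) ω τ) n p x ^ P =
      clipT g (fun v : WI (ball G x N) => Real.tanh (field G θ κ (ball G x N) ω τ v.1)) := by
    intro ω
    rw [clipT_of (tanh_openTilt _), mW_eq_gm]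
    have := wTree_eq_Ws hG hW h0 h1 (field G θ κ (ball G x N) ω τ) hD n (x := x') (p := p') hadj
      (Or.inl rfl) (by simp [hx', hn]; omega)
    simp only [hg]
    rw [← this]
  simp_rw [e1]
  rw [hlaw hFBM]
  have e2 : ∀ y : WI (ball G x N) → X, clipT g (S.tilt y) =
      (UU θ (nu T θ (S.tilt y) x' p') * Ws T θ (S.tilt y) n x' p' / (D : ℝ) ^ n) ^ P := fun y =>
    clipT_of (fun v => S.abs_tilt_lt y v)
  simp_rw [e2]
  refine le_trans ?_ (S.PP_Ws_final hTT h0 h1 hD2 hdeg j m k hxy hf P)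
  have hm1 : Measurable fun y : WI (ball G x N) → X =>
      (UU θ (nu T θ (S.tilt y) x' p') * Ws T θ (S.tilt y) n x' p' / (D : ℝ) ^ n) ^ P := by
    refine Measurable.pow_const ?_ P
    exact (((S.UU_nu_BM (T := T) h0 h1 x' p').meas).mul (S.Ws_BM (T := T) h0 h1 n x' p').meas).div_const _
  have hm2 : Measurable fun y : WI (ball G x N) → X =>
      (Ws T θ (S.tilt y) n x' p' / (D : ℝ) ^ n) ^ P :=
    Measurable.pow_const ((S.Ws_BM (T := T) h0 h1 n x' p').meas.div_const _) P
  refine S.PB_mono h0 h1 Finset.univ ⟨hm1, ⟨1, fun y => ?_⟩⟩ ⟨hm2, ⟨1, fun y => ?_⟩⟩ fun y => ?_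
  · rw [← e2]
    have := hgb _ (fun v => S.abs_tilt_lt y v)
    rwa [clipT_of (fun v => S.abs_tilt_lt y v)]
  · obtain ⟨h2, h3⟩ := hWs01 _ (fun v => S.abs_tilt_lt y v)
    rw [abs_pow, abs_of_nonneg h2]
    exact pow_le_one₀ h2 h3
  · obtain ⟨h2, h3⟩ := hWs01 _ (fun v => S.abs_tilt_lt y v)
    have hU0 := TiltSys.UU_nonneg θ (nu T θ (S.tilt y) x' p')
    have hU1 := TiltSys.UU_le_one h0 h1 (abs_nu_le (T := T) h0 h1 (fun v => S.abs_tilt_lt y v) x' p')
    rw [mul_div_assoc]
    refine pow_le_pow_left₀ (mul_nonneg hU0 h2) ?_ P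
    nlinarith

include h0 h1 in
/-- **(W2)** The lower bound on the second moment of the cavity. -/
theorem qLow_le_integral_nu {j : ℕ} (hj : j ≤ N) (hlaw : HasWindowLaw S G θ κ τ (ball G x N)) :
    qLow (θ ^ 2 * ((d - 1 : ℕ) : ℝ)) S.s2 j ≤
      ∫ ω, nuOf θ (mW G θ κ (ball G x N) ω τ p) (mW G θ κ (ball G x N) ω τ x) ^ 2 ∂(PP V) := by
  have hT := hG.tree
  have hreg := hG.reg
  have hW : IsWin G (ball G x N) := isWin_ball' hT x N
  set T := G.induce ((ball G x N : Finset V) : Set V) with hTdef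
  have hTT : T.IsTree := induce_tree hT hW
  set D : ℕ := d - 1 with hD
  set x' : WI (ball G x N) := ⟨x, x_mem_ball hG hpx hN1⟩ with hx'
  set p' : WI (ball G x N) := ⟨p, p_mem_ball hG hpx hN1⟩ with hp'
  have hadj : G.Adj p'.1 x'.1 := hpx
  have hxy : T.Adj x' p' := hadj.symm
  have hf : Full T D j x' p' := full_ball hT hreg hD _ hadj (Or.inl rfl) (by simpa [hx'] using hj)
  have hq := S.qLow_le_qq hTT.isAcyclic h0 h1 j hxy hf
  refine hq.trans (le_of_eq ?_)
  set g : (WI (ball G x N) → ℝ) → ℝ := fun l => nu T θ l x' p' ^ 2 with hg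
  have hgm : Measurable g := (measurable_nu_l T θ x' p').pow_const 2
  have hgb : ∀ l, OpenTilt l → |g l| ≤ 1 := by
    intro l hl
    have h2 := abs_nu_le (T := T) (l := l) h0 h1 hl x' p'
    simp only [hg]
    rw [abs_pow]
    exact pow_le_one₀ (abs_nonneg _) h2
  have hFBM : BM (clipT g) := clipT_BM hgm zero_le_one hgb
  have e1 : ∀ ω : Om V, nuOf θ (mW G θ κ (ball G x N) ω τ p) (mW G θ κ (ball G x N) ω τ x) ^ 2 =
      clipT g (fun v : WI (ball G x N) => Real.tanh (field G θ κ (ball G x N) ω τ v.1)) := by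
    intro ω
    rw [clipT_of (tanh_openTilt _)]
    have := uOf_gm_eq hT hW h0 h1 (field G θ κ (ball G x N) ω τ) (p := p') (x := x') hadj
    simp only [hg]
    rw [← this]
    rfl
  simp_rw [e1]
  rw [hlaw hFBM]
  have e2 : ∀ y : WI (ball G x N) → X, clipT g (S.tilt y) = nu T θ (S.tilt y) x' p' ^ 2 := fun y =>
    clipT_of (fun v => S.abs_tilt_lt y v)
  simp_rw [e2]
  unfold TiltSys.qq
  symm
  refine S.PP_of_dep hTT hxy h0 h1 ?_ ?_
  · have := (S.nu_BM T h0 h1 x' p').mul (S.nu_BM T h0 h1 x' p')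
    simpa [sq] using this
  · have := (S.depW_nu (T := T) (θ := θ) x' p').mul (S.depW_nu (T := T) (θ := θ) x' p')
    simpa [sq] using this

end

end Transport

end Crest.Agent.Lib.IsingFIID
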