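/-
Row 160 (S0241): single-solution estimates under the true model on a finite window:
attenuation along paths, first moments and all integer moments of the tree averages of the squared
path products.
-/
import Crest.Agent.Lib.IsingFIID.TrueModel

set_option autoImplicit false
set_option linter.unusedSectionVars false
set_option linter.unusedVariables false

namespace Crest.Agent.Lib.IsingFIID

open MeasureTheory Finset

universe u w

variable {ι : Type u} [Fintype ι] [DecidableEq ι]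
variable {X : Type w} [MeasurableSpace X] {ν : Measure X} [IsProbabilityMeasure ν] (S : TiltSys ν)
variable {T : SimpleGraph ι} {θ : ℝ}

namespace TiltSys

/-! ### Linearity of the model expectation -/

section Lin

variable (h0 : 0 ≤ θ) (h1 : θ < 1)
include h0 h1

theorem PB_integrable (p : Finset ι) {F : (ι → X) → ℝ} (hF : BM F) :
    Integrable (fun ω => F ω * ZZ T θ p (S.tilt ω)) (prodM ι ν) :=
  (hF.mul (S.ZZ_BM T h0 h1 p)).integrable _

theorem PB_add (p : Finset ι) {F G : (ι → X) → ℝ} (hF : BM F) (hG : BM G) :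
    S.PB T θ p (fun ω => F ω + G ω) = S.PB T θ p F + S.PB T θ p G := by
  unfold PB
  simp_rw [add_mul]
  exact integral_add (S.PB_integrable h0 h1 p hF) (S.PB_integrable h0 h1 p hG)

theorem PB_const_mul (p : Finset ι) (c : ℝ) (F : (ι → X) → ℝ) :
    S.PB T θ p (fun ω => c * F ω) = c * S.PB T θ p F := by
  unfold PB
  simp_rw [mul_assoc]
  exact integral_const_mul _ _

theorem PB_sum (p : Finset ι) {κ : Type*} (s : Finset κ) {F : κ → (ι → X) → ℝ}
    (hF : ∀ i ∈ s, BM (F i)) :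
    S.PB T θ p (fun ω => ∑ i ∈ s, F i ω) = ∑ i ∈ s, S.PB T θ p (F i) := by
  unfold PB
  simp_rw [Finset.sum_mul]
  exact integral_finsetSum _ fun i hi => S.PB_integrable h0 h1 p (hF i hi)

theorem PP_sum {κ : Type*} (s : Finset κ) {F : κ → (ι → X) → ℝ}
    (hF : ∀ i ∈ s, BM (F i)) :
    S.PP T θ (fun ω => ∑ i ∈ s, F i ω) = ∑ i ∈ s, S.PP T θ (F i) :=
  S.PB_sum h0 h1 Finset.univ s hF

theorem PB_mono (p : Finset ι) {F G : (ι → X) → ℝ} (hF : BM F) (hG : BM G)
    (hFG : ∀ ω, F ω ≤ G ω) : S.PB T θ p F ≤ S.PB T θ p G := by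
  unfold PB
  refine integral_mono (S.PB_integrable h0 h1 p hF) (S.PB_integrable h0 h1 p hG) fun ω => ?_
  exact mul_le_mul_of_nonneg_right (hFG ω) (ZZ_pos h0 h1 (S.abs_tilt_lt ω) p).le

theorem PB_nonneg (p : Finset ι) {F : (ι → X) → ℝ} (hF : ∀ ω, 0 ≤ F ω) : 0 ≤ S.PB T θ p F := by
  unfold PB
  exact integral_nonneg fun ω => mul_nonneg (hF ω) (ZZ_pos h0 h1 (S.abs_tilt_lt ω) p).le

end Lin

/-- Mass of the model. -/
theorem PP_one (hT : T.IsTree) (h0 : 0 ≤ θ) (h1 : θ < 1) : S.PP T θ (fun _ => 1) = 1 := by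
  unfold PP PB
  simp only [one_mul]
  rw [S.integral_ZZ T h0 h1, ZZ_univ_free hT h0 h1]

/-! ### Measurability of the real-variable functions -/

lemma measurable_bm (θ : ℝ) : Measurable (fun p : ℝ × ℝ => bm θ p.1 p.2) := by
  unfold bm bD
  fun_prop

lemma measurable_UU (θ : ℝ) : Measurable (fun t : ℝ => UU θ t) := by
  unfold UU uu
  fun_prop

/-! ### The cavity recursion at one branch -/

/-- The cavity mean at `x` towards `y` in terms of a branch `c`. -/
theorem nu_eq_bm_branch (hT : T.IsTree) (h0 : 0 ≤ θ) (h1 : θ < 1) {l : ι → ℝ} (hl : ∀ v, |l v| < 1)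
    {x y c : ι} (hxy : T.Adj x y) (hc : T.Adj c x) (hcy : c ≠ y) :
    nu T θ l x y = bm θ (mp T θ (star T x ((others T x y).erase c)) x l) (nu T θ l c x) := by
  set N := (others T x y).erase c with hN
  have hcm : c ∈ others T x y := mem_others.mpr ⟨hc, hcy⟩
  have hN' : ∀ b ∈ N, T.Adj b x := fun b hb =>
    (mem_others.mp (Finset.mem_of_mem_erase hb)).1
  have hcN : c ∉ N := Finset.notMem_erase c _
  have cut := cut_star hT.isAcyclic hN' hc hcN h0 h1 hl
  have hw : wtOn T θ l (side T x y) =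
      glue θ x c (wtOn T θ l (star T x N)) (wtOn T θ l (side T c x)) := by
    funext σ
    rw [← star_others hT.isAcyclic hxy, ← Finset.insert_erase hcm, star_insert]
    exact wtOn_union (disjoint_star hT.isAcyclic hN' hc hcN) (self_mem_star x N)
      (self_mem_side c x) hc.symm (cross_star hT.isAcyclic hN' hc hcN) σ
  unfold nu
  rw [hw, cut.mean_x]
  rfl

/-- The rest of the star lies on the `x`-side of `xc`. -/
theorem star_erase_subset (hT : T.IsTree) {x y c : ι} (hc : T.Adj c x) :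
    star T x ((others T x y).erase c) ⊆ side T x c := by
  intro w hw
  unfold star at hw
  simp only [Finset.mem_union, Finset.mem_singleton, Finset.mem_biUnion] at hw
  rcases hw with rfl | ⟨b, hb, hwb⟩
  · exact self_mem_side _ _
  · have hb1 := Finset.mem_of_mem_erase hb
    have hb2 := Finset.ne_of_mem_erase hb
    exact side_sub_side hT.isAcyclic hc.symm (mem_others.mp hb1).1 hb2 hwb

/-- The constant of the sibling estimate. -/
noncomputable def kp (θ : ℝ) : ℝ := (1 - θ) * (1 - θ ^ 2) * θ ^ 2 / 2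

lemma kp_nonneg (h0 : 0 ≤ θ) (h1 : θ < 1) : 0 ≤ kp θ := by
  unfold kp
  have h3 : 0 ≤ 1 - θ ^ 2 := by nlinarith
  have h4 : 0 ≤ 1 - θ := by linarith
  positivity

/-- **Attenuation step.** -/
theorem PP_atten_step (hT : T.IsTree) (h0 : 0 ≤ θ) (h1 : θ < 1) {x y c : ι} (hxy : T.Adj x y)
    (hc : T.Adj c x) (hcy : c ≠ y) {G : (ι → X) → ℝ} (hG : BM G) (hG0 : ∀ ω, 0 ≤ G ω)
    (hGd : DepW (side T x c) G) :
    S.PP T θ (fun ω => UU θ (nu T θ (S.tilt ω) x y) * G ω)
      ≤ (1 - kp θ * S.qq T θ c x) * S.PP T θ G := by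
  classical
  have hxc : T.Adj x c := hc.symm
  set A := side T x c with hA
  set B := side T c x with hB
  have hBA : ∀ v ∈ B, v ∉ A := fun v hv hv' =>
    Finset.disjoint_left.mp (disjoint_sides hT.isAcyclic hxc) hv' hv
  set Nn := star T x ((others T x y).erase c) with hNn
  have hNA : Nn ⊆ A := star_erase_subset hT hc
  -- notation
  set a : (ι → X) → ℝ := fun ω => mp T θ Nn x (S.tilt ω) with ha
  set b : (ι → X) → ℝ := fun ω => nu T θ (S.tilt ω) x c with hb
  set n : (ι → X) → ℝ := fun ω => nu T θ (S.tilt ω) c x with hn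
  set ZA : (ι → X) → ℝ := fun ω => ZZ T θ A (S.tilt ω) with hZAd
  set ZB : (ι → X) → ℝ := fun ω => ZZ T θ B (S.tilt ω) with hZBd
  have haBM : BM a := S.mp_BM T h0 h1 Nn x
  have hbBM : BM b := S.nu_BM T h0 h1 x c
  have hnBM : BM n := S.nu_BM T h0 h1 c x
  have hZA : BM ZA := S.ZZ_BM T h0 h1 A
  have hZB : BM ZB := S.ZZ_BM T h0 h1 B
  have habs_a : ∀ ω, |a ω| ≤ 1 := fun ω => abs_mp_le h0 h1 (S.abs_tilt_lt ω) _ _
  have habs_b : ∀ ω, |b ω| ≤ 1 := fun ω => abs_mp_le h0 h1 (S.abs_tilt_lt ω) _ _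
  have habs_n : ∀ ω, |n ω| ≤ 1 := fun ω => abs_mp_le h0 h1 (S.abs_tilt_lt ω) _ _
  have hZA0 : ∀ ω, 0 ≤ ZA ω := fun ω => (ZZ_pos h0 h1 (S.abs_tilt_lt ω) A).le
  have hZB0 : ∀ ω, 0 ≤ ZB ω := fun ω => (ZZ_pos h0 h1 (S.abs_tilt_lt ω) B).le
  -- the function in the model
  have hnu : ∀ ω, nu T θ (S.tilt ω) x y = bm θ (a ω) (n ω) := fun ω =>
    nu_eq_bm_branch hT h0 h1 (S.abs_tilt_lt ω) hxy hc hcy
  have hFBM : BM (fun ω => UU θ (nu T θ (S.tilt ω) x y) * G ω) := by
    refine BM.mul ⟨?_, ⟨1, fun ω => ?_⟩⟩ hG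
    · exact (measurable_UU θ).comp (S.nu_BM T h0 h1 x y).meas
    · have h2 : UU θ (nu T θ (S.tilt ω) x y) ≤ 1 :=
        UU_le_one h0 h1 (abs_nu_le h0 h1 (S.abs_tilt_lt ω) x y)
      rw [abs_of_nonneg (UU_nonneg _ _)]
      exact h2
  rw [S.PP_cut hT hxc h0 h1 hFBM]
  simp only [← hA, ← hB]
  -- rewrite the integrand on the product space
  set H : (ι → X) × (ι → X) → ℝ := fun p =>
    (G p.1 * ZA p.1 * ZB p.2) * ((1 + θ * b p.1 * n p.2) * UU θ (bm θ (a p.1) (n p.2))) with hH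
  have e : ∀ p : (ι → X) × (ι → X),
      UU θ (nu T θ (S.tilt (lmerge A p.1 p.2)) x y) * G (lmerge A p.1 p.2) *
        (ZZ T θ A (S.tilt p.1) * ZZ T θ B (S.tilt p.2) *
          bD θ (nu T θ (S.tilt p.1) x c) (nu T θ (S.tilt p.2) c x)) = H p := by
    intro p
    have e1 : a (lmerge A p.1 p.2) = a p.1 :=
      S.depW_mp Nn x _ _ fun v hv => lmerge_apply_mem (hNA hv)
    have e2 : n (lmerge A p.1 p.2) = n p.2 :=
      S.depW_nu c x _ _ fun v hv => lmerge_apply_not_mem (hBA v hv)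
    have e3 : G (lmerge A p.1 p.2) = G p.1 := hGd _ _ fun v hv => lmerge_apply_mem hv
    rw [hnu, e1, e2, e3]
    simp only [hH, hZAd, hZBd, hb, hn, bD]
    ring
  simp_rw [e]
  -- integrability on the product
  have hmeas_a : Measurable (fun p : (ι → X) × (ι → X) => a p.1) := haBM.meas.comp measurable_fst
  have hmeas_b : Measurable (fun p : (ι → X) × (ι → X) => b p.1) := hbBM.meas.comp measurable_fst
  have hmeas_n : Measurable (fun p : (ι → X) × (ι → X) => n p.2) := hnBM.meas.comp measurable_snd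
  have hUU_BM : ∀ s : ℝ, (s = 1 ∨ s = -1) → BM (fun p : (ι → X) × (ι → X) =>
      (1 + s * (θ * b p.1 * n p.2)) * UU θ (bm θ (a p.1) (s * n p.2))) := by
    intro s hs
    refine BM.mul ⟨?_, ⟨1 + 1 * 1, fun p => ?_⟩⟩ ⟨?_, ⟨1, fun p => ?_⟩⟩
    · exact (measurable_const.add (measurable_const.mul
        ((measurable_const.mul hmeas_b).mul hmeas_n)))
    · refine (abs_add_le _ _).trans ?_
      rw [abs_one]
      have : |s * (θ * b p.1 * n p.2)| ≤ 1 * 1 := by
        rw [abs_mul, abs_mul, abs_mul, abs_of_nonneg h0]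
        have hs' : |s| = 1 := by
          rcases hs with rfl | rfl <;> simp
        rw [hs', one_mul]
        have h2 := habs_b p.1
        have h3 := habs_n p.2
        have h4 : |b p.1| * |n p.2| ≤ 1 := by nlinarith [abs_nonneg (b p.1), abs_nonneg (n p.2)]
        nlinarith [abs_nonneg (b p.1), abs_nonneg (n p.2)]
      linarith
    · exact (measurable_UU θ).comp ((measurable_bm θ).comp
        (hmeas_a.prodMk (measurable_const.mul hmeas_n)))
    · have hs' : |s * n p.2| ≤ 1 := by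
        rw [abs_mul]
        have h3 := habs_n p.2
        have hs'' : |s| = 1 := by
          rcases hs with rfl | rfl <;> simp
        rw [hs'', one_mul]
        exact h3
      rw [abs_of_nonneg (UU_nonneg _ _)]
      exact UU_le_one h0 h1 (bm_abs_le h0 h1 (habs_a p.1) hs')
  have hGZZ : BM (fun p : (ι → X) × (ι → X) => G p.1 * ZA p.1 * ZB p.2) :=
    ((hG.mul hZA).comp measurable_fst).mul (hZB.comp measurable_snd)
  have hHBM : BM H := by
    have := hGZZ.mul (hUU_BM 1 (Or.inl rfl))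
    simpa [hH] using this
  -- symmetrise
  have hflip := S.integral_flp₂ hHBM
  have eflip : ∀ p : (ι → X) × (ι → X), H (p.1, S.flp p.2)
      = (G p.1 * ZA p.1 * ZB p.2) * ((1 - θ * b p.1 * n p.2) * UU θ (bm θ (a p.1) (- n p.2))) := by
    intro p
    have e1 : ZB (S.flp p.2) = ZB p.2 := S.ZZ_tilt_flp B p.2
    have e2 : n (S.flp p.2) = - n p.2 := S.nu_tilt_flp c x p.2
    simp only [hH, e1, e2]
    ring
  simp_rw [eflip] at hflip
  have hH' : BM (fun p : (ι → X) × (ι → X) =>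
      (G p.1 * ZA p.1 * ZB p.2) * ((1 - θ * b p.1 * n p.2) * UU θ (bm θ (a p.1) (- n p.2)))) := by
    have := hGZZ.mul (hUU_BM (-1) (Or.inr rfl))
    convert this using 4 with p
    all_goals first | ring | simp
  -- the majorant
  set κ := kp θ with hκ
  set K : (ι → X) × (ι → X) → ℝ := fun p =>
    (G p.1 * ZA p.1) * (ZB p.2 * (1 - κ * n p.2 ^ 2)) with hK
  have hn2 : BM (fun ω => ZB ω * (1 - κ * n ω ^ 2)) := by
    refine hZB.mul ((BM.const 1).sub ((BM.const κ).mul ?_))
    simpa [sq] using hnBM.mul hnBM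
  have hKint : Integrable K ((prodM ι ν).prod (prodM ι ν)) :=
    ((hG.mul hZA).integrable _).mul_prod (hn2.integrable _)
  have hpt : ∀ p : (ι → X) × (ι → X), (H p +
      (G p.1 * ZA p.1 * ZB p.2) * ((1 - θ * b p.1 * n p.2) * UU θ (bm θ (a p.1) (- n p.2)))) / 2
        ≤ K p := by
    intro p
    have h5 := atten_pointwise h0 h1 (habs_a p.1) (habs_b p.1) (habs_n p.2)
    have h6 : 0 ≤ G p.1 * ZA p.1 * ZB p.2 :=
      mul_nonneg (mul_nonneg (hG0 _) (hZA0 _)) (hZB0 _)
    have h7 := mul_le_mul_of_nonneg_left h5 h6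
    simp only [hH, hK, hκ, kp]
    calc _ = G p.1 * ZA p.1 * ZB p.2 * (((1 + θ * b p.1 * n p.2) * UU θ (bm θ (a p.1) (n p.2)) +
            (1 - θ * b p.1 * n p.2) * UU θ (bm θ (a p.1) (-n p.2))) / 2) := by ring
      _ ≤ _ := h7
      _ = _ := by ring
  have hI : ∫ p, H p ∂((prodM ι ν).prod (prodM ι ν)) ≤ ∫ p, K p ∂((prodM ι ν).prod (prodM ι ν)) := by
    have h8 := integral_mono (((hHBM.add hH').mul (BM.const (1 / 2 : ℝ))).integrable _) hKint
      (fun p => by
        have := hpt p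
        simp only
        linarith)
    have h9 : ∫ p, (H p + (G p.1 * ZA p.1 * ZB p.2) * ((1 - θ * b p.1 * n p.2) * UU θ (bm θ (a p.1) (- n p.2)))) * (1 / 2)
        ∂((prodM ι ν).prod (prodM ι ν)) = ∫ p, H p ∂((prodM ι ν).prod (prodM ι ν)) := by
      rw [integral_mul_const, integral_add (hHBM.integrable _) (hH'.integrable _), hflip]
      ring
    rw [h9] at h8
    exact h8
  refine hI.trans (le_of_eq ?_)
  rw [integral_prod_mul (fun ω => G ω * ZA ω) (fun ω => ZB ω * (1 - κ * n ω ^ 2))]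
  -- identify the factors
  have f1 : ∫ ω, G ω * ZA ω ∂(prodM ι ν) = S.PP T θ G := by
    rw [S.PP_of_dep hT hxc h0 h1 hG hGd]
    rfl
  have f2 : ∫ ω, ZB ω * (1 - κ * n ω ^ 2) ∂(prodM ι ν) = 1 - κ * S.qq T θ c x := by
    have h10 : ∀ ω, ZB ω * (1 - κ * n ω ^ 2) = 1 * ZB ω + (- κ) * (n ω ^ 2 * ZB ω) := fun ω => by ring
    simp_rw [h10]
    have hn2' : BM (fun ω => n ω ^ 2 * ZB ω) := by
      have := (hnBM.mul hnBM).mul hZB
      simpa [sq] using this
    rw [integral_add ((hZB.integrable _).const_mul _) ((hn2'.integrable _).const_mul _),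
      integral_const_mul, integral_const_mul]
    have h11 : ∫ ω, ZB ω ∂(prodM ι ν) = 1 := by
      have := S.PB_one (T := T) (θ := θ) hT.isAcyclic h0 h1 hc
      simpa [PB] using this
    rw [h11]
    unfold qq PB
    ring
  rw [f1, f2]
  ring

end TiltSys

/-! ### Path sums -/

/-- Sum over non-backtracking paths of length `n` from `x` away from `y` of the products of the
squared attenuation factors of the messages pointing back to `x`. -/
noncomputable def Ws (T : SimpleGraph ι) (θ : ℝ) (l : ι → ℝ) : ℕ → ι → ι → ℝ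
  | 0, _, _ => 1
  | n + 1, x, y => ∑ c ∈ others T x y, TiltSys.UU θ (nu T θ l c x) * Ws T θ l n c x

lemma Ws_zero (l : ι → ℝ) (x y : ι) : Ws T θ l 0 x y = 1 := rfl

lemma Ws_succ (l : ι → ℝ) (n : ℕ) (x y : ι) :
    Ws T θ l (n + 1) x y = ∑ c ∈ others T x y, TiltSys.UU θ (nu T θ l c x) * Ws T θ l n c x := rfl

lemma Ws_nonneg (l : ι → ℝ) (n : ℕ) (x y : ι) : 0 ≤ Ws T θ l n x y := by
  induction n generalizing x y with
  | zero => exact zero_le_one
  | succ n ih =>
    rw [Ws_succ]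
    exact Finset.sum_nonneg fun c _ => mul_nonneg (TiltSys.UU_nonneg _ _) (ih c x)

lemma Ws_le {D : ℕ} (h0 : 0 ≤ θ) (h1 : θ < 1) {l : ι → ℝ} (hl : ∀ v, |l v| < 1)
    (hdeg : ∀ z w : ι, T.Adj z w → (others T z w).card ≤ D) (n : ℕ) {x y : ι} (hxy : T.Adj x y) :
    Ws T θ l n x y ≤ (D : ℝ) ^ n := by
  induction n generalizing x y with
  | zero => simp [Ws_zero]
  | succ n ih =>
    rw [Ws_succ, pow_succ]
    have h2 : ∀ c ∈ others T x y, TiltSys.UU θ (nu T θ l c x) * Ws T θ l n c x ≤ (D : ℝ) ^ n := by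
      intro c hc
      have h3 := TiltSys.UU_le_one (t := nu T θ l c x) h0 h1 (abs_nu_le h0 h1 hl c x)
      calc _ ≤ 1 * (D : ℝ) ^ n := mul_le_mul h3 (ih (mem_others.mp hc).1) (Ws_nonneg _ _ _ _) zero_le_one
        _ = _ := one_mul _
    refine (Finset.sum_le_sum h2).trans ?_
    rw [Finset.sum_const, nsmul_eq_mul, mul_comm]
    have : ((others T x y).card : ℝ) ≤ D := by exact_mod_cast hdeg x y hxy
    exact mul_le_mul_of_nonneg_left this (by positivity)

namespace TiltSys

theorem UU_nu_BM (h0 : 0 ≤ θ) (h1 : θ < 1) (x y : ι) :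
    BM (fun ω : ι → X => UU θ (nu T θ (S.tilt ω) x y)) := by
  refine ⟨(measurable_UU θ).comp (S.nu_BM T h0 h1 x y).meas, ⟨1, fun ω => ?_⟩⟩
  rw [abs_of_nonneg (UU_nonneg _ _)]
  exact UU_le_one h0 h1 (abs_nu_le h0 h1 (S.abs_tilt_lt ω) x y)

theorem Ws_BM (h0 : 0 ≤ θ) (h1 : θ < 1) (n : ℕ) (x y : ι) :
    BM (fun ω : ι → X => Ws T θ (S.tilt ω) n x y) := by
  induction n generalizing x y with
  | zero => exact BM.const 1
  | succ n ih =>
    simp only [Ws_succ]
    exact BM.finset_sum _ fun c _ => (S.UU_nu_BM h0 h1 c x).mul (ih c x)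

theorem Ws_depW (hT : T.IsTree) (n : ℕ) {x y : ι} (hxy : T.Adj x y) :
    DepW (side T x y) (fun ω : ι → X => Ws T θ (S.tilt ω) n x y) := by
  induction n generalizing x y with
  | zero => exact fun _ _ _ => rfl
  | succ n ih =>
    intro ω ω' h
    simp only [Ws_succ]
    refine Finset.sum_congr rfl fun c hc => ?_
    obtain ⟨hc1, hc2⟩ := mem_others.mp hc
    have hsub := side_sub_side hT.isAcyclic hxy hc1 hc2
    have e1 : nu T θ (S.tilt ω) c x = nu T θ (S.tilt ω') c x :=
      S.depW_nu c x ω ω' fun v hv => h v (hsub hv)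
    have e2 := ih (x := c) (y := x) hc1 ω ω' fun v hv => h v (hsub hv)
    simp only at e2
    rw [e1, e2]

theorem Ws_flp (n : ℕ) (x y : ι) (ω : ι → X) :
    Ws T θ (S.tilt (S.flp ω)) n x y = Ws T θ (S.tilt ω) n x y := by
  induction n generalizing x y with
  | zero => rfl
  | succ n ih =>
    simp only [Ws_succ]
    refine Finset.sum_congr rfl fun c _ => ?_
    rw [ih c x, S.nu_tilt_flp, UU_neg]

/-- One more attenuation factor in front of a path sum. -/
theorem PP_UU_Ws_le (hT : T.IsTree) (h0 : 0 ≤ θ) (h1 : θ < 1) {q : ℝ} {x c : ι} (hc : T.Adj c x)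
    (h2 : 2 ≤ (others T c x).card) (hq : ∀ e ∈ others T c x, q ≤ S.qq T θ e c) (n : ℕ) :
    S.PP T θ (fun ω => UU θ (nu T θ (S.tilt ω) c x) * Ws T θ (S.tilt ω) n c x)
      ≤ (1 - kp θ * q) * S.PP T θ (fun ω => Ws T θ (S.tilt ω) n c x) := by
  have hk := kp_nonneg h0 h1
  -- a sibling different from a given child
  have hsib : ∀ e : ι, ∃ e' ∈ others T c x, e' ≠ e := by
    intro e
    by_contra hne
    push Not at hne
    have : others T c x ⊆ {e} := fun a ha => Finset.mem_singleton.2 (hne a ha)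
    have := Finset.card_le_card this
    simp at this
    omega
  have key : ∀ {G : (ι → X) → ℝ} (hG : BM G) (hG0 : ∀ ω, 0 ≤ G ω) {e' : ι}
      (he' : e' ∈ others T c x) (hGd : DepW (side T c e') G),
      S.PP T θ (fun ω => UU θ (nu T θ (S.tilt ω) c x) * G ω) ≤ (1 - kp θ * q) * S.PP T θ G := by
    intro G hG hG0 e' he' hGd
    obtain ⟨he1, he2⟩ := mem_others.mp he'
    refine (S.PP_atten_step hT h0 h1 hc he1 he2 hG hG0 hGd).trans ?_
    have hPG : 0 ≤ S.PP T θ G := S.PB_nonneg h0 h1 _ hG0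
    refine mul_le_mul_of_nonneg_right ?_ hPG
    have := hq e' he'
    nlinarith
  cases n with
  | zero =>
    obtain ⟨e', he', -⟩ := hsib c
    exact key (BM.const 1) (fun _ => zero_le_one) he' (DepW.const _ 1)
  | succ n =>
    simp only [Ws_succ, Finset.mul_sum]
    rw [S.PP_sum (T := T) h0 h1 _ (fun e _ => (S.UU_nu_BM (T := T) h0 h1 c x).mul
      ((S.UU_nu_BM (T := T) h0 h1 e c).mul (S.Ws_BM (T := T) h0 h1 n e c))),
      S.PP_sum (T := T) h0 h1 _ (fun e _ => (S.UU_nu_BM (T := T) h0 h1 e c).mul (S.Ws_BM (T := T) h0 h1 n e c))]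
    rw [Finset.mul_sum]
    refine Finset.sum_le_sum fun e he => ?_
    obtain ⟨e', he', hne⟩ := hsib e
    obtain ⟨he1, he2⟩ := mem_others.mp he
    obtain ⟨he1', he2'⟩ := mem_others.mp he'
    refine key ((S.UU_nu_BM h0 h1 e c).mul (S.Ws_BM h0 h1 n e c))
      (fun ω => mul_nonneg (UU_nonneg _ _) (Ws_nonneg _ _ _ _)) he' ?_
    have hsub : side T e c ⊆ side T c e' := side_sub_side hT.isAcyclic he1'.symm he1 hne.symm
    intro ω ω' h
    have e1 : nu T θ (S.tilt ω) e c = nu T θ (S.tilt ω') e c :=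
      S.depW_nu e c ω ω' fun v hv => h v (hsub hv)
    have e2 := S.Ws_depW (θ := θ) hT n he1 ω ω' fun v hv => h v (hsub hv)
    simp only at e2 ⊢
    rw [e1, e2]

/-- The richness of a branch. -/
def Rich (T : SimpleGraph ι) (θ q : ℝ) : ℕ → ι → ι → Prop
  | 0, _, _ => True
  | n + 1, x, y => ∀ c ∈ others T x y, 2 ≤ (others T c x).card ∧
      (∀ e ∈ others T c x, q ≤ S.qq T θ e c) ∧ Rich T θ q n c x

/-- **First moment of the path sums.** -/
theorem PP_Ws_le (hT : T.IsTree) (h0 : 0 ≤ θ) (h1 : θ < 1) {q : ℝ} {D : ℕ}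
    (hdeg : ∀ z w : ι, T.Adj z w → (others T z w).card ≤ D) (ha : 0 ≤ 1 - kp θ * q) (n : ℕ) {x y : ι}
    (hxy : T.Adj x y) (hr : S.Rich T θ q n x y) :
    S.PP T θ (fun ω => Ws T θ (S.tilt ω) n x y) ≤ ((D : ℝ) * (1 - kp θ * q)) ^ n := by
  induction n generalizing x y with
  | zero =>
    simp only [Ws_zero, pow_zero]
    exact (S.PP_one hT h0 h1).le
  | succ n ih =>
    simp only [Ws_succ]
    rw [S.PP_sum (T := T) h0 h1 _ (fun c _ => (S.UU_nu_BM (T := T) h0 h1 c x).mul (S.Ws_BM (T := T) h0 h1 n c x))]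
    have h2 : ∀ c ∈ others T x y,
        S.PP T θ (fun ω => UU θ (nu T θ (S.tilt ω) c x) * Ws T θ (S.tilt ω) n c x)
          ≤ (1 - kp θ * q) * ((D : ℝ) * (1 - kp θ * q)) ^ n := by
      intro c hc
      obtain ⟨hr1, hr2, hr3⟩ := hr c hc
      refine (S.PP_UU_Ws_le hT h0 h1 (mem_others.mp hc).1 hr1 hr2 n).trans ?_
      exact mul_le_mul_of_nonneg_left (ih (mem_others.mp hc).1 hr3) ha
    refine (Finset.sum_le_sum h2).trans ?_
    rw [Finset.sum_const, nsmul_eq_mul]
    have h3 : ((others T x y).card : ℝ) ≤ D := by exact_mod_cast hdeg x y hxy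
    have h4 : 0 ≤ (1 - kp θ * q) * ((D : ℝ) * (1 - kp θ * q)) ^ n := by positivity
    calc _ ≤ (D : ℝ) * ((1 - kp θ * q) * ((D : ℝ) * (1 - kp θ * q)) ^ n) :=
          mul_le_mul_of_nonneg_right h3 h4
      _ = _ := by rw [pow_succ]; ring

/-! ### The moment of an average of independent variables in `[0,1]` -/

/-- The elementary moment bound for an average of independent `[0,1]`-valued variables. -/
theorem PP_avg_moment (hT : T.IsTree) (h0 : 0 ≤ θ) (h1 : θ < 1) {κ : Type*} [DecidableEq κ]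
    (I : Finset κ) (V : κ → (ι → X) → ℝ) (hV : ∀ i ∈ I, BM (V i))
    (h01 : ∀ i ∈ I, ∀ ω, 0 ≤ V i ω ∧ V i ω ≤ 1) {N : ℝ} (hN : 0 < N) (hcard : (I.card : ℝ) ≤ N)
    {μ : ℝ} (hμ : 0 ≤ μ) (hE : ∀ i ∈ I, S.PP T θ (V i) ≤ μ)
    (hind : ∀ i ∈ I, ∀ (k : ℕ) (t : ℝ),
      S.PP T θ (fun ω => V i ω * (t + (∑ j ∈ I.erase i, V j ω) / N) ^ k)
        = S.PP T θ (V i) * S.PP T θ (fun ω => (t + (∑ j ∈ I.erase i, V j ω) / N) ^ k)) :
    ∀ (k : ℕ) (t : ℝ), 0 ≤ t →
      S.PP T θ (fun ω => (t + (∑ j ∈ I, V j ω) / N) ^ k) ≤ (t + μ + k / N) ^ k := by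
  intro k
  -- BM of the powers
  have hBMs : ∀ (J : Finset κ), J ⊆ I → ∀ (t : ℝ) (k : ℕ),
      BM (fun ω => (t + (∑ j ∈ J, V j ω) / N) ^ k) := by
    intro J hJ t k
    induction k with
    | zero => simpa using BM.const 1
    | succ k ih =>
      simp only [pow_succ]
      refine ih.mul ((BM.const t).add ?_)
      have := (BM.finset_sum J fun j hj => hV j (hJ hj)).mul (BM.const (1 / N))
      simpa [div_eq_mul_inv] using this
  have hs0 : ∀ (J : Finset κ), J ⊆ I → ∀ ω, 0 ≤ (∑ j ∈ J, V j ω) / N := fun J hJ ω =>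
    div_nonneg (Finset.sum_nonneg fun j hj => (h01 j (hJ hj) ω).1) hN.le
  have hone : (0 : ℝ) ≤ 1 / N := by positivity
  induction k with
  | zero =>
    intro t _
    simp only [pow_zero]
    exact (S.PP_one hT h0 h1).le
  | succ k ih =>
    intro t ht
    set A := S.PP T θ (fun ω => (t + 1 / N + (∑ j ∈ I, V j ω) / N) ^ k) with hA
    have hA0 : 0 ≤ A := S.PB_nonneg h0 h1 _ fun ω => by
      have := hs0 I subset_rfl ω
      positivity
    have hAle : A ≤ (t + μ + ((k + 1 : ℕ) : ℝ) / N) ^ k := by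
      have h2 := ih (t + 1 / N) (by positivity)
      refine h2.trans (le_of_eq ?_)
      congr 1
      push_cast
      field_simp
      ring
    -- pointwise
    have hpt : ∀ ω, (t + (∑ j ∈ I, V j ω) / N) ^ (k + 1)
        ≤ t * (t + 1 / N + (∑ j ∈ I, V j ω) / N) ^ k
          + ∑ i ∈ I, (1 / N) * (V i ω * (t + 1 / N + (∑ j ∈ I.erase i, V j ω) / N) ^ k) := by
      intro ω
      have hnn := hs0 I subset_rfl ω
      have h3 : (t + (∑ j ∈ I, V j ω) / N) ^ (k + 1)
          = t * (t + (∑ j ∈ I, V j ω) / N) ^ k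
            + ∑ i ∈ I, (1 / N) * (V i ω * (t + (∑ j ∈ I, V j ω) / N) ^ k) := by
        have h4 : ∑ i ∈ I, (1 / N) * (V i ω * (t + (∑ j ∈ I, V j ω) / N) ^ k)
            = (∑ j ∈ I, V j ω) / N * (t + (∑ j ∈ I, V j ω) / N) ^ k := by
          simp_rw [← mul_assoc]
          rw [← Finset.sum_mul, ← Finset.mul_sum]
          ring
        rw [h4, pow_succ]
        ring
      rw [h3]
      refine add_le_add ?_ (Finset.sum_le_sum fun i hi => ?_)
      · refine mul_le_mul_of_nonneg_left ?_ ht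
        exact pow_le_pow_left₀ (by positivity) (by linarith) k
      · refine mul_le_mul_of_nonneg_left ?_ hone
        refine mul_le_mul_of_nonneg_left ?_ (h01 i hi ω).1
        refine pow_le_pow_left₀ (by positivity) ?_ k
        have h5 := Finset.add_sum_erase I (fun j => V j ω) hi
        have h6 : (∑ j ∈ I, V j ω) / N = V i ω / N + (∑ j ∈ I.erase i, V j ω) / N := by
          rw [← h5]
          ring
        have h7 : V i ω / N ≤ 1 / N :=
          div_le_div_of_nonneg_right (h01 i hi ω).2 hN.le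
        rw [h6]
        linarith
    have hBM1 : BM (fun ω => t * (t + 1 / N + (∑ j ∈ I, V j ω) / N) ^ k) :=
      (BM.const t).mul (hBMs I subset_rfl _ k)
    have hBM2 : ∀ i ∈ I, BM (fun ω => (1 / N) * (V i ω * (t + 1 / N + (∑ j ∈ I.erase i, V j ω) / N) ^ k)) :=
      fun i hi => (BM.const _).mul ((hV i hi).mul (hBMs _ (Finset.erase_subset _ _) _ k))
    have hmono := S.PB_mono (T := T) h0 h1 (Finset.univ) (hBMs I subset_rfl t (k + 1))
      (hBM1.add (BM.finset_sum I hBM2)) hpt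
    rw [S.PB_add (T := T) h0 h1 _ hBM1 (BM.finset_sum I hBM2),
      S.PB_sum (T := T) h0 h1 _ _ hBM2, S.PB_const_mul h0 h1] at hmono
    have hterm : ∀ i ∈ I, S.PB T θ Finset.univ
        (fun ω => (1 / N) * (V i ω * (t + 1 / N + (∑ j ∈ I.erase i, V j ω) / N) ^ k))
        ≤ (1 / N) * (μ * A) := by
      intro i hi
      rw [S.PB_const_mul h0 h1]
      refine mul_le_mul_of_nonneg_left ?_ hone
      rw [show S.PB T θ Finset.univ (fun ω => V i ω * (t + 1 / N + (∑ j ∈ I.erase i, V j ω) / N) ^ k)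
        = S.PP T θ (fun ω => V i ω * (t + 1 / N + (∑ j ∈ I.erase i, V j ω) / N) ^ k) from rfl, hind i hi k (t + 1 / N)]
      have hP : 0 ≤ S.PP T θ (V i) := S.PB_nonneg h0 h1 _ fun ω => (h01 i hi ω).1
      have hR : S.PP T θ (fun ω => (t + 1 / N + (∑ j ∈ I.erase i, V j ω) / N) ^ k) ≤ A := by
        refine S.PB_mono h0 h1 _ (hBMs _ (Finset.erase_subset _ _) _ k) (hBMs I subset_rfl _ k) fun ω => ?_
        have h8 := hs0 (I.erase i) (Finset.erase_subset _ _) ω
        refine pow_le_pow_left₀ (by positivity) ?_ k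
        have h9 : (∑ j ∈ I.erase i, V j ω) ≤ ∑ j ∈ I, V j ω :=
          Finset.sum_le_sum_of_subset_of_nonneg (Finset.erase_subset _ _)
            fun j hj _ => (h01 j hj ω).1
        have h10 : (∑ j ∈ I.erase i, V j ω) / N ≤ (∑ j ∈ I, V j ω) / N :=
          div_le_div_of_nonneg_right h9 hN.le
        linarith
      have hR0 : 0 ≤ S.PP T θ (fun ω => (t + 1 / N + (∑ j ∈ I.erase i, V j ω) / N) ^ k) :=
        S.PB_nonneg h0 h1 _ fun ω => by
          have := hs0 (I.erase i) (Finset.erase_subset _ _) ω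
          positivity
      exact mul_le_mul (hE i hi) hR hR0 hμ
    have hsum := Finset.sum_le_sum hterm
    rw [Finset.sum_const, nsmul_eq_mul] at hsum
    have hcardN : (I.card : ℝ) * ((1 / N) * (μ * A)) ≤ μ * A := by
      have h11 : (I.card : ℝ) / N ≤ 1 := (div_le_one hN).2 hcard
      have h12 : 0 ≤ μ * A := mul_nonneg hμ hA0
      calc (I.card : ℝ) * ((1 / N) * (μ * A)) = ((I.card : ℝ) / N) * (μ * A) := by ring
        _ ≤ 1 * (μ * A) := mul_le_mul_of_nonneg_right h11 h12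
        _ = _ := one_mul _
    have hfin : S.PP T θ (fun ω => (t + (∑ j ∈ I, V j ω) / N) ^ (k + 1)) ≤ (t + μ) * A := by
      refine hmono.trans ?_
      have : t * S.PB T θ Finset.univ (fun ω => (t + 1 / N + (∑ j ∈ I, V j ω) / N) ^ k) = t * A := rfl
      rw [this]
      nlinarith
    refine hfin.trans ?_
    set Y := t + μ + ((k + 1 : ℕ) : ℝ) / N with hY
    have hY0 : t + μ ≤ Y := by
      have : (0 : ℝ) ≤ ((k + 1 : ℕ) : ℝ) / N := by positivity
      rw [hY]; linarith
    have htμ : 0 ≤ t + μ := by linarith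
    calc (t + μ) * A ≤ (t + μ) * Y ^ k := mul_le_mul_of_nonneg_left hAle htμ
      _ ≤ Y * Y ^ k := mul_le_mul_of_nonneg_right hY0 (pow_nonneg (htμ.trans hY0) k)
      _ = Y ^ (k + 1) := by rw [pow_succ]; ring

end TiltSys

/-! ### The levels of a branch -/

open Classical in
/-- Level `m` of the branch of `x` away from `y`, as directed edges `(w, p)` with `p` the parent. -/
noncomputable def Lev (T : SimpleGraph ι) : ℕ → ι → ι → Finset (ι × ι)
  | 0, x, y => {(x, y)}
  | m + 1, x, y => (others T x y).biUnion fun c => Lev T m c x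

lemma Lev_adj (m : ℕ) {x y : ι} (hxy : T.Adj x y) {q : ι × ι} (hq : q ∈ Lev T m x y) :
    T.Adj q.1 q.2 := by
  induction m generalizing x y with
  | zero =>
    simp only [Lev, Finset.mem_singleton] at hq
    subst hq
    exact hxy
  | succ m ih =>
    simp only [Lev, Finset.mem_biUnion] at hq
    obtain ⟨c, hc, hq⟩ := hq
    exact ih (mem_others.mp hc).1 hq

lemma Lev_side (hT : T.IsAcyclic) (m : ℕ) {x y : ι} (hxy : T.Adj x y) {q : ι × ι}
    (hq : q ∈ Lev T m x y) : side T q.1 q.2 ⊆ side T x y := by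
  induction m generalizing x y with
  | zero =>
    simp only [Lev, Finset.mem_singleton] at hq
    subst hq
    exact subset_rfl
  | succ m ih =>
    simp only [Lev, Finset.mem_biUnion] at hq
    obtain ⟨c, hc, hq⟩ := hq
    obtain ⟨hc1, hc2⟩ := mem_others.mp hc
    exact (ih hc1 hq).trans (side_sub_side hT hxy hc1 hc2)

lemma Lev_disjoint (hT : T.IsAcyclic) (m : ℕ) {x y : ι} (hxy : T.Adj x y) {q q' : ι × ι}
    (hq : q ∈ Lev T m x y) (hq' : q' ∈ Lev T m x y) (hne : q ≠ q') :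
    Disjoint (side T q.1 q.2) (side T q'.1 q'.2) := by
  induction m generalizing x y with
  | zero =>
    simp only [Lev, Finset.mem_singleton] at hq hq'
    exact absurd (hq.trans hq'.symm) hne
  | succ m ih =>
    simp only [Lev, Finset.mem_biUnion] at hq hq'
    obtain ⟨c, hc, hq⟩ := hq
    obtain ⟨c', hc', hq'⟩ := hq'
    obtain ⟨hc1, hc2⟩ := mem_others.mp hc
    obtain ⟨hc1', hc2'⟩ := mem_others.mp hc'
    by_cases hcc : c = c'
    · subst hcc
      exact ih hc1 hq hq'
    · exact Finset.disjoint_of_subset_left (Lev_side hT m hc1 hq)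
        (Finset.disjoint_of_subset_right (Lev_side hT m hc1' hq')
          (disjoint_siblings hT hc1 hc1' hcc))

lemma Lev_card_le {D : ℕ} (hdeg : ∀ z w : ι, T.Adj z w → (others T z w).card ≤ D) (m : ℕ) {x y : ι}
    (hxy : T.Adj x y) : (Lev T m x y).card ≤ D ^ m := by
  induction m generalizing x y with
  | zero => simp [Lev]
  | succ m ih =>
    simp only [Lev]
    refine Finset.card_biUnion_le.trans ?_
    refine (Finset.sum_le_sum fun c hc => ih (mem_others.mp hc).1).trans ?_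
    rw [Finset.sum_const, smul_eq_mul, pow_succ, mul_comm]
    exact Nat.mul_le_mul_left _ (hdeg x y hxy)

/-- Dropping the top `m` levels. -/
lemma Ws_split (hT : T.IsAcyclic) (h0 : 0 ≤ θ) (h1 : θ < 1) {l : ι → ℝ} (hl : ∀ v, |l v| < 1)
    (m k : ℕ) {x y : ι} (hxy : T.Adj x y) :
    Ws T θ l (m + k) x y ≤ ∑ q ∈ Lev T m x y, Ws T θ l k q.1 q.2 := by
  induction m generalizing x y with
  | zero => simp [Lev]
  | succ m ih =>
    rw [show m + 1 + k = (m + k) + 1 by omega, Ws_succ]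
    simp only [Lev]
    rw [Finset.sum_biUnion]
    · refine Finset.sum_le_sum fun c hc => ?_
      obtain ⟨hc1, hc2⟩ := mem_others.mp hc
      have h3 := TiltSys.UU_le_one (t := nu T θ l c x) h0 h1 (abs_nu_le h0 h1 hl c x)
      have h4 := Ws_nonneg (T := T) (θ := θ) l (m + k) c x
      calc _ ≤ 1 * Ws T θ l (m + k) c x := mul_le_mul_of_nonneg_right h3 h4
        _ = Ws T θ l (m + k) c x := one_mul _
        _ ≤ _ := ih hc1
    · intro c hc c' hc' hcc
      simp only [Function.onFun]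
      rw [Finset.disjoint_left]
      intro q hq hq'
      obtain ⟨hc1, _⟩ := mem_others.mp (Finset.mem_coe.mp hc)
      obtain ⟨hc1', _⟩ := mem_others.mp (Finset.mem_coe.mp hc')
      have h5 := Lev_side hT m hc1 hq (self_mem_side _ _)
      have h6 := Lev_side hT m hc1' hq' (self_mem_side _ _)
      exact Finset.disjoint_left.mp (disjoint_siblings hT hc1 hc1' hcc) h5 h6

namespace TiltSys

/-- **All moments of the tree average of the path sums.** -/
theorem PP_Ws_moment (hT : T.IsTree) (h0 : 0 ≤ θ) (h1 : θ < 1) {D : ℕ} (hD : 1 ≤ D)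
    (hdeg : ∀ z w : ι, T.Adj z w → (others T z w).card ≤ D) {μ : ℝ} (hμ : 0 ≤ μ) (m k : ℕ) {x y : ι}
    (hxy : T.Adj x y)
    (hE : ∀ q ∈ Lev T m x y, S.PP T θ (fun ω => Ws T θ (S.tilt ω) k q.1 q.2) ≤ (D : ℝ) ^ k * μ)
    (P : ℕ) :
    S.PP T θ (fun ω => (Ws T θ (S.tilt ω) (m + k) x y / (D : ℝ) ^ (m + k)) ^ P)
      ≤ (μ + P / (D : ℝ) ^ m) ^ P := by
  classical
  have hDpos : (0 : ℝ) < D := by exact_mod_cast hD
  have hDk : (0 : ℝ) < (D : ℝ) ^ k := by positivity
  have hDm : (0 : ℝ) < (D : ℝ) ^ m := by positivity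
  set I := Lev T m x y with hI
  set V : ι × ι → (ι → X) → ℝ := fun q ω => Ws T θ (S.tilt ω) k q.1 q.2 / (D : ℝ) ^ k with hV
  have hVBM : ∀ q, BM (V q) := fun q => by
    have := (S.Ws_BM (T := T) h0 h1 k q.1 q.2).mul (BM.const (1 / (D : ℝ) ^ k))
    simpa [hV, div_eq_mul_inv] using this
  have hV01 : ∀ q ∈ I, ∀ ω, 0 ≤ V q ω ∧ V q ω ≤ 1 := fun q hq ω => by
    refine ⟨div_nonneg (Ws_nonneg _ _ _ _) hDk.le, ?_⟩
    rw [hV]
    simp only
    rw [div_le_one hDk]
    exact Ws_le h0 h1 (S.abs_tilt_lt ω) hdeg k (Lev_adj m hxy hq)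
  have hmean : ∀ q ∈ I, S.PP T θ (V q) ≤ μ := fun q hq => by
    have h2 := hE q hq
    have e : S.PP T θ (V q) = (1 / (D : ℝ) ^ k) * S.PP T θ (fun ω => Ws T θ (S.tilt ω) k q.1 q.2) := by
      rw [← S.PB_const_mul h0 h1]
      congr 1
      funext ω
      simp only [hV]
      ring
    rw [e, div_mul_eq_mul_div, one_mul, div_le_iff₀ hDk]
    linarith
  have hind : ∀ i ∈ I, ∀ (j : ℕ) (t : ℝ),
      S.PP T θ (fun ω => V i ω * (t + (∑ q ∈ I.erase i, V q ω) / (D : ℝ) ^ m) ^ j)
        = S.PP T θ (V i) * S.PP T θ (fun ω => (t + (∑ q ∈ I.erase i, V q ω) / (D : ℝ) ^ m) ^ j) := by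
    intro i hi j t
    have hadj := Lev_adj m hxy hi
    have hBMG : BM (fun ω => (t + (∑ q ∈ I.erase i, V q ω) / (D : ℝ) ^ m) ^ j) := by
      induction j with
      | zero => simpa using BM.const 1
      | succ j ih =>
        simp only [pow_succ]
        refine ih.mul ((BM.const t).add ?_)
        have := (BM.finset_sum (I.erase i) fun q _ => hVBM q).mul (BM.const (1 / (D : ℝ) ^ m))
        simpa [div_eq_mul_inv] using this
    have hFd : DepW (side T i.1 i.2) (V i) := fun ω ω' h => by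
      simp only [hV]
      have := S.Ws_depW (θ := θ) hT k hadj ω ω' h
      simp only at this
      rw [this]
    have hGd : DepW (side T i.2 i.1)
        (fun ω => (t + (∑ q ∈ I.erase i, V q ω) / (D : ℝ) ^ m) ^ j) := by
      intro ω ω' h
      simp only
      congr 3
      refine Finset.sum_congr rfl fun q hq => ?_
      obtain ⟨hq1, hq2⟩ := Finset.mem_erase.mp hq
      have hqadj := Lev_adj m hxy hq2
      have hdisj := Lev_disjoint hT.isAcyclic m hxy hq2 hi hq1
      have hsub : side T q.1 q.2 ⊆ side T i.2 i.1 := by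
        intro w hw
        rw [← compl_side hT hadj, Finset.mem_compl]
        exact fun hw' => Finset.disjoint_left.mp hdisj hw hw'
      simp only [hV]
      have := S.Ws_depW (θ := θ) hT k hqadj ω ω' fun v hv => h v (hsub hv)
      simp only at this
      rw [this]
    have hev : ∀ ω, V i (S.flp ω) = V i ω := fun ω => by
      simp only [hV]
      rw [S.Ws_flp]
    have h3 := S.PP_even_mul hT hadj.symm h0 h1 (hVBM i) hBMG hFd hGd hev
    rw [h3, S.PP_of_dep hT hadj h0 h1 (hVBM i) hFd, S.PP_of_dep hT hadj.symm h0 h1 hBMG hGd]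
  have hcardN : (I.card : ℝ) ≤ (D : ℝ) ^ m := by
    have := Lev_card_le (T := T) hdeg m hxy
    exact_mod_cast this
  have hmom := S.PP_avg_moment hT h0 h1 I V (fun q _ => hVBM q) hV01 hDm hcardN hμ hmean hind P 0 le_rfl
  simp only [zero_add] at hmom
  refine le_trans ?_ hmom
  refine S.PB_mono h0 h1 _ ?_ ?_ ?_
  · have h4 : BM (fun ω => Ws T θ (S.tilt ω) (m + k) x y / (D : ℝ) ^ (m + k)) := by
      have := (S.Ws_BM (T := T) h0 h1 (m + k) x y).mul (BM.const (1 / (D : ℝ) ^ (m + k)))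
      simpa [div_eq_mul_inv] using this
    induction P with
    | zero => simpa using BM.const 1
    | succ P ih =>
      simp only [pow_succ]
      have hm' := S.PP_avg_moment hT h0 h1 I V (fun q _ => hVBM q) hV01 hDm hcardN hμ hmean hind P 0 le_rfl
      simp only [zero_add] at hm'
      exact (ih hm').mul h4
  · have h4 : BM (fun ω => (∑ q ∈ I, V q ω) / (D : ℝ) ^ m) := by
      have := (BM.finset_sum I fun q _ => hVBM q).mul (BM.const (1 / (D : ℝ) ^ m))
      simpa [div_eq_mul_inv] using this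
    induction P with
    | zero => simpa using BM.const 1
    | succ P ih =>
      simp only [pow_succ]
      have hm' := S.PP_avg_moment hT h0 h1 I V (fun q _ => hVBM q) hV01 hDm hcardN hμ hmean hind P 0 le_rfl
      simp only [zero_add] at hm'
      exact (ih hm').mul h4
  · intro ω
    refine pow_le_pow_left₀ (div_nonneg (Ws_nonneg _ _ _ _) (by positivity)) ?_ P
    have h5 := Ws_split hT.isAcyclic h0 h1 (S.abs_tilt_lt ω) m k hxy
    have h6 : (∑ q ∈ I, V q ω) / (D : ℝ) ^ m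
        = (∑ q ∈ I, Ws T θ (S.tilt ω) k q.1 q.2) / (D : ℝ) ^ (m + k) := by
      simp only [hV]
      rw [← Finset.sum_div, pow_add]
      field_simp
    rw [h6]
    exact div_le_div_of_nonneg_right h5 (by positivity)

end TiltSys

end Crest.Agent.Lib.IsingFIID
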