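/-
Row 160 (S0241): the lower bound for the second moment of the messages, one step:
`q_x ≥ t/(1+t)`, `t = s₂ + θ² Σ_c q_c`: Bayes and Cauchy-Schwarz with the linear estimator
`f = l_x + θ Σ_c ν_c`, by induction over the branches of the star at `x`.
-/
import Crest.Agent.Lib.IsingFIID.Static

set_option autoImplicit false
set_option linter.unusedSectionVars false
set_option linter.unusedVariables false

namespace Crest.Agent.Lib.IsingFIID

open MeasureTheory Finset

universe u w

variable {ι : Type u} [Fintype ι] [DecidableEq ι]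
variable {X : Type w} [MeasurableSpace X] {ν : Measure X} [IsProbabilityMeasure ν] (S : TiltSys ν)
variable {T : SimpleGraph ι} {θ : ℝ}

namespace TiltSys

/-- The second moment of the tilt. -/
noncomputable def s2 : ℝ := ∫ a, S.L a ^ 2 ∂ν

lemma L_BM : BM S.L := ⟨S.meas, ⟨S.c, S.bd⟩⟩

lemma s2_nonneg : 0 ≤ S.s2 := integral_nonneg fun _ => sq_nonneg _

lemma abs_L_le_one (a : X) : |S.L a| ≤ 1 := (S.bd a).trans S.c_lt.le

lemma s2_le_one : S.s2 ≤ 1 := by
  have h : S.s2 ≤ ∫ _a : X, (1 : ℝ) ∂ν := by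
    refine integral_mono ?_ (integrable_const _) fun a => ?_
    · have := S.L_BM.mul S.L_BM
      simpa [sq] using this.integrable ν
    · have := abs_le.1 (S.abs_L_le_one a)
      show S.L a ^ 2 ≤ 1
      nlinarith
  simpa using h

/-- A function of one coordinate. -/
lemma integral_coord {g : X → ℝ} (hg : BM g) (x : ι) :
    ∫ ω : ι → X, g (ω x) ∂(prodM ι ν) = ∫ a, g a ∂ν := by
  have h := (measurePreserving_eval_infinitePi (fun _ : ι => ν) x)
  have h2 := integral_map (μ := prodM ι ν) h.measurable.aemeasurable (f := g)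
    (by rw [h.map_eq]; exact hg.meas.aestronglyMeasurable)
  rw [h.map_eq] at h2
  exact h2.symm

end TiltSys

lemma integral_add4q {α : Type*} [MeasurableSpace α] {μ : Measure α} {f g h k : α → ℝ}
    (hf : Integrable f μ) (hg : Integrable g μ) (hh : Integrable h μ) (hk : Integrable k μ) :
    ∫ ω, f ω + g ω + h ω + k ω ∂μ = ∫ ω, f ω ∂μ + ∫ ω, g ω ∂μ + ∫ ω, h ω ∂μ + ∫ ω, k ω ∂μ := by
  have i12 : Integrable (fun ω => f ω + g ω) μ := hf.add hg
  have i123 : Integrable (fun ω => f ω + g ω + h ω) μ := i12.add hh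
  rw [integral_add i123 hk, integral_add i12 hh, integral_add hf hg]

lemma integral_add6q {α : Type*} [MeasurableSpace α] {μ : Measure α} {f g h k m n : α → ℝ}
    (hf : Integrable f μ) (hg : Integrable g μ) (hh : Integrable h μ) (hk : Integrable k μ)
    (hm : Integrable m μ) (hn : Integrable n μ) :
    ∫ ω, f ω + g ω + h ω + k ω + m ω + n ω ∂μ
      = ∫ ω, f ω ∂μ + ∫ ω, g ω ∂μ + ∫ ω, h ω ∂μ + ∫ ω, k ω ∂μ + ∫ ω, m ω ∂μ + ∫ ω, n ω ∂μ := by
  have i12 : Integrable (fun ω => f ω + g ω) μ := hf.add hg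
  have i123 : Integrable (fun ω => f ω + g ω + h ω) μ := i12.add hh
  have i4 : Integrable (fun ω => f ω + g ω + h ω + k ω) μ := i123.add hk
  have i5 : Integrable (fun ω => f ω + g ω + h ω + k ω + m ω) μ := i4.add hm
  rw [integral_add i5 hn, integral_add i4 hm, integral_add i123 hk, integral_add i12 hh,
    integral_add hf hg]

/-- Functions of disjoint sets of coordinates are independent. -/
theorem integral_mul_of_disj {A B : Finset ι} (hAB : Disjoint A B) {F G : (ι → X) → ℝ}
    (hF : BM F) (hG : BM G) (hFd : TiltSys.DepW A F) (hGd : TiltSys.DepW B G) :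
    ∫ ω, F ω * G ω ∂(prodM ι ν) = (∫ ω, F ω ∂(prodM ι ν)) * ∫ ω, G ω ∂(prodM ι ν) := by
  have hBA : ∀ v ∈ B, v ∉ A := fun v hv hv' => Finset.disjoint_left.mp hAB hv' hv
  conv_lhs => rw [← map_lmerge ν A]
  rw [integral_map (measurable_lmerge A).aemeasurable (hF.mul hG).meas.aestronglyMeasurable]
  have e : ∀ p : (ι → X) × (ι → X), F (lmerge A p.1 p.2) * G (lmerge A p.1 p.2) = F p.1 * G p.2 := by
    intro p
    rw [hFd _ p.1 (fun v hv => lmerge_apply_mem hv),
      hGd _ p.2 (fun v hv => lmerge_apply_not_mem (hBA v hv))]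
  simp_rw [e]
  exact integral_prod_mul F G

namespace TiltSys

/-- The linear estimator on the star at `x`. -/
noncomputable def fstar (T : SimpleGraph ι) (θ : ℝ) (x : ι) (N : Finset ι) (ω : ι → X) : ℝ :=
  S.L (ω x) + θ * ∑ c ∈ N, nu T θ (S.tilt ω) c x

/-- The value of the correlation. -/
noncomputable def tstar (T : SimpleGraph ι) (θ : ℝ) (x : ι) (N : Finset ι) : ℝ :=
  S.s2 + θ ^ 2 * ∑ c ∈ N, S.qq T θ c x

lemma fstar_BM (h0 : 0 ≤ θ) (h1 : θ < 1) (x : ι) (N : Finset ι) :
    BM (S.fstar T θ x N) := by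
  unfold fstar
  refine ⟨?_, ?_⟩
  · refine (S.meas.comp (measurable_pi_apply x)).add (measurable_const.mul ?_)
    exact Finset.measurable_sum _ fun c _ => (S.nu_BM T h0 h1 c x).meas
  · have h2 := (S.L_BM.comp (measurable_pi_apply x)).add
      ((BM.const θ).mul (BM.finset_sum N fun c _ => S.nu_BM T h0 h1 c x))
    exact h2.bdd

lemma qq_nonneg (h0 : 0 ≤ θ) (h1 : θ < 1) (x y : ι) : 0 ≤ S.qq T θ x y :=
  S.PB_nonneg h0 h1 _ fun _ => sq_nonneg _

lemma tstar_nonneg (h0 : 0 ≤ θ) (h1 : θ < 1) (x : ι) (N : Finset ι) : 0 ≤ S.tstar T θ x N := by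
  unfold tstar
  have := S.s2_nonneg
  have : 0 ≤ ∑ c ∈ N, S.qq T θ c x := Finset.sum_nonneg fun c _ => S.qq_nonneg h0 h1 c x
  positivity

/-- Mass of the star part. -/
lemma PB_star_one (hT : T.IsAcyclic) (h0 : 0 ≤ θ) (h1 : θ < 1) {x : ι} {N : Finset ι}
    (hN : ∀ b ∈ N, T.Adj b x) : S.PB T θ (star T x N) (fun _ => 1) = 1 := by
  unfold PB
  simp only [one_mul]
  rw [S.integral_ZZ T h0 h1, ZZ_star_free hT h0 h1 _ x N le_rfl hN]

/-- Factorisation of a double density. -/
lemma integral_two {A B : Finset ι} (hAB : Disjoint A B) (h0 : 0 ≤ θ) (h1 : θ < 1)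
    {F G : (ι → X) → ℝ} (hF : BM F) (hG : BM G) (hFd : DepW A F) (hGd : DepW B G) :
    ∫ ω, (F ω * ZZ T θ A (S.tilt ω)) * (G ω * ZZ T θ B (S.tilt ω)) ∂(prodM ι ν)
      = S.PB T θ A F * S.PB T θ B G :=
  integral_mul_of_disj hAB (hF.mul (S.ZZ_BM T h0 h1 A)) (hG.mul (S.ZZ_BM T h0 h1 B))
    (hFd.mul (S.depW_ZZ A)) (hGd.mul (S.depW_ZZ B))

/-- The recursion of the two identities along the star. -/
theorem star_moments (hT : T.IsAcyclic) (h0 : 0 ≤ θ) (h1 : θ < 1) (x : ι) (N : Finset ι)
    (hN : ∀ b ∈ N, T.Adj b x) :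
    S.PB T θ (star T x N) (fun ω => mp T θ (star T x N) x (S.tilt ω) * S.fstar T θ x N ω)
        = S.tstar T θ x N ∧
      S.PB T θ (star T x N) (fun ω => S.fstar T θ x N ω ^ 2)
        ≤ S.tstar T θ x N + S.tstar T θ x N ^ 2 := by
  induction N using Finset.induction_on with
  | empty =>
    have hZ : ∀ ω : ι → X, ZZ T θ {x} (S.tilt ω) = 1 := by
      intro ω
      unfold ZZ
      simp only [wtOn_singleton]
      rw [Finset.sum_add_distrib, ← Finset.mul_sum, sum_sp, sum_one_cfg]
      field_simp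
      simp
    have hL2 : BM (fun a => S.L a ^ 2) := by simpa [sq] using S.L_BM.mul S.L_BM
    have hint : ∫ ω : ι → X, S.L (ω x) ^ 2 ∂(prodM ι ν) = S.s2 := integral_coord hL2 x
    have hf : ∀ ω : ι → X, S.fstar T θ x ∅ ω = S.L (ω x) := fun ω => by simp [fstar]
    have hm : ∀ ω : ι → X, mp T θ {x} x (S.tilt ω) = S.L (ω x) := fun ω => avg_wtOn_singleton x
    constructor
    · rw [star_empty]
      unfold PB
      simp only [hZ, hf, hm, mul_one]
      simp only [tstar, Finset.sum_empty, mul_zero, add_zero]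
      rw [← hint]
      simp only [sq]
    · rw [star_empty]
      unfold PB
      simp only [hZ, hf, mul_one]
      rw [hint]
      simp only [tstar, Finset.sum_empty, mul_zero, add_zero]
      nlinarith [sq_nonneg S.s2]
  | insert c N hcN ih =>
    have hNb : ∀ b ∈ N, T.Adj b x := fun b hb => hN b (Finset.mem_insert_of_mem hb)
    have hc : T.Adj c x := hN c (Finset.mem_insert_self _ _)
    obtain ⟨ih1, ih2⟩ := ih hNb
    set A := star T x N with hA
    set B := side T c x with hB
    have hAB : Disjoint A B := disjoint_star hT hNb hc hcN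
    have hstar : star T x (insert c N) = A ∪ B := star_insert x c N
    -- notation
    set a : (ι → X) → ℝ := fun ω => mp T θ A x (S.tilt ω) with ha
    set n : (ι → X) → ℝ := fun ω => nu T θ (S.tilt ω) c x with hn
    set f : (ι → X) → ℝ := S.fstar T θ x N with hf
    set ZA : (ι → X) → ℝ := fun ω => ZZ T θ A (S.tilt ω) with hZA
    set ZB : (ι → X) → ℝ := fun ω => ZZ T θ B (S.tilt ω) with hZB
    have haBM : BM a := S.mp_BM T h0 h1 A x
    have hnBM : BM n := S.nu_BM T h0 h1 c x
    have hfBM : BM f := S.fstar_BM h0 h1 x N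
    have had : DepW A a := S.depW_mp A x
    have hnd : DepW B n := S.depW_nu c x
    have hfd : DepW A f := by
      intro ω ω' h
      simp only [hf, fstar]
      have hx : ω x = ω' x := h x (self_mem_star x N)
      rw [hx]
      congr 2
      refine Finset.sum_congr rfl fun b hb => ?_
      refine S.depW_nu b x ω ω' fun v hv => h v ?_
      show v ∈ star T x N
      unfold star
      exact Finset.mem_union_right _ (Finset.mem_biUnion.2 ⟨b, hb, hv⟩)
    -- pointwise formulas
    have hcut : ∀ ω : ι → X, Cut θ A x c (wtOn T θ (S.tilt ω) A) (wtOn T θ (S.tilt ω) B) :=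
      fun ω => cut_star hT hNb hc hcN h0 h1 (S.abs_tilt_lt ω)
    have hw : ∀ (ω : ι → X) (σ : ι → Bool), wtOn T θ (S.tilt ω) (A ∪ B) σ
        = glue θ x c (wtOn T θ (S.tilt ω) A) (wtOn T θ (S.tilt ω) B) σ := fun ω σ =>
      wtOn_union hAB (self_mem_star x N) (self_mem_side c x) hc.symm
        (cross_star hT hNb hc hcN) σ
    have hZ' : ∀ ω, ZZ T θ (A ∪ B) (S.tilt ω) = ZA ω * ZB ω * bD θ (a ω) (n ω) := fun ω =>
      ZZ_glue (hcut ω) (hw ω)
    have hm' : ∀ ω, mp T θ (A ∪ B) x (S.tilt ω) = bm θ (a ω) (n ω) := by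
      intro ω
      unfold mp
      have h2 : wtOn T θ (S.tilt ω) (A ∪ B)
          = glue θ x c (wtOn T θ (S.tilt ω) A) (wtOn T θ (S.tilt ω) B) := funext (hw ω)
      rw [h2, (hcut ω).mean_x]
      rfl
    have hbD : ∀ ω, bD θ (a ω) (n ω) ≠ 0 := fun ω =>
      (bD_pos h0 h1 (abs_mp_le h0 h1 (S.abs_tilt_lt ω) _ _)
        (abs_mp_le h0 h1 (S.abs_tilt_lt ω) _ _)).ne'
    have hf' : ∀ ω, S.fstar T θ x (insert c N) ω = f ω + θ * n ω := by
      intro ω
      simp only [hf, hn, fstar]
      rw [Finset.sum_insert hcN]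
      ring
    have ht' : S.tstar T θ x (insert c N) = S.tstar T θ x N + θ ^ 2 * S.qq T θ c x := by
      simp only [tstar]
      rw [Finset.sum_insert hcN]
      ring
    -- the four basic values
    have hA1 : S.PB T θ A (fun _ => 1) = 1 := S.PB_star_one hT h0 h1 hNb
    have hB1 : S.PB T θ B (fun _ => 1) = 1 := S.PB_one hT h0 h1 hc
    have hAa : S.PB T θ A a = 0 := S.PB_odd h0 h1 A haBM fun ω => S.mp_tilt_flp A x ω
    have hBn : S.PB T θ B n = 0 := S.PB_odd h0 h1 B hnBM fun ω => S.nu_tilt_flp c x ω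
    have hBq : S.PB T θ B (fun ω => n ω ^ 2) = S.qq T θ c x := rfl
    have hn2 : BM (fun ω => n ω ^ 2) := by simpa [sq] using hnBM.mul hnBM
    have hn3 : BM (fun ω => n ω ^ 3) := by
      have := (hnBM.mul hnBM).mul hnBM
      simpa [pow_succ] using this
    have hf2 : BM (fun ω => f ω ^ 2) := by simpa [sq] using hfBM.mul hfBM
    have hone : BM (fun _ : ι → X => (1 : ℝ)) := BM.const 1
    have hn2d : DepW B (fun ω => n ω ^ 2) := fun ω ω' h => by
      simp only
      rw [hnd ω ω' h]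
    have hn3d : DepW B (fun ω => n ω ^ 3) := fun ω ω' h => by
      simp only
      rw [hnd ω ω' h]
    have hf2d : DepW A (fun ω => f ω ^ 2) := fun ω ω' h => by
      simp only
      rw [hfd ω ω' h]
    have hInt : ∀ {F G : (ι → X) → ℝ}, BM F → BM G →
        Integrable (fun ω => (F ω * ZA ω) * (G ω * ZB ω)) (prodM ι ν) := fun hF hG =>
      ((hF.mul (S.ZZ_BM T h0 h1 A)).mul (hG.mul (S.ZZ_BM T h0 h1 B))).integrable _
    rw [hstar]
    have hstarN : star T x (insert c N) = A ∪ B := hstar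
    rw [show S.tstar T θ x (insert c N) = S.tstar T θ x N + θ ^ 2 * S.qq T θ c x from ht']
    constructor
    · -- the correlation
      have e : ∀ ω, mp T θ (A ∪ B) x (S.tilt ω) * S.fstar T θ x (insert c N) ω *
            ZZ T θ (A ∪ B) (S.tilt ω)
          = ((fun ω => a ω * f ω) ω * ZA ω) * ((fun _ => 1) ω * ZB ω)
            + θ * ((f ω * ZA ω) * (n ω * ZB ω))
            + θ * ((a ω * ZA ω) * (n ω * ZB ω))
            + θ ^ 2 * (((fun _ => 1) ω * ZA ω) * ((fun ω => n ω ^ 2) ω * ZB ω)) := by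
        intro ω
        rw [hm', hf', hZ']
        have h3 := hbD ω
        simp only [bm]
        field_simp
        ring
      unfold PB
      simp_rw [e]
      have i1 := hInt (haBM.mul hfBM) hone
      have i2 := hInt hfBM hnBM
      have i3 := hInt haBM hnBM
      have i4 := hInt hone hn2
      rw [integral_add4q i1 (i2.const_mul θ) (i3.const_mul θ) (i4.const_mul _),
        integral_const_mul, integral_const_mul, integral_const_mul]
      rw [S.integral_two hAB h0 h1 (haBM.mul hfBM) hone (had.mul hfd) (DepW.const _ 1),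
        S.integral_two hAB h0 h1 hfBM hnBM hfd hnd,
        S.integral_two hAB h0 h1 haBM hnBM had hnd,
        S.integral_two hAB h0 h1 hone hn2 (DepW.const _ 1) hn2d]
      rw [hB1, hBn, hA1, hBq, ih1]
      ring
    · -- the square
      have e : ∀ ω, S.fstar T θ x (insert c N) ω ^ 2 * ZZ T θ (A ∪ B) (S.tilt ω)
          = ((fun ω => f ω ^ 2) ω * ZA ω) * ((fun _ => 1) ω * ZB ω)
            + 2 * θ * ((f ω * ZA ω) * (n ω * ZB ω))
            + θ ^ 2 * (((fun _ => 1) ω * ZA ω) * ((fun ω => n ω ^ 2) ω * ZB ω))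
            + θ * (((fun ω => f ω ^ 2 * a ω) ω * ZA ω) * (n ω * ZB ω))
            + 2 * θ ^ 2 * (((fun ω => a ω * f ω) ω * ZA ω) * ((fun ω => n ω ^ 2) ω * ZB ω))
            + θ ^ 3 * ((a ω * ZA ω) * ((fun ω => n ω ^ 3) ω * ZB ω)) := by
        intro ω
        rw [hf', hZ']
        simp only [bD]
        ring
      unfold PB
      simp_rw [e]
      have i1 := hInt hf2 hone
      have i2 := hInt hfBM hnBM
      have i3 := hInt hone hn2
      have i4 := hInt (hf2.mul haBM) hnBM
      have i5 := hInt (haBM.mul hfBM) hn2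
      have i6 := hInt haBM hn3
      rw [integral_add6q i1 (i2.const_mul _) (i3.const_mul _) (i4.const_mul _) (i5.const_mul _)
          (i6.const_mul _),
        integral_const_mul, integral_const_mul, integral_const_mul, integral_const_mul,
        integral_const_mul]
      rw [S.integral_two hAB h0 h1 hf2 hone hf2d (DepW.const _ 1),
        S.integral_two hAB h0 h1 hfBM hnBM hfd hnd,
        S.integral_two hAB h0 h1 hone hn2 (DepW.const _ 1) hn2d,
        S.integral_two hAB h0 h1 (hf2.mul haBM) hnBM (hf2d.mul had) hnd,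
        S.integral_two hAB h0 h1 (haBM.mul hfBM) hn2 (had.mul hfd) hn2d,
        S.integral_two hAB h0 h1 haBM hn3 had hn3d]
      rw [hB1, hBn, hA1, hBq, ih1, hAa]
      have h5 : S.PB T θ A (fun ω => f ω ^ 2) ≤ S.tstar T θ x N + S.tstar T θ x N ^ 2 := ih2
      have h6 : 0 ≤ (θ ^ 2 * S.qq T θ c x) ^ 2 := sq_nonneg _
      nlinarith

/-- **One step of the lower bound for the second moment of the message.** -/
theorem qq_rec (hT : T.IsAcyclic) (h0 : 0 ≤ θ) (h1 : θ < 1) {x y : ι} (hxy : T.Adj x y) :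
    S.tstar T θ x (others T x y) ≤ (1 + S.tstar T θ x (others T x y)) * S.qq T θ x y := by
  have hs := star_others hT hxy
  obtain ⟨h2, h3⟩ := S.star_moments hT h0 h1 x (others T x y) fun b hb => (mem_others.mp hb).1
  rw [hs] at h2 h3
  set t := S.tstar T θ x (others T x y) with ht
  have ht0 : 0 ≤ t := S.tstar_nonneg h0 h1 x _
  set f := S.fstar T θ x (others T x y) with hf
  set a : (ι → X) → ℝ := fun ω => mp T θ (side T x y) x (S.tilt ω) with ha
  have haBM : BM a := S.mp_BM T h0 h1 _ x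
  have hfBM : BM f := S.fstar_BM h0 h1 x _
  have hq : S.PB T θ (side T x y) (fun ω => a ω ^ 2) = S.qq T θ x y := rfl
  -- positivity of the square
  have hpos := S.PB_nonneg (T := T) (θ := θ) h0 h1 (side T x y)
    (F := fun ω => ((1 + t) * a ω - f ω) ^ 2) fun ω => sq_nonneg _
  have e : ∀ ω, ((1 + t) * a ω - f ω) ^ 2
      = (1 + t) ^ 2 * a ω ^ 2 + (-2 * (1 + t)) * (a ω * f ω) + f ω ^ 2 := fun ω => by ring
  simp_rw [e] at hpos
  have ha2 : BM (fun ω => a ω ^ 2) := by simpa [sq] using haBM.mul haBM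
  have hf2 : BM (fun ω => f ω ^ 2) := by simpa [sq] using hfBM.mul hfBM
  have haf := haBM.mul hfBM
  rw [S.PB_add h0 h1 _ (((BM.const _).mul ha2).add ((BM.const _).mul haf)) hf2,
    S.PB_add h0 h1 _ ((BM.const _).mul ha2) ((BM.const _).mul haf),
    S.PB_const_mul h0 h1, S.PB_const_mul h0 h1, hq, h2] at hpos
  have h4 : 0 ≤ (1 + t) * ((1 + t) * S.qq T θ x y - t) := by nlinarith
  have h5 : 0 < 1 + t := by linarith
  have h6 := nonneg_of_mul_nonneg_right h4 h5
  linarith

end TiltSys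

/-! ### The deterministic lower bound -/

/-- All branches are full up to depth `j`. -/
def Full (T : SimpleGraph ι) (D : ℕ) : ℕ → ι → ι → Prop
  | 0, _, _ => True
  | j + 1, x, y => (others T x y).card = D ∧ ∀ c ∈ others T x y, Full T D j c x

/-- The deterministic lower bound on the message second moments at depth `j`. -/
noncomputable def qLow (η s : ℝ) : ℕ → ℝ
  | 0 => s / (1 + s)
  | j + 1 => (s + η * qLow η s j) / (1 + (s + η * qLow η s j))

lemma frac_mono {a b : ℝ} (ha : 0 ≤ a) (hab : a ≤ b) : a / (1 + a) ≤ b / (1 + b) := by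
  rw [div_le_div_iff₀ (by linarith) (by linarith)]
  nlinarith

lemma frac_nonneg {a : ℝ} (ha : 0 ≤ a) : 0 ≤ a / (1 + a) := div_nonneg ha (by linarith)

lemma frac_le_one {a : ℝ} (ha : 0 ≤ a) : a / (1 + a) ≤ 1 := by
  rw [div_le_one (by linarith)]
  linarith

section qLow

variable {η s : ℝ} (hη : 0 ≤ η) (hs : 0 ≤ s)
include hη hs

lemma qLow_nonneg (j : ℕ) : 0 ≤ qLow η s j := by
  induction j with
  | zero => exact frac_nonneg hs
  | succ j ih => exact frac_nonneg (add_nonneg hs (mul_nonneg hη ih))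

lemma qLow_le_one (j : ℕ) : qLow η s j ≤ 1 := by
  cases j with
  | zero => exact frac_le_one hs
  | succ j => exact frac_le_one (add_nonneg hs (mul_nonneg hη (qLow_nonneg hη hs j)))

lemma qLow_mono_succ (j : ℕ) : qLow η s j ≤ qLow η s (j + 1) := by
  induction j with
  | zero =>
    refine frac_mono hs ?_
    have := mul_nonneg hη (qLow_nonneg hη hs 0)
    linarith
  | succ j ih =>
    refine frac_mono (add_nonneg hs (mul_nonneg hη (qLow_nonneg hη hs j))) ?_
    have := mul_le_mul_of_nonneg_left ih hη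
    linarith

lemma qLow_mono : Monotone (qLow η s) := monotone_nat_of_le_succ (qLow_mono_succ hη hs)

/-- **The fixed point bound.** -/
theorem exists_qBar (hη1 : η ≤ 1) (hs1 : s ≤ 1) :
    ∃ qb : ℝ, Filter.Tendsto (qLow η s) Filter.atTop (nhds qb) ∧ 0 ≤ qb ∧ qb ≤ 1 ∧
      Real.sqrt s / 2 ≤ (1 - η) + qb := by
  have hbdd : BddAbove (Set.range (qLow η s)) := ⟨1, by
    rintro _ ⟨j, rfl⟩
    exact qLow_le_one hη hs j⟩
  have hlim := tendsto_atTop_ciSup (qLow_mono hη hs) hbdd
  set qb := ⨆ j, qLow η s j with hqb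
  have h0 : 0 ≤ qb := (qLow_nonneg hη hs 0).trans (le_ciSup hbdd 0)
  have h1 : qb ≤ 1 := ciSup_le fun j => qLow_le_one hη hs j
  refine ⟨qb, hlim, h0, h1, ?_⟩
  -- the fixed point equation
  have hlim2 : Filter.Tendsto (fun j => qLow η s (j + 1)) Filter.atTop
      (nhds ((s + η * qb) / (1 + (s + η * qb)))) := by
    simp only [qLow]
    have h2 : Filter.Tendsto (fun j => s + η * qLow η s j) Filter.atTop (nhds (s + η * qb)) :=
      (hlim.const_mul η).const_add s
    exact h2.div (h2.const_add 1) (by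
      have := mul_nonneg hη h0
      linarith)
  have hfix : qb = (s + η * qb) / (1 + (s + η * qb)) :=
    tendsto_nhds_unique ((Filter.tendsto_add_atTop_iff_nat 1).mpr hlim) hlim2
  have hpos : 0 < 1 + (s + η * qb) := by
    have := mul_nonneg hη h0
    linarith
  have hfix2 : qb * (1 + (s + η * qb)) = s + η * qb := by
    rw [eq_div_iff hpos.ne'] at hfix
    exact hfix
  by_contra hcon
  push Not at hcon
  set r := Real.sqrt s / 2 with hr
  have hr0 : 0 ≤ r := by positivity
  have hr2 : r ^ 2 = s / 4 := by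
    rw [hr, div_pow, Real.sq_sqrt hs]
    norm_num
  have hr1 : r ≤ 1 / 2 := by
    have : Real.sqrt s ≤ 1 := by
      rw [Real.sqrt_le_one]
      exact hs1
    rw [hr]
    linarith
  have hqr : qb ≤ r := by linarith
  have hspos : 0 < s := by
    by_contra hs0
    have hs00 : s = 0 := le_antisymm (not_lt.1 hs0) hs
    rw [hr, hs00] at hcon
    simp at hcon
    linarith
  -- `qb (1-η) + s qb + η qb² = s`
  have key : qb * ((1 - η) + qb) + s * qb ≥ s := by
    nlinarith [mul_nonneg h0 (sub_nonneg.2 hη1), mul_nonneg h0 h0]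
  have h3 : qb * ((1 - η) + qb) ≤ r * r :=
    mul_le_mul hqr hcon.le (by linarith) hr0
  have h4 : s * qb ≤ s * r := mul_le_mul_of_nonneg_left hqr hs
  nlinarith

end qLow

lemma Full.card {D j : ℕ} {x y : ι} (h : Full T D (j + 1) x y) : (others T x y).card = D := h.1

lemma Full.child {D j : ℕ} {x y c : ι} (h : Full T D (j + 1) x y) (hc : c ∈ others T x y) :
    Full T D j c x := h.2 c hc

lemma Full.mono {D j k : ℕ} (hjk : j ≤ k) {x y : ι} (h : Full T D k x y) : Full T D j x y := by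
  induction j generalizing k x y with
  | zero => trivial
  | succ j ih =>
    obtain ⟨k, rfl⟩ : ∃ k', k = k' + 1 := ⟨k - 1, by omega⟩
    exact ⟨h.1, fun c hc => ih (by omega) (h.2 c hc)⟩

namespace TiltSys

/-- The deterministic lower bound holds on full branches. -/
theorem qLow_le_qq (hT : T.IsAcyclic) (h0 : 0 ≤ θ) (h1 : θ < 1) {D : ℕ} (j : ℕ) {x y : ι}
    (hxy : T.Adj x y) (hf : Full T D j x y) :
    qLow (θ ^ 2 * D) S.s2 j ≤ S.qq T θ x y := by
  have hs := S.s2_nonneg
  have hη : (0 : ℝ) ≤ θ ^ 2 * D := by positivity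
  induction j generalizing x y with
  | zero =>
    have hrec := S.qq_rec hT h0 h1 hxy
    have ht0 : 0 ≤ S.tstar T θ x (others T x y) := S.tstar_nonneg h0 h1 x _
    have hq : S.tstar T θ x (others T x y) / (1 + S.tstar T θ x (others T x y)) ≤ S.qq T θ x y := by
      rw [div_le_iff₀ (by linarith)]
      linarith
    refine le_trans (frac_mono hs ?_) hq
    have hsum : 0 ≤ ∑ c ∈ others T x y, S.qq T θ c x :=
      Finset.sum_nonneg fun c _ => S.qq_nonneg h0 h1 c x
    simp only [tstar]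
    have : 0 ≤ θ ^ 2 * ∑ c ∈ others T x y, S.qq T θ c x := mul_nonneg (sq_nonneg θ) hsum
    linarith
  | succ j ih =>
    have hrec := S.qq_rec hT h0 h1 hxy
    have ht0 : 0 ≤ S.tstar T θ x (others T x y) := S.tstar_nonneg h0 h1 x _
    have hq : S.tstar T θ x (others T x y) / (1 + S.tstar T θ x (others T x y)) ≤ S.qq T θ x y := by
      rw [div_le_iff₀ (by linarith)]
      linarith
    refine le_trans ?_ hq
    have hqj : 0 ≤ qLow (θ ^ 2 * D) S.s2 j := qLow_nonneg hη hs j
    refine frac_mono (add_nonneg hs (mul_nonneg hη hqj)) ?_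
    have hind : ∀ c ∈ others T x y, qLow (θ ^ 2 * D) S.s2 j ≤ S.qq T θ c x := fun c hc =>
      ih (mem_others.mp hc).1 (hf.child hc)
    have hs2 := Finset.sum_le_sum hind
    rw [Finset.sum_const, nsmul_eq_mul, hf.card] at hs2
    simp only [tstar]
    have := mul_le_mul_of_nonneg_left hs2 (sq_nonneg θ)
    nlinarith

/-- Richness from fullness. -/
theorem rich_of_full (hT : T.IsAcyclic) (h0 : 0 ≤ θ) (h1 : θ < 1) {D : ℕ} (hD : 2 ≤ D) (j n : ℕ)
    {x y : ι} (hxy : T.Adj x y) (hf : Full T D (n + j + 1) x y) :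
    S.Rich T θ (qLow (θ ^ 2 * D) S.s2 j) n x y := by
  induction n generalizing x y with
  | zero => trivial
  | succ n ih =>
    intro c hc
    have hc1 := (mem_others.mp hc).1
    have hf' : Full T D (n + j + 1) c x := by
      have : Full T D (n + 1 + j + 1) x y := hf
      exact (Full.child (j := n + 1 + j) this hc).mono (by omega)
    refine ⟨?_, fun e he => ?_, ih hc1 hf'⟩
    · rw [Full.card hf']
      exact hD
    · have he1 := (mem_others.mp he).1
      have hf'' : Full T D (n + j) e c := Full.child hf' he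
      exact (qLow_mono (by positivity) S.s2_nonneg (by omega : j ≤ n + j)).trans
        (S.qLow_le_qq hT h0 h1 _ he1 hf'')

lemma Full_Lev {D : ℕ} (m k : ℕ) {x y : ι} (hf : Full T D (m + k) x y) {q : ι × ι}
    (hq : q ∈ Lev T m x y) : Full T D k q.1 q.2 := by
  induction m generalizing x y with
  | zero =>
    simp only [Lev, Finset.mem_singleton] at hq
    subst hq
    simpa using hf
  | succ m ih =>
    simp only [Lev, Finset.mem_biUnion] at hq
    obtain ⟨c, hc, hq⟩ := hq
    have : Full T D (m + k + 1) x y := by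
      have e : m + 1 + k = m + k + 1 := by omega
      rwa [e] at hf
    exact ih (Full.child this hc) hq

lemma kp_le (h0 : 0 ≤ θ) (h1 : θ < 1) : kp θ ≤ 1 / 2 := by
  unfold kp
  have h2 : θ ^ 2 ≤ 1 := by nlinarith
  have h3 : 1 - θ ≤ 1 := by linarith
  have h4 : 1 - θ ^ 2 ≤ 1 := by nlinarith [sq_nonneg θ]
  have h5 : 0 ≤ 1 - θ := by linarith
  have h6 : 0 ≤ 1 - θ ^ 2 := by linarith
  have h7 : (1 - θ) * (1 - θ ^ 2) ≤ 1 := by nlinarith
  have h8 : (1 - θ) * (1 - θ ^ 2) * θ ^ 2 ≤ 1 := by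
    have : 0 ≤ (1 - θ) * (1 - θ ^ 2) := by positivity
    nlinarith [sq_nonneg θ]
  linarith

/-- **The window moment bound.** -/
theorem PP_Ws_final (hT : T.IsTree) (h0 : 0 ≤ θ) (h1 : θ < 1) {D : ℕ} (hD : 2 ≤ D)
    (hdeg : ∀ z w : ι, T.Adj z w → (others T z w).card ≤ D) (j m k : ℕ) {x y : ι} (hxy : T.Adj x y)
    (hf : Full T D (m + k + j + 1) x y) (P : ℕ) :
    S.PP T θ (fun ω => (Ws T θ (S.tilt ω) (m + k) x y / (D : ℝ) ^ (m + k)) ^ P)
      ≤ ((1 - kp θ * qLow (θ ^ 2 * D) S.s2 j) ^ k + P / (D : ℝ) ^ m) ^ P := by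
  set q := qLow (θ ^ 2 * D) S.s2 j with hq
  have hq0 : 0 ≤ q := qLow_nonneg (by positivity) S.s2_nonneg j
  have hq1 : q ≤ 1 := qLow_le_one (by positivity) S.s2_nonneg j
  have hk := kp_le (θ := θ) h0 h1
  have hk0 := kp_nonneg (θ := θ) h0 h1
  have ha : 0 ≤ 1 - kp θ * q := by nlinarith
  refine S.PP_Ws_moment hT h0 h1 (by omega) hdeg (pow_nonneg ha k) m k hxy (fun q' hq' => ?_) P
  have hadj := Lev_adj m hxy hq'
  have hf' : Full T D (k + j + 1) q'.1 q'.2 :=
    Full_Lev m (k + j + 1) (by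
      have e : m + (k + j + 1) = m + k + j + 1 := by omega
      rwa [e]) hq'
  have hr := S.rich_of_full hT.isAcyclic h0 h1 hD j k hadj hf'
  have := S.PP_Ws_le hT h0 h1 hdeg ha k hadj hr
  rwa [mul_pow] at this

end TiltSys

end Crest.Agent.Lib.IsingFIID
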