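/-
Row 160 (S0241), task E, piece P1: the tilt system of one vertex.

The labels of one vertex `a : VLab` have law `vlaw`.  After `⌈τ⌉₊` rounds the likelihood of the spin
`s = ±1` is `ownLik κ τ a s = ∏ₙ (1 + xₙ s)`, with `xₙ = κ(ringT)(2Uₙ-1)` if round `n` has rung, and
`0` else.  The spin-free part is `ownA`, the tilt is `tanh (ownField)`:
`ownLik κ τ a s = ownA κ τ a * (1 + tanh (ownField κ τ a) * s)`.

`ownNu κ τ` is the law of the labels tilted by `ownA`, a probability measure, and `ownTilt` is the tilt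
system (`TiltSys`) of `L = tanh (ownField)`; the flip `U ↦ 1-U` preserves `ownNu` and changes the sign
of `L`.  The lower bound `own_s2_ge` on the second moment of `L` is the estimate of BLUEPRINT E1 at one
vertex (Bayes and Cauchy-Schwarz with the linear statistic `f = ∑ₙ xₙ`).
-/
import Crest.Agent.Lib.IsingFIID.QRec
import Crest.Agent.Lib.IsingFIID.ChannelQ
import Crest.Agent.Lib.IsingFIID.LabelIso

set_option autoImplicit false

namespace Crest.Agent.Lib.IsingFIID

open MeasureTheory Filter Topology Set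

/-! ### Definitions -/

/-- Reference field of one vertex, as a function of its labels. -/
noncomputable def ownField (κ : ℝ → ℝ) (τ : ℝ) (a : VLab) : ℝ :=
  field0 κ (toOm (fun _ : Unit => a)) τ ()

/-- Likelihood of the spin `s` of one vertex, as a function of its labels. -/
noncomputable def ownLik (κ : ℝ → ℝ) (τ : ℝ) (a : VLab) (s : ℝ) : ℝ :=
  likV κ (toOm (fun _ : Unit => a)) τ () s

/-- The spin-free part of the likelihood. -/
noncomputable def ownA (κ : ℝ → ℝ) (τ : ℝ) (a : VLab) : ℝ :=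
  (ownLik κ τ a 1 + ownLik κ τ a (-1)) / 2

/-- The law of the labels of one vertex, tilted by `ownA`. -/
noncomputable def ownNu (κ : ℝ → ℝ) (τ : ℝ) : Measure VLab :=
  vlaw.withDensity fun a => ENNReal.ofReal (ownA κ τ a)

theorem field0_toOm {V : Type*} (κ : ℝ → ℝ) (τ : ℝ) (x : V → VLab) (v : V) :
    field0 κ (toOm x) τ v = ownField κ τ (x v) := rfl

theorem likV_toOm {V : Type*} (κ : ℝ → ℝ) (τ : ℝ) (x : V → VLab) (v : V) (s : ℝ) :
    likV κ (toOm x) τ v s = ownLik κ τ (x v) s := rfl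

/-! ### One round -/

section Round

open Classical in
/-- The tilt of round `n`: `t` decides whether and when it rings, `u` is the noise. -/
noncomputable def ownX (κ : ℝ → ℝ) (τ : ℝ) (n : ℕ) (t u : Lab) : ℝ :=
  if (t : ℝ) < 1 / 2 ∧ (n : ℝ) + 2 * (t : ℝ) < τ then κ ((n : ℝ) + 2 * (t : ℝ)) * (2 * (u : ℝ) - 1) else 0

variable {κ : ℝ → ℝ} {τ : ℝ}

lemma abs_two_mul_sub_one_le' (u : Lab) : |2 * (u : ℝ) - 1| ≤ 1 := by
  have h0 := u.2.1
  have h1 := u.2.2
  rw [abs_le]; constructor <;> linarith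

lemma abs_ownX_le (hκ : IsStrength κ) (n : ℕ) (t u : Lab) : |ownX κ τ n t u| ≤ 1 / 2 := by
  unfold ownX
  split_ifs
  · rw [abs_mul, abs_of_nonneg (hκ.nonneg _)]
    calc κ _ * |2 * (u : ℝ) - 1| ≤ (1 / 2) * 1 :=
          mul_le_mul (hκ.le _) (abs_two_mul_sub_one_le' _) (abs_nonneg _) (by norm_num)
      _ = 1 / 2 := by norm_num
  · simp

lemma ownX_mem (hκ : IsStrength κ) (n : ℕ) (t u : Lab) : ownX κ τ n t u ∈ Ioo (-1 : ℝ) 1 := by
  have := abs_le.1 (abs_ownX_le (τ := τ) hκ n t u)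
  constructor <;> linarith [this.1, this.2]

lemma ownX_symm (κ : ℝ → ℝ) (τ : ℝ) (n : ℕ) (t u : Lab) :
    ownX κ τ n t (unitInterval.symm u) = - ownX κ τ n t u := by
  unfold ownX
  split_ifs
  · rw [unitInterval.coe_symm_eq]; ring
  · simp

lemma measurable_ownX (hκ : Measurable κ) (τ : ℝ) (n : ℕ) :
    Measurable fun p : Lab × Lab => ownX κ τ n p.1 p.2 := by
  unfold ownX
  have hs : Measurable fun p : Lab × Lab => (p.1 : ℝ) := measurable_subtype_coe.comp measurable_fst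
  have hu : Measurable fun p : Lab × Lab => (p.2 : ℝ) := measurable_subtype_coe.comp measurable_snd
  refine Measurable.ite ?_ ?_ measurable_const
  · exact (measurableSet_lt hs measurable_const).inter
      (measurableSet_lt (measurable_const.add (measurable_const.mul hs)) measurable_const)
  · exact (hκ.comp (measurable_const.add (measurable_const.mul hs))).mul
      ((measurable_const.mul hu).sub measurable_const)

lemma own_measurable_round (n : ℕ) : Measurable fun a : VLab => ((a.1 n, a.2 n) : Lab × Lab) :=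
  ((measurable_pi_apply n).comp measurable_fst).prodMk ((measurable_pi_apply n).comp measurable_snd)

lemma measurable_ownX_label (hκ : Measurable κ) (τ : ℝ) (n : ℕ) :
    Measurable fun a : VLab => ownX κ τ n (a.1 n) (a.2 n) :=
  (measurable_ownX hκ τ n).comp (own_measurable_round n)

lemma own_measurable_artanh : Measurable Real.artanh := by
  unfold Real.artanh
  fun_prop

theorem ownLik_eq (κ : ℝ → ℝ) (τ : ℝ) (a : VLab) (s : ℝ) :
    ownLik κ τ a s = ∏ n ∈ Finset.range ⌈τ⌉₊, (1 + ownX κ τ n (a.1 n) (a.2 n) * s) := by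
  unfold ownLik likV ownX
  refine Finset.prod_congr rfl fun n _ => ?_
  by_cases h : before (toOm fun _ : Unit => a) () n τ
  · have h' : ((a.1 n : ℝ) < 1 / 2 ∧ (n : ℝ) + 2 * (a.1 n : ℝ) < τ) := h
    rw [if_pos h, if_pos h']
    rfl
  · have h' : ¬ ((a.1 n : ℝ) < 1 / 2 ∧ (n : ℝ) + 2 * (a.1 n : ℝ) < τ) := h
    rw [if_neg h, if_neg h']
    ring

theorem ownField_eq (κ : ℝ → ℝ) (τ : ℝ) (a : VLab) :
    ownField κ τ a = ∑ n ∈ Finset.range ⌈τ⌉₊, Real.artanh (ownX κ τ n (a.1 n) (a.2 n)) := by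
  unfold ownField field0 ownX
  refine Finset.sum_congr rfl fun n _ => ?_
  by_cases h : before (toOm fun _ : Unit => a) () n τ
  · have h' : ((a.1 n : ℝ) < 1 / 2 ∧ (n : ℝ) + 2 * (a.1 n : ℝ) < τ) := h
    rw [if_pos h, if_pos h']
    rfl
  · have h' : ¬ ((a.1 n : ℝ) < 1 / 2 ∧ (n : ℝ) + 2 * (a.1 n : ℝ) < τ) := h
    rw [if_neg h, if_neg h', Real.artanh_zero]

/-! ### Pointwise identities -/

lemma tanh_mem' (x : ℝ) : Real.tanh x ∈ Ioo (-1 : ℝ) 1 := Real.tanh_bijOn.mapsTo (mem_univ x)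

lemma own_tanh_le_tanh {a b : ℝ} (h : a ≤ b) : Real.tanh a ≤ Real.tanh b := by
  have := (Real.artanh_le_artanh_iff (tanh_mem' a) (tanh_mem' b)).1
  exact this (by simpa [Real.artanh_tanh] using h)

lemma own_artanh_odd {x : ℝ} (hx : x ∈ Ioo (-1 : ℝ) 1) : Real.artanh (-x) = - Real.artanh x := by
  have e : -x = Real.tanh (-Real.artanh x) := by rw [Real.tanh_neg, Real.tanh_artanh hx]
  calc Real.artanh (-x) = Real.artanh (Real.tanh (-Real.artanh x)) := by rw [← e]
    _ = - Real.artanh x := Real.artanh_tanh _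

lemma own_abs_artanh_le {x : ℝ} (hx : |x| ≤ 1 / 2) : |Real.artanh x| ≤ Real.artanh (1 / 2) := by
  obtain ⟨h1, h2⟩ := abs_le.1 hx
  have hm : x ∈ Ioo (-1 : ℝ) 1 := ⟨by linarith, by linarith⟩
  rw [abs_le]
  constructor
  · have := Real.artanh_le_artanh (x := -(1 / 2)) (y := x) (by norm_num) (by linarith) h1
    rw [own_artanh_odd (x := 1 / 2) (by constructor <;> norm_num)] at this
    exact this
  · exact Real.artanh_le_artanh (by linarith) (by norm_num) h2

/-- One round: `1 + x s = √(1-x²) exp (artanh x · s)`. -/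
lemma own_one_add_mul_eq {x s : ℝ} (hx : x ∈ Ioo (-1 : ℝ) 1) (hs : s = 1 ∨ s = -1) :
    1 + x * s = Real.sqrt (1 - x ^ 2) * Real.exp (Real.artanh x * s) := by
  have hpos : 0 < 1 - x ^ 2 := by nlinarith [hx.1, hx.2]
  have hr : Real.sqrt (1 - x ^ 2) ≠ 0 := (Real.sqrt_pos.2 hpos).ne'
  rcases hs with rfl | rfl
  · rw [mul_one, mul_one, ← Real.cosh_add_sinh, Real.cosh_artanh hx, Real.sinh_artanh hx]
    field_simp
  · rw [mul_neg_one, mul_neg_one, ← Real.cosh_add_sinh, Real.cosh_neg, Real.sinh_neg,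
      Real.cosh_artanh hx, Real.sinh_artanh hx]
    field_simp

/-- The root factor of the likelihood. -/
noncomputable def ownB (κ : ℝ → ℝ) (τ : ℝ) (a : VLab) : ℝ :=
  ∏ n ∈ Finset.range ⌈τ⌉₊, Real.sqrt (1 - ownX κ τ n (a.1 n) (a.2 n) ^ 2)

lemma ownB_pos (hκ : IsStrength κ) (a : VLab) : 0 < ownB κ τ a := by
  refine Finset.prod_pos fun n _ => Real.sqrt_pos.2 ?_
  have := ownX_mem (τ := τ) hκ n (a.1 n) (a.2 n)
  nlinarith [this.1, this.2]

lemma ownLik_exp (hκ : IsStrength κ) (a : VLab) {s : ℝ} (hs : s = 1 ∨ s = -1) :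
    ownLik κ τ a s = ownB κ τ a * Real.exp (ownField κ τ a * s) := by
  rw [ownLik_eq, ownField_eq, ownB, Finset.sum_mul, Real.exp_sum, ← Finset.prod_mul_distrib]
  exact Finset.prod_congr rfl fun n _ => own_one_add_mul_eq (ownX_mem hκ _ _ _) hs

lemma ownA_eq (hκ : IsStrength κ) (a : VLab) :
    ownA κ τ a = ownB κ τ a * Real.cosh (ownField κ τ a) := by
  unfold ownA
  rw [ownLik_exp hκ a (Or.inl rfl), ownLik_exp hκ a (Or.inr rfl), Real.cosh_eq, mul_one, mul_neg_one]
  ring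

theorem ownA_pos (hκ : IsStrength κ) (τ : ℝ) (a : VLab) : 0 < ownA κ τ a := by
  rw [ownA_eq hκ]
  exact mul_pos (ownB_pos hκ a) (Real.cosh_pos _)

/-- The likelihood in terms of the spin-free part and the tilt. -/
theorem ownLik_eq_own (hκ : IsStrength κ) (τ : ℝ) (a : VLab) {s : ℝ} (hs : s = 1 ∨ s = -1) :
    ownLik κ τ a s = ownA κ τ a * (1 + Real.tanh (ownField κ τ a) * s) := by
  rw [ownA_eq hκ, ownLik_exp hκ a hs, Real.tanh_eq_sinh_div_cosh]
  have hc := (Real.cosh_pos (ownField κ τ a)).ne'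
  rcases hs with rfl | rfl
  · rw [mul_one, mul_one, ← Real.cosh_add_sinh]
    field_simp
  · rw [mul_neg_one, mul_neg_one, ← Real.cosh_add_sinh, Real.cosh_neg, Real.sinh_neg]
    field_simp

/-- The same statement for any vertex of any label family. -/
theorem likV_eq_own {V : Type*} (hκ : IsStrength κ) (τ : ℝ) (x : V → VLab) (v : V) {s : ℝ}
    (hs : s = 1 ∨ s = -1) :
    likV κ (toOm x) τ v s = ownA κ τ (x v) * (1 + Real.tanh (field0 κ (toOm x) τ v) * s) :=
  ownLik_eq_own hκ τ (x v) hs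

lemma ownLik_pos (hκ : IsStrength κ) (τ : ℝ) (a : VLab) {s : ℝ} (hs : s = 1 ∨ s = -1) :
    0 < ownLik κ τ a s := by
  rw [ownLik_exp hκ a hs]
  exact mul_pos (ownB_pos hκ a) (Real.exp_pos _)

lemma abs_ownLik_le (hκ : IsStrength κ) (τ : ℝ) (a : VLab) {s : ℝ} (hs : |s| ≤ 1) :
    |ownLik κ τ a s| ≤ (3 / 2 : ℝ) ^ ⌈τ⌉₊ := by
  rw [ownLik_eq, Finset.abs_prod]
  calc ∏ n ∈ Finset.range ⌈τ⌉₊, |1 + ownX κ τ n (a.1 n) (a.2 n) * s|
      ≤ ∏ _n ∈ Finset.range ⌈τ⌉₊, (3 / 2 : ℝ) := by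
        refine Finset.prod_le_prod (fun _ _ => abs_nonneg _) fun n _ => ?_
        have h1 := abs_ownX_le (τ := τ) hκ n (a.1 n) (a.2 n)
        calc |1 + ownX κ τ n (a.1 n) (a.2 n) * s|
            ≤ |1| + |ownX κ τ n (a.1 n) (a.2 n) * s| := abs_add_le _ _
          _ ≤ 1 + 1 / 2 := by
              rw [abs_one, abs_mul]
              have : |ownX κ τ n (a.1 n) (a.2 n)| * |s| ≤ 1 / 2 * 1 :=
                mul_le_mul h1 hs (abs_nonneg _) (by norm_num)
              linarith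
          _ = 3 / 2 := by norm_num
    _ = (3 / 2 : ℝ) ^ ⌈τ⌉₊ := by rw [Finset.prod_const, Finset.card_range]

/-- `ownA` is bounded. -/
theorem ownA_le (hκ : IsStrength κ) (τ : ℝ) (a : VLab) : ownA κ τ a ≤ (3 / 2 : ℝ) ^ ⌈τ⌉₊ := by
  unfold ownA
  have h1 := abs_ownLik_le hκ τ a (s := 1) (by simp)
  have h2 := abs_ownLik_le hκ τ a (s := -1) (by simp)
  have h3 := le_abs_self (ownLik κ τ a 1)
  have h4 := le_abs_self (ownLik κ τ a (-1))
  linarith

theorem measurable_ownLik (hκ : Measurable κ) (τ s : ℝ) : Measurable fun a : VLab => ownLik κ τ a s := by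
  simp only [ownLik_eq]
  exact Finset.measurable_prod _ fun n _ =>
    measurable_const.add ((measurable_ownX_label hκ τ n).mul measurable_const)

theorem measurable_ownField (hκ : Measurable κ) (τ : ℝ) : Measurable (ownField κ τ) := by
  have : ownField κ τ = fun a => ∑ n ∈ Finset.range ⌈τ⌉₊, Real.artanh (ownX κ τ n (a.1 n) (a.2 n)) :=
    funext (ownField_eq κ τ)
  rw [this]
  exact Finset.measurable_sum _ fun n _ => own_measurable_artanh.comp (measurable_ownX_label hκ τ n)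

theorem measurable_ownA (hκ : Measurable κ) (τ : ℝ) : Measurable (ownA κ τ) := by
  unfold ownA
  exact ((measurable_ownLik hκ τ 1).add (measurable_ownLik hκ τ (-1))).div_const 2

lemma measurable_tanh' : Measurable Real.tanh := by
  have : Real.tanh = fun x => Real.sinh x / Real.cosh x := funext Real.tanh_eq_sinh_div_cosh
  rw [this]
  exact Real.measurable_sinh.div Real.measurable_cosh

/-- The bound of the field. -/
lemma abs_ownField_le (hκ : IsStrength κ) (τ : ℝ) (a : VLab) :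
    |ownField κ τ a| ≤ (⌈τ⌉₊ : ℝ) * Real.artanh (1 / 2) := by
  rw [ownField_eq]
  calc |∑ n ∈ Finset.range ⌈τ⌉₊, Real.artanh (ownX κ τ n (a.1 n) (a.2 n))|
      ≤ ∑ n ∈ Finset.range ⌈τ⌉₊, |Real.artanh (ownX κ τ n (a.1 n) (a.2 n))| :=
        Finset.abs_sum_le_sum_abs _ _
    _ ≤ ∑ _n ∈ Finset.range ⌈τ⌉₊, Real.artanh (1 / 2) :=
        Finset.sum_le_sum fun n _ => own_abs_artanh_le (abs_ownX_le hκ _ _ _)
    _ = _ := by simp

/-- The flip of the noise. -/
def ownFlip (a : VLab) : VLab := (a.1, fun n => unitInterval.symm (a.2 n))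

@[simp] lemma ownFlip_ownFlip (a : VLab) : ownFlip (ownFlip a) = a := by
  ext n <;> simp [ownFlip]

lemma measurable_ownFlip : Measurable ownFlip :=
  measurable_fst.prodMk (measurable_pi_iff.2 fun n =>
    unitInterval.measurable_symm.comp ((measurable_pi_apply n).comp measurable_snd))

lemma measurePreserving_flipLam : MeasurePreserving (fun (U : ℕ → Lab) n => unitInterval.symm (U n))
    (lam ℕ) (lam ℕ) := by
  refine ⟨measurable_pi_iff.2 fun n => unitInterval.measurable_symm.comp (measurable_pi_apply n), ?_⟩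
  have := Measure.infinitePi_map_pi (fun _ : ℕ => (volume : Measure Lab))
    (f := fun _ => unitInterval.symm) (fun _ => unitInterval.measurable_symm)
  have h2 : (fun _ : ℕ => (volume : Measure Lab).map unitInterval.symm) = fun _ : ℕ => volume := by
    funext _
    exact unitInterval.measurePreserving_symm.map_eq
  rw [h2] at this
  exact this

lemma measurePreserving_ownFlip : MeasurePreserving ownFlip vlaw vlaw :=
  (MeasurePreserving.id (lam ℕ)).prod measurePreserving_flipLam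

lemma ownX_flip (κ : ℝ → ℝ) (τ : ℝ) (n : ℕ) (a : VLab) :
    ownX κ τ n ((ownFlip a).1 n) ((ownFlip a).2 n) = - ownX κ τ n (a.1 n) (a.2 n) :=
  ownX_symm κ τ n _ _

lemma ownField_flip (hκ : IsStrength κ) (τ : ℝ) (a : VLab) :
    ownField κ τ (ownFlip a) = - ownField κ τ a := by
  rw [ownField_eq, ownField_eq, ← Finset.sum_neg_distrib]
  refine Finset.sum_congr rfl fun n _ => ?_
  rw [ownX_flip, own_artanh_odd (ownX_mem hκ _ _ _)]

lemma ownLik_flip (κ : ℝ → ℝ) (τ s : ℝ) (a : VLab) : ownLik κ τ (ownFlip a) s = ownLik κ τ a (-s) := by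
  rw [ownLik_eq, ownLik_eq]
  refine Finset.prod_congr rfl fun n _ => ?_
  rw [ownX_flip]
  ring

lemma ownA_flip (κ : ℝ → ℝ) (τ : ℝ) (a : VLab) : ownA κ τ (ownFlip a) = ownA κ τ a := by
  unfold ownA
  rw [ownLik_flip, ownLik_flip, neg_neg]
  ring

lemma measurePreserving_ownFlip_nu (hκ : Measurable κ) (τ : ℝ) :
    MeasurePreserving ownFlip (ownNu κ τ) (ownNu κ τ) := by
  refine ⟨measurable_ownFlip, Measure.ext fun s hs => ?_⟩
  have hf : Measurable fun a : VLab => ENNReal.ofReal (ownA κ τ a) :=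
    ENNReal.measurable_ofReal.comp (measurable_ownA hκ τ)
  rw [Measure.map_apply measurable_ownFlip hs]
  unfold ownNu
  rw [withDensity_apply _ (measurable_ownFlip hs), withDensity_apply _ hs]
  have := measurePreserving_ownFlip.setLIntegral_comp_preimage hs hf
  rw [← this]
  refine lintegral_congr fun a => ?_
  rw [ownA_flip]

end Round

/-! ### The tilt system -/

section Tilt

variable {κ : ℝ → ℝ} {τ : ℝ}

/-- The tilt system of one vertex. -/
noncomputable def ownTilt (κ : ℝ → ℝ) (τ : ℝ) (hκ : IsStrength κ) : TiltSys (ownNu κ τ) where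
  L a := Real.tanh (ownField κ τ a)
  c := Real.tanh ((⌈τ⌉₊ : ℝ) * Real.artanh (1 / 2))
  meas := measurable_tanh'.comp (measurable_ownField hκ.meas τ)
  c_lt := (tanh_mem' _).2
  bd a := by
    obtain ⟨h1, h2⟩ := abs_le.1 (abs_ownField_le hκ τ a)
    rw [abs_le]
    constructor
    · rw [← Real.tanh_neg]
      exact own_tanh_le_tanh h1
    · exact own_tanh_le_tanh h2
  ρ := ownFlip
  ρ_mp := measurePreserving_ownFlip_nu hκ.meas τ
  L_ρ a := by rw [ownField_flip hκ, Real.tanh_neg]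

end Tilt

/-! ### Independent rounds -/

section Rounds

lemma integral_lam_prod (h : ℕ → Lab → ℝ) (hm : ∀ n, Measurable (h n)) (J : Finset ℕ) :
    ∫ U, ∏ n ∈ J, h n (U n) ∂(lam ℕ) = ∏ n ∈ J, ∫ u, h n u := by
  have hF : Measurable fun x : J → Lab => ∏ i : J, h i (x i) :=
    Finset.measurable_prod _ fun i _ => (hm i).comp (measurable_pi_apply i)
  have hres : Measurable (J.restrict : (ℕ → Lab) → (J → Lab)) := Finset.measurable_restrict J
  have hmap : (lam ℕ).map J.restrict = Measure.pi fun _ : J => (volume : Measure Lab) :=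
    Measure.infinitePi_map_restrict _
  calc ∫ U, ∏ n ∈ J, h n (U n) ∂(lam ℕ)
      = ∫ U, (fun x : J → Lab => ∏ i : J, h i (x i)) (J.restrict U) ∂(lam ℕ) := by
        refine integral_congr_ae (Eventually.of_forall fun U => ?_)
        exact (Finset.prod_coe_sort J fun n => h n (U n)).symm
    _ = ∫ x, ∏ i : J, h i (x i) ∂((lam ℕ).map J.restrict) :=
        (integral_map hres.aemeasurable hF.aestronglyMeasurable).symm
    _ = ∏ i : J, ∫ u, h i u := by
        rw [hmap]
        exact integral_fintype_prod_eq_prod (fun i : J => h i)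
    _ = _ := Finset.prod_coe_sort J fun n => ∫ u, h n u

lemma own_bm_finset_prod {α : Type*} [MeasurableSpace α] (s : Finset ℕ) {f : ℕ → α → ℝ}
    (hf : ∀ i ∈ s, BM (f i)) : BM fun x => ∏ i ∈ s, f i x := by
  classical
  induction s using Finset.induction_on with
  | empty => simpa using BM.const (α := α) 1
  | insert i s hi ih =>
    have := (hf i (Finset.mem_insert_self _ _)).mul (ih fun j hj => hf j (Finset.mem_insert_of_mem hj))
    simpa [Finset.prod_insert hi] using this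

/-- Independent rounds. -/
theorem integral_rounds (g : ℕ → Lab → Lab → ℝ) (hg : ∀ n, BM fun p : Lab × Lab => g n p.1 p.2)
    (M : ℕ) :
    ∫ a : VLab, ∏ n ∈ Finset.range M, g n (a.1 n) (a.2 n) ∂vlaw =
      ∏ n ∈ Finset.range M, ∫ t : Lab, ∫ u : Lab, g n t u := by
  have hbm : BM fun a : VLab => ∏ n ∈ Finset.range M, g n (a.1 n) (a.2 n) :=
    own_bm_finset_prod _ fun n _ => (hg n).comp (own_measurable_round n)
  rw [vlaw, integral_prod _ (hbm.integrable _)]
  have hin : ∀ (n : ℕ) (t : Lab), Measurable fun u : Lab => g n t u := fun n t =>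
    (hg n).meas.comp (measurable_const.prodMk measurable_id)
  have e1 : ∀ t : ℕ → Lab, ∫ U, ∏ n ∈ Finset.range M, g n (t n) (U n) ∂(lam ℕ) =
      ∏ n ∈ Finset.range M, ∫ u, g n (t n) u := fun t =>
    integral_lam_prod (fun n u => g n (t n) u) (fun n => hin n (t n)) _
  simp only [e1]
  have hout : ∀ n : ℕ, Measurable fun t : Lab => ∫ u : Lab, g n t u := fun n =>
    ((hg n).meas.stronglyMeasurable.integral_prod_right' (ν := (volume : Measure Lab))).measurable
  exact integral_lam_prod (fun n t => ∫ u, g n t u) hout _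

end Rounds

/-! ### Integrals of one round -/

section RoundIntegrals

variable {κ : ℝ → ℝ} {τ : ℝ}

lemma own_integral_lab_odd (f : Lab → ℝ) (hf : ∀ u, f (unitInterval.symm u) = - f u) : ∫ u, f u = 0 := by
  have h : ∫ u, f (unitInterval.symm u) = ∫ u, f u :=
    unitInterval.measurePreserving_symm.integral_comp
      unitInterval.symmMeasurableEquiv.measurableEmbedding f
  simp only [hf, integral_neg] at h
  linarith

lemma bm_ownX (hκ : IsStrength κ) (τ : ℝ) (n : ℕ) : BM fun p : Lab × Lab => ownX κ τ n p.1 p.2 :=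
  ⟨measurable_ownX hκ.meas τ n, ⟨1 / 2, fun p => abs_ownX_le hκ n p.1 p.2⟩⟩

lemma bm_ownX_u (hκ : IsStrength κ) (τ : ℝ) (n : ℕ) (t : Lab) : BM fun u : Lab => ownX κ τ n t u :=
  (bm_ownX hκ τ n).comp (measurable_const.prodMk measurable_id)

lemma integral_ownX (κ : ℝ → ℝ) (τ : ℝ) (n : ℕ) (t : Lab) : ∫ u, ownX κ τ n t u = 0 :=
  own_integral_lab_odd _ fun u => ownX_symm κ τ n t u

lemma integral_ownX_cube (κ : ℝ → ℝ) (τ : ℝ) (n : ℕ) (t : Lab) : ∫ u, ownX κ τ n t u ^ 3 = 0 :=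
  own_integral_lab_odd _ fun u => by rw [ownX_symm]; ring

/-- The energy of a round. -/
noncomputable def ownE (κ : ℝ → ℝ) (τ : ℝ) (n : ℕ) : ℝ := ∫ t : Lab, ∫ u : Lab, ownX κ τ n t u ^ 2

lemma ownE_nonneg (κ : ℝ → ℝ) (τ : ℝ) (n : ℕ) : 0 ≤ ownE κ τ n :=
  integral_nonneg fun _ => integral_nonneg fun _ => sq_nonneg _

lemma round_one (hκ : IsStrength κ) (n : ℕ) (s : ℝ) :
    ∫ t : Lab, ∫ u : Lab, (1 + ownX κ τ n t u * s) = 1 := by
  have h : ∀ t : Lab, ∫ u : Lab, (1 + ownX κ τ n t u * s) = 1 := by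
    intro t
    have hX := bm_ownX_u hκ τ n t
    rw [integral_add (integrable_const _) ((hX.mul (BM.const s)).integrable _), integral_const,
      integral_mul_const, integral_ownX]
    simp
  simp [h]

lemma round_X (hκ : IsStrength κ) (n : ℕ) (s : ℝ) :
    ∫ t : Lab, ∫ u : Lab, (ownX κ τ n t u * (1 + ownX κ τ n t u * s)) = s * ownE κ τ n := by
  have h : ∀ t : Lab, ∫ u : Lab, (ownX κ τ n t u * (1 + ownX κ τ n t u * s)) =
      s * ∫ u : Lab, ownX κ τ n t u ^ 2 := by
    intro t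
    have hX := bm_ownX_u hκ τ n t
    have e : ∀ u : Lab, ownX κ τ n t u * (1 + ownX κ τ n t u * s) =
        ownX κ τ n t u + s * ownX κ τ n t u ^ 2 := fun u => by ring
    simp only [e]
    rw [integral_add (hX.integrable _) (((BM.const s).mul (by simpa [pow_two] using hX.mul hX)).integrable _),
      integral_ownX, integral_const_mul, zero_add]
  simp only [h, integral_const_mul, ownE]

lemma round_XX (hκ : IsStrength κ) (n : ℕ) (s : ℝ) :
    ∫ t : Lab, ∫ u : Lab, (ownX κ τ n t u * ownX κ τ n t u * (1 + ownX κ τ n t u * s)) = ownE κ τ n := by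
  have h : ∀ t : Lab, ∫ u : Lab, (ownX κ τ n t u * ownX κ τ n t u * (1 + ownX κ τ n t u * s)) =
      ∫ u : Lab, ownX κ τ n t u ^ 2 := by
    intro t
    have hX := bm_ownX_u hκ τ n t
    have e : ∀ u : Lab, ownX κ τ n t u * ownX κ τ n t u * (1 + ownX κ τ n t u * s) =
        ownX κ τ n t u ^ 2 + s * ownX κ τ n t u ^ 3 := fun u => by ring
    simp only [e]
    have h2 : BM fun u : Lab => ownX κ τ n t u ^ 2 := by simpa [pow_two] using hX.mul hX
    have h3 : BM fun u : Lab => ownX κ τ n t u ^ 3 := by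
      simpa [pow_succ, pow_two] using (hX.mul hX).mul hX
    rw [integral_add (h2.integrable _) (((BM.const s).mul h3).integrable _), integral_const_mul,
      integral_ownX_cube]
    ring
  simp only [h, ownE]

end RoundIntegrals

/-! ### Moments of the linear statistic under the likelihood -/

section Moments

variable {κ : ℝ → ℝ} {τ : ℝ}

/-- A modifier of round `n`: the tilt of round `n` is inserted if `n = m`. -/
noncomputable def ownMod (κ : ℝ → ℝ) (τ : ℝ) (m n : ℕ) (t u : Lab) : ℝ :=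
  if n = m then ownX κ τ n t u else 1

lemma bm_ownMod (hκ : IsStrength κ) (τ : ℝ) (m n : ℕ) : BM fun p : Lab × Lab => ownMod κ τ m n p.1 p.2 := by
  unfold ownMod
  by_cases h : n = m
  · simp only [h, if_true]
    exact bm_ownX hκ τ m
  · simp only [h, if_false]
    exact BM.const 1

lemma prod_ownMod (κ : ℝ → ℝ) (τ : ℝ) (a : VLab) {m M : ℕ} (hm : m < M) :
    ∏ n ∈ Finset.range M, ownMod κ τ m n (a.1 n) (a.2 n) = ownX κ τ m (a.1 m) (a.2 m) := by
  unfold ownMod
  rw [Finset.prod_ite_eq' (Finset.range M) m]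
  simp [hm]

lemma prod_ownMod_ge (κ : ℝ → ℝ) (τ : ℝ) (a : VLab) {m M : ℕ} (hm : M ≤ m) :
    ∏ n ∈ Finset.range M, ownMod κ τ m n (a.1 n) (a.2 n) = 1 := by
  unfold ownMod
  rw [Finset.prod_ite_eq' (Finset.range M) m]
  simp [hm]

/-- Independence of the rounds, for two inserted tilts. -/
lemma integral_mod_mod (hκ : IsStrength κ) (τ s : ℝ) (m k : ℕ) :
    ∫ a : VLab, (∏ n ∈ Finset.range ⌈τ⌉₊, ownMod κ τ m n (a.1 n) (a.2 n)) *
        (∏ n ∈ Finset.range ⌈τ⌉₊, ownMod κ τ k n (a.1 n) (a.2 n)) * ownLik κ τ a s ∂vlaw =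
      ∏ n ∈ Finset.range ⌈τ⌉₊, ∫ t : Lab, ∫ u : Lab,
        (ownMod κ τ m n t u * ownMod κ τ k n t u * (1 + ownX κ τ n t u * s)) := by
  have h := integral_rounds (fun n t u => ownMod κ τ m n t u * ownMod κ τ k n t u * (1 + ownX κ τ n t u * s))
    (fun n => ((bm_ownMod hκ τ m n).mul (bm_ownMod hκ τ k n)).mul
      ((BM.const 1).add ((bm_ownX hκ τ n).mul (BM.const s)))) ⌈τ⌉₊
  rw [← h]
  refine integral_congr_ae (Eventually.of_forall fun a => ?_)
  simp only [ownLik_eq, Finset.prod_mul_distrib]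

/-- The value of one round with two inserted tilts, all cases. -/
lemma round_mod (hκ : IsStrength κ) (τ s : ℝ) (m k n : ℕ) :
    ∫ t : Lab, ∫ u : Lab, (ownMod κ τ m n t u * ownMod κ τ k n t u * (1 + ownX κ τ n t u * s)) =
      if n = m then (if n = k then ownE κ τ n else s * ownE κ τ n)
      else if n = k then s * ownE κ τ n else 1 := by
  unfold ownMod
  by_cases h1 : n = m <;> by_cases h2 : n = k <;> simp only [h1, h2, if_true, if_false]
  · subst h1; subst h2
    simp only [if_true]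
    exact round_XX hκ _ s
  · simp only [if_neg (fun h => h2 (h1.trans h)), mul_one]
    subst h1
    exact round_X hκ _ s
  · simp only [if_neg (fun h => h1 (h2.trans h)), one_mul]
    subst h2
    exact round_X hκ _ s
  · simp only [one_mul, mul_one]
    exact round_one hκ _ s

/-- `∫ ℓ_s = 1`. -/
theorem integral_ownLik (hκ : IsStrength κ) (τ s : ℝ) : ∫ a : VLab, ownLik κ τ a s ∂vlaw = 1 := by
  have h := integral_mod_mod hκ τ s ⌈τ⌉₊ ⌈τ⌉₊
  simp only [prod_ownMod_ge κ τ _ (le_refl ⌈τ⌉₊), one_mul, round_mod hκ] at h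
  rw [h]
  refine Finset.prod_eq_one fun n hn => ?_
  have := (Finset.mem_range.1 hn).ne
  simp [this]

/-- `∫ x_m ℓ_s = s e_m`. -/
lemma integral_X_lik (hκ : IsStrength κ) (τ s : ℝ) {m : ℕ} (hm : m < ⌈τ⌉₊) :
    ∫ a : VLab, ownX κ τ m (a.1 m) (a.2 m) * ownLik κ τ a s ∂vlaw = s * ownE κ τ m := by
  have h := integral_mod_mod hκ τ s m ⌈τ⌉₊
  simp only [prod_ownMod κ τ _ hm, prod_ownMod_ge κ τ _ (le_refl ⌈τ⌉₊), mul_one, round_mod hκ] at h
  rw [h, Finset.prod_eq_single m]
  · simp [hm.ne]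
  · intro n hn hne
    have := (Finset.mem_range.1 hn).ne
    simp [this, hne]
  · intro hh
    exact absurd (Finset.mem_range.2 hm) hh

/-- `∫ x_m² ℓ_s = e_m`. -/
lemma integral_XX_lik (hκ : IsStrength κ) (τ s : ℝ) {m : ℕ} (hm : m < ⌈τ⌉₊) :
    ∫ a : VLab, ownX κ τ m (a.1 m) (a.2 m) * ownX κ τ m (a.1 m) (a.2 m) * ownLik κ τ a s ∂vlaw =
      ownE κ τ m := by
  have h := integral_mod_mod hκ τ s m m
  simp only [prod_ownMod κ τ _ hm, round_mod hκ] at h
  rw [h, Finset.prod_eq_single m]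
  · simp
  · intro n hn hne
    simp [hne]
  · intro hh
    exact absurd (Finset.mem_range.2 hm) hh

/-- `∫ x_m x_k ℓ_s = s² e_m e_k`, `m ≠ k`. -/
lemma integral_X_X_lik (hκ : IsStrength κ) (τ s : ℝ) {m k : ℕ} (hm : m < ⌈τ⌉₊) (hk : k < ⌈τ⌉₊)
    (hmk : m ≠ k) :
    ∫ a : VLab, ownX κ τ m (a.1 m) (a.2 m) * ownX κ τ k (a.1 k) (a.2 k) * ownLik κ τ a s ∂vlaw =
      (s * ownE κ τ m) * (s * ownE κ τ k) := by
  have h := integral_mod_mod hκ τ s m k
  simp only [prod_ownMod κ τ _ hm, prod_ownMod κ τ _ hk, round_mod hκ] at h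
  rw [h, Finset.prod_eq_mul m k hmk]
  · simp [hmk, hmk.symm]
  · intro n _ hne
    simp [hne.1, hne.2]
  · intro hh
    exact absurd (Finset.mem_range.2 hm) hh
  · intro hh
    exact absurd (Finset.mem_range.2 hk) hh

end Moments

/-! ### `ownNu` is a probability measure -/

section Prob

variable {κ : ℝ → ℝ} {τ : ℝ}

lemma bm_ownLik (hκ : IsStrength κ) (τ : ℝ) {s : ℝ} (hs : |s| ≤ 1) : BM fun a : VLab => ownLik κ τ a s :=
  ⟨measurable_ownLik hκ.meas τ s, ⟨_, fun a => abs_ownLik_le hκ τ a hs⟩⟩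

lemma bm_ownLik_one (hκ : IsStrength κ) (τ : ℝ) : BM fun a : VLab => ownLik κ τ a 1 :=
  bm_ownLik hκ τ (by simp)

lemma bm_ownLik_neg (hκ : IsStrength κ) (τ : ℝ) : BM fun a : VLab => ownLik κ τ a (-1) :=
  bm_ownLik hκ τ (by simp)

lemma bm_ownLik_of (hκ : IsStrength κ) (τ : ℝ) {s : ℝ} (hs : s = 1 ∨ s = -1) :
    BM fun a : VLab => ownLik κ τ a s :=
  bm_ownLik hκ τ (by rcases hs with rfl | rfl <;> simp)

lemma bm_ownA (hκ : IsStrength κ) (τ : ℝ) : BM (ownA κ τ) :=
  ⟨measurable_ownA hκ.meas τ, ⟨(3 / 2 : ℝ) ^ ⌈τ⌉₊, fun a => by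
    rw [abs_of_pos (ownA_pos hκ τ a)]
    exact ownA_le hκ τ a⟩⟩

/-- The spin-free part has integral one. -/
theorem integral_ownA (hκ : IsStrength κ) (τ : ℝ) : ∫ a, ownA κ τ a ∂vlaw = 1 := by
  unfold ownA
  rw [integral_div, integral_add ((bm_ownLik_one hκ τ).integrable _) ((bm_ownLik_neg hκ τ).integrable _),
    integral_ownLik hκ, integral_ownLik hκ]
  norm_num

theorem isProbabilityMeasure_ownNu (hκ : IsStrength κ) (τ : ℝ) : IsProbabilityMeasure (ownNu κ τ) := by
  constructor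
  unfold ownNu
  rw [withDensity_apply _ MeasurableSet.univ, Measure.restrict_univ,
    ← ofReal_integral_eq_lintegral_ofReal ((bm_ownA hκ τ).integrable _)
      (Eventually.of_forall fun a => (ownA_pos hκ τ a).le), integral_ownA hκ]
  simp

instance instIsProbabilityMeasure_ownNu [h : Fact (IsStrength κ)] : IsProbabilityMeasure (ownNu κ τ) :=
  isProbabilityMeasure_ownNu h.out τ

/-- Integrals against `ownNu`. -/
theorem integral_ownNu (hκ : IsStrength κ) (τ : ℝ) (g : VLab → ℝ) :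
    ∫ a, g a ∂(ownNu κ τ) = ∫ a, ownA κ τ a * g a ∂vlaw := by
  unfold ownNu
  have hm : Measurable fun a : VLab => ENNReal.ofReal (ownA κ τ a) :=
    ENNReal.measurable_ofReal.comp (measurable_ownA hκ.meas τ)
  rw [integral_withDensity_eq_integral_toReal_smul hm
    (Eventually.of_forall fun a => ENNReal.ofReal_lt_top)]
  refine integral_congr_ae (Eventually.of_forall fun a => ?_)
  simp only [ENNReal.toReal_ofReal (ownA_pos hκ τ a).le, smul_eq_mul]

end Prob

/-! ### The linear statistic -/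

section Linear

variable {κ : ℝ → ℝ} {τ : ℝ}

/-- The linear statistic `f = ∑ₙ xₙ`. -/
noncomputable def ownF (κ : ℝ → ℝ) (τ : ℝ) (a : VLab) : ℝ :=
  ∑ n ∈ Finset.range ⌈τ⌉₊, ownX κ τ n (a.1 n) (a.2 n)

/-- The total energy. -/
noncomputable def ownSumE (κ : ℝ → ℝ) (τ : ℝ) : ℝ := ∑ n ∈ Finset.range ⌈τ⌉₊, ownE κ τ n

lemma ownSumE_nonneg (κ : ℝ → ℝ) (τ : ℝ) : 0 ≤ ownSumE κ τ :=
  Finset.sum_nonneg fun n _ => ownE_nonneg κ τ n

lemma bm_ownX_label (hκ : IsStrength κ) (τ : ℝ) (n : ℕ) :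
    BM fun a : VLab => ownX κ τ n (a.1 n) (a.2 n) :=
  (bm_ownX hκ τ n).comp (own_measurable_round n)

lemma bm_ownF (hκ : IsStrength κ) (τ : ℝ) : BM (ownF κ τ) :=
  BM.finset_sum _ fun n _ => bm_ownX_label hκ τ n

theorem integral_F_lik (hκ : IsStrength κ) (τ : ℝ) {s : ℝ} (hs : s = 1 ∨ s = -1) :
    ∫ a, ownF κ τ a * ownLik κ τ a s ∂vlaw = s * ownSumE κ τ := by
  unfold ownF ownSumE
  simp only [Finset.sum_mul, Finset.mul_sum]
  rw [integral_finsetSum _ fun n _ =>
    ((bm_ownX_label hκ τ n).mul (bm_ownLik_of hκ τ hs)).integrable _]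
  exact Finset.sum_congr rfl fun m hm => integral_X_lik hκ τ s (Finset.mem_range.1 hm)

theorem integral_FF_lik (hκ : IsStrength κ) (τ : ℝ) {s : ℝ} (hs : s = 1 ∨ s = -1) :
    ∫ a, ownF κ τ a ^ 2 * ownLik κ τ a s ∂vlaw ≤ ownSumE κ τ + ownSumE κ τ ^ 2 := by
  have e : ∀ a : VLab, ownF κ τ a ^ 2 * ownLik κ τ a s =
      ∑ m ∈ Finset.range ⌈τ⌉₊, ∑ k ∈ Finset.range ⌈τ⌉₊,
        ownX κ τ m (a.1 m) (a.2 m) * ownX κ τ k (a.1 k) (a.2 k) * ownLik κ τ a s := by
    intro a
    unfold ownF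
    rw [pow_two, Finset.sum_mul_sum, Finset.sum_mul]
    exact Finset.sum_congr rfl fun m _ => Finset.sum_mul _ _ _
  simp only [e]
  have hbm : ∀ m k : ℕ, BM fun a : VLab =>
      ownX κ τ m (a.1 m) (a.2 m) * ownX κ τ k (a.1 k) (a.2 k) * ownLik κ τ a s := fun m k =>
    ((bm_ownX_label hκ τ m).mul (bm_ownX_label hκ τ k)).mul (bm_ownLik_of hκ τ hs)
  rw [integral_finsetSum _ fun m _ => (BM.finset_sum _ fun k _ => hbm m k).integrable _]
  have hs2 : s * s = 1 := by rcases hs with rfl | rfl <;> norm_num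
  calc ∑ m ∈ Finset.range ⌈τ⌉₊, ∫ a, ∑ k ∈ Finset.range ⌈τ⌉₊,
        ownX κ τ m (a.1 m) (a.2 m) * ownX κ τ k (a.1 k) (a.2 k) * ownLik κ τ a s ∂vlaw
      = ∑ m ∈ Finset.range ⌈τ⌉₊, ∑ k ∈ Finset.range ⌈τ⌉₊,
          ∫ a, ownX κ τ m (a.1 m) (a.2 m) * ownX κ τ k (a.1 k) (a.2 k) * ownLik κ τ a s ∂vlaw :=
        Finset.sum_congr rfl fun m _ => integral_finsetSum _ fun k _ => (hbm m k).integrable _
    _ ≤ ∑ m ∈ Finset.range ⌈τ⌉₊, ∑ k ∈ Finset.range ⌈τ⌉₊,
          ((if m = k then ownE κ τ m else 0) + ownE κ τ m * ownE κ τ k) := by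
        refine Finset.sum_le_sum fun m hm => Finset.sum_le_sum fun k hk => ?_
        have hm' := Finset.mem_range.1 hm
        have hk' := Finset.mem_range.1 hk
        by_cases hmk : m = k
        · subst hmk
          rw [integral_XX_lik hκ τ s hm', if_pos rfl]
          nlinarith [mul_self_nonneg (ownE κ τ m)]
        · rw [integral_X_X_lik hκ τ s hm' hk' hmk, if_neg hmk, zero_add]
          refine le_of_eq ?_
          calc (s * ownE κ τ m) * (s * ownE κ τ k) = (s * s) * (ownE κ τ m * ownE κ τ k) := by ring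
            _ = _ := by rw [hs2, one_mul]
    _ = ownSumE κ τ + ownSumE κ τ ^ 2 := by
        simp only [Finset.sum_add_distrib]
        unfold ownSumE
        congr 1
        · refine Finset.sum_congr rfl fun m hm => ?_
          rw [Finset.sum_ite_eq, if_pos hm]
        · rw [pow_two, Finset.sum_mul_sum]

/-- The Bayes and Cauchy-Schwarz step. -/
theorem ownSumE_div_le_s2 (hκ : IsStrength κ) (τ : ℝ) [IsProbabilityMeasure (ownNu κ τ)] :
    ownSumE κ τ / (1 + ownSumE κ τ) ≤ (ownTilt κ τ hκ).s2 := by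
  set e := ownSumE κ τ with he
  have he0 : 0 ≤ e := ownSumE_nonneg κ τ
  have h1e : 0 < 1 + e := by linarith
  set lam' : ℝ := 1 / (1 + e) with hlam
  have hlam1 : lam' * (1 + e) = 1 := by rw [hlam]; field_simp
  have hs2 : (ownTilt κ τ hκ).s2 = ∫ a, ownA κ τ a * Real.tanh (ownField κ τ a) ^ 2 ∂vlaw := by
    unfold TiltSys.s2
    exact integral_ownNu hκ τ _
  set L : VLab → ℝ := fun a => Real.tanh (ownField κ τ a) with hL
  have hLbm : BM L := ⟨(ownTilt κ τ hκ).meas, ⟨_, fun a => (ownTilt κ τ hκ).bd a⟩⟩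
  have hA := bm_ownA hκ τ
  have hF := bm_ownF hκ τ
  have hP := bm_ownLik_one hκ τ
  have hQ := bm_ownLik_neg hκ τ
  have e1 : ∀ a : VLab, ownA κ τ a * (L a - lam' * ownF κ τ a) ^ 2 =
      ownA κ τ a * L a ^ 2 - lam' * (ownF κ τ a * ownLik κ τ a 1)
        + lam' * (ownF κ τ a * ownLik κ τ a (-1))
        + lam' ^ 2 / 2 * (ownF κ τ a ^ 2 * ownLik κ τ a 1)
        + lam' ^ 2 / 2 * (ownF κ τ a ^ 2 * ownLik κ τ a (-1)) := by
    intro a
    rw [ownLik_eq_own hκ τ a (Or.inl rfl), ownLik_eq_own hκ τ a (Or.inr rfl)]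
    simp only [hL]
    ring
  have hFF : BM fun a => ownF κ τ a ^ 2 := by simpa [pow_two] using hF.mul hF
  have hLL : BM fun a => L a ^ 2 := by simpa [pow_two] using hLbm.mul hLbm
  have hnn : 0 ≤ ∫ a, ownA κ τ a * (L a - lam' * ownF κ τ a) ^ 2 ∂vlaw :=
    integral_nonneg fun a => mul_nonneg (ownA_pos hκ τ a).le (sq_nonneg _)
  simp only [e1] at hnn
  have i1 := (hA.mul hLL).integrable vlaw
  have i2 := ((BM.const lam').mul (hF.mul hP)).integrable vlaw
  have i3 := ((BM.const lam').mul (hF.mul hQ)).integrable vlaw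
  have i4 := ((BM.const (lam' ^ 2 / 2)).mul (hFF.mul hP)).integrable vlaw
  have i5 := ((BM.const (lam' ^ 2 / 2)).mul (hFF.mul hQ)).integrable vlaw
  have i12 : Integrable (fun a => ownA κ τ a * L a ^ 2 - lam' * (ownF κ τ a * ownLik κ τ a 1)) vlaw :=
    i1.sub i2
  have i123 : Integrable (fun a => ownA κ τ a * L a ^ 2 - lam' * (ownF κ τ a * ownLik κ τ a 1)
      + lam' * (ownF κ τ a * ownLik κ τ a (-1))) vlaw := i12.add i3
  have i1234 : Integrable (fun a => ownA κ τ a * L a ^ 2 - lam' * (ownF κ τ a * ownLik κ τ a 1)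
      + lam' * (ownF κ τ a * ownLik κ τ a (-1))
      + lam' ^ 2 / 2 * (ownF κ τ a ^ 2 * ownLik κ τ a 1)) vlaw := i123.add i4
  rw [integral_add i1234 i5, integral_add i123 i4,
    integral_add i12 i3, integral_sub i1 i2, integral_const_mul, integral_const_mul,
    integral_const_mul, integral_const_mul, integral_F_lik hκ τ (Or.inl rfl),
    integral_F_lik hκ τ (Or.inr rfl), ← hs2, ← he] at hnn
  have j1 := integral_FF_lik hκ τ (s := 1) (Or.inl rfl)
  have j2 := integral_FF_lik hκ τ (s := -1) (Or.inr rfl)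
  rw [← he] at j1 j2
  have hlam2 : 0 ≤ lam' ^ 2 / 2 := by positivity
  have j1' := mul_le_mul_of_nonneg_left j1 hlam2
  have j2' := mul_le_mul_of_nonneg_left j2 hlam2
  have hkey : lam' ^ 2 * (e + e ^ 2) = lam' * e := by
    have : lam' ^ 2 * (e + e ^ 2) = lam' * e * (lam' * (1 + e)) := by ring
    rw [this, hlam1, mul_one]
  have hfin : e / (1 + e) = lam' * e := by rw [hlam]; ring
  rw [hfin]
  nlinarith

/-- `e/(1+e)` is monotone. -/
lemma own_div_one_add_mono {x y : ℝ} (hx : 0 ≤ x) (hxy : x ≤ y) : x / (1 + x) ≤ y / (1 + y) := by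
  have h1 : 0 < 1 + x := by linarith
  have h2 : 0 < 1 + y := by linarith
  rw [div_le_div_iff₀ h1 h2]
  nlinarith

end Linear

/-! ### Round zero, for the strength `kap ε` -/

section KapRound

lemma own_integral_lab_sq (c : ℝ) : ∫ u : Lab, (c * (2 * (u : ℝ) - 1)) ^ 2 = c ^ 2 / 3 := by
  rw [integral_lab (g := fun x => (c * (2 * x - 1)) ^ 2)]
  have hd : ∀ x ∈ uIcc (0 : ℝ) 1, HasDerivAt (fun x : ℝ => c ^ 2 * (2 * x - 1) ^ 3 / 6)
      ((c * (2 * x - 1)) ^ 2) x := by
    intro x _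
    have h1 : HasDerivAt (fun x : ℝ => 2 * x - 1) 2 x := by
      simpa using ((hasDerivAt_id x).const_mul 2).sub_const 1
    have h2 := ((h1.pow 3).const_mul (c ^ 2)).div_const 6
    refine h2.congr_deriv ?_
    push_cast
    ring
  rw [intervalIntegral.integral_eq_sub_of_hasDerivAt hd (Continuous.intervalIntegrable (by fun_prop) _ _)]
  ring

/-- Energy of round zero. -/
theorem ownE_kap_zero {ε τ : ℝ} (hτ : 0 < τ) :
    ownE (kap ε) τ 0 = ε ^ 2 * min 1 τ ^ 2 / 12 := by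
  classical
  set b : ℝ := min 1 τ / 2 with hb
  have hb0 : 0 < b := by
    have : 0 < min 1 τ := lt_min one_pos hτ
    positivity
  have hb1 : b ≤ 1 := by
    have : min 1 τ ≤ 1 := min_le_left _ _
    rw [hb]; linarith
  have hcond : ∀ x : ℝ, (x < 1 / 2 ∧ ((0 : ℕ) : ℝ) + 2 * x < τ) ↔ x < b := by
    intro x
    have h2 : x < b ↔ 2 * x < min 1 τ := by
      rw [hb]
      constructor <;> intro h <;> linarith
    rw [h2, lt_min_iff]
    simp only [Nat.cast_zero, zero_add]
    constructor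
    · rintro ⟨h1, h2⟩
      constructor <;> linarith
    · rintro ⟨h1, h2⟩
      constructor <;> linarith
  have hin : ∀ t : Lab, ∫ u : Lab, ownX (kap ε) τ 0 t u ^ 2 =
      (fun x : ℝ => (Iio b).indicator (fun x => ε ^ 2 * (2 * x) / 3) x) (t : ℝ) := by
    intro t
    by_cases h : (t : ℝ) < b
    · have hc := (hcond t).2 h
      have ht0 : (0 : ℝ) ≤ t := t.2.1
      have hX : ∀ u : Lab, ownX (kap ε) τ 0 t u =
          kap ε (2 * (t : ℝ)) * (2 * (u : ℝ) - 1) := by
        intro u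
        unfold ownX
        rw [if_pos hc, Nat.cast_zero, zero_add]
      simp only [hX]
      rw [own_integral_lab_sq]
      simp only [indicator, mem_Iio, h, if_true]
      unfold kap
      have hlt : (2 : ℝ) * t < 1 := by linarith [hc.1]
      have hsq : Real.sqrt (2 * (t : ℝ)) ≤ 1 := Real.sqrt_le_one.2 hlt.le
      rw [min_eq_left hsq, mul_pow, Real.sq_sqrt (by positivity)]
    · have hc : ¬ ((t : ℝ) < 1 / 2 ∧ ((0 : ℕ) : ℝ) + 2 * (t : ℝ) < τ) := fun h' => h ((hcond t).1 h')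
      have hX : ∀ u : Lab, ownX (kap ε) τ 0 t u = 0 := by
        intro u
        unfold ownX
        rw [if_neg hc]
      simp only [hX]
      simp [indicator, h]
  unfold ownE
  simp only [hin]
  rw [integral_lab (g := fun x => (Iio b).indicator (fun x => ε ^ 2 * (2 * x) / 3) x),
    intervalIntegral.integral_of_le zero_le_one,
    setIntegral_indicator measurableSet_Iio]
  have hset : Ioc (0 : ℝ) 1 ∩ Iio b = Ioo 0 b := by
    ext x
    simp only [mem_inter_iff, mem_Ioc, mem_Iio, mem_Ioo]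
    constructor
    · rintro ⟨⟨h1, _⟩, h3⟩
      exact ⟨h1, h3⟩
    · rintro ⟨h1, h2⟩
      exact ⟨⟨h1, by linarith⟩, h2⟩
  rw [hset, ← integral_Ioc_eq_integral_Ioo, ← intervalIntegral.integral_of_le hb0.le]
  have : ∫ x in (0 : ℝ)..b, ε ^ 2 * (2 * x) / 3 = ε ^ 2 * b ^ 2 / 3 := by
    have hd : ∀ x ∈ uIcc (0 : ℝ) b, HasDerivAt (fun x : ℝ => ε ^ 2 * x ^ 2 / 3)
        (ε ^ 2 * (2 * x) / 3) x := by
      intro x _
      have h2 := (((hasDerivAt_id x).pow 2).const_mul (ε ^ 2)).div_const 3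
      refine h2.congr_deriv ?_
      simp
    rw [intervalIntegral.integral_eq_sub_of_hasDerivAt hd (Continuous.intervalIntegrable (by fun_prop) _ _)]
    ring
  rw [this, hb]
  ring

/-- **The lower bound of the second moment of the tilt.** -/
theorem own_s2_ge {ε τ₁ : ℝ} (h0 : 0 < ε) (h1 : ε ≤ 1 / 2) :
    ∃ c : ℝ, 0 < c ∧ ∀ τ ∈ Ioc 0 τ₁, ∀ (hκ : IsStrength (kap ε)) [IsProbabilityMeasure (ownNu (kap ε) τ)],
      c * τ ≤ Real.sqrt ((ownTilt (kap ε) τ hκ).s2) := by
  set M : ℝ := max 1 τ₁ with hM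
  have hM1 : 1 ≤ M := le_max_left _ _
  have hMpos : 0 < M := by linarith
  refine ⟨ε / (5 * M), by positivity, fun τ hτ hκ _ => ?_⟩
  have hτ0 : 0 < τ := hτ.1
  have hτM : τ ≤ M := hτ.2.trans (le_max_right _ _)
  have hceil : 0 < ⌈τ⌉₊ := Nat.ceil_pos.2 hτ0
  set m : ℝ := min 1 τ with hm
  have hm0 : 0 < m := lt_min one_pos hτ0
  have hm1 : m ≤ 1 := min_le_left _ _
  have hτm : τ / M ≤ m := by
    refine le_min ?_ ?_
    · rw [div_le_one hMpos]; exact hτM
    · exact div_le_self hτ0.le hM1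
  set e0 : ℝ := ε ^ 2 * m ^ 2 / 12 with he0
  have he0nn : 0 ≤ e0 := by positivity
  have he0le : e0 ≤ ownSumE (kap ε) τ := by
    unfold ownSumE
    rw [he0, hm, ← ownE_kap_zero hτ0]
    exact Finset.single_le_sum (f := fun n => ownE (kap ε) τ n) (fun n _ => ownE_nonneg _ _ n)
      (Finset.mem_range.2 hceil)
  have hs := (own_div_one_add_mono he0nn he0le).trans (ownSumE_div_le_s2 hκ τ)
  have he01 : e0 ≤ 1 := by
    have h2 : ε ^ 2 ≤ 1 := by nlinarith
    have h3 : m ^ 2 ≤ 1 := by nlinarith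
    have h4 : ε ^ 2 * m ^ 2 ≤ 1 := mul_le_one₀ h2 (sq_nonneg _) h3
    rw [he0]; linarith
  have hhalf : e0 / 2 ≤ e0 / (1 + e0) := by
    refine div_le_div_of_nonneg_left he0nn (by linarith) (by linarith)
  refine Real.le_sqrt_of_sq_le ?_
  refine le_trans ?_ (hhalf.trans hs)
  have h5 : ε / (5 * M) * τ = (ε / 5) * (τ / M) := by field_simp
  rw [h5, mul_pow, he0]
  have h6 : (τ / M) ^ 2 ≤ m ^ 2 := pow_le_pow_left₀ (by positivity) hτm 2
  have h7 : (ε / 5) ^ 2 * (τ / M) ^ 2 ≤ (ε / 5) ^ 2 * m ^ 2 :=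
    mul_le_mul_of_nonneg_left h6 (by positivity)
  have h8 : (ε / 5) ^ 2 * m ^ 2 ≤ ε ^ 2 * m ^ 2 / 12 / 2 := by
    have : 0 ≤ ε ^ 2 * m ^ 2 := by positivity
    have e : (ε / 5) ^ 2 * m ^ 2 = (ε ^ 2 * m ^ 2) / 25 := by ring
    rw [e]
    linarith
  linarith

end KapRound

end Crest.Agent.Lib.IsingFIID
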