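/-
Row 160 (S0241), Task E1, E2: the second moment of the message and the moments of the tree averaged
path products in infinite volume, from the window bounds.
-/
import Crest.Agent.Lib.IsingFIID.PsiLimit
import Crest.Agent.Lib.IsingFIID.QRec

set_option autoImplicit false
set_option linter.unusedSectionVars false
set_option linter.unusedVariables false

namespace Crest.Agent.Lib.IsingFIID

open MeasureTheory Filter Topology Set SimpleGraph
open scoped ENNReal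

variable {V : Type*} [DecidableEq V] {G : SimpleGraph V} [G.LocallyFinite] {d : ℕ}

/-- The window means converge in `L²` to the infinite volume means, at any vertex. -/
theorem mW_ball_L2_gen (hG : Tree G d) {ϑ τ : ℝ} {κ : ℝ → ℝ} (hϑ0 : 0 ≤ ϑ)
    (hϑ : ϑ ^ 2 * ((d : ℝ) - 1) < 1) (hκ : IsStrength κ) (hτ : 0 ≤ τ) (a v : V) :
    Tendsto (fun N => ∫ ω, (mW G ϑ κ (ball G a N) ω τ v - mInf G ϑ κ ω τ v) ^ 2 ∂(PP V)) atTop (𝓝 0) := by
  have hT := hG.tree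
  obtain ⟨B, γ, hB, hγ0, hγ1, hbd⟩ := mInf_L2 hG (τ₁ := τ) (κ := κ) hϑ0 hϑ hκ
  have hgeo : Tendsto (fun N : ℕ => B * γ ^ (N - G.dist a v)) atTop (𝓝 0) := by
    have h1 : Tendsto (fun N : ℕ => γ ^ N) atTop (𝓝 0) :=
      tendsto_pow_atTop_nhds_zero_of_lt_one hγ0.le hγ1
    have h2 : Tendsto (fun N : ℕ => N - G.dist a v) atTop atTop := tendsto_sub_atTop_nat _
    simpa using (h1.comp h2).const_mul B
  refine squeeze_zero' (Eventually.of_forall fun N => integral_nonneg fun _ => sq_nonneg _) ?_ hgeo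
  filter_upwards [eventually_ge_atTop (G.dist a v)] with N hN
  refine hbd _ (isWin_ball hT a N) v (N - G.dist a v) (fun u hu => ?_) τ ⟨hτ, le_rfl⟩
  rw [mem_ball hT] at hu ⊢
  have := (hT.connected).dist_triangle (u := a) (v := v) (w := u)
  omega

/-! ### The functional in finitely many means -/

section WTree

variable {θ : ℝ} {D : ℕ}

/-- Square of the attenuation factor. -/
noncomputable def uSq (θ a b : ℝ) : ℝ := uOf θ a b ^ 2

/-- Bounds and Lipschitz estimate of the attenuation factor. -/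
theorem exists_uSq_lip {θm : ℝ} (h0 : 0 ≤ θm) (h1 : θm < 1) : ∃ L : ℝ, 0 < L ∧ ∀ θ a b a' b' : ℝ, 0 ≤ θ → θ ≤ θm →
    |a| ≤ 1 → |b| ≤ 1 → |a'| ≤ 1 → |b'| ≤ 1 →
      0 ≤ uSq θ a b ∧ uSq θ a b ≤ 1 ∧ |uSq θ a b - uSq θ a' b'| ≤ L * (|a - a'| + |b - b'|) := by
  obtain ⟨L, hL0, hL⟩ := exists_bethe_bounds h0 h1
  refine ⟨2 * L, by positivity, fun θ a b a' b' h0θ hθ ha hb ha' hb' => ?_⟩
  obtain ⟨-, -, -, hu0, hu1, hlip⟩ := hL θ θ a b a' b' h0θ hθ h0θ hθ ha hb ha' hb'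
  obtain ⟨-, -, -, hu0', hu1', -⟩ := hL θ θ a' b' a' b' h0θ hθ h0θ hθ ha' hb' ha' hb'
  refine ⟨sq_nonneg _, ?_, ?_⟩
  · unfold uSq
    nlinarith
  · unfold uSq
    have e : uOf θ a b ^ 2 - uOf θ a' b' ^ 2 = (uOf θ a b + uOf θ a' b') * (uOf θ a b - uOf θ a' b') := by
      ring
    rw [e, abs_mul]
    have h2 : |uOf θ a b + uOf θ a' b'| ≤ 2 := by
      rw [abs_of_nonneg (by positivity)]
      linarith
    have h3 : |uOf θ a b - uOf θ a' b'| ≤ L * (|a - a'| + |b - b'|) := by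
      simpa using hlip
    calc _ ≤ 2 * (L * (|a - a'| + |b - b'|)) := mul_le_mul h2 h3 (abs_nonneg _) (by norm_num)
      _ = _ := by ring

omit [DecidableEq V] in
lemma wn_card_children [DecidableEq V] (hG : Tree G d) {x p : V} (h : G.Adj p x) :
    ((G.neighborFinset x).erase p).card = d - 1 := by
  rw [Finset.card_erase_of_mem ((G.mem_neighborFinset x p).2 h.symm), G.card_neighborFinset_eq_degree,
    hG.reg x]

lemma cast_pred (hG : Tree G d) : ((d - 1 : ℕ) : ℝ) = (d : ℝ) - 1 := by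
  have := hG.hd
  rw [Nat.cast_sub (by omega)]
  simp

lemma pred_pos (hG : Tree G d) : (2 : ℝ) ≤ ((d - 1 : ℕ) : ℝ) := by
  have := hG.hd
  have h2 : 2 ≤ d - 1 := by omega
  exact_mod_cast h2

/-- The tree average of the path products is between `0` and `1`. -/
theorem wn_wTree_mem (hG : Tree G d) {θ : ℝ} (h0 : 0 ≤ θ) (h1 : θ < 1) {m : V → ℝ} (hm : ∀ u, |m u| ≤ 1)
    (n : ℕ) {p x : V} (h : G.Adj p x) :
    0 ≤ wTree G θ (d - 1) m n p x ∧ wTree G θ (d - 1) m n p x ≤ 1 := by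
  obtain ⟨L, hL0, hL⟩ := exists_uSq_lip (θm := θ) h0 h1
  have hu : ∀ a b, 0 ≤ uOf θ a b ^ 2 ∧ |a| ≤ 1 → |b| ≤ 1 → uOf θ a b ^ 2 ≤ 1 := fun a b h2 h3 => by
    obtain ⟨-, h4, -⟩ := hL θ a b a b h0 le_rfl h2.2 h3 h2.2 h3
    exact h4
  induction n generalizing p x with
  | zero =>
    refine ⟨sq_nonneg _, ?_⟩
    exact hu _ _ ⟨sq_nonneg _, hm p⟩ (hm x)
  | succ n ih =>
    have hD := pred_pos hG
    have hDpos : (0 : ℝ) < ((d - 1 : ℕ) : ℝ) := by linarith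
    have hs0 : 0 ≤ ∑ c ∈ (G.neighborFinset x).erase p, wTree G θ (d - 1) m n x c :=
      Finset.sum_nonneg fun c hc => (ih ((G.mem_neighborFinset x c).1 (Finset.mem_of_mem_erase hc))).1
    have hs1 : ∑ c ∈ (G.neighborFinset x).erase p, wTree G θ (d - 1) m n x c ≤ ((d - 1 : ℕ) : ℝ) := by
      calc _ ≤ ∑ c ∈ (G.neighborFinset x).erase p, (1 : ℝ) :=
            Finset.sum_le_sum fun c hc => (ih ((G.mem_neighborFinset x c).1 (Finset.mem_of_mem_erase hc))).2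
        _ = _ := by rw [Finset.sum_const, wn_card_children hG h]; simp
    have h4 : 0 ≤ (1 / ((d - 1 : ℕ) : ℝ)) * ∑ c ∈ (G.neighborFinset x).erase p, wTree G θ (d - 1) m n x c :=
      by positivity
    have h5 : (1 / ((d - 1 : ℕ) : ℝ)) * ∑ c ∈ (G.neighborFinset x).erase p, wTree G θ (d - 1) m n x c ≤ 1 := by
      rw [one_div, inv_mul_le_iff₀ hDpos, mul_one]
      exact hs1
    have h6 := hu _ _ ⟨sq_nonneg _, hm p⟩ (hm x)
    simp only [wTree]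
    exact ⟨mul_nonneg (sq_nonneg _) h4, mul_le_one₀ h6 h4 h5⟩

theorem wn_measurable_wTree {Ω : Type*} [MeasurableSpace Ω] {θ : ℝ} {D : ℕ} {m : Ω → V → ℝ}
    (hm : ∀ u, Measurable fun ω => m ω u) (n : ℕ) (p x : V) :
    Measurable fun ω => wTree G θ D (m ω) n p x := by
  have hu : ∀ a b : V, Measurable fun ω => uOf θ (m ω a) (m ω b) ^ 2 := by
    intro a b
    have h1 : Measurable fun ω => nuOf θ (m ω a) (m ω b) :=
      (bp_measurable_nuOf θ).comp ((hm a).prodMk (hm b))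
    unfold uOf uFun
    fun_prop
  induction n generalizing p x with
  | zero => exact hu p x
  | succ n ih =>
    simp only [wTree]
    refine (hu p x).mul (measurable_const.mul ?_)
    exact Finset.measurable_sum _ fun c _ => ih x c

end WTree

section L2

variable {Ω : Type*} [MeasurableSpace Ω] {μ : Measure Ω} [IsProbabilityMeasure μ]

/-- `L²` limit of products of functions bounded by one. -/
theorem L2_mul_one {F H : ℕ → Ω → ℝ} {f h : Ω → ℝ} (hF : ∀ N, Measurable (F N)) (hH : ∀ N, Measurable (H N))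
    (hf : Measurable f) (hh : Measurable h) (hFb : ∀ N x, |F N x| ≤ 1) (hHb : ∀ N x, |H N x| ≤ 1)
    (hfb : ∀ x, |f x| ≤ 1) (hhb : ∀ x, |h x| ≤ 1)
    (h1 : Tendsto (fun N => ∫ x, (F N x - f x) ^ 2 ∂μ) atTop (𝓝 0))
    (h2 : Tendsto (fun N => ∫ x, (H N x - h x) ^ 2 ∂μ) atTop (𝓝 0)) :
    Tendsto (fun N => ∫ x, (F N x * H N x - f x * h x) ^ 2 ∂μ) atTop (𝓝 0) := by
  have hlim := (h1.add h2).const_mul 2
  simp only [add_zero, mul_zero] at hlim
  refine squeeze_zero (fun N => integral_nonneg fun _ => sq_nonneg _) (fun N => ?_) hlim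
  have hi1 : Integrable (fun x => (F N x - f x) ^ 2) μ :=
    integrable_of_bdd (M := (1 + 1) ^ 2) (((hF N).sub hf).pow_const 2) fun x => by
      rw [abs_pow]
      exact pow_le_pow_left₀ (abs_nonneg _) ((abs_sub _ _).trans (add_le_add (hFb N x) (hfb x))) 2
  have hi2 : Integrable (fun x => (H N x - h x) ^ 2) μ :=
    integrable_of_bdd (M := (1 + 1) ^ 2) (((hH N).sub hh).pow_const 2) fun x => by
      rw [abs_pow]
      exact pow_le_pow_left₀ (abs_nonneg _) ((abs_sub _ _).trans (add_le_add (hHb N x) (hhb x))) 2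
  rw [← integral_add hi1 hi2, ← integral_const_mul]
  refine integral_mono_of_nonneg (Eventually.of_forall fun _ => sq_nonneg _)
    ((hi1.add hi2).const_mul 2) (Eventually.of_forall fun x => ?_)
  show (F N x * H N x - f x * h x) ^ 2 ≤ 2 * ((F N x - f x) ^ 2 + (H N x - h x) ^ 2)
  have e : F N x * H N x - f x * h x = (F N x - f x) * H N x + f x * (H N x - h x) := by ring
  have a1 : (H N x) ^ 2 ≤ 1 := by
    have := abs_le.1 (hHb N x)
    nlinarith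
  have a2 : (f x) ^ 2 ≤ 1 := by
    have := abs_le.1 (hfb x)
    nlinarith
  rw [e]
  have a3 : ((F N x - f x) * H N x) ^ 2 ≤ (F N x - f x) ^ 2 := by
    rw [mul_pow]
    nlinarith [sq_nonneg (F N x - f x)]
  have a4 : (f x * (H N x - h x)) ^ 2 ≤ (H N x - h x) ^ 2 := by
    rw [mul_pow]
    nlinarith [sq_nonneg (H N x - h x)]
  nlinarith [sq_nonneg ((F N x - f x) * H N x - f x * (H N x - h x))]

end L2

section Limit

variable {Ω : Type*} [MeasurableSpace Ω] {μ : Measure Ω} [IsProbabilityMeasure μ]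

/-- `L²` limit of the tree averages from the `L²` limit of the means. -/
theorem L2_wTree (hG : Tree G d) {θ : ℝ} (h0 : 0 ≤ θ) (h1 : θ < 1) {mN : ℕ → Ω → V → ℝ} {mI : Ω → V → ℝ}
    (hmN : ∀ N u, Measurable fun ω => mN N ω u) (hmI : ∀ u, Measurable fun ω => mI ω u)
    (hbN : ∀ N ω u, |mN N ω u| ≤ 1) (hbI : ∀ ω u, |mI ω u| ≤ 1)
    (hL2 : ∀ u, Tendsto (fun N => ∫ ω, (mN N ω u - mI ω u) ^ 2 ∂μ) atTop (𝓝 0))
    (n : ℕ) {p x : V} (h : G.Adj p x) :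
    Tendsto (fun N => ∫ ω, (wTree G θ (d - 1) (mN N ω) n p x - wTree G θ (d - 1) (mI ω) n p x) ^ 2 ∂μ)
      atTop (𝓝 0) := by
  obtain ⟨L, hL0, hL⟩ := exists_uSq_lip (θm := θ) h0 h1
  -- the attenuation factor
  have hmu : ∀ (m : Ω → V → ℝ), (∀ u, Measurable fun ω => m ω u) → ∀ a b : V,
      Measurable fun ω => uOf θ (m ω a) (m ω b) ^ 2 := by
    intro m hm a b
    have h1 : Measurable fun ω => nuOf θ (m ω a) (m ω b) :=
      (bp_measurable_nuOf θ).comp ((hm a).prodMk (hm b))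
    unfold uOf uFun
    fun_prop
  have hub : ∀ a b a' b' : ℝ, |a| ≤ 1 → |b| ≤ 1 → |a'| ≤ 1 → |b'| ≤ 1 →
      |uOf θ a b ^ 2| ≤ 1 ∧ |uOf θ a b ^ 2 - uOf θ a' b' ^ 2| ≤ L * (|a - a'| + |b - b'|) := by
    intro a b a' b' h2 h3 h4 h5
    obtain ⟨h6, h7, h8⟩ := hL θ a b a' b' h0 le_rfl h2 h3 h4 h5
    refine ⟨?_, h8⟩
    rw [abs_of_nonneg (sq_nonneg _)]
    exact h7
  have hbase : ∀ a b : V, Tendsto (fun N => ∫ ω,
      (uOf θ (mN N ω a) (mN N ω b) ^ 2 - uOf θ (mI ω a) (mI ω b) ^ 2) ^ 2 ∂μ) atTop (𝓝 0) := by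
    intro a b
    have hlim := ((hL2 a).add (hL2 b)).const_mul (2 * L ^ 2)
    simp only [add_zero, mul_zero] at hlim
    refine squeeze_zero (fun N => integral_nonneg fun _ => sq_nonneg _) (fun N => ?_) hlim
    have hint : ∀ v : V, Integrable (fun ω => (mN N ω v - mI ω v) ^ 2) μ := by
      intro v
      refine integrable_of_bdd (M := (1 + 1) ^ 2) (((hmN N v).sub (hmI v)).pow_const 2) fun ω => ?_
      rw [abs_pow]
      exact pow_le_pow_left₀ (abs_nonneg _)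
        ((abs_sub _ _).trans (add_le_add (hbN N ω v) (hbI ω v))) 2
    rw [← integral_add (hint a) (hint b), ← integral_const_mul]
    refine integral_mono_of_nonneg (Eventually.of_forall fun _ => sq_nonneg _)
      (((hint a).add (hint b)).const_mul _) (Eventually.of_forall fun ω => ?_)
    have h8 := (hub _ _ _ _ (hbN N ω a) (hbN N ω b) (hbI ω a) (hbI ω b)).2
    show (uOf θ (mN N ω a) (mN N ω b) ^ 2 - uOf θ (mI ω a) (mI ω b) ^ 2) ^ 2
      ≤ 2 * L ^ 2 * ((mN N ω a - mI ω a) ^ 2 + (mN N ω b - mI ω b) ^ 2)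
    rw [← sq_abs]
    refine (pow_le_pow_left₀ (abs_nonneg _) h8 2).trans ?_
    rw [mul_pow, ← sq_abs (mN N ω a - mI ω a), ← sq_abs (mN N ω b - mI ω b)]
    nlinarith [sq_nonneg (|mN N ω a - mI ω a| - |mN N ω b - mI ω b|), sq_nonneg L]
  induction n generalizing p x with
  | zero => exact hbase p x
  | succ n ih =>
    simp only [wTree]
    set D : ℝ := ((d - 1 : ℕ) : ℝ) with hD
    have hD2 : 2 ≤ D := pred_pos hG
    have hDpos : 0 < D := by linarith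
    have hchild : ∀ c ∈ (G.neighborFinset x).erase p, G.Adj x c := fun c hc =>
      (G.mem_neighborFinset x c).1 (Finset.mem_of_mem_erase hc)
    have hWN : ∀ N ω c, c ∈ (G.neighborFinset x).erase p → |wTree G θ (d - 1) (mN N ω) n x c| ≤ 1 := by
      intro N ω c hc
      obtain ⟨h2, h3⟩ := wn_wTree_mem hG h0 h1 (hbN N ω) n (hchild c hc)
      rw [abs_of_nonneg h2]
      exact h3
    have hWI : ∀ ω c, c ∈ (G.neighborFinset x).erase p → |wTree G θ (d - 1) (mI ω) n x c| ≤ 1 := by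
      intro ω c hc
      obtain ⟨h2, h3⟩ := wn_wTree_mem hG h0 h1 (hbI ω) n (hchild c hc)
      rw [abs_of_nonneg h2]
      exact h3
    have hsum := L2_sum (μ := μ) ((G.neighborFinset x).erase p)
      (F := fun c N ω => wTree G θ (d - 1) (mN N ω) n x c)
      (f := fun c ω => wTree G θ (d - 1) (mI ω) n x c) (M := 1)
      (fun c _ N => wn_measurable_wTree (hmN N) n x c) (fun c _ => wn_measurable_wTree hmI n x c)
      (fun c hc N ω => hWN N ω c hc) (fun c hc ω => hWI ω c hc) (fun c hc => ih (hchild c hc))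
    have hcard := wn_card_children hG h
    have hav : ∀ (W : Ω → V → ℝ), (∀ ω u, |W ω u| ≤ 1) → ∀ ω,
        |(1 / D) * ∑ c ∈ (G.neighborFinset x).erase p, wTree G θ (d - 1) (W ω) n x c| ≤ 1 := by
      intro W hW ω
      have hs0 : 0 ≤ ∑ c ∈ (G.neighborFinset x).erase p, wTree G θ (d - 1) (W ω) n x c :=
        Finset.sum_nonneg fun c hc => (wn_wTree_mem hG h0 h1 (hW ω) n (hchild c hc)).1
      have hs1 : ∑ c ∈ (G.neighborFinset x).erase p, wTree G θ (d - 1) (W ω) n x c ≤ D := by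
        calc _ ≤ ∑ c ∈ (G.neighborFinset x).erase p, (1 : ℝ) :=
              Finset.sum_le_sum fun c hc => (wn_wTree_mem hG h0 h1 (hW ω) n (hchild c hc)).2
          _ = _ := by rw [Finset.sum_const, hcard]; simp [hD]
      rw [abs_of_nonneg (by positivity), one_div, inv_mul_le_iff₀ hDpos, mul_one]
      exact hs1
    refine L2_mul_one (fun N => hmu (mN N) (hmN N) p x) (fun N => ?_) (hmu mI hmI p x) ?_
      (fun N ω => (hub _ _ _ _ (hbN N ω p) (hbN N ω x) (hbN N ω p) (hbN N ω x)).1)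
      (fun N ω => hav (mN N) (hbN N) ω) (fun ω => (hub _ _ _ _ (hbI ω p) (hbI ω x) (hbI ω p) (hbI ω x)).1)
      (fun ω => hav mI hbI ω) (hbase p x) ?_
    · exact measurable_const.mul (Finset.measurable_sum _ fun c _ => wn_measurable_wTree (hmN N) n x c)
    · exact measurable_const.mul (Finset.measurable_sum _ fun c _ => wn_measurable_wTree hmI n x c)
    · have hl := hsum.const_mul ((1 / D) ^ 2)
      simp only [mul_zero] at hl
      refine hl.congr fun N => ?_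
      rw [← integral_const_mul]
      refine integral_congr_ae (Eventually.of_forall fun ω => ?_)
      simp only
      ring

/-- Limit of moments. -/
theorem tendsto_wTree_pow (hG : Tree G d) {θ : ℝ} (h0 : 0 ≤ θ) (h1 : θ < 1) {mN : ℕ → Ω → V → ℝ} {mI : Ω → V → ℝ}
    (hmN : ∀ N u, Measurable fun ω => mN N ω u) (hmI : ∀ u, Measurable fun ω => mI ω u)
    (hbN : ∀ N ω u, |mN N ω u| ≤ 1) (hbI : ∀ ω u, |mI ω u| ≤ 1)
    (hL2 : ∀ u, Tendsto (fun N => ∫ ω, (mN N ω u - mI ω u) ^ 2 ∂μ) atTop (𝓝 0))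
    (n P : ℕ) {p x : V} (h : G.Adj p x) :
    Tendsto (fun N => ∫ ω, wTree G θ (d - 1) (mN N ω) n p x ^ P ∂μ) atTop
      (𝓝 (∫ ω, wTree G θ (d - 1) (mI ω) n p x ^ P ∂μ)) := by
  refine tendsto_integral_comp_of_L2 (φ := fun y => y ^ P) (L := P) (M := 1)
    (fun N => wn_measurable_wTree (hmN N) n p x) (wn_measurable_wTree hmI n p x)
    (measurable_id.pow_const P) (fun N ω => ?_) (fun ω => ?_) (Nat.cast_nonneg P) (fun a b ha hb => ?_)
    (L2_wTree hG h0 h1 hmN hmI hbN hbI hL2 n h)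
  · obtain ⟨h2, h3⟩ := wn_wTree_mem hG h0 h1 (hbN N ω) n h
    rw [abs_of_nonneg h2]
    exact h3
  · obtain ⟨h2, h3⟩ := wn_wTree_mem hG h0 h1 (hbI ω) n h
    rw [abs_of_nonneg h2]
    exact h3
  · have h4 := abs_pow_sub_pow_le a b P
    have h5 : max |a| |b| ^ (P - 1) ≤ 1 := pow_le_one₀ (le_max_of_le_left (abs_nonneg _)) (max_le ha hb)
    calc |a ^ P - b ^ P| ≤ |a - b| * P * max |a| |b| ^ (P - 1) := h4
      _ ≤ |a - b| * P * 1 := mul_le_mul_of_nonneg_left h5 (by positivity)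
      _ = P * |a - b| := by ring

end Limit

/-! ### The statements -/

/-- The window inputs. -/
structure WinInput (G : SimpleGraph V) [G.LocallyFinite] (d : ℕ) (ε τ₁ : ℝ) (s : ℝ → ℝ) : Prop where
  s_nonneg : ∀ τ, 0 ≤ s τ
  s_le : ∀ τ, s τ ≤ 1
  s_ge : ∃ c : ℝ, 0 < c ∧ ∀ τ ∈ Ioc 0 τ₁, c * τ ≤ Real.sqrt (s τ)
  W1 : ∀ θ, 0 ≤ θ → θ < 1 → ∀ τ ∈ Ioc 0 τ₁, ∀ x p, G.Adj p x → ∀ j m k N : ℕ, m + k + j + 1 ≤ N → ∀ P : ℕ,
    ∫ ω, wTree G θ (d - 1) (mW G θ (kap ε) (ball G x N) ω τ) (m + k) p x ^ P ∂(PP V) ≤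
      ((1 - TiltSys.kp θ * qLow (θ ^ 2 * ((d - 1 : ℕ) : ℝ)) (s τ) j) ^ k +
        P / ((d - 1 : ℕ) : ℝ) ^ m) ^ P
  W2 : ∀ θ, 0 ≤ θ → θ < 1 → ∀ τ ∈ Ioc 0 τ₁, ∀ x p, G.Adj p x → ∀ j N : ℕ, 1 ≤ N → j ≤ N →
    qLow (θ ^ 2 * ((d - 1 : ℕ) : ℝ)) (s τ) j ≤
      ∫ ω, nuOf θ (mW G θ (kap ε) (ball G x N) ω τ p) (mW G θ (kap ε) (ball G x N) ω τ x) ^ 2 ∂(PP V)

section Main

variable {ε τ₁ : ℝ} {s : ℝ → ℝ}

theorem thetaRange_eta (hG : Tree G d) {θ : ℝ} (hθ : ThetaRange d θ) :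
    θ ^ 2 * ((d - 1 : ℕ) : ℝ) = θ ^ 2 * ((d : ℝ) - 1) := by
  rw [cast_pred hG]

/-- The limit `qb` is below the second moment of the message. -/
theorem qb_le_qInf (hG : Tree G d) (hin : WinInput G d ε τ₁ s) (h0 : 0 < ε) (h1 : ε ≤ 1 / 2) {θ : ℝ}
    (hθ : ThetaRange d θ) {τ : ℝ} (hτ : τ ∈ Ioc 0 τ₁) {x p : V} (hxp : G.Adj p x) {qb : ℝ}
    (hqb : Tendsto (qLow (θ ^ 2 * ((d - 1 : ℕ) : ℝ)) (s τ)) atTop (𝓝 qb)) :
    qb ≤ qInf G θ (kap ε) τ x p := by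
  have hle := thetaRange_le hG.hd hθ
  have hθ1 : θ < 1 := by linarith
  have hκ := isStrength_kap h0.le h1
  have hL2 := nu_L2 hG hθ hκ hτ.1.le hxp
  have hbN : ∀ N ω, |nuOf θ (mW G θ (kap ε) (ball G x N) ω τ p) (mW G θ (kap ε) (ball G x N) ω τ x)| ≤ 1 := by
    intro N ω
    obtain ⟨L, hL0, hL⟩ := exists_bethe_bounds (θm := θ) hθ.1 hθ1
    have h2 : ∀ u, |mW G θ (kap ε) (ball G x N) ω τ u| ≤ 1 := fun u => abs_mW_le hθ.1 hθ1 _ ω τ u
    exact (hL θ θ _ _ _ _ hθ.1 le_rfl hθ.1 le_rfl (h2 p) (h2 x) (h2 p) (h2 x)).1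
  have hbI : ∀ ω, |nuOf θ (mInf G θ (kap ε) ω τ p) (mInf G θ (kap ε) ω τ x)| ≤ 1 := by
    intro ω
    obtain ⟨L, hL0, hL⟩ := exists_bethe_bounds (θm := θ) hθ.1 hθ1
    have h2 : ∀ u, |mInf G θ (kap ε) ω τ u| ≤ 1 := fun u => abs_mInf_le hG hθ.1 hθ1 ω τ u
    exact (hL θ θ _ _ _ _ hθ.1 le_rfl hθ.1 le_rfl (h2 p) (h2 x) (h2 p) (h2 x)).1
  have hlim := tendsto_integral_sq_of_L2 (μ := PP V) (M := 1)
    (F := fun N ω => nuOf θ (mW G θ (kap ε) (ball G x N) ω τ p) (mW G θ (kap ε) (ball G x N) ω τ x))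
    (f := fun ω => nuOf θ (mInf G θ (kap ε) ω τ p) (mInf G θ (kap ε) ω τ x))
    (fun N => (bp_measurable_nuOf θ).comp ((bp_measurable_mW_at hκ.meas _ τ p).prodMk (bp_measurable_mW_at hκ.meas _ τ x)))
    ((bp_measurable_nuOf θ).comp ((measurable_mInf_at hκ.meas τ p).prodMk (measurable_mInf_at hκ.meas τ x)))
    hbN hbI hL2
  refine le_of_tendsto' hqb fun j => ?_
  refine ge_of_tendsto hlim ?_
  filter_upwards [eventually_ge_atTop j, eventually_ge_atTop 1] with N hN hN1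
  exact hin.W2 θ hθ.1 hθ1 τ hτ x p hxp j N hN1 hN

/-- The moment bound in infinite volume. -/
theorem wTree_pow_le (hG : Tree G d) (hin : WinInput G d ε τ₁ s) (h0 : 0 < ε) (h1 : ε ≤ 1 / 2) {θ : ℝ}
    (hθ : ThetaRange d θ) {τ : ℝ} (hτ : τ ∈ Ioc 0 τ₁) {x p : V} (hxp : G.Adj p x) {qb : ℝ}
    (hqb : Tendsto (qLow (θ ^ 2 * ((d - 1 : ℕ) : ℝ)) (s τ)) atTop (𝓝 qb)) (m k P : ℕ) :
    ∫ ω, wTree G θ (d - 1) (fun u => mInf G θ (kap ε) ω τ u) (m + k) p x ^ P ∂(PP V) ≤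
      ((1 - TiltSys.kp θ * qb) ^ k + P / ((d - 1 : ℕ) : ℝ) ^ m) ^ P := by
  have hle := thetaRange_le hG.hd hθ
  have hθ1 : θ < 1 := by linarith
  have hκ := isStrength_kap h0.le h1
  have hlim := tendsto_wTree_pow (μ := PP V) hG hθ.1 hθ1
    (mN := fun N ω => mW G θ (kap ε) (ball G x N) ω τ) (mI := fun ω u => mInf G θ (kap ε) ω τ u)
    (fun N u => bp_measurable_mW_at hκ.meas _ τ u) (fun u => measurable_mInf_at hκ.meas τ u)
    (fun N ω u => abs_mW_le hθ.1 hθ1 _ ω τ u) (fun ω u => abs_mInf_le hG hθ.1 hθ1 ω τ u)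
    (fun u => mW_ball_L2_gen hG hθ.1 hθ.2.1 hκ hτ.1.le x u) (m + k) P hxp
  have hj : Tendsto (fun j => ((1 - TiltSys.kp θ * qLow (θ ^ 2 * ((d - 1 : ℕ) : ℝ)) (s τ) j) ^ k +
      (P : ℝ) / ((d - 1 : ℕ) : ℝ) ^ m) ^ P) atTop
      (𝓝 (((1 - TiltSys.kp θ * qb) ^ k + (P : ℝ) / ((d - 1 : ℕ) : ℝ) ^ m) ^ P)) := by
    have h2 := ((hqb.const_mul (TiltSys.kp θ)).const_sub 1).pow k
    exact (h2.add_const _).pow P
  refine ge_of_tendsto' hj fun j => ?_
  refine le_of_tendsto hlim ?_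
  filter_upwards [eventually_ge_atTop (m + k + j + 1)] with N hN
  exact hin.W1 θ hθ.1 hθ1 τ hτ x p hxp j m k N hN P

/-- **E1.** -/
theorem attenuation_lower_of (hG : Tree G d) (hin : WinInput G d ε τ₁ s) (h0 : 0 < ε) (h1 : ε ≤ 1 / 2) :
    ∃ c : ℝ, 0 < c ∧ ∀ θ, ThetaRange d θ → ∀ τ ∈ Ioc 0 τ₁, ∀ x p, G.Adj p x →
      c * τ ≤ (1 - θ ^ 2 * ((d : ℝ) - 1)) + qInf G θ (kap ε) τ x p := by
  obtain ⟨c₀, hc₀, hs⟩ := hin.s_ge
  refine ⟨c₀ / 2, by positivity, fun θ hθ τ hτ x p hxp => ?_⟩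
  have hη0 : 0 ≤ θ ^ 2 * ((d - 1 : ℕ) : ℝ) := by positivity
  have hη1 : θ ^ 2 * ((d - 1 : ℕ) : ℝ) ≤ 1 := by
    rw [thetaRange_eta hG hθ]
    exact hθ.2.1.le
  obtain ⟨qb, hqb, hq0, hq1, hbd⟩ := exists_qBar hη0 (hin.s_nonneg τ) hη1 (hin.s_le τ)
  have h2 := qb_le_qInf hG hin h0 h1 hθ hτ hxp hqb
  have h3 := hs τ hτ
  rw [thetaRange_eta hG hθ] at hbd
  calc c₀ / 2 * τ = (c₀ * τ) / 2 := by ring
    _ ≤ Real.sqrt (s τ) / 2 := by linarith
    _ ≤ _ := by linarith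

/-- `lpN` of a nonnegative function at an integer exponent. -/
lemma lpN_natCast {Ω : Type*} [MeasurableSpace Ω] (μ : Measure Ω) {f : Ω → ℝ} (hf : ∀ x, 0 ≤ f x) (P : ℕ) :
    lpN μ f (P : ℝ) = (∫ x, f x ^ P ∂μ) ^ (1 / (P : ℝ)) := by
  unfold lpN
  congr 1
  refine integral_congr_ae (Eventually.of_forall fun x => ?_)
  simp only
  rw [abs_of_nonneg (hf x), Real.rpow_natCast]

/-- The arithmetic of the first term. -/
lemma first_arith {k₁ k₀ c₀ qb γ τ τ₁ n k : ℝ} (hk₁ : 0 < k₁) (hk₁1 : k₁ ≤ 1) (hk₁2 : k₁ ≤ k₀ / 2)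
    (hc₀ : 0 < c₀) (hq0 : 0 ≤ qb) (hγ0 : 0 ≤ γ) (hτ : 0 ≤ τ) (hτ₁ : τ ≤ τ₁)
    (h4 : c₀ * τ / 2 ≤ γ + qb) (hn1 : 1 ≤ n) (hk2 : n - 1 ≤ 2 * k) :
    -γ * n + -(k₀ * qb) * k ≤ (k₁ * c₀ / 2) * τ₁ + -(k₁ * c₀ / 2) * τ * n := by
  set c : ℝ := k₁ * c₀ / 2 with hc
  have hcpos : 0 < c := by positivity
  have hkey : c * τ ≤ k₁ * γ + k₁ * qb := by
    have h5 := mul_le_mul_of_nonneg_left h4 hk₁.le
    calc c * τ = k₁ * (c₀ * τ / 2) := by rw [hc]; ring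
      _ ≤ k₁ * (γ + qb) := h5
      _ = _ := by ring
  have hcτ : c * τ ≤ c * τ₁ := mul_le_mul_of_nonneg_left hτ₁ hcpos.le
  have h7 : c * τ * (n - 1) ≤ (k₁ * γ + k₁ * qb) * (n - 1) :=
    mul_le_mul_of_nonneg_right hkey (by linarith)
  have h8 : k₁ * γ * (n - 1) ≤ γ * n := by
    have h9 : k₁ * γ ≤ 1 * γ := mul_le_mul_of_nonneg_right hk₁1 hγ0
    have h10 : k₁ * γ * (n - 1) ≤ 1 * γ * (n - 1) := mul_le_mul_of_nonneg_right h9 (by linarith)
    have h10' : 1 * γ * (n - 1) = γ * n - γ := by ring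
    linarith
  have h11 : k₁ * qb * (n - 1) ≤ k₀ * qb * k := by
    have h12 : k₁ * qb ≤ (k₀ / 2) * qb := mul_le_mul_of_nonneg_right hk₁2 hq0
    have h13 : k₁ * qb * (n - 1) ≤ (k₀ / 2) * qb * (n - 1) :=
      mul_le_mul_of_nonneg_right h12 (by linarith)
    have hk₀ : 0 ≤ k₀ := by linarith
    have h14 : (k₀ / 2) * qb * (n - 1) ≤ (k₀ / 2) * qb * (2 * k) :=
      mul_le_mul_of_nonneg_left hk2 (by positivity)
    have h14' : (k₀ / 2) * qb * (2 * k) = k₀ * qb * k := by ring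
    linarith
  have h15 : c * τ * (n - 1) = c * τ * n - c * τ := by ring
  have h16 : (k₁ * γ + k₁ * qb) * (n - 1) = k₁ * γ * (n - 1) + k₁ * qb * (n - 1) := by ring
  have h17 : -γ * n + -(k₀ * qb) * k = -(γ * n) - k₀ * qb * k := by ring
  have h18 : -c * τ * n = -(c * τ * n) := by ring
  rw [h17, h18]
  linarith

set_option maxHeartbeats 1000000 in
/-- **E2.** -/
theorem wTree_norm_of (hG : Tree G d) (hin : WinInput G d ε τ₁ s) (h0 : 0 < ε) (h1 : ε ≤ 1 / 2)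
    (hτ₁ : 1 ≤ τ₁) :
    ∃ c C : ℝ, 0 < c ∧ 0 < C ∧ ∀ θ, ThetaRange d θ → ∀ τ ∈ Ioc 0 τ₁, ∀ x p, G.Adj p x → ∀ (n P : ℕ), 1 ≤ P →
      (θ ^ 2 * ((d : ℝ) - 1)) ^ n *
          lpN (PP V) (fun ω => wTree G θ (d - 1) (fun u => mInf G θ (kap ε) ω τ u) n p x) P ≤
        min 1 (C * Real.exp (- c * τ * n) + P * ((d : ℝ) - 1) ^ (-(n : ℝ) / 2)) := by
  obtain ⟨c₀, hc₀, hs⟩ := hin.s_ge
  have hDR2 : (2 : ℝ) ≤ (d : ℝ) - 1 := by
    have := pred_pos hG
    rwa [cast_pred hG] at this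
  set DR : ℝ := (d : ℝ) - 1 with hDR
  have hDRpos : 0 < DR := by linarith
  set k₀ : ℝ := 1 / (64 * DR) with hk₀
  have hk₀pos : 0 < k₀ := by positivity
  set k₁ : ℝ := min 1 (k₀ / 2) with hk₁
  have hk₁pos : 0 < k₁ := lt_min one_pos (by positivity)
  have hk₁1 : k₁ ≤ 1 := min_le_left _ _
  have hk₁2 : k₁ ≤ k₀ / 2 := min_le_right _ _
  set c : ℝ := k₁ * c₀ / 2 with hc
  have hcpos : 0 < c := by positivity
  refine ⟨c, Real.exp (c * τ₁), hcpos, Real.exp_pos _, fun θ hθ τ hτ x p hxp n P hP => ?_⟩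
  have hle := thetaRange_le hG.hd hθ
  have hθ1 : θ < 1 := by linarith
  have hθ0 := hθ.1
  have hκ := isStrength_kap h0.le h1
  set η : ℝ := θ ^ 2 * DR with hη
  have hη1 : η < 1 := hθ.2.1
  have hη2 : 1 ≤ 2 * η := hθ.2.2
  have hη0 : 0 ≤ η := by linarith
  set γ : ℝ := 1 - η with hγ
  have hγ0 : 0 < γ := by linarith
  have hηD : θ ^ 2 * ((d - 1 : ℕ) : ℝ) = η := thetaRange_eta hG hθ
  have hη3 : (0 : ℝ) ≤ θ ^ 2 * ((d - 1 : ℕ) : ℝ) := by rw [hηD]; exact hη0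
  have hη4 : θ ^ 2 * ((d - 1 : ℕ) : ℝ) ≤ 1 := by rw [hηD]; exact hη1.le
  obtain ⟨qb, hqb, hq0, hq1, hbd⟩ := exists_qBar hη3 (hin.s_nonneg τ) hη4 (hin.s_le τ)
  rw [hηD] at hbd
  -- the constant of the attenuation
  have hkp : k₀ ≤ TiltSys.kp θ := by
    have hθsq : 1 / (2 * DR) ≤ θ ^ 2 := by
      rw [div_le_iff₀ (by positivity)]
      nlinarith
    have h2 : θ ^ 2 ≤ 9 / 16 := by nlinarith
    have h3 : (1 / 4 : ℝ) ≤ 1 - θ := by linarith
    have h4 : (7 / 16 : ℝ) ≤ 1 - θ ^ 2 := by linarith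
    have h5 : (1 / 4 : ℝ) * (7 / 16) ≤ (1 - θ) * (1 - θ ^ 2) :=
      mul_le_mul h3 h4 (by norm_num) (by linarith)
    have h6 : (1 / 4 : ℝ) * (7 / 16) * (1 / (2 * DR)) ≤ (1 - θ) * (1 - θ ^ 2) * θ ^ 2 :=
      mul_le_mul h5 hθsq (by positivity) (by nlinarith)
    unfold TiltSys.kp
    have h7 : k₀ ≤ (1 / 4 : ℝ) * (7 / 16) * (1 / (2 * DR)) / 2 := by
      rw [hk₀]
      have : (1 / 4 : ℝ) * (7 / 16) * (1 / (2 * DR)) / 2 = (7 / 256) * (1 / DR) := by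
        field_simp
        ring
      rw [this]
      have h8 : 1 / (64 * DR) = (1 / 64) * (1 / DR) := by
        field_simp
      rw [h8]
      exact mul_le_mul_of_nonneg_right (by norm_num) (by positivity)
    linarith
  have hkp1 : TiltSys.kp θ ≤ 1 / 2 := TiltSys.kp_le hθ0 hθ1
  set a : ℝ := 1 - TiltSys.kp θ * qb with ha
  have ha0 : 0 ≤ a := by nlinarith
  have ha1 : a ≤ 1 - k₀ * qb := by
    have := mul_le_mul_of_nonneg_right hkp hq0
    rw [ha]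
    linarith
  have ha2 : a ≤ Real.exp (- (k₀ * qb)) := by
    refine ha1.trans ?_
    have := Real.add_one_le_exp (- (k₀ * qb))
    linarith
  have hηe : η ≤ Real.exp (- γ) := by
    have := Real.add_one_le_exp (- γ)
    rw [hγ] at this ⊢
    linarith
  -- the moment
  set f : Om V → ℝ := fun ω => wTree G θ (d - 1) (fun u => mInf G θ (kap ε) ω τ u) n p x with hf
  have hf01 : ∀ ω, 0 ≤ f ω ∧ f ω ≤ 1 := fun ω =>
    wn_wTree_mem hG hθ0 hθ1 (fun u => abs_mInf_le hG hθ0 hθ1 ω τ u) n hxp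
  have hPpos : (0 : ℝ) < P := by exact_mod_cast hP
  have hPne : P ≠ 0 := by omega
  have hfm : Measurable f := wn_measurable_wTree (fun u => measurable_mInf_at hκ.meas τ u) n p x
  have hint : Integrable (fun ω => f ω ^ P) (PP V) := by
    refine integrable_of_bdd (M := 1) (hfm.pow_const P) fun ω => ?_
    rw [abs_of_nonneg (pow_nonneg (hf01 ω).1 P)]
    exact pow_le_one₀ (hf01 ω).1 (hf01 ω).2
  have hX0 : 0 ≤ ∫ ω, f ω ^ P ∂(PP V) := integral_nonneg fun ω => pow_nonneg (hf01 ω).1 P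
  rw [lpN_natCast (PP V) (fun ω => (hf01 ω).1) P]
  have hroot : ∀ {B : ℝ}, 0 ≤ B → (∫ ω, f ω ^ P ∂(PP V)) ≤ B ^ P →
      (∫ ω, f ω ^ P ∂(PP V)) ^ (1 / (P : ℝ)) ≤ B := by
    intro B hB h
    have h2 := Real.rpow_le_rpow hX0 h (by positivity : (0 : ℝ) ≤ 1 / (P : ℝ))
    rw [one_div] at h2 ⊢
    rwa [Real.pow_rpow_inv_natCast hB hPne] at h2
  have hηn0 : 0 ≤ η ^ n := pow_nonneg hη0 n
  have hηn1 : η ^ n ≤ 1 := pow_le_one₀ hη0 hη1.le
  have hX1 : (∫ ω, f ω ^ P ∂(PP V)) ^ (1 / (P : ℝ)) ≤ 1 := by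
    refine hroot zero_le_one ?_
    rw [one_pow]
    have : ∫ ω, f ω ^ P ∂(PP V) ≤ ∫ _ω, (1 : ℝ) ∂(PP V) :=
      integral_mono hint (integrable_const _) fun ω => pow_le_one₀ (hf01 ω).1 (hf01 ω).2
    simpa using this
  have hY0 : 0 ≤ (∫ ω, f ω ^ P ∂(PP V)) ^ (1 / (P : ℝ)) := Real.rpow_nonneg hX0 _
  refine le_min ?_ ?_
  · exact mul_le_one₀ hηn1 hY0 hX1
  -- the bound
  set m : ℕ := (n + 1) / 2 with hm
  set k : ℕ := n / 2 with hk
  have hmk : m + k = n := by omega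
  have hD' : ((d - 1 : ℕ) : ℝ) = DR := cast_pred hG
  have hB : (∫ ω, f ω ^ P ∂(PP V)) ≤ (a ^ k + (P : ℝ) / DR ^ m) ^ P := by
    have := wTree_pow_le hG hin h0 h1 hθ hτ hxp hqb m k P
    rw [hD'] at this
    rw [hf]
    simp only
    rw [← hmk]
    exact this
  have hroot2 := hroot (by positivity) hB
  have hfirst : η ^ n * a ^ k ≤ Real.exp (c * τ₁) * Real.exp (- c * τ * n) := by
    rw [← Real.exp_add]
    have h2 : η ^ n ≤ Real.exp (- γ * n) := by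
      have := pow_le_pow_left₀ hη0 hηe n
      rwa [← Real.exp_nat_mul, show (n : ℝ) * - γ = - γ * n by ring] at this
    have h3 : a ^ k ≤ Real.exp (- (k₀ * qb) * k) := by
      have := pow_le_pow_left₀ ha0 ha2 k
      rwa [← Real.exp_nat_mul, show (k : ℝ) * - (k₀ * qb) = - (k₀ * qb) * k by ring] at this
    refine (mul_le_mul h2 h3 (pow_nonneg ha0 k) (Real.exp_pos _).le).trans ?_
    rw [← Real.exp_add]
    refine Real.exp_le_exp.2 ?_
    -- arithmetic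
    have hsτ := hs τ hτ
    have hτpos := hτ.1
    have hτle := hτ.2
    have h4 : c₀ * τ / 2 ≤ γ + qb := by linarith
    rcases Nat.eq_zero_or_pos n with hn | hn
    · subst hn
      have hk0 : k = 0 := by omega
      rw [hk0]
      simp only [Nat.cast_zero, mul_zero, add_zero]
      positivity
    · have hn1 : (1 : ℝ) ≤ n := by exact_mod_cast hn
      have hk2 : (n : ℝ) - 1 ≤ 2 * k := by
        have : n ≤ 2 * k + 1 := by omega
        have h6 : (n : ℝ) ≤ 2 * k + 1 := by exact_mod_cast this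
        linarith
      exact first_arith hk₁pos hk₁1 hk₁2 hc₀ hq0 hγ0.le hτpos.le hτle h4 hn1 hk2
  have hsecond : (P : ℝ) / DR ^ m ≤ P * DR ^ (-(n : ℝ) / 2) := by
    rw [div_eq_mul_inv]
    refine mul_le_mul_of_nonneg_left ?_ hPpos.le
    have h2 : (DR ^ m)⁻¹ = DR ^ (-(m : ℝ)) := by
      rw [Real.rpow_neg hDRpos.le, Real.rpow_natCast]
    rw [h2]
    refine Real.rpow_le_rpow_of_exponent_le (by linarith) ?_
    have h3 : n ≤ 2 * m := by omega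
    have h4 : (n : ℝ) ≤ 2 * m := by exact_mod_cast h3
    linarith
  have hηn : (θ ^ 2 * ((d : ℝ) - 1)) ^ n = η ^ n := rfl
  calc (θ ^ 2 * ((d : ℝ) - 1)) ^ n * (∫ ω, f ω ^ P ∂(PP V)) ^ (1 / (P : ℝ))
      ≤ η ^ n * (a ^ k + (P : ℝ) / DR ^ m) := mul_le_mul_of_nonneg_left hroot2 hηn0
    _ = η ^ n * a ^ k + η ^ n * ((P : ℝ) / DR ^ m) := by ring
    _ ≤ Real.exp (c * τ₁) * Real.exp (- c * τ * n) + 1 * ((P : ℝ) / DR ^ m) :=
        add_le_add hfirst (mul_le_mul_of_nonneg_right hηn1 (by positivity))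
    _ ≤ _ := by
        rw [one_mul]
        exact add_le_add_right hsecond _

end Main

end Crest.Agent.Lib.IsingFIID
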