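/-
Row 160 (S0241): the law of the driven fields on a window is the density model `S.PP` on the
induced tree, for the single site tilt system `S`.
-/
import Crest.Agent.Lib.IsingFIID.Planted
import Crest.Agent.Lib.IsingFIID.GibbsBridge
import Crest.Agent.Lib.IsingFIID.QRec
import Crest.Agent.Lib.IsingFIID.LabelIso

set_option autoImplicit false
set_option linter.unusedSectionVars false
set_option linter.unusedVariables false

namespace Crest.Agent.Lib.IsingFIID

open MeasureTheory ProbabilityTheory
open scoped ENNReal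

section Prod

universe u w

variable {ι : Type u} [Fintype ι] [DecidableEq ι]
variable {X : Type w} [MeasurableSpace X]

/-- The product of a tilted law. -/
theorem prodM_withDensity (P : Measure X) [IsProbabilityMeasure P] (a : X → ℝ≥0∞) (ha : Measurable a)
    (h1 : ∫⁻ z, a z ∂P = 1) [IsProbabilityMeasure (P.withDensity a)] :
    prodM ι (P.withDensity a) = (prodM ι P).withDensity (fun y => ∏ v, a (y v)) := by
  classical
  symm
  refine Measure.eq_infinitePi _ fun s t ht => ?_
  have hmeasS : MeasurableSet (Set.pi (s : Set ι) t) :=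
    MeasurableSet.pi s.countable_toSet fun i _ => ht i
  rw [withDensity_apply _ hmeasS, ← lintegral_indicator hmeasS]
  set g : ι → X → ℝ≥0∞ := fun v z => if v ∈ s then (t v).indicator a z else a z with hg
  have hgm : ∀ v, Measurable (g v) := by
    intro v
    by_cases hv : v ∈ s
    · simp only [hg, hv, if_true]
      exact ha.indicator (ht v)
    · simp only [hg, hv, if_false]
      exact ha
  have e : (Set.pi (s : Set ι) t).indicator (fun y : ι → X => ∏ v, a (y v))
      = fun y => ∏ v, g v (y v) := by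
    funext y
    by_cases hy : y ∈ Set.pi (s : Set ι) t
    · rw [Set.indicator_of_mem hy]
      refine Finset.prod_congr rfl fun v _ => ?_
      by_cases hv : v ∈ s
      · simp only [hg, hv, if_true]
        rw [Set.indicator_of_mem (hy v hv)]
      · simp only [hg, hv, if_false]
    · rw [Set.indicator_of_notMem hy]
      simp only [Set.mem_pi, not_forall] at hy
      obtain ⟨v, hv, hvt⟩ := hy
      symm
      refine Finset.prod_eq_zero (Finset.mem_univ v) ?_
      have hv' : v ∈ s := hv
      simp only [hg, hv', if_true]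
      exact Set.indicator_of_notMem hvt _
  rw [e]
  have hind : iIndepFun (fun v (y : ι → X) => g v (y v)) (prodM ι P) :=
    iIndepFun_infinitePi (X := fun v z => g v z) (fun v => (hgm v))
  have h2 := lintegral_prod_eq_prod_lintegral_of_indepFun (Finset.univ) _ hind
    (fun v => (hgm v).comp (measurable_pi_apply v))
  rw [h2]
  have h3 : ∀ v, ∫⁻ y : ι → X, g v (y v) ∂(prodM ι P) = ∫⁻ z, g v z ∂P := by
    intro v
    have hmp := measurePreserving_eval_infinitePi (fun _ : ι => P) v
    have := lintegral_map (μ := prodM ι P) (hgm v) hmp.measurable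
    rw [hmp.map_eq] at this
    exact this.symm
  simp_rw [h3]
  have h4 : ∀ v, ∫⁻ z, g v z ∂P = if v ∈ s then (P.withDensity a) (t v) else 1 := by
    intro v
    by_cases hv : v ∈ s
    · simp only [hg, hv, if_true]
      rw [withDensity_apply _ (ht v), lintegral_indicator (ht v)]
    · simp only [hg, hv, if_false]
      exact h1
  simp_rw [h4]
  rw [Finset.prod_ite_mem]
  simp

/-- Integrals against the product of a tilted law. -/
theorem integral_prodM_withDensity (P : Measure X) [IsProbabilityMeasure P] (a : X → ℝ)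
    (ha : Measurable a) (ha0 : ∀ z, 0 ≤ a z) (h1 : ∫⁻ z, ENNReal.ofReal (a z) ∂P = 1)
    [IsProbabilityMeasure (P.withDensity fun z => ENNReal.ofReal (a z))] (G : (ι → X) → ℝ) :
    ∫ y, G y ∂(prodM ι (P.withDensity fun z => ENNReal.ofReal (a z)))
      = ∫ y, (∏ v, a (y v)) * G y ∂(prodM ι P) := by
  have ha' : Measurable fun z => ENNReal.ofReal (a z) := ENNReal.measurable_ofReal.comp ha
  rw [prodM_withDensity P _ ha' h1, integral_withDensity_eq_integral_toReal_smul]
  · refine integral_congr_ae (Filter.Eventually.of_forall fun y => ?_)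
    simp only [smul_eq_mul]
    congr 1
    rw [ENNReal.toReal_prod]
    exact Finset.prod_congr rfl fun v _ => ENNReal.toReal_ofReal (ha0 _)
  · exact Finset.measurable_prod _ fun v _ => ha'.comp (measurable_pi_apply v)
  · refine Filter.Eventually.of_forall fun y => ?_
    exact ENNReal.prod_lt_top fun v _ => ENNReal.ofReal_lt_top

end Prod

variable {V : Type*} [DecidableEq V] {G : SimpleGraph V}

namespace WL

/-- The configuration of a pattern. -/
def cfgOf (W A : Finset V) : WI W → Bool := fun v => decide (v.1 ∈ A)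

lemma spn_cfgOf (W A : Finset V) (v : WI W) : spn v (cfgOf W A) = sp A v.1 := by
  unfold spn cfgOf sp sg
  by_cases h : v.1 ∈ A <;> simp [h]

/-- The pattern of a configuration. -/
noncomputable def patOf (W : Finset V) (σ : WI W → Bool) : Finset V :=
  (Finset.univ.filter fun v : WI W => σ v = true).map (Function.Embedding.subtype _)

lemma mem_patOf {W : Finset V} {σ : WI W → Bool} {v : V} :
    v ∈ patOf W σ ↔ ∃ hv : v ∈ (W : Set V), σ ⟨v, hv⟩ = true := by
  unfold patOf
  simp

lemma patOf_subset (W : Finset V) (σ : WI W → Bool) : patOf W σ ⊆ W := by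
  intro v hv
  obtain ⟨h, _⟩ := mem_patOf.mp hv
  exact h

lemma cfgOf_patOf (W : Finset V) (σ : WI W → Bool) : cfgOf W (patOf W σ) = σ := by
  funext v
  unfold cfgOf
  by_cases h : σ v = true
  · rw [h]
    simp only [decide_eq_true_eq]
    exact mem_patOf.mpr ⟨v.2, h⟩
  · have h2 : σ v = false := by simpa using h
    rw [h2]
    simp only [decide_eq_false_iff_not]
    intro hm
    obtain ⟨_, h3⟩ := mem_patOf.mp hm
    exact h h3

lemma patOf_cfgOf {W A : Finset V} (hA : A ⊆ W) : patOf W (cfgOf W A) = A := by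
  ext v
  rw [mem_patOf]
  constructor
  · rintro ⟨_, h⟩
    simpa [cfgOf] using h
  · intro hv
    exact ⟨hA hv, by simpa [cfgOf] using hv⟩

/-- Sums over patterns are sums over configurations. -/
lemma sum_powerset_eq (W : Finset V) (f : Finset V → ℝ) :
    ∑ A ∈ W.powerset, f A = ∑ σ : WI W → Bool, f (patOf W σ) := by
  refine Finset.sum_nbij' (fun A => cfgOf W A) (fun σ => patOf W σ) ?_ ?_ ?_ ?_ ?_
  · intro A _
    exact Finset.mem_univ _
  · intro σ _
    exact Finset.mem_powerset.2 (patOf_subset W σ)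
  · intro A hA
    exact patOf_cfgOf (Finset.mem_powerset.1 hA)
  · intro σ _
    exact cfgOf_patOf W σ
  · intro A hA
    rw [patOf_cfgOf (Finset.mem_powerset.1 hA)]

/-- Products over the window. -/
lemma prod_window (W : Finset V) (g : V → ℝ) :
    ∏ v ∈ W, g v = ∏ v : WI W, g v.1 :=
  Finset.prod_subtype W (fun x => Iff.rfl) g

/-- Identification of the edge product with the prelude's Ising weight on the whole window. -/
lemma prod_edges_eq (θ : ℝ) (W : Finset V) (η : V → Bool) :
    (1 / 2 : ℝ) * ∏ e ∈ edgesIn (G.induce (W : Set V)) (Finset.univ : Finset (WI W)),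
        (ef θ (fun v : WI W => η v.1) e / 2) =
      Crest.ProbabilityR.TreeIsing.isingWeight G θ W η := by
  unfold Crest.ProbabilityR.TreeIsing.isingWeight
  congr 1
  refine Finset.prod_bij (fun e _ => Sym2.map Subtype.val e) ?_ ?_ ?_ ?_
  · intro e he
    induction e using Sym2.ind with
    | _ a b =>
      rw [mk_mem_edgesIn] at he
      simp only [Sym2.map_mk, Finset.mem_filter, Finset.mk_mem_sym2_iff,
        SimpleGraph.mem_edgeSet]
      exact ⟨⟨a.2, b.2⟩, he.1⟩
  · intro e _ e' _ h
    exact Sym2.map.injective Subtype.val_injective h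
  · intro e he
    induction e using Sym2.ind with
    | _ u v =>
      simp only [Finset.mem_filter, Finset.mk_mem_sym2_iff, SimpleGraph.mem_edgeSet] at he
      refine ⟨s(⟨u, he.1.1⟩, ⟨v, he.1.2⟩), ?_, rfl⟩
      rw [mk_mem_edgesIn]
      exact ⟨he.2, Finset.mem_univ _, Finset.mem_univ _⟩
  · intro e he
    induction e using Sym2.ind with
    | _ a b =>
      simp only [Sym2.map_mk, Sym2.mk_isDiag_iff, ef_mk, spn]
      by_cases h : η a.1 = η b.1
      · rw [if_pos h, h, mul_assoc, sg_mul_self]; ring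
      · rw [if_neg h]
        have : sg (η a.1) * sg (η b.1) = -1 := by
          cases h1 : η a.1 <;> cases h2 : η b.1 <;> simp_all
        rw [mul_assoc, this]; ring

/-- The constant of the edge product. -/
noncomputable def bwC (G : SimpleGraph V) (W : Finset V) : ℝ :=
  (1 / 2) * (1 / 2) ^ (edgesIn (G.induce (W : Set V)) (Finset.univ : Finset (WI W))).card

lemma bw_eq_edges (θ : ℝ) (W A : Finset V) :
    bw G θ W A = bwC G W *
      ∏ e ∈ edgesIn (G.induce (W : Set V)) (Finset.univ : Finset (WI W)), ef θ (cfgOf W A) e := by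
  unfold bw
  rw [← prod_edges_eq (G := G) θ W (fun v => decide (v ∈ A))]
  unfold bwC
  have h2 : (fun v : WI W => decide (v.1 ∈ A)) = cfgOf W A := rfl
  rw [h2, mul_assoc]
  congr 1
  simp_rw [div_eq_mul_inv]
  rw [Finset.prod_mul_distrib, Finset.prod_const, mul_comm]
  congr 2
  norm_num

/-- The master formula. -/
theorem sum_bw_tilt (θ : ℝ) (W : Finset V) (l : WI W → ℝ) (f : Finset V → ℝ) :
    ∑ A ∈ W.powerset, bw G θ W A * (∏ v : WI W, (1 + l v * sp A v.1)) * f A
      = bwC G W * ∑ σ, wt (G.induce (W : Set V)) θ l σ * f (patOf W σ) := by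
  rw [sum_powerset_eq, Finset.mul_sum]
  refine Finset.sum_congr rfl fun σ _ => ?_
  rw [bw_eq_edges, cfgOf_patOf]
  unfold wt wtOn
  have e : ∀ v : WI W, sp (patOf W σ) v.1 = spn v σ := fun v => by
    rw [← spn_cfgOf, cfgOf_patOf]
  simp_rw [e]
  ring

lemma induce_tree (hT : G.IsTree) {W : Finset V} (hW : IsWin G W) :
    (G.induce (W : Set V)).IsTree := ⟨hW, hT.isAcyclic.induce _⟩

/-- The normalisation. -/
lemma bwC_mul (hT : G.IsTree) {W : Finset V} (hW : IsWin G W) {θ : ℝ} (h0 : 0 ≤ θ) (h1 : θ < 1) :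
    bwC G W * 2 ^ Fintype.card (W : Set V) = 1 := by
  have h := sum_bw_tilt (G := G) θ W 0 (fun _ => 1)
  simp only [Pi.zero_apply, zero_mul, add_zero, Finset.prod_const_one, mul_one] at h
  rw [sum_bw hT hW] at h
  have hZ := ZZ_univ_free (T := G.induce (W : Set V)) (induce_tree hT hW) h0 h1
  unfold ZZ at hZ
  have hn : (2 : ℝ) ^ Fintype.card (WI W) ≠ 0 := by positivity
  rw [div_eq_iff hn, one_mul] at hZ
  rw [← hZ]
  exact h.symm

/-- The master formula, normalised. -/
theorem sum_bw_tilt' (hT : G.IsTree) {W : Finset V} (hW : IsWin G W) {θ : ℝ} (h0 : 0 ≤ θ) (h1 : θ < 1)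
    (l : WI W → ℝ) (f : Finset V → ℝ) :
    ∑ A ∈ W.powerset, bw G θ W A * (∏ v : WI W, (1 + l v * sp A v.1)) * f A
      = (∑ σ, wt (G.induce (W : Set V)) θ l σ * f (patOf W σ)) / 2 ^ Fintype.card (WI W) := by
  rw [sum_bw_tilt]
  have h := bwC_mul hT hW h0 h1
  have hn : (2 : ℝ) ^ Fintype.card (WI W) ≠ 0 := by positivity
  rw [eq_div_iff hn]
  calc _ = (bwC G W * 2 ^ Fintype.card (WI W)) * ∑ σ, wt (G.induce (W : Set V)) θ l σ * f (patOf W σ) := by ring
    _ = _ := by rw [h, one_mul]

/-- The tree partition function from the patterns. -/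
theorem sum_bw_tilt_one (hT : G.IsTree) {W : Finset V} (hW : IsWin G W) {θ : ℝ} (h0 : 0 ≤ θ) (h1 : θ < 1)
    (l : WI W → ℝ) :
    ∑ A ∈ W.powerset, bw G θ W A * ∏ v : WI W, (1 + l v * sp A v.1)
      = ZZ (G.induce (W : Set V)) θ Finset.univ l := by
  have h := sum_bw_tilt' hT hW h0 h1 l (fun _ => 1)
  simp only [mul_one] at h
  rw [h]
  rfl

end WL

open WL

/-- The planted formula in real integrals. -/
theorem integral_field_eq (hT : G.IsTree) {W : Finset V} (hW : IsWin G W) {θ : ℝ} {κ : ℝ → ℝ}
    (hθ0 : 0 ≤ θ) (hθ1 : θ < 1) (hκ : IsStrength κ) (τ : ℝ) {Φ : (V → ℝ) → ℝ} (hΦ : BM Φ) :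
    ∫ ω, Φ (field G θ κ W ω τ) ∂(PP V) = ∫ ω, Φ (field0W κ W ω τ) * lik G θ κ W ω τ ∂(PP V) := by
  have hm1 : Measurable fun ω : Om V => field G θ κ W ω τ := by
    rw [measurable_pi_iff]
    intro v
    exact (measurable_field hκ.meas v).comp (measurable_const.prodMk measurable_id)
  have hm0 : Measurable fun ω : Om V => field0W κ W ω τ := measurable_field0W hκ.meas W τ
  have hml : Measurable fun ω : Om V => lik G θ κ W ω τ := measurable_lik hκ.meas W τ
  have hlp : ∀ ω, 0 < lik G θ κ W ω τ := fun ω => lik_pos hκ hθ0 hθ1 W ω τ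
  -- nonnegative version
  have key : ∀ {Ψ : (V → ℝ) → ℝ}, Measurable Ψ → (∀ h, 0 ≤ Ψ h) →
      ∫⁻ ω, ENNReal.ofReal (Ψ (field G θ κ W ω τ)) ∂(PP V)
        = ∫⁻ ω, ENNReal.ofReal (Ψ (field0W κ W ω τ) * lik G θ κ W ω τ) ∂(PP V) := by
    intro Ψ hΨ h0
    have := lintegral_field_eq (G := G) hT hW hθ0 hθ1 hκ τ (Ψ := fun h => ENNReal.ofReal (Ψ h))
      (ENNReal.measurable_ofReal.comp hΨ)
    rw [this]
    refine lintegral_congr fun ω => ?_
    rw [ENNReal.ofReal_mul (h0 _)]
  -- the mass
  have hmass : ∫⁻ ω, ENNReal.ofReal (lik G θ κ W ω τ) ∂(PP V) = 1 := by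
    have h2 := key (Ψ := fun _ => 1) measurable_const (fun _ => zero_le_one)
    simp only [ENNReal.ofReal_one, lintegral_const, measure_univ, mul_one, one_mul] at h2
    exact h2.symm
  have hint : Integrable (fun ω => lik G θ κ W ω τ) (PP V) := by
    refine ⟨hml.aestronglyMeasurable, ?_⟩
    rw [hasFiniteIntegral_iff_ofReal (Filter.Eventually.of_forall fun ω => (hlp ω).le), hmass]
    exact ENNReal.one_lt_top
  have hmass' : ∫ ω, lik G θ κ W ω τ ∂(PP V) = 1 := by
    rw [integral_eq_lintegral_of_nonneg_ae (Filter.Eventually.of_forall fun ω => (hlp ω).le)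
      hml.aestronglyMeasurable, hmass]
    simp
  obtain ⟨C, hC⟩ := hΦ.bdd
  have hC0 : ∀ h, 0 ≤ Φ h + C := fun h => by
    have := abs_le.1 (hC h)
    linarith
  have h3 := key (Ψ := fun h => Φ h + C) (hΦ.meas.add measurable_const) hC0
  have hint1 : Integrable (fun ω => Φ (field G θ κ W ω τ) + C) (PP V) :=
    (BM.add (hΦ.comp hm1) (BM.const C)).integrable _
  have hBMΦ0 : BM (fun ω => Φ (field0W κ W ω τ)) := hΦ.comp hm0
  have hbd : ∀ ω, ‖Φ (field0W κ W ω τ)‖ ≤ C := fun ω => hC _
  have hint0 : Integrable (fun ω => Φ (field0W κ W ω τ) * lik G θ κ W ω τ) (PP V) :=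
    hint.bdd_mul (c := C) hBMΦ0.meas.aestronglyMeasurable (Filter.Eventually.of_forall hbd)
  have hint2 : Integrable (fun ω => (Φ (field0W κ W ω τ) + C) * lik G θ κ W ω τ) (PP V) := by
    have := hint0.add (hint.const_mul C)
    refine this.congr (Filter.Eventually.of_forall fun ω => ?_)
    simp only [Pi.add_apply]
    ring
  have h4 : ∫ ω, (Φ (field G θ κ W ω τ) + C) ∂(PP V)
      = ∫ ω, (Φ (field0W κ W ω τ) + C) * lik G θ κ W ω τ ∂(PP V) := by
    rw [integral_eq_lintegral_of_nonneg_ae (Filter.Eventually.of_forall fun ω => hC0 _)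
        hint1.aestronglyMeasurable,
      integral_eq_lintegral_of_nonneg_ae (Filter.Eventually.of_forall fun ω =>
        mul_nonneg (hC0 _) (hlp ω).le) hint2.aestronglyMeasurable, h3]
  have h5 : ∫ ω, (Φ (field G θ κ W ω τ) + C) ∂(PP V) = ∫ ω, Φ (field G θ κ W ω τ) ∂(PP V) + C := by
    rw [integral_add ((hΦ.comp hm1).integrable _) (integrable_const _)]
    simp
  have h6 : ∫ ω, (Φ (field0W κ W ω τ) + C) * lik G θ κ W ω τ ∂(PP V)
      = ∫ ω, Φ (field0W κ W ω τ) * lik G θ κ W ω τ ∂(PP V) + C := by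
    have e : ∀ ω, (Φ (field0W κ W ω τ) + C) * lik G θ κ W ω τ
        = Φ (field0W κ W ω τ) * lik G θ κ W ω τ + C * lik G θ κ W ω τ := fun ω => by ring
    simp_rw [e]
    rw [integral_add hint0 (hint.const_mul C), integral_const_mul, hmass', mul_one]
  linarith

/-- Restriction of the product law to the window. -/
theorem integral_restrict_window {X : Type*} [MeasurableSpace X] (P : Measure X) [IsProbabilityMeasure P]
    (W : Finset V) {H : (WI W → X) → ℝ} (hH : Measurable H) :
    ∫ x : V → X, H (fun v : WI W => x v.1) ∂(prodM V P) = ∫ y, H y ∂(prodM (WI W) P) := by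
  have h := Measure.infinitePi_map_restrict' (fun _ : V => P) (I := (W : Set V))
  have hm : Measurable (fun x : V → X => fun v : WI W => x v.1) :=
    measurable_pi_iff.2 fun v => measurable_pi_apply _
  have h2 : (prodM V P).map (fun x : V → X => fun v : WI W => x v.1) = prodM (WI W) P := h
  rw [← h2, integral_map hm.aemeasurable hH.aestronglyMeasurable]

/-- **The window law**: abstract form. -/
theorem law_window_abs (hT : G.IsTree) {W : Finset V} (hW : IsWin G W) {θ : ℝ} (h0 : 0 ≤ θ)
    (h1 : θ < 1) {κ : ℝ → ℝ} (hκ : IsStrength κ) (τ : ℝ)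
    (a : VLab → ℝ) (ha : Measurable a) (ha0 : ∀ z, 0 ≤ a z)
    (hint : ∫⁻ z, ENNReal.ofReal (a z) ∂vlaw = 1)
    [IsProbabilityMeasure (vlaw.withDensity fun z => ENNReal.ofReal (a z))]
    (S : TiltSys (vlaw.withDensity fun z => ENNReal.ofReal (a z)))
    (hlik : ∀ (x : V → VLab) (v : V) (s : ℝ), (s = 1 ∨ s = -1) →
      likV κ (toOm x) τ v s = a (x v) * (1 + S.L (x v) * s))
    (hL : ∀ (x : V → VLab) (v : V), Real.tanh (field0 κ (toOm x) τ v) = S.L (x v))
    {F : (WI W → ℝ) → ℝ} (hF : BM F) :
    ∫ ω, F (fun v : WI W => Real.tanh (field G θ κ W ω τ v.1)) ∂(PP V)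
      = S.PP (G.induce (W : Set V)) θ (fun y => F (S.tilt y)) := by
  set T := G.induce (W : Set V) with hTdef
  have hTT : T.IsTree := induce_tree hT hW
  set Φ : (V → ℝ) → ℝ := fun h => F (fun v : WI W => Real.tanh (h v.1)) with hΦ
  have hΦBM : BM Φ := by
    refine hF.comp (measurable_pi_iff.2 fun v => ?_)
    have : Measurable Real.tanh := by
      have e : Real.tanh = fun t => Real.sinh t / Real.cosh t := funext Real.tanh_eq_sinh_div_cosh
      rw [e]
      exact Real.measurable_sinh.div Real.measurable_cosh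
    exact this.comp (measurable_pi_apply _)
  rw [integral_field_eq hT hW h0 h1 hκ τ hΦBM]
  have hm : Measurable fun ω : Om V => Φ (field0W κ W ω τ) * lik G θ κ W ω τ :=
    (hΦBM.meas.comp (measurable_field0W hκ.meas W τ)).mul (measurable_lik hκ.meas W τ)
  rw [← integral_toOm hm]
  -- the integrand on the window
  set H : (WI W → VLab) → ℝ := fun y =>
    (∏ v, a (y v)) * (F (S.tilt y) * ZZ T θ Finset.univ (S.tilt y)) with hH
  have hpt : ∀ x : V → VLab, Φ (field0W κ W (toOm x) τ) * lik G θ κ W (toOm x) τ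
      = H (fun v : WI W => x v.1) := by
    intro x
    have e1 : (fun v : WI W => Real.tanh (field0W κ W (toOm x) τ v.1))
        = S.tilt (fun v : WI W => x v.1) := by
      funext v
      have hv : v.1 ∈ W := v.2
      simp only [field0W, hv, if_true, TiltSys.tilt]
      exact hL x v.1
    have e2 : lik G θ κ W (toOm x) τ
        = (∏ v : WI W, a (x v.1)) * ZZ T θ Finset.univ (S.tilt (fun v : WI W => x v.1)) := by
      unfold lik
      rw [← sum_bw_tilt_one hT hW h0 h1, Finset.mul_sum]
      refine Finset.sum_congr rfl fun A _ => ?_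
      rw [prod_window W (fun v => likV κ (toOm x) τ v (sp A v))]
      have e3 : ∀ v : WI W, likV κ (toOm x) τ v.1 (sp A v.1)
          = a (x v.1) * (1 + S.tilt (fun v : WI W => x v.1) v * sp A v.1) := fun v =>
        hlik x v.1 _ (by unfold sp; split_ifs <;> simp)
      simp_rw [e3]
      rw [Finset.prod_mul_distrib]
      ring
    simp only [hΦ, hH]
    rw [e1, e2]
    ring
  simp_rw [hpt]
  have hZm : Measurable fun y : WI W → VLab => ZZ T θ Finset.univ (S.tilt y) :=
    (S.ZZ_BM T h0 h1 Finset.univ).meas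
  have hFm : Measurable fun y : WI W → VLab => F (S.tilt y) := hF.meas.comp S.measurable_tilt
  have hHm : Measurable H :=
    (Finset.measurable_prod _ fun v _ => ha.comp (measurable_pi_apply v)).mul (hFm.mul hZm)
  rw [integral_restrict_window vlaw W hHm]
  unfold TiltSys.PP TiltSys.PB
  rw [integral_prodM_withDensity vlaw a ha ha0 hint]

section Abstract

end Abstract

end Crest.Agent.Lib.IsingFIID
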