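/-
Row 160 (S0241), Task E1, E2, final form: `attenuation_lower` and `wTree_norm`, with the tilt system of
the labels of one vertex (`ownTilt`), the window law and the moment bounds on balls.
-/
import Crest.Agent.Lib.IsingFIID.WTreeNorm
import Crest.Agent.Lib.IsingFIID.OwnTilt
import Crest.Agent.Lib.IsingFIID.BallBranch
import Crest.Agent.Lib.IsingFIID.WindowLaw

set_option autoImplicit false
set_option linter.unusedSectionVars false
set_option linter.unusedVariables false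

namespace Crest.Agent.Lib.IsingFIID

open MeasureTheory Filter Topology Set SimpleGraph
open scoped ENNReal

variable {V : Type*} [DecidableEq V] {G : SimpleGraph V} [G.LocallyFinite] {d : ℕ}

/-- The total mass of the density of the own tilt. -/
lemma lintegral_ofReal_ownA {κ : ℝ → ℝ} (hκ : IsStrength κ) (τ : ℝ) :
    ∫⁻ z, ENNReal.ofReal (ownA κ τ z) ∂vlaw = 1 := by
  rw [← ofReal_integral_eq_lintegral_ofReal ((bm_ownA hκ τ).integrable _)
      (Eventually.of_forall fun a => (ownA_pos hκ τ a).le), integral_ownA hκ]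
  simp

/-- **The window law** for the own tilt system. -/
theorem ownTilt_hasWindowLaw (hT : G.IsTree) {W : Finset V} (hW : IsWin G W) {θ : ℝ} (h0 : 0 ≤ θ)
    (h1 : θ < 1) {κ : ℝ → ℝ} (hκ : IsStrength κ) (τ : ℝ) [IsProbabilityMeasure (ownNu κ τ)] :
    HasWindowLaw (ownTilt κ τ hκ) G θ κ τ W := by
  intro F hF
  have : IsProbabilityMeasure (vlaw.withDensity fun z => ENNReal.ofReal (ownA κ τ z)) :=
    ‹IsProbabilityMeasure (ownNu κ τ)›
  exact law_window_abs hT hW h0 h1 hκ τ (ownA κ τ) (measurable_ownA hκ.meas τ)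
    (fun z => (ownA_pos hκ τ z).le) (lintegral_ofReal_ownA hκ τ) (ownTilt κ τ hκ)
    (fun x v s hs => likV_eq_own hκ τ x v hs) (fun x v => rfl) hF

/-- The second moment of the own tilt. -/
noncomputable def ownS {ε : ℝ} (hκ : IsStrength (kap ε)) (τ : ℝ) : ℝ :=
  haveI := isProbabilityMeasure_ownNu hκ τ
  (ownTilt (kap ε) τ hκ).s2

/-- The input of the window bounds. -/
theorem winInput (hG : Tree G d) {ε τ₁ : ℝ} (h0 : 0 < ε) (h1 : ε ≤ 1 / 2) (hκ : IsStrength (kap ε)) :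
    WinInput G d ε τ₁ (ownS hκ) where
  s_nonneg τ := by
    have := isProbabilityMeasure_ownNu hκ τ
    exact TiltSys.s2_nonneg _
  s_le τ := by
    have := isProbabilityMeasure_ownNu hκ τ
    exact TiltSys.s2_le_one _
  s_ge := by
    obtain ⟨c, hc, h⟩ := own_s2_ge (τ₁ := τ₁) h0 h1
    refine ⟨c, hc, fun τ hτ => ?_⟩
    have := isProbabilityMeasure_ownNu hκ τ
    exact h τ hτ hκ
  W1 θ hθ0 hθ1 τ hτ x p hxp j m k N hN P := by
    have := isProbabilityMeasure_ownNu hκ τ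
    have hN1 : 1 ≤ N := by omega
    exact integral_wTree_pow_le (ownTilt (kap ε) τ hκ) hG hθ0 hθ1 hxp hN1 hN
      (ownTilt_hasWindowLaw hG.tree (isWin_ball' hG.tree x N) hθ0 hθ1 hκ τ)
  W2 θ hθ0 hθ1 τ hτ x p hxp j N hN1 hN := by
    have := isProbabilityMeasure_ownNu hκ τ
    exact qLow_le_integral_nu (ownTilt (kap ε) τ hκ) hG hθ0 hθ1 hxp hN1 hN
      (ownTilt_hasWindowLaw hG.tree (isWin_ball' hG.tree x N) hθ0 hθ1 hκ τ)

/-- **E1.** -/
theorem attenuation_lower (hG : Tree G d) {ε τ₁ : ℝ} (h0 : 0 < ε) (h1 : ε ≤ 1 / 2) (hτ₁ : 1 ≤ τ₁) :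
    ∃ c : ℝ, 0 < c ∧ ∀ θ, ThetaRange d θ → ∀ τ ∈ Ioc 0 τ₁, ∀ x p, G.Adj p x →
      c * τ ≤ (1 - θ ^ 2 * ((d : ℝ) - 1)) + qInf G θ (kap ε) τ x p :=
  attenuation_lower_of hG (winInput hG h0 h1 (isStrength_kap h0.le h1)) h0 h1

/-- **E2.** -/
theorem wTree_norm (hG : Tree G d) {ε τ₁ : ℝ} (h0 : 0 < ε) (h1 : ε ≤ 1 / 2) (hτ₁ : 1 ≤ τ₁) :
    ∃ c C : ℝ, 0 < c ∧ 0 < C ∧ ∀ θ, ThetaRange d θ → ∀ τ ∈ Ioc 0 τ₁, ∀ x p, G.Adj p x → ∀ (n P : ℕ), 1 ≤ P →
      (θ ^ 2 * ((d : ℝ) - 1)) ^ n *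
          lpN (PP V) (fun ω => wTree G θ (d - 1) (fun u => mInf G θ (kap ε) ω τ u) n p x) P ≤
        min 1 (C * Real.exp (- c * τ * n) + P * ((d : ℝ) - 1) ^ (-(n : ℝ) / 2)) :=
  wTree_norm_of hG (winInput hG h0 h1 (isStrength_kap h0.le h1)) h0 h1 hτ₁

end Crest.Agent.Lib.IsingFIID
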