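/-
Row 160 (S0241): `rowSum_norm`, from `RowSumNorm.rowSum_norm_of` and `WTreeFinal.wTree_norm`.
-/
import Crest.Agent.Lib.IsingFIID.RowSumNorm
import Crest.Agent.Lib.IsingFIID.WTreeFinal
import Crest.Agent.Lib.IsingFIID.Increment

set_option autoImplicit false

namespace Crest.Agent.Lib.IsingFIID

open MeasureTheory Filter Topology Set SimpleGraph
open scoped ENNReal

variable {V : Type*} [DecidableEq V] {G : SimpleGraph V} [G.LocallyFinite] {d : ℕ}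

theorem rowSum_norm (hG : Tree G d) {ε τ₁ : ℝ} (h0 : 0 < ε) (h1 : ε ≤ 1 / 2) (hτ₁ : 1 ≤ τ₁) :
    ∃ C : ℝ, 0 < C ∧ ∀ θ, ThetaRange d θ → ∀ τ ∈ Ioc 0 τ₁, ∀ v, ∀ P : ℕ, 1 ≤ P →
      lpN (PP V) (fun ω => rowSum G θ (kap ε) ω τ v) P ≤ C * (1 / τ + Real.log (P + 1)) := by
  obtain ⟨c, C, hc, hC, hw⟩ := wTree_norm (V := V) (G := G) hG h0 h1 hτ₁
  have hκ : IsStrength (kap ε) := isStrength_kap h0.le h1
  have hlt : ∀ θ, ThetaRange d θ → θ < 1 := fun θ hθ => Incr.theta_lt_one hG hθ.1 hθ.2.1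
  exact rowSum_norm_of hG hτ₁ hc hC
    (fun θ hθ ω τ u => abs_mInf_le hG hθ.1 (hlt θ hθ) ω τ u)
    (fun θ hθ τ u => measurable_mInf_at hκ.meas τ u) hlt hw

end Crest.Agent.Lib.IsingFIID
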