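/-
Row 160 (S0241): `moment_bound` (BLUEPRINT E3): `Mom.moment_bound_of` applied to `moment_increment`,
`moment_mono`, and `rowSum_norm`.
-/
import Crest.Agent.Lib.IsingFIID.Moment
import Crest.Agent.Lib.IsingFIID.Increment
import Crest.Agent.Lib.IsingFIID.BetheQ
import Crest.Agent.Lib.IsingFIID.RowFinal

set_option autoImplicit false

namespace Crest.Agent.Lib.IsingFIID

open MeasureTheory Filter Topology Set SimpleGraph
open scoped ENNReal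

variable {V : Type*} [DecidableEq V] {G : SimpleGraph V} [G.LocallyFinite] {d : ℕ}

theorem theta_lt_one' (hG : Tree G d) {θ : ℝ} (h0 : 0 ≤ θ) (hθ : θ ^ 2 * ((d : ℝ) - 1) < 1) : θ < 1 :=
  Incr.theta_lt_one hG h0 hθ

/-- E3: moments of the mean. -/
theorem moment_bound (hG : Tree G d) {ε τ₁ : ℝ} (h0 : 0 < ε) (h1 : ε ≤ 1 / 2) (hτ₁ : 1 ≤ τ₁) :
    ∃ C : ℝ, 0 < C ∧ ∀ θ, ThetaRange d θ → ∀ τ ∈ Ioc 0 τ₁, ∀ v, ∀ P : ℕ, 1 ≤ P →
      (∫ ω, mInf G θ (kap ε) ω τ v ^ (2 * P) ∂(PP V)) ^ (1 / (P : ℝ)) ≤ C * P ^ 3 * τ := by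
  obtain ⟨K, hK, hinc⟩ := moment_increment (V := V) (G := G) hG
  obtain ⟨C₀, hC₀, hrow⟩ := rowSum_norm (V := V) (G := G) hG h0 h1 hτ₁
  have hκ : IsStrength (kap ε) := isStrength_kap h0.le h1
  refine Mom.moment_bound_of hG h0 hK hC₀ ?_ ?_ ?_ ?_ ?_ hrow
  · intro θ hθ a b ha hb
    have h10 := theta_lt_one' hG hθ.1 hθ.2.1
    have hn := abs_nuOf_le_one hθ.1 h10 ha hb
    have hn2 : nuOf θ a b ^ 2 ≤ 1 := (sq_le_one_iff_abs_le_one _).mpr hn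
    have hθ2 : θ ^ 2 < 1 := by nlinarith [hθ.1]
    have hdpos : 0 < 1 - θ ^ 2 * nuOf θ a b ^ 2 := by
      have := sq_nonneg (nuOf θ a b)
      nlinarith
    unfold uOf uFun
    refine ⟨div_nonneg (by linarith) hdpos.le, ?_⟩
    rw [div_le_one hdpos]
    have := sq_nonneg (nuOf θ a b)
    nlinarith
  · intro θ hθ ω τ u
    exact abs_mInf_le hG hθ.1 (theta_lt_one' hG hθ.1 hθ.2.1) ω τ u
  · intro θ hθ τ u
    exact Incr.measurable_mInf_om hκ.meas u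
  · intro θ hθ τ hτ v p hp
    exact hinc hθ.1 hθ.2.1 hκ hτ v p hp
  · intro θ hθ a b h0' h12 v p
    exact moment_mono hG hθ.1 hθ.2.1 hκ h0' h12 v p

end Crest.Agent.Lib.IsingFIID
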