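/-
Row 160 (S0241): `main_ineq`, final form (with `0 ≤ K`).
-/
import Crest.Agent.Lib.IsingFIID.MainFinal
import Crest.Agent.Lib.IsingFIID.WTreeFinal
import Crest.Agent.Lib.IsingFIID.MomentFinal

set_option autoImplicit false

namespace Crest.Agent.Lib.IsingFIID

open MeasureTheory Filter Topology Set SimpleGraph
open scoped ENNReal

variable {V : Type*} [DecidableEq V] {G : SimpleGraph V} [G.LocallyFinite] {d : ℕ}

/-- The main inequality for the increments of the path covariance pair (the exact statement of the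
blueprint's `main_ineq`, plus `0 ≤ K`, which holds since `K` comes from `pair_increment`). -/
theorem main_ineq (hG : Tree G d) {K : ℝ} (hK : 0 ≤ K) {ε τ₁ : ℝ} (h0 : 0 < ε) (h1 : ε ≤ 1 / 2) (hτ₁ : 1 ≤ τ₁)
    {θs : ℕ → ℝ} (hmono : Monotone θs) (hr : ∀ j, ThetaRange d (θs j))
    (hlim : Tendsto (fun j => θs j ^ 2 * ((d : ℝ) - 1)) atTop (𝓝 1)) (v : V) :
    ∃ (b : ℕ → ℝ → ℝ) (e : ℕ → ℕ → ℝ → ℝ),
      (∀ p, IntervalIntegrable (b p) volume 0 τ₁) ∧ (∀ p τ, 0 ≤ b p τ) ∧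
      Tendsto (fun p : ℕ => (1 / (p : ℝ)) * ∫ τ in (0 : ℝ)..τ₁, b p τ) atTop (𝓝 0) ∧
      (∀ j k, IntervalIntegrable (e j k) volume 0 τ₁) ∧ (∀ j k τ, 0 ≤ e j k τ) ∧
      Tendsto (fun jk : ℕ × ℕ => ∫ τ in (0 : ℝ)..τ₁, e jk.1 jk.2 τ) (atTop ×ˢ atTop) (𝓝 0) ∧
      ∀ j k, ∀ τ ∈ Ioc 0 τ₁, ∀ p : ℕ, 2 ≤ p →
        ∑' r, ∑ y ∈ sphere G v r, ∫ ω, Xp K G (θs j) (θs k) (kap ε) ω τ v y ∂(PP V) ≤
          b p τ * Sd G (θs j) (θs k) (kap ε) τ v ^ (1 - 1 / (p : ℝ)) + e j k τ :=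
  main_ineq_of_norms hG hK h0 h1 hτ₁ hmono hr hlim v (rowSum_norm hG h0 h1 hτ₁)
    (wTree_norm hG h0 h1 hτ₁) (moment_bound hG h0 h1 hτ₁)

end Crest.Agent.Lib.IsingFIID
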