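/-
Row 160 (S0241): `critical_cauchy`: `critical_cauchy_core` applied to `pair_increment`, `pair_mono`,
`mInf_zero`, and `main_ineq`.
-/
import Crest.Agent.Lib.IsingFIID.Cauchy
import Crest.Agent.Lib.IsingFIID.Increment
import Crest.Agent.Lib.IsingFIID.MainThm

set_option autoImplicit false

namespace Crest.Agent.Lib.IsingFIID

open MeasureTheory Filter Topology Set SimpleGraph
open scoped ENNReal

variable {V : Type*} [DecidableEq V] {G : SimpleGraph V} [G.LocallyFinite] {d : ℕ}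

/-- Cauchy in `θ` at each fixed time. -/
theorem critical_cauchy (hG : Tree G d) {ε τ₁ : ℝ} (h0 : 0 < ε) (h1 : ε ≤ 1 / 2) (hτ₁ : 1 ≤ τ₁)
    {θs : ℕ → ℝ} (hmono : Monotone θs) (hr : ∀ j, ThetaRange d (θs j))
    (hlim : Tendsto (fun j => θs j ^ 2 * ((d : ℝ) - 1)) atTop (𝓝 1)) (v : V) :
    Tendsto (fun jk : ℕ × ℕ => Sd G (θs jk.1) (θs jk.2) (kap ε) τ₁ v) (atTop ×ˢ atTop) (𝓝 0) := by
  obtain ⟨K, hK, hinc⟩ := pair_increment (V := V) (G := G) hG
  have hκ : IsStrength (kap ε) := isStrength_kap h0.le h1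
  refine critical_cauchy_core hK.le hτ₁ ?_ ?_ ?_ (main_ineq hG hK.le h0 h1 hτ₁ hmono hr hlim v)
  · intro j k t ht
    exact hinc (hr j).1 (hr k).1 (hr j).2.1 (hr k).2.1 hκ le_rfl ht.1 v
  · intro j k t₁ t₂ h01 h12
    exact pair_mono hG (hr j).1 (hr k).1 (hr j).2.1 (hr k).2.1 hκ h01 h12 v
  · intro j ω
    exact mInf_zero hG (hr j).1 (Incr.theta_lt_one hG (hr j).1 (hr j).2.1) ω v

end Crest.Agent.Lib.IsingFIID
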