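/-
Row 160 (S0241): final assembly from the single-solution and critical layers.
-/
import Crest.Agent.Lib.IsingFIID.Final
import Crest.Agent.Lib.IsingFIID.Increment
import Crest.Agent.Lib.IsingFIID.CriticalFinal

set_option autoImplicit false

namespace Crest.Agent.Lib.IsingFIID

open MeasureTheory Filter Topology Set SimpleGraph
open scoped ENNReal

/-- Fast times: `τ_n ≥ 1`, monotone, `δ(τ_n) ≤ 4^{-n}`. -/
lemma exists_fast_times {δ : ℝ → ℝ} (hδ : Tendsto δ atTop (𝓝 0)) :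
    ∃ τ : ℕ → ℝ, (∀ n, 1 ≤ τ n) ∧ Monotone τ ∧ ∀ n, δ (τ n) ≤ (1 / 4 : ℝ) ^ n := by
  have h : ∀ n : ℕ, ∃ T : ℝ, ∀ t, T ≤ t → δ t ≤ (1 / 4 : ℝ) ^ n := fun n => by
    have hpos : (0 : ℝ) < (1 / 4 : ℝ) ^ n := by positivity
    have := hδ.eventually (gt_mem_nhds hpos)
    obtain ⟨T, hT⟩ := eventually_atTop.mp this
    exact ⟨T, fun t ht => (hT t ht).le⟩
  choose T hT using h
  refine ⟨fun n => 1 + ∑ i ∈ Finset.range (n + 1), |T i|, ?_, ?_, ?_⟩
  · intro n
    have : 0 ≤ ∑ i ∈ Finset.range (n + 1), |T i| := Finset.sum_nonneg fun _ _ => abs_nonneg _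
    linarith
  · intro m n hmn
    have : ∑ i ∈ Finset.range (m + 1), |T i| ≤ ∑ i ∈ Finset.range (n + 1), |T i| :=
      Finset.sum_le_sum_of_subset_of_nonneg
        (Finset.range_subset_range.mpr (by omega)) (fun _ _ _ => abs_nonneg _)
    simpa using this
  · intro n
    refine hT n _ ?_
    have h1 : |T n| ≤ ∑ i ∈ Finset.range (n + 1), |T i| :=
      Finset.single_le_sum (f := fun i => |T i|) (fun _ _ => abs_nonneg _) (Finset.mem_range.mpr (by omega))
    have h2 := le_abs_self (T n)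
    linarith

/-- Summability from a geometric bound. -/
lemma summable_sqrt_of_le {a : ℕ → ℝ} {C : ℝ} (h : ∀ n, a n ≤ C * (1 / 4 : ℝ) ^ n) :
    Summable fun n => Real.sqrt (a n) := by
  have hg : Summable fun n : ℕ => Real.sqrt (max C 0) * (1 / 2 : ℝ) ^ n :=
    (summable_geometric_of_lt_one (by norm_num) (by norm_num)).mul_left _
  refine Summable.of_nonneg_of_le (fun _ => Real.sqrt_nonneg _) (fun n => ?_) hg
  have h4 : (1 / 4 : ℝ) ^ n = ((1 / 2 : ℝ) ^ n) ^ 2 := by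
    rw [← pow_mul, mul_comm, pow_mul]; norm_num
  have h1 : a n ≤ max C 0 * ((1 / 2 : ℝ) ^ n) ^ 2 := by
    rw [← h4]
    refine (h n).trans ?_
    have : (0 : ℝ) ≤ (1 / 4 : ℝ) ^ n := by positivity
    exact mul_le_mul_of_nonneg_right (le_max_left _ _) this
  calc Real.sqrt (a n) ≤ Real.sqrt (max C 0 * ((1 / 2 : ℝ) ^ n) ^ 2) := Real.sqrt_le_sqrt h1
    _ = Real.sqrt (max C 0) * (1 / 2 : ℝ) ^ n := by
      rw [Real.sqrt_mul (le_max_right _ _), Real.sqrt_sq (by positivity)]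

lemma tendsto_geom4 : Tendsto (fun n : ℕ => (1 / 4 : ℝ) ^ n) atTop (𝓝 0) :=
  tendsto_pow_atTop_nhds_zero_of_lt_one (by norm_num) (by norm_num)

/-- Continuity of the Ising weight in `θ`. -/
lemma continuous_isingWeight {V : Type*} (G : SimpleGraph V) (S : Finset V) (η : V → Bool) :
    Continuous fun θ : ℝ => Crest.ProbabilityR.TreeIsing.isingWeight G θ S η := by
  classical
  unfold Crest.ProbabilityR.TreeIsing.isingWeight
  refine continuous_const.mul (continuous_finsetProd _ fun e _ => ?_)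
  split_ifs <;> fun_prop

variable {V : Type*} [DecidableEq V] {G : SimpleGraph V} [G.LocallyFinite] {d : ℕ}

lemma Tree.theta_lt_one (hG : Tree G d) {θ : ℝ} (h0 : 0 ≤ θ) (hθ : θ ^ 2 * ((d : ℝ) - 1) < 1) : θ < 1 := by
  have hd : (3 : ℝ) ≤ d := by exact_mod_cast hG.hd
  by_contra hcon
  have h1 : 1 ≤ θ := not_lt.mp hcon
  have h2 : 1 ≤ θ ^ 2 := by nlinarith
  nlinarith

lemma measurable_mInf_fixed {θ τ : ℝ} {κ : ℝ → ℝ} (hκ : Measurable κ) (v : V) :
    Measurable fun ω : Om V => mInf G θ κ ω τ v :=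
  have h : Measurable ((fun p : ℝ × Om V => mInf G θ κ p.2 p.1 v) ∘ (Prod.mk τ)) :=
    (measurable_mInf hκ v).comp measurable_prodMk_left
  h

lemma integrable_of_bound_meas {Ω : Type*} [MeasurableSpace Ω] {μ : Measure Ω} [IsFiniteMeasure μ]
    {a : Ω → ℝ} (hm : Measurable a) {C : ℝ} (hb : ∀ ω, |a ω| ≤ C) : Integrable a μ :=
  Integrable.of_bound hm.aestronglyMeasurable C (Eventually.of_forall fun ω => by simpa using hb ω)

/-- `Sd` does not depend on the vertex. -/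
lemma Sd_eq (hG : Tree G d) {θ θ' : ℝ} {κ : ℝ → ℝ} (hκ : Measurable κ) (τ : ℝ) (v w : V) : Sd G θ θ' κ τ v = Sd G θ θ' κ τ w := by
  obtain ⟨g, hg, -⟩ := exists_aut_of_dist (a := v) (b := v) (a' := w) (b' := w) hG.tree hG.reg (by simp)
  unfold Sd
  have hm : Measurable fun ω : Om V => (mInf G θ κ ω τ v - mInf G θ' κ ω τ v) ^ 2 :=
    ((measurable_mInf_fixed hκ v).sub (measurable_mInf_fixed hκ v)).pow_const 2
  have hact : Measurable (act (V := V) g) := by
    unfold act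
    refine Measurable.prodMk (measurable_pi_iff.mpr fun i => ?_) (measurable_pi_iff.mpr fun i => ?_)
    · exact (measurable_pi_apply _).comp measurable_fst
    · exact (measurable_pi_apply _).comp measurable_snd
  have e := integral_map (μ := PP V) hact.aemeasurable
    (f := fun ω : Om V => (mInf G θ κ ω τ v - mInf G θ' κ ω τ v) ^ 2) hm.aestronglyMeasurable
  rw [map_act g] at e
  rw [e]
  refine integral_congr_ae (Eventually.of_forall fun ω => ?_)
  simp only [mInf_act hG.tree, hg]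

/-- The strict case. -/
theorem strict_factor (hG : Tree G d) {θ : ℝ} (h0 : 0 ≤ θ) (hθ : θ ^ 2 * ((d : ℝ) - 1) < 1) :
    ∃ Φ : (V → unitInterval) → (V → Bool),
      Measurable Φ ∧
      (∀ (g : G ≃g G) (x : V → unitInterval), Φ (x ∘ ⇑g) = Φ x ∘ ⇑g) ∧
      ∀ (S : Finset V) (η : V → Bool), (G.induce (S : Set V)).Connected →
        (Crest.ProbabilityR.Labels.labelMeasure V).map Φ {σ | ∀ v ∈ S, σ v = η v} =
          ENNReal.ofReal (Crest.ProbabilityR.TreeIsing.isingWeight G θ S η) := by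
  have hε : (0 : ℝ) < 1 / 2 := by norm_num
  have hκ : IsStrength (kap (1 / 2)) := isStrength_kap hε.le le_rfl
  have h1 : θ < 1 := hG.theta_lt_one h0 hθ
  obtain ⟨δ, hδ, hown⟩ := exists_own_bound_mInf hε le_rfl
  obtain ⟨τ, hτ1, hτm, hτδ⟩ := exists_fast_times hδ
  have hown' : ∀ n v, ∫ ω, (1 - mInf G θ (kap (1 / 2)) ω (τ n) v ^ 2) ∂(PP V) ≤ (1 / 4 : ℝ) ^ n :=
    fun n v => ((hown (τ n)).2 V G d hG θ h0 hθ v).trans (hτδ n)
  have hnn : ∀ n v, 0 ≤ ∫ ω, (1 - mInf G θ (kap (1 / 2)) ω (τ n) v ^ 2) ∂(PP V) := fun n v =>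
    integral_nonneg fun ω => by
      have := (sq_le_one_iff_abs_le_one _).mpr (abs_mInf_le hG (κ := kap (1 / 2)) h0 h1 ω (τ n) v)
      simpa using this
  refine factor_of_fields (fun n ω v => mInf G θ (kap (1 / 2)) ω (τ n) v)
    (fun n v => measurable_mInf_fixed hκ.meas v) (fun n ω v => abs_mInf_le hG h0 h1 ω (τ n) v)
    (fun g n ω v => mInf_act hG.tree g ω (τ n) v) (fun v => ?_) (fun v => ?_) θ ?_
  · refine summable_sqrt_of_le (C := 1) fun n => ?_
    have := mInf_time hG (κ := kap (1 / 2)) h0 hθ hκ (by linarith [hτ1 n] : 0 ≤ τ n)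
      (hτm (Nat.le_succ n)) v
    rw [one_mul]
    exact this.trans (hown' n v)
  · exact squeeze_zero (fun n => hnn n v) (fun n => hown' n v) tendsto_geom4
  · intro S η hS
    have hb : ∀ n, |((PP V) {ω | ∀ v ∈ S, (0 < mInf G θ (kap (1 / 2)) ω (τ n) v ↔ η v = true)}).toReal -
        Crest.ProbabilityR.TreeIsing.isingWeight G θ S η| ≤ (4 * S.card) * (1 / 4 : ℝ) ^ n := fun n => by
      refine (sign_law_mInf hG hS h0 hθ hκ (τ n) η).trans ?_
      have : ∑ v ∈ S, ∫ ω, (1 - mInf G θ (kap (1 / 2)) ω (τ n) v ^ 2) ∂(PP V) ≤ S.card * (1 / 4 : ℝ) ^ n := by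
        have := Finset.sum_le_card_nsmul S _ ((1 / 4 : ℝ) ^ n) (fun v _ => hown' n v)
        simpa using this
      nlinarith
    have hz : Tendsto (fun n : ℕ => ((4 : ℝ) * S.card) * (1 / 4 : ℝ) ^ n) atTop (𝓝 0) := by
      simpa using tendsto_geom4.const_mul ((4 : ℝ) * S.card)
    have := squeeze_zero (fun n => abs_nonneg _) hb hz
    rw [tendsto_iff_dist_tendsto_zero]
    simpa [Real.dist_eq] using this

/-- The critical case. -/
theorem critical_factor (hG : Tree G d) {θ : ℝ} (h0 : 0 ≤ θ) (hθ : θ ^ 2 * ((d : ℝ) - 1) = 1) :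
    ∃ Φ : (V → unitInterval) → (V → Bool),
      Measurable Φ ∧
      (∀ (g : G ≃g G) (x : V → unitInterval), Φ (x ∘ ⇑g) = Φ x ∘ ⇑g) ∧
      ∀ (S : Finset V) (η : V → Bool), (G.induce (S : Set V)).Connected →
        (Crest.ProbabilityR.Labels.labelMeasure V).map Φ {σ | ∀ v ∈ S, σ v = η v} =
          ENNReal.ofReal (Crest.ProbabilityR.TreeIsing.isingWeight G θ S η) := by
  have hε : (0 : ℝ) < 1 / 2 := by norm_num
  have hκ : IsStrength (kap (1 / 2)) := isStrength_kap hε.le le_rfl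
  have hd : (3 : ℝ) ≤ d := by exact_mod_cast hG.hd
  -- the approximating parameters
  set θs : ℕ → ℝ := fun j => θ * (1 - 1 / ((j : ℝ) + 4)) with hθs
  have hfrac : ∀ j : ℕ, 0 < 1 / ((j : ℝ) + 4) ∧ 1 / ((j : ℝ) + 4) ≤ 1 / 4 := fun j => by
    have hj : (0 : ℝ) ≤ j := Nat.cast_nonneg j
    refine ⟨by positivity, ?_⟩
    exact one_div_le_one_div_of_le (by norm_num) (by linarith)
  have hθpos : 0 < θ := by
    rcases h0.lt_or_eq with h | h
    · exact h
    · rw [← h] at hθ; norm_num at hθ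
  have hθsq : ∀ j, θs j ^ 2 * ((d : ℝ) - 1) = (1 - 1 / ((j : ℝ) + 4)) ^ 2 := fun j => by
    simp only [hθs]
    calc (θ * (1 - 1 / ((j : ℝ) + 4))) ^ 2 * ((d : ℝ) - 1)
        = (θ ^ 2 * ((d : ℝ) - 1)) * (1 - 1 / ((j : ℝ) + 4)) ^ 2 := by ring
      _ = _ := by rw [hθ, one_mul]
  have hr : ∀ j, ThetaRange d (θs j) := fun j => by
    obtain ⟨h1, h2⟩ := hfrac j
    refine ⟨mul_nonneg h0 (by linarith), ?_, ?_⟩
    · rw [hθsq]; nlinarith
    · rw [hθsq]; nlinarith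
  have hmono : Monotone θs := by
    intro a b hab
    simp only [hθs]
    refine mul_le_mul_of_nonneg_left ?_ h0
    have h1 : (a : ℝ) ≤ b := by exact_mod_cast hab
    have ha : (0 : ℝ) ≤ a := Nat.cast_nonneg a
    have : 1 / ((b : ℝ) + 4) ≤ 1 / ((a : ℝ) + 4) :=
      one_div_le_one_div_of_le (by linarith) (by linarith)
    linarith
  have hfr : Tendsto (fun j : ℕ => 1 / ((j : ℝ) + 4)) atTop (𝓝 0) := by
    have := tendsto_one_div_add_atTop_nhds_zero_nat (𝕜 := ℝ)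
    refine squeeze_zero (fun j => (hfrac j).1.le) (fun j => ?_) this
    have hj : (0 : ℝ) ≤ j := Nat.cast_nonneg j
    exact one_div_le_one_div_of_le (by positivity) (by linarith)
  have hθslim : Tendsto θs atTop (𝓝 θ) := by
    have := (tendsto_const_nhds (x := (1 : ℝ))).sub hfr
    have := this.const_mul θ
    simpa [hθs] using this
  have hlim : Tendsto (fun j => θs j ^ 2 * ((d : ℝ) - 1)) atTop (𝓝 1) := by
    have h2 := (hθslim.pow 2).mul_const ((d : ℝ) - 1)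
    rwa [hθ] at h2
  have hlt1 : ∀ j, θs j < 1 := fun j => hG.theta_lt_one (hr j).1 (hr j).2.1
  have hθs0 : ∀ j, 0 ≤ θs j := fun j => (hr j).1
  have hθs1 : ∀ j, θs j ^ 2 * ((d : ℝ) - 1) < 1 := fun j => (hr j).2.1
  -- times
  obtain ⟨δ, hδ, hown⟩ := exists_own_bound_mInf hε le_rfl
  obtain ⟨τ, hτ1, hτm, hτδ⟩ := exists_fast_times hδ
  obtain ⟨v₀⟩ : Nonempty V := hG.tree.connected.nonempty
  -- indices
  have hJ : ∀ n : ℕ, ∃ J : ℕ, ∀ j k, J ≤ j → J ≤ k →
      Sd G (θs j) (θs k) (kap (1 / 2)) (τ (n + 1)) v₀ ≤ (1 / 4 : ℝ) ^ n := fun n => by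
    have hc := critical_cauchy hG (τ₁ := τ (n + 1)) hε le_rfl (hτ1 _) hmono hr hlim v₀
    have hpos : (0 : ℝ) < (1 / 4 : ℝ) ^ n := by positivity
    have hev := hc.eventually (gt_mem_nhds hpos)
    rw [Filter.prod_atTop_atTop_eq] at hev
    obtain ⟨J, hJ⟩ := Filter.eventually_atTop_prod_self.mp hev
    exact ⟨J, fun j k hj hk => (hJ j k hj hk).le⟩
  choose J hJ using hJ
  set js : ℕ → ℕ := fun n => (∑ i ∈ Finset.range (n + 1), J i) + n with hjs
  have hjsm : Monotone js := by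
    intro a b hab
    simp only [hjs]
    have : ∑ i ∈ Finset.range (a + 1), J i ≤ ∑ i ∈ Finset.range (b + 1), J i :=
      Finset.sum_le_sum_of_subset_of_nonneg
        (Finset.range_subset_range.mpr (by omega)) (fun _ _ _ => Nat.zero_le _)
    omega
  have hjsJ : ∀ n, J n ≤ js n := fun n => by
    simp only [hjs]
    have : J n ≤ ∑ i ∈ Finset.range (n + 1), J i :=
      Finset.single_le_sum (f := J) (fun _ _ => Nat.zero_le _) (Finset.mem_range.mpr (by omega))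
    omega
  have hjstop : Tendsto js atTop atTop := by
    refine tendsto_atTop_mono (fun n => ?_) tendsto_id
    simp only [hjs, id]
    omega
  -- own bound
  have hown' : ∀ n j v, ∫ ω, (1 - mInf G (θs j) (kap (1 / 2)) ω (τ n) v ^ 2) ∂(PP V) ≤ (1 / 4 : ℝ) ^ n :=
    fun n j v => ((hown (τ n)).2 V G d hG (θs j) (hθs0 j) (hθs1 j) v).trans (hτδ n)
  have hnn : ∀ n j v, 0 ≤ ∫ ω, (1 - mInf G (θs j) (kap (1 / 2)) ω (τ n) v ^ 2) ∂(PP V) := fun n j v =>
    integral_nonneg fun ω => by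
      have := (sq_le_one_iff_abs_le_one _).mpr
        (abs_mInf_le hG (κ := kap (1 / 2)) (hθs0 j) (hlt1 j) ω (τ n) v)
      simpa using this
  refine factor_of_fields (fun n ω v => mInf G (θs (js n)) (kap (1 / 2)) ω (τ n) v)
    (fun n v => measurable_mInf_fixed hκ.meas v)
    (fun n ω v => abs_mInf_le hG (hθs0 _) (hlt1 _) ω (τ n) v)
    (fun g n ω v => mInf_act hG.tree g ω (τ n) v) (fun v => ?_) (fun v => ?_) θ ?_
  · refine summable_sqrt_of_le (C := 4) fun n => ?_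
    set A : Om V → ℝ := fun ω => mInf G (θs (js (n + 1))) (kap (1 / 2)) ω (τ (n + 1)) v -
      mInf G (θs (js n)) (kap (1 / 2)) ω (τ (n + 1)) v with hA
    set B : Om V → ℝ := fun ω => mInf G (θs (js n)) (kap (1 / 2)) ω (τ (n + 1)) v -
      mInf G (θs (js n)) (kap (1 / 2)) ω (τ n) v with hB
    have hAm : Measurable A := (measurable_mInf_fixed hκ.meas v).sub (measurable_mInf_fixed hκ.meas v)
    have hBm : Measurable B := (measurable_mInf_fixed hκ.meas v).sub (measurable_mInf_fixed hκ.meas v)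
    have hAb : ∀ ω, |A ω| ≤ 2 := fun ω => by
      have h1 := abs_le.mp (abs_mInf_le hG (κ := kap (1 / 2)) (hθs0 (js (n + 1))) (hlt1 _) ω (τ (n + 1)) v)
      have h2 := abs_le.mp (abs_mInf_le hG (κ := kap (1 / 2)) (hθs0 (js n)) (hlt1 _) ω (τ (n + 1)) v)
      simp only [hA]; rw [abs_le]; constructor <;> linarith
    have hBb : ∀ ω, |B ω| ≤ 2 := fun ω => by
      have h1 := abs_le.mp (abs_mInf_le hG (κ := kap (1 / 2)) (hθs0 (js n)) (hlt1 _) ω (τ (n + 1)) v)
      have h2 := abs_le.mp (abs_mInf_le hG (κ := kap (1 / 2)) (hθs0 (js n)) (hlt1 _) ω (τ n) v)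
      simp only [hB]; rw [abs_le]; constructor <;> linarith
    have hA2i : Integrable (fun ω => A ω ^ 2) (PP V) :=
      integrable_of_bound_meas (hAm.pow_const 2) (C := 2 ^ 2) fun ω => by
        rw [abs_pow]; exact pow_le_pow_left₀ (abs_nonneg _) (hAb ω) 2
    have hB2i : Integrable (fun ω => B ω ^ 2) (PP V) :=
      integrable_of_bound_meas (hBm.pow_const 2) (C := 2 ^ 2) fun ω => by
        rw [abs_pow]; exact pow_le_pow_left₀ (abs_nonneg _) (hBb ω) 2
    have hsplit : ∀ ω, (mInf G (θs (js (n + 1))) (kap (1 / 2)) ω (τ (n + 1)) v -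
        mInf G (θs (js n)) (kap (1 / 2)) ω (τ n) v) ^ 2 ≤ 2 * A ω ^ 2 + 2 * B ω ^ 2 := fun ω => by
      simp only [hA, hB]
      nlinarith [sq_nonneg (mInf G (θs (js (n + 1))) (kap (1 / 2)) ω (τ (n + 1)) v -
        mInf G (θs (js n)) (kap (1 / 2)) ω (τ (n + 1)) v -
        (mInf G (θs (js n)) (kap (1 / 2)) ω (τ (n + 1)) v -
        mInf G (θs (js n)) (kap (1 / 2)) ω (τ n) v))]
    have hLm : Measurable fun ω : Om V => (mInf G (θs (js (n + 1))) (kap (1 / 2)) ω (τ (n + 1)) v -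
        mInf G (θs (js n)) (kap (1 / 2)) ω (τ n) v) ^ 2 :=
      ((measurable_mInf_fixed hκ.meas v).sub (measurable_mInf_fixed hκ.meas v)).pow_const 2
    have hLi : Integrable (fun ω : Om V => (mInf G (θs (js (n + 1))) (kap (1 / 2)) ω (τ (n + 1)) v -
        mInf G (θs (js n)) (kap (1 / 2)) ω (τ n) v) ^ 2) (PP V) := by
      refine integrable_of_bound_meas hLm (C := 2 ^ 2) fun ω => ?_
      have h1 := abs_le.mp (abs_mInf_le hG (κ := kap (1 / 2)) (hθs0 (js (n + 1))) (hlt1 _) ω (τ (n + 1)) v)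
      have h2 := abs_le.mp (abs_mInf_le hG (κ := kap (1 / 2)) (hθs0 (js n)) (hlt1 _) ω (τ n) v)
      rw [abs_pow]
      refine pow_le_pow_left₀ (abs_nonneg _) ?_ 2
      rw [abs_le]; constructor <;> linarith
    have hAint : ∫ ω, A ω ^ 2 ∂(PP V) ≤ (1 / 4 : ℝ) ^ n := by
      have e : ∫ ω, A ω ^ 2 ∂(PP V) = Sd G (θs (js (n + 1))) (θs (js n)) (kap (1 / 2)) (τ (n + 1)) v := rfl
      rw [e, Sd_eq hG hκ.meas _ v v₀]
      exact hJ n _ _ ((hjsJ n).trans (hjsm (Nat.le_succ n))) (hjsJ n)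
    have hBint : ∫ ω, B ω ^ 2 ∂(PP V) ≤ (1 / 4 : ℝ) ^ n :=
      (mInf_time hG (κ := kap (1 / 2)) (hθs0 (js n)) (hθs1 _) hκ (by linarith [hτ1 n] : 0 ≤ τ n)
        (hτm (Nat.le_succ n)) v).trans (hown' n _ v)
    calc ∫ ω, (mInf G (θs (js (n + 1))) (kap (1 / 2)) ω (τ (n + 1)) v -
          mInf G (θs (js n)) (kap (1 / 2)) ω (τ n) v) ^ 2 ∂(PP V)
        ≤ ∫ ω, (2 * A ω ^ 2 + 2 * B ω ^ 2) ∂(PP V) :=
          integral_mono hLi ((hA2i.const_mul 2).add (hB2i.const_mul 2)) hsplit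
      _ = 2 * ∫ ω, A ω ^ 2 ∂(PP V) + 2 * ∫ ω, B ω ^ 2 ∂(PP V) := by
          rw [integral_add (hA2i.const_mul 2) (hB2i.const_mul 2), integral_const_mul,
            integral_const_mul]
      _ ≤ 4 * (1 / 4 : ℝ) ^ n := by linarith
  · exact squeeze_zero (fun n => hnn n (js n) v) (fun n => hown' n (js n) v) tendsto_geom4
  · intro S η hS
    have hb : ∀ n, |((PP V) {ω | ∀ v ∈ S, (0 < mInf G (θs (js n)) (kap (1 / 2)) ω (τ n) v ↔ η v = true)}).toReal -
        Crest.ProbabilityR.TreeIsing.isingWeight G (θs (js n)) S η| ≤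
          (4 * S.card) * (1 / 4 : ℝ) ^ n := fun n => by
      refine (sign_law_mInf hG hS (hθs0 _) (hθs1 _) hκ (τ n) η).trans ?_
      have : ∑ v ∈ S, ∫ ω, (1 - mInf G (θs (js n)) (kap (1 / 2)) ω (τ n) v ^ 2) ∂(PP V) ≤
          S.card * (1 / 4 : ℝ) ^ n := by
        have := Finset.sum_le_card_nsmul S _ ((1 / 4 : ℝ) ^ n) (fun v _ => hown' n (js n) v)
        simpa using this
      nlinarith
    have hz : Tendsto (fun n : ℕ => ((4 : ℝ) * S.card) * (1 / 4 : ℝ) ^ n) atTop (𝓝 0) := by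
      simpa using tendsto_geom4.const_mul ((4 : ℝ) * S.card)
    have h1 := squeeze_zero (fun n => abs_nonneg _) hb hz
    have hw : Tendsto (fun n => Crest.ProbabilityR.TreeIsing.isingWeight G (θs (js n)) S η) atTop
        (𝓝 (Crest.ProbabilityR.TreeIsing.isingWeight G θ S η)) :=
      ((continuous_isingWeight G S η).tendsto θ).comp (hθslim.comp hjstop)
    have h2 := (tendsto_zero_iff_abs_tendsto_zero _).mpr h1
    have h3 := h2.add hw
    simpa using h3

/-- The whole range. -/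
theorem exists_factor_tree {V : Type*} (G : SimpleGraph V) [G.LocallyFinite] {d : ℕ} (hd : 3 ≤ d)
    (hT : G.IsTree) (hreg : G.IsRegularOfDegree d) {θ : ℝ} (h0 : 0 ≤ θ)
    (hθ : θ ≤ ((d : ℝ) - 1) ^ (-(1 / 2 : ℝ))) :
    ∃ Φ : (V → unitInterval) → (V → Bool),
      Measurable Φ ∧
      (∀ (g : G ≃g G) (x : V → unitInterval), Φ (x ∘ ⇑g) = Φ x ∘ ⇑g) ∧
      ∀ (S : Finset V) (η : V → Bool), (G.induce (S : Set V)).Connected →
        (Crest.ProbabilityR.Labels.labelMeasure V).map Φ {σ | ∀ v ∈ S, σ v = η v} =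
          ENNReal.ofReal (Crest.ProbabilityR.TreeIsing.isingWeight G θ S η) := by
  classical
  have hG : Tree G d := ⟨hd, hT, hreg⟩
  have hd' : (3 : ℝ) ≤ d := by exact_mod_cast hd
  have hD : (0 : ℝ) < (d : ℝ) - 1 := by linarith
  have hsq : θ ^ 2 * ((d : ℝ) - 1) ≤ 1 := by
    have h1 : θ ^ 2 ≤ (((d : ℝ) - 1) ^ (-(1 / 2 : ℝ))) ^ 2 := pow_le_pow_left₀ h0 hθ 2
    have h2 : (((d : ℝ) - 1) ^ (-(1 / 2 : ℝ))) ^ 2 * ((d : ℝ) - 1) = 1 := by
      rw [← Real.rpow_natCast, ← Real.rpow_mul hD.le]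
      norm_num
      rw [← Real.rpow_add_one hD.ne']
      norm_num
    calc θ ^ 2 * ((d : ℝ) - 1) ≤ (((d : ℝ) - 1) ^ (-(1 / 2 : ℝ))) ^ 2 * ((d : ℝ) - 1) :=
          mul_le_mul_of_nonneg_right h1 hD.le
      _ = 1 := h2
  rcases hsq.lt_or_eq with h | h
  · exact strict_factor hG h0 h
  · exact critical_factor hG h0 h

end Crest.Agent.Lib.IsingFIID
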