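/-
Task GI, part 3: the bridge from the pattern sums of `Defs.lean` to the tree Gibbs weights of `TreeCut.lean`.
-/
import Crest.Agent.Lib.IsingFIID.GibbsGrow
import Crest.Agent.Lib.IsingFIID.GibbsBridge
import Crest.Agent.Lib.IsingFIID.WinBasic
import Crest.Agent.Lib.IsingFIID.BetheQ

set_option autoImplicit false
set_option linter.unusedSectionVars false
set_option linter.unusedVariables false

namespace Crest.Agent.Lib.IsingFIID

open Finset

variable {V : Type*} [DecidableEq V] {G : SimpleGraph V}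

/-- Trace of a set of vertices in a window. -/
def trc (W p : Finset V) : Finset (W : Set V) := Finset.univ.filter (fun v => v.1 ∈ p)

@[simp] lemma mem_trc {W p : Finset V} {v : (W : Set V)} : v ∈ trc W p ↔ v.1 ∈ p := by
  simp [trc]

/-- The pattern of a configuration on the window, on `p`. -/
def pat {W : Finset V} (p : Finset V) (σ : WI W → Bool) : Finset V :=
  (Finset.univ.filter (fun v : (W : Set V) => v.1 ∈ p ∧ σ v = true)).map
    (Function.Embedding.subtype _)

lemma mem_pat {W p : Finset V} {σ : WI W → Bool} {v : V} :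
    v ∈ pat p σ ↔ ∃ hv : v ∈ (W : Set V), v ∈ p ∧ σ ⟨v, hv⟩ = true := by
  simp [pat]

lemma pat_subset {W p : Finset V} (σ : WI W → Bool) : pat p σ ⊆ p := by
  intro v hv
  obtain ⟨_, h, _⟩ := mem_pat.mp hv
  exact h

lemma mem_pat' {W p : Finset V} {σ : WI W → Bool} {v : (W : Set V)} :
    v.1 ∈ pat p σ ↔ v.1 ∈ p ∧ σ v = true := by
  rw [mem_pat]
  constructor
  · rintro ⟨_, h, h'⟩; exact ⟨h, h'⟩
  · rintro ⟨h, h'⟩; exact ⟨v.2, h, h'⟩

lemma sp_pat {W p : Finset V} (σ : WI W → Bool) {v : (W : Set V)} (hv : v.1 ∈ p) :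
    sp (pat p σ) v.1 = spn v σ := by
  unfold sp spn sg
  by_cases h : σ v = true
  · rw [if_pos (mem_pat'.mpr ⟨hv, h⟩), if_pos h]
  · rw [if_neg (fun h' => h (mem_pat'.mp h').2), if_neg h]

/-- Each pattern has the same number of configurations. -/
lemma exists_sum_pat {W p : Finset V} (hp : p ⊆ W) :
    ∃ C : ℝ, 0 < C ∧ ∀ F : Finset V → ℝ,
      ∑ σ : WI W → Bool, F (pat p σ) = C * ∑ A ∈ p.powerset, F A := by
  classical
  set C : ℕ := (Finset.univ.filter (fun σ : WI W → Bool => pat p σ = ∅)).card with hC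
  have hCpos : 0 < C := by
    apply Finset.card_pos.mpr
    refine ⟨fun _ => false, ?_⟩
    rw [Finset.mem_filter]
    refine ⟨Finset.mem_univ _, ?_⟩
    rw [Finset.eq_empty_iff_forall_notMem]
    intro v hv
    obtain ⟨_, _, h⟩ := mem_pat.mp hv
    simp at h
  have hcard : ∀ A ∈ p.powerset,
      (Finset.univ.filter (fun σ : WI W → Bool => pat p σ = A)).card = C := by
    intro A hA
    have hA' : A ⊆ p := Finset.mem_powerset.mp hA
    let τ : (WI W → Bool) → (WI W → Bool) :=
      fun σ v => xor (σ v) (decide (v.1 ∈ A))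
    have hτ : ∀ σ, τ (τ σ) = σ := by
      intro σ; funext v
      simp [τ]
    have h1 : ∀ σ, pat p σ = A → pat p (τ σ) = ∅ := by
      intro σ hσ
      rw [Finset.eq_empty_iff_forall_notMem]
      intro v hv
      obtain ⟨hvW, hvp, h⟩ := mem_pat.mp hv
      have h2 : (v ∈ pat p σ) ↔ σ ⟨v, hvW⟩ = true := by
        rw [mem_pat]
        exact ⟨fun ⟨_, _, h⟩ => h, fun h => ⟨hvW, hvp, h⟩⟩
      rw [hσ] at h2
      simp only [τ] at h
      by_cases hvA : v ∈ A
      · have := h2.mp hvA
        simp [this, hvA] at h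
      · have : σ ⟨v, hvW⟩ = false := by
          by_contra h3
          exact hvA (h2.mpr (by simpa using h3))
        simp [this, hvA] at h
    have h2 : ∀ σ, pat p σ = ∅ → pat p (τ σ) = A := by
      intro σ hσ
      ext v
      rw [mem_pat]
      constructor
      · rintro ⟨hvW, hvp, h⟩
        have h3 : σ ⟨v, hvW⟩ = false := by
          by_contra h4
          have : v ∈ pat p σ := mem_pat.mpr ⟨hvW, hvp, by simpa using h4⟩
          rw [hσ] at this
          simp at this
        simp only [τ, h3] at h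
        simpa using h
      · intro hvA
        have hvp := hA' hvA
        have hvW : v ∈ (W : Set V) := hp hvp
        refine ⟨hvW, hvp, ?_⟩
        have h3 : σ ⟨v, hvW⟩ = false := by
          by_contra h4
          have : v ∈ pat p σ := mem_pat.mpr ⟨hvW, hvp, by simpa using h4⟩
          rw [hσ] at this
          simp at this
        simp [τ, h3, hvA]
    rw [hC]
    refine Finset.card_bij' (fun σ _ => τ σ) (fun σ _ => τ σ) ?_ ?_ ?_ ?_
    · intro σ hσ
      simp only [Finset.mem_filter, Finset.mem_univ, true_and] at hσ ⊢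
      exact h1 σ hσ
    · intro σ hσ
      simp only [Finset.mem_filter, Finset.mem_univ, true_and] at hσ ⊢
      exact h2 σ hσ
    · intro σ _; exact hτ σ
    · intro σ _; exact hτ σ
  refine ⟨C, by exact_mod_cast hCpos, fun F => ?_⟩
  have hmaps : ∀ σ ∈ (Finset.univ : Finset (WI W → Bool)), pat p σ ∈ p.powerset :=
    fun σ _ => Finset.mem_powerset.mpr (pat_subset σ)
  rw [← Finset.sum_fiberwise_of_maps_to hmaps, Finset.mul_sum]
  refine Finset.sum_congr rfl fun A hA => ?_
  rw [Finset.sum_congr rfl (g := fun _ => F A), Finset.sum_const, hcard A hA, nsmul_eq_mul]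
  intro σ hσ
  rw [(Finset.mem_filter.mp hσ).2]

/-- The window graph. -/
abbrev wG (G : SimpleGraph V) (W : Finset V) : SimpleGraph (W : Set V) := G.induce (W : Set V)

/-- The tilts from the fields. -/
noncomputable def tl {W : Finset V} (h : V → ℝ) : WI W → ℝ := fun v => Real.tanh (h v.1)

lemma abs_tl_lt {W : Finset V} (h : V → ℝ) (v : (W : Set V)) : |tl h v| < 1 := by
  unfold tl
  rw [abs_lt]
  exact ⟨Real.neg_one_lt_tanh _, Real.tanh_lt_one _⟩

/-- The edge product with `trc`. -/
lemma prod_edgesIn_trc {W p : Finset V} (hp : p ⊆ W) (θ : ℝ) (η : V → Bool) :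
    (1 / 2 : ℝ) * ∏ e ∈ edgesIn (wG G W) (trc W p), (ef θ (fun v : (W : Set V) => η v.1) e / 2) =
      Crest.ProbabilityR.TreeIsing.isingWeight G θ p η := by
  refine Eq.trans ?_ (prod_edgesIn_eq hp θ η)
  congr 1
  refine Finset.prod_congr ?_ fun _ _ => rfl
  ext e
  simp only [mem_edgesIn, mem_trc, mem_winTrace]

/-- The constant of the weight identity. -/
noncomputable def cst (G : SimpleGraph V) (W p : Finset V) (h : V → ℝ) : ℝ :=
  (1 / 2) * (1 / 2) ^ (edgesIn (wG G W) (trc W p)).card * ∏ v ∈ p, Real.cosh (h v)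

lemma cst_pos (G : SimpleGraph V) (W p : Finset V) (h : V → ℝ) : 0 < cst G W p h := by
  unfold cst
  have : 0 < ∏ v ∈ p, Real.cosh (h v) := Finset.prod_pos fun v _ => Real.cosh_pos _
  positivity

/-- The weight identity. -/
theorem weight_eq {W p : Finset V} (hp : p ⊆ W) (θ : ℝ) (h : V → ℝ) (σ : WI W → Bool) :
    bw G θ p (pat p σ) * gExp h p (pat p σ) =
      cst G W p h * wtOn (wG G W) θ (tl h) (trc W p) σ := by
  have hb : bw G θ p (pat p σ) =
      (1 / 2) * (1 / 2) ^ (edgesIn (wG G W) (trc W p)).card * ∏ e ∈ edgesIn (wG G W) (trc W p), ef θ σ e := by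
    unfold bw
    rw [← prod_edgesIn_trc hp θ, mul_assoc]
    congr 1
    rw [← Finset.prod_const, ← Finset.prod_mul_distrib]
    refine Finset.prod_congr rfl fun e he => ?_
    induction e using Sym2.ind with
    | _ a b =>
      rw [mk_mem_edgesIn, mem_trc, mem_trc] at he
      have e1 : ∀ v : (W : Set V), v.1 ∈ p → decide (v.1 ∈ pat p σ) = σ v := by
        intro v hv
        by_cases h' : σ v = true
        · rw [h']; simp [mem_pat'.mpr ⟨hv, h'⟩]
        · have : v.1 ∉ pat p σ := fun hh => h' (mem_pat'.mp hh).2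
          simp [this]
          simpa using h'
      rw [ef_mk, ef_mk]
      unfold spn
      beta_reduce
      rw [e1 a he.2.1, e1 b he.2.2]
      ring
  have hg : gExp h p (pat p σ) =
      (∏ v ∈ p, Real.cosh (h v)) * ∏ v ∈ trc W p, (1 + tl h v * spn v σ) := by
    unfold gExp
    rw [Real.exp_sum]
    have e2 : ∏ v ∈ trc W p, (1 + tl h v * spn v σ) =
        ∏ v ∈ p, (1 + Real.tanh (h v) * sp (pat p σ) v) := by
      refine Finset.prod_bij (fun v _ => v.1) ?_ ?_ ?_ ?_
      · intro v hv; exact mem_trc.mp hv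
      · intro a _ b _ hab; exact Subtype.ext hab
      · intro b hb
        exact ⟨⟨b, hp hb⟩, mem_trc.mpr hb, rfl⟩
      · intro v hv
        rw [sp_pat σ (mem_trc.mp hv)]
        rfl
    rw [e2, ← Finset.prod_mul_distrib]
    refine Finset.prod_congr rfl fun v _ => ?_
    exact exp_mul_spin _ (sp_eq_or _ _)
  rw [hb, hg]
  unfold cst wtOn
  ring

section avgs

variable {W p : Finset V} {θ : ℝ}

/-- **Bridge**: averages of patterns on `p ⊆ W` are averages of configurations of the window. -/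
theorem gAvg_eq_avg (hp : p ⊆ W) (h0 : 0 ≤ θ) (h1 : θ < 1) (h : V → ℝ) (f : Finset V → ℝ) :
    gAvg G θ p h f = avg (wtOn (wG G W) θ (tl h) (trc W p)) (fun σ => f (pat p σ)) := by
  obtain ⟨C, hC, hsum⟩ := exists_sum_pat hp
  have hc := cst_pos G W p h
  have hn : ∑ σ, wtOn (wG G W) θ (tl h) (trc W p) σ * f (pat p σ) =
      C / cst G W p h * ∑ A ∈ p.powerset, bw G θ p A * gExp h p A * f A := by
    have := hsum (fun A => bw G θ p A * gExp h p A * f A)
    simp only [weight_eq hp] at this
    rw [div_mul_eq_mul_div, ← this, Finset.sum_div]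
    refine Finset.sum_congr rfl fun σ _ => ?_
    field_simp
  have hd : ∑ σ, wtOn (wG G W) θ (tl h) (trc W p) σ = C / cst G W p h * gZ G θ p h := by
    have := hsum (fun A => bw G θ p A * gExp h p A)
    simp only [weight_eq hp] at this
    unfold gZ
    rw [div_mul_eq_mul_div, ← this, Finset.sum_div]
    refine Finset.sum_congr rfl fun σ _ => ?_
    field_simp
  unfold gAvg avg
  rw [hn, hd]
  have : C / cst G W p h ≠ 0 := (div_pos hC hc).ne'
  rw [mul_div_mul_left _ _ this]

/-- Means. -/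
theorem gm_eq_avg (hp : p ⊆ W) (h0 : 0 ≤ θ) (h1 : θ < 1) (h : V → ℝ) {v : (W : Set V)} (hv : v.1 ∈ p) :
    gm G θ p h v.1 = avg (wtOn (wG G W) θ (tl h) (trc W p)) (spn v) := by
  unfold gm
  rw [gAvg_eq_avg hp h0 h1]
  refine avg_congr (fun _ => rfl) fun σ => sp_pat σ hv

lemma trc_self (W : Finset V) : trc W W = Finset.univ := by
  ext v
  simp only [mem_trc, Finset.mem_univ, iff_true]
  exact v.2

/-- The mean in the window. -/
theorem gm_eq_meanQ (h0 : 0 ≤ θ) (h1 : θ < 1) (h : V → ℝ) (v : (W : Set V)) :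
    gm G θ W h v.1 = mean (wG G W) θ (tl h) v := by
  rw [gm_eq_avg (Finset.Subset.refl W) h0 h1 h v.2, trc_self]
  rfl

/-- The covariance in the window. -/
theorem gcov_eq_cov (h0 : 0 ≤ θ) (h1 : θ < 1) (h : V → ℝ) (u v : (W : Set V)) :
    gcov G θ W h u.1 v.1 = cov (wt (wG G W) θ (tl h)) (spn u) (spn v) := by
  unfold gcov cov
  rw [gm_eq_meanQ h0 h1 h u, gm_eq_meanQ h0 h1 h v, gAvg_eq_avg (Finset.Subset.refl W) h0 h1, trc_self]
  congr 1
  refine avg_congr (fun _ => rfl) fun σ => ?_
  show sp (pat W σ) u.1 * sp (pat W σ) v.1 = _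
  rw [sp_pat σ u.2, sp_pat σ v.2]

/-- The image of a side. -/
noncomputable def sideV (G : SimpleGraph V) (W : Finset V) (x y : (W : Set V)) : Finset V :=
  (side (wG G W) x y).map (Function.Embedding.subtype _)

lemma mem_sideV {x y : (W : Set V)} {v : (W : Set V)} :
    v.1 ∈ sideV G W x y ↔ v ∈ side (wG G W) x y := by
  simp [sideV]

lemma sideV_subset (x y : (W : Set V)) : sideV G W x y ⊆ W := by
  intro v hv
  simp only [sideV, Finset.mem_map] at hv
  obtain ⟨a, _, rfl⟩ := hv
  exact a.2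

lemma trc_sideV (x y : (W : Set V)) : trc W (sideV G W x y) = side (wG G W) x y := by
  ext v
  rw [mem_trc, mem_sideV]

/-- The cavity mean is a mean on the side. -/
theorem nu_eq_gm (h0 : 0 ≤ θ) (h1 : θ < 1) (h : V → ℝ) (x y : (W : Set V)) :
    nu (wG G W) θ (tl h) x y = gm G θ (sideV G W x y) h x.1 := by
  rw [gm_eq_avg (sideV_subset x y) h0 h1 h (mem_sideV.mpr (self_mem_side x y)), trc_sideV]
  rfl

end avgs

end Crest.Agent.Lib.IsingFIID
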