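/-
Task GI, part 4: the statements of the task on trees, from the bridge.
-/
import Crest.Agent.Lib.IsingFIID.GibbsBridgeQ

set_option autoImplicit false
set_option linter.unusedSectionVars false
set_option linter.unusedVariables false

namespace Crest.Agent.Lib.IsingFIID

open Finset

variable {V : Type*} [DecidableEq V] {G : SimpleGraph V}

lemma adj_of_mem_nbrs {W : Finset V} {x c : WI W} (hc : c ∈ nbrs (wG G W) x) : G.Adj c.1 x.1 := by
  have h : (wG G W).Adj c x := mem_nbrs.mp hc
  exact h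

lemma mem_nbrs_of_adj {W : Finset V} {x c : WI W} (hc : G.Adj c.1 x.1) : c ∈ nbrs (wG G W) x := by
  have h : (wG G W).Adj c x := hc
  exact mem_nbrs.mpr h

lemma wG_isTree (hT : G.IsTree) {W : Finset V} (hW : IsWin G W) : (wG G W).IsTree :=
  induce_isTree hT.isAcyclic hW

section real

lemma artanh_eq_odds {t : ℝ} (ht : |t| < 1) : Real.artanh t = 1 / 2 * Real.log (odds t) := by
  have := abs_lt.mp ht
  rw [Real.artanh_eq_half_log ⟨this.1.le, this.2.le⟩]
  rfl

lemma abs_mul_lt_one_of {θ t : ℝ} (h0 : 0 ≤ θ) (h1 : θ < 1) (ht : |t| ≤ 1) : |θ * t| < 1 := by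
  rw [abs_mul, abs_of_nonneg h0]
  calc θ * |t| ≤ θ * 1 := mul_le_mul_of_nonneg_left ht h0
    _ < 1 := by linarith

/-- `tanh` is increasing. -/
lemma tanh_le_tanh {x y : ℝ} (h : x ≤ y) : Real.tanh x ≤ Real.tanh y := by
  have hx : Real.tanh x ∈ Set.Ioo (-1 : ℝ) 1 := ⟨Real.neg_one_lt_tanh _, Real.tanh_lt_one _⟩
  have hy : Real.tanh y ∈ Set.Ioo (-1 : ℝ) 1 := ⟨Real.neg_one_lt_tanh _, Real.tanh_lt_one _⟩
  rw [← Real.artanh_le_artanh_iff hx hy, Real.artanh_tanh, Real.artanh_tanh]
  exact h

lemma abs_tanh_le {x B : ℝ} (h : |x| ≤ B) : |Real.tanh x| ≤ Real.tanh B := by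
  have h' := abs_le.mp h
  have h0 : 0 ≤ B := (abs_nonneg x).trans h
  have hB : 0 ≤ Real.tanh B := by
    have := tanh_le_tanh h0
    simpa using this
  rw [abs_le]
  constructor
  · have := tanh_le_tanh h'.1
    rw [Real.tanh_neg] at this
    exact this
  · exact tanh_le_tanh h'.2

/-- `artanh` of an attenuated message. -/
lemma abs_artanh_mul_le {θ t : ℝ} (h0 : 0 ≤ θ) (h1 : θ < 1) (ht : |t| ≤ 1) :
    |Real.artanh (θ * t)| ≤ Real.artanh θ := by
  have ht' := abs_le.mp ht
  have hθ : θ ∈ Set.Ioo (-1 : ℝ) 1 := ⟨by linarith, h1⟩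
  have hθt := abs_lt.mp (abs_mul_lt_one_of h0 h1 ht)
  rw [abs_le]
  constructor
  · have h2 : Real.artanh (-θ) ≤ Real.artanh (θ * t) :=
      Real.artanh_le_artanh (by linarith) hθt.2 (by nlinarith)
    have h3 : Real.artanh (-θ) = - Real.artanh θ := by
      unfold Real.artanh
      have hpos : 0 < (1 + θ) / (1 - θ) := div_pos (by linarith) (by linarith)
      have : (1 + -θ) / (1 - -θ) = ((1 + θ) / (1 - θ))⁻¹ := by
        rw [inv_div]; ring_nf
      rw [this, Real.sqrt_inv, Real.log_inv]
    linarith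
  · exact Real.artanh_le_artanh hθt.1 h1 (by nlinarith)

end real

section tree

variable {ι : Type*} [Fintype ι] [DecidableEq ι] {T : SimpleGraph ι} {θ : ℝ} {l : ι → ℝ}

/-- The mean as `tanh` of the sum of the incoming messages. -/
theorem mean_tanh (hT : T.IsTree) (h0 : 0 ≤ θ) (h1 : θ < 1) (hl : ∀ v, |l v| < 1) (x : ι) :
    mean T θ l x =
      Real.tanh (Real.artanh (l x) + ∑ c ∈ nbrs T x, Real.artanh (θ * nu T θ l c x)) := by
  have hm : |mean T θ l x| < 1 := abs_avg_sp_lt (wtOn_pos h0 h1 hl _) x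
  have hm' := abs_lt.mp hm
  have hθν : ∀ c, |θ * nu T θ l c x| < 1 := fun c =>
    abs_mul_lt_one_of h0 h1 (abs_nu_le h0 h1 hl c x)
  have e := odds_mean hT h0 h1 hl x
  have hlog := congrArg Real.log e
  rw [Real.log_mul (odds_pos (hl x)).ne'
    (Finset.prod_pos fun c _ => odds_pos (hθν c)).ne',
    Real.log_prod (fun c _ => (odds_pos (hθν c)).ne')] at hlog
  have key : Real.artanh (mean T θ l x) =
      Real.artanh (l x) + ∑ c ∈ nbrs T x, Real.artanh (θ * nu T θ l c x) := by
    rw [artanh_eq_odds hm, artanh_eq_odds (hl x), hlog, mul_add, Finset.mul_sum]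
    congr 1
    exact Finset.sum_congr rfl fun c _ => (artanh_eq_odds (hθν c)).symm
  rw [← key, Real.tanh_artanh ⟨hm'.1, hm'.2⟩]

end tree

section window

variable {W : Finset V} {θ : ℝ}

/-- The mean in a window: `tanh` of the field and of the messages from the sides. -/
theorem gm_eq_tanh (hT : G.IsTree) (hW : IsWin G W) (h0 : 0 ≤ θ) (h1 : θ < 1) (h : V → ℝ) (x : WI W) :
    gm G θ W h x.1 = Real.tanh (h x.1 +
      ∑ c ∈ nbrs (wG G W) x, Real.artanh (θ * gm G θ (sideV G W c x) h c.1)) := by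
  rw [gm_eq_meanQ h0 h1, mean_tanh (wG_isTree hT hW) h0 h1 (abs_tl_lt h)]
  congr 2
  · exact Real.artanh_tanh _
  · refine Finset.sum_congr rfl fun c _ => ?_
    rw [nu_eq_gm h0 h1]

/-- A geodesic in the window, back from `x k`, stays on the side of `x k`. -/
lemma geod_mem_side (hT : G.IsTree) {x : ℕ → V} {r : ℕ} (hx : IsGeod G x r)
    (hxW : ∀ i, i ≤ r → x i ∈ W) {k : ℕ} (hk : k < r) :
    (⟨x 0, hxW 0 (by omega)⟩ : WI W) ∈ side (wG G W) ⟨x k, hxW k (by omega)⟩
      ⟨x (k + 1), hxW (k + 1) (by omega)⟩ := by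
  have key : ∀ i (hi : i ≤ k), (⟨x (k - i), hxW (k - i) (by omega)⟩ : WI W) ∈
      side (wG G W) ⟨x k, hxW k (by omega)⟩ ⟨x (k + 1), hxW (k + 1) (by omega)⟩ := by
    intro i
    induction i with
    | zero =>
      intro _
      exact self_mem_side _ _
    | succ i ih =>
      intro hi
      have h1 := ih (by omega)
      have hadj : (wG G W).Adj (⟨x (k - i), hxW (k - i) (by omega)⟩ : WI W)
          ⟨x (k - (i + 1)), hxW (k - (i + 1)) (by omega)⟩ := by
        show G.Adj (x (k - i)) (x (k - (i + 1)))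
        have := hx.adj (k - (i + 1)) (by omega)
        rw [show k - (i + 1) + 1 = k - i by omega] at this
        exact this.symm
      refine side_step h1 hadj ?_
      intro he
      rcases Sym2.eq_iff.mp he with ⟨-, e2⟩ | ⟨-, e2⟩
      · have := hx.injOn hT (i := k - (i + 1)) (j := k + 1) (by omega) (by omega)
          (congrArg Subtype.val e2)
        omega
      · have := hx.injOn hT (i := k - (i + 1)) (j := k) (by omega) (by omega)
          (congrArg Subtype.val e2)
        omega
  have := key k le_rfl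
  simpa using this

/-- The slope in terms of the inverse of the Bethe map. -/
lemma slopeOf_eq {θ a b : ℝ} (h0 : 0 ≤ θ) (h1 : θ < 1) :
    slopeOf θ a b = gg θ (binv θ b a) := by
  unfold slopeOf uOf
  rw [gg_eq_uFun, nuOf_eq_binv θ a b (A_pos h0 h1).ne']

/-- Covariance as a product of slopes along the geodesic. -/
theorem gcov_eq_pathCov (hT : G.IsTree) {W : Finset V} (hW : IsWin G W) {θ : ℝ} (h0 : 0 ≤ θ) (h1 : θ < 1)
    (h : V → ℝ) {x : ℕ → V} {r : ℕ} (hx : IsGeod G x r) (hxW : ∀ i, i ≤ r → x i ∈ W) :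
    gcov G θ W h (x 0) (x r) = pathCov θ (gm G θ W h) x r := by
  have hTT := wG_isTree hT hW
  have hl := abs_tl_lt (W := W) h
  have key : ∀ k, k ≤ r → gcov G θ W h (x 0) (x k) = pathCov θ (gm G θ W h) x k := by
    intro k
    induction k with
    | zero =>
      intro _
      unfold pathCov
      simp [gcov_self h0 h1]
    | succ k ih =>
      intro hk
      have h2 := ih (by omega)
      have hx0 : x 0 ∈ W := hxW 0 (by omega)
      have hxk : x k ∈ W := hxW k (by omega)
      have hxk' : x (k + 1) ∈ W := hxW (k + 1) hk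
      have hadj : (wG G W).Adj (⟨x k, hxk⟩ : WI W) ⟨x (k + 1), hxk'⟩ := hx.adj k (by omega)
      have hs := geod_mem_side hT hx hxW (k := k) (by omega)
      have hf := depOn_sp hs
      have hstep := cov_wt_step hTT hadj h0 h1 hl hf
      rw [← gcov_eq_cov h0 h1 h ⟨x 0, hx0⟩ ⟨x (k + 1), hxk'⟩,
        ← gcov_eq_cov h0 h1 h ⟨x 0, hx0⟩ ⟨x k, hxk⟩,
        nu_eq_binv hTT hadj.symm h0 h1 hl,
        ← gm_eq_meanQ h0 h1 h ⟨x (k + 1), hxk'⟩, ← gm_eq_meanQ h0 h1 h ⟨x k, hxk⟩] at hstep
      rw [hstep, h2]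
      unfold pathCov
      rw [Finset.prod_range_succ, slopeOf_eq h0 h1]
      ring
  exact key r le_rfl

/-- A reversed geodesic is a geodesic. -/
lemma IsGeod.reverse {x : ℕ → V} {r : ℕ} (hx : IsGeod G x r) : IsGeod G (fun i => x (r - i)) r where
  adj := by
    intro i hi
    have := hx.adj (r - (i + 1)) (by omega)
    rw [show r - (i + 1) + 1 = r - i by omega] at this
    exact this.symm
  nb := by
    intro i hi
    have := hx.nb (r - (i + 2)) (by omega)
    rw [show r - (i + 2) + 2 = r - i by omega] at this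
    exact this.symm

/-- Both directions of a path (automatic from symmetry of `gcov`); used in the tail. -/
theorem pathCov_reverse (hT : G.IsTree) {W : Finset V} (hW : IsWin G W) {θ : ℝ} (h0 : 0 ≤ θ) (h1 : θ < 1)
    (h : V → ℝ) {x : ℕ → V} {r : ℕ} (hx : IsGeod G x r) (hxW : ∀ i, i ≤ r → x i ∈ W) :
    pathCov θ (gm G θ W h) x r = pathCov θ (gm G θ W h) (fun i => x (r - i)) r := by
  rw [← gcov_eq_pathCov hT hW h0 h1 h hx hxW,
    ← gcov_eq_pathCov hT hW h0 h1 h hx.reverse (fun i hi => hxW _ (by omega)), gcov_comm]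
  simp

/-- Deterministic bound of the means by the fields: degrees `≤ d`. -/
theorem abs_gm_le_tanh' [G.LocallyFinite] {d : ℕ} (hT : G.IsTree) (hreg : G.IsRegularOfDegree d)
    {W : Finset V} (hW : IsWin G W) {θ B : ℝ} (h0 : 0 ≤ θ) (h1 : θ < 1)
    (h : V → ℝ) (hB : ∀ v ∈ W, |h v| ≤ B) {v : V} (hv : v ∈ W) :
    |gm G θ W h v| ≤ Real.tanh (B + d * Real.artanh θ) := by
  have he := gm_eq_tanh hT hW h0 h1 h ⟨v, hv⟩
  simp only at he
  rw [he]
  apply abs_tanh_le
  refine (abs_add_le _ _).trans ?_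
  have hθ : 0 ≤ Real.artanh θ := Real.artanh_nonneg h0
  have hc : (nbrs (wG G W) (⟨v, hv⟩ : WI W)).card ≤ d := by
    have e : (G.neighborFinset v).card = d := by
      rw [SimpleGraph.card_neighborFinset_eq_degree]
      exact hreg v
    rw [← e]
    refine Finset.card_le_card_of_injOn (fun c => c.1) ?_ ?_
    · intro c hc
      have hc' := adj_of_mem_nbrs (Finset.mem_coe.mp hc)
      simpa using hc'.symm
    · intro a _ b _ hab
      exact Subtype.ext hab
  have hs : |∑ c ∈ nbrs (wG G W) (⟨v, hv⟩ : WI W),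
      Real.artanh (θ * gm G θ (sideV G W c ⟨v, hv⟩) h c.1)| ≤ d * Real.artanh θ := by
    refine (Finset.abs_sum_le_sum_abs _ _).trans ?_
    calc _ ≤ ∑ c ∈ nbrs (wG G W) (⟨v, hv⟩ : WI W), Real.artanh θ :=
          Finset.sum_le_sum fun c _ => abs_artanh_mul_le h0 h1 (abs_gm_le h0 h1 h _)
      _ = (nbrs (wG G W) (⟨v, hv⟩ : WI W)).card * Real.artanh θ := by
          rw [Finset.sum_const, nsmul_eq_mul]
      _ ≤ d * Real.artanh θ := by
          apply mul_le_mul_of_nonneg_right _ hθ
          exact_mod_cast hc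
  have := hB v hv
  linarith

theorem abs_gm_le_tanh [G.LocallyFinite] {d : ℕ} (hG : Tree G d) {W : Finset V} (hW : IsWin G W) {θ B : ℝ}
    (h0 : 0 ≤ θ) (h1 : θ < 1) (h : V → ℝ) (hB : ∀ v ∈ W, |h v| ≤ B) {v : V} (hv : v ∈ W) :
    |gm G θ W h v| ≤ Real.tanh (B + d * Real.artanh θ) :=
  abs_gm_le_tanh' hG.tree hG.reg hW h0 h1 h hB hv

/-! ### Sides and distances -/

/-- The `c`-side of the edge `c x` is on the `c`-side for the distance. -/
lemma side_forward (hT : G.IsTree) {c x v : WI W} (hcx : G.Adj c.1 x.1)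
    (hv : v ∈ side (wG G W) c x) : G.dist x.1 v.1 = G.dist c.1 v.1 + 1 := by
  rw [mem_side] at hv
  have hcl : ∀ a b : WI W, a ∈ {v : WI W | G.dist x.1 v.1 = G.dist c.1 v.1 + 1} →
      ((wG G W).deleteEdges {s(c, x)}).Adj a b →
      b ∈ {v : WI W | G.dist x.1 v.1 = G.dist c.1 v.1 + 1} := by
    intro a b ha hab
    rw [SimpleGraph.deleteEdges_adj] at hab
    obtain ⟨hab, hne⟩ := hab
    have hab' : G.Adj a.1 b.1 := hab
    simp only [Set.mem_ofPred_eq] at ha ⊢
    by_contra hb
    have h1 := hT.dist_eq_dist_add_one_of_adj b.1 hcx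
    rw [SimpleGraph.dist_comm (u := b.1), SimpleGraph.dist_comm (u := b.1)] at h1
    have h2 : G.dist c.1 b.1 = G.dist x.1 b.1 + 1 := by omega
    have h3 := hT.dist_eq_dist_add_one_of_adj c.1 hab'
    have h4 := hT.dist_eq_dist_add_one_of_adj x.1 hab'
    have h5 : G.dist x.1 b.1 + 1 = G.dist x.1 a.1 := by omega
    have h6 : G.dist c.1 b.1 = G.dist c.1 a.1 + 1 := by omega
    by_cases hac : a.1 = c.1
    · rw [hac, SimpleGraph.dist_self] at h6
      have h7 : G.dist x.1 b.1 = 0 := by omega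
      have h8 : x.1 = b.1 := (hT.connected x.1 b.1).dist_eq_zero_iff.mp h7
      apply hne
      have h9 : a = c := Subtype.ext hac
      have h10 : b = x := Subtype.ext h8.symm
      rw [h9, h10]
      simp
    · obtain ⟨e, hae, hde⟩ := exists_closer hT c.1 hac
      have h7 : G.dist x.1 e ≤ G.dist x.1 c.1 + G.dist c.1 e := hT.connected.dist_triangle
      have h8 : G.dist x.1 c.1 = 1 := SimpleGraph.dist_eq_one_iff_adj.mpr hcx.symm
      have h9 : e = b.1 := closer_unique hT x.1 hae hab' (by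
        have := hT.dist_eq_dist_add_one_of_adj x.1 hae
        omega) (by omega)
      rw [h9] at hde
      omega
  refine reachable_closed hcl ?_ hv
  simp only [Set.mem_ofPred_eq, SimpleGraph.dist_self]
  exact SimpleGraph.dist_eq_one_iff_adj.mpr hcx.symm

/-- Membership in a side is a matter of distances. -/
theorem mem_side_iff (hT : G.IsTree) (hW : IsWin G W) {c x v : WI W} (hcx : G.Adj c.1 x.1) :
    v ∈ side (wG G W) c x ↔ G.dist x.1 v.1 = G.dist c.1 v.1 + 1 := by
  refine ⟨side_forward hT hcx, fun hd => ?_⟩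
  by_contra hv
  have hu := Finset.ext_iff.mp (union_sides (wG_isTree hT hW).connected (x := c) (y := x) hcx) v
  simp only [Finset.mem_union, Finset.mem_univ, iff_true] at hu
  rcases hu with hu | hu
  · exact hv hu
  · have := side_forward hT hcx.symm hu
    omega

end window

section balls

variable [G.LocallyFinite]

/-- The tree is a union of the two sides: a neighbour other than `p`. -/
lemma dist_of_other_side (hT : G.IsTree) {p x c v : V} (hpx : G.Adj p x) (hcx : G.Adj c x) (hcp : c ≠ p)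
    (hd : G.dist x v = G.dist c v + 1) : G.dist p v = G.dist x v + 1 := by
  rcases hT.dist_eq_dist_add_one_of_adj v hpx with h | h
  · rw [SimpleGraph.dist_comm (u := v), SimpleGraph.dist_comm (u := v)] at h
    exact h
  · exfalso
    rw [SimpleGraph.dist_comm (u := v), SimpleGraph.dist_comm (u := v)] at h
    apply hcp
    refine closer_unique hT v hcx.symm hpx.symm ?_ ?_
    · rw [SimpleGraph.dist_comm (u := v), SimpleGraph.dist_comm (u := v)]; exact hd
    · rw [SimpleGraph.dist_comm (u := v), SimpleGraph.dist_comm (u := v)]; exact h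

/-- Mean at the root of a half ball is the recursion. -/
theorem gm_halfBall' (hT : G.IsTree) {θ : ℝ} (h0 : 0 ≤ θ) (h1 : θ < 1) (h : V → ℝ) (N : ℕ) :
    ∀ {x p : V} (hxp : G.Adj p x), gm G θ (halfBall G p x N) h x = nuV G θ h N x p := by
  induction N with
  | zero =>
    intro x p hxp
    have hW := isWin_halfBall hT hxp 0
    have hx := self_mem_halfBall hT hxp 0
    have he := gm_eq_tanh hT hW h0 h1 h ⟨x, hx⟩
    simp only at he
    rw [he]
    simp only [nuV]
    rw [Finset.sum_eq_zero, add_zero]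
    intro c hc
    exfalso
    have hc1 : G.Adj c.1 x := adj_of_mem_nbrs hc
    have hc2 := c.2
    have hc3 := (mem_halfBall hT hxp).1 (Finset.mem_coe.mp hc2)
    have h5 : G.dist x c.1 = 1 := SimpleGraph.dist_eq_one_iff_adj.mpr hc1.symm
    omega
  | succ N ih =>
    intro x p hxp
    have hW := isWin_halfBall hT hxp (N + 1)
    have hx := self_mem_halfBall hT hxp (N + 1)
    have he := gm_eq_tanh hT hW h0 h1 h ⟨x, hx⟩
    simp only at he
    rw [he]
    simp only [nuV]
    congr 2
    refine Finset.sum_bij (fun c _ => c.1) ?_ ?_ ?_ ?_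
    · intro c hc
      have hc1 : G.Adj c.1 x := adj_of_mem_nbrs hc
      rw [Finset.mem_erase, SimpleGraph.mem_neighborFinset]
      refine ⟨?_, hc1.symm⟩
      intro hcp
      have hc3 := (mem_halfBall hT hxp).1 (Finset.mem_coe.mp c.2)
      rw [hcp, SimpleGraph.dist_self] at hc3
      omega
    · intro a _ b _ hab
      exact Subtype.ext hab
    · intro c hc
      rw [Finset.mem_erase, SimpleGraph.mem_neighborFinset] at hc
      have hcW : c ∈ halfBall G p x (N + 1) := by
        rw [mem_halfBall hT hxp]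
        have h5 : G.dist x c = 1 := SimpleGraph.dist_eq_one_iff_adj.mpr hc.2
        refine ⟨by omega, ?_⟩
        rcases hT.dist_eq_dist_add_one_of_adj c hxp with h6 | h6
        · rw [SimpleGraph.dist_comm (u := c), SimpleGraph.dist_comm (u := c)] at h6
          exact h6
        · rw [SimpleGraph.dist_comm (u := c), SimpleGraph.dist_comm (u := c)] at h6
          have h7 : G.dist p c = 0 := by omega
          exact absurd ((hT.connected p c).dist_eq_zero_iff.mp h7).symm hc.1
      exact ⟨⟨c, hcW⟩, mem_nbrs_of_adj hc.2.symm, rfl⟩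
    · intro c hc
      have hc1 : G.Adj c.1 x := adj_of_mem_nbrs hc
      have hcp : c.1 ≠ p := by
        intro hcp
        have hc3 := (mem_halfBall hT hxp).1 (Finset.mem_coe.mp c.2)
        rw [hcp, SimpleGraph.dist_self] at hc3
        omega
      have hside : sideV G (halfBall G p x (N + 1)) c ⟨x, hx⟩ = halfBall G x c.1 N := by
        ext v
        rw [mem_halfBall hT hc1.symm]
        constructor
        · intro hv
          obtain ⟨a, ha, rfl⟩ := Finset.mem_map.mp hv
          have hd := (mem_side_iff hT hW (c := c) (x := ⟨x, hx⟩) hc1).mp ha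
          have hc3 := (mem_halfBall hT hxp).1 (Finset.mem_coe.mp a.2)
          simp only [Function.Embedding.subtype_apply] at hd ⊢
          exact ⟨by omega, hd⟩
        · rintro ⟨hv1, hv2⟩
          have hvW : v ∈ halfBall G p x (N + 1) := by
            rw [mem_halfBall hT hxp]
            exact ⟨by omega, dist_of_other_side hT hxp hc1 hcp hv2⟩
          exact mem_sideV (x := c) (y := ⟨x, hx⟩) (v := ⟨v, hvW⟩) |>.mpr
            ((mem_side_iff hT hW hc1).mpr hv2)
      rw [hside, ih hc1.symm]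

theorem gm_halfBall {d : ℕ} (hG : Tree G d) {θ : ℝ} (h0 : 0 ≤ θ) (h1 : θ < 1) (h : V → ℝ) {x p : V}
    (hxp : G.Adj p x) (N : ℕ) : gm G θ (halfBall G p x N) h x = nuV G θ h N x p :=
  gm_halfBall' hG.tree h0 h1 h N hxp

/-- The distance through an edge. -/
lemma dist_through (hT : G.IsTree) {o p b : V} (hpb : G.Adj p b) (ho : G.dist o b = G.dist o p + 1) :
    ∀ (k : ℕ) (v : V), G.dist b v = k → G.dist p v = k + 1 → G.dist o v = G.dist o b + k := by
  intro k
  induction k with
  | zero =>
    intro v hv _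
    have : b = v := (hT.connected b v).dist_eq_zero_iff.mp hv
    subst this
    simp
  | succ k ih =>
    intro v hv hpv
    have hne : v ≠ b := by
      rintro rfl
      simp at hv
    obtain ⟨w, hvw, hw⟩ := exists_closer hT b hne
    have hbw : G.dist b w = k := by omega
    have h1 : G.dist p w ≤ G.dist p b + G.dist b w := hT.connected.dist_triangle
    have h2 : G.dist p b = 1 := SimpleGraph.dist_eq_one_iff_adj.mpr hpb
    have h3 := hT.dist_eq_dist_add_one_of_adj p hvw
    have hpw : G.dist p w = k + 1 := by omega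
    have h4 := ih w hbw hpw
    have h5 := hT.dist_eq_dist_add_one_of_adj o hvw
    rcases h5 with h5 | h5
    · omega
    · exfalso
      -- `v` would be closer to `o` than `w`
      by_cases hwb : w = b
      · subst hwb
        have hvp : v = p := closer_unique hT o hvw.symm hpb.symm (by omega) (by omega)
        subst hvp
        simp at hpv
      · obtain ⟨w', hww', hw'⟩ := exists_closer hT b hwb
        have h6 : G.dist b w' + 1 = k := by omega
        have h7 : G.dist o w' ≤ G.dist o b + G.dist b w' := hT.connected.dist_triangle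
        have h8 := hT.dist_eq_dist_add_one_of_adj o hww'
        have hvw' : v = w' := closer_unique hT o hvw.symm hww' (by omega) (by omega)
        subst hvw'
        omega

/-- Balls are windows. -/
lemma isWin_ball_gi (hT : G.IsTree) (o : V) (N : ℕ) : IsWin G (ball G o N) := by
  refine isWin_of_closer (o := o) _ ((mem_ball hT).2 (by simp)) fun v hv hne => ?_
  obtain ⟨c, hadj, hd⟩ := exists_closer hT o hne
  refine ⟨c, ?_, hadj, hd⟩
  rw [mem_ball hT] at hv ⊢
  omega

/-- The side of the edge in a ball is a half ball. -/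
lemma sideV_ball (hT : G.IsTree) {o b p : V} {N : ℕ} (hb : G.dist o b ≤ N) (hpN : G.dist o p ≤ N)
    (hp : G.Adj b p) (hdir : b = o ∨ G.dist o b = G.dist o p + 1) :
    sideV G (ball G o N) ⟨b, (mem_ball hT).2 hb⟩ ⟨p, (mem_ball hT).2 hpN⟩ =
      halfBall G p b (N - G.dist o b) := by
  have hW := isWin_ball_gi hT o N
  have hthru : ∀ v, G.dist p v = G.dist b v + 1 → G.dist o v = G.dist o b + G.dist b v := by
    intro v hv
    rcases hdir with rfl | hd
    · simp
    · exact dist_through hT hp.symm hd _ v rfl hv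
  ext v
  rw [mem_halfBall hT hp.symm]
  constructor
  · intro hv
    obtain ⟨a, ha, rfl⟩ := Finset.mem_map.mp hv
    have hd := (mem_side_iff hT hW hp).mp ha
    have hc3 := (mem_ball hT).1 (Finset.mem_coe.mp a.2)
    simp only [Function.Embedding.subtype_apply] at hd ⊢
    have := hthru _ hd
    exact ⟨by omega, hd⟩
  · rintro ⟨hv1, hv2⟩
    have hvW : v ∈ ball G o N := by
      rw [mem_ball hT]
      have := hthru v hv2
      omega
    exact mem_sideV (x := ⟨b, (mem_ball hT).2 hb⟩) (y := ⟨p, (mem_ball hT).2 hpN⟩)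
      (v := ⟨v, hvW⟩) |>.mpr ((mem_side_iff hT hW hp).mpr hv2)

/-- Cavity in a ball: for `b` at distance `i` from the centre `o`, `p` the neighbour of `b` towards `o`
(or `b = o` and `p` any neighbour), the Bethe inverse of the two window means is the recursion `nuV`. -/
theorem nuOf_gm_ball {d : ℕ} (hG : Tree G d) {θ : ℝ} (h0 : 0 ≤ θ) (h1 : θ < 1) (h : V → ℝ) {o b p : V} {N : ℕ}
    (hb : G.dist o b ≤ N) (hpN : G.dist o p ≤ N) (hp : G.Adj b p)
    (hdir : b = o ∨ G.dist o b = G.dist o p + 1) :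
    nuOf θ (gm G θ (ball G o N) h p) (gm G θ (ball G o N) h b) = nuV G θ h (N - G.dist o b) b p := by
  have hT := hG.tree
  have hW := isWin_ball_gi hT o N
  have hbW : b ∈ ball G o N := (mem_ball hT).2 hb
  have hpW : p ∈ ball G o N := (mem_ball hT).2 hpN
  have hadj : (wG G (ball G o N)).Adj (⟨b, hbW⟩ : WI (ball G o N)) ⟨p, hpW⟩ := hp
  have e1 := nu_eq_binv (wG_isTree hT hW) hadj h0 h1 (abs_tl_lt h)
  rw [← gm_eq_meanQ h0 h1 h ⟨b, hbW⟩, ← gm_eq_meanQ h0 h1 h ⟨p, hpW⟩, nu_eq_gm h0 h1] at e1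
  simp only at e1
  rw [nuOf_eq_binv _ _ _ (A_pos h0 h1).ne', ← e1, sideV_ball hT hb hpN hp hdir,
    gm_halfBall' hT h0 h1 h _ hp.symm]

end balls

end Crest.Agent.Lib.IsingFIID
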