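/-
Row 160 (S0241), Task RI: `ring_increment_le`, the increment inequality for two systems driven by the same
labels.  Pathwise telescoping over the rings (no ties a.s.), then for one ring: resample its noise, resample its
time, and the hole factor.
-/
import Crest.Agent.Lib.IsingFIID.RingsBasic
import Crest.Agent.Lib.IsingFIID.GibbsBasic
import Crest.Agent.Lib.SRF.Innov

set_option autoImplicit false
set_option linter.unusedSectionVars false
set_option linter.unusedVariables false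

namespace Crest.Agent.Lib.IsingFIID

open MeasureTheory Filter Topology Set SimpleGraph
open scoped ENNReal

variable {V : Type*} [DecidableEq V] {G : SimpleGraph V} {d : ℕ}

namespace RingInc

/-! ### Abstract telescoping over a finite set of jump times -/

theorem telescope {ι A : Type*} [DecidableEq ι] (R : Finset ι) (T : ι → ℝ) (hinj : Set.InjOn T R) (S : ℝ → A)
    (St : ι → A → A) (g : A → ℝ) {τ₀ : ℝ}
    (hconst : ∀ a b, a ≤ b → b ≤ τ₀ → (∀ i ∈ R, ¬ (a ≤ T i ∧ T i < b)) → S a = S b)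
    (hjump : ∀ i ∈ R, ∀ b, T i < b → b ≤ τ₀ → (∀ j ∈ R, ¬ (T i < T j ∧ T j < b)) → S b = St i (S (T i)))
    (τ₁ τ₂ : ℝ) (h12 : τ₁ ≤ τ₂) (h20 : τ₂ ≤ τ₀) :
    g (S τ₂) - g (S τ₁) =
      ∑ i ∈ R.filter (fun i => τ₁ ≤ T i ∧ T i < τ₂), (g (St i (S (T i))) - g (S (T i))) := by
  classical
  induction' hn : (R.filter (fun i => τ₁ ≤ T i ∧ T i < τ₂)).card using Nat.strong_induction_on with n ih
    generalizing τ₂
  by_cases hne : (R.filter (fun i => τ₁ ≤ T i ∧ T i < τ₂)).Nonempty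
  · obtain ⟨i₀, hi₀, hmax⟩ := Finset.exists_max_image _ T hne
    obtain ⟨hi₀R, hi₀1, hi₀2⟩ := Finset.mem_filter.1 hi₀
    have hjmp : S τ₂ = St i₀ (S (T i₀)) := by
      refine hjump i₀ hi₀R τ₂ hi₀2 h20 fun j hj hc => ?_
      have hjf : j ∈ R.filter (fun i => τ₁ ≤ T i ∧ T i < τ₂) :=
        Finset.mem_filter.2 ⟨hj, hi₀1.trans hc.1.le, hc.2⟩
      exact absurd (hmax j hjf) (not_le.2 hc.1)
    have hfil : R.filter (fun i => τ₁ ≤ T i ∧ T i < T i₀) = (R.filter (fun i => τ₁ ≤ T i ∧ T i < τ₂)).erase i₀ := by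
      ext j
      simp only [Finset.mem_filter, Finset.mem_erase]
      constructor
      · rintro ⟨hj, h1, h2⟩
        exact ⟨fun h => by rw [h] at h2; exact lt_irrefl _ h2, hj, h1, h2.trans hi₀2⟩
      · rintro ⟨hne', hj, h1, h2⟩
        refine ⟨hj, h1, lt_of_le_of_ne (hmax j (Finset.mem_filter.2 ⟨hj, h1, h2⟩)) fun h => hne' ?_⟩
        exact hinj (Finset.mem_coe.2 hj) (Finset.mem_coe.2 hi₀R) h
    have hcard : (R.filter (fun i => τ₁ ≤ T i ∧ T i < T i₀)).card < n := by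
      rw [hfil, ← hn]
      exact Finset.card_erase_lt_of_mem hi₀
    have hih := ih _ hcard (T i₀) hi₀1 (hi₀2.le.trans h20) rfl
    rw [← Finset.add_sum_erase _ _ hi₀, ← hfil, ← hih, hjmp]
    ring
  · rw [Finset.not_nonempty_iff_eq_empty] at hne
    rw [hne, Finset.sum_empty]
    have : S τ₁ = S τ₂ := hconst τ₁ τ₂ h12 h20 fun i hi hc => by
      have : i ∈ R.filter (fun i => τ₁ ≤ T i ∧ T i < τ₂) := Finset.mem_filter.2 ⟨hi, hc⟩
      rw [hne] at this
      simp at this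
    rw [this, sub_self]

/-! ### The fields as a finite sum over the rings -/

/-- The jump of the field at a ring. -/
noncomputable def jumpC (G : SimpleGraph V) (θ : ℝ) (κ : ℝ → ℝ) (W : Finset V) (ω : Om V) (v : V) (n : ℕ) : ℝ :=
  Real.artanh (xQ (κ (ringT ω v n)) (gm G θ W (field G θ κ W ω (ringT ω v n)) v) (ω.2 (v, n) : ℝ))

theorem ringT_ge (ω : Om V) (v : V) (n : ℕ) : (n : ℝ) ≤ ringT ω v n := by
  unfold ringT
  have := (ω.1 (v, n)).2.1
  linarith

theorem ringT_lt {ω : Om V} {v : V} {n : ℕ} (h : (ω.1 (v, n) : ℝ) < 1 / 2) : ringT ω v n < n + 1 := by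
  unfold ringT
  linarith

theorem lt_ceil_of_before {ω : Om V} {v : V} {n : ℕ} {τ : ℝ} (h : before ω v n τ) : n < ⌈τ⌉₊ :=
  Nat.lt_ceil.2 ((ringT_ge ω v n).trans_lt h.2)

open Classical in
theorem field_sum {θ : ℝ} {κ : ℝ → ℝ} {W : Finset V} (ω : Om V) {τ : ℝ} {M : ℕ} (hM : ⌈τ⌉₊ ≤ M) {v : V}
    (hv : v ∈ W) :
    field G θ κ W ω τ v = ∑ n ∈ Finset.range M, if before ω v n τ then jumpC G θ κ W ω v n else 0 := by
  rw [field_rec, if_pos hv]
  refine Finset.sum_subset (Finset.range_mono hM) fun n _ hn => ?_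
  have : ¬ before ω v n τ := fun h => hn (Finset.mem_range.2 (lt_ceil_of_before h))
  rw [if_neg this]

theorem field_notMem {θ : ℝ} {κ : ℝ → ℝ} {W : Finset V} (ω : Om V) (τ : ℝ) {v : V} (hv : v ∉ W) :
    field G θ κ W ω τ v = 0 := by
  rw [field_rec, if_neg hv]

/-- No ring in `[a,b)`: same fields. -/
theorem field_const {θ : ℝ} {κ : ℝ → ℝ} {W : Finset V} (ω : Om V) {a b : ℝ} (hab : a ≤ b)
    (h : ∀ v ∈ W, ∀ n, (ω.1 (v, n) : ℝ) < 1 / 2 → ¬ (a ≤ ringT ω v n ∧ ringT ω v n < b)) :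
    field G θ κ W ω a = field G θ κ W ω b := by
  classical
  funext v
  by_cases hv : v ∈ W
  · have hM : ⌈a⌉₊ ≤ ⌈b⌉₊ := Nat.ceil_mono hab
    rw [field_sum ω hM hv, field_sum ω le_rfl hv]
    refine Finset.sum_congr rfl fun n _ => ?_
    have : before ω v n a ↔ before ω v n b := by
      constructor
      · exact fun h' => ⟨h'.1, h'.2.trans_le hab⟩
      · intro h'
        refine ⟨h'.1, ?_⟩
        by_contra hc
        exact h v hv n h'.1 ⟨not_lt.1 hc, h'.2⟩
    simp only [this]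
  · rw [field_notMem ω a hv, field_notMem ω b hv]

/-- One ring in `[T,b)`: the fields at `b` are obtained from those at `T` by one step. -/
theorem field_jump {θ : ℝ} {κ : ℝ → ℝ} {W : Finset V} (ω : Om V) {z : V} {n : ℕ} {b : ℝ}
    (hz : (ω.1 (z, n) : ℝ) < 1 / 2) (hb : ringT ω z n < b)
    (h : ∀ v ∈ W, ∀ m, (ω.1 (v, m) : ℝ) < 1 / 2 → (v, m) ≠ (z, n) →
      ¬ (ringT ω z n ≤ ringT ω v m ∧ ringT ω v m < b)) :
    field G θ κ W ω b = stepW G θ (κ (ringT ω z n)) W z (ω.2 (z, n) : ℝ) (field G θ κ W ω (ringT ω z n)) := by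
  classical
  unfold stepW
  by_cases hzW : z ∈ W
  · rw [if_pos hzW]
    have hM : ⌈ringT ω z n⌉₊ ≤ ⌈b⌉₊ := Nat.ceil_mono hb.le
    have hiff : ∀ v ∈ W, ∀ m, (v, m) ≠ (z, n) → (before ω v m b ↔ before ω v m (ringT ω z n)) := by
      intro v hv m hne
      constructor
      · intro h'
        refine ⟨h'.1, ?_⟩
        by_contra hc
        exact h v hv m h'.1 hne ⟨not_lt.1 hc, h'.2⟩
      · exact fun h' => ⟨h'.1, h'.2.trans hb⟩
    funext v
    by_cases hvz : v = z
    · subst hvz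
      rw [Function.update_self, field_sum ω le_rfl hzW, field_sum ω hM hzW]
      have hn : n ∈ Finset.range ⌈b⌉₊ := Finset.mem_range.2 (lt_ceil_of_before ⟨hz, hb⟩)
      rw [← Finset.sum_erase_add _ _ hn, ← Finset.sum_erase_add (Finset.range ⌈b⌉₊)
        (fun m => if before ω v m (ringT ω v n) then jumpC G θ κ W ω v m else 0) hn]
      have e1 : before ω v n b := ⟨hz, hb⟩
      have e2 : ¬ before ω v n (ringT ω v n) := fun h' => lt_irrefl _ h'.2
      rw [if_pos e1, if_neg e2, add_zero]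
      congr 1
      refine Finset.sum_congr rfl fun m hm => ?_
      have hne : (v, m) ≠ (v, n) := fun h' => (Finset.mem_erase.1 hm).1 (Prod.ext_iff.1 h').2
      simp only [hiff v hzW m hne]
    · rw [Function.update_of_ne hvz]
      by_cases hv : v ∈ W
      · rw [field_sum ω le_rfl hv, field_sum ω hM hv]
        refine Finset.sum_congr rfl fun m _ => ?_
        have hne : (v, m) ≠ (z, n) := fun h' => hvz (Prod.ext_iff.1 h').1
        simp only [hiff v hv m hne]
      · rw [field_notMem ω _ hv, field_notMem ω _ hv]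
  · rw [if_neg hzW]
    refine (field_const ω hb.le fun v hv m hm hc => ?_).symm
    refine h v hv m hm (fun h' => hzW ?_) hc
    have e : v = z := congrArg Prod.fst h'
    exact e ▸ hv

/-! ### Locality: the fields at time `τ` only see the rings before `τ` -/

theorem fieldF_congr {θ : ℝ} {κ : ℝ → ℝ} {W : Finset V} {ω ω' : Om V} {τ : ℝ}
    (h : ∀ v n, before ω v n τ ∨ before ω' v n τ → ω.1 (v, n) = ω'.1 (v, n) ∧ ω.2 (v, n) = ω'.2 (v, n)) :
    ∀ (k : ℕ) (τ' : ℝ), τ' ≤ τ → fieldF G θ κ W ω k τ' = fieldF G θ κ W ω' k τ' := by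
  classical
  intro k
  induction k with
  | zero => intro τ' _; funext v; rfl
  | succ k ih =>
    intro τ' hτ'
    funext v
    simp only [fieldF]
    by_cases hv : v ∈ W
    · rw [if_pos hv, if_pos hv]
      refine Finset.sum_congr rfl fun n _ => ?_
      by_cases hb : before ω v n τ'
      · obtain ⟨e1, e2⟩ := h v n (Or.inl ⟨hb.1, hb.2.trans_le hτ'⟩)
        have hT : ringT ω v n = ringT ω' v n := by unfold ringT; rw [e1]
        have hb2 : before ω' v n τ' := ⟨e1 ▸ hb.1, hT ▸ hb.2⟩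
        rw [if_pos hb, if_pos hb2, hT, ih (ringT ω' v n) ((hT ▸ hb.2).le.trans hτ'), e2]
      · have hb2 : ¬ before ω' v n τ' := fun hb' => by
          obtain ⟨e1, e2⟩ := h v n (Or.inr ⟨hb'.1, hb'.2.trans_le hτ'⟩)
          have hT : ringT ω v n = ringT ω' v n := by unfold ringT; rw [e1]
          exact hb ⟨e1.symm ▸ hb'.1, hT.symm ▸ hb'.2⟩
        rw [if_neg hb, if_neg hb2]
    · rw [if_neg hv, if_neg hv]

theorem field_congr_one {θ : ℝ} {κ : ℝ → ℝ} {W : Finset V} {ω ω' : Om V} {τ : ℝ} {i : V × ℕ}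
    (hne : ∀ j, j ≠ i → ω.1 j = ω'.1 j ∧ ω.2 j = ω'.2 j)
    (h1 : ¬ before ω i.1 i.2 τ) (h2 : ¬ before ω' i.1 i.2 τ) :
    field G θ κ W ω τ = field G θ κ W ω' τ := by
  unfold field
  refine fieldF_congr (fun v n hb => ?_) _ τ le_rfl
  refine hne (v, n) fun e => ?_
  subst e
  exact hb.elim h1 h2

/-! ### Measurability -/

theorem measurable_gAvg_fields' {θ : ℝ} {W : Finset V} (f : Finset V → ℝ) :
    Measurable fun h : V → ℝ => gAvg G θ W h f := by
  unfold gAvg gZ gExp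
  refine Measurable.div ?_ ?_
  · refine Finset.measurable_sum _ fun A _ => ?_
    refine Measurable.mul (Measurable.mul measurable_const ?_) measurable_const
    refine Real.measurable_exp.comp (Finset.measurable_sum _ fun v _ => ?_)
    exact (measurable_pi_apply v).mul measurable_const
  · refine Finset.measurable_sum _ fun A _ => ?_
    refine Measurable.mul measurable_const ?_
    refine Real.measurable_exp.comp (Finset.measurable_sum _ fun v _ => ?_)
    exact (measurable_pi_apply v).mul measurable_const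

theorem measurable_gm_fields' {θ : ℝ} {W : Finset V} (v : V) :
    Measurable fun h : V → ℝ => gm G θ W h v :=
  measurable_gAvg_fields' _

theorem measurable_artanh_ : Measurable Real.artanh := by
  unfold Real.artanh
  exact Real.measurable_log.comp (Real.continuous_sqrt.measurable.comp
    ((measurable_const.add measurable_id).div (measurable_const.sub measurable_id)))

theorem measurable_stepW {θ : ℝ} {κ : ℝ → ℝ} (hκ : Measurable κ) {W : Finset V} (z : V) :
    Measurable fun q : ℝ × ℝ × (V → ℝ) => stepW G θ (κ q.1) W z q.2.1 q.2.2 := by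
  classical
  unfold stepW
  by_cases hz : z ∈ W
  · simp only [if_pos hz]
    rw [measurable_pi_iff]
    intro v
    by_cases hv : v = z
    · subst hv
      simp only [Function.update_self]
      have h1 : Measurable fun q : ℝ × ℝ × (V → ℝ) => (κ q.1, gm G θ W q.2.2 v, q.2.1) :=
        (hκ.comp measurable_fst).prodMk
          (((measurable_gm_fields' v).comp (measurable_snd.comp measurable_snd)).prodMk
            (measurable_fst.comp measurable_snd))
      have h2 := measurable_xQ.comp h1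
      exact ((measurable_pi_apply v).comp (measurable_snd.comp measurable_snd)).add
        (measurable_artanh_.comp h2)
    · simp only [Function.update_of_ne hv]
      exact (measurable_pi_apply v).comp (measurable_snd.comp measurable_snd)
  · simp only [if_neg hz]
    exact measurable_snd.comp measurable_snd

theorem measurable_ringT_ (i : V × ℕ) : Measurable fun ω : Om V => ringT ω i.1 i.2 := by
  unfold ringT
  refine measurable_const.add (measurable_const.mul ?_)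
  exact measurable_subtype_coe.comp ((measurable_pi_apply i).comp measurable_fst)

theorem measurable_label1 (i : V × ℕ) : Measurable fun ω : Om V => (ω.1 i : ℝ) :=
  measurable_subtype_coe.comp ((measurable_pi_apply i).comp measurable_fst)

theorem measurable_label2 (i : V × ℕ) : Measurable fun ω : Om V => (ω.2 i : ℝ) :=
  measurable_subtype_coe.comp ((measurable_pi_apply i).comp measurable_snd)

section Two

variable (G) (θ θ' : ℝ) (κ κ' : ℝ → ℝ) (W W' : Finset V)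

/-- The state of the two systems. -/
noncomputable def st (ω : Om V) (τ : ℝ) : (V → ℝ) × (V → ℝ) :=
  (field G θ κ W ω τ, field G θ' κ' W' ω τ)

/-- The step of the two systems. -/
noncomputable def stp (z : V) (τ u : ℝ) (s : (V → ℝ) × (V → ℝ)) : (V → ℝ) × (V → ℝ) :=
  (stepW G θ (κ τ) W z u s.1, stepW G θ' (κ' τ) W' z u s.2)

open Classical in
/-- The contribution of one ring. -/
noncomputable def J (F : (V → ℝ) × (V → ℝ) → ℝ) (τ₁ τ₂ : ℝ) (i : V × ℕ) (ω : Om V) : ℝ :=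
  if (ω.1 i : ℝ) < 1 / 2 ∧ τ₁ ≤ ringT ω i.1 i.2 ∧ ringT ω i.1 i.2 < τ₂ then
    F (stp G θ θ' κ κ' W W' i.1 (ringT ω i.1 i.2) (ω.2 i) (st G θ θ' κ κ' W W' ω (ringT ω i.1 i.2))) -
      F (st G θ θ' κ κ' W W' ω (ringT ω i.1 i.2))
  else 0

open Classical in
/-- Its upper bound. -/
noncomputable def L (X : V → ℝ → (V → ℝ) × (V → ℝ) → ℝ) (τ₁ τ₂ : ℝ) (i : V × ℕ) (ω : Om V) : ℝ :=
  if (ω.1 i : ℝ) < 1 / 2 ∧ τ₁ ≤ ringT ω i.1 i.2 ∧ ringT ω i.1 i.2 < τ₂ then
    X i.1 (ringT ω i.1 i.2) (st G θ θ' κ κ' W W' ω (ringT ω i.1 i.2))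
  else 0

end Two

/-- Pathwise telescoping. -/
theorem path_telescope {θ θ' : ℝ} {κ κ' : ℝ → ℝ} {W W' : Finset V} (F : (V → ℝ) × (V → ℝ) → ℝ) (ω : Om V)
    {τ₁ τ₂ : ℝ} (h12 : τ₁ ≤ τ₂)
    (hnt : ∀ i ∈ (W ∪ W') ×ˢ Finset.range ⌈τ₂⌉₊, ∀ j ∈ (W ∪ W') ×ˢ Finset.range ⌈τ₂⌉₊,
      (ω.1 i : ℝ) < 1 / 2 → (ω.1 j : ℝ) < 1 / 2 → ringT ω i.1 i.2 = ringT ω j.1 j.2 → i = j) :
    F (st G θ θ' κ κ' W W' ω τ₂) - F (st G θ θ' κ κ' W W' ω τ₁) =
      ∑ i ∈ (W ∪ W') ×ˢ Finset.range ⌈τ₂⌉₊, J G θ θ' κ κ' W W' F τ₁ τ₂ i ω := by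
  classical
  set R0 := (W ∪ W') ×ˢ Finset.range ⌈τ₂⌉₊ with hR0
  set R := R0.filter (fun i => (ω.1 i : ℝ) < 1 / 2) with hR
  have hmemR : ∀ v n, (v ∈ W ∨ v ∈ W') → (ω.1 (v, n) : ℝ) < 1 / 2 → ringT ω v n < τ₂ → (v, n) ∈ R := by
    intro v n hv ht hlt
    refine Finset.mem_filter.2 ⟨Finset.mem_product.2 ⟨Finset.mem_union.2 hv, Finset.mem_range.2 ?_⟩, ht⟩
    exact Nat.lt_ceil.2 ((ringT_ge ω v n).trans_lt hlt)
  have hinj : Set.InjOn (fun i : V × ℕ => ringT ω i.1 i.2) R := by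
    intro i hi j hj hij
    have hi' := Finset.mem_filter.1 (Finset.mem_coe.1 hi)
    have hj' := Finset.mem_filter.1 (Finset.mem_coe.1 hj)
    exact hnt i hi'.1 j hj'.1 hi'.2 hj'.2 hij
  have key := telescope R (fun i : V × ℕ => ringT ω i.1 i.2) hinj (st G θ θ' κ κ' W W' ω)
    (fun i s => stp G θ θ' κ κ' W W' i.1 (ringT ω i.1 i.2) (ω.2 i) s) F (τ₀ := τ₂) ?_ ?_ τ₁ τ₂ h12 le_rfl
  · rw [key, hR, Finset.filter_filter, Finset.sum_filter]
    refine Finset.sum_congr rfl fun i _ => ?_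
    unfold J
    by_cases h : (ω.1 i : ℝ) < 1 / 2 ∧ τ₁ ≤ ringT ω i.1 i.2 ∧ ringT ω i.1 i.2 < τ₂
    · rw [if_pos h]
    · rw [if_neg h]
  · intro a b hab hb hno
    refine Prod.ext (field_const ω hab fun v hv n ht hc => ?_) (field_const ω hab fun v hv n ht hc => ?_)
    · exact hno (v, n) (hmemR v n (Or.inl hv) ht (hc.2.trans_le hb)) hc
    · exact hno (v, n) (hmemR v n (Or.inr hv) ht (hc.2.trans_le hb)) hc
  · rintro ⟨z, n⟩ hi b hTb hb hno
    have hz : (ω.1 (z, n) : ℝ) < 1 / 2 := (Finset.mem_filter.1 hi).2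
    have aux : ∀ v m, (v ∈ W ∨ v ∈ W') → (ω.1 (v, m) : ℝ) < 1 / 2 → (v, m) ≠ (z, n) →
        ¬ (ringT ω z n ≤ ringT ω v m ∧ ringT ω v m < b) := by
      intro v m hv ht hne hc
      have hj := hmemR v m hv ht (hc.2.trans_le hb)
      have hne' : ringT ω z n ≠ ringT ω v m := fun e => hne (hinj hj (Finset.mem_coe.2 hi) e.symm)
      exact hno (v, m) hj ⟨lt_of_le_of_ne hc.1 hne', hc.2⟩
    exact Prod.ext (field_jump ω hz hTb fun v hv m ht hne => aux v m (Or.inl hv) ht hne)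
      (field_jump ω hz hTb fun v hv m ht hne => aux v m (Or.inr hv) ht hne)

/-! ### No ties -/

theorem map_update_lam' {I : Type*} [DecidableEq I] (i₀ : I) :
    ((lam I).prod (volume : Measure Lab)).map (fun p => Function.update p.1 i₀ p.2) = lam I :=
  Crest.Agent.Lib.SRF.map_update_lam i₀

theorem ae_ne_lam {I : Type*} [DecidableEq I] {i j : I} (hij : i ≠ j) : ∀ᵐ x ∂(lam I), x i ≠ x j := by
  have hm : MeasurableSet {x : I → Lab | x i = x j} :=
    measurableSet_eq_fun (measurable_pi_apply i) (measurable_pi_apply j)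
  rw [ae_iff]
  simp only [ne_eq, not_not]
  rw [← map_update_lam' i, Measure.map_apply (Crest.Agent.Lib.SRF.measurable_update_pair i) hm,
    Measure.measure_prod_null ((Crest.Agent.Lib.SRF.measurable_update_pair i) hm)]
  refine Eventually.of_forall fun x => ?_
  have : Prod.mk x ⁻¹' ((fun p : (I → Lab) × Lab => Function.update p.1 i p.2) ⁻¹' {x | x i = x j}) = {x j} := by
    ext a
    simp [Function.update_of_ne hij.symm]
  simp only [Pi.zero_apply]
  rw [this]
  exact measure_singleton _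

theorem ae_noTies (Z : Finset V) (M : ℕ) : ∀ᵐ ω ∂(PP V), ∀ i ∈ Z ×ˢ Finset.range M, ∀ j ∈ Z ×ˢ Finset.range M,
    (ω.1 i : ℝ) < 1 / 2 → (ω.1 j : ℝ) < 1 / 2 → ringT ω i.1 i.2 = ringT ω j.1 j.2 → i = j := by
  have h0 : ∀ᵐ x ∂(lam (V × ℕ)), ∀ i ∈ Z ×ˢ Finset.range M, ∀ j ∈ Z ×ˢ Finset.range M, i ≠ j → x i ≠ x j := by
    refine (Filter.eventually_all_finset _).2 fun i _ => (Filter.eventually_all_finset _).2 fun j _ => ?_
    by_cases hij : i = j
    · exact Eventually.of_forall fun x h => absurd hij h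
    · filter_upwards [ae_ne_lam hij] with x hx _ using hx
  have h1 := (Measure.quasiMeasurePreserving_fst (μ := lam (V × ℕ)) (ν := lam (V × ℕ))).ae h0
  filter_upwards [h1] with ω hω i hi j hj hti htj hT
  by_contra hne
  have hlab := hω i hi j hj hne
  apply hlab
  obtain ⟨z, n⟩ := i
  obtain ⟨z', n'⟩ := j
  simp only [ringT] at hT hti htj
  have h3 := (ω.1 (z, n)).2.1
  have h4 := (ω.1 (z', n')).2.1
  have hnn : n = n' := by
    have h5 : (n : ℝ) < n' + 1 := by linarith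
    have h6 : (n' : ℝ) < n + 1 := by linarith
    have h7 : n < n' + 1 := by exact_mod_cast h5
    have h8 : n' < n + 1 := by exact_mod_cast h6
    omega
  subst hnn
  have : (ω.1 (z, n) : ℝ) = (ω.1 (z', n) : ℝ) := by linarith
  exact Subtype.ext this

/-! ### Resampling -/

theorem integrable_bdd {α : Type*} [MeasurableSpace α] {μ : Measure α} [IsFiniteMeasure μ] {f : α → ℝ}
    (hf : Measurable f) {C : ℝ} (hb : ∀ x, |f x| ≤ C) : Integrable f μ :=
  Integrable.of_bound hf.aestronglyMeasurable C (Eventually.of_forall fun x => by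
    rw [Real.norm_eq_abs]; exact hb x)

theorem abs_integral_le_bdd {α : Type*} [MeasurableSpace α] {μ : Measure α} [IsProbabilityMeasure μ] {f : α → ℝ}
    {C : ℝ} (hb : ∀ x, |f x| ≤ C) : |∫ x, f x ∂μ| ≤ C := by
  have := norm_integral_le_of_norm_le_const (μ := μ) (f := f) (C := C)
    (Eventually.of_forall fun x => by rw [Real.norm_eq_abs]; exact hb x)
  simpa [Real.norm_eq_abs] using this

instance instProbLam' (I : Type*) : IsProbabilityMeasure (lam I) := by
  unfold lam Crest.ProbabilityR.Labels.labelMeasure; infer_instance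

instance instProbPP' (V : Type*) : IsProbabilityMeasure (PP V) := by
  unfold PP; infer_instance

theorem measurable_integral_snd {α β : Type*} [MeasurableSpace α] [MeasurableSpace β] {ν : Measure β} [SFinite ν]
    {f : α × β → ℝ} (hf : Measurable f) : Measurable fun a => ∫ b, f (a, b) ∂ν :=
  hf.stronglyMeasurable.integral_prod_right'.measurable

theorem integral_update_lam {I : Type*} [DecidableEq I] (i : I) {f : (I → Lab) → ℝ} (hf : Measurable f) {C : ℝ}
    (hb : ∀ x, |f x| ≤ C) :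
    ∫ x, f x ∂(lam I) = ∫ x, (∫ a : Lab, f (Function.update x i a)) ∂(lam I) := by
  have hm := Crest.Agent.Lib.SRF.measurable_update_pair i
  conv_lhs => rw [← map_update_lam' i]
  rw [integral_map hm.aemeasurable hf.aestronglyMeasurable]
  exact integral_prod (fun p : (I → Lab) × Lab => f (Function.update p.1 i p.2))
    (integrable_bdd (hf.comp hm) fun p => hb _)

/-- Resampling the noise of a ring. -/
theorem integral_resample_U (i : V × ℕ) {f : Om V → ℝ} (hf : Measurable f) {C : ℝ} (hb : ∀ x, |f x| ≤ C) :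
    ∫ ω, f ω ∂(PP V) = ∫ ω, (∫ b : Lab, f (ω.1, Function.update ω.2 i b)) ∂(PP V) := by
  have hm : Measurable fun p : Om V × Lab => f (p.1.1, Function.update p.1.2 i p.2) :=
    hf.comp ((measurable_fst.comp measurable_fst).prodMk
      ((Crest.Agent.Lib.SRF.measurable_update_pair i).comp
        ((measurable_snd.comp measurable_fst).prodMk measurable_snd)))
  have hm2 : Measurable fun ω : Om V => ∫ b : Lab, f (ω.1, Function.update ω.2 i b) :=
    measurable_integral_snd (f := fun p : Om V × Lab => f (p.1.1, Function.update p.1.2 i p.2)) hm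
  rw [integral_prod f (integrable_bdd hf hb),
    integral_prod (fun ω : Om V => ∫ b : Lab, f (ω.1, Function.update ω.2 i b))
      (integrable_bdd hm2 fun ω => abs_integral_le_bdd fun b => hb _)]
  refine integral_congr_ae (Eventually.of_forall fun x => ?_)
  exact integral_update_lam i (f := fun y => f (x, y)) (hf.comp (measurable_const.prodMk measurable_id))
    fun y => hb _

/-- Resampling the time of a ring. -/
theorem integral_resample_t (i : V × ℕ) {f : Om V → ℝ} (hf : Measurable f) {C : ℝ} (hb : ∀ x, |f x| ≤ C) :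
    ∫ ω, f ω ∂(PP V) = ∫ ω, (∫ a : Lab, f (Function.update ω.1 i a, ω.2)) ∂(PP V) := by
  have hm : Measurable fun p : Om V × Lab => f (Function.update p.1.1 i p.2, p.1.2) :=
    hf.comp (((Crest.Agent.Lib.SRF.measurable_update_pair i).comp
        ((measurable_fst.comp measurable_fst).prodMk measurable_snd)).prodMk
      (measurable_snd.comp measurable_fst))
  have hm2 : Measurable fun ω : Om V => ∫ a : Lab, f (Function.update ω.1 i a, ω.2) :=
    measurable_integral_snd (f := fun p : Om V × Lab => f (Function.update p.1.1 i p.2, p.1.2)) hm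
  rw [integral_prod_symm f (integrable_bdd hf hb),
    integral_prod_symm (fun ω : Om V => ∫ a : Lab, f (Function.update ω.1 i a, ω.2))
      (integrable_bdd hm2 fun ω => abs_integral_le_bdd fun b => hb _)]
  refine integral_congr_ae (Eventually.of_forall fun y => ?_)
  exact integral_update_lam i (f := fun x => f (x, y)) (hf.comp (measurable_id.prodMk measurable_const))
    fun x => hb _

/-! ### Integrals over `Lab` -/

theorem integral_Lab (φ : ℝ → ℝ) : ∫ a : Lab, φ (a : ℝ) = ∫ x in Icc (0 : ℝ) 1, φ x :=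
  integral_subtype_comap measurableSet_Icc φ

theorem integral_Lab_half (c : ℝ) : ∫ a : Lab, (if (1 / 2 : ℝ) ≤ (a : ℝ) then c else 0) = c / 2 := by
  classical
  have := integral_Lab (fun x => (Ici (1 / 2 : ℝ)).indicator (fun _ => c) x)
  have e : ∀ a : Lab, (if (1 / 2 : ℝ) ≤ (a : ℝ) then c else 0) =
      (Ici (1 / 2 : ℝ)).indicator (fun _ => c) (a : ℝ) := fun a => by
    simp [Set.indicator_apply]
  simp_rw [e]
  rw [this, setIntegral_indicator measurableSet_Ici]
  have hs : Icc (0 : ℝ) 1 ∩ Ici (1 / 2) = Icc (1 / 2) 1 := by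
    ext x
    simp only [mem_inter_iff, mem_Icc, mem_Ici]
    constructor
    · rintro ⟨⟨_, h⟩, h'⟩
      exact ⟨h', h⟩
    · rintro ⟨h, h'⟩
      exact ⟨⟨by linarith, h'⟩, h⟩
  rw [hs, setIntegral_const]
  simp only [Measure.real, Real.volume_Icc, smul_eq_mul]
  rw [ENNReal.toReal_ofReal (by norm_num)]
  ring

theorem integral_Lab_change (g : ℝ → ℝ) (n : ℕ) :
    ∫ a : Lab, (if (a : ℝ) < 1 / 2 then 2 * g (n + 2 * (a : ℝ)) else 0) = ∫ y in (n : ℝ)..(n + 1), g y := by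
  classical
  have := integral_Lab (fun x => (Iio (1 / 2 : ℝ)).indicator (fun x => 2 * g (n + 2 * x)) x)
  have e : ∀ a : Lab, (if (a : ℝ) < 1 / 2 then 2 * g (n + 2 * (a : ℝ)) else 0) =
      (Iio (1 / 2 : ℝ)).indicator (fun x => 2 * g (n + 2 * x)) (a : ℝ) := fun a => by
    simp [Set.indicator_apply]
  simp_rw [e]
  rw [this, setIntegral_indicator measurableSet_Iio]
  have hs : Icc (0 : ℝ) 1 ∩ Iio (1 / 2) = Ico 0 (1 / 2) := by
    ext x
    simp only [mem_inter_iff, mem_Icc, mem_Iio, mem_Ico]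
    constructor
    · rintro ⟨⟨h, _⟩, h'⟩
      exact ⟨h, h'⟩
    · rintro ⟨h, h'⟩
      exact ⟨⟨h, by linarith⟩, h'⟩
  rw [hs, integral_Ico_eq_integral_Ioc, ← intervalIntegral.integral_of_le (by norm_num),
    intervalIntegral.integral_const_mul]
  have := intervalIntegral.mul_integral_comp_mul_add (a := (0 : ℝ)) (b := 1 / 2) (f := g) (c := 2) (d := n)
  have e2 : (2 : ℝ) * 0 + n = n := by ring
  have e3 : (2 : ℝ) * (1 / 2) + n = n + 1 := by ring
  rw [e2, e3] at this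
  rw [← this]
  congr 1
  refine intervalIntegral.integral_congr fun x _ => ?_
  rw [add_comm]

/-! ### One ring -/

section OneRing

variable {θ θ' : ℝ} {κ κ' : ℝ → ℝ} {W W' : Finset V}

theorem measurable_st (hκ : Measurable κ) (hκ' : Measurable κ') :
    Measurable fun p : ℝ × Om V => st G θ θ' κ κ' W W' p.2 p.1 :=
  (measurable_pi_iff.2 fun v => measurable_field hκ v).prodMk
    (measurable_pi_iff.2 fun v => measurable_field hκ' v)

theorem measurable_stp (hκ : Measurable κ) (hκ' : Measurable κ') (z : V) :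
    Measurable fun q : ℝ × ℝ × (V → ℝ) × (V → ℝ) => stp G θ θ' κ κ' W W' z q.1 q.2.1 q.2.2 := by
  have h1 : Measurable fun q : ℝ × ℝ × (V → ℝ) × (V → ℝ) => (q.1, q.2.1, q.2.2.1) :=
    measurable_fst.prodMk ((measurable_fst.comp measurable_snd).prodMk
      (measurable_fst.comp (measurable_snd.comp measurable_snd)))
  have h2 : Measurable fun q : ℝ × ℝ × (V → ℝ) × (V → ℝ) => (q.1, q.2.1, q.2.2.2) :=
    measurable_fst.prodMk ((measurable_fst.comp measurable_snd).prodMk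
      (measurable_snd.comp (measurable_snd.comp measurable_snd)))
  exact ((measurable_stepW hκ z).comp h1).prodMk ((measurable_stepW hκ' z).comp h2)

theorem measurableSet_cond (τ₁ τ₂ : ℝ) (i : V × ℕ) :
    MeasurableSet {ω : Om V | (ω.1 i : ℝ) < 1 / 2 ∧ τ₁ ≤ ringT ω i.1 i.2 ∧ ringT ω i.1 i.2 < τ₂} :=
  (measurableSet_lt (measurable_label1 i) measurable_const).inter
    ((measurableSet_le measurable_const (measurable_ringT_ i)).inter
      (measurableSet_lt (measurable_ringT_ i) measurable_const))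

theorem measurable_st_ringT (hκ : Measurable κ) (hκ' : Measurable κ') (i : V × ℕ) :
    Measurable fun ω : Om V => st G θ θ' κ κ' W W' ω (ringT ω i.1 i.2) := by
  have h := measurable_st (G := G) (θ := θ) (θ' := θ') (W := W) (W' := W') hκ hκ'
  have h2 : Measurable fun ω : Om V => (ringT ω i.1 i.2, ω) := (measurable_ringT_ i).prodMk measurable_id
  have h3 := h.comp h2
  exact h3

theorem measurable_J {F : (V → ℝ) × (V → ℝ) → ℝ} (hF : Measurable F) (hκ : Measurable κ) (hκ' : Measurable κ')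
    (τ₁ τ₂ : ℝ) (i : V × ℕ) : Measurable (J G θ θ' κ κ' W W' F τ₁ τ₂ i) := by
  classical
  unfold J
  refine Measurable.ite (measurableSet_cond τ₁ τ₂ i) ?_ measurable_const
  have hs := measurable_st_ringT (G := G) (θ := θ) (θ' := θ') (W := W) (W' := W') hκ hκ' i
  have h4 : Measurable fun ω : Om V => (ringT ω i.1 i.2, (ω.2 i : ℝ), st G θ θ' κ κ' W W' ω (ringT ω i.1 i.2)) :=
    (measurable_ringT_ i).prodMk ((measurable_label2 i).prodMk hs)
  have h5 := (measurable_stp (G := G) (θ := θ) (θ' := θ') (W := W) (W' := W') hκ hκ' i.1).comp h4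
  exact (hF.comp h5).sub (hF.comp hs)

theorem measurable_L {X : V → ℝ → (V → ℝ) × (V → ℝ) → ℝ}
    (hX : ∀ z, Measurable fun p : ℝ × (V → ℝ) × (V → ℝ) => X z p.1 p.2) (hκ : Measurable κ) (hκ' : Measurable κ')
    (τ₁ τ₂ : ℝ) (i : V × ℕ) : Measurable (L G θ θ' κ κ' W W' X τ₁ τ₂ i) := by
  classical
  unfold L
  refine Measurable.ite (measurableSet_cond τ₁ τ₂ i) ?_ measurable_const
  have hs := measurable_st_ringT (G := G) (θ := θ) (θ' := θ') (W := W) (W' := W') hκ hκ' i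
  have h4 : Measurable fun ω : Om V => (ringT ω i.1 i.2, st G θ θ' κ κ' W W' ω (ringT ω i.1 i.2)) :=
    (measurable_ringT_ i).prodMk hs
  exact (hX i.1).comp h4

theorem abs_J_le {F : (V → ℝ) × (V → ℝ) → ℝ} {C : ℝ} (hC : ∀ s, |F s| ≤ C) (τ₁ τ₂ : ℝ) (i : V × ℕ) (ω : Om V) :
    |J G θ θ' κ κ' W W' F τ₁ τ₂ i ω| ≤ 2 * C := by
  classical
  unfold J
  have hC0 : 0 ≤ C := (abs_nonneg _).trans (hC (0, 0))
  split_ifs
  · refine (abs_sub _ _).trans ?_
    linarith [hC (stp G θ θ' κ κ' W W' i.1 (ringT ω i.1 i.2) (ω.2 i) (st G θ θ' κ κ' W W' ω (ringT ω i.1 i.2))),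
      hC (st G θ θ' κ κ' W W' ω (ringT ω i.1 i.2))]
  · simpa using hC0

theorem L_bounds {X : V → ℝ → (V → ℝ) × (V → ℝ) → ℝ} {C : ℝ} (hC : ∀ z τ s, 0 ≤ X z τ s ∧ X z τ s ≤ C)
    (τ₁ τ₂ : ℝ) (i : V × ℕ) (ω : Om V) :
    0 ≤ L G θ θ' κ κ' W W' X τ₁ τ₂ i ω ∧ L G θ θ' κ κ' W W' X τ₁ τ₂ i ω ≤ C := by
  classical
  unfold L
  have hC0 : 0 ≤ C := (hC i.1 0 (0, 0)).1.trans (hC i.1 0 (0, 0)).2
  split_ifs
  · exact hC _ _ _
  · exact ⟨le_rfl, hC0⟩

/-- The noise of a ring is independent of the state it sees: the mean of `J` is at most that of `L`. -/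
theorem integral_J_le_L {F : (V → ℝ) × (V → ℝ) → ℝ} (hF : Measurable F) {CF : ℝ} (hCF : ∀ s, |F s| ≤ CF)
    {X : V → ℝ → (V → ℝ) × (V → ℝ) → ℝ}
    (hX : ∀ z, Measurable fun p : ℝ × (V → ℝ) × (V → ℝ) => X z p.1 p.2) {CX : ℝ}
    (hCX : ∀ z τ s, 0 ≤ X z τ s ∧ X z τ s ≤ CX) (hκ : Measurable κ) (hκ' : Measurable κ') {τ₁ τ₂ : ℝ}
    {i : V × ℕ} (hi : i.1 ∈ W ∪ W')
    (hstep : ∀ z ∈ W ∪ W', ∀ τ ∈ Icc τ₁ τ₂, ∀ s : (V → ℝ) × (V → ℝ),
      (∫ u : Lab, F (stepW G θ (κ τ) W z (u : ℝ) s.1, stepW G θ' (κ' τ) W' z (u : ℝ) s.2)) - F s ≤ X z τ s) :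
    ∫ ω, J G θ θ' κ κ' W W' F τ₁ τ₂ i ω ∂(PP V) ≤ ∫ ω, L G θ θ' κ κ' W W' X τ₁ τ₂ i ω ∂(PP V) := by
  classical
  have hmJ := measurable_J (G := G) (θ := θ) (θ' := θ') (W := W) (W' := W') hF hκ hκ' τ₁ τ₂ i
  have hbJ := abs_J_le (G := G) (θ := θ) (θ' := θ') (κ := κ) (κ' := κ') (W := W) (W' := W') hCF τ₁ τ₂ i
  have hmL := measurable_L (G := G) (θ := θ) (θ' := θ') (W := W) (W' := W') hX hκ hκ' τ₁ τ₂ i
  have hbL := L_bounds (G := G) (θ := θ) (θ' := θ') (κ := κ) (κ' := κ') (W := W) (W' := W') hCX τ₁ τ₂ i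
  rw [integral_resample_U i hmJ hbJ]
  have hm3 : Measurable fun p : Om V × Lab =>
      J G θ θ' κ κ' W W' F τ₁ τ₂ i (p.1.1, Function.update p.1.2 i p.2) :=
    hmJ.comp ((measurable_fst.comp measurable_fst).prodMk
      ((Crest.Agent.Lib.SRF.measurable_update_pair i).comp
        ((measurable_snd.comp measurable_fst).prodMk measurable_snd)))
  refine integral_mono (integrable_bdd (C := 2 * CF) (measurable_integral_snd
    (f := fun p : Om V × Lab => J G θ θ' κ κ' W W' F τ₁ τ₂ i (p.1.1, Function.update p.1.2 i p.2)) hm3)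
    fun ω => abs_integral_le_bdd fun b => hbJ _)
    (integrable_bdd (C := CX) hmL fun ω => by
      rw [abs_of_nonneg (hbL ω).1]; exact (hbL ω).2) fun ω => ?_
  by_cases hc : (ω.1 i : ℝ) < 1 / 2 ∧ τ₁ ≤ ringT ω i.1 i.2 ∧ ringT ω i.1 i.2 < τ₂
  · set T := ringT ω i.1 i.2 with hT
    have hLv : L G θ θ' κ κ' W W' X τ₁ τ₂ i ω = X i.1 T (st G θ θ' κ κ' W W' ω T) := if_pos hc
    have hs : ∀ b : Lab, st G θ θ' κ κ' W W' (ω.1, Function.update ω.2 i b) T = st G θ θ' κ κ' W W' ω T := by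
      intro b
      have hne : ∀ j, j ≠ i → ((ω.1, Function.update ω.2 i b) : Om V).1 j = ω.1 j ∧
          ((ω.1, Function.update ω.2 i b) : Om V).2 j = ω.2 j := fun j hj =>
        ⟨rfl, Function.update_of_ne hj _ _⟩
      have h1 : ¬ before ((ω.1, Function.update ω.2 i b) : Om V) i.1 i.2 T := fun h => lt_irrefl _ h.2
      have h2 : ¬ before ω i.1 i.2 T := fun h => lt_irrefl _ h.2
      exact Prod.ext (field_congr_one hne h1 h2) (field_congr_one hne h1 h2)
    have e : ∀ b : Lab, J G θ θ' κ κ' W W' F τ₁ τ₂ i (ω.1, Function.update ω.2 i b) =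
        F (stp G θ θ' κ κ' W W' i.1 T (b : ℝ) (st G θ θ' κ κ' W W' ω T)) - F (st G θ θ' κ κ' W W' ω T) := by
      intro b
      have h0 : J G θ θ' κ κ' W W' F τ₁ τ₂ i (ω.1, Function.update ω.2 i b) =
          F (stp G θ θ' κ κ' W W' i.1 T ((Function.update ω.2 i b) i : ℝ)
              (st G θ θ' κ κ' W W' (ω.1, Function.update ω.2 i b) T)) -
            F (st G θ θ' κ κ' W W' (ω.1, Function.update ω.2 i b) T) := if_pos hc
      rw [h0, hs b, Function.update_self]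
    simp_rw [e]
    rw [hLv]
    have hm4 : Measurable fun b : Lab => F (stp G θ θ' κ κ' W W' i.1 T (b : ℝ) (st G θ θ' κ κ' W W' ω T)) := by
      have h5 : Measurable fun b : Lab => (T, (b : ℝ), st G θ θ' κ κ' W W' ω T) :=
        measurable_const.prodMk (measurable_subtype_coe.prodMk measurable_const)
      have h6 := (measurable_stp (G := G) (θ := θ) (θ' := θ') (W := W) (W' := W') hκ hκ' i.1).comp h5
      exact hF.comp h6
    rw [integral_sub (integrable_bdd hm4 fun b => hCF _) (integrable_const _), integral_const]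
    have := hstep i.1 hi T ⟨hc.2.1, hc.2.2.le⟩ (st G θ θ' κ κ' W W' ω T)
    simpa [stp] using this
  · have e : ∀ b : Lab, J G θ θ' κ κ' W W' F τ₁ τ₂ i (ω.1, Function.update ω.2 i b) = 0 := fun b => if_neg hc
    simp_rw [e]
    have hLv : L G θ θ' κ κ' W W' X τ₁ τ₂ i ω = 0 := if_neg hc
    rw [hLv, integral_zero]

/-- The system with the time of a ring erased. -/
def er (i : V × ℕ) (ω : Om V) : Om V := (Function.update ω.1 i 1, ω.2)

theorem measurable_er (i : V × ℕ) : Measurable (er i : Om V → Om V) :=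
  ((Crest.Agent.Lib.SRF.measurable_update_pair i).comp (measurable_fst.prodMk measurable_const)).prodMk measurable_snd

/-- The rest of the system does not see the time of a ring which did not happen yet. -/
theorem st_update_er {i : V × ℕ} (ω : Om V) {a : Lab} {τ : ℝ}
    (h : ¬ ((a : ℝ) < 1 / 2 ∧ (i.2 : ℝ) + 2 * (a : ℝ) < τ)) :
    st G θ θ' κ κ' W W' (Function.update ω.1 i a, ω.2) τ = st G θ θ' κ κ' W W' (er i ω) τ := by
  have hne : ∀ j, j ≠ i → ((Function.update ω.1 i a, ω.2) : Om V).1 j = (er i ω).1 j ∧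
      ((Function.update ω.1 i a, ω.2) : Om V).2 j = (er i ω).2 j := fun j hj =>
    ⟨by simp [er, Function.update_of_ne hj], rfl⟩
  have h1 : ¬ before ((Function.update ω.1 i a, ω.2) : Om V) i.1 i.2 τ := by
    intro hb
    refine h ⟨?_, ?_⟩
    · have := hb.1
      simpa using this
    · have := hb.2
      simpa [ringT] using this
  have h2 : ¬ before (er i ω) i.1 i.2 τ := by
    intro hb
    have := hb.1
    simp [er] at this
    linarith
  exact Prod.ext (field_congr_one hne h1 h2) (field_congr_one hne h1 h2)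

/-- Expectations with the ring erased. -/
noncomputable def HH (X : V → ℝ → (V → ℝ) × (V → ℝ) → ℝ) (G : SimpleGraph V) (θ θ' : ℝ) (κ κ' : ℝ → ℝ) (W W' : Finset V) (i : V × ℕ) (τ : ℝ) : ℝ :=
  ∫ ω, X i.1 τ (st G θ θ' κ κ' W W' (er i ω) τ) ∂(PP V)

/-- Expectations. -/
noncomputable def EX (X : V → ℝ → (V → ℝ) × (V → ℝ) → ℝ) (G : SimpleGraph V) (θ θ' : ℝ) (κ κ' : ℝ → ℝ) (W W' : Finset V) (z : V) (τ : ℝ) : ℝ :=
  ∫ ω, X z τ (st G θ θ' κ κ' W W' ω τ) ∂(PP V)

theorem measurable_Q {X : V → ℝ → (V → ℝ) × (V → ℝ) → ℝ}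
    (hX : ∀ z, Measurable fun p : ℝ × (V → ℝ) × (V → ℝ) => X z p.1 p.2) (hκ : Measurable κ) (hκ' : Measurable κ')
    (z : V) : Measurable fun p : ℝ × Om V => X z p.1 (st G θ θ' κ κ' W W' p.2 p.1) :=
  (hX z).comp (measurable_fst.prodMk (measurable_st hκ hκ'))

theorem measurable_Qer {X : V → ℝ → (V → ℝ) × (V → ℝ) → ℝ}
    (hX : ∀ z, Measurable fun p : ℝ × (V → ℝ) × (V → ℝ) => X z p.1 p.2) (hκ : Measurable κ) (hκ' : Measurable κ')
    (i : V × ℕ) : Measurable fun p : ℝ × Om V => X i.1 p.1 (st G θ θ' κ κ' W W' (er i p.2) p.1) := by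
  have h := measurable_Q (G := G) (θ := θ) (θ' := θ') (W := W) (W' := W') hX hκ hκ' i.1
  have h2 : Measurable fun p : ℝ × Om V => (p.1, er i p.2) :=
    measurable_fst.prodMk ((measurable_er i).comp measurable_snd)
  have h3 := h.comp h2
  exact h3

theorem measurable_HH {X : V → ℝ → (V → ℝ) × (V → ℝ) → ℝ}
    (hX : ∀ z, Measurable fun p : ℝ × (V → ℝ) × (V → ℝ) => X z p.1 p.2) (hκ : Measurable κ) (hκ' : Measurable κ')
    (i : V × ℕ) : Measurable (HH X G θ θ' κ κ' W W' i) :=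
  measurable_integral_snd (f := fun p : ℝ × Om V => X i.1 p.1 (st G θ θ' κ κ' W W' (er i p.2) p.1))
    (measurable_Qer hX hκ hκ' i)

theorem measurable_EX {X : V → ℝ → (V → ℝ) × (V → ℝ) → ℝ}
    (hX : ∀ z, Measurable fun p : ℝ × (V → ℝ) × (V → ℝ) => X z p.1 p.2) (hκ : Measurable κ) (hκ' : Measurable κ')
    (z : V) : Measurable (EX X G θ θ' κ κ' W W' z) :=
  measurable_integral_snd (f := fun p : ℝ × Om V => X z p.1 (st G θ θ' κ κ' W W' p.2 p.1))
    (measurable_Q hX hκ hκ' z)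

/-- The hole factor: the state with the ring `i` erased is the true state with probability `1/2`. -/
theorem HH_le {X : V → ℝ → (V → ℝ) × (V → ℝ) → ℝ}
    (hX : ∀ z, Measurable fun p : ℝ × (V → ℝ) × (V → ℝ) => X z p.1 p.2) {CX : ℝ}
    (hCX : ∀ z τ s, 0 ≤ X z τ s ∧ X z τ s ≤ CX) (hκ : Measurable κ) (hκ' : Measurable κ')
    (i : V × ℕ) (τ : ℝ) :
    HH X G θ θ' κ κ' W W' i τ ≤ 2 * EX X G θ θ' κ κ' W W' i.1 τ := by
  classical
  have hC0 : 0 ≤ CX := (hCX i.1 0 (0, 0)).1.trans (hCX i.1 0 (0, 0)).2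
  have hm1 : Measurable fun ω : Om V => X i.1 τ (st G θ θ' κ κ' W W' ω τ) := by
    have h := measurable_Q (G := G) (θ := θ) (θ' := θ') (W := W) (W' := W') hX hκ hκ' i.1
    have h2 : Measurable fun ω : Om V => (τ, ω) := measurable_const.prodMk measurable_id
    have h3 := h.comp h2
    exact h3
  have hm2 : Measurable fun ω : Om V => X i.1 τ (st G θ θ' κ κ' W W' (er i ω) τ) := by
    have h3 := hm1.comp (measurable_er i)
    exact h3
  have hb1 : ∀ ω : Om V, |X i.1 τ (st G θ θ' κ κ' W W' ω τ)| ≤ CX := fun ω => by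
    rw [abs_of_nonneg (hCX _ _ _).1]; exact (hCX _ _ _).2
  have hb2 : ∀ ω : Om V, |X i.1 τ (st G θ θ' κ κ' W W' (er i ω) τ)| ≤ CX := fun ω => hb1 _
  have key : ∫ ω, X i.1 τ (st G θ θ' κ κ' W W' (er i ω) τ) / 2 ∂(PP V) ≤
      ∫ ω, (∫ a : Lab, X i.1 τ (st G θ θ' κ κ' W W' (Function.update ω.1 i a, ω.2) τ)) ∂(PP V) := by
    have hm3 : Measurable fun p : Om V × Lab => X i.1 τ (st G θ θ' κ κ' W W' (Function.update p.1.1 i p.2, p.1.2) τ) :=
      hm1.comp (((Crest.Agent.Lib.SRF.measurable_update_pair i).comp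
          ((measurable_fst.comp measurable_fst).prodMk measurable_snd)).prodMk
        (measurable_snd.comp measurable_fst))
    refine integral_mono (integrable_bdd (C := CX) (hm2.div_const 2) fun ω => ?_)
      (integrable_bdd (C := CX) (measurable_integral_snd
        (f := fun p : Om V × Lab => X i.1 τ (st G θ θ' κ κ' W W' (Function.update p.1.1 i p.2, p.1.2) τ)) hm3)
        fun ω => abs_integral_le_bdd fun a => hb1 _) fun ω => ?_
    · rw [abs_div, abs_of_pos (by norm_num : (0 : ℝ) < 2)]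
      have := hb2 ω
      have h0 := abs_nonneg (X i.1 τ (st G θ θ' κ κ' W W' (er i ω) τ))
      linarith
    · show X i.1 τ (st G θ θ' κ κ' W W' (er i ω) τ) / 2 ≤ _
      rw [← integral_Lab_half]
      refine integral_mono (integrable_bdd (C := CX) ?_ fun a => ?_) (integrable_bdd (C := CX) ?_ fun a => hb1 _)
        fun a => ?_
      · exact Measurable.ite (measurableSet_le measurable_const measurable_subtype_coe) measurable_const
          measurable_const
      · split_ifs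
        · exact hb2 ω
        · simpa using hC0
      · have h5 : Measurable fun a : Lab => ((ω, a) : Om V × Lab) := measurable_const.prodMk measurable_id
        have h6 := hm3.comp h5
        exact h6
      · show (if (1 / 2 : ℝ) ≤ (a : ℝ) then _ else 0) ≤ _
        split_ifs with ha
        · rw [st_update_er (G := G) (θ := θ) (θ' := θ') (κ := κ) (κ' := κ') (W := W) (W' := W') ω
            (a := a) (τ := τ) (fun h => absurd h.1 (not_lt.2 ha))]
        · exact (hCX _ _ _).1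
  rw [← integral_resample_t i hm1 hb1, integral_div] at key
  have e1 : HH X G θ θ' κ κ' W W' i τ = ∫ ω, X i.1 τ (st G θ θ' κ κ' W W' (er i ω) τ) ∂(PP V) := rfl
  have e2 : EX X G θ θ' κ κ' W W' i.1 τ = ∫ ω, X i.1 τ (st G θ θ' κ κ' W W' ω τ) ∂(PP V) := rfl
  rw [e1, e2]
  linarith

/-- The mean of `L`: the time of the ring is uniform and independent of the state with the ring erased. -/
theorem integral_L_eq {X : V → ℝ → (V → ℝ) × (V → ℝ) → ℝ}
    (hX : ∀ z, Measurable fun p : ℝ × (V → ℝ) × (V → ℝ) => X z p.1 p.2) {CX : ℝ}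
    (hCX : ∀ z τ s, 0 ≤ X z τ s ∧ X z τ s ≤ CX) (hκ : Measurable κ) (hκ' : Measurable κ') (τ₁ τ₂ : ℝ)
    (i : V × ℕ) :
    ∫ ω, L G θ θ' κ κ' W W' X τ₁ τ₂ i ω ∂(PP V) =
      ∫ a : Lab, (if (a : ℝ) < 1 / 2 ∧ τ₁ ≤ (i.2 : ℝ) + 2 * (a : ℝ) ∧ (i.2 : ℝ) + 2 * (a : ℝ) < τ₂ then
        HH X G θ θ' κ κ' W W' i ((i.2 : ℝ) + 2 * (a : ℝ)) else 0) := by
  classical
  have hC0 : 0 ≤ CX := (hCX i.1 0 (0, 0)).1.trans (hCX i.1 0 (0, 0)).2
  have hmL := measurable_L (G := G) (θ := θ) (θ' := θ') (W := W) (W' := W') hX hκ hκ' τ₁ τ₂ i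
  have hbL := L_bounds (G := G) (θ := θ) (θ' := θ') (κ := κ) (κ' := κ') (W := W) (W' := W') hCX τ₁ τ₂ i
  rw [integral_resample_t i hmL (C := CX) fun ω => by
    rw [abs_of_nonneg (hbL ω).1]; exact (hbL ω).2]
  set Y : Om V → Lab → ℝ := fun ω a =>
    if (a : ℝ) < 1 / 2 ∧ τ₁ ≤ (i.2 : ℝ) + 2 * (a : ℝ) ∧ (i.2 : ℝ) + 2 * (a : ℝ) < τ₂ then
      X i.1 ((i.2 : ℝ) + 2 * (a : ℝ)) (st G θ θ' κ κ' W W' (er i ω) ((i.2 : ℝ) + 2 * (a : ℝ))) else 0 with hY
  have e : ∀ (ω : Om V) (a : Lab), L G θ θ' κ κ' W W' X τ₁ τ₂ i (Function.update ω.1 i a, ω.2) = Y ω a := by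
    intro ω a
    have hlab : ((Function.update ω.1 i a, ω.2) : Om V).1 i = a := Function.update_self _ _ _
    have hT : ringT ((Function.update ω.1 i a, ω.2) : Om V) i.1 i.2 = (i.2 : ℝ) + 2 * (a : ℝ) := by
      show (i.2 : ℝ) + 2 * ((Function.update ω.1 i a i : Lab) : ℝ) = _
      rw [Function.update_self]
    by_cases hc : (a : ℝ) < 1 / 2 ∧ τ₁ ≤ (i.2 : ℝ) + 2 * (a : ℝ) ∧ (i.2 : ℝ) + 2 * (a : ℝ) < τ₂
    · have hc' : ((((Function.update ω.1 i a, ω.2) : Om V).1 i : Lab) : ℝ) < 1 / 2 ∧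
          τ₁ ≤ ringT ((Function.update ω.1 i a, ω.2) : Om V) i.1 i.2 ∧
          ringT ((Function.update ω.1 i a, ω.2) : Om V) i.1 i.2 < τ₂ := by
        rw [hlab, hT]; exact hc
      have h0 : L G θ θ' κ κ' W W' X τ₁ τ₂ i (Function.update ω.1 i a, ω.2) =
          X i.1 (ringT ((Function.update ω.1 i a, ω.2) : Om V) i.1 i.2)
            (st G θ θ' κ κ' W W' (Function.update ω.1 i a, ω.2)
              (ringT ((Function.update ω.1 i a, ω.2) : Om V) i.1 i.2)) := if_pos hc'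
      rw [h0, hT, st_update_er (G := G) (θ := θ) (θ' := θ') (κ := κ) (κ' := κ') (W := W) (W' := W') ω
        (a := a) (τ := (i.2 : ℝ) + 2 * (a : ℝ)) (fun h => lt_irrefl _ h.2)]
      simp only [hY, if_pos hc]
    · have hc' : ¬ (((((Function.update ω.1 i a, ω.2) : Om V).1 i : Lab) : ℝ) < 1 / 2 ∧
          τ₁ ≤ ringT ((Function.update ω.1 i a, ω.2) : Om V) i.1 i.2 ∧
          ringT ((Function.update ω.1 i a, ω.2) : Om V) i.1 i.2 < τ₂) := by
        rw [hlab, hT]; exact hc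
      have h0 : L G θ θ' κ κ' W W' X τ₁ τ₂ i (Function.update ω.1 i a, ω.2) = 0 := if_neg hc'
      rw [h0]
      simp only [hY, if_neg hc]
  simp_rw [e]
  have hmQ := measurable_Qer (G := G) (θ := θ) (θ' := θ') (W := W) (W' := W') hX hκ hκ' i
  have hcoe : Measurable fun p : Om V × Lab => ((p.2 : Lab) : ℝ) := measurable_subtype_coe.comp measurable_snd
  have hT : Measurable fun p : Om V × Lab => (i.2 : ℝ) + 2 * ((p.2 : Lab) : ℝ) :=
    measurable_const.add (measurable_const.mul hcoe)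
  have hmY : Measurable (Function.uncurry Y) := by
    refine Measurable.ite ?_ ?_ measurable_const
    · exact (measurableSet_lt hcoe measurable_const).inter
        ((measurableSet_le measurable_const hT).inter (measurableSet_lt hT measurable_const))
    · have h2 : Measurable fun p : Om V × Lab => ((i.2 : ℝ) + 2 * ((p.2 : Lab) : ℝ), p.1) :=
        hT.prodMk measurable_fst
      have h3 := hmQ.comp h2
      exact h3
  have hbY : ∀ p, |Function.uncurry Y p| ≤ CX := by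
    rintro ⟨ω, a⟩
    simp only [Function.uncurry, hY]
    split_ifs
    · rw [abs_of_nonneg (hCX _ _ _).1]; exact (hCX _ _ _).2
    · simpa using hC0
  rw [integral_integral_swap (f := Y) (integrable_bdd hmY hbY)]
  refine integral_congr_ae (Eventually.of_forall fun a => ?_)
  by_cases hc : (a : ℝ) < 1 / 2 ∧ τ₁ ≤ (i.2 : ℝ) + 2 * (a : ℝ) ∧ (i.2 : ℝ) + 2 * (a : ℝ) < τ₂
  · simp only [hY, if_pos hc]
    rfl
  · simp only [hY, if_neg hc, integral_zero]

theorem abs_EX_le {X : V → ℝ → (V → ℝ) × (V → ℝ) → ℝ} {CX : ℝ} (hCX : ∀ z τ s, 0 ≤ X z τ s ∧ X z τ s ≤ CX)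
    (z : V) (τ : ℝ) : |EX X G θ θ' κ κ' W W' z τ| ≤ CX :=
  abs_integral_le_bdd fun ω => by rw [abs_of_nonneg (hCX _ _ _).1]; exact (hCX _ _ _).2

theorem abs_HH_le {X : V → ℝ → (V → ℝ) × (V → ℝ) → ℝ} {CX : ℝ} (hCX : ∀ z τ s, 0 ≤ X z τ s ∧ X z τ s ≤ CX)
    (i : V × ℕ) (τ : ℝ) : |HH X G θ θ' κ κ' W W' i τ| ≤ CX :=
  abs_integral_le_bdd fun ω => by rw [abs_of_nonneg (hCX _ _ _).1]; exact (hCX _ _ _).2

theorem EX_nonneg {X : V → ℝ → (V → ℝ) × (V → ℝ) → ℝ} {CX : ℝ} (hCX : ∀ z τ s, 0 ≤ X z τ s ∧ X z τ s ≤ CX)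
    (z : V) (τ : ℝ) : 0 ≤ EX X G θ θ' κ κ' W W' z τ :=
  integral_nonneg fun ω => (hCX _ _ _).1

/-- The estimate for one ring. -/
theorem ring_term_le {F : (V → ℝ) × (V → ℝ) → ℝ} (hF : Measurable F) {CF : ℝ} (hCF : ∀ s, |F s| ≤ CF)
    {X : V → ℝ → (V → ℝ) × (V → ℝ) → ℝ}
    (hX : ∀ z, Measurable fun p : ℝ × (V → ℝ) × (V → ℝ) => X z p.1 p.2) {CX : ℝ}
    (hCX : ∀ z τ s, 0 ≤ X z τ s ∧ X z τ s ≤ CX) (hκ : Measurable κ) (hκ' : Measurable κ') {τ₁ τ₂ : ℝ}
    {i : V × ℕ} (hi : i.1 ∈ W ∪ W')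
    (hstep : ∀ z ∈ W ∪ W', ∀ τ ∈ Icc τ₁ τ₂, ∀ s : (V → ℝ) × (V → ℝ),
      (∫ u : Lab, F (stepW G θ (κ τ) W z (u : ℝ) s.1, stepW G θ' (κ' τ) W' z (u : ℝ) s.2)) - F s ≤ X z τ s) :
    ∫ ω, J G θ θ' κ κ' W W' F τ₁ τ₂ i ω ∂(PP V) ≤
      ∫ y in (i.2 : ℝ)..(i.2 + 1), (Ico τ₁ τ₂).indicator (EX X G θ θ' κ κ' W W' i.1) y := by
  classical
  refine (integral_J_le_L hF hCF hX hCX hκ hκ' hi hstep).trans ?_
  rw [integral_L_eq hX hCX hκ hκ' τ₁ τ₂ i, ← integral_Lab_change]
  have hC0 : 0 ≤ CX := (hCX i.1 0 (0, 0)).1.trans (hCX i.1 0 (0, 0)).2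
  have hcoe : Measurable fun a : Lab => (a : ℝ) := measurable_subtype_coe
  have hT : Measurable fun a : Lab => (i.2 : ℝ) + 2 * (a : ℝ) := measurable_const.add (measurable_const.mul hcoe)
  have hmHH := measurable_HH (G := G) (θ := θ) (θ' := θ') (W := W) (W' := W') hX hκ hκ' i
  have hmEX := measurable_EX (G := G) (θ := θ) (θ' := θ') (W := W) (W' := W') hX hκ hκ' i.1
  refine integral_mono (integrable_bdd (C := CX) ?_ fun a => ?_) (integrable_bdd (C := 2 * CX) ?_ fun a => ?_)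
    fun a => ?_
  · refine Measurable.ite ?_ (hmHH.comp hT) measurable_const
    exact (measurableSet_lt hcoe measurable_const).inter
      ((measurableSet_le measurable_const hT).inter (measurableSet_lt hT measurable_const))
  · split_ifs
    · exact abs_HH_le hCX _ _
    · simpa using hC0
  · refine Measurable.ite (measurableSet_lt hcoe measurable_const) ?_ measurable_const
    exact measurable_const.mul ((hmEX.indicator measurableSet_Ico).comp hT)
  · split_ifs
    · rw [abs_mul, abs_of_pos (by norm_num : (0 : ℝ) < 2)]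
      refine mul_le_mul_of_nonneg_left ?_ (by norm_num)
      by_cases h : ((i.2 : ℝ) + 2 * (a : ℝ)) ∈ Ico τ₁ τ₂
      · rw [Set.indicator_of_mem h]; exact abs_EX_le hCX _ _
      · rw [Set.indicator_of_notMem h, abs_zero]; exact hC0
    · simpa using (by positivity : 0 ≤ 2 * CX)
  · by_cases hc : (a : ℝ) < 1 / 2 ∧ τ₁ ≤ (i.2 : ℝ) + 2 * (a : ℝ) ∧ (i.2 : ℝ) + 2 * (a : ℝ) < τ₂
    · rw [if_pos hc, if_pos hc.1, Set.indicator_of_mem (show ((i.2 : ℝ) + 2 * (a : ℝ)) ∈ Ico τ₁ τ₂ from hc.2)]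
      exact HH_le hX hCX hκ hκ' i _
    · rw [if_neg hc]
      split_ifs with ha
      · have h : ((i.2 : ℝ) + 2 * (a : ℝ)) ∉ Ico τ₁ τ₂ := fun h => hc ⟨ha, h⟩
        rw [Set.indicator_of_notMem h, mul_zero]
      · exact le_rfl

end OneRing

end RingInc

open RingInc in
/-- The increment inequality for two systems driven by the same labels.  `hstep` is the one-ring
inequality, at all states.  Rings of vertices outside `W ∪ W'` do nothing.  Hole factor: the state
seen by a ring of `z` in round `n` at time `τ` is the state at `τ` with `(z,n)` erased; since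
`z` has no ring in round `n` with probability `1/2`, for `X ≥ 0` its mean is at most `2 E X(state τ)`, and
the density of ring times on `[n,n+1)` is `1/2`. -/
theorem ring_increment_le {θ θ' : ℝ} {κ κ' : ℝ → ℝ} (hθ0 : 0 ≤ θ) (hθ1 : θ < 1) (hθ0' : 0 ≤ θ') (hθ1' : θ' < 1)
    (hκ : IsStrength κ) (hκ' : IsStrength κ') {W W' : Finset V}
    (F : (V → ℝ) × (V → ℝ) → ℝ) (hF : Measurable F) (hFb : ∃ C, ∀ s, |F s| ≤ C)
    (X : V → ℝ → (V → ℝ) × (V → ℝ) → ℝ)
    (hX : ∀ z, Measurable fun p : ℝ × (V → ℝ) × (V → ℝ) => X z p.1 p.2)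
    (hXb : ∃ C, ∀ z τ s, 0 ≤ X z τ s ∧ X z τ s ≤ C)
    {τ₁ τ₂ : ℝ} (h01 : 0 ≤ τ₁) (h12 : τ₁ ≤ τ₂)
    (hstep : ∀ z ∈ W ∪ W', ∀ τ ∈ Icc τ₁ τ₂, ∀ s : (V → ℝ) × (V → ℝ),
      (∫ u : Lab, F (stepW G θ (κ τ) W z (u : ℝ) s.1, stepW G θ' (κ' τ) W' z (u : ℝ) s.2)) - F s
        ≤ X z τ s) :
    (∫ ω, F (field G θ κ W ω τ₂, field G θ' κ' W' ω τ₂) ∂(PP V)) -
        ∫ ω, F (field G θ κ W ω τ₁, field G θ' κ' W' ω τ₁) ∂(PP V) ≤
      ∑ z ∈ W ∪ W', ∫ τ in τ₁..τ₂, ∫ ω, X z τ (field G θ κ W ω τ, field G θ' κ' W' ω τ) ∂(PP V) := by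
  classical
  obtain ⟨CF, hCF⟩ := hFb
  obtain ⟨CX, hCX⟩ := hXb
  have hCX0 : ∀ z τ s, |X z τ s| ≤ CX := fun z τ s => by
    rw [abs_of_nonneg (hCX z τ s).1]; exact (hCX z τ s).2
  have hmS := measurable_st (G := G) (θ := θ) (θ' := θ') (W := W) (W' := W') hκ.meas hκ'.meas
  have hmS' : ∀ τ : ℝ, Measurable fun ω : Om V => st G θ θ' κ κ' W W' ω τ := fun τ => by
    have h2 : Measurable fun ω : Om V => (τ, ω) := measurable_const.prodMk measurable_id
    have h3 := hmS.comp h2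
    exact h3
  have hFi : ∀ τ : ℝ, Integrable (fun ω : Om V => F (st G θ θ' κ κ' W W' ω τ)) (PP V) := fun τ =>
    integrable_bdd (hF.comp (hmS' τ)) fun ω => hCF _
  set M := ⌈τ₂⌉₊ with hM
  have hJm := fun i => measurable_J (G := G) (θ := θ) (θ' := θ') (κ := κ) (κ' := κ') (W := W) (W' := W')
    hF hκ.meas hκ'.meas τ₁ τ₂ i
  have hJb := fun i => abs_J_le (G := G) (θ := θ) (θ' := θ') (κ := κ) (κ' := κ') (W := W) (W' := W') hCF τ₁ τ₂ i
  have h1 : (∫ ω, F (field G θ κ W ω τ₂, field G θ' κ' W' ω τ₂) ∂(PP V)) -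
        ∫ ω, F (field G θ κ W ω τ₁, field G θ' κ' W' ω τ₁) ∂(PP V) =
      ∑ i ∈ (W ∪ W') ×ˢ Finset.range M, ∫ ω, J G θ θ' κ κ' W W' F τ₁ τ₂ i ω ∂(PP V) := by
    rw [← integral_finsetSum _ fun i _ => integrable_bdd (hJm i) (hJb i)]
    have : (∫ ω, F (field G θ κ W ω τ₂, field G θ' κ' W' ω τ₂) ∂(PP V)) -
        ∫ ω, F (field G θ κ W ω τ₁, field G θ' κ' W' ω τ₁) ∂(PP V) =
        ∫ ω, (F (st G θ θ' κ κ' W W' ω τ₂) - F (st G θ θ' κ κ' W W' ω τ₁)) ∂(PP V) :=
      (integral_sub (hFi τ₂) (hFi τ₁)).symm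
    rw [this]
    refine integral_congr_ae ?_
    filter_upwards [ae_noTies (W ∪ W') M] with ω hω
    exact path_telescope F ω h12 hω
  rw [h1, Finset.sum_product]
  refine Finset.sum_le_sum fun z hz => ?_
  set g := (Ico τ₁ τ₂).indicator (EX X G θ θ' κ κ' W W' z) with hg
  have hmg : Measurable g := (measurable_EX hX hκ.meas hκ'.meas z).indicator measurableSet_Ico
  have hbg : ∀ τ, |g τ| ≤ CX := fun τ => by
    have hC0 : 0 ≤ CX := (hCX z 0 (0, 0)).1.trans (hCX z 0 (0, 0)).2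
    by_cases h : τ ∈ Ico τ₁ τ₂
    · rw [hg, Set.indicator_of_mem h]; exact abs_EX_le hCX _ _
    · rw [hg, Set.indicator_of_notMem h, abs_zero]; exact hC0
  have hgi : ∀ a b : ℝ, IntervalIntegrable g volume a b := fun a b => by
    rw [intervalIntegrable_iff]
    exact Measure.integrableOn_of_bounded (M := CX) (by simp) hmg.aestronglyMeasurable
      (Eventually.of_forall fun τ => by rw [Real.norm_eq_abs]; exact hbg τ)
  have h2 : ∑ n ∈ Finset.range M, ∫ y in (n : ℝ)..(n + 1), g y = ∫ y in (0 : ℝ)..M, g y := by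
    have := intervalIntegral.sum_integral_adjacent_intervals (f := g) (μ := volume) (a := fun k : ℕ => (k : ℝ))
      (n := M) fun k _ => hgi _ _
    simpa using this
  have h3 : ∫ y in (0 : ℝ)..M, g y = ∫ τ in τ₁..τ₂, EX X G θ θ' κ κ' W W' z τ := by
    have hτM : τ₂ ≤ (M : ℝ) := Nat.le_ceil τ₂
    have h02 : (0 : ℝ) ≤ τ₂ := h01.trans h12
    rw [intervalIntegral.integral_of_le (h02.trans hτM), intervalIntegral.integral_of_le h12,
      ← integral_Ico_eq_integral_Ioc, ← integral_Ico_eq_integral_Ioc, hg, setIntegral_indicator measurableSet_Ico]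
    congr 2
    ext τ
    simp only [mem_inter_iff, mem_Ico]
    constructor
    · rintro ⟨_, h⟩
      exact h
    · rintro ⟨h, h'⟩
      exact ⟨⟨h01.trans h, h'.trans_le hτM⟩, h, h'⟩
  have h4 : ∀ n ∈ Finset.range M, ∫ ω, J G θ θ' κ κ' W W' F τ₁ τ₂ (z, n) ω ∂(PP V) ≤ ∫ y in (n : ℝ)..(n + 1), g y :=
    fun n _ => ring_term_le (i := (z, n)) hF hCF hX hCX hκ.meas hκ'.meas hz hstep
  refine (Finset.sum_le_sum h4).trans ?_
  rw [h2, h3]
  rfl



end Crest.Agent.Lib.IsingFIID
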